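import Mathlib

/-!
# Row 62: the algorithm on lists of rationals

Half-edges are `0, …, m-1` (`m = n k`), the vertex of `c` is `c / k`.  Matrices are lists of rows.
-/

set_option autoImplicit false

open Finset

namespace Crest.Agent.R62

/-- rational matrices -/
abbrev QM : Type := List (List ℚ)
/-- free half-edges, adjacency table, the two matrices -/
abbrev QS : Type := List Bool × List (List Bool) × QM × QM

/-- entry -/
def ent (M : QM) (i j : ℕ) : ℚ := (M.getD i []).getD j 0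
/-- table -/
def tab {α : Type} (m : ℕ) (f : ℕ → ℕ → α) : List (List α) :=
  (List.range m).map fun i => (List.range m).map fun j => f i j
/-- membership in the mask -/
def mem (S : List Bool) (c : ℕ) : Bool := S.getD c false
/-- raw adjacency bit -/
def adjL (E : List (List Bool)) (u v : ℕ) : Bool := (E.getD u []).getD v false
/-- adjacency -/
def adjB (E : List (List Bool)) (u v : ℕ) : Bool := decide (u ≠ v) && adjL E u v && adjL E v u
/-- product -/
def mulL (m : ℕ) (A B : QM) : QM := tab m fun i j => ∑ c ∈ range m, ent A i c * ent B c j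
/-- trace -/
def trL (m : ℕ) (A : QM) : ℚ := ∑ c ∈ range m, ent A c c
/-- square -/
def sqL (m : ℕ) (A : QM) : QM := mulL m A A
/-- cube -/
def cuL (m : ℕ) (A : QM) : QM := mulL m (sqL m A) A
/-- number of free half-edges -/
def cardL (m : ℕ) (S : List Bool) : ℚ := ∑ c ∈ range m, if mem S c = true then 1 else 0

/-- `h0` -/
def h0L (K : QM) (s : ℚ) (a b : ℕ) : ℚ := (1 - s * ent K a b) ^ 2 - ent K a a * ent K b b
/-- `l1` -/
def l1L (K : QM) (s : ℚ) (a b c : ℕ) : ℚ :=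
  (h0L K s a b)⁻¹ * ent K b b * ent K c a + (s - ent K a b) * (h0L K s a b)⁻¹ * ent K c b
/-- `l2` -/
def l2L (K : QM) (s : ℚ) (a b c : ℕ) : ℚ :=
  (s - ent K a b) * (h0L K s a b)⁻¹ * ent K c a + (h0L K s a b)⁻¹ * ent K a a * ent K c b
/-- `step` -/
def stepL (m : ℕ) (K : QM) (s : ℚ) (a b : ℕ) : QM := tab m fun c d =>
  if c = a ∨ c = b ∨ d = a ∨ d = b then 0
  else ent K c d + (ent K c a * l1L K s a b d + ent K c b * l2L K s a b d)
/-- `fl` -/
def flL (g x : ℚ) : ℚ := max (-g) (min g ((⌊x * g⌋ : ℚ) / g))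
/-- `rnd` -/
def rndL (m : ℕ) (g : ℚ) (S : List Bool) (K : QM) (s : ℚ) : QM := tab m fun c d =>
  if c = d then (if mem S c = true then
      s - ∑ e ∈ range m, if mem S e = true ∧ e ≠ c then flL g (ent K c e) else 0 else 0)
  else if mem S c = true ∧ mem S d = true then flL g (ent K c d) else 0
/-- `mobτ` -/
def mobτL (m : ℕ) (K : QM) (M : ℚ) : ℚ := M / (2 * trL m (cuL m K))
/-- `mobl` -/
def moblL (m : ℕ) (S : List Bool) (K : QM) (s M : ℚ) : ℚ :=
  -(mobτL m K M * cardL m S + (1 - mobτL m K M ^ 2) *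
      (trL m K - mobτL m K M * trL m (sqL m K) + mobτL m K M ^ 2 * trL m (cuL m K)) -
    (mobτL m K M ^ 3 - s * mobτL m K M ^ 4)) / (cardL m S - 1)
/-- `mob` -/
def mobL (m : ℕ) (S : List Bool) (K : QM) (s M : ℚ) : QM := tab m fun c d =>
  if mem S c = true ∧ mem S d = true then (if c = d then mobτL m K M + moblL m S K s M else 0) +
    (1 - mobτL m K M ^ 2) * (ent K c d - mobτL m K M * ent (sqL m K) c d +
      mobτL m K M ^ 2 * ent (cuL m K) c d) -
    (moblL m S K s M + mobτL m K M ^ 3 - s * mobτL m K M ^ 4) / cardL m S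
  else 0

/-- the scales, in the order of the fields of `Sc` -/
def sci (sc : List ℚ) (i : ℕ) : ℚ := sc.getD i 0
/-- `phiS` -/
def phiSL (m : ℕ) (sc : List ℚ) (S : List Bool) (K : QM) (Tc : ℚ) : ℚ :=
  sci sc 4 * (trL m K - sci sc 1) ^ 2 +
    sci sc 5 * (trL m (sqL m K) - cardL m S * sci sc 0 - 1) ^ 2 +
    sci sc 6 * (trL m (cuL m K) - Tc) ^ 2 + sci sc 7 * trL m (sqL m (cuL m K)) +
    sci sc 8 * (∑ c ∈ range m, if mem S c = true then (ent (sqL m K) c c - sci sc 0) ^ 2 else 0) +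
    sci sc 9 * ∑ c ∈ range m, ent K c c ^ 2
/-- `WW` -/
def wwL (m : ℕ) (K : QM) : ℚ := ∑ c ∈ range m, ∑ d ∈ range m, ent K c d ^ 4
/-- `CC` -/
def ccL (m k : ℕ) (S : List Bool) (E : List (List Bool)) (cy : ℚ) : ℚ :=
  cy * (∑ c ∈ range m, ∑ d ∈ range m,
      if mem S c = true ∧ mem S d = true ∧ c ≠ d ∧ c / k = d / k then 1 else 0) +
    ∑ c ∈ range m, ∑ d ∈ range m,
      if mem S c = true ∧ mem S d = true ∧ adjB E (c / k) (d / k) = true then 1 else 0
/-- `Phi` -/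
def phiL (m k : ℕ) (sc : List ℚ) (st : QS) : ℚ :=
  phiSL m sc st.1 st.2.2.1 (sci sc 2) + phiSL m sc st.1 st.2.2.2 (sci sc 3) +
    sci sc 10 * (wwL m st.2.2.1 + wwL m st.2.2.2) +
    sci sc 11 * trL m (mulL m (sqL m st.2.2.1) (sqL m st.2.2.2)) +
    sci sc 12 * ccL m k st.1 st.2.1 (sci sc 13)

/-- remove two half-edges -/
def delL (m : ℕ) (S : List Bool) (a b : ℕ) : List Bool :=
  (List.range m).map fun c => mem S c && decide (c ≠ a) && decide (c ≠ b)
/-- add an edge -/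
def addL (n : ℕ) (E : List (List Bool)) (x y : ℕ) : List (List Bool) := tab n fun u v =>
  adjB E u v || decide (u = x ∧ v = y) || decide (u = y ∧ v = x)
/-- `St.step` -/
def stepS (n k : ℕ) (st : QS) (a b : ℕ) : QS :=
  (delL (n * k) st.1 a b, addL n st.2.1 (a / k) (b / k), stepL (n * k) st.2.2.1 1 a b,
    stepL (n * k) st.2.2.2 (-1) a b)
/-- `St.rnd` -/
def rndS (m : ℕ) (g : ℚ) (st : QS) : QS :=
  (st.1, st.2.1, rndL m g st.1 st.2.2.1 1, rndL m g st.1 st.2.2.2 (-1))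
/-- `St.mob` -/
def mobS (m : ℕ) (M : ℚ) (st : QS) : QS :=
  (st.1, st.2.1, mobL m st.1 st.2.2.1 1 M, mobL m st.1 st.2.2.2 (-1) M)
/-- all pairs -/
def pairsL (m : ℕ) : List (ℕ × ℕ) := (List.range m).product (List.range m)
/-- the candidates -/
def candL (m k : ℕ) (st : QS) : List (ℕ × ℕ) := (pairsL m).filter fun ab =>
  decide (mem st.1 ab.1 = true ∧ mem st.1 ab.2 = true ∧ ab.1 / k ≠ ab.2 / k ∧
    adjB st.2.1 (ab.1 / k) (ab.2 / k) = false ∧ 1 / 2 ≤ h0L st.2.2.1 1 ab.1 ab.2 ∧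
    1 / 2 ≤ h0L st.2.2.2 (-1) ab.1 ab.2)
/-- one greedy step -/
def greedyL (n k : ℕ) (g : ℚ) (sc : List ℚ) (st : QS) : QS :=
  (((candL (n * k) k st).argmin fun ab => phiL (n * k) k sc (stepS n k st ab.1 ab.2)).map
    fun ab => rndS (n * k) g (stepS n k st ab.1 ab.2)).getD st
/-- one step of the last phase -/
def anyL (n k : ℕ) (x : List Bool × List (List Bool)) : List Bool × List (List Bool) :=
  (((pairsL (n * k)).find? fun ab =>
      decide (mem x.1 ab.1 = true ∧ mem x.1 ab.2 = true ∧ ab.1 ≠ ab.2)).map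
    fun ab => (delL (n * k) x.1 ab.1 ab.2, addL n x.2 (ab.1 / k) (ab.2 / k))).getD x

/-- `scA` -/
def scAL (y N₀ T N : ℚ) : List ℚ :=
  [1, -(max 0 (2 * y ^ 9780 - N) / (2 * y ^ 5349)), T, T, 1 / y ^ 8680, 1 / y ^ 15840,
    1 / y ^ 23994, N ^ 3 / y ^ 48030, 1 / (y ^ 7560 * ((N₀ + N₀ / 4) / (N + N₀ / 4)) ^ 4000),
    1 / (y ^ 1000 * ((N₀ + N₀ / 4) / (N + N₀ / 4)) ^ 4000), (N + N₀ / 4) / N ^ 2, 1 / y ^ 14214,
    y ^ 11997 / N ^ 2, y ^ 2]
/-- `scB` -/
def scBL (y N : ℚ) : List ℚ :=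
  [N / (N + y ^ 8200), 0, 0, 0, 1 / y ^ 7960, 1 / y ^ 16236, 1 / y ^ 24008, N ^ 3 / y ^ 48042,
    1 / y ^ 8108, 1 / y ^ 1003, (N + y ^ 11996) / N ^ 2, 0, y ^ 11996 / N ^ 2, y ^ 2]
/-- `scC` -/
def scCL (y N : ℚ) : List ℚ :=
  [0, 0, 0, 0, y ^ 8188 / N ^ 2, y ^ 16396 / N ^ 4, 0, 0, y ^ 8210 / N ^ 2, y ^ 7155 / N,
    (N + y ^ 11995) / N ^ 2, 0, y ^ 11995 / N ^ 2, y ^ 2]

/-- the parameter `y` -/
def yN (n : ℕ) : ℕ := 2 ^ (Nat.log 2 n / 12000)
/-- the grid -/
def gN (n k : ℕ) : ℕ := (n * k) ^ 42 + 1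
/-- partner in the initial matching -/
def ptN (v : ℕ) : ℕ := if v % 2 = 0 then v + 1 else v - 1
/-- lower approximation of `1/√k` -/
def mQ (n k : ℕ) : ℚ := (Nat.sqrt (gN n k ^ 2 / k) : ℚ) / gN n k
/-- centre of `tr K³` -/
def tQ (n k : ℕ) : ℚ := (n * k : ℕ) * (((k : ℚ) ^ 2 - 1) / k * mQ n k)
/-- lower approximation of `K0` -/
def initL (n k : ℕ) (s : ℚ) : QM := tab (n * k) fun c d =>
  (if c / k = d / k ∧ c ≠ d then mQ n k else 0) + (if d / k = ptN (c / k) then s / k else 0) -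
    ((k : ℚ) - 1) * (mQ n k + 1 / gN n k) / (n * k : ℕ)
/-- the initial state before rounding -/
def initS (n k : ℕ) : QS :=
  (List.replicate (n * k) true, tab n fun u v => decide (ptN u = v), initL n k 1, initL n k (-1))

/-- step of phase A -/
def fA (n k : ℕ) (st : QS) : QS :=
  greedyL n k (gN n k) (scAL (yN n) (n * k : ℕ) (tQ n k) (cardL (n * k) st.1 - 2)) st
/-- step of phase B -/
def fB (n k : ℕ) (st : QS) : QS := greedyL n k (gN n k) (scBL (yN n) (cardL (n * k) st.1 - 2)) st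
/-- step of phase C -/
def fC (n k : ℕ) (st : QS) : QS := greedyL n k (gN n k) (scCL (yN n) (cardL (n * k) st.1 - 2)) st
/-- start of phase A -/
def sA (n k : ℕ) : QS := rndS (n * k) (gN n k) (initS n k)
/-- length of phase A -/
def jA (n k : ℕ) : ℕ := (n * k - yN n ^ 9780) / 2
/-- start of phase B -/
def sB (n k : ℕ) : QS :=
  rndS (n * k) (gN n k) (mobS (n * k) ((yN n : ℚ) ^ 8200) ((fA n k)^[jA n k] (sA n k)))
/-- length of phase B -/
def jB (n : ℕ) : ℕ := min n ((yN n ^ 9780 - yN n ^ 8160) / 2)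
/-- start of phase C -/
def sC (n k : ℕ) : QS := (fB n k)^[jB n] (sB n k)
/-- length of phase C -/
def jC (n : ℕ) : ℕ := min n ((yN n ^ 8160 - yN n ^ 4098) / 2)
/-- start of phase D -/
def sD (n k : ℕ) : QS := (fC n k)^[jC n] (sC n k)
/-- length of phase D -/
def jD (n : ℕ) : ℕ := min n (yN n ^ 4098 / 2)
/-- the final adjacency table -/
def finE (n k : ℕ) : List (List Bool) := ((anyL n k)^[jD n] ((sD n k).1, (sD n k).2.1)).2
/-- the output -/
def outL (k : ℕ) (w : List Bool) : List Bool :=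
  (List.range (w.length * w.length)).map fun i =>
    adjL (finE w.length k) (i / w.length) (i % w.length)

end Crest.Agent.R62
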