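import Crest.Agent.R62.Alg
import Crest.Agent.Lib.PolyTime.More

/-!
# Row 62: the loop-free parts of the algorithm run in polynomial time

Each proof should be `unfold …; pt` (or `fun_prop`) with the previous lemmas; see
`Crest/Agent/Lib/PolyTime/*.lean`.  Do not let `simp`/`norm_num` evaluate large powers.
-/

set_option autoImplicit false

open Finset

namespace Crest.Agent.R62

open Crest.Agent.Lib.PolyTime

variable {α : Type} [Enc α]

@[fun_prop] theorem pt_tab {β : Type} [Enc β] {m : α → ℕ} {f : α → ℕ → ℕ → β} (hm : PT m) (hm' : PB m)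
    (hf : PT fun p : α × ℕ × ℕ => f p.1 p.2.1 p.2.2) : PT fun a => tab (m a) (f a) := by
  unfold tab; pt

@[fun_prop] theorem pt_ent {M : α → QM} {i : α → ℕ} {j : α → ℕ}
    (hM : PT M) (hi : PT i) (hj : PT j) :
    PT fun a => ent (M a) (i a) (j a) := by
  unfold ent; pt

@[fun_prop] theorem pt_mem {S : α → List Bool} {c : α → ℕ}
    (hS : PT S) (hc : PT c) :
    PT fun a => mem (S a) (c a) := by
  unfold mem; pt

@[fun_prop] theorem pt_adjL {E : α → List (List Bool)} {u : α → ℕ} {v : α → ℕ}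
    (hE : PT E) (hu : PT u) (hv : PT v) :
    PT fun a => adjL (E a) (u a) (v a) := by
  unfold adjL; pt

@[fun_prop] theorem pt_adjB {E : α → List (List Bool)} {u : α → ℕ} {v : α → ℕ}
    (hE : PT E) (hu : PT u) (hv : PT v) :
    PT fun a => adjB (E a) (u a) (v a) := by
  unfold adjB; pt

@[fun_prop] theorem pt_mulL {m : α → ℕ} {A : α → QM} {B : α → QM}
    (hm : PT m) (hA : PT A) (hB : PT B) (hm' : PB m) :
    PT fun a => mulL (m a) (A a) (B a) := by
  unfold mulL; pt

@[fun_prop] theorem pt_trL {m : α → ℕ} {A : α → QM}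
    (hm : PT m) (hA : PT A) (hm' : PB m) :
    PT fun a => trL (m a) (A a) := by
  unfold trL; pt

@[fun_prop] theorem pt_sqL {m : α → ℕ} {A : α → QM}
    (hm : PT m) (hA : PT A) (hm' : PB m) :
    PT fun a => sqL (m a) (A a) := by
  unfold sqL; pt

@[fun_prop] theorem pt_cuL {m : α → ℕ} {A : α → QM}
    (hm : PT m) (hA : PT A) (hm' : PB m) :
    PT fun a => cuL (m a) (A a) := by
  unfold cuL; pt

@[fun_prop] theorem pt_cardL {m : α → ℕ} {S : α → List Bool}
    (hm : PT m) (hS : PT S) (hm' : PB m) :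
    PT fun a => cardL (m a) (S a) := by
  unfold cardL; pt

@[fun_prop] theorem pt_h0L {K : α → QM} {s : α → ℚ} {x : α → ℕ} {y : α → ℕ}
    (hK : PT K) (hs : PT s) (hx : PT x) (hy : PT y) :
    PT fun a => h0L (K a) (s a) (x a) (y a) := by
  unfold h0L; pt

@[fun_prop] theorem pt_l1L {K : α → QM} {s : α → ℚ} {x : α → ℕ} {y : α → ℕ} {c : α → ℕ}
    (hK : PT K) (hs : PT s) (hx : PT x) (hy : PT y) (hc : PT c) :
    PT fun a => l1L (K a) (s a) (x a) (y a) (c a) := by
  unfold l1L; pt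

@[fun_prop] theorem pt_l2L {K : α → QM} {s : α → ℚ} {x : α → ℕ} {y : α → ℕ} {c : α → ℕ}
    (hK : PT K) (hs : PT s) (hx : PT x) (hy : PT y) (hc : PT c) :
    PT fun a => l2L (K a) (s a) (x a) (y a) (c a) := by
  unfold l2L; pt

@[fun_prop] theorem pt_stepL {m : α → ℕ} {K : α → QM} {s : α → ℚ} {x : α → ℕ} {y : α → ℕ}
    (hm : PT m) (hK : PT K) (hs : PT s) (hx : PT x) (hy : PT y) (hm' : PB m) :
    PT fun a => stepL (m a) (K a) (s a) (x a) (y a) := by
  unfold stepL; pt

@[fun_prop] theorem pt_flL {g : α → ℚ} {x : α → ℚ}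
    (hg : PT g) (hx : PT x) :
    PT fun a => flL (g a) (x a) := by
  unfold flL; pt

@[fun_prop] theorem pt_rndL {m : α → ℕ} {g : α → ℚ} {S : α → List Bool} {K : α → QM} {s : α → ℚ}
    (hm : PT m) (hg : PT g) (hS : PT S) (hK : PT K) (hs : PT s) (hm' : PB m) :
    PT fun a => rndL (m a) (g a) (S a) (K a) (s a) := by
  unfold rndL; pt

@[fun_prop] theorem pt_mobτL {m : α → ℕ} {K : α → QM} {M : α → ℚ}
    (hm : PT m) (hK : PT K) (hM : PT M) (hm' : PB m) :
    PT fun a => mobτL (m a) (K a) (M a) := by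
  unfold mobτL; pt

@[fun_prop] theorem pt_moblL {m : α → ℕ} {S : α → List Bool} {K : α → QM} {s : α → ℚ} {M : α → ℚ}
    (hm : PT m) (hS : PT S) (hK : PT K) (hs : PT s) (hM : PT M) (hm' : PB m) :
    PT fun a => moblL (m a) (S a) (K a) (s a) (M a) := by
  unfold moblL; pt

@[fun_prop] theorem pt_mobL {m : α → ℕ} {S : α → List Bool} {K : α → QM} {s : α → ℚ} {M : α → ℚ}
    (hm : PT m) (hS : PT S) (hK : PT K) (hs : PT s) (hM : PT M) (hm' : PB m) :
    PT fun a => mobL (m a) (S a) (K a) (s a) (M a) := by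
  unfold mobL; pt

@[fun_prop] theorem pt_sci {sc : α → List ℚ} {i : α → ℕ}
    (hsc : PT sc) (hi : PT i) :
    PT fun a => sci (sc a) (i a) := by
  unfold sci; pt

@[fun_prop] theorem pt_phiSL {m : α → ℕ} {sc : α → List ℚ} {S : α → List Bool} {K : α → QM} {T : α → ℚ}
    (hm : PT m) (hsc : PT sc) (hS : PT S) (hK : PT K) (hT : PT T) (hm' : PB m) :
    PT fun a => phiSL (m a) (sc a) (S a) (K a) (T a) := by
  unfold phiSL; pt

@[fun_prop] theorem pt_wwL {m : α → ℕ} {K : α → QM}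
    (hm : PT m) (hK : PT K) (hm' : PB m) :
    PT fun a => wwL (m a) (K a) := by
  unfold wwL; pt

@[fun_prop] theorem pt_ccL {m : α → ℕ} {k : α → ℕ} {S : α → List Bool} {E : α → List (List Bool)} {cy : α → ℚ}
    (hm : PT m) (hk : PT k) (hS : PT S) (hE : PT E) (hcy : PT cy) (hm' : PB m) :
    PT fun a => ccL (m a) (k a) (S a) (E a) (cy a) := by
  unfold ccL; pt

@[fun_prop] theorem pt_phiL {m : α → ℕ} {k : α → ℕ} {sc : α → List ℚ} {st : α → QS}
    (hm : PT m) (hk : PT k) (hsc : PT sc) (hst : PT st) (hm' : PB m) :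
    PT fun a => phiL (m a) (k a) (sc a) (st a) := by
  unfold phiL; pt

@[fun_prop] theorem pt_delL {m : α → ℕ} {S : α → List Bool} {x : α → ℕ} {y : α → ℕ}
    (hm : PT m) (hS : PT S) (hx : PT x) (hy : PT y) (hm' : PB m) :
    PT fun a => delL (m a) (S a) (x a) (y a) := by
  unfold delL; pt

@[fun_prop] theorem pt_addL {n : α → ℕ} {E : α → List (List Bool)} {x : α → ℕ} {y : α → ℕ}
    (hn : PT n) (hE : PT E) (hx : PT x) (hy : PT y) (hn' : PB n) :
    PT fun a => addL (n a) (E a) (x a) (y a) := by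
  unfold addL; pt

@[fun_prop] theorem pt_stepS {n : α → ℕ} {k : α → ℕ} {st : α → QS} {x : α → ℕ} {y : α → ℕ}
    (hn : PT n) (hk : PT k) (hst : PT st) (hx : PT x) (hy : PT y) (hn' : PB n) (hk' : PB k) :
    PT fun a => stepS (n a) (k a) (st a) (x a) (y a) := by
  unfold stepS; pt

@[fun_prop] theorem pt_rndS {m : α → ℕ} {g : α → ℚ} {st : α → QS}
    (hm : PT m) (hg : PT g) (hst : PT st) (hm' : PB m) :
    PT fun a => rndS (m a) (g a) (st a) := by
  unfold rndS; pt

@[fun_prop] theorem pt_mobS {m : α → ℕ} {M : α → ℚ} {st : α → QS}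
    (hm : PT m) (hM : PT M) (hst : PT st) (hm' : PB m) :
    PT fun a => mobS (m a) (M a) (st a) := by
  unfold mobS; pt

@[fun_prop] theorem pt_pairsL {m : α → ℕ}
    (hm : PT m) (hm' : PB m) :
    PT fun a => pairsL (m a) := by
  unfold pairsL; pt

@[fun_prop] theorem pt_candL {m : α → ℕ} {k : α → ℕ} {st : α → QS}
    (hm : PT m) (hk : PT k) (hst : PT st) (hm' : PB m) :
    PT fun a => candL (m a) (k a) (st a) := by
  unfold candL; pt

@[fun_prop] theorem pt_greedyL {n : α → ℕ} {k : α → ℕ} {g : α → ℚ} {sc : α → List ℚ} {st : α → QS}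
    (hn : PT n) (hk : PT k) (hg : PT g) (hsc : PT sc) (hst : PT st) (hn' : PB n) (hk' : PB k) :
    PT fun a => greedyL (n a) (k a) (g a) (sc a) (st a) := by
  unfold greedyL; pt

@[fun_prop] theorem pt_anyL {n : α → ℕ} {k : α → ℕ} {x : α → List Bool × List (List Bool)}
    (hn : PT n) (hk : PT k) (hx : PT x) (hn' : PB n) (hk' : PB k) :
    PT fun a => anyL (n a) (k a) (x a) := by
  unfold anyL; pt

@[fun_prop] theorem pt_scAL {y : α → ℚ} {N₀ : α → ℚ} {T : α → ℚ} {N : α → ℚ}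
    (hy : PT y) (hN₀ : PT N₀) (hT : PT T) (hN : PT N) :
    PT fun a => scAL (y a) (N₀ a) (T a) (N a) := by
  unfold scAL; pt

@[fun_prop] theorem pt_scBL {y : α → ℚ} {N : α → ℚ}
    (hy : PT y) (hN : PT N) :
    PT fun a => scBL (y a) (N a) := by
  unfold scBL; pt

@[fun_prop] theorem pt_scCL {y : α → ℚ} {N : α → ℚ}
    (hy : PT y) (hN : PT N) :
    PT fun a => scCL (y a) (N a) := by
  unfold scCL; pt

@[fun_prop] theorem pt_yN {n : α → ℕ}
    (hn : PT n) :
    PT fun a => yN (n a) := by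
  unfold yN; pt

@[fun_prop] theorem pt_gN {n : α → ℕ} {k : α → ℕ}
    (hn : PT n) (hk : PT k) :
    PT fun a => gN (n a) (k a) := by
  unfold gN; pt

@[fun_prop] theorem pt_ptN {v : α → ℕ}
    (hv : PT v) :
    PT fun a => ptN (v a) := by
  unfold ptN; pt

@[fun_prop] theorem pt_mQ {n : α → ℕ} {k : α → ℕ}
    (hn : PT n) (hk : PT k) :
    PT fun a => mQ (n a) (k a) := by
  unfold mQ; pt

@[fun_prop] theorem pt_tQ {n : α → ℕ} {k : α → ℕ}
    (hn : PT n) (hk : PT k) :
    PT fun a => tQ (n a) (k a) := by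
  unfold tQ; pt

@[fun_prop] theorem pt_initL {n : α → ℕ} {k : α → ℕ} {s : α → ℚ}
    (hn : PT n) (hk : PT k) (hs : PT s) (hn' : PB n) (hk' : PB k) :
    PT fun a => initL (n a) (k a) (s a) := by
  unfold initL; pt

@[fun_prop] theorem pt_initS {n : α → ℕ} {k : α → ℕ}
    (hn : PT n) (hk : PT k) (hn' : PB n) (hk' : PB k) :
    PT fun a => initS (n a) (k a) := by
  unfold initS; pt

@[fun_prop] theorem pt_fA {n : α → ℕ} {k : α → ℕ} {st : α → QS}
    (hn : PT n) (hk : PT k) (hst : PT st) (hn' : PB n) (hk' : PB k) :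
    PT fun a => fA (n a) (k a) (st a) := by
  unfold fA; pt

@[fun_prop] theorem pt_fB {n : α → ℕ} {k : α → ℕ} {st : α → QS}
    (hn : PT n) (hk : PT k) (hst : PT st) (hn' : PB n) (hk' : PB k) :
    PT fun a => fB (n a) (k a) (st a) := by
  unfold fB; pt

@[fun_prop] theorem pt_fC {n : α → ℕ} {k : α → ℕ} {st : α → QS}
    (hn : PT n) (hk : PT k) (hst : PT st) (hn' : PB n) (hk' : PB k) :
    PT fun a => fC (n a) (k a) (st a) := by
  unfold fC; pt

end Crest.Agent.R62
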