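import Crest.Agent.R62.AlgPT1

/-!
# Row 62: the algorithm runs in polynomial time

A greedy step either keeps the state or produces a rounded state, whose size is bounded a priori.
-/

set_option autoImplicit false

open Finset

namespace Crest.Agent.R62

open Crest.Agent.Lib.PolyTime

variable {α : Type} [Enc α]

/-- `PT.iterate_inv` with the bound `B a + esize (x a)` -/
theorem pt_iterate_reset {γ : Type} [Enc γ] {n : α → ℕ} {x : α → γ} {f : α → γ → γ} (B : α → ℕ)
    (hn : PT n) (hn' : PB n) (hx : PT x) (hf : PT fun p : α × γ => f p.1 p.2) (hB : PB B)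
    (h : ∀ a c, f a c = c ∨ esize (f a c) ≤ B a) : PT fun a => (f a)^[n a] (x a) := by
  refine PT.iterate_inv (fun a => B a + esize (x a)) (fun a c => esize c ≤ B a + esize (x a))
    hn hn' hx hf (hB.add (PB.esize hx)) (fun a => Nat.le_add_left _ _) (fun a c hc => ?_)
    (fun a c hc => hc)
  rcases h a c with e | e
  · rw [e]; exact hc
  · exact e.trans (Nat.le_add_right _ _)

theorem esize_tab_le {β : Type} [Enc β] (m : ℕ) (f : ℕ → ℕ → β) (B : ℕ)
    (h : ∀ i j, esize (f i j) ≤ B) : esize (tab m f) ≤ (m + 1) ^ 2 * (B + 2) := by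
  have h1 : ∀ r ∈ tab m f, esize r ≤ m * (B + 1) + 1 := by
    intro r hr
    unfold tab at hr
    obtain ⟨i, -, rfl⟩ := List.mem_map.1 hr
    have := esize_list_le (l := (List.range m).map fun j => f i j) (B := B) (fun a ha => by
      obtain ⟨j, -, rfl⟩ := List.mem_map.1 ha
      exact h i j)
    simpa using this
  have h2 := esize_list_le h1
  have h3 : (tab m f).length = m := by simp [tab]
  rw [h3] at h2
  nlinarith [Nat.zero_le m, Nat.zero_le B, Nat.zero_le (m * B)]

/-- a rational `z / g` with `|z| ≤ Z` (`Rat.divInt`/`mkRat`, `PT.ratH_mkRat_le`, `PT.esize_rat_le`) -/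
theorem esize_div_le (z : ℤ) (g Z : ℕ) (hg : 0 < g) (hz : z.natAbs ≤ Z) :
    esize ((z : ℚ) / g) ≤ 2 * esize (Z + g) + 9 := by
  have h1 : ((z : ℚ) / g) = mkRat z g := by rw [Rat.mkRat_eq_div]
  have h2 := ratH_mkRat_le z g hg.ne'
  have h3 : (max z.natAbs g).size ≤ (Z + g).size := Nat.size_le_size (by omega)
  have h4 := esize_rat_le (mkRat z g)
  rw [h1, esize_nat]
  omega

theorem flL_eq (g : ℕ) (hg : 0 < g) (x : ℚ) :
    ∃ z : ℤ, z.natAbs ≤ g ^ 2 ∧ flL g x = (z : ℚ) / g := by
  have hg' : (0 : ℚ) < g := by exact_mod_cast hg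
  refine ⟨max (-((g : ℤ) ^ 2)) (min ((g : ℤ) ^ 2) ⌊x * g⌋), ?_, ?_⟩
  · have h0 : (0 : ℤ) ≤ (g : ℤ) ^ 2 := by positivity
    have : ((max (-((g : ℤ) ^ 2)) (min ((g : ℤ) ^ 2) ⌊x * g⌋)).natAbs : ℤ) ≤ ((g ^ 2 : ℕ) : ℤ) := by
      push_cast
      rw [abs_le]
      exact ⟨le_max_left _ _, max_le (by linarith) (min_le_left _ _)⟩
    exact_mod_cast this
  · unfold flL
    push_cast
    rw [← max_div_div_right hg'.le, ← min_div_div_right hg'.le]
    congr 1
    · field_simp
    · congr 1
      field_simp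

theorem esize_rndL_le (m g : ℕ) (hg : 0 < g) (S : List Bool) (K : QM) {s : ℚ} (hs : s = 1 ∨ s = -1) :
    esize (rndL m g S K s) ≤ (m + 1) ^ 2 * (2 * esize ((m + 2) * g ^ 2 + g) + 11) := by
  have hg' : (0 : ℚ) < g := by exact_mod_cast hg
  have hg2 : g ≤ g ^ 2 := by nlinarith
  have key : ∀ z : ℤ, z.natAbs ≤ (m + 2) * g ^ 2 →
      esize ((z : ℚ) / g) ≤ 2 * esize ((m + 2) * g ^ 2 + g) + 9 := fun z hz =>
    esize_div_le z g _ hg hz
  have h0 : esize (0 : ℚ) ≤ 2 * esize ((m + 2) * g ^ 2 + g) + 9 := by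
    simpa using key 0 (by simp)
  refine esize_tab_le m _ _ fun c d => ?_
  split_ifs with h1 h2 h3
  · choose z hz1 hz2 using fun e => flL_eq g hg (ent K c e)
    obtain ⟨t, ht1, ht2⟩ : ∃ t : ℤ, t.natAbs = 1 ∧ s = t := by
      rcases hs with rfl | rfl
      · exact ⟨1, rfl, by simp⟩
      · exact ⟨-1, rfl, by simp⟩
    have e : (s - ∑ e ∈ range m, if mem S e = true ∧ e ≠ c then flL g (ent K c e) else 0) =
        ((t * g - ∑ e ∈ range m, if mem S e = true ∧ e ≠ c then z e else 0 : ℤ) : ℚ) / g := by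
      push_cast
      rw [sub_div, Finset.sum_div, ht2, mul_div_assoc, div_self hg'.ne', mul_one]
      congr 1
      refine Finset.sum_congr rfl fun e _ => ?_
      split_ifs
      · exact hz2 e
      · simp
    rw [e]
    refine key _ ?_
    have a1 := Int.natAbs_sub_le (t * g) (∑ e ∈ range m, if mem S e = true ∧ e ≠ c then z e else 0)
    have a2 := Int.natAbs_sum_le (range m) (fun e => if mem S e = true ∧ e ≠ c then z e else 0)
    have a3 : ∑ e ∈ range m, (if mem S e = true ∧ e ≠ c then z e else 0).natAbs ≤ m * g ^ 2 := by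
      have := Finset.sum_le_card_nsmul (range m)
        (fun e => (if mem S e = true ∧ e ≠ c then z e else 0).natAbs) (g ^ 2) (fun e _ => by
          split_ifs
          · exact hz1 e
          · simp)
      simpa using this
    rw [Int.natAbs_mul, ht1, Int.natAbs_natCast, one_mul] at a1
    nlinarith
  · exact h0
  · obtain ⟨z, hz1, hz2⟩ := flL_eq g hg (ent K c d)
    rw [hz2]
    exact key z (hz1.trans (Nat.le_mul_of_pos_left _ (by omega)))
  · exact h0

/-- the a priori size bound -/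
def szB (n k g : ℕ) : ℕ :=
  10 * (n * k + 1) + 10 * (n + 1) ^ 2 +
    2 * ((n * k + 1) ^ 2 * (2 * esize ((n * k + 2) * g ^ 2 + g) + 11))

theorem esize_delL_le (m : ℕ) (S : List Bool) (a b : ℕ) : esize (delL m S a b) ≤ 4 * m + 1 := by
  have := esize_boolList_le (delL m S a b)
  simpa [delL] using this

theorem esize_addL_le (n : ℕ) (E : List (List Bool)) (x y : ℕ) :
    esize (addL n E x y) ≤ (n + 1) ^ 2 * 5 :=
  esize_tab_le n _ 3 fun _ _ => esize_bool_le _

theorem greedyL_size (n k g : ℕ) (hg : 0 < g) (sc : List ℚ) (st : QS) :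
    greedyL n k g sc st = st ∨ esize (greedyL n k g sc st) ≤ szB n k g := by
  unfold greedyL
  cases (candL (n * k) k st).argmin fun ab => phiL (n * k) k sc (stepS n k st ab.1 ab.2) with
  | none => exact Or.inl rfl
  | some ab =>
    right
    simp only [Option.map_some, Option.getD_some, rndS, stepS, esize_pair, szB]
    have h1 := esize_delL_le (n * k) st.1 ab.1 ab.2
    have h2 := esize_addL_le n st.2.1 (ab.1 / k) (ab.2 / k)
    have h3 := esize_rndL_le (n * k) g hg (delL (n * k) st.1 ab.1 ab.2)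
      (stepL (n * k) st.2.2.1 1 ab.1 ab.2) (s := 1) (Or.inl rfl)
    have h4 := esize_rndL_le (n * k) g hg (delL (n * k) st.1 ab.1 ab.2)
      (stepL (n * k) st.2.2.2 (-1) ab.1 ab.2) (s := -1) (Or.inr rfl)
    omega

theorem anyL_size (n k : ℕ) (x : List Bool × List (List Bool)) :
    anyL n k x = x ∨ esize (anyL n k x) ≤ 10 * (n * k + 1) + 10 * (n + 1) ^ 2 := by
  unfold anyL
  cases (pairsL (n * k)).find? fun ab =>
      decide (mem x.1 ab.1 = true ∧ mem x.1 ab.2 = true ∧ ab.1 ≠ ab.2) with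
  | none => exact Or.inl rfl
  | some ab =>
    right
    simp only [Option.map_some, Option.getD_some, esize_pair]
    have h1 := esize_delL_le (n * k) x.1 ab.1 ab.2
    have h2 := esize_addL_le n x.2 (ab.1 / k) (ab.2 / k)
    omega

theorem gN_pos (n k : ℕ) : 0 < gN n k := Nat.succ_pos _

theorem pb_szB {n : α → ℕ} (hn : PT n) (hn' : PB n) (k : ℕ) :
    PB fun a => szB (n a) k (gN (n a) k) := by
  have hk : PT fun _ : α => k := PT.const k
  have hm : PT fun a => n a * k := PT.nat_mul hn hk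
  have hm' : PB fun a => n a * k + 1 := (hn'.mul (PB.const k)).add (PB.const 1)
  have hg : PT fun a => gN (n a) k := pt_gN hn hk
  have he : PB fun a => esize ((n a * k + 2) * gN (n a) k ^ 2 + gN (n a) k) :=
    PB.esize (PT.nat_add (PT.nat_mul (PT.nat_add hm (PT.const 2))
      (PT.nat_pow hg (PT.const 2) (PB.const 2))) hg)
  exact (((PB.const 10).mul hm').add ((PB.const 10).mul ((hn'.add (PB.const 1)).pow 2))).add
    ((PB.const 2).mul ((hm'.pow 2).mul (((PB.const 2).mul he).add (PB.const 11))))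

theorem pt_sB {n : α → ℕ} (hn : PT n) (hn' : PB n) (k : ℕ) : PT fun a => sB (n a) k := by
  have hk : PT fun _ : α => k := PT.const k
  have hk' : PB fun _ : α => k := PB.const k
  have hm : PT fun a => n a * k := PT.nat_mul hn hk
  have hm' : PB fun a => n a * k := PB.mul hn' hk'
  have hg : PT fun a => ((gN (n a) k : ℕ) : ℚ) := PT.rat_natCast (pt_gN hn hk)
  have hA : PT fun a => sA (n a) k := pt_rndS hm hg (pt_initS hn hk hn' hk') hm'
  have hj : PT fun a => jA (n a) k :=
    PT.nat_div (PT.nat_sub hm (PT.nat_pow (pt_yN hn) (PT.const _) (PB.const _))) (PT.const _)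
  have hj' : PB fun a => jA (n a) k := PB.div (PB.sub hm')
  have hf : PT fun p : α × QS => fA (n p.1) k p.2 :=
    pt_fA (hn.comp PT.fst') (PT.const k) PT.snd' (hn'.comp PT.fst') (PB.const k)
  have hit : PT fun a => (fA (n a) k)^[jA (n a) k] (sA (n a) k) :=
    pt_iterate_reset (f := fun a => fA (n a) k) (fun a => szB (n a) k (gN (n a) k)) hj hj' hA hf
      (pb_szB hn hn' k) fun a c => greedyL_size _ _ _ (gN_pos _ _) _ _
  exact pt_rndS hm hg (pt_mobS hm
    (PT.rat_pow (PT.rat_natCast (pt_yN hn)) (PT.const _) (PB.const _)) hit hm') hm'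

theorem pt_sD {n : α → ℕ} (hn : PT n) (hn' : PB n) (k : ℕ) : PT fun a => sD (n a) k := by
  have hjB : PT fun a => jB (n a) :=
    PT.nat_min hn (PT.nat_div (PT.nat_sub (PT.nat_pow (pt_yN hn) (PT.const _) (PB.const _))
      (PT.nat_pow (pt_yN hn) (PT.const _) (PB.const _))) (PT.const _))
  have hjB' : PB fun a => jB (n a) := PB.min_left hn'
  have hjC : PT fun a => jC (n a) :=
    PT.nat_min hn (PT.nat_div (PT.nat_sub (PT.nat_pow (pt_yN hn) (PT.const _) (PB.const _))
      (PT.nat_pow (pt_yN hn) (PT.const _) (PB.const _))) (PT.const _))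
  have hjC' : PB fun a => jC (n a) := PB.min_left hn'
  have hfB : PT fun p : α × QS => fB (n p.1) k p.2 :=
    pt_fB (hn.comp PT.fst') (PT.const k) PT.snd' (hn'.comp PT.fst') (PB.const k)
  have hfC : PT fun p : α × QS => fC (n p.1) k p.2 :=
    pt_fC (hn.comp PT.fst') (PT.const k) PT.snd' (hn'.comp PT.fst') (PB.const k)
  have hC : PT fun a => sC (n a) k :=
    pt_iterate_reset (f := fun a => fB (n a) k) (fun a => szB (n a) k (gN (n a) k)) hjB hjB'
      (pt_sB hn hn' k) hfB (pb_szB hn hn' k) fun a c => greedyL_size _ _ _ (gN_pos _ _) _ _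
  exact pt_iterate_reset (f := fun a => fC (n a) k) (fun a => szB (n a) k (gN (n a) k)) hjC hjC'
    hC hfC (pb_szB hn hn' k) fun a c => greedyL_size _ _ _ (gN_pos _ _) _ _

theorem pt_finE {n : α → ℕ} (hn : PT n) (hn' : PB n) (k : ℕ) : PT fun a => finE (n a) k := by
  have hjD : PT fun a => jD (n a) :=
    PT.nat_min hn (PT.nat_div (PT.nat_pow (pt_yN hn) (PT.const _) (PB.const _)) (PT.const _))
  have hjD' : PB fun a => jD (n a) := PB.min_left hn'
  have hD := pt_sD hn hn' k
  have hx : PT fun a => ((sD (n a) k).1, (sD (n a) k).2.1) := PT.prodMk hD.fst hD.snd.fst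
  have hf : PT fun p : α × (List Bool × List (List Bool)) => anyL (n p.1) k p.2 :=
    pt_anyL (hn.comp PT.fst') (PT.const k) PT.snd' (hn'.comp PT.fst') (PB.const k)
  have hB : PB fun a => 10 * (n a * k + 1) + 10 * (n a + 1) ^ 2 :=
    ((PB.const 10).mul ((hn'.mul (PB.const k)).add (PB.const 1))).add
      ((PB.const 10).mul ((hn'.add (PB.const 1)).pow 2))
  exact (pt_iterate_reset (f := fun a => anyL (n a) k) _ hjD hjD' hx hf hB
    fun a c => anyL_size _ _ _).snd

theorem polyTime_outL (k : ℕ) : Crest.Complexity.PolyTime (outL k) := by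
  refine PT.polyTime ?_
  have hn : PT fun w : List Bool => w.length := PT.length PT.id'
  have hn' : PB fun w : List Bool => w.length := PB.length PT.id'
  have hE := pt_finE hn hn' k
  have h1 : PT fun p : List Bool × ℕ =>
      adjL (finE p.1.length k) (p.2 / p.1.length) (p.2 % p.1.length) :=
    pt_adjL (hE.comp PT.fst') (PT.nat_div PT.snd' (hn.comp PT.fst'))
      (PT.nat_mod PT.snd' (hn.comp PT.fst'))
  exact PT.map (f := fun (w : List Bool) (i : ℕ) =>
    adjL (finE w.length k) (i / w.length) (i % w.length))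
    (PT.range (PT.nat_mul hn hn) (hn'.mul hn')) h1

end Crest.Agent.R62
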