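import Crest.Agent.R62.NumBase

/-! # Row 62: exponent bookkeeping (generated) -/

set_option autoImplicit false
set_option maxRecDepth 100000

noncomputable section

namespace Crest.Agent.R62

/-- bounds for the parameters -/
structure EnvC (p : Par) (y s : ℝ) : Prop where
  ys : YS y s
  N_u : Up y s p.N 49176 97920
  N_l : Lo y s p.N 49176 97920
  ρ_u : Up y s p.ρ (-100000000) (-100000000)
  μ_u : Up y s p.μ 0 0
  ε_u : Up y s p.ε (-72) (-72)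
  ε_l : Lo y s p.ε (-72) (-72)
  ζ_u : Up y s p.ζ 12 12
  ζ_l : Lo y s p.ζ 12 12
  θ_u : Up y s p.θ (-12) (-12)
  θ_l : Lo y s p.θ (-12) (-12)
  Λ_u : Up y s p.Λ 6 48738
  Λ_l : Lo y s p.Λ 6 48738
  Fb_u : Up y s p.Fb 48 48792
  X_u : Up y s p.X 12 97476
  X_l : Lo y s p.X 12 97476
  Qb_u : Up y s p.Qb 12 97476
  Qb_l : Lo y s p.Qb 12 97476
  t_u : Up y s p.t 19 146215
  t_l : Lo y s p.t 19 146215
  P4_u : Up y s p.P4 24 194952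
  P4_l : Lo y s p.P4 24 194952
  P5_l : Lo y s p.P5 31 243690
  V_u : Up y s p.V (-168) 97320
  V_l : Lo y s p.V (-168) 97320
  δ_u : Up y s p.δ (-36684) 12060
  δ_l : Lo y s p.δ (-36684) 12060
  W_u : Up y s p.W (-45588) 51900
  W_l : Lo y s p.W (-45600) 51888
  sw_u : Up y s p.sw (-22794) 25950
  sw_l : Lo y s p.sw (-22794) 25950
  γ_u : Up y s p.γ (-100000000) (-100000000)
  dg_u : Up y s p.dg 12 12
  dg_l : Lo y s p.dg 12 12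
  κE_u : Up y s p.κE 12 26094
  κE_l : Lo y s p.κE 12 26094
  κ2E_u : Up y s p.κ2E 78 48810
  κ2E_l : Lo y s p.κ2E 78 48810
  nE_u : Up y s p.nE 49188 97932
  nE_l : Lo y s p.nE 49188 97932
  κ_u : Up y s p.κ 24 26106
  κ_l : Lo y s p.κ 24 26106
  κ2_u : Up y s p.κ2 90 48822
  κ2_l : Lo y s p.κ2 90 48822
  Ξ2_u : Up y s p.Ξ2 (-108) 149544
  Ξ2_l : Lo y s p.Ξ2 (-108) 149544
  RF_u : Up y s p.RF 49188 146448
  RF_l : Lo y s p.RF 49188 146448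
  ω_u : Up y s (p.ω - 1) (-100000000) (-100000000)
  cy_l : Lo y s p.cy 24 24
  σF_l : Lo y s p.σF 48 48792
  σx_u : Up y s p.σx (-24) 97464
  σx_l : Lo y s p.σx (-24) 97464

theorem EnvC.Dm_u {p : Par} {y s : ℝ} (h : EnvC p y s) :
    Up y s p.Dm 49200 97944 :=
  Up.mono h.ys (x := 2 * p.V + 2 * p.N * p.μ ^ 2)
    (((h.ys.up_c 2 (by norm_num) (by norm_num)).mul h.ys h.V_u).add h.ys (((h.ys.up_c 2 (by norm_num) (by norm_num)).mul h.ys h.N_u).mul h.ys (h.μ_u.pow h.ys 2))) (by decide) (by decide)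

theorem EnvC.q2_u {p : Par} {y s : ℝ} (h : EnvC p y s) :
    Up y s p.q2 24 97488 :=
  Up.mono h.ys (x := p.Qb + p.δ ^ 2)
    (h.Qb_u.add h.ys (h.δ_u.pow h.ys 2)) (by decide) (by decide)

theorem EnvC.g1_u {p : Par} {y s : ℝ} (h : EnvC p y s) :
    Up y s p.g1 12528 194964 :=
  Up.mono h.ys (x := p.P4 + p.δ * p.Dm)
    (h.P4_u.add h.ys (h.δ_u.mul h.ys h.Dm_u)) (by decide) (by decide)

theorem EnvC.a3_u {p : Par} {y s : ℝ} (h : EnvC p y s) :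
    Up y s p.a3 48 194976 :=
  Up.mono h.ys (x := 2 * p.P4 + 4 * p.Λ ^ 2 * p.V)
    (((h.ys.up_c 2 (by norm_num) (by norm_num)).mul h.ys h.P4_u).add h.ys (((h.ys.up_c 4 (by norm_num) (by norm_num)).mul h.ys (h.Λ_u.pow h.ys 2)).mul h.ys h.V_u)) (by decide) (by decide)

theorem EnvC.g2_u {p : Par} {y s : ℝ} (h : EnvC p y s) :
    Up y s p.g2 49080 292488 :=
  Up.mono h.ys (x := p.N * p.V + p.V ^ 2 + p.Λ ^ 6 + p.Qb + p.δ * p.a3 + p.ζ ^ 2 * p.Λ ^ 2 * p.P4 + p.δ ^ 2)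
    (((((((h.N_u.mul h.ys h.V_u).add h.ys (h.V_u.pow h.ys 2)).add h.ys (h.Λ_u.pow h.ys 6)).add h.ys h.Qb_u).add h.ys (h.δ_u.mul h.ys h.a3_u)).add h.ys (((h.ζ_u.pow h.ys 2).mul h.ys (h.Λ_u.pow h.ys 2)).mul h.ys h.P4_u)).add h.ys (h.δ_u.pow h.ys 2)) (by decide) (by decide)

theorem EnvC.Db_u {p : Par} {y s : ℝ} (h : EnvC p y s) :
    Up y s p.Db (-144) 97344 :=
  Up.mono h.ys (x := 2 * p.N * p.ρ ^ 2 + 2 * p.V)
    ((((h.ys.up_c 2 (by norm_num) (by norm_num)).mul h.ys h.N_u).mul h.ys (h.ρ_u.pow h.ys 2)).add h.ys ((h.ys.up_c 2 (by norm_num) (by norm_num)).mul h.ys h.V_u)) (by decide) (by decide)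

theorem EnvC.Om_u {p : Par} {y s : ℝ} (h : EnvC p y s) :
    Up y s p.Om 48 123282 :=
  Up.mono h.ys (x := p.Qb + p.Db + p.V + p.sw * p.V)
    (((h.Qb_u.add h.ys h.Db_u).add h.ys h.V_u).add h.ys (h.sw_u.mul h.ys h.V_u)) (by decide) (by decide)

theorem EnvC.cF {p : Par} {y s : ℝ} (h : EnvC p y s) :
    CondF p (p.θ * p.σF) where
  F1 := h.ys.le (h.Fb_u.mul h.ys h.X_u)
      (h.N_l.mul h.ys (h.θ_l.mul h.ys h.σF_l)) (by decide) (by decide)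
  F2 := h.ys.le (((h.κ_u.pow h.ys 2).mul h.ys h.δ_u).mul h.ys h.Dm_u)
      ((h.N_l.mul h.ys (h.θ_l.mul h.ys h.σF_l)).pow h.ys 2) (by decide) (by decide)
  F3 := h.ys.le h.RF_u
      (h.N_l.mul h.ys (h.θ_l.mul h.ys h.σF_l)) (by decide) (by decide)
  F4 := h.ys.le (h.q2_u.mul h.ys h.g1_u)
      ((h.N_l.mul h.ys (h.θ_l.mul h.ys h.σF_l)).pow h.ys 2) (by decide) (by decide)

theorem EnvC.cQ {p : Par} {y s : ℝ} (h : EnvC p y s) :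
    CondQ p (p.θ * p.σx) where
  Q1 := h.ys.le h.ρ_u
      (h.θ_l.mul h.ys h.σx_l) (by decide) (by decide)
  Q2 := h.ys.le ((((h.μ_u.pow h.ys 2).mul h.ys (h.κ_u.pow h.ys 2)).mul h.ys h.N_u).mul h.ys h.V_u)
      ((h.N_l.mul h.ys (h.θ_l.mul h.ys h.σx_l)).pow h.ys 2) (by decide) (by decide)
  Q3 := h.ys.le (h.X_u.pow h.ys 2)
      (h.N_l.mul h.ys (h.θ_l.mul h.ys h.σx_l)) (by decide) (by decide)
  Q4 := h.ys.le (h.κ_u.mul h.ys h.V_u)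
      (h.N_l.mul h.ys (h.θ_l.mul h.ys h.σx_l)) (by decide) (by decide)
  Q5 := Or.inl (h.ys.le (((h.κ_u.pow h.ys 2).mul h.ys h.Qb_u).mul h.ys h.P4_u)
      ((h.N_l.mul h.ys (h.θ_l.mul h.ys h.σx_l)).pow h.ys 2) (by decide) (by decide))
  Q6 := h.ys.le (((h.κ2_u.pow h.ys 2).mul h.ys h.N_u).mul h.ys h.Qb_u)
      ((h.N_l.mul h.ys (h.θ_l.mul h.ys h.σx_l)).pow h.ys 2) (by decide) (by decide)
  Q7 := h.ys.le (h.Fb_u.mul h.ys h.t_u)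
      (h.N_l.mul h.ys (h.θ_l.mul h.ys h.σx_l)) (by decide) (by decide)
  Q8 := h.ys.le (((h.κ_u.pow h.ys 2).mul h.ys h.δ_u).mul h.ys h.a3_u)
      ((h.N_l.mul h.ys (h.θ_l.mul h.ys h.σx_l)).pow h.ys 2) (by decide) (by decide)
  Q9 := h.ys.le (h.q2_u.mul h.ys h.g2_u)
      ((h.N_l.mul h.ys (h.θ_l.mul h.ys h.σx_l)).pow h.ys 2) (by decide) (by decide)
  Q10 := h.ys.le h.Qb_u
      (h.N_l.mul h.ys (h.θ_l.mul h.ys h.σx_l)) (by decide) (by decide)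
  Q11 := h.ys.le h.δ_u
      (h.θ_l.mul h.ys h.σx_l) (by decide) (by decide)
  Q12 := h.ys.le h.g1_u
      (h.N_l.mul h.ys (h.θ_l.mul h.ys h.σx_l)) (by decide) (by decide)

theorem EnvC.cV {p : Par} {y s : ℝ} (h : EnvC p y s) :
    CondV p (p.θ * p.V) where
  V1 := h.ys.le (h.ρ_u.mul h.ys (h.X_u.pow h.ys 2))
      (h.N_l.mul h.ys (h.θ_l.mul h.ys h.V_l)) (by decide) (by decide)
  V2 := h.ys.le (h.V_u.mul h.ys h.X_u)
      (h.N_l.mul h.ys (h.θ_l.mul h.ys h.V_l)) (by decide) (by decide)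
  V3 := h.ys.le ((h.ρ_u.mul h.ys h.X_u).mul h.ys (h.κ_u.add h.ys (h.ys.up_c 8 (by norm_num) (by norm_num))))
      (h.N_l.mul h.ys (h.θ_l.mul h.ys h.V_l)) (by decide) (by decide)
  V4 := h.ys.le ((((h.κ2_u.pow h.ys 2).mul h.ys h.V_u).mul h.ys h.Db_u).mul h.ys h.Dm_u)
      ((h.N_l.mul h.ys (h.θ_l.mul h.ys h.V_l)).pow h.ys 2) (by decide) (by decide)
  V5 := h.ys.le h.X_u
      (h.N_l.mul h.ys (h.θ_l.mul h.ys h.V_l)) (by decide) (by decide)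
  V6 := h.ys.le (((h.κ_u.pow h.ys 2).mul h.ys h.V_u).mul h.ys h.a3_u)
      ((h.N_l.mul h.ys (h.θ_l.mul h.ys h.V_l)).pow h.ys 2) (by decide) (by decide)
  V7 := h.ys.le (((h.Fb_u.pow h.ys 2).mul h.ys h.V_u).mul h.ys h.a3_u)
      ((h.N_l.mul h.ys (h.θ_l.mul h.ys h.V_l)).pow h.ys 2) (by decide) (by decide)
  V8 := h.ys.le ((((h.κ_u.pow h.ys 2).mul h.ys h.δ_u).mul h.ys h.V_u).mul h.ys h.Om_u)
      ((h.N_l.mul h.ys (h.θ_l.mul h.ys h.V_l)).pow h.ys 2) (by decide) (by decide)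
  V9 := h.ys.le (((h.q2_u.mul h.ys h.δ_u).mul h.ys h.V_u).mul h.ys h.Om_u)
      ((h.N_l.mul h.ys (h.θ_l.mul h.ys h.V_l)).pow h.ys 2) (by decide) (by decide)
  V10 := h.ys.le ((h.q2_u.mul h.ys h.V_u).mul h.ys h.a3_u)
      ((h.N_l.mul h.ys (h.θ_l.mul h.ys h.V_l)).pow h.ys 2) (by decide) (by decide)
  V11 := h.ys.le ((((h.δ_u.pow h.ys 2).mul h.ys h.W_u).mul h.ys h.V_u).mul h.ys h.Dm_u)
      ((h.N_l.mul h.ys (h.θ_l.mul h.ys h.V_l)).pow h.ys 2) (by decide) (by decide)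
  V12 := h.ys.le (((h.V_u.mul h.ys h.Db_u).mul h.ys h.Dm_u).mul h.ys h.δ_u)
      ((h.N_l.mul h.ys (h.θ_l.mul h.ys h.V_l)).pow h.ys 2) (by decide) (by decide)
  V13 := h.ys.le ((((h.ε_u.pow h.ys 2).mul h.ys h.N_u).mul h.ys h.Db_u).mul h.ys (h.V_u.pow h.ys 2))
      ((h.N_l.mul h.ys (h.θ_l.mul h.ys h.V_l)).pow h.ys 2) (by decide) (by decide)
  V14 := h.ys.le (((((h.μ_u.pow h.ys 2).mul h.ys h.q2_u).mul h.ys h.N_u).mul h.ys h.W_u).mul h.ys h.V_u)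
      ((h.N_l.mul h.ys (h.θ_l.mul h.ys h.V_l)).pow h.ys 2) (by decide) (by decide)
  V15 := h.ys.le (((h.W_u.mul h.ys h.V_u).mul h.ys h.δ_u).mul h.ys h.P4_u)
      ((h.N_l.mul h.ys (h.θ_l.mul h.ys h.V_l)).pow h.ys 2) (by decide) (by decide)
  V16 := h.ys.le ((h.V_u.mul h.ys h.Db_u).mul h.ys h.P4_u)
      ((h.N_l.mul h.ys (h.θ_l.mul h.ys h.V_l)).pow h.ys 2) (by decide) (by decide)
  V17 := h.ys.le h.a3_u
      (h.N_l.mul h.ys (h.θ_l.mul h.ys h.V_l)) (by decide) (by decide)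
  V18 := h.ys.le (h.δ_u.mul h.ys h.Om_u)
      (h.N_l.mul h.ys (h.θ_l.mul h.ys h.V_l)) (by decide) (by decide)
  V19 := h.ys.le ((h.μ_u.pow h.ys 2).mul h.ys h.W_u)
      (h.θ_l.mul h.ys h.V_l) (by decide) (by decide)
  V20 := h.ys.le ((((h.ζ_u.pow h.ys 2).mul h.ys (h.Λ_u.pow h.ys 2)).mul h.ys h.δ_u).mul h.ys h.W_u)
      (h.N_l.mul h.ys (h.θ_l.mul h.ys h.V_l)) (by decide) (by decide)
  V21 := h.ys.le (((h.ζ_u.pow h.ys 2).mul h.ys (h.Λ_u.pow h.ys 2)).mul h.ys h.Db_u)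
      (h.N_l.mul h.ys (h.θ_l.mul h.ys h.V_l)) (by decide) (by decide)
  V22 := h.ys.le h.ρ_u
      (h.θ_l.mul h.ys h.V_l) (by decide) (by decide)

theorem EnvC.cD {p : Par} {y s : ℝ} (h : EnvC p y s) :
    CondD p (p.θ * p.δ) where
  D1 := h.ys.le h.Fb_u
      (h.N_l.mul h.ys (h.θ_l.mul h.ys h.δ_l)) (by decide) (by decide)
  D2 := h.ys.le (h.δ_u.mul h.ys h.Ξ2_u)
      ((h.N_l.mul h.ys (h.θ_l.mul h.ys h.δ_l)).pow h.ys 2) (by decide) (by decide)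
  D3 := h.ys.le (((h.Fb_u.pow h.ys 2).mul h.ys h.δ_u).mul h.ys h.Db_u)
      ((h.N_l.mul h.ys (h.θ_l.mul h.ys h.δ_l)).pow h.ys 2) (by decide) (by decide)
  D4 := h.ys.le (((h.κ2_u.pow h.ys 2).mul h.ys (h.δ_u.pow h.ys 2)).mul h.ys h.Db_u)
      ((h.N_l.mul h.ys (h.θ_l.mul h.ys h.δ_l)).pow h.ys 2) (by decide) (by decide)
  D5 := h.ys.le ((h.q2_u.mul h.ys h.δ_u).mul h.ys h.Db_u)
      ((h.N_l.mul h.ys (h.θ_l.mul h.ys h.δ_l)).pow h.ys 2) (by decide) (by decide)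
  D6 := h.ys.le ((((h.ε_u.pow h.ys 2).mul h.ys h.N_u).mul h.ys h.Db_u).mul h.ys (h.δ_u.pow h.ys 2))
      ((h.N_l.mul h.ys (h.θ_l.mul h.ys h.δ_l)).pow h.ys 2) (by decide) (by decide)
  D7 := h.ys.le h.Db_u
      (h.N_l.mul h.ys (h.θ_l.mul h.ys h.δ_l)) (by decide) (by decide)
  D8 := h.ys.le (h.ε_u.mul h.ys h.δ_u)
      (h.θ_l.mul h.ys h.δ_l) (by decide) (by decide)
  D9 := h.ys.le (((h.κ2_u.pow h.ys 2).mul h.ys (h.δ_u.pow h.ys 2)).mul h.ys h.N_u)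
      ((h.N_l.mul h.ys (h.θ_l.mul h.ys h.δ_l)).pow h.ys 2) (by decide) (by decide)

theorem EnvC.cW {p : Par} {y s : ℝ} (h : EnvC p y s) :
    CondW p (p.θ * p.W) where
  W1 := h.ys.le (h.ε_u.mul h.ys h.W_u)
      (h.θ_l.mul h.ys h.W_l) (by decide) (by decide)
  W2 := h.ys.le (h.ω_u.mul h.ys (h.W_u.pow h.ys 2))
      (h.N_l.mul h.ys (h.θ_l.mul h.ys h.W_l)) (by decide) (by decide)
  W3 := Or.inr (h.ys.le (h.W_u.pow h.ys 2)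
      (h.N_l.mul h.ys (h.θ_l.mul h.ys h.W_l)) (by decide) (by decide))
  W4 := Or.inr (h.ys.le ((h.δ_u.pow h.ys 2).mul h.ys (h.W_u.pow h.ys 2))
      ((h.ε_l.pow h.ys 3).mul h.ys (h.N_l.mul h.ys (h.θ_l.mul h.ys h.W_l))) (by decide) (by decide))
  W5 := h.ys.le (((up_one y s).add h.ys h.δ_u).mul h.ys h.Om_u)
      (h.ε_l.mul h.ys (h.N_l.mul h.ys (h.θ_l.mul h.ys h.W_l))) (by decide) (by decide)
  W6 := h.ys.le (h.Qb_u.mul h.ys h.W_u)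
      ((h.N_l.mul h.ys (h.θ_l.mul h.ys h.W_l)).pow h.ys 2) (by decide) (by decide)
  W7 := h.ys.le (((h.κ_u.pow h.ys 2).mul h.ys h.W_u).mul h.ys h.Om_u)
      ((h.N_l.mul h.ys (h.θ_l.mul h.ys h.W_l)).pow h.ys 2) (by decide) (by decide)
  W8 := h.ys.le (((h.N_u.mul h.ys h.δ_u).mul h.ys h.W_u).mul h.ys h.Om_u)
      ((h.N_l.mul h.ys (h.θ_l.mul h.ys h.W_l)).pow h.ys 2) (by decide) (by decide)
  W9 := h.ys.le ((h.q2_u.mul h.ys h.W_u).mul h.ys h.Om_u)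
      ((h.N_l.mul h.ys (h.θ_l.mul h.ys h.W_l)).pow h.ys 2) (by decide) (by decide)
  W10 := h.ys.le ((h.δ_u.pow h.ys 2).mul h.ys h.W_u)
      ((h.ε_l.pow h.ys 3).mul h.ys (h.N_l.mul h.ys (h.θ_l.mul h.ys h.W_l))) (by decide) (by decide)
  W11 := h.ys.le (((h.κ2_u.pow h.ys 2).mul h.ys h.N_u).mul h.ys (h.W_u.pow h.ys 2))
      ((h.N_l.mul h.ys (h.θ_l.mul h.ys h.W_l)).pow h.ys 2) (by decide) (by decide)
  W12 := h.ys.le (h.δ_u.pow h.ys 2)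
      (h.θ_l.mul h.ys h.W_l) (by decide) (by decide)

theorem EnvC.S1 {p : Par} {y s : ℝ} (h : EnvC p y s) :
    p.g1 ≤ p.N * (p.θ * p.σF ^ 2) :=
  h.ys.le h.g1_u
      (h.N_l.mul h.ys (h.θ_l.mul h.ys (h.σF_l.pow h.ys 2))) (by decide) (by decide)

theorem EnvC.S2 {p : Par} {y s : ℝ} (h : EnvC p y s) :
    p.g2 + p.ζ ^ 2 * p.Λ ^ 2 * p.g1 ≤ p.N * (p.θ * p.σx ^ 2) :=
  h.ys.le (h.g2_u.add h.ys (((h.ζ_u.pow h.ys 2).mul h.ys (h.Λ_u.pow h.ys 2)).mul h.ys h.g1_u))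
      (h.N_l.mul h.ys (h.θ_l.mul h.ys (h.σx_l.pow h.ys 2))) (by decide) (by decide)

theorem EnvC.S2c {p : Par} {y s : ℝ} (h : EnvC p y s) :
    p.ρ ≤ p.N * (p.θ * p.σx ^ 2) :=
  h.ys.le h.ρ_u
      (h.N_l.mul h.ys (h.θ_l.mul h.ys (h.σx_l.pow h.ys 2))) (by decide) (by decide)

theorem EnvC.wt {p : Par} {y s : ℝ} (h : EnvC p y s) (h1 : 1 ≤ p.ω) (h2 : p.ω ≤ 2) :
    CondWt p where
  E1 := h.ys.le h.dg_u
      h.κE_l (by decide) (by decide)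
  E2 := h.ys.le h.sw_u
      ((h.ε_l.pow h.ys 2).mul h.ys h.κE_l) (by decide) (by decide)
  E3 := h.ys.le h.δ_u
      (h.ε_l.mul h.ys h.κE_l) (by decide) (by decide)
  E4 := h.ys.le h.V_u
      ((h.κE_l.mul h.ys (h.ζ_l.pow h.ys 2)).mul h.ys (h.Λ_l.pow h.ys 2)) (by decide) (by decide)
  E5 := h.ys.le h.dg_u
      h.κ2E_l (by decide) (by decide)
  E6 := h.ys.le h.Λ_u
      (h.ε_l.mul h.ys h.κ2E_l) (by decide) (by decide)
  E7 := h.ys.le h.δ_u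
      (h.ε_l.mul h.ys h.κ2E_l) (by decide) (by decide)
  E8 := h.ys.le h.V_u
      ((h.κ2E_l.mul h.ys (h.ζ_l.pow h.ys 2)).mul h.ys (h.Λ_l.pow h.ys 2)) (by decide) (by decide)
  E9 := h.ys.le (h.dg_u.mul h.ys h.N_u)
      h.nE_l (by decide) (by decide)
  E10 := h.ys.le h.Qb_u
      ((h.ε_l.pow h.ys 2).mul h.ys h.nE_l) (by decide) (by decide)
  E11 := h.ys.le (h.δ_u.pow h.ys 2)
      ((h.ε_l.pow h.ys 2).mul h.ys h.nE_l) (by decide) (by decide)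
  E12 := h.ys.le (h.V_u.pow h.ys 2)
      ((h.nE_l.mul h.ys (h.ζ_l.pow h.ys 4)).mul h.ys (h.Λ_l.pow h.ys 4)) (by decide) (by decide)
  E14 := h.ys.le ((h.ys.up_c 200 (by norm_num) (by norm_num)).mul h.ys h.κE_u)
      h.κ_l (by decide) (by decide)
  E15 := h.ys.le ((h.ys.up_c 400 (by norm_num) (by norm_num)).mul h.ys h.κ2E_u)
      h.κ2_l (by decide) (by decide)
  E16 := h.ys.le (((h.ys.up_c 40000 (by norm_num) (by norm_num)).mul h.ys (h.κE_u.pow h.ys 2)).mul h.ys h.Db_u)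
      h.Ξ2_l (by decide) (by decide)
  E17 := h.ys.le ((h.ys.up_c 4 (by norm_num) (by norm_num)).mul h.ys h.N_u)
      h.RF_l (by decide) (by decide)
  E18 := h.ys.le (((h.ys.up_c 40000 (by norm_num) (by norm_num)).mul h.ys h.nE_u).mul h.ys h.P4_u)
      (h.RF_l.pow h.ys 2) (by decide) (by decide)
  κE0 := h.κE_u.1
  κ2E0 := h.κ2E_u.1
  RF0 := h.RF_u.1
  ω1 := h1
  ω2 := h2
  γ0 := h.γ_u.1

theorem EnvC.gl {p : Par} {y s : ℝ} (h : EnvC p y s) (h8 : p.Qb ≤ 2 * p.N) (h9 : p.W ≤ p.N) :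
    Glob p where
  H1 := h.ys.le h.κ_u
      (h.θ_l.mul h.ys h.N_l) (by decide) (by decide)
  H2 := h.ys.le (h.κ2_u.pow h.ys 2)
      ((h.θ_l.pow h.ys 2).mul h.ys h.N_l) (by decide) (by decide)
  H3 := h.ys.le h.dg_u
      (h.θ_l.mul h.ys h.cy_l) (by decide) (by decide)
  H4 := h.ys.le h.V_u
      h.N_l (by decide) (by decide)
  H5 := h.ys.le h.P4_u
      (h.Λ_l.pow h.ys 6) (by decide) (by decide)
  H6 := h.ys.le (up_one y s)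
      (h.ε_l.mul h.ys h.N_l) (by decide) (by decide)
  H7 := h.ys.le (up_one y s)
      (h.θ_l.mul h.ys h.N_l) (by decide) (by decide)
  H8 := h8
  H9 := h9
  H10 := h.ys.le ((h.ys.up_c 100 (by norm_num) (by norm_num)).mul h.ys h.ε_u)
      (lo_one y s) (by decide) (by decide)
  H11 := h.ys.le ((h.ys.up_c 100 (by norm_num) (by norm_num)).mul h.ys h.θ_u)
      (lo_one y s) (by decide) (by decide)
  H12 := h.ys.le (h.ys.up_c 6 (by norm_num) (by norm_num))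
      h.ζ_l (by decide) (by decide)
  H13 := h.ys.le h.W_u
      (h.sw_l.pow h.ys 2) (by decide) (by decide)
  H14 := h.ys.le (up_one y s)
      h.dg_l (by decide) (by decide)
  ε0 := h.ε_l.pos h.ys
  θ0 := h.θ_l.pos h.ys
  N0 := h.N_l.pos h.ys
  sw0 := h.sw_u.1
  cy0 := h.cy_l.pos h.ys

theorem EnvC.X1 {p : Par} {y s : ℝ} (h : EnvC p y s) :
    p.σx + 1 ≤ p.X :=
  h.ys.le (h.σx_u.add h.ys (up_one y s))
      h.X_l (by decide) (by decide)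

theorem EnvC.L1 {p : Par} {y s : ℝ} (h : EnvC p y s) :
    1 ≤ p.Λ :=
  h.ys.le (up_one y s)
      h.Λ_l (by decide) (by decide)

theorem EnvC.WB {p : Par} {y s : ℝ} (h : EnvC p y s) :
    4000 * p.W ≤ p.θ * p.N :=
  h.ys.le ((h.ys.up_c 4000 (by norm_num) (by norm_num)).mul h.ys h.W_u)
      (h.θ_l.mul h.ys h.N_l) (by decide) (by decide)

theorem EnvC.C1 {p : Par} {y s : ℝ} (h : EnvC p y s) :
    p.Qb ≤ p.N :=
  h.ys.le h.Qb_u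
      h.N_l (by decide) (by decide)

theorem EnvC.C2 {p : Par} {y s : ℝ} (h : EnvC p y s) :
    p.σx + 1 ≤ p.Qb :=
  h.ys.le (h.σx_u.add h.ys (up_one y s))
      h.Qb_l (by decide) (by decide)

theorem EnvC.C3 {p : Par} {y s : ℝ} (h : EnvC p y s) :
    p.Qb ≤ p.Λ ^ 2 :=
  h.ys.le h.Qb_u
      (h.Λ_l.pow h.ys 2) (by decide) (by decide)

theorem EnvC.C4 {p : Par} {y s : ℝ} (h : EnvC p y s) :
    p.Λ * p.Qb ≤ p.t :=
  h.ys.le (h.Λ_u.mul h.ys h.Qb_u)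
      h.t_l (by decide) (by decide)

theorem EnvC.C5 {p : Par} {y s : ℝ} (h : EnvC p y s) :
    p.Λ ^ 2 * p.Qb ≤ p.P4 :=
  h.ys.le ((h.Λ_u.pow h.ys 2).mul h.ys h.Qb_u)
      h.P4_l (by decide) (by decide)

theorem EnvC.C6 {p : Par} {y s : ℝ} (h : EnvC p y s) :
    p.Λ ^ 3 * p.Qb ≤ p.P5 :=
  h.ys.le ((h.Λ_u.pow h.ys 3).mul h.ys h.Qb_u)
      h.P5_l (by decide) (by decide)

end Crest.Agent.R62
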