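import Crest.Agent.R62.NumBase

/-! # Row 62: exponent bookkeeping (generated) -/

set_option autoImplicit false
set_option maxRecDepth 100000

noncomputable section

namespace Crest.Agent.R62

/-- bounds for the parameters -/
structure EnvM (p : Par) (q : MPar) (y s : ℝ) : Prop where
  ys : YS y s
  N_u : Up y s p.N 117360 117360
  N_l : Lo y s p.N 117360 117360
  ρ_u : Up y s p.ρ 0 0
  Λ_u : Up y s p.Λ 37380 37380
  Λ_l : Lo y s p.Λ 37380 37380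
  Fb_u : Up y s p.Fb 53184 53184
  X_u : Up y s p.X 95052 95052
  X_l : Lo y s p.X 95052 95052
  Qb_u : Up y s p.Qb 117372 117372
  Qb_l : Lo y s p.Qb 117360 117360
  t_u : Up y s p.t 144036 144036
  t_l : Lo y s p.t 144036 144036
  P4_u : Up y s p.P4 170796 170796
  P4_l : Lo y s p.P4 170796 170796
  P5_l : Lo y s p.P5 197550 197550
  V_u : Up y s p.V 90732 90732
  δ_u : Up y s p.δ 12012 12012
  W_u : Up y s p.W 90732 90732
  σx_u : Up y s p.σx 95040 95040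
  Tl_l : Lo y s p.Tl 143988 143988
  M_u : Up y s q.M 98400 98400
  M_l : Lo y s q.M 98400 98400
  τb_u : Up y s q.τb (-45588) (-45588)
  τb_l : Lo y s q.τb (-45588) (-45588)
  Sl_l : Lo y s q.Sl 53160 53160
  a0_u : Up y s q.a0 (-45588) (-45588)
  a0_l : Lo y s q.a0 (-45588) (-45588)
  Ex_l : Lo y s q.Ex 97392 97392
  Ev_l : Lo y s q.Ev 97284 97284
  Ed_l : Lo y s q.Ed 12024 12024
  Ew_l : Lo y s q.Ew 90732 90732

theorem EnvM.Yf_u {p : Par} {q : MPar} {y s : ℝ} (h : EnvM p q y s) :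
    Up y s (q.Yf p) 79644 79644 :=
  Up.mono h.ys (x := q.a0 ^ 2 * p.N + q.τb ^ 2 * p.P4 + q.τb ^ 4 * (p.Qb + p.Λ ^ 6))
    ((((h.a0_u.pow h.ys 2).mul h.ys h.N_u).add h.ys ((h.τb_u.pow h.ys 2).mul h.ys h.P4_u)).add h.ys ((h.τb_u.pow h.ys 4).mul h.ys (h.Qb_u.add h.ys (h.Λ_u.pow h.ys 6)))) (by decide) (by decide)

theorem EnvM.Db_u {p : Par} {q : MPar} {y s : ℝ} (h : EnvM p q y s) :
    Up y s p.Db 117384 117384 :=
  Up.mono h.ys (x := 2 * p.N * p.ρ ^ 2 + 2 * p.V)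
    ((((h.ys.up_c 2 (by norm_num) (by norm_num)).mul h.ys h.N_u).mul h.ys (h.ρ_u.pow h.ys 2)).add h.ys ((h.ys.up_c 2 (by norm_num) (by norm_num)).mul h.ys h.V_u)) (by decide) (by decide)

theorem EnvM.a3_u {p : Par} {q : MPar} {y s : ℝ} (h : EnvM p q y s) :
    Up y s p.a3 170820 170820 :=
  Up.mono h.ys (x := 2 * p.P4 + 4 * p.Λ ^ 2 * p.V)
    (((h.ys.up_c 2 (by norm_num) (by norm_num)).mul h.ys h.P4_u).add h.ys (((h.ys.up_c 4 (by norm_num) (by norm_num)).mul h.ys (h.Λ_u.pow h.ys 2)).mul h.ys h.V_u)) (by decide) (by decide)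

theorem EnvM.cm {p : Par} {q : MPar} {y s : ℝ} (h : EnvM p q y s) (h1 : p.ρ = 1) :
    CondMob p q where
  M1 := h.ys.le (((h.ys.up_c 2 (by norm_num) (by norm_num)).mul h.ys h.τb_u).mul h.ys h.Λ_u)
      (lo_one y s) (by decide) (by decide)
  M2 := h.ys.le (((h.ys.up_c 8 (by norm_num) (by norm_num)).mul h.ys h.τb_u).mul h.ys h.X_u)
      h.Sl_l (by decide) (by decide)
  M3 := h.ys.le ((h.ys.up_c 8 (by norm_num) (by norm_num)).mul h.ys (h.M_u.pow h.ys 2))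
      (h.Sl_l.mul h.ys h.Tl_l) (by decide) (by decide)
  M4 := h.ys.le (((h.ys.up_c 8 (by norm_num) (by norm_num)).mul h.ys (h.τb_u.pow h.ys 2)).mul h.ys h.Fb_u)
      h.Sl_l (by decide) (by decide)
  M5 := h.ys.le (((h.ys.up_c 16 (by norm_num) (by norm_num)).mul h.ys (h.τb_u.pow h.ys 3)).mul h.ys h.Qb_u)
      h.Sl_l (by decide) (by decide)
  M6 := h.ys.le h.M_u
      (h.τb_l.mul h.ys h.Tl_l) (by decide) (by decide)
  M7 := h.ys.le h.τb_u
      h.a0_l (by decide) (by decide)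
  M8 := h.ys.le ((h.ys.up_c 4 (by norm_num) (by norm_num)).mul h.ys h.Fb_u)
      (h.a0_l.mul h.ys h.N_l) (by decide) (by decide)
  M9 := h.ys.le ((h.ys.up_c 10 (by norm_num) (by norm_num)).mul h.ys h.a0_u)
      (lo_one y s) (by decide) (by decide)
  M10 := h.ys.le h.X_u
      h.Ex_l (by decide) (by decide)
  M11 := h.ys.le (up_one y s)
      h.Ex_l (by decide) (by decide)
  M12 := h.ys.le (h.M_u.pow h.ys 2)
      (h.N_l.mul h.ys h.Ex_l) (by decide) (by decide)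
  M13 := h.ys.le (h.a0_u.mul h.ys h.Fb_u)
      h.Ex_l (by decide) (by decide)
  M14 := h.ys.le ((h.τb_u.pow h.ys 2).mul h.ys ((h.Qb_u.add h.ys h.M_u).add h.ys h.P4_u))
      h.Ex_l (by decide) (by decide)
  M15 := h.ys.le h.Yf_u
      h.Ex_l (by decide) (by decide)
  M16 := h.ys.le (h.P4_u.mul h.ys h.Yf_u)
      (h.t_l.pow h.ys 2) (by decide) (by decide)
  M17 := h.ys.le (h.Λ_u.mul h.ys h.Yf_u)
      h.t_l (by decide) (by decide)
  M18 := h.ys.le (h.Yf_u.pow h.ys 3)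
      (h.t_l.pow h.ys 2) (by decide) (by decide)
  M19 := h.ys.le h.Qb_u
      (h.Λ_l.pow h.ys 6) (by decide) (by decide)
  M20 := h.ys.le h.N_u
      (h.Λ_l.pow h.ys 6) (by decide) (by decide)
  M21 := h.ys.le h.V_u
      h.Ev_l (by decide) (by decide)
  M22 := h.ys.le (h.M_u.pow h.ys 2)
      (h.N_l.mul h.ys h.Ev_l) (by decide) (by decide)
  M23 := h.ys.le ((((h.a0_u.pow h.ys 2).mul h.ys h.Qb_u).add h.ys ((h.τb_u.pow h.ys 4).mul h.ys h.Db_u)).add h.ys ((h.τb_u.pow h.ys 2).mul h.ys h.a3_u))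
      h.Ev_l (by decide) (by decide)
  M24 := h.ys.le h.Yf_u
      h.Ev_l (by decide) (by decide)
  M25 := h.ys.le h.δ_u
      h.Ed_l (by decide) (by decide)
  M26 := h.ys.le (h.Fb_u.pow h.ys 2)
      (h.N_l.mul h.ys h.Ed_l) (by decide) (by decide)
  M27 := h.ys.le ((h.τb_u.pow h.ys 2).mul h.ys h.V_u)
      h.Ed_l (by decide) (by decide)
  M28 := h.ys.le ((h.τb_u.pow h.ys 4).mul h.ys (h.Db_u.add h.ys h.a3_u))
      h.Ed_l (by decide) (by decide)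
  M29 := h.ys.le (up_one y s)
      h.Ed_l (by decide) (by decide)
  M30 := h.ys.le h.W_u
      h.Ew_l (by decide) (by decide)
  M31 := h.ys.le ((h.a0_u.pow h.ys 4).mul h.ys h.N_u)
      h.Ew_l (by decide) (by decide)
  M32 := h.ys.le ((h.τb_u.pow h.ys 4).mul h.ys (h.P4_u.add h.ys ((h.Λ_u.pow h.ys 4).mul h.ys h.V_u)))
      h.Ew_l (by decide) (by decide)
  M33 := h.ys.le (((h.τb_u.pow h.ys 8).mul h.ys (h.Λ_u.pow h.ys 8)).mul h.ys ((up_one y s).add h.ys h.V_u))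
      h.Ew_l (by decide) (by decide)
  M34 := h.ys.le h.P4_u
      (h.Λ_l.pow h.ys 6) (by decide) (by decide)
  M0 := h.M_l.pos h.ys
  Tl0 := h.Tl_l.pos h.ys
  N2 := h.ys.le (h.ys.up_c 2 (by norm_num) (by norm_num))
      h.N_l (by decide) (by decide)
  Q1 := h.ys.le (up_one y s)
      h.Qb_l (by decide) (by decide)
  ρ1 := h1

theorem EnvM.I1 {p : Par} {q : MPar} {y s : ℝ} (h : EnvM p q y s) :
    8 * p.t ≤ p.P4 :=
  h.ys.le ((h.ys.up_c 8 (by norm_num) (by norm_num)).mul h.ys h.t_u)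
      h.P4_l (by decide) (by decide)

theorem EnvM.I2 {p : Par} {q : MPar} {y s : ℝ} (h : EnvM p q y s) :
    64 * p.t ^ 2 * p.Λ ^ 6 ≤ p.P4 ^ 3 :=
  h.ys.le (((h.ys.up_c 64 (by norm_num) (by norm_num)).mul h.ys (h.t_u.pow h.ys 2)).mul h.ys (h.Λ_u.pow h.ys 6))
      (h.P4_l.pow h.ys 3) (by decide) (by decide)

theorem EnvM.I3 {p : Par} {q : MPar} {y s : ℝ} (h : EnvM p q y s) :
    4 * p.P4 * p.Λ ^ 6 ≤ p.P5 ^ 2 :=
  h.ys.le (((h.ys.up_c 4 (by norm_num) (by norm_num)).mul h.ys h.P4_u).mul h.ys (h.Λ_u.pow h.ys 6))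
      (h.P5_l.pow h.ys 2) (by decide) (by decide)

theorem EnvM.I4 {p : Par} {q : MPar} {y s : ℝ} (h : EnvM p q y s) :
    4 * p.P4 ≤ p.P5 :=
  h.ys.le ((h.ys.up_c 4 (by norm_num) (by norm_num)).mul h.ys h.P4_u)
      h.P5_l (by decide) (by decide)

theorem EnvM.X1 {p : Par} {q : MPar} {y s : ℝ} (h : EnvM p q y s) :
    p.σx + 1 ≤ p.X :=
  h.ys.le (h.σx_u.add h.ys (up_one y s))
      h.X_l (by decide) (by decide)

theorem EnvM.L1 {p : Par} {q : MPar} {y s : ℝ} (h : EnvM p q y s) :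
    1 ≤ p.Λ :=
  h.ys.le (up_one y s)
      h.Λ_l (by decide) (by decide)

theorem EnvM.X2 {p : Par} {q : MPar} {y s : ℝ} (h : EnvM p q y s) :
    p.σx + 1 ≤ p.N :=
  h.ys.le (h.σx_u.add h.ys (up_one y s))
      h.N_l (by decide) (by decide)

end Crest.Agent.R62
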