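import Crest.Agent.R62.NumBase

/-! # Row 62: exponent bookkeeping (generated) -/

set_option autoImplicit false
set_option maxRecDepth 100000

noncomputable section

namespace Crest.Agent.R62

/-- bounds for the parameters -/
structure EnvT (p : Par) (y s : ℝ) : Prop where
  ys : YS y s
  N_u : Up y s p.N 117360 117372
  N_l : Lo y s p.N 117360 117372
  ρ_u : Up y s p.ρ 0 0
  μ_u : Up y s p.μ (-100000000) (-100000000)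
  ε_u : Up y s p.ε (-72) (-72)
  ε_l : Lo y s p.ε (-72) (-72)
  ζ_u : Up y s p.ζ 12 12
  ζ_l : Lo y s p.ζ 12 12
  θ_u : Up y s p.θ (-12) (-12)
  θ_l : Lo y s p.θ (-12) (-12)
  Λ_u : Up y s p.Λ 37380 37374
  Λ_l : Lo y s p.Λ 37380 37374
  Fb_u : Up y s p.Fb 53184 53184
  X_u : Up y s p.X 95052 95052
  X_l : Lo y s p.X 95052 95052
  Qb_u : Up y s p.Qb 117372 117384
  t_u : Up y s p.t 144036 144036
  P4_u : Up y s p.P4 170796 170784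
  P4_l : Lo y s p.P4 170796 170784
  P5_u : Up y s p.P5 197550 197526
  P5_l : Lo y s p.P5 197550 197526
  V_u : Up y s p.V 90732 90732
  V_l : Lo y s p.V 90720 90720
  δ_u : Up y s p.δ 12012 12012
  δ_l : Lo y s p.δ 12000 12000
  W_u : Up y s p.W 90732 90756
  W_l : Lo y s p.W 90684 90708
  sw_u : Up y s p.sw 45366 45378
  sw_l : Lo y s p.sw 45366 45378
  Xb_u : Up y s p.Xb 170568 170568
  Xb_l : Lo y s p.Xb 170568 170568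
  γ_u : Up y s p.γ (-64188) (-64188)
  Pl_u : Up y s p.Pl 170592 170580
  Pl_l : Lo y s p.Pl 170592 170580
  dg_u : Up y s p.dg 12 12
  dg_l : Lo y s p.dg 12 12
  κE_u : Up y s p.κE 45510 45522
  κE_l : Lo y s p.κE 45510 45522
  κ2E_u : Up y s p.κ2E 37452 37446
  κ2E_l : Lo y s p.κ2E 37452 37446
  nE_u : Up y s p.nE 117516 117528
  nE_l : Lo y s p.nE 117516 117528
  κ_u : Up y s p.κ 74772 74760
  κ_l : Lo y s p.κ 74772 74760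
  κ2_u : Up y s p.κ2 37464 37458
  κ2_l : Lo y s p.κ2 37464 37458
  Ξ2_u : Up y s p.Ξ2 245592 245568
  Ξ2_l : Lo y s p.Ξ2 245592 245568
  RF_u : Up y s p.RF 144162 144162
  RF_l : Lo y s p.RF 144162 144162
  ω_u : Up y s (p.ω - 1) 0 0
  cy_l : Lo y s p.cy 24 24
  σF_l : Lo y s p.σF 52080 52080
  σx_u : Up y s p.σx 95040 95040
  σx_l : Lo y s p.σx 95040 95040
  σT_l : Lo y s p.σT 143964 143964
  Tl_l : Lo y s p.Tl 143988 143988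

theorem EnvT.Dm_u {p : Par} {y s : ℝ} (h : EnvT p y s) :
    Up y s p.Dm 90756 90756 :=
  Up.mono h.ys (x := 2 * p.V + 2 * p.N * p.μ ^ 2)
    (((h.ys.up_c 2 (by norm_num) (by norm_num)).mul h.ys h.V_u).add h.ys (((h.ys.up_c 2 (by norm_num) (by norm_num)).mul h.ys h.N_u).mul h.ys (h.μ_u.pow h.ys 2))) (by decide) (by decide)

theorem EnvT.q2_u {p : Par} {y s : ℝ} (h : EnvT p y s) :
    Up y s p.q2 117384 117396 :=
  Up.mono h.ys (x := p.Qb + p.δ ^ 2)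
    (h.Qb_u.add h.ys (h.δ_u.pow h.ys 2)) (by decide) (by decide)

theorem EnvT.g1_u {p : Par} {y s : ℝ} (h : EnvT p y s) :
    Up y s p.g1 170808 170796 :=
  Up.mono h.ys (x := p.P4 + p.δ * p.Dm)
    (h.P4_u.add h.ys (h.δ_u.mul h.ys h.Dm_u)) (by decide) (by decide)

theorem EnvT.a3_u {p : Par} {y s : ℝ} (h : EnvT p y s) :
    Up y s p.a3 170820 170808 :=
  Up.mono h.ys (x := 2 * p.P4 + 4 * p.Λ ^ 2 * p.V)
    (((h.ys.up_c 2 (by norm_num) (by norm_num)).mul h.ys h.P4_u).add h.ys (((h.ys.up_c 4 (by norm_num) (by norm_num)).mul h.ys (h.Λ_u.pow h.ys 2)).mul h.ys h.V_u)) (by decide) (by decide)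

theorem EnvT.g2_u {p : Par} {y s : ℝ} (h : EnvT p y s) :
    Up y s p.g2 245604 245580 :=
  Up.mono h.ys (x := p.N * p.V + p.V ^ 2 + p.Λ ^ 6 + p.Qb + p.δ * p.a3 + p.ζ ^ 2 * p.Λ ^ 2 * p.P4 + p.δ ^ 2)
    (((((((h.N_u.mul h.ys h.V_u).add h.ys (h.V_u.pow h.ys 2)).add h.ys (h.Λ_u.pow h.ys 6)).add h.ys h.Qb_u).add h.ys (h.δ_u.mul h.ys h.a3_u)).add h.ys (((h.ζ_u.pow h.ys 2).mul h.ys (h.Λ_u.pow h.ys 2)).mul h.ys h.P4_u)).add h.ys (h.δ_u.pow h.ys 2)) (by decide) (by decide)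

theorem EnvT.Db_u {p : Par} {y s : ℝ} (h : EnvT p y s) :
    Up y s p.Db 117384 117396 :=
  Up.mono h.ys (x := 2 * p.N * p.ρ ^ 2 + 2 * p.V)
    ((((h.ys.up_c 2 (by norm_num) (by norm_num)).mul h.ys h.N_u).mul h.ys (h.ρ_u.pow h.ys 2)).add h.ys ((h.ys.up_c 2 (by norm_num) (by norm_num)).mul h.ys h.V_u)) (by decide) (by decide)

theorem EnvT.Om_u {p : Par} {y s : ℝ} (h : EnvT p y s) :
    Up y s p.Om 136110 136122 :=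
  Up.mono h.ys (x := p.Qb + p.Db + p.V + p.sw * p.V)
    (((h.Qb_u.add h.ys h.Db_u).add h.ys h.V_u).add h.ys (h.sw_u.mul h.ys h.V_u)) (by decide) (by decide)

theorem EnvT.B_u {p : Par} {y s : ℝ} (h : EnvT p y s) :
    Up y s p.B 90756 90756 :=
  Up.mono h.ys (x := 2 * p.Λ ^ 2 + 4 * p.V)
    (((h.ys.up_c 2 (by norm_num) (by norm_num)).mul h.ys (h.Λ_u.pow h.ys 2)).add h.ys ((h.ys.up_c 4 (by norm_num) (by norm_num)).mul h.ys h.V_u)) (by decide) (by decide)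

theorem EnvT.g3_u {p : Par} {y s : ℝ} (h : EnvT p y s) :
    Up y s p.g3 299112 299064 :=
  Up.mono h.ys (x := p.ζ ^ 2 * p.Λ ^ 8 + p.a3 * p.Dm + p.δ * (p.Λ ^ 4 * p.B) + p.δ * p.Db + p.P4)
    ((((((h.ζ_u.pow h.ys 2).mul h.ys (h.Λ_u.pow h.ys 8)).add h.ys (h.a3_u.mul h.ys h.Dm_u)).add h.ys (h.δ_u.mul h.ys ((h.Λ_u.pow h.ys 4).mul h.ys h.B_u))).add h.ys (h.δ_u.mul h.ys h.Db_u)).add h.ys h.P4_u) (by decide) (by decide)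

theorem EnvT.g6_u {p : Par} {y s : ℝ} (h : EnvT p y s) :
    Up y s p.g6 523428 523344 :=
  Up.mono h.ys (x := p.ζ ^ 2 * p.Λ ^ 14 + p.Λ ^ 8 * p.B * p.Dm + p.δ * (p.Λ ^ 10 * p.B) + p.a3 * (p.Λ ^ 6 * p.B) + (p.Λ ^ 4 * p.B) ^ 2 + p.δ * (p.Λ ^ 6 * p.B) + p.Db * (p.Λ ^ 4 * p.B) + p.a3 ^ 2)
    (((((((((h.ζ_u.pow h.ys 2).mul h.ys (h.Λ_u.pow h.ys 14)).add h.ys (((h.Λ_u.pow h.ys 8).mul h.ys h.B_u).mul h.ys h.Dm_u)).add h.ys (h.δ_u.mul h.ys ((h.Λ_u.pow h.ys 10).mul h.ys h.B_u))).add h.ys (h.a3_u.mul h.ys ((h.Λ_u.pow h.ys 6).mul h.ys h.B_u))).add h.ys (((h.Λ_u.pow h.ys 4).mul h.ys h.B_u).pow h.ys 2)).add h.ys (h.δ_u.mul h.ys ((h.Λ_u.pow h.ys 6).mul h.ys h.B_u))).add h.ys (h.Db_u.mul h.ys ((h.Λ_u.pow h.ys 4).mul h.ys h.B_u))).add h.ys (h.a3_u.pow h.ys 2)) (by decide) (by decide)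

theorem EnvT.g5_u {p : Par} {y s : ℝ} (h : EnvT p y s) :
    Up y s p.g5 448644 448572 :=
  Up.mono h.ys (x := p.ζ ^ 2 * p.Λ ^ 12 + p.Λ ^ 6 * p.B * p.Dm + p.δ * (p.Λ ^ 8 * p.B) + p.a3 * (p.Λ ^ 4 * p.B) + p.δ * (p.Λ ^ 4 * p.B) + p.Db * p.a3)
    (((((((h.ζ_u.pow h.ys 2).mul h.ys (h.Λ_u.pow h.ys 12)).add h.ys (((h.Λ_u.pow h.ys 6).mul h.ys h.B_u).mul h.ys h.Dm_u)).add h.ys (h.δ_u.mul h.ys ((h.Λ_u.pow h.ys 8).mul h.ys h.B_u))).add h.ys (h.a3_u.mul h.ys ((h.Λ_u.pow h.ys 4).mul h.ys h.B_u))).add h.ys (h.δ_u.mul h.ys ((h.Λ_u.pow h.ys 4).mul h.ys h.B_u))).add h.ys (h.Db_u.mul h.ys h.a3_u)) (by decide) (by decide)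

theorem EnvT.g4_u {p : Par} {y s : ℝ} (h : EnvT p y s) :
    Up y s p.g4 373884 373824 :=
  Up.mono h.ys (x := p.ζ ^ 2 * p.Λ ^ 10 + p.Λ ^ 4 * p.B * p.Dm + p.δ * (p.Λ ^ 6 * p.B) + p.a3 ^ 2 + p.δ * p.a3 + p.Db ^ 2)
    (((((((h.ζ_u.pow h.ys 2).mul h.ys (h.Λ_u.pow h.ys 10)).add h.ys (((h.Λ_u.pow h.ys 4).mul h.ys h.B_u).mul h.ys h.Dm_u)).add h.ys (h.δ_u.mul h.ys ((h.Λ_u.pow h.ys 6).mul h.ys h.B_u))).add h.ys (h.a3_u.pow h.ys 2)).add h.ys (h.δ_u.mul h.ys h.a3_u)).add h.ys (h.Db_u.pow h.ys 2)) (by decide) (by decide)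

theorem EnvT.er_u {p : Par} {y s : ℝ} (h : EnvT p y s) :
    Up y s p.er 165516 165504 :=
  Up.mono h.ys (x := 8 * p.Λ ^ 2 * p.V + 4 * p.nE)
    ((((h.ys.up_c 8 (by norm_num) (by norm_num)).mul h.ys (h.Λ_u.pow h.ys 2)).mul h.ys h.V_u).add h.ys ((h.ys.up_c 4 (by norm_num) (by norm_num)).mul h.ys h.nE_u)) (by decide) (by decide)

theorem EnvT.cF {p : Par} {y s : ℝ} (h : EnvT p y s) :
    CondF p (p.θ * p.σF) where
  F1 := h.ys.le (h.Fb_u.mul h.ys h.X_u)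
      (h.N_l.mul h.ys (h.θ_l.mul h.ys h.σF_l)) (by decide) (by decide)
  F2 := h.ys.le (((h.κ_u.pow h.ys 2).mul h.ys h.δ_u).mul h.ys h.Dm_u)
      ((h.N_l.mul h.ys (h.θ_l.mul h.ys h.σF_l)).pow h.ys 2) (by decide) (by decide)
  F3 := h.ys.le h.RF_u
      (h.N_l.mul h.ys (h.θ_l.mul h.ys h.σF_l)) (by decide) (by decide)
  F4 := h.ys.le (h.q2_u.mul h.ys h.g1_u)
      ((h.N_l.mul h.ys (h.θ_l.mul h.ys h.σF_l)).pow h.ys 2) (by decide) (by decide)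

theorem EnvT.cQ {p : Par} {y s : ℝ} (h : EnvT p y s) :
    CondQ p (p.θ * p.σx) where
  Q1 := h.ys.le h.ρ_u
      (h.θ_l.mul h.ys h.σx_l) (by decide) (by decide)
  Q2 := h.ys.le ((((h.μ_u.pow h.ys 2).mul h.ys (h.κ_u.pow h.ys 2)).mul h.ys h.N_u).mul h.ys h.V_u)
      ((h.N_l.mul h.ys (h.θ_l.mul h.ys h.σx_l)).pow h.ys 2) (by decide) (by decide)
  Q3 := h.ys.le (h.X_u.pow h.ys 2)
      (h.N_l.mul h.ys (h.θ_l.mul h.ys h.σx_l)) (by decide) (by decide)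
  Q4 := h.ys.le (h.κ_u.mul h.ys h.V_u)
      (h.N_l.mul h.ys (h.θ_l.mul h.ys h.σx_l)) (by decide) (by decide)
  Q5 := Or.inr (h.ys.le (((h.κ2_u.pow h.ys 2).mul h.ys h.N_u).mul h.ys (h.Λ_u.pow h.ys 6))
      ((h.N_l.mul h.ys (h.θ_l.mul h.ys h.σx_l)).pow h.ys 2) (by decide) (by decide))
  Q6 := h.ys.le (((h.κ2_u.pow h.ys 2).mul h.ys h.N_u).mul h.ys h.Qb_u)
      ((h.N_l.mul h.ys (h.θ_l.mul h.ys h.σx_l)).pow h.ys 2) (by decide) (by decide)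
  Q7 := h.ys.le (h.Fb_u.mul h.ys h.t_u)
      (h.N_l.mul h.ys (h.θ_l.mul h.ys h.σx_l)) (by decide) (by decide)
  Q8 := h.ys.le (((h.κ_u.pow h.ys 2).mul h.ys h.δ_u).mul h.ys h.a3_u)
      ((h.N_l.mul h.ys (h.θ_l.mul h.ys h.σx_l)).pow h.ys 2) (by decide) (by decide)
  Q9 := h.ys.le (h.q2_u.mul h.ys h.g2_u)
      ((h.N_l.mul h.ys (h.θ_l.mul h.ys h.σx_l)).pow h.ys 2) (by decide) (by decide)
  Q10 := h.ys.le h.Qb_u
      (h.N_l.mul h.ys (h.θ_l.mul h.ys h.σx_l)) (by decide) (by decide)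
  Q11 := h.ys.le h.δ_u
      (h.θ_l.mul h.ys h.σx_l) (by decide) (by decide)
  Q12 := h.ys.le h.g1_u
      (h.N_l.mul h.ys (h.θ_l.mul h.ys h.σx_l)) (by decide) (by decide)

theorem EnvT.cV {p : Par} {y s : ℝ} (h : EnvT p y s) :
    CondV p (p.θ * p.V) where
  V1 := h.ys.le (h.ρ_u.mul h.ys (h.X_u.pow h.ys 2))
      (h.N_l.mul h.ys (h.θ_l.mul h.ys h.V_l)) (by decide) (by decide)
  V2 := h.ys.le (h.V_u.mul h.ys h.X_u)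
      (h.N_l.mul h.ys (h.θ_l.mul h.ys h.V_l)) (by decide) (by decide)
  V3 := h.ys.le ((h.ρ_u.mul h.ys h.X_u).mul h.ys (h.κ_u.add h.ys (h.ys.up_c 8 (by norm_num) (by norm_num))))
      (h.N_l.mul h.ys (h.θ_l.mul h.ys h.V_l)) (by decide) (by decide)
  V4 := h.ys.le ((((h.κ2_u.pow h.ys 2).mul h.ys h.V_u).mul h.ys h.Db_u).mul h.ys h.Dm_u)
      ((h.N_l.mul h.ys (h.θ_l.mul h.ys h.V_l)).pow h.ys 2) (by decide) (by decide)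
  V5 := h.ys.le h.X_u
      (h.N_l.mul h.ys (h.θ_l.mul h.ys h.V_l)) (by decide) (by decide)
  V6 := h.ys.le (((h.κ_u.pow h.ys 2).mul h.ys h.V_u).mul h.ys h.a3_u)
      ((h.N_l.mul h.ys (h.θ_l.mul h.ys h.V_l)).pow h.ys 2) (by decide) (by decide)
  V7 := h.ys.le (((h.Fb_u.pow h.ys 2).mul h.ys h.V_u).mul h.ys h.a3_u)
      ((h.N_l.mul h.ys (h.θ_l.mul h.ys h.V_l)).pow h.ys 2) (by decide) (by decide)
  V8 := h.ys.le ((((h.κ_u.pow h.ys 2).mul h.ys h.δ_u).mul h.ys h.V_u).mul h.ys h.Om_u)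
      ((h.N_l.mul h.ys (h.θ_l.mul h.ys h.V_l)).pow h.ys 2) (by decide) (by decide)
  V9 := h.ys.le (((h.q2_u.mul h.ys h.δ_u).mul h.ys h.V_u).mul h.ys h.Om_u)
      ((h.N_l.mul h.ys (h.θ_l.mul h.ys h.V_l)).pow h.ys 2) (by decide) (by decide)
  V10 := h.ys.le ((h.q2_u.mul h.ys h.V_u).mul h.ys h.a3_u)
      ((h.N_l.mul h.ys (h.θ_l.mul h.ys h.V_l)).pow h.ys 2) (by decide) (by decide)
  V11 := h.ys.le ((((h.δ_u.pow h.ys 2).mul h.ys h.W_u).mul h.ys h.V_u).mul h.ys h.Dm_u)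
      ((h.N_l.mul h.ys (h.θ_l.mul h.ys h.V_l)).pow h.ys 2) (by decide) (by decide)
  V12 := h.ys.le (((h.V_u.mul h.ys h.Db_u).mul h.ys h.Dm_u).mul h.ys h.δ_u)
      ((h.N_l.mul h.ys (h.θ_l.mul h.ys h.V_l)).pow h.ys 2) (by decide) (by decide)
  V13 := h.ys.le ((((h.ε_u.pow h.ys 2).mul h.ys h.N_u).mul h.ys h.Db_u).mul h.ys (h.V_u.pow h.ys 2))
      ((h.N_l.mul h.ys (h.θ_l.mul h.ys h.V_l)).pow h.ys 2) (by decide) (by decide)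
  V14 := h.ys.le (((((h.μ_u.pow h.ys 2).mul h.ys h.q2_u).mul h.ys h.N_u).mul h.ys h.W_u).mul h.ys h.V_u)
      ((h.N_l.mul h.ys (h.θ_l.mul h.ys h.V_l)).pow h.ys 2) (by decide) (by decide)
  V15 := h.ys.le (((h.W_u.mul h.ys h.V_u).mul h.ys h.δ_u).mul h.ys h.P4_u)
      ((h.N_l.mul h.ys (h.θ_l.mul h.ys h.V_l)).pow h.ys 2) (by decide) (by decide)
  V16 := h.ys.le ((h.V_u.mul h.ys h.Db_u).mul h.ys h.P4_u)
      ((h.N_l.mul h.ys (h.θ_l.mul h.ys h.V_l)).pow h.ys 2) (by decide) (by decide)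
  V17 := h.ys.le h.a3_u
      (h.N_l.mul h.ys (h.θ_l.mul h.ys h.V_l)) (by decide) (by decide)
  V18 := h.ys.le (h.δ_u.mul h.ys h.Om_u)
      (h.N_l.mul h.ys (h.θ_l.mul h.ys h.V_l)) (by decide) (by decide)
  V19 := h.ys.le ((h.μ_u.pow h.ys 2).mul h.ys h.W_u)
      (h.θ_l.mul h.ys h.V_l) (by decide) (by decide)
  V20 := h.ys.le ((((h.ζ_u.pow h.ys 2).mul h.ys (h.Λ_u.pow h.ys 2)).mul h.ys h.δ_u).mul h.ys h.W_u)
      (h.N_l.mul h.ys (h.θ_l.mul h.ys h.V_l)) (by decide) (by decide)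
  V21 := h.ys.le (((h.ζ_u.pow h.ys 2).mul h.ys (h.Λ_u.pow h.ys 2)).mul h.ys h.Db_u)
      (h.N_l.mul h.ys (h.θ_l.mul h.ys h.V_l)) (by decide) (by decide)
  V22 := h.ys.le h.ρ_u
      (h.θ_l.mul h.ys h.V_l) (by decide) (by decide)

theorem EnvT.cD {p : Par} {y s : ℝ} (h : EnvT p y s) :
    CondD p (p.θ * p.δ) where
  D1 := h.ys.le h.Fb_u
      (h.N_l.mul h.ys (h.θ_l.mul h.ys h.δ_l)) (by decide) (by decide)
  D2 := h.ys.le (h.δ_u.mul h.ys h.Ξ2_u)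
      ((h.N_l.mul h.ys (h.θ_l.mul h.ys h.δ_l)).pow h.ys 2) (by decide) (by decide)
  D3 := h.ys.le (((h.Fb_u.pow h.ys 2).mul h.ys h.δ_u).mul h.ys h.Db_u)
      ((h.N_l.mul h.ys (h.θ_l.mul h.ys h.δ_l)).pow h.ys 2) (by decide) (by decide)
  D4 := h.ys.le (((h.κ2_u.pow h.ys 2).mul h.ys (h.δ_u.pow h.ys 2)).mul h.ys h.Db_u)
      ((h.N_l.mul h.ys (h.θ_l.mul h.ys h.δ_l)).pow h.ys 2) (by decide) (by decide)
  D5 := h.ys.le ((h.q2_u.mul h.ys h.δ_u).mul h.ys h.Db_u)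
      ((h.N_l.mul h.ys (h.θ_l.mul h.ys h.δ_l)).pow h.ys 2) (by decide) (by decide)
  D6 := h.ys.le ((((h.ε_u.pow h.ys 2).mul h.ys h.N_u).mul h.ys h.Db_u).mul h.ys (h.δ_u.pow h.ys 2))
      ((h.N_l.mul h.ys (h.θ_l.mul h.ys h.δ_l)).pow h.ys 2) (by decide) (by decide)
  D7 := h.ys.le h.Db_u
      (h.N_l.mul h.ys (h.θ_l.mul h.ys h.δ_l)) (by decide) (by decide)
  D8 := h.ys.le (h.ε_u.mul h.ys h.δ_u)
      (h.θ_l.mul h.ys h.δ_l) (by decide) (by decide)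
  D9 := h.ys.le (((h.κ2_u.pow h.ys 2).mul h.ys (h.δ_u.pow h.ys 2)).mul h.ys h.N_u)
      ((h.N_l.mul h.ys (h.θ_l.mul h.ys h.δ_l)).pow h.ys 2) (by decide) (by decide)

theorem EnvT.cW {p : Par} {y s : ℝ} (h : EnvT p y s) :
    CondW p (p.θ * p.W) where
  W1 := h.ys.le (h.ε_u.mul h.ys h.W_u)
      (h.θ_l.mul h.ys h.W_l) (by decide) (by decide)
  W2 := h.ys.le (h.ω_u.mul h.ys (h.W_u.pow h.ys 2))
      (h.N_l.mul h.ys (h.θ_l.mul h.ys h.W_l)) (by decide) (by decide)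
  W3 := Or.inl (h.ys.le (((h.ζ_u.pow h.ys 2).mul h.ys (h.Λ_u.pow h.ys 2)).mul h.ys h.Db_u)
      (h.N_l.mul h.ys (h.θ_l.mul h.ys h.W_l)) (by decide) (by decide))
  W4 := Or.inl (h.ys.le ((((h.ζ_u.pow h.ys 2).mul h.ys (h.Λ_u.pow h.ys 2)).mul h.ys h.δ_u).mul h.ys h.W_u)
      ((h.ε_l.pow h.ys 3).mul h.ys (h.N_l.mul h.ys (h.θ_l.mul h.ys h.W_l))) (by decide) (by decide))
  W5 := h.ys.le (((up_one y s).add h.ys h.δ_u).mul h.ys h.Om_u)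
      (h.ε_l.mul h.ys (h.N_l.mul h.ys (h.θ_l.mul h.ys h.W_l))) (by decide) (by decide)
  W6 := h.ys.le (h.Qb_u.mul h.ys h.W_u)
      ((h.N_l.mul h.ys (h.θ_l.mul h.ys h.W_l)).pow h.ys 2) (by decide) (by decide)
  W7 := h.ys.le (((h.κ_u.pow h.ys 2).mul h.ys h.W_u).mul h.ys h.Om_u)
      ((h.N_l.mul h.ys (h.θ_l.mul h.ys h.W_l)).pow h.ys 2) (by decide) (by decide)
  W8 := h.ys.le (((h.N_u.mul h.ys h.δ_u).mul h.ys h.W_u).mul h.ys h.Om_u)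
      ((h.N_l.mul h.ys (h.θ_l.mul h.ys h.W_l)).pow h.ys 2) (by decide) (by decide)
  W9 := h.ys.le ((h.q2_u.mul h.ys h.W_u).mul h.ys h.Om_u)
      ((h.N_l.mul h.ys (h.θ_l.mul h.ys h.W_l)).pow h.ys 2) (by decide) (by decide)
  W10 := h.ys.le ((h.δ_u.pow h.ys 2).mul h.ys h.W_u)
      ((h.ε_l.pow h.ys 3).mul h.ys (h.N_l.mul h.ys (h.θ_l.mul h.ys h.W_l))) (by decide) (by decide)
  W11 := h.ys.le (((h.κ2_u.pow h.ys 2).mul h.ys h.N_u).mul h.ys (h.W_u.pow h.ys 2))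
      ((h.N_l.mul h.ys (h.θ_l.mul h.ys h.W_l)).pow h.ys 2) (by decide) (by decide)
  W12 := h.ys.le (h.δ_u.pow h.ys 2)
      (h.θ_l.mul h.ys h.W_l) (by decide) (by decide)

theorem EnvT.S1 {p : Par} {y s : ℝ} (h : EnvT p y s) :
    p.g1 ≤ p.N * (p.θ * p.σF ^ 2) :=
  h.ys.le h.g1_u
      (h.N_l.mul h.ys (h.θ_l.mul h.ys (h.σF_l.pow h.ys 2))) (by decide) (by decide)

theorem EnvT.S2 {p : Par} {y s : ℝ} (h : EnvT p y s) :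
    p.g2 + p.ζ ^ 2 * p.Λ ^ 2 * p.g1 ≤ p.N * (p.θ * p.σx ^ 2) :=
  h.ys.le (h.g2_u.add h.ys (((h.ζ_u.pow h.ys 2).mul h.ys (h.Λ_u.pow h.ys 2)).mul h.ys h.g1_u))
      (h.N_l.mul h.ys (h.θ_l.mul h.ys (h.σx_l.pow h.ys 2))) (by decide) (by decide)

theorem EnvT.S2c {p : Par} {y s : ℝ} (h : EnvT p y s) :
    p.ρ ≤ p.N * (p.θ * p.σx ^ 2) :=
  h.ys.le h.ρ_u
      (h.N_l.mul h.ys (h.θ_l.mul h.ys (h.σx_l.pow h.ys 2))) (by decide) (by decide)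

theorem EnvT.wt {p : Par} {y s : ℝ} (h : EnvT p y s) (h1 : 1 ≤ p.ω) (h2 : p.ω ≤ 2) :
    CondWt p where
  E1 := h.ys.le h.dg_u
      h.κE_l (by decide) (by decide)
  E2 := h.ys.le h.sw_u
      ((h.ε_l.pow h.ys 2).mul h.ys h.κE_l) (by decide) (by decide)
  E3 := h.ys.le h.δ_u
      (h.ε_l.mul h.ys h.κE_l) (by decide) (by decide)
  E4 := h.ys.le h.V_u
      ((h.κE_l.mul h.ys (h.ζ_l.pow h.ys 2)).mul h.ys (h.Λ_l.pow h.ys 2)) (by decide) (by decide)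
  E5 := h.ys.le h.dg_u
      h.κ2E_l (by decide) (by decide)
  E6 := h.ys.le h.Λ_u
      (h.ε_l.mul h.ys h.κ2E_l) (by decide) (by decide)
  E7 := h.ys.le h.δ_u
      (h.ε_l.mul h.ys h.κ2E_l) (by decide) (by decide)
  E8 := h.ys.le h.V_u
      ((h.κ2E_l.mul h.ys (h.ζ_l.pow h.ys 2)).mul h.ys (h.Λ_l.pow h.ys 2)) (by decide) (by decide)
  E9 := h.ys.le (h.dg_u.mul h.ys h.N_u)
      h.nE_l (by decide) (by decide)
  E10 := h.ys.le h.Qb_u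
      ((h.ε_l.pow h.ys 2).mul h.ys h.nE_l) (by decide) (by decide)
  E11 := h.ys.le (h.δ_u.pow h.ys 2)
      ((h.ε_l.pow h.ys 2).mul h.ys h.nE_l) (by decide) (by decide)
  E12 := h.ys.le (h.V_u.pow h.ys 2)
      ((h.nE_l.mul h.ys (h.ζ_l.pow h.ys 4)).mul h.ys (h.Λ_l.pow h.ys 4)) (by decide) (by decide)
  E14 := h.ys.le ((h.ys.up_c 200 (by norm_num) (by norm_num)).mul h.ys h.κE_u)
      h.κ_l (by decide) (by decide)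
  E15 := h.ys.le ((h.ys.up_c 400 (by norm_num) (by norm_num)).mul h.ys h.κ2E_u)
      h.κ2_l (by decide) (by decide)
  E16 := h.ys.le (((h.ys.up_c 40000 (by norm_num) (by norm_num)).mul h.ys (h.κE_u.pow h.ys 2)).mul h.ys h.Db_u)
      h.Ξ2_l (by decide) (by decide)
  E17 := h.ys.le ((h.ys.up_c 4 (by norm_num) (by norm_num)).mul h.ys h.N_u)
      h.RF_l (by decide) (by decide)
  E18 := h.ys.le (((h.ys.up_c 40000 (by norm_num) (by norm_num)).mul h.ys h.nE_u).mul h.ys h.P4_u)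
      (h.RF_l.pow h.ys 2) (by decide) (by decide)
  κE0 := h.κE_u.1
  κ2E0 := h.κ2E_u.1
  RF0 := h.RF_u.1
  ω1 := h1
  ω2 := h2
  γ0 := h.γ_u.1

theorem EnvT.gl {p : Par} {y s : ℝ} (h : EnvT p y s) (h8 : p.Qb ≤ 2 * p.N) (h9 : p.W ≤ p.N) :
    Glob p where
  H1 := h.ys.le h.κ_u
      (h.θ_l.mul h.ys h.N_l) (by decide) (by decide)
  H2 := h.ys.le (h.κ2_u.pow h.ys 2)
      ((h.θ_l.pow h.ys 2).mul h.ys h.N_l) (by decide) (by decide)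
  H3 := h.ys.le h.dg_u
      (h.θ_l.mul h.ys h.cy_l) (by decide) (by decide)
  H4 := h.ys.le h.V_u
      h.N_l (by decide) (by decide)
  H5 := h.ys.le h.P4_u
      (h.Λ_l.pow h.ys 6) (by decide) (by decide)
  H6 := h.ys.le (up_one y s)
      (h.ε_l.mul h.ys h.N_l) (by decide) (by decide)
  H7 := h.ys.le (up_one y s)
      (h.θ_l.mul h.ys h.N_l) (by decide) (by decide)
  H8 := h8
  H9 := h9
  H10 := h.ys.le ((h.ys.up_c 100 (by norm_num) (by norm_num)).mul h.ys h.ε_u)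
      (lo_one y s) (by decide) (by decide)
  H11 := h.ys.le ((h.ys.up_c 100 (by norm_num) (by norm_num)).mul h.ys h.θ_u)
      (lo_one y s) (by decide) (by decide)
  H12 := h.ys.le (h.ys.up_c 6 (by norm_num) (by norm_num))
      h.ζ_l (by decide) (by decide)
  H13 := h.ys.le h.W_u
      (h.sw_l.pow h.ys 2) (by decide) (by decide)
  H14 := h.ys.le (up_one y s)
      h.dg_l (by decide) (by decide)
  ε0 := h.ε_l.pos h.ys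
  θ0 := h.θ_l.pos h.ys
  N0 := h.N_l.pos h.ys
  sw0 := h.sw_u.1
  cy0 := h.cy_l.pos h.ys

theorem EnvT.cT {p : Par} {y s : ℝ} (h : EnvT p y s) :
    CondT p (p.θ * p.σT) where
  T1 := h.ys.le (up_one y s)
      (h.θ_l.mul h.ys h.σT_l) (by decide) (by decide)
  T2 := h.ys.le (h.κ_u.mul h.ys h.P4_u)
      (h.N_l.mul h.ys (h.θ_l.mul h.ys h.σT_l)) (by decide) (by decide)
  T3 := h.ys.le (h.t_u.mul h.ys h.X_u)
      (h.N_l.mul h.ys (h.θ_l.mul h.ys h.σT_l)) (by decide) (by decide)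
  T4 := h.ys.le (((h.κ_u.pow h.ys 2).mul h.ys h.a3_u).mul h.ys h.Dm_u)
      ((h.N_l.mul h.ys (h.θ_l.mul h.ys h.σT_l)).pow h.ys 2) (by decide) (by decide)
  T5 := h.ys.le (h.Fb_u.mul h.ys h.P4_u)
      (h.N_l.mul h.ys (h.θ_l.mul h.ys h.σT_l)) (by decide) (by decide)
  T6 := h.ys.le (((h.κ_u.pow h.ys 2).mul h.ys h.δ_u).mul h.ys ((h.Λ_u.pow h.ys 4).mul h.ys h.B_u))
      ((h.N_l.mul h.ys (h.θ_l.mul h.ys h.σT_l)).pow h.ys 2) (by decide) (by decide)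
  T7 := h.ys.le (h.q2_u.mul h.ys h.g3_u)
      ((h.N_l.mul h.ys (h.θ_l.mul h.ys h.σT_l)).pow h.ys 2) (by decide) (by decide)
  T8 := h.ys.le (h.P4_u.mul h.ys (h.Λ_u.pow h.ys 6))
      ((h.N_l.mul h.ys (h.θ_l.mul h.ys h.σT_l)).pow h.ys 2) (by decide) (by decide)
  T9 := h.ys.le ((h.N_u.mul h.ys h.δ_u).mul h.ys (h.Qb_u.pow h.ys 2))
      ((h.N_l.mul h.ys (h.θ_l.mul h.ys h.σT_l)).pow h.ys 2) (by decide) (by decide)
  T10 := h.ys.le h.g1_u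
      ((h.θ_l.mul h.ys h.σT_l).pow h.ys 2) (by decide) (by decide)
  T11 := h.ys.le (h.g1_u.mul h.ys h.g2_u)
      ((h.N_l.mul h.ys (h.θ_l.mul h.ys h.σT_l)).pow h.ys 2) (by decide) (by decide)
  T12 := h.ys.le ((h.ζ_u.mul h.ys h.Λ_u).mul h.ys h.g1_u)
      (h.N_l.mul h.ys (h.θ_l.mul h.ys h.σT_l)) (by decide) (by decide)

theorem EnvT.cU {p : Par} {y s : ℝ} (h : EnvT p y s) :
    CondU p (p.θ * p.Λ ^ 6) where
  U2 := h.ys.le (h.κ_u.mul h.ys (h.Λ_u.pow h.ys 7))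
      (h.N_l.mul h.ys (h.θ_l.mul h.ys (h.Λ_l.pow h.ys 6))) (by decide) (by decide)
  U3 := h.ys.le ((h.Λ_u.pow h.ys 6).mul h.ys h.X_u)
      (h.N_l.mul h.ys (h.θ_l.mul h.ys (h.Λ_l.pow h.ys 6))) (by decide) (by decide)
  U4 := h.ys.le (((h.κ_u.pow h.ys 2).mul h.ys ((h.Λ_u.pow h.ys 8).mul h.ys h.B_u)).mul h.ys h.Dm_u)
      ((h.N_l.mul h.ys (h.θ_l.mul h.ys (h.Λ_l.pow h.ys 6))).pow h.ys 2) (by decide) (by decide)
  U5 := h.ys.le (h.Fb_u.mul h.ys (h.Λ_u.pow h.ys 7))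
      (h.N_l.mul h.ys (h.θ_l.mul h.ys (h.Λ_l.pow h.ys 6))) (by decide) (by decide)
  U6 := h.ys.le (((h.κ_u.pow h.ys 2).mul h.ys h.δ_u).mul h.ys ((h.Λ_u.pow h.ys 10).mul h.ys h.B_u))
      ((h.N_l.mul h.ys (h.θ_l.mul h.ys (h.Λ_l.pow h.ys 6))).pow h.ys 2) (by decide) (by decide)
  U7 := h.ys.le (h.t_u.mul h.ys h.P5_u)
      (h.N_l.mul h.ys (h.θ_l.mul h.ys (h.Λ_l.pow h.ys 6))) (by decide) (by decide)
  U8 := h.ys.le (h.P4_u.pow h.ys 2)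
      (h.N_l.mul h.ys (h.θ_l.mul h.ys (h.Λ_l.pow h.ys 6))) (by decide) (by decide)
  U9 := h.ys.le (h.q2_u.mul h.ys h.g6_u)
      ((h.N_l.mul h.ys (h.θ_l.mul h.ys (h.Λ_l.pow h.ys 6))).pow h.ys 2) (by decide) (by decide)
  U10 := h.ys.le (h.P4_u.mul h.ys (h.Λ_u.pow h.ys 12))
      ((h.N_l.mul h.ys (h.θ_l.mul h.ys (h.Λ_l.pow h.ys 6))).pow h.ys 2) (by decide) (by decide)
  U11 := h.ys.le (h.Λ_u.pow h.ys 8)
      (h.N_l.mul h.ys (h.θ_l.mul h.ys (h.Λ_l.pow h.ys 6))) (by decide) (by decide)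
  U12 := h.ys.le ((h.N_u.mul h.ys h.δ_u).mul h.ys (h.P5_u.pow h.ys 2))
      ((h.N_l.mul h.ys (h.θ_l.mul h.ys (h.Λ_l.pow h.ys 6))).pow h.ys 2) (by decide) (by decide)
  U13 := h.ys.le (h.Qb_u.mul h.ys h.P4_u)
      (h.N_l.mul h.ys (h.θ_l.mul h.ys (h.Λ_l.pow h.ys 6))) (by decide) (by decide)
  U14 := h.ys.le (h.t_u.pow h.ys 2)
      (h.N_l.mul h.ys (h.θ_l.mul h.ys (h.Λ_l.pow h.ys 6))) (by decide) (by decide)
  U15 := h.ys.le (h.g1_u.mul h.ys h.g5_u)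
      ((h.N_l.mul h.ys (h.θ_l.mul h.ys (h.Λ_l.pow h.ys 6))).pow h.ys 2) (by decide) (by decide)
  U16 := h.ys.le (((h.N_u.pow h.ys 2).add h.ys h.g2_u).mul h.ys h.g4_u)
      ((h.N_l.mul h.ys (h.θ_l.mul h.ys (h.Λ_l.pow h.ys 6))).pow h.ys 2) (by decide) (by decide)
  U17 := h.ys.le h.g3_u
      (h.N_l.mul h.ys (h.θ_l.mul h.ys (h.Λ_l.pow h.ys 6))) (by decide) (by decide)
  U18 := h.ys.le (((h.ζ_u.pow h.ys 4).mul h.ys (h.Λ_u.pow h.ys 4)).mul h.ys h.g1_u)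
      (h.N_l.mul h.ys (h.θ_l.mul h.ys (h.Λ_l.pow h.ys 6))) (by decide) (by decide)
  U19 := h.ys.le h.N_u
      (h.θ_l.mul h.ys (h.Λ_l.pow h.ys 6)) (by decide) (by decide)
  U20 := h.ys.le (((h.ζ_u.pow h.ys 2).mul h.ys (h.Λ_u.pow h.ys 2)).mul h.ys h.g2_u)
      (h.N_l.mul h.ys (h.θ_l.mul h.ys (h.Λ_l.pow h.ys 6))) (by decide) (by decide)

theorem EnvT.cX {p : Par} {y s : ℝ} (h : EnvT p y s) :
    CondX p (p.θ * p.Xb) where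
  X2 := h.ys.le ((h.κ_u.mul h.ys h.Λ_u).mul h.ys h.P4_u)
      (h.N_l.mul h.ys (h.θ_l.mul h.ys h.Xb_l)) (by decide) (by decide)
  X3 := h.ys.le (((h.N_u.mul h.ys h.δ_u).mul h.ys (h.Λ_u.pow h.ys 2)).mul h.ys (h.P4_u.pow h.ys 2))
      ((h.N_l.mul h.ys (h.θ_l.mul h.ys h.Xb_l)).pow h.ys 2) (by decide) (by decide)
  X4 := h.ys.le ((h.q2_u.mul h.ys (h.Λ_u.pow h.ys 6)).mul h.ys h.P4_u)
      ((h.N_l.mul h.ys (h.θ_l.mul h.ys h.Xb_l)).pow h.ys 2) (by decide) (by decide)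
  X5 := h.ys.le (h.q2_u.mul h.ys (h.Λ_u.pow h.ys 4))
      ((h.θ_l.mul h.ys h.Xb_l).pow h.ys 2) (by decide) (by decide)
  X6 := h.ys.le (((h.N_u.mul h.ys h.δ_u).mul h.ys (h.Λ_u.pow h.ys 4)).mul h.ys h.P4_u)
      ((h.N_l.mul h.ys (h.θ_l.mul h.ys h.Xb_l)).pow h.ys 2) (by decide) (by decide)
  X7 := h.ys.le (h.X_u.mul h.ys h.Xb_u)
      (h.N_l.mul h.ys (h.θ_l.mul h.ys h.Xb_l)) (by decide) (by decide)
  X8 := h.ys.le (h.κ_u.mul h.ys (h.Λ_u.pow h.ys 2))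
      (h.θ_l.mul h.ys h.Xb_l) (by decide) (by decide)
  X9 := h.ys.le ((h.Qb_u.pow h.ys 3).mul h.ys h.Xb_u)
      ((h.N_l.mul h.ys (h.θ_l.mul h.ys h.Xb_l)).pow h.ys 2) (by decide) (by decide)
  X10 := h.ys.le (((h.Λ_u.pow h.ys 4).mul h.ys ((((h.N_u.add h.ys ((h.Λ_u.pow h.ys 2).mul h.ys h.V_u)).add h.ys ((h.Λ_u.pow h.ys 2).mul h.ys h.δ_u)).add h.ys (h.N_u.mul h.ys (h.δ_u.pow h.ys 2))).add h.ys h.P4_u)).add h.ys ((((h.Λ_u.pow h.ys 2).mul h.ys h.N_u).mul h.ys h.δ_u).mul h.ys ((up_one y s).add h.ys h.V_u)))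
      ((h.θ_l.mul h.ys h.Xb_l).pow h.ys 2) (by decide) (by decide)
  X11 := h.ys.le (((h.Λ_u.pow h.ys 4).mul h.ys ((((h.N_u.add h.ys ((h.Λ_u.pow h.ys 2).mul h.ys h.V_u)).add h.ys ((h.Λ_u.pow h.ys 2).mul h.ys h.δ_u)).add h.ys (h.N_u.mul h.ys (h.δ_u.pow h.ys 2))).add h.ys h.P4_u)).add h.ys ((((h.Λ_u.pow h.ys 2).mul h.ys h.N_u).mul h.ys h.δ_u).mul h.ys ((up_one y s).add h.ys h.V_u)))
      ((h.Λ_l.pow h.ys 2).mul h.ys (h.N_l.mul h.ys (h.θ_l.mul h.ys h.Xb_l))) (by decide) (by decide)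
  X12 := h.ys.le (((h.N_u.mul h.ys h.δ_u).add h.ys h.P4_u).mul h.ys ((((((h.Λ_u.pow h.ys 4).mul h.ys h.δ_u).mul h.ys h.N_u).add h.ys ((h.Λ_u.pow h.ys 4).mul h.ys h.V_u)).add h.ys ((h.Λ_u.pow h.ys 4).mul h.ys h.P4_u)).add h.ys ((h.Λ_u.pow h.ys 2).mul h.ys (h.N_u.pow h.ys 2))))
      ((h.N_l.mul h.ys (h.θ_l.mul h.ys h.Xb_l)).pow h.ys 2) (by decide) (by decide)
  X13 := h.ys.le ((((((h.Λ_u.pow h.ys 2).mul h.ys h.δ_u).mul h.ys h.N_u).add h.ys ((h.Λ_u.pow h.ys 2).mul h.ys h.V_u)).add h.ys ((h.Λ_u.pow h.ys 2).mul h.ys h.P4_u)).add h.ys (h.N_u.pow h.ys 2))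
      (h.N_l.mul h.ys (h.θ_l.mul h.ys h.Xb_l)) (by decide) (by decide)
  X14 := h.ys.le (h.Λ_u.mul h.ys h.N_u)
      (h.θ_l.mul h.ys h.Xb_l) (by decide) (by decide)
  X15 := h.ys.le (((h.ζ_u.pow h.ys 2).mul h.ys (h.Λ_u.pow h.ys 2)).mul h.ys h.δ_u)
      (h.θ_l.mul h.ys h.Xb_l) (by decide) (by decide)

theorem EnvT.cG {p : Par} {y s : ℝ} (h : EnvT p y s) (h2 : p.ω = 2) :
    CondTilt p where
  G1 := h.ys.le ((h.ys.up_c 2 (by norm_num) (by norm_num)).mul h.ys (h.Λ_u.pow h.ys 2))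
      h.κ_l (by decide) (by decide)
  G2 := h.ys.le ((h.ys.up_c 2 (by norm_num) (by norm_num)).mul h.ys h.Λ_u)
      h.κ2_l (by decide) (by decide)
  G3 := h.ys.le (((h.ys.up_c 2 (by norm_num) (by norm_num)).mul h.ys (h.Λ_u.pow h.ys 2)).mul h.ys h.a3_u)
      h.Ξ2_l (by decide) (by decide)
  G4 := h.ys.le ((((h.ys.up_c 4 (by norm_num) (by norm_num)).mul h.ys h.γ_u).mul h.ys h.κ_u).mul h.ys h.N_u)
      h.RF_l (by decide) (by decide)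
  G5 := h.ys.le (((h.ys.up_c 16 (by norm_num) (by norm_num)).mul h.ys h.γ_u).mul h.ys (h.N_u.pow h.ys 2))
      h.Pl_l (by decide) (by decide)
  G6 := h.ys.le ((h.ys.up_c 8 (by norm_num) (by norm_num)).mul h.ys h.Xb_u)
      h.Pl_l (by decide) (by decide)
  G7 := h.ys.le ((h.ys.up_c 4000 (by norm_num) (by norm_num)).mul h.ys h.er_u)
      h.Pl_l (by decide) (by decide)
  G8 := h.ys.le (((h.ys.up_c 2 (by norm_num) (by norm_num)).mul h.ys (h.γ_u.pow h.ys 2)).mul h.ys h.N_u)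
      (h.θ_l.mul h.ys (h.σF_l.pow h.ys 2)) (by decide) (by decide)
  ω2 := h2
  Pl0 := h.Pl_l.pos h.ys

theorem EnvT.X1 {p : Par} {y s : ℝ} (h : EnvT p y s) :
    p.σx + 1 ≤ p.X :=
  h.ys.le (h.σx_u.add h.ys (up_one y s))
      h.X_l (by decide) (by decide)

theorem EnvT.L1 {p : Par} {y s : ℝ} (h : EnvT p y s) :
    1 ≤ p.Λ :=
  h.ys.le (up_one y s)
      h.Λ_l (by decide) (by decide)

theorem EnvT.S3 {p : Par} {y s : ℝ} (h : EnvT p y s) :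
    p.g3 + p.ζ ^ 4 * p.Λ ^ 4 * p.g1 ≤ p.N * (p.θ * p.σT ^ 2) :=
  h.ys.le (h.g3_u.add h.ys (((h.ζ_u.pow h.ys 4).mul h.ys (h.Λ_u.pow h.ys 4)).mul h.ys h.g1_u))
      (h.N_l.mul h.ys (h.θ_l.mul h.ys (h.σT_l.pow h.ys 2))) (by decide) (by decide)

theorem EnvT.I1 {p : Par} {y s : ℝ} (h : EnvT p y s) :
    8 * p.t ≤ p.P4 :=
  h.ys.le ((h.ys.up_c 8 (by norm_num) (by norm_num)).mul h.ys h.t_u)
      h.P4_l (by decide) (by decide)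

theorem EnvT.I2 {p : Par} {y s : ℝ} (h : EnvT p y s) :
    64 * p.t ^ 2 * p.Λ ^ 6 ≤ p.P4 ^ 3 :=
  h.ys.le (((h.ys.up_c 64 (by norm_num) (by norm_num)).mul h.ys (h.t_u.pow h.ys 2)).mul h.ys (h.Λ_u.pow h.ys 6))
      (h.P4_l.pow h.ys 3) (by decide) (by decide)

theorem EnvT.I3 {p : Par} {y s : ℝ} (h : EnvT p y s) :
    4 * p.P4 * p.Λ ^ 6 ≤ p.P5 ^ 2 :=
  h.ys.le (((h.ys.up_c 4 (by norm_num) (by norm_num)).mul h.ys h.P4_u).mul h.ys (h.Λ_u.pow h.ys 6))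
      (h.P5_l.pow h.ys 2) (by decide) (by decide)

theorem EnvT.I4 {p : Par} {y s : ℝ} (h : EnvT p y s) :
    4 * p.P4 ≤ p.P5 :=
  h.ys.le ((h.ys.up_c 4 (by norm_num) (by norm_num)).mul h.ys h.P4_u)
      h.P5_l (by decide) (by decide)

theorem EnvT.X2 {p : Par} {y s : ℝ} (h : EnvT p y s) :
    p.σx + 1 ≤ p.N :=
  h.ys.le (h.σx_u.add h.ys (up_one y s))
      h.N_l (by decide) (by decide)

theorem EnvT.PT {p : Par} {y s : ℝ} (h : EnvT p y s) :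
    p.Pl * p.Qb ≤ p.Tl ^ 2 :=
  h.ys.le (h.Pl_u.mul h.ys h.Qb_u)
      (h.Tl_l.pow h.ys 2) (by decide) (by decide)

end Crest.Agent.R62
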