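import Mathlib

/-!
# Row 62 (S0084): two-sided Ramanujan graphs in polynomial time — definitions

Start from a perfect matching on `n` vertices with `k = d - 1` free half-edges per vertex and join the
half-edges greedily.  The state is the set `S` of free half-edges, the graph `G` built so far, and for each sign
`s = ±1` a symmetric matrix `K` on `S` (`A` for `s = 1`, `B` for `s = -1`, extended by zero to all half-edges).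
Joining `a, b` replaces `K` by the Schur complement `step K s a b`.  The invariant `Good` says: every perfect
matching `π` of `S` on whose `s`-eigenspace `(1+K)⁻¹ > 1/2` (`QQ`) completes `G` to a graph with
`s · yᵀ A y < z |y|²`.  The pair `a, b` is chosen to minimise the potential `Phi`; an averaging argument with
weights `w` (`Wt`) shows that some pair almost does not increase it.  See `R62/Blueprint.lean`.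

Notation in the recipes: `α_k = (K^k) a a`, `β_k = (K^k) b b`, `r_k = (K^k) a b` (`α, β, r` for `k = 1`),
`b_c = bb K c`, `δ_c = b_c - 1`, `δ̃_c = b_c - ρ`, `j = jj`, `g = gg`, `ϑ = |r| + |α β|`, `Z = Ew w 1`,
`p_k = pk K k`, `w_c = ∑_d K c d ^ 4`.
-/

set_option autoImplicit false

open Finset Matrix

noncomputable section

namespace Crest.Agent.R62

/-- real matrices on the half-edges -/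
abbrev Mat (ι : Type) : Type := Matrix ι ι ℝ

section Basic
variable {ι : Type} [Fintype ι] [DecidableEq ι]

/-- minus the determinant of `s σ - K_{ab,ab}` -/
def h0 (K : Mat ι) (s : ℝ) (a b : ι) : ℝ := (1 - s * K a b) ^ 2 - K a a * K b b
/-- `j` -/
def jj (K : Mat ι) (s : ℝ) (a b : ι) : ℝ := (h0 K s a b)⁻¹
/-- `g` -/
def gg (K : Mat ι) (s : ℝ) (a b : ι) : ℝ := (s - K a b) * jj K s a b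
/-- `ℓ₁(c) = j β K c a + g K c b` -/
def l1 (K : Mat ι) (s : ℝ) (a b c : ι) : ℝ := jj K s a b * K b b * K c a + gg K s a b * K c b
/-- `ℓ₂(c) = g K c a + j α K c b` -/
def l2 (K : Mat ι) (s : ℝ) (a b c : ι) : ℝ := gg K s a b * K c a + jj K s a b * K a a * K c b
/-- `K̂ = K + v G vᵀ` -/
def hat (K : Mat ι) (s : ℝ) (a b : ι) : Mat ι :=
  Matrix.of fun c d => K c d + (K c a * l1 K s a b d + K c b * l2 K s a b d)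
/-- the state after joining `a` and `b` -/
def step (K : Mat ι) (s : ℝ) (a b : ι) : Mat ι :=
  Matrix.of fun c d => if c = a ∨ c = b ∨ d = a ∨ d = b then 0 else hat K s a b c d

/-- power traces -/
def pk (K : Mat ι) (k : ℕ) : ℝ := (K ^ k).trace
/-- squared row norm -/
def bb (K : Mat ι) (c : ι) : ℝ := (K ^ 2) c c
/-- fluctuation of the row norms -/
def VV (S : Finset ι) (K : Mat ι) (ρ : ℝ) : ℝ := ∑ c ∈ S, (bb K c - ρ) ^ 2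
/-- squared diagonal -/
def DD (K : Mat ι) : ℝ := ∑ c, K c c ^ 2
/-- fourth powers of a row -/
def ww (K : Mat ι) (c : ι) : ℝ := ∑ d, K c d ^ 4
/-- fourth powers of the entries -/
def WW (K : Mat ι) : ℝ := ∑ c, ww K c
/-- correlation of the two sides -/
def XX (A B : Mat ι) : ℝ := (A ^ 2 * B ^ 2).trace
/-- squared Frobenius norm -/
def fro (X : Mat ι) : ℝ := ∑ a, ∑ b, X a b ^ 2
/-- operator norm at most `Λ` -/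
def OpLe (X : Mat ι) (Λ : ℝ) : Prop := ∀ v : ι → ℝ, (X *ᵥ v) ⬝ᵥ (X *ᵥ v) ≤ Λ ^ 2 * (v ⬝ᵥ v)
/-- order of quadratic forms -/
def Le2 (K K' : Mat ι) : Prop := ∀ v : ι → ℝ, v ⬝ᵥ (K *ᵥ v) ≤ v ⬝ᵥ (K' *ᵥ v)

/-- `ω_k` -/
def om (K : Mat ι) (a b : ι) (k : ℕ) : ℝ := ∑ i ∈ range (k + 1),
  ((K ^ (i + 1)) a a * (K ^ (k - i + 1)) b b - (K ^ (i + 1)) a b * (K ^ (k - i + 1)) a b)
/-- `h_k`, `k ≥ 1`: coefficients of `det (1 - z K') h₀ / det (1 - z K)` -/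
def hh (K : Mat ι) (s : ℝ) (a b : ι) (k : ℕ) : ℝ :=
  -2 * s * (K ^ (k + 1)) a b + (K ^ k) a a + (K ^ k) b b - om K a b k +
    if 2 ≤ k then om K a b (k - 2) else 0
/-- `c_k = -h_k / h₀` -/
def cc (K : Mat ι) (s : ℝ) (a b : ι) (k : ℕ) : ℝ := -(jj K s a b * hh K s a b k)
/-- `ϑ` -/
def th (K : Mat ι) (a b : ι) : ℝ := |K a b| + |K a a * K b b|
/-- majorant of `h₂ - (1 - μ²)` -/
def g2pt (K : Mat ι) (ρ : ℝ) (a b : ι) : ℝ :=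
  |bb K a - ρ| + |bb K b - ρ| + |(bb K a - ρ) * (bb K b - ρ)| + |(K ^ 3) a b| + |K a b| +
    |K a a * (K ^ 3) b b| + |(K ^ 3) a a * K b b| + (K ^ 2) a b ^ 2 + |K a a * K b b|

/-- the state of one side -/
structure Side (S : Finset ι) (K : Mat ι) (s : ℝ) : Prop where
  sgn : s = 1 ∨ s = -1
  symm : ∀ a b, K a b = K b a
  supp : ∀ a b, a ∉ S → K a b = 0
  row : ∀ a ∈ S, ∑ b, K a b = s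
  psd : ∀ v : ι → ℝ, -(v ⬝ᵥ v) ≤ v ⬝ᵥ (K *ᵥ v)

/-- weighted sum over pairs -/
def Ew (w f : ι → ι → ℝ) : ℝ := ∑ a, ∑ b, w a b * f a b

/-- rounding down to the grid `1/g` (the clamp is never active in the proof) -/
def fl (g x : ℝ) : ℝ := max (-g) (min g ((⌊x * g⌋ : ℝ) / g))
/-- round the off-diagonal entries down and restore the row sums on the diagonal -/
def rnd (g : ℝ) (S : Finset ι) (K : Mat ι) (s : ℝ) : Mat ι := Matrix.of fun c d =>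
  if c = d then (if c ∈ S then s - ∑ e ∈ S.erase c, fl g (K c e) else 0)
  else if c ∈ S ∧ d ∈ S then fl g (K c d) else 0

/-- the Möbius parameter -/
def mobτ (K : Mat ι) (M : ℝ) : ℝ := M / (2 * pk K 3)
/-- the shift that resets the trace -/
def mobl (S : Finset ι) (K : Mat ι) (s M : ℝ) : ℝ :=
  -(mobτ K M * S.card + (1 - mobτ K M ^ 2) * (pk K 1 - mobτ K M * pk K 2 + mobτ K M ^ 2 * pk K 3) -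
    (mobτ K M ^ 3 - s * mobτ K M ^ 4)) / (S.card - 1)
/-- the Möbius step `τ + (1 - τ²)(K - τ K² + τ² K³) + λ Π - (τ³ - s τ⁴) J / N` -/
def mob (S : Finset ι) (K : Mat ι) (s M : ℝ) : Mat ι := Matrix.of fun c d =>
  if c ∈ S ∧ d ∈ S then (if c = d then mobτ K M + mobl S K s M else 0) +
    (1 - mobτ K M ^ 2) * (K c d - mobτ K M * (K ^ 2) c d + mobτ K M ^ 2 * (K ^ 3) c d) -
    (mobl S K s M + mobτ K M ^ 3 - s * mobτ K M ^ 4) / S.card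
  else 0

/-- `π` is a perfect matching of `S` -/
def IsM (S : Finset ι) (π : ι → ι) : Prop := ∀ c ∈ S, π c ∈ S ∧ π c ≠ c ∧ π (π c) = c
/-- `(1+K)⁻¹ > 1/2` on the non-constant vectors of the `s`-eigenspace of `π` -/
def QQ (S : Finset ι) (K : Mat ι) (s : ℝ) (π : ι → ι) : Prop :=
  ∀ x : ι → ℝ, (∀ c ∈ S, x (π c) = s * x c) → (¬ ∃ t, ∀ c ∈ S, x c = t) → ∃ v : ι → ℝ,
    (1 / 2) * ∑ c ∈ S, x c ^ 2 < 2 * ∑ c ∈ S, x c * v c - (∑ c ∈ S, v c ^ 2 + v ⬝ᵥ (K *ᵥ v))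

end Basic

/-! ## The graph -/

section Graph
variable {ι V : Type} [Fintype ι] [DecidableEq ι] [Fintype V] [DecidableEq V]

/-- joining `c` and `d` would give a loop or a double edge -/
def conf (vtx : ι → V) (G : SimpleGraph V) (c d : ι) : Prop := vtx c = vtx d ∨ G.Adj (vtx c) (vtx d)
/-- pairs of free half-edges at the same vertex -/
def Csame (vtx : ι → V) (S : Finset ι) : ℝ :=
  ∑ c ∈ S, ∑ d ∈ S, if c ≠ d ∧ vtx c = vtx d then 1 else 0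
open Classical in
/-- pairs of free half-edges at adjacent vertices -/
def Cadj (vtx : ι → V) (S : Finset ι) (G : SimpleGraph V) : ℝ :=
  ∑ c ∈ S, ∑ d ∈ S, if G.Adj (vtx c) (vtx d) then 1 else 0
/-- weighted number of conflicts -/
def CC (vtx : ι → V) (S : Finset ι) (G : SimpleGraph V) (cy : ℝ) : ℝ :=
  cy * Csame vtx S + Cadj vtx S G
open Classical in
/-- degree plus number of free half-edges is `d` -/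
def GInv (vtx : ι → V) (d : ℕ) (S : Finset ι) (G : SimpleGraph V) : Prop :=
  ∀ v, (univ.filter fun u => G.Adj v u).card + (S.filter fun c => vtx c = v).card = d
/-- no two free half-edges are in conflict -/
def NoConf (vtx : ι → V) (S : Finset ι) (G : SimpleGraph V) : Prop :=
  ∀ c ∈ S, ∀ d ∈ S, c ≠ d → ¬ conf vtx G c d
open Classical in
/-- adjacency quadratic form -/
def qf (G : SimpleGraph V) (y : V → ℝ) : ℝ := ∑ u, ∑ v, if G.Adj u v then y u * y v else 0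
/-- the correctness invariant of one side -/
def Good (vtx : ι → V) (S : Finset ι) (G : SimpleGraph V) (K : Mat ι) (s z : ℝ) : Prop :=
  ∀ π, IsM S π → QQ S K s π → ∀ y : V → ℝ, ∑ v, y v = 0 → y ≠ 0 →
    s * (qf G y + ∑ c ∈ S, y (vtx c) * y (vtx (π c))) < z * (y ⬝ᵥ y)
/-- every completion has the spectral bound -/
def Good0 (vtx : ι → V) (S : Finset ι) (G : SimpleGraph V) (z : ℝ) : Prop :=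
  ∀ π, IsM S π → ∀ y : V → ℝ, ∑ v, y v = 0 → y ≠ 0 →
    |qf G y + ∑ c ∈ S, y (vtx c) * y (vtx (π c))| < z * (y ⬝ᵥ y)

/-- the exact initial matrix: `m = 1/√k`, `pt` the partner in the initial matching -/
def K0 (vtx : ι → V) (pt : V → V) (k : ℕ) (s : ℝ) : Mat ι := Matrix.of fun c d =>
  (if vtx c = vtx d ∧ c ≠ d then 1 / √(k : ℝ) else 0) + (if vtx d = pt (vtx c) then s / k else 0) -
    ((k : ℝ) - 1) / √(k : ℝ) / Fintype.card ι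
/-- the initial configuration -/
structure Cfg (vtx : ι → V) (pt : V → V) (k : ℕ) (G : SimpleGraph V) : Prop where
  two : 2 ≤ k
  fib : ∀ v, (univ.filter fun c => vtx c = v).card = k
  inv : ∀ v, pt (pt v) = v
  fix : ∀ v, pt v ≠ v
  adj : ∀ u v, G.Adj u v ↔ pt u = v
  ne : 0 < Fintype.card V

end Graph

/-- the state -/
structure St (ι V : Type) where
  S : Finset ι
  G : SimpleGraph V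
  A : Mat ι
  B : Mat ι

/-- centres and coefficients of the potential -/
structure Sc where
  (ρ Fc Tp Tm kF kx kT kU kV kD kW kX kC cy : ℝ)

section Pot
variable {ι V : Type} [Fintype ι] [DecidableEq ι] [Fintype V] [DecidableEq V]

/-- the one-sided part of the potential -/
def phiS (sc : Sc) (S : Finset ι) (K : Mat ι) (Tc : ℝ) : ℝ :=
  sc.kF * (pk K 1 - sc.Fc) ^ 2 + sc.kx * (pk K 2 - S.card * sc.ρ - 1) ^ 2 +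
    sc.kT * (pk K 3 - Tc) ^ 2 + sc.kU * pk K 6 + sc.kV * VV S K sc.ρ + sc.kD * DD K
/-- the potential -/
def Phi (vtx : ι → V) (sc : Sc) (st : St ι V) : ℝ :=
  phiS sc st.S st.A sc.Tp + phiS sc st.S st.B sc.Tm + sc.kW * (WW st.A + WW st.B) +
    sc.kX * XX st.A st.B + sc.kC * CC vtx st.S st.G sc.cy
/-- join `a` and `b` -/
def St.step (vtx : ι → V) (st : St ι V) (a b : ι) : St ι V :=
  ⟨(st.S.erase a).erase b, st.G ⊔ SimpleGraph.edge (vtx a) (vtx b), R62.step st.A 1 a b,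
    R62.step st.B (-1) a b⟩
/-- round both matrices -/
def St.rnd (g : ℝ) (st : St ι V) : St ι V :=
  ⟨st.S, st.G, R62.rnd g st.S st.A 1, R62.rnd g st.S st.B (-1)⟩
/-- Möbius step on both matrices -/
def St.mob (M : ℝ) (st : St ι V) : St ι V :=
  ⟨st.S, st.G, R62.mob st.S st.A 1 M, R62.mob st.S st.B (-1) M⟩
/-- the pairs among which the algorithm minimises -/
def Cand (vtx : ι → V) (st : St ι V) (a b : ι) : Prop :=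
  a ∈ st.S ∧ b ∈ st.S ∧ ¬ conf vtx st.G a b ∧ 1 / 2 ≤ h0 st.A 1 a b ∧ 1 / 2 ≤ h0 st.B (-1) a b
/-- the invariant of the greedy phases -/
structure Inv (vtx : ι → V) (d : ℕ) (z : ℝ) (st : St ι V) : Prop where
  sA : Side st.S st.A 1
  sB : Side st.S st.B (-1)
  gi : GInv vtx d st.S st.G
  gA : Good vtx st.S st.G st.A 1 z
  gB : Good vtx st.S st.G st.B (-1) z

end Pot

/-- all coefficients are nonnegative -/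
structure Sc.Pos (sc : Sc) : Prop where
  kF : 0 ≤ sc.kF
  kx : 0 ≤ sc.kx
  kT : 0 ≤ sc.kT
  kU : 0 ≤ sc.kU
  kV : 0 ≤ sc.kV
  kD : 0 ≤ sc.kD
  kW : 0 ≤ sc.kW
  kX : 0 ≤ sc.kX
  kC : 0 ≤ sc.kC
  cy : 0 ≤ sc.cy
/-- all centres and coefficients are at most `H` -/
def Sc.Bd (sc : Sc) (H : ℝ) : Prop :=
  |sc.ρ| ≤ H ∧ |sc.Fc| ≤ H ∧ |sc.Tp| ≤ H ∧ |sc.Tm| ≤ H ∧ sc.kF ≤ H ∧ sc.kx ≤ H ∧ sc.kT ≤ H ∧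
    sc.kU ≤ H ∧ sc.kV ≤ H ∧ sc.kD ≤ H ∧ sc.kW ≤ H ∧ sc.kX ≤ H

/-! ## Numerical parameters of one step -/

/-- bounds for the features of the state, thresholds, and parameters of the weights -/
structure Par where
  (N ρ ε ζ θ Λ Fb X Qb t P4 P5 V δ W sw Xb γ Pl Tl dg κE κ2E nE κ κ2 Ξ2 RF ω cy σF σx σT χ L : ℝ)

namespace Par
variable (p : Par)
/-- `μ` -/
def μ : ℝ := 1 - p.ρ
/-- bounds `∑ b²` -/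
def Db : ℝ := 2 * p.N * p.ρ ^ 2 + 2 * p.V
/-- bounds `∑ (b-1)²` -/
def Dm : ℝ := 2 * p.V + 2 * p.N * p.μ ^ 2
/-- bounds `∑ b α₄`, hence `∑ α₃²` -/
def a3 : ℝ := 2 * p.P4 + 4 * p.Λ ^ 2 * p.V
/-- `Λ^(2k-4) B` bounds `∑ α_k²`, `k ≥ 4` -/
def B : ℝ := 2 * p.Λ ^ 2 + 4 * p.V
/-- bounds `∑ K c d ² b_c b_d` -/
def Om : ℝ := p.Qb + p.Db + p.V + p.sw * p.V
/-- `4 q2` bounds `Ew ϑ²` -/
def q2 : ℝ := p.Qb + p.δ ^ 2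
/-- second moment of `h₁` -/
def g1 : ℝ := p.P4 + p.δ * p.Dm
/-- second moment of `g2pt` -/
def g2 : ℝ := p.N * p.V + p.V ^ 2 + p.Λ ^ 6 + p.Qb + p.δ * p.a3 + p.ζ ^ 2 * p.Λ ^ 2 * p.P4 + p.δ ^ 2
/-- second moment of `h₃` -/
def g3 : ℝ := p.ζ ^ 2 * p.Λ ^ 8 + p.a3 * p.Dm + p.δ * (p.Λ ^ 4 * p.B) + p.δ * p.Db + p.P4
/-- second moment of `h₄` -/
def g4 : ℝ := p.ζ ^ 2 * p.Λ ^ 10 + p.Λ ^ 4 * p.B * p.Dm + p.δ * (p.Λ ^ 6 * p.B) + p.a3 ^ 2 + p.δ * p.a3 + p.Db ^ 2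
/-- second moment of `h₅` -/
def g5 : ℝ := p.ζ ^ 2 * p.Λ ^ 12 + p.Λ ^ 6 * p.B * p.Dm + p.δ * (p.Λ ^ 8 * p.B) + p.a3 * (p.Λ ^ 4 * p.B) + p.δ * (p.Λ ^ 4 * p.B) + p.Db * p.a3
/-- second moment of `h₆` -/
def g6 : ℝ := p.ζ ^ 2 * p.Λ ^ 14 + p.Λ ^ 8 * p.B * p.Dm + p.δ * (p.Λ ^ 10 * p.B) + p.a3 * (p.Λ ^ 6 * p.B) + (p.Λ ^ 4 * p.B) ^ 2 + p.δ * (p.Λ ^ 6 * p.B) + p.Db * (p.Λ ^ 4 * p.B) + p.a3 ^ 2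
/-- loss in the Gram matrix of the tilt -/
def er : ℝ := 8 * p.Λ ^ 2 * p.V + 4 * p.nE
end Par

/-- parameters of the Möbius step -/
structure MPar where
  (M τb Sl a0 Ex Ev Ed Ew : ℝ)
/-- `70 Yf` bounds `‖mob K - K‖_F²` -/
def MPar.Yf (q : MPar) (p : Par) : ℝ := q.a0 ^ 2 * p.N + q.τb ^ 2 * p.P4 + q.τb ^ 4 * (p.Qb + p.Λ ^ 6)

section Bounds
variable {ι : Type} [Fintype ι] [DecidableEq ι]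

/-- a priori bounds for one side -/
structure Bnd (S : Finset ι) (K : Mat ι) (s : ℝ) (p : Par) : Prop extends Side S K s where
  card : (S.card : ℝ) = p.N
  ρ0 : 0 ≤ p.ρ
  ρ1 : p.ρ ≤ 1
  Λ1 : 1 ≤ p.Λ
  op : OpLe K p.Λ
  F : |pk K 1| ≤ p.Fb
  X : |pk K 2 - p.N * p.ρ| ≤ p.X
  Q : pk K 2 ≤ p.Qb
  t : ∑ a, |(K ^ 3) a a| ≤ p.t
  P4 : pk K 4 ≤ p.P4
  P5 : ∑ a, |(K ^ 5) a a| ≤ p.P5
  P6 : pk K 6 ≤ p.Λ ^ 6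
  V : VV S K p.ρ ≤ p.V
  D : DD K ≤ p.δ
  W : WW K ≤ p.W

/-- allowed pairs, one side -/
structure Alw (K : Mat ι) (p : Par) (a b : ι) : Prop where
  ne : a ≠ b
  r : |K a b| ≤ p.ε
  ab : |K a a * K b b| ≤ p.ε
  bb2 : (1 + bb K a) * (1 + bb K b) ≤ p.ζ ^ 2 * p.Λ ^ 2
  al : |K a a| * (1 + bb K b) ≤ p.ζ * p.Λ
  be : |K b b| * (1 + bb K a) ≤ p.ζ * p.Λ

/-- `θ_c` -/
def tt (A B : Mat ι) (c : ι) : ℝ := 1 + bb A c + bb B c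

/-- allowed pairs, both sides -/
structure Alw2 (A B : Mat ι) (p : Par) (a b : ι) : Prop where
  ne : a ≠ b
  rA : |A a b| ≤ p.ε
  rB : |B a b| ≤ p.ε
  abA : |A a a * A b b| ≤ p.ε
  abB : |B a a * B b b| ≤ p.ε
  tt2 : tt A B a * tt A B b ≤ p.ζ ^ 2 * p.Λ ^ 2
  alA : |A a a| * tt A B b ≤ p.ζ * p.Λ
  beA : |A b b| * tt A B a ≤ p.ζ * p.Λ
  alB : |B a a| * tt A B b ≤ p.ζ * p.Λ
  beB : |B b b| * tt A B a ≤ p.ζ * p.Λ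

/-- weights on pairs of free half-edges, close to `1` -/
structure Wt (S : Finset ι) (w : ι → ι → ℝ) (p : Par) : Prop where
  symm : ∀ a b, w a b = w b a
  nonneg : ∀ a b, 0 ≤ w a b
  le : ∀ a b, w a b ≤ p.ω
  ω1 : 1 ≤ p.ω
  ω2 : p.ω ≤ 2
  supp : ∀ a b, w a b ≠ 0 → a ∈ S ∧ b ∈ S
  κ0 : 0 ≤ p.κ
  κ20 : 0 ≤ p.κ2
  op : ∀ u v : ι → ℝ, |∑ a ∈ S, ∑ b ∈ S, (1 - w a b) * (u a * v b)| ≤
    p.κ * √(∑ a ∈ S, u a ^ 2) * √(∑ b ∈ S, v b ^ 2)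
  row : ∀ a ∈ S, ∑ b ∈ S, (1 - w a b) ^ 2 ≤ p.κ2 ^ 2

/-- the weights and one side -/
structure WtK (S : Finset ι) (w : ι → ι → ℝ) (K : Mat ι) (s : ℝ) (p : Par) : Prop where
  alw : ∀ a b, w a b ≠ 0 → Alw K p a b
  tilt : |Ew w (fun a b => 2 * s * (K ^ 2) a b) + p.γ * Ew w (fun _ _ => 1)| ≤ p.RF
  xi : ∑ c, (∑ a ∈ S, ∑ b ∈ S, (1 - w a b) * (K c a * K c b)) ^ 2 ≤ p.Ξ2

end Bounds

/-- smallness conditions used everywhere -/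
structure Glob (p : Par) : Prop where
  H1 : p.κ ≤ p.θ * p.N
  H2 : p.κ2 ^ 2 ≤ p.θ ^ 2 * p.N
  H3 : p.dg ≤ p.θ * p.cy
  H4 : p.V ≤ p.N
  H5 : p.P4 ≤ p.Λ ^ 6
  H6 : 1 ≤ p.ε * p.N
  H7 : 1 ≤ p.θ * p.N
  H8 : p.Qb ≤ 2 * p.N
  H9 : p.W ≤ p.N
  H10 : 100 * p.ε ≤ 1
  H11 : 100 * p.θ ≤ 1
  H12 : 6 ≤ p.ζ
  H13 : p.W ≤ p.sw ^ 2
  H14 : 1 ≤ p.dg
  ε0 : 0 < p.ε
  θ0 : 0 < p.θ
  N0 : 0 < p.N
  sw0 : 0 ≤ p.sw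
  cy0 : 0 < p.cy

/-- all error terms in the drift of `tr K` are at most `N E` -/
structure CondF (p : Par) (E : ℝ) : Prop where
  F1 : p.Fb * p.X ≤ p.N * E
  F2 : p.κ ^ 2 * p.δ * p.Dm ≤ (p.N * E) ^ 2
  F3 : p.RF ≤ p.N * E
  F4 : p.q2 * p.g1 ≤ (p.N * E) ^ 2

/-- all error terms in the drift of `tr K²` are at most `N E` -/
structure CondQ (p : Par) (E : ℝ) : Prop where
  Q1 : p.ρ ≤ E
  Q2 : p.μ ^ 2 * p.κ ^ 2 * p.N * p.V ≤ (p.N * E) ^ 2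
  Q3 : p.X ^ 2 ≤ p.N * E
  Q4 : p.κ * p.V ≤ p.N * E
  Q5 : p.κ ^ 2 * p.Qb * p.P4 ≤ (p.N * E) ^ 2 ∨ p.κ2 ^ 2 * p.N * p.Λ ^ 6 ≤ (p.N * E) ^ 2
  Q6 : p.κ2 ^ 2 * p.N * p.Qb ≤ (p.N * E) ^ 2
  Q7 : p.Fb * p.t ≤ p.N * E
  Q8 : p.κ ^ 2 * p.δ * p.a3 ≤ (p.N * E) ^ 2
  Q9 : p.q2 * p.g2 ≤ (p.N * E) ^ 2
  Q10 : p.Qb ≤ p.N * E
  Q11 : p.δ ≤ E
  Q12 : p.g1 ≤ p.N * E

/-- all error terms in the drift of `tr K³` are at most `N E` -/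
structure CondT (p : Par) (E : ℝ) : Prop where
  T1 : 1 ≤ E
  T2 : p.κ * p.P4 ≤ p.N * E
  T3 : p.t * p.X ≤ p.N * E
  T4 : p.κ ^ 2 * p.a3 * p.Dm ≤ (p.N * E) ^ 2
  T5 : p.Fb * p.P4 ≤ p.N * E
  T6 : p.κ ^ 2 * p.δ * (p.Λ ^ 4 * p.B) ≤ (p.N * E) ^ 2
  T7 : p.q2 * p.g3 ≤ (p.N * E) ^ 2
  T8 : p.P4 * p.Λ ^ 6 ≤ (p.N * E) ^ 2
  T9 : p.N * p.δ * p.Qb ^ 2 ≤ (p.N * E) ^ 2
  T10 : p.g1 ≤ E ^ 2
  T11 : p.g1 * p.g2 ≤ (p.N * E) ^ 2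
  T12 : p.ζ * p.Λ * p.g1 ≤ p.N * E

/-- all error terms in the drift of `tr K⁶` are at most `N E` -/
structure CondU (p : Par) (E : ℝ) : Prop where
  U2 : p.κ * p.Λ ^ 7 ≤ p.N * E
  U3 : p.Λ ^ 6 * p.X ≤ p.N * E
  U4 : p.κ ^ 2 * (p.Λ ^ 8 * p.B) * p.Dm ≤ (p.N * E) ^ 2
  U5 : p.Fb * p.Λ ^ 7 ≤ p.N * E
  U6 : p.κ ^ 2 * p.δ * (p.Λ ^ 10 * p.B) ≤ (p.N * E) ^ 2
  U7 : p.t * p.P5 ≤ p.N * E
  U8 : p.P4 ^ 2 ≤ p.N * E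
  U9 : p.q2 * p.g6 ≤ (p.N * E) ^ 2
  U10 : p.P4 * p.Λ ^ 12 ≤ (p.N * E) ^ 2
  U11 : p.Λ ^ 8 ≤ p.N * E
  U12 : p.N * p.δ * p.P5 ^ 2 ≤ (p.N * E) ^ 2
  U13 : p.Qb * p.P4 ≤ p.N * E
  U14 : p.t ^ 2 ≤ p.N * E
  U15 : p.g1 * p.g5 ≤ (p.N * E) ^ 2
  U16 : (p.N ^ 2 + p.g2) * p.g4 ≤ (p.N * E) ^ 2
  U17 : p.g3 ≤ p.N * E
  U18 : p.ζ ^ 4 * p.Λ ^ 4 * p.g1 ≤ p.N * E
  U19 : p.N ≤ E
  U20 : p.ζ ^ 2 * p.Λ ^ 2 * p.g2 ≤ p.N * E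

/-- all error terms in the drift of `VV` are at most `N E` -/
structure CondV (p : Par) (E : ℝ) : Prop where
  V1 : p.ρ * p.X ^ 2 ≤ p.N * E
  V2 : p.V * p.X ≤ p.N * E
  V3 : p.ρ * p.X * (p.κ + 8) ≤ p.N * E
  V4 : p.κ2 ^ 2 * p.V * p.Db * p.Dm ≤ (p.N * E) ^ 2
  V5 : p.X ≤ p.N * E
  V6 : p.κ ^ 2 * p.V * p.a3 ≤ (p.N * E) ^ 2
  V7 : p.Fb ^ 2 * p.V * p.a3 ≤ (p.N * E) ^ 2
  V8 : p.κ ^ 2 * p.δ * p.V * p.Om ≤ (p.N * E) ^ 2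
  V9 : p.q2 * p.δ * p.V * p.Om ≤ (p.N * E) ^ 2
  V10 : p.q2 * p.V * p.a3 ≤ (p.N * E) ^ 2
  V11 : p.δ ^ 2 * p.W * p.V * p.Dm ≤ (p.N * E) ^ 2
  V12 : p.V * p.Db * p.Dm * p.δ ≤ (p.N * E) ^ 2
  V13 : p.ε ^ 2 * p.N * p.Db * p.V ^ 2 ≤ (p.N * E) ^ 2
  V14 : p.μ ^ 2 * p.q2 * p.N * p.W * p.V ≤ (p.N * E) ^ 2
  V15 : p.W * p.V * p.δ * p.P4 ≤ (p.N * E) ^ 2
  V16 : p.V * p.Db * p.P4 ≤ (p.N * E) ^ 2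
  V17 : p.a3 ≤ p.N * E
  V18 : p.δ * p.Om ≤ p.N * E
  V19 : p.μ ^ 2 * p.W ≤ E
  V20 : p.ζ ^ 2 * p.Λ ^ 2 * p.δ * p.W ≤ p.N * E
  V21 : p.ζ ^ 2 * p.Λ ^ 2 * p.Db ≤ p.N * E
  V22 : p.ρ ≤ E

/-- all error terms in the drift of `DD` are at most `N E` -/
structure CondD (p : Par) (E : ℝ) : Prop where
  D1 : p.Fb ≤ p.N * E
  D2 : p.δ * p.Ξ2 ≤ (p.N * E) ^ 2
  D3 : p.Fb ^ 2 * p.δ * p.Db ≤ (p.N * E) ^ 2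
  D4 : p.κ2 ^ 2 * p.δ ^ 2 * p.Db ≤ (p.N * E) ^ 2
  D5 : p.q2 * p.δ * p.Db ≤ (p.N * E) ^ 2
  D6 : p.ε ^ 2 * p.N * p.Db * p.δ ^ 2 ≤ (p.N * E) ^ 2
  D7 : p.Db ≤ p.N * E
  D8 : p.ε * p.δ ≤ E
  D9 : p.κ2 ^ 2 * p.δ ^ 2 * p.N ≤ (p.N * E) ^ 2

/-- all error terms in the drift of `WW` are at most `N E` -/
structure CondW (p : Par) (E : ℝ) : Prop where
  W1 : p.ε * p.W ≤ E
  W2 : (p.ω - 1) * p.W ^ 2 ≤ p.N * E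
  W3 : p.ζ ^ 2 * p.Λ ^ 2 * p.Db ≤ p.N * E ∨ p.W ^ 2 ≤ p.N * E
  W4 : p.ζ ^ 2 * p.Λ ^ 2 * p.δ * p.W ≤ p.ε ^ 3 * (p.N * E) ∨ p.δ ^ 2 * p.W ^ 2 ≤ p.ε ^ 3 * (p.N * E)
  W5 : (1 + p.δ) * p.Om ≤ p.ε * (p.N * E)
  W6 : p.Qb * p.W ≤ (p.N * E) ^ 2
  W7 : p.κ ^ 2 * p.W * p.Om ≤ (p.N * E) ^ 2
  W8 : p.N * p.δ * p.W * p.Om ≤ (p.N * E) ^ 2
  W9 : p.q2 * p.W * p.Om ≤ (p.N * E) ^ 2
  W10 : p.δ ^ 2 * p.W ≤ p.ε ^ 3 * (p.N * E)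
  W11 : p.κ2 ^ 2 * p.N * p.W ^ 2 ≤ (p.N * E) ^ 2
  W12 : p.δ ^ 2 ≤ E

/-- all error terms in the drift of `XX` are at most `N E` -/
structure CondX (p : Par) (E : ℝ) : Prop where
  X2 : p.κ * p.Λ * p.P4 ≤ p.N * E
  X3 : p.N * p.δ * p.Λ ^ 2 * p.P4 ^ 2 ≤ (p.N * E) ^ 2
  X4 : p.q2 * p.Λ ^ 6 * p.P4 ≤ (p.N * E) ^ 2
  X5 : p.q2 * p.Λ ^ 4 ≤ E ^ 2
  X6 : p.N * p.δ * p.Λ ^ 4 * p.P4 ≤ (p.N * E) ^ 2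
  X7 : p.X * p.Xb ≤ p.N * E
  X8 : p.κ * p.Λ ^ 2 ≤ E
  X9 : p.Qb ^ 3 * p.Xb ≤ (p.N * E) ^ 2
  X10 : p.Λ ^ 4 * (p.N + p.Λ ^ 2 * p.V + p.Λ ^ 2 * p.δ + p.N * p.δ ^ 2 + p.P4) + p.Λ ^ 2 * p.N * p.δ * (1 + p.V) ≤ E ^ 2
  X11 : p.Λ ^ 4 * (p.N + p.Λ ^ 2 * p.V + p.Λ ^ 2 * p.δ + p.N * p.δ ^ 2 + p.P4) + p.Λ ^ 2 * p.N * p.δ * (1 + p.V) ≤ p.Λ ^ 2 * (p.N * E)
  X12 : (p.N * p.δ + p.P4) * (p.Λ ^ 4 * p.δ * p.N + p.Λ ^ 4 * p.V + p.Λ ^ 4 * p.P4 + p.Λ ^ 2 * p.N ^ 2) ≤ (p.N * E) ^ 2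
  X13 : p.Λ ^ 2 * p.δ * p.N + p.Λ ^ 2 * p.V + p.Λ ^ 2 * p.P4 + p.N ^ 2 ≤ p.N * E
  X14 : p.Λ * p.N ≤ E
  X15 : p.ζ ^ 2 * p.Λ ^ 2 * p.δ ≤ E

/-- sizes of the excluded set -/
structure CondWt (p : Par) : Prop where
  E1 : p.dg ≤ p.κE
  E2 : p.sw ≤ p.ε ^ 2 * p.κE
  E3 : p.δ ≤ p.ε * p.κE
  E4 : p.V ≤ p.κE * p.ζ ^ 2 * p.Λ ^ 2
  E5 : p.dg ≤ p.κ2E
  E6 : p.Λ ≤ p.ε * p.κ2E
  E7 : p.δ ≤ p.ε * p.κ2E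
  E8 : p.V ≤ p.κ2E * p.ζ ^ 2 * p.Λ ^ 2
  E9 : p.dg * p.N ≤ p.nE
  E10 : p.Qb ≤ p.ε ^ 2 * p.nE
  E11 : p.δ ^ 2 ≤ p.ε ^ 2 * p.nE
  E12 : p.V ^ 2 ≤ p.nE * p.ζ ^ 4 * p.Λ ^ 4
  E14 : 200 * p.κE ≤ p.κ
  E15 : 400 * p.κ2E ≤ p.κ2
  E16 : 40000 * p.κE ^ 2 * p.Db ≤ p.Ξ2
  E17 : 4 * p.N ≤ p.RF
  E18 : 40000 * p.nE * p.P4 ≤ p.RF ^ 2
  κE0 : 0 ≤ p.κE
  κ2E0 : 0 ≤ p.κ2E
  RF0 : 0 ≤ p.RF
  ω1 : 1 ≤ p.ω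
  ω2 : p.ω ≤ 2
  γ0 : 0 ≤ p.γ

/-- conditions for the tilted weights -/
structure CondTilt (p : Par) : Prop where
  G1 : 2 * p.Λ ^ 2 ≤ p.κ
  G2 : 2 * p.Λ ≤ p.κ2
  G3 : 2 * p.Λ ^ 2 * p.a3 ≤ p.Ξ2
  G4 : 4 * p.γ * p.κ * p.N ≤ p.RF
  G5 : 16 * p.γ * p.N ^ 2 ≤ p.Pl
  G6 : 8 * p.Xb ≤ p.Pl
  G7 : 4000 * p.er ≤ p.Pl
  G8 : 2 * p.γ ^ 2 * p.N ≤ p.θ * p.σF ^ 2
  ω2 : p.ω = 2
  Pl0 : 0 < p.Pl

/-- conditions for the Möbius step -/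
structure CondMob (p : Par) (q : MPar) : Prop where
  M1 : 2 * q.τb * p.Λ ≤ 1
  M2 : 8 * q.τb * p.X ≤ q.Sl
  M3 : 8 * q.M ^ 2 ≤ q.Sl * p.Tl
  M4 : 8 * q.τb ^ 2 * p.Fb ≤ q.Sl
  M5 : 16 * q.τb ^ 3 * p.Qb ≤ q.Sl
  M6 : q.M ≤ q.τb * p.Tl
  M7 : q.τb ≤ q.a0
  M8 : 4 * p.Fb ≤ q.a0 * p.N
  M9 : 10 * q.a0 ≤ 1
  M10 : p.X ≤ q.Ex
  M11 : 1 ≤ q.Ex
  M12 : q.M ^ 2 ≤ p.N * q.Ex
  M13 : q.a0 * p.Fb ≤ q.Ex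
  M14 : q.τb ^ 2 * (p.Qb + q.M + p.P4) ≤ q.Ex
  M15 : q.Yf p ≤ q.Ex
  M16 : p.P4 * q.Yf p ≤ p.t ^ 2
  M17 : p.Λ * q.Yf p ≤ p.t
  M18 : (q.Yf p) ^ 3 ≤ p.t ^ 2
  M19 : p.Qb ≤ p.Λ ^ 6
  M20 : p.N ≤ p.Λ ^ 6
  M21 : p.V ≤ q.Ev
  M22 : q.M ^ 2 ≤ p.N * q.Ev
  M23 : q.a0 ^ 2 * p.Qb + q.τb ^ 4 * p.Db + q.τb ^ 2 * p.a3 ≤ q.Ev
  M24 : q.Yf p ≤ q.Ev
  M25 : p.δ ≤ q.Ed
  M26 : p.Fb ^ 2 ≤ p.N * q.Ed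
  M27 : q.τb ^ 2 * p.V ≤ q.Ed
  M28 : q.τb ^ 4 * (p.Db + p.a3) ≤ q.Ed
  M29 : 1 ≤ q.Ed
  M30 : p.W ≤ q.Ew
  M31 : q.a0 ^ 4 * p.N ≤ q.Ew
  M32 : q.τb ^ 4 * (p.P4 + p.Λ ^ 4 * p.V) ≤ q.Ew
  M33 : q.τb ^ 8 * p.Λ ^ 8 * (1 + p.V) ≤ q.Ew
  M34 : p.P4 ≤ p.Λ ^ 6
  M0 : 0 < q.M
  Tl0 : 0 < p.Tl
  N2 : 2 ≤ p.N
  Q1 : 1 ≤ p.Qb
  ρ1 : p.ρ = 1

/-- the a priori bounds follow from `Phi ≤ 1` -/
structure DerOK (p : Par) (sc : Sc) : Prop where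
  pos : sc.Pos
  ρ : sc.ρ = p.ρ
  ρ0 : 0 ≤ p.ρ
  ρ1 : p.ρ ≤ 1
  σF0 : 0 < p.σF
  σx0 : 0 < p.σx
  kF : sc.kF * p.σF ^ 2 = 1
  kx : sc.kx * p.σx ^ 2 = 1
  kV : sc.kV * p.V = 1
  kD : sc.kD * p.δ = 1
  kW : sc.kW * p.W = 1
  Fb : |sc.Fc| + p.σF ≤ p.Fb
  X : p.σx + 1 ≤ p.X
  Qb : p.N * p.ρ + p.σx + 1 ≤ p.Qb
  Λ1 : 1 ≤ p.Λ
  top : (0 < p.σT ∧ sc.kT * p.σT ^ 2 = 1 ∧ sc.kU * p.Λ ^ 6 = 1 ∧ |sc.Tp| + p.σT + 2 * p.Qb ≤ p.t ∧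
      |sc.Tm| + p.σT + 2 * p.Qb ≤ p.t ∧ 8 * p.t ≤ p.P4 ∧ 64 * p.t ^ 2 * p.Λ ^ 6 ≤ p.P4 ^ 3 ∧
      4 * p.P4 * p.Λ ^ 6 ≤ p.P5 ^ 2 ∧ 4 * p.P4 ≤ p.P5) ∨
    (p.Qb ≤ p.Λ ^ 2 ∧ p.Λ * p.Qb ≤ p.t ∧ p.Λ ^ 2 * p.Qb ≤ p.P4 ∧ p.Λ ^ 3 * p.Qb ≤ p.P5)

/-- everything needed for one step from the scales `sc` (at `N`) to `sc'` (at `N - 2`) -/
structure StepOK (p : Par) (sc sc' : Sc) : Prop where
  der : DerOK p sc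
  pos' : sc'.Pos
  gl : Glob p
  wt : CondWt p
  cF : CondF p (p.θ * p.σF)
  cQ : CondQ p (p.θ * p.σx)
  cV : CondV p (p.θ * p.V)
  cD : CondD p (p.θ * p.δ)
  cW : CondW p (p.θ * p.W)
  S1 : p.g1 ≤ p.N * (p.θ * p.σF ^ 2)
  S2 : p.g2 + p.ζ ^ 2 * p.Λ ^ 2 * p.g1 ≤ p.N * (p.θ * p.σx ^ 2)
  S2c : p.ρ ≤ p.N * (p.θ * p.σx ^ 2)
  χ : p.χ = 1 ∨ (p.χ = p.N / (p.N - 2) ∧ p.ρ = 0)
  Fc' : sc'.Fc = sc.Fc - p.γ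
  Fc0 : p.ρ = 1 ∨ sc.Fc = 0
  ρ' : |(p.N - 2) * sc'.ρ - p.N * p.ρ + 2 - 2 * p.μ ^ 2| ≤ 8 * p.ρ / p.N
  ρ'' : |p.ρ - sc'.ρ - 2 * p.ρ * p.μ / p.N| ≤ 8 * p.ρ / p.N ^ 2
  kF' : sc'.kF ≤ p.χ ^ 2 * sc.kF
  kx' : sc'.kx ≤ p.χ ^ 4 * sc.kx
  kV' : sc'.kV * (1 + 4000 * p.W / p.N ^ 2) ≤ p.χ ^ 2 * sc.kV * (1 + p.θ / p.N)
  kD' : sc'.kD * (1 + 4000 * p.W / p.N ^ 2) ≤ p.χ * sc.kD * (1 + p.θ / p.N)
  L0 : 0 ≤ p.L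
  WL : p.W * (p.N + p.L) = p.N ^ 2
  kW' : sc'.kW * (p.N - 2) ^ 2 = p.N - 2 + p.L
  kC' : sc'.kC ≤ (p.N / (p.N - 2)) ^ 2 * sc.kC
  cy : sc.cy = p.cy
  cy' : sc'.cy = p.cy
  top : (sc'.kT = 0 ∧ sc'.kU = 0) ∨ (CondT p (p.θ * p.σT) ∧ CondU p (p.θ * p.Λ ^ 6) ∧
    p.g3 + p.ζ ^ 4 * p.Λ ^ 4 * p.g1 ≤ p.N * (p.θ * p.σT ^ 2) ∧
    0 < p.σT ∧ sc.kT * p.σT ^ 2 = 1 ∧ sc.kU * p.Λ ^ 6 = 1 ∧ sc'.kT ≤ sc.kT ∧ sc'.kU ≤ sc.kU ∧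
    sc'.Tp = sc.Tp ∧ sc'.Tm = sc.Tm ∧ (p.ρ = 1 ∨ (sc.Tp = 0 ∧ sc.Tm = 0)))
  cross : sc'.kX = 0 ∨ (CondX p (p.θ * p.Xb) ∧ sc.kX * p.Xb = 1 ∧ sc'.kX ≤ sc.kX)
  tilt : p.γ = 0 ∨ (CondTilt p ∧ sc.kX * p.Xb = 1 ∧ 0 < p.σT ∧ sc.kT * p.σT ^ 2 = 1 ∧ 0 < p.Tl ∧
    p.Tl + p.σT ≤ sc.Tp ∧ p.Tl + p.σT ≤ sc.Tm ∧ p.Pl * p.Qb ≤ p.Tl ^ 2)

/-- everything needed for the Möbius step between the scales `sc` and `sc'` (both at `N`) -/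
structure MobOK (p : Par) (q : MPar) (sc sc' : Sc) : Prop where
  der : DerOK p sc
  pos' : sc'.Pos
  cm : CondMob p q
  σT0 : 0 < p.σT
  kT : sc.kT * p.σT ^ 2 = 1
  Tp : p.Tl + p.σT ≤ sc.Tp
  Tm : p.Tl + p.σT ≤ sc.Tm
  Sl : sc.Fc + p.σF ≤ -q.Sl
  ρ' : sc'.ρ = p.N / (p.N + q.M)
  Fc' : sc'.Fc = 0
  Tp' : sc'.Tp = 0
  Tm' : sc'.Tm = 0
  kX' : sc'.kX = 0
  cy' : sc'.cy = sc.cy
  kx' : sc'.kx * (1000 * q.Ex) ^ 2 ≤ 1 / 100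
  kT' : sc'.kT * (1000 * p.t) ^ 2 ≤ 1 / 100
  kU' : sc'.kU * (1000 * p.Λ ^ 6) ≤ 1 / 100
  kV' : sc'.kV * (100000 * q.Ev) ≤ 1 / 100
  kD' : sc'.kD * (1000 * q.Ed) ≤ 1 / 100
  kW' : sc'.kW * (200000 * q.Ew) ≤ 1 / 100
  kC' : 100 * sc'.kC ≤ sc.kC
  Ex : 1000 * q.Ex ≤ p.N

/-- change of scales (both at `N`) when the centring of the row norms is dropped -/
structure TransOK (N σx v : ℝ) (sc sc' : Sc) : Prop where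
  pos : sc.Pos
  pos' : sc'.Pos
  ρ0 : 0 ≤ sc.ρ
  ρ' : sc'.ρ = 0
  Fc : sc'.Fc = sc.Fc
  kT' : sc'.kT = 0
  kU' : sc'.kU = 0
  kX' : sc'.kX = 0
  cy' : sc'.cy = sc.cy
  σx0 : 0 < σx
  kx : sc.kx * σx ^ 2 = 1
  kV : sc.kV * v = 1
  kF' : 100 * sc'.kF ≤ sc.kF
  kx' : sc'.kx * (σx + N * sc.ρ) ^ 2 ≤ 1 / 100
  kV' : sc'.kV * (2 * v + 2 * N * sc.ρ ^ 2) ≤ 1 / 100
  kD' : 100 * sc'.kD ≤ sc.kD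
  kW' : 100 * sc'.kW ≤ sc.kW
  kC' : 100 * sc'.kC ≤ sc.kC

end Crest.Agent.R62
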