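import Crest.Agent.R62.Tools

/-!
# Row 62: the graph part of the state
-/

set_option autoImplicit false
set_option linter.unusedSectionVars false
set_option linter.unusedVariables false

open Finset Matrix

noncomputable section

namespace Crest.Agent.R62

variable {ι V : Type} [Fintype ι] [DecidableEq ι] [Fintype V] [DecidableEq V]
variable {vtx : ι → V} {S : Finset ι} {G : SimpleGraph V} {d : ℕ} {a b : ι}

theorem conf_symm (h : conf vtx G a b) : conf vtx G b a := by
  exact h.imp Eq.symm fun h => h.symm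

theorem conf_refl (vtx : ι → V) (G : SimpleGraph V) (a : ι) : conf vtx G a a := by
  exact Or.inl rfl

theorem ne_of_not_conf (h : ¬ conf vtx G a b) : a ≠ b := by
  rintro rfl
  exact h (conf_refl _ _ _)

theorem card_erase_erase (ha : a ∈ S) (hb : b ∈ S) (hab : a ≠ b) :
    ((S.erase a).erase b).card + 2 = S.card := by
  have hb' : b ∈ S.erase a := mem_erase.2 ⟨hab.symm, hb⟩
  have h1 := card_erase_add_one ha
  have h2 := card_erase_add_one hb'
  omega

theorem Graph_ite {M : Type} [AddMonoid M] {u v : V} (huv : u ≠ v) (h : ¬ G.Adj u v) (x z : V)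
    (t : M) {_ : Decidable ((G ⊔ SimpleGraph.edge u v).Adj x z)} [Decidable (G.Adj x z)] :
    (if (G ⊔ SimpleGraph.edge u v).Adj x z then t else 0) =
      (if G.Adj x z then t else 0) + ((if v = z then (if u = x then t else 0) else 0) +
        if u = z then (if v = x then t else 0) else 0) := by
  simp only [SimpleGraph.sup_adj, SimpleGraph.edge_adj]
  by_cases h1 : v = z ∧ u = x
  · obtain ⟨rfl, rfl⟩ := h1
    simp [h, huv]
  by_cases h2 : u = z ∧ v = x
  · obtain ⟨rfl, rfl⟩ := h2
    have h' : ¬ G.Adj v u := fun e => h e.symm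
    simp [h', huv.symm]
  have h3 : ¬ ((x = u ∧ z = v ∨ x = v ∧ z = u) ∧ x ≠ z) := by
    rintro ⟨⟨rfl, rfl⟩ | ⟨rfl, rfl⟩, -⟩
    · exact h1 ⟨rfl, rfl⟩
    · exact h2 ⟨rfl, rfl⟩
  simp only [h3, or_false, ← ite_and, h1, h2, if_false, add_zero]

theorem GInv.step (h : GInv vtx d S G) (ha : a ∈ S) (hb : b ∈ S) (hc : ¬ conf vtx G a b) :
    GInv vtx d ((S.erase a).erase b) (G ⊔ SimpleGraph.edge (vtx a) (vtx b)) := by
  classical
  intro v
  have hv := h v
  have hne : vtx a ≠ vtx b := fun e => hc (Or.inl e)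
  have hna : ¬ G.Adj (vtx a) (vtx b) := fun e => hc (Or.inr e)
  have hb' : b ∈ S.erase a := mem_erase.2 ⟨(ne_of_not_conf hc).symm, hb⟩
  rw [card_filter, card_filter, ← add_sum_erase _ _ ha, ← add_sum_erase _ _ hb'] at hv
  rw [card_filter, card_filter]
  simp only [Graph_ite hne hna, sum_add_distrib, sum_ite_eq, mem_univ, if_true]
  omega

open Classical in
/-- at most `d` free half-edges at the same vertex, at most `d` neighbours with at most `d` each -/
theorem GInv.conf_deg (h : GInv vtx d S G) (c : ι) :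
    ((S.filter fun e => conf vtx G c e).card : ℝ) ≤ d * (d + 1) := by
  have h1 : (S.filter fun e => conf vtx G c e).card ≤
      d * (insert (vtx c) (univ.filter fun u => G.Adj (vtx c) u)).card := by
    refine card_le_mul_card_image_of_maps_to (f := vtx) (fun e he => ?_) d fun u _ => ?_
    · rcases (mem_filter.1 he).2 with h1 | h1
      · exact mem_insert.2 (Or.inl h1.symm)
      · exact mem_insert_of_mem (mem_filter.2 ⟨mem_univ _, h1⟩)
    · have h2 : ((S.filter fun e => conf vtx G c e).filter fun e => vtx e = u).card ≤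
          (S.filter fun e => vtx e = u).card :=
        card_le_card (filter_subset_filter _ (filter_subset _ _))
      have h3 := h u
      omega
  have h2 := card_insert_le (vtx c) (univ.filter fun u => G.Adj (vtx c) u)
  have h3 := h (vtx c)
  exact_mod_cast h1.trans (Nat.mul_le_mul_left d (by omega))

theorem Csame_nonneg (vtx : ι → V) (S : Finset ι) : 0 ≤ Csame vtx S := by
  exact sum_nonneg fun _ _ => sum_nonneg fun _ _ => by positivity

theorem Cadj_nonneg (vtx : ι → V) (S : Finset ι) (G : SimpleGraph V) : 0 ≤ Cadj vtx S G := by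
  exact sum_nonneg fun _ _ => sum_nonneg fun _ _ => by positivity

theorem CC_nonneg (vtx : ι → V) (S : Finset ι) (G : SimpleGraph V) {cy : ℝ} (h : 0 ≤ cy) :
    0 ≤ CC vtx S G cy := by
  exact add_nonneg (mul_nonneg h (Csame_nonneg _ _)) (Cadj_nonneg _ _ _)

theorem noConf_of_CC {cy : ℝ} (hcy : 1 ≤ cy) (h : CC vtx S G cy < 1) : NoConf vtx S G := by
  classical
  intro c hc e he hce hconf
  have h1 := Csame_nonneg vtx S
  have h2 := Cadj_nonneg vtx S G
  unfold CC at h
  rcases hconf with h3 | h3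
  · have : 1 ≤ Csame vtx S := by
      refine le_trans ?_ (single_le_sum (fun _ _ => sum_nonneg fun _ _ => by positivity) hc)
      refine le_trans ?_ (single_le_sum (fun _ _ => by positivity) he)
      rw [if_pos ⟨hce, h3⟩]
    nlinarith
  · have : 1 ≤ Cadj vtx S G := by
      refine le_trans ?_ (single_le_sum (fun _ _ => sum_nonneg fun _ _ => by positivity) hc)
      refine le_trans ?_ (single_le_sum (fun _ _ => by positivity) he)
      rw [if_pos h3]
    nlinarith

/-- the new edge has no other free half-edge at its ends -/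
theorem NoConf.step (h : NoConf vtx S G) (ha : a ∈ S) (hb : b ∈ S) (hab : a ≠ b) :
    NoConf vtx ((S.erase a).erase b) (G ⊔ SimpleGraph.edge (vtx a) (vtx b)) := by
  intro c hc e he hce hconf
  obtain ⟨hcb, hca, hcS⟩ : c ≠ b ∧ c ≠ a ∧ c ∈ S := by simpa only [mem_erase] using hc
  have heS : e ∈ S := mem_of_mem_erase (mem_of_mem_erase he)
  rcases hconf with h1 | h1 | h1
  · exact h c hcS e heS hce (Or.inl h1)
  · exact h c hcS e heS hce (Or.inr h1)
  · rcases ((SimpleGraph.edge_adj _ _ _ _).1 h1).1 with h2 | h2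
    · exact h c hcS a ha hca (Or.inl h2.1)
    · exact h c hcS b hb hcb (Or.inl h2.1)

theorem GInv.regular [DecidableRel G.Adj] (h : GInv vtx d ∅ G) : G.IsRegularOfDegree d := by
  intro v
  have := h v
  rw [filter_empty, card_empty, add_zero] at this
  rw [← this, ← SimpleGraph.card_neighborFinset_eq_degree, SimpleGraph.neighborFinset_eq_filter]
  congr

theorem qf_eq [DecidableRel G.Adj] (y : V → ℝ) : qf G y = y ⬝ᵥ (G.adjMatrix ℝ *ᵥ y) := by
  simp only [qf, dotProduct, mulVec, SimpleGraph.adjMatrix_apply, mul_sum]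
  refine sum_congr rfl fun u _ => sum_congr rfl fun v _ => ?_
  split_ifs <;> simp

theorem qf_sup_edge {u v : V} (huv : u ≠ v) (h : ¬ G.Adj u v) (y : V → ℝ) :
    qf (G ⊔ SimpleGraph.edge u v) y = qf G y + 2 * (y u * y v) := by
  classical
  unfold qf
  simp only [Graph_ite huv h, sum_add_distrib, sum_ite_eq, mem_univ, if_true]
  ring

section Init
variable {pt : V → V} {k : ℕ}

theorem Cfg.card (h : Cfg vtx pt k G) : Fintype.card ι = Fintype.card V * k := by
  rw [← card_univ, card_eq_sum_card_fiberwise (f := vtx) (t := univ) fun _ _ => mem_univ _]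
  simp only [h.fib, sum_const, card_univ, smul_eq_mul]

theorem Cfg.ginv (h : Cfg vtx pt k G) : GInv vtx (k + 1) univ G := by
  classical
  intro v
  rw [h.fib, add_comm]
  congr 1
  refine card_eq_one.2 ⟨pt v, ?_⟩
  ext u
  simp only [mem_filter, mem_univ, true_and, h.adj, mem_singleton, eq_comm]

theorem Cfg.qf (h : Cfg vtx pt k G) (y : V → ℝ) : qf G y = ∑ v, y v * y (pt v) := by
  unfold R62.qf
  simp only [h.adj, sum_ite_eq, mem_univ, if_true]

theorem Cfg.sum_vtx (h : Cfg vtx pt k G) (f : V → ℝ) : ∑ c, f (vtx c) = k * ∑ v, f v := by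
  rw [← sum_fiberwise univ vtx, mul_sum]
  refine sum_congr rfl fun v _ => ?_
  rw [sum_congr rfl fun c hc => by rw [(mem_filter.1 hc).2], sum_const, h.fib, nsmul_eq_mul]

theorem Cfg.CC_le (h : Cfg vtx pt k G) {cy : ℝ} (hcy : 0 ≤ cy) :
    CC vtx univ G cy ≤ (cy + 1) * k * Fintype.card ι := by
  have h0 : ∀ u : V, ∑ e, (if u = vtx e then (1 : ℝ) else 0) = k := fun u => by
    rw [h.sum_vtx fun v => if u = v then 1 else 0, sum_ite_eq, if_pos (mem_univ _), mul_one]
  have h1 : Csame vtx univ ≤ k * Fintype.card ι := by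
    refine (sum_le_sum fun c _ => (sum_le_sum fun e _ => ?_).trans (h0 (vtx c)).le).trans_eq ?_
    · split_ifs with h1 h2
      · exact le_rfl
      · exact absurd h1.2 h2
      · exact zero_le_one
      · exact le_rfl
    · rw [sum_const, card_univ, nsmul_eq_mul, mul_comm]
  have h2 : Cadj vtx univ G = k * Fintype.card ι := by
    unfold Cadj
    simp only [h.adj, h0]
    rw [sum_const, card_univ, nsmul_eq_mul, mul_comm]
  unfold CC
  nlinarith [mul_le_mul_of_nonneg_left h1 hcy]

end Init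

open Classical in
/-- weight of a conflict -/
def Graph_T (vtx : ι → V) (G : SimpleGraph V) (cy : ℝ) (c e : ι) : ℝ :=
  cy * (if c ≠ e ∧ vtx c = vtx e then 1 else 0) + if G.Adj (vtx c) (vtx e) then 1 else 0

def Graph_deg (vtx : ι → V) (S : Finset ι) (G : SimpleGraph V) (cy : ℝ) (c : ι) : ℝ :=
  ∑ e ∈ S, Graph_T vtx G cy c e

def Graph_m (vtx : ι → V) (S : Finset ι) (c : ι) : ℝ :=
  ∑ e ∈ S, if c ≠ e ∧ vtx c = vtx e then 1 else 0

theorem Graph_T_nonneg {cy : ℝ} (h : 0 ≤ cy) (c e : ι) : 0 ≤ Graph_T vtx G cy c e := by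
  unfold Graph_T
  positivity

theorem Graph_T_symm (cy : ℝ) (c e : ι) : Graph_T vtx G cy c e = Graph_T vtx G cy e c := by
  unfold Graph_T
  rw [G.adj_comm (vtx c) (vtx e)]
  simp only [ne_comm (a := c), eq_comm (a := vtx c)]

theorem Graph_T_self (cy : ℝ) (c : ι) : Graph_T vtx G cy c c = 0 := by
  simp [Graph_T]

theorem Graph_T_of_not_conf (cy : ℝ) (h : ¬ conf vtx G a b) : Graph_T vtx G cy a b = 0 := by
  unfold Graph_T
  rw [if_neg fun e => h (Or.inl e.2), if_neg fun e => h (Or.inr e), mul_zero, add_zero]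

theorem Graph_CC_eq (cy : ℝ) : CC vtx S G cy = ∑ c ∈ S, Graph_deg vtx S G cy c := by
  simp only [CC, Csame, Cadj, Graph_deg, Graph_T, sum_add_distrib, mul_sum]

theorem Graph_CC_step {cy : ℝ} (ha : a ∈ S) (hb : b ∈ S) (hc : ¬ conf vtx G a b) :
    CC vtx ((S.erase a).erase b) (G ⊔ SimpleGraph.edge (vtx a) (vtx b)) cy ≤
      CC vtx S G cy - 2 * Graph_deg vtx S G cy a - 2 * Graph_deg vtx S G cy b +
        2 * (Graph_m vtx S a * Graph_m vtx S b) := by
  have hne : vtx a ≠ vtx b := fun e => hc (Or.inl e)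
  have hna : ¬ G.Adj (vtx a) (vtx b) := fun e => hc (Or.inr e)
  have hb' : b ∈ S.erase a := mem_erase.2 ⟨(ne_of_not_conf hc).symm, hb⟩
  have split : ∀ f : ι → ℝ, ∑ c ∈ S, f c = f a + (f b + ∑ c ∈ (S.erase a).erase b, f c) :=
    fun f => by rw [add_sum_erase _ _ hb', add_sum_erase _ _ ha]
  have hab := Graph_T_of_not_conf cy hc
  have h1 : CC vtx ((S.erase a).erase b) G cy =
      CC vtx S G cy - 2 * Graph_deg vtx S G cy a - 2 * Graph_deg vtx S G cy b := by
    rw [Graph_CC_eq, Graph_CC_eq, split]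
    unfold Graph_deg
    simp only [split, sum_add_distrib, Graph_T_self, hab, Graph_T_symm cy b a,
      Graph_T_symm cy _ a, Graph_T_symm cy _ b]
    ring
  have hm : ∀ c, c ∉ (S.erase a).erase b →
      ∑ e ∈ (S.erase a).erase b, (if vtx c = vtx e then (1 : ℝ) else 0) ≤ Graph_m vtx S c := by
    intro c hcS
    refine le_trans (sum_le_sum fun e he => ?_) (sum_le_sum_of_subset_of_nonneg
      ((erase_subset b _).trans (erase_subset a S)) fun _ _ _ => by positivity)
    have : c ≠ e := fun h => hcS (h ▸ he)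
    simp [this]
  have h2 : CC vtx ((S.erase a).erase b) (G ⊔ SimpleGraph.edge (vtx a) (vtx b)) cy =
      CC vtx ((S.erase a).erase b) G cy +
        2 * ((∑ e ∈ (S.erase a).erase b, if vtx a = vtx e then (1 : ℝ) else 0) *
          ∑ e ∈ (S.erase a).erase b, if vtx b = vtx e then (1 : ℝ) else 0) := by
    classical
    unfold CC Cadj
    simp only [Graph_ite hne hna, sum_add_distrib]
    rw [two_mul, add_assoc]
    congr 3
    · simp only [sum_mul_sum, mul_ite, mul_one, mul_zero]
    · rw [mul_comm]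
      simp only [sum_mul_sum, mul_ite, mul_one, mul_zero]
  rw [h2, h1]
  gcongr
  · exact sum_nonneg fun _ _ => by positivity
  · exact hm a (by simp)
  · exact hm b (by simp)

open Classical in
/-- For an allowed pair (no conflict), with `deg c = ∑_{e ∈ S} (cy · 1[c ≠ e, same vertex] + 1[adjacent])` and
`m c = #{e ∈ S, e ≠ c, same vertex}`:  `CC' ≤ CC - 2 deg a - 2 deg b + 2 m a m b`.
`∑ deg = CC`, `Ew (deg a) ≥ (N - κ₂ √N) CC` (`Wt.row_sum`), `Ew (2 m a m b) ≤ 4 Csame²`,
`Csame ≤ dg N`, `Csame ≤ CC / cy`. -/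
theorem driftC {w : ι → ι → ℝ} {p : Par} (hw : Wt S w p) (hN : (S.card : ℝ) = p.N)
    (hc : ∀ a b, w a b ≠ 0 → ¬ conf vtx G a b) (hcy : 0 < p.cy)
    (hd : ∀ c ∈ S, ((S.filter fun e => conf vtx G c e).card : ℝ) ≤ p.dg) :
    Ew w (fun a b => CC vtx ((S.erase a).erase b) (G ⊔ SimpleGraph.edge (vtx a) (vtx b)) p.cy) ≤
      (Ew w (fun _ _ => 1) - 4 * p.N + 4 * p.κ2 * √p.N + 4 * p.dg * p.N / p.cy) *
        CC vtx S G p.cy := by
  have hCC := CC_nonneg vtx S G hcy.le
  have hCs := Csame_nonneg vtx S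
  have hm0 : ∀ c, 0 ≤ Graph_m vtx S c := fun c => sum_nonneg fun _ _ => by positivity
  have hd0 : ∀ c, 0 ≤ Graph_deg vtx S G p.cy c := fun c =>
    sum_nonneg fun _ _ => Graph_T_nonneg hcy.le _ _
  have h1 := hw.mono fun a b hab =>
    Graph_CC_step (cy := p.cy) (hw.supp a b hab).1 (hw.supp a b hab).2 (hc a b hab)
  have h2 : Ew w (fun a b => CC vtx S G p.cy - 2 * Graph_deg vtx S G p.cy a -
      2 * Graph_deg vtx S G p.cy b + 2 * (Graph_m vtx S a * Graph_m vtx S b)) =
      CC vtx S G p.cy * Ew w (fun _ _ => 1) - 4 * Ew w (fun a _ => Graph_deg vtx S G p.cy a) +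
        2 * Ew w fun a b => Graph_m vtx S a * Graph_m vtx S b := by
    rw [Ew_add, Ew_sub, Ew_sub, Ew_mul, Ew_mul, Ew_mul, Ew_const,
      hw.swap fun a _ => Graph_deg vtx S G p.cy a]
    ring
  have h3 : (p.N - p.κ2 * √p.N) * CC vtx S G p.cy ≤
      Ew w fun a _ => Graph_deg vtx S G p.cy a := by
    rw [hw.eq_sum, Graph_CC_eq, mul_sum]
    refine sum_le_sum fun a ha => ?_
    rw [← sum_mul]
    refine mul_le_mul_of_nonneg_right ?_ (hd0 a)
    have := (abs_le.1 (hw.row_sum a ha)).1
    rw [hN] at this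
    linarith
  have h4 : Ew w (fun a b => Graph_m vtx S a * Graph_m vtx S b) ≤
      2 * (Csame vtx S * Csame vtx S) :=
    (le_abs_self _).trans (hw.abs_le_prod hm0 hm0 fun a b _ =>
      (abs_of_nonneg (mul_nonneg (hm0 a) (hm0 b))).le)
  have h5 : Csame vtx S ≤ p.dg * p.N := by
    refine (sum_le_sum fun c hcS => le_trans ?_ (hd c hcS)).trans_eq ?_
    · rw [card_filter, Nat.cast_sum]
      refine sum_le_sum fun e _ => ?_
      split_ifs with h1 h2
      · simp
      · exact absurd (Or.inl h1.2) h2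
      · simp
      · simp
    · rw [sum_const, nsmul_eq_mul, hN, mul_comm]
  have h6 : Csame vtx S ≤ CC vtx S G p.cy / p.cy := by
    rw [le_div_iff₀ hcy]
    have := Cadj_nonneg vtx S G
    unfold CC
    linarith
  have h7 : Csame vtx S * Csame vtx S ≤ p.dg * p.N * (CC vtx S G p.cy / p.cy) :=
    mul_le_mul h5 h6 hCs (hCs.trans h5)
  calc _ ≤ _ := h1
    _ = _ := h2
    _ ≤ CC vtx S G p.cy * Ew w (fun _ _ => 1) - 4 * ((p.N - p.κ2 * √p.N) * CC vtx S G p.cy) +
        2 * (2 * (p.dg * p.N * (CC vtx S G p.cy / p.cy))) := by linarith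
    _ = _ := by ring

end Crest.Agent.R62
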