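import Crest.Agent.R62.Lin
import Crest.Agent.R62.Graph

/-!
# Row 62: a priori bounds from `Phi ≤ 1`

All terms of `Phi` are nonnegative, so each is at most `Phi`.
-/

set_option autoImplicit false

open Finset Matrix

noncomputable section

namespace Crest.Agent.R62

variable {ι V : Type} [Fintype ι] [DecidableEq ι] [Fintype V] [DecidableEq V]
variable {S : Finset ι} {K : Mat ι} {s Tc : ℝ} {sc sc' : Sc} {p : Par} {vtx : ι → V} {st : St ι V}

theorem phiS_nonneg (hp : sc.Pos) (h : ∀ a b, K a b = K b a) (S : Finset ι) (Tc : ℝ) :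
    0 ≤ phiS sc S K Tc := by
  have h6 : 0 ≤ pk K 6 := pk_even_nonneg h 3
  have := hp.kF; have := hp.kx; have := hp.kT; have := hp.kU; have := hp.kV; have := hp.kD
  have := VV_nonneg S K sc.ρ
  have := DD_nonneg K
  unfold phiS
  positivity

/-- each term of `phiS` is at most `x` -/
structure PartsS (sc : Sc) (S : Finset ι) (K : Mat ι) (Tc x : ℝ) : Prop where
  F : sc.kF * (pk K 1 - sc.Fc) ^ 2 ≤ x
  x' : sc.kx * (pk K 2 - S.card * sc.ρ - 1) ^ 2 ≤ x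
  T : sc.kT * (pk K 3 - Tc) ^ 2 ≤ x
  U : sc.kU * pk K 6 ≤ x
  V : sc.kV * VV S K sc.ρ ≤ x
  D : sc.kD * DD K ≤ x
  W : sc.kW * WW K ≤ x

/-- each term of `Phi` is at most `x` -/
structure Parts (vtx : ι → V) (sc : Sc) (st : St ι V) (x : ℝ) : Prop where
  A : PartsS sc st.S st.A sc.Tp x
  B : PartsS sc st.S st.B sc.Tm x
  X : sc.kX * XX st.A st.B ≤ x
  C : sc.kC * CC vtx st.S st.G sc.cy ≤ x

theorem parts_of (hp : sc.Pos) (hA : ∀ a b, st.A a b = st.A b a) (hB : ∀ a b, st.B a b = st.B b a)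
    {x : ℝ} (h : Phi vtx sc st ≤ x) : Parts vtx sc st x := by
  have key : ∀ (K : Mat ι) (Tc y : ℝ), (∀ a b, K a b = K b a) →
      phiS sc st.S K Tc + sc.kW * WW K ≤ y → PartsS sc st.S K Tc y := by
    intro K Tc y hK hy
    have h1 := mul_nonneg hp.kF (sq_nonneg (pk K 1 - sc.Fc))
    have h2 := mul_nonneg hp.kx (sq_nonneg (pk K 2 - st.S.card * sc.ρ - 1))
    have h3 := mul_nonneg hp.kT (sq_nonneg (pk K 3 - Tc))
    have h4 : 0 ≤ sc.kU * pk K 6 := mul_nonneg hp.kU (pk_even_nonneg hK 3)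
    have h5 := mul_nonneg hp.kV (VV_nonneg st.S K sc.ρ)
    have h6 := mul_nonneg hp.kD (DD_nonneg K)
    have h7 := mul_nonneg hp.kW (WW_nonneg K)
    unfold phiS at hy
    constructor <;> linarith
  have h1 := phiS_nonneg hp hA st.S sc.Tp
  have h2 := phiS_nonneg hp hB st.S sc.Tm
  have h3 := mul_nonneg hp.kW (WW_nonneg st.A)
  have h4 := mul_nonneg hp.kW (WW_nonneg st.B)
  have h5 := mul_nonneg hp.kX (XX_nonneg hA hB)
  have h6 := mul_nonneg hp.kC (CC_nonneg vtx st.S st.G hp.cy)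
  unfold Phi at h
  rw [mul_add] at h
  exact ⟨key _ _ _ hA (by linarith), key _ _ _ hB (by linarith), by linarith, by linarith⟩

theorem Phi_nonneg (hp : sc.Pos) (hA : ∀ a b, st.A a b = st.A b a)
    (hB : ∀ a b, st.B a b = st.B b a) : 0 ≤ Phi vtx sc st := by
  have h1 := phiS_nonneg hp hA st.S sc.Tp
  have h2 := phiS_nonneg hp hB st.S sc.Tm
  have h3 := mul_nonneg hp.kW (WW_nonneg st.A)
  have h4 := mul_nonneg hp.kW (WW_nonneg st.B)
  have h5 := mul_nonneg hp.kX (XX_nonneg hA hB)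
  have h6 := mul_nonneg hp.kC (CC_nonneg vtx st.S st.G hp.cy)
  unfold Phi
  rw [mul_add]
  linarith

theorem abs_le_of_sq {k σ x : ℝ} (hσ : 0 < σ) (hk : k * σ ^ 2 = 1) (h : k * x ^ 2 ≤ 1) : |x| ≤ σ := by
  have hk0 : 0 < k := by
    by_contra h0
    nlinarith [sq_nonneg σ]
  exact abs_le_of_sq_le_sq (le_of_mul_le_mul_left (h.trans hk.ge) hk0) hσ.le

theorem le_of_lin {k v x : ℝ} (h0 : 0 ≤ k) (hk : k * v = 1) (h : k * x ≤ 1) : x ≤ v := by
  have hk0 : 0 < k := lt_of_le_of_ne h0 (by rintro rfl; simp at hk)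
  exact le_of_mul_le_mul_left (h.trans hk.ge) hk0

theorem der_pk_add_sq_le (h : ∀ a b, K a b = K b a) (i j : ℕ) :
    pk K (i + j) ^ 2 ≤ pk K (2 * i) * pk K (2 * j) := by
  have h1 := abs_trace_mul_le (K ^ i) (K ^ j)
  rw [← pow_add, fro_pow h, fro_pow h] at h1
  have h2 := pow_le_pow_left₀ (abs_nonneg _) h1 2
  rwa [sq_abs, mul_pow, Real.sq_sqrt (pk_even_nonneg h i), Real.sq_sqrt (pk_even_nonneg h j)] at h2

theorem der_pk5_sq_le (h : ∀ a b, K a b = K b a) : pk K 5 ^ 2 ≤ pk K 4 * pk K 6 := der_pk_add_sq_le h 2 3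

theorem Side.der_p45 (h : Side S K s) : 0 ≤ pk K 4 + pk K 5 := by
  rw [pk_eq_sum, pk_eq_sum, ← sum_add_distrib]
  exact sum_nonneg fun a _ => by have := h.odd_diag 2 a; norm_num at this; linarith

theorem Side.der_sum_abs_odd (h : Side S K s) (k : ℕ) :
    ∑ a, |(K ^ (2 * k + 1)) a a| ≤ pk K (2 * k + 1) + 2 * pk K (2 * k) := by
  rw [pk_eq_sum, pk_eq_sum, mul_sum, ← sum_add_distrib]
  refine sum_le_sum fun a _ => ?_
  have h1 := h.odd_diag k a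
  have h2 := pow_even_diag_nonneg h.symm k a
  exact abs_le.2 ⟨by linarith, by linarith⟩

/-- Cauchy–Schwarz for the form `(X, Y) ↦ tr (Xᵀ (1 + K) Y)` at `X = K`, `Y = K²`
(`Side.trace_psd` at `x K + K²`, discriminant) -/
theorem Side.p34 (h : Side S K s) :
    (pk K 3 + pk K 4) ^ 2 ≤ (pk K 2 + pk K 3) * (pk K 4 + pk K 5) := by
  have hT := transpose_of_symm h.symm
  have key : ∀ x : ℝ, 0 ≤ (pk K 2 + pk K 3) * (x * x) + 2 * (pk K 3 + pk K 4) * x +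
      (pk K 4 + pk K 5) := by
    intro x
    have h1 := h.trace_psd (x • K + K ^ 2)
    have e0 : (x • K + K ^ 2)ᵀ = x • K + K ^ 2 := by
      rw [transpose_add, transpose_smul, transpose_pow, hT]
    have e1 : (x • K + K ^ 2) * (x • K + K ^ 2) =
        (x * x) • K ^ 2 + (2 * x) • K ^ 3 + K ^ 4 := by
      simp only [add_mul, mul_add, Matrix.smul_mul, Matrix.mul_smul, smul_smul, two_mul, add_smul,
        pow_succ, pow_zero, one_mul, mul_assoc]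
      abel
    have e2 : (x • K + K ^ 2) * K * (x • K + K ^ 2) =
        (x * x) • K ^ 3 + (2 * x) • K ^ 4 + K ^ 5 := by
      simp only [add_mul, mul_add, Matrix.smul_mul, Matrix.mul_smul, smul_smul, two_mul, add_smul,
        pow_succ, pow_zero, one_mul, mul_assoc]
      abel
    rw [fro_eq_trace, e0, e1, e2] at h1
    simp only [trace_add, trace_smul, smul_eq_mul] at h1
    unfold pk
    linarith
  have := discrim_le_zero key
  unfold discrim at this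
  linarith

/-- if `p₄ > P4` then `p₃ + p₄ ≥ 7/8 p₄`, `p₂ + p₃ ≤ t ≤ p₄/8`, `t p₅ ≤ t √(p₄ Λ⁶) ≤ p₄²/8` -/
theorem Side.p4_le (h : Side S K s) {t P4 Λ : ℝ} (h3 : |pk K 3| + pk K 2 ≤ t) (h6 : pk K 6 ≤ Λ ^ 6)
    (h8 : 8 * t ≤ P4) (h64 : 64 * t ^ 2 * Λ ^ 6 ≤ P4 ^ 3) : pk K 4 ≤ P4 := by
  by_contra hlt
  push Not at hlt
  have h2 : 0 ≤ pk K 2 := pk_even_nonneg h.symm 1
  have ht : 0 ≤ t := by have := abs_nonneg (pk K 3); linarith
  have h45 := h.der_p45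
  have h5 := der_pk5_sq_le h.symm
  have hc := h.p34
  have ha := abs_le.1 (show |pk K 3| ≤ t - pk K 2 by linarith)
  generalize pk K 2 = p2 at *
  generalize pk K 3 = p3 at *
  generalize pk K 4 = p4 at *
  generalize pk K 5 = p5 at *
  generalize pk K 6 = p6 at *
  have hP : 0 ≤ P4 := by linarith
  have hp : 0 < p4 := by linarith
  have h1 : (p2 + p3) * (p4 + p5) ≤ t * (p4 + p5) := by gcongr; linarith
  have h7 : (7 / 8 * p4) ^ 2 ≤ (p3 + p4) ^ 2 := by gcongr; linarith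
  have h9 : P4 ^ 3 ≤ p4 ^ 3 := by gcongr
  have h10 : (t * p5) ^ 2 ≤ (p4 ^ 2 / 8) ^ 2 := by
    calc (t * p5) ^ 2 = t ^ 2 * p5 ^ 2 := by ring
      _ ≤ t ^ 2 * (p4 * Λ ^ 6) := by gcongr; exact h5.trans (by gcongr)
      _ = p4 * (64 * t ^ 2 * Λ ^ 6) / 64 := by ring
      _ ≤ p4 * p4 ^ 3 / 64 := by gcongr; exact h64.trans h9
      _ = (p4 ^ 2 / 8) ^ 2 := by ring
  have h11 : t * p5 ≤ p4 ^ 2 / 8 := (abs_le.1 (abs_le_of_sq_le_sq h10 (by positivity))).2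
  have h12 : t * p4 ≤ p4 / 8 * p4 := by gcongr; linarith
  have h13 : 0 < p4 ^ 2 := by positivity
  nlinarith

/-- `|α₃| ≤ α₃ + 2 α₂`, `|α₅| ≤ α₅ + 2 α₄` (`Side.odd_diag`), `p₅² ≤ p₄ p₆`; `opLe_of_pk6` or `opLe_of_fro` -/
theorem DerOK.bnd (hd : DerOK p sc) (h : Side S K s) (hN : (S.card : ℝ) = p.N)
    (hT : Tc = sc.Tp ∨ Tc = sc.Tm) (hp : PartsS sc S K Tc 1) : Bnd S K s p := by
  have hF := abs_le_of_sq hd.σF0 hd.kF hp.F
  have hX := abs_le_of_sq hd.σx0 hd.kx hp.x'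
  rw [hN, hd.ρ] at hX
  have hV := le_of_lin hd.pos.kV hd.kV hp.V
  rw [hd.ρ] at hV
  have hD := le_of_lin hd.pos.kD hd.kD hp.D
  have hW := le_of_lin hd.pos.kW hd.kW hp.W
  have hΛ : 0 ≤ p.Λ := zero_le_one.trans hd.Λ1
  have h2 : 0 ≤ pk K 2 := pk_even_nonneg h.symm 1
  have h4 : 0 ≤ pk K 4 := pk_even_nonneg h.symm 2
  have hQ : pk K 2 ≤ p.Qb := by have := hd.Qb; have := abs_le.1 hX; linarith
  have hF' : |pk K 1| ≤ p.Fb := by
    have := hd.Fb
    have := abs_sub_abs_le_abs_sub (pk K 1) sc.Fc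
    linarith
  have hX' : |pk K 2 - p.N * p.ρ| ≤ p.X := by
    have := hd.X
    have := abs_le.1 hX
    exact abs_le.2 ⟨by linarith [hd.σx0], by linarith⟩
  have main : OpLe K p.Λ ∧ ∑ a, |(K ^ 3) a a| ≤ p.t ∧ pk K 4 ≤ p.P4 ∧
      ∑ a, |(K ^ 5) a a| ≤ p.P5 ∧ pk K 6 ≤ p.Λ ^ 6 := by
    rcases hd.top with ⟨a1, a2, a3, a4, a5, a6, a7, a8, a9⟩ | ⟨a1, a2, a3, a4⟩
    · have hT3 := abs_le_of_sq a1 a2 hp.T
      have h6 := le_of_lin hd.pos.kU a3 hp.U
      have h3 : |pk K 3| + 2 * p.Qb ≤ p.t := by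
        have := abs_sub_abs_le_abs_sub (pk K 3) Tc
        rcases hT with rfl | rfl <;> linarith
      have hP4 : pk K 4 ≤ p.P4 := h.p4_le (by linarith) h6 a6 a7
      refine ⟨opLe_of_pk6 h.symm hΛ h6, ?_, hP4, ?_, h6⟩
      · have := h.der_sum_abs_odd 1
        have := le_abs_self (pk K 3)
        norm_num at *
        linarith
      · have h5 : pk K 5 ≤ p.P5 / 2 := by
          refine (abs_le.1 (abs_le_of_sq_le_sq ?_ (by linarith))).2
          have h6' : 0 ≤ pk K 6 := pk_even_nonneg h.symm 3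
          have : pk K 4 * pk K 6 ≤ p.P4 * p.Λ ^ 6 := by gcongr; exact h4.trans hP4
          have := der_pk5_sq_le h.symm
          nlinarith
        have := h.der_sum_abs_odd 2
        norm_num at *
        linarith
    · have ho : OpLe K p.Λ := opLe_of_fro (by rw [fro_eq_pk2 h.symm]; exact hQ.trans a1)
      have hs : ∀ k, ∑ a, |(K ^ (k + 2)) a a| ≤ p.Λ ^ k * p.Qb := fun k =>
        calc ∑ a, |(K ^ (k + 2)) a a| ≤ ∑ a, p.Λ ^ k * bb K a :=
              sum_le_sum fun a _ => ho.abs_diag_le h.symm hΛ k a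
          _ = p.Λ ^ k * pk K 2 := by rw [← mul_sum, sum_bb]
          _ ≤ _ := by gcongr
      refine ⟨ho, ?_, ?_, (hs 3).trans a4, ?_⟩
      · have := hs 1
        rw [pow_one] at this
        exact this.trans a2
      · have h1 : pk K 4 ≤ p.Λ ^ 2 * pk K 2 := ho.pk_le h.symm 1 1
        exact h1.trans ((by gcongr : p.Λ ^ 2 * pk K 2 ≤ p.Λ ^ 2 * p.Qb).trans a3)
      · have h1 : pk K 6 ≤ p.Λ ^ 4 * pk K 2 := ho.pk_le h.symm 2 1
        calc pk K 6 ≤ p.Λ ^ 4 * pk K 2 := h1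
          _ ≤ p.Λ ^ 4 * p.Λ ^ 2 := by gcongr; exact hQ.trans a1
          _ = p.Λ ^ 6 := by ring
  exact { h with
    card := hN, ρ0 := hd.ρ0, ρ1 := hd.ρ1, Λ1 := hd.Λ1, op := main.1, F := hF', X := hX', Q := hQ,
    t := main.2.1, P4 := main.2.2.1, P5 := main.2.2.2.1, P6 := main.2.2.2.2, V := hV, D := hD,
    W := hW }

/-- `Tl² ≤ p₃² ≤ p₂ p₄` -/
theorem Bnd.Pl_le (h : Bnd S K s p) (hg : Glob p) (h0 : 0 < p.Tl) (h3 : p.Tl ≤ pk K 3)
    (hP : p.Pl * p.Qb ≤ p.Tl ^ 2) : p.Pl ≤ pk K 4 := by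
  have h1 : pk K 3 ^ 2 ≤ pk K 2 * pk K 4 := der_pk_add_sq_le h.symm 1 2
  have h4 : 0 ≤ pk K 4 := pk_even_nonneg h.symm 2
  have hQ := h.one_le_Qb hg
  have h2 : pk K 2 * pk K 4 ≤ p.Qb * pk K 4 := by gcongr; exact h.Q
  have h5 : p.Tl ^ 2 ≤ pk K 3 ^ 2 := by gcongr
  exact le_of_mul_le_mul_right (a := p.Qb) (by linarith) (by linarith)

/-- entries are bounded by the `p₂` term -/
theorem PartsS.entry_le (h : ∀ a b, K a b = K b a) (hp : PartsS sc S K Tc 1) {σ R : ℝ} (hσ : 0 < σ)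
    (hk : sc.kx * σ ^ 2 = 1) (hR : S.card * sc.ρ + 1 + σ ≤ R) (hR1 : 1 ≤ R) (a b : ι) :
    |K a b| ≤ R := by
  have h1 := (abs_le.1 (abs_le_of_sq hσ hk hp.x')).2
  have h2 : bb K a ≤ pk K 2 := by
    rw [← sum_bb]
    exact single_le_sum (f := bb K) (fun c _ => bb_nonneg h c) (mem_univ a)
  have h3 := sq_le_bb h a b
  exact abs_le_of_sq_le_sq (by nlinarith) (by linarith)

theorem PartsS.p2_lt (hp : PartsS sc S K Tc 1) (hρ : sc.ρ = 0) (hk : 1 < sc.kx) : pk K 2 < 2 := by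
  have h1 := hp.x'
  rw [hρ, mul_zero, sub_zero] at h1
  by_contra h2
  push Not at h2
  have h3 : 1 ≤ (pk K 2 - 1) ^ 2 := by nlinarith
  nlinarith

/-- `VV 0 ≤ 2 VV ρ + 2 N ρ²` -/
theorem TransOK.phi {N σx v : ℝ} (ht : TransOK N σx v sc sc') (hA : Side st.S st.A 1)
    (hB : Side st.S st.B (-1)) (hN : (st.S.card : ℝ) = N) (h : Phi vtx sc st ≤ 1) :
    Phi vtx sc' st ≤ 1 / 4 := by
  have hP := parts_of ht.pos hA.symm hB.symm h
  have hN0 : 0 ≤ N := hN ▸ Nat.cast_nonneg _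
  have small : ∀ {k k' y : ℝ}, 0 ≤ y → 100 * k' ≤ k → k * y ≤ 1 → k' * y ≤ 1 / 100 := by
    intro k k' y hy hk h1
    have := mul_le_mul_of_nonneg_right hk hy
    linarith
  have key : ∀ (K : Mat ι) (Tc Tc' : ℝ), PartsS sc st.S K Tc 1 →
      phiS sc' st.S K Tc' + sc'.kW * WW K ≤ 5 / 100 := by
    intro K Tc Tc' hK
    have h1 := small (sq_nonneg _) ht.kF' hK.F
    have h2 : sc'.kx * (pk K 2 - 1) ^ 2 ≤ 1 / 100 := by
      refine le_trans (mul_le_mul_of_nonneg_left ?_ ht.pos'.kx) ht.kx'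
      have h3 := abs_le.1 (abs_le_of_sq ht.σx0 ht.kx hK.x')
      rw [hN] at h3
      have := mul_nonneg hN0 ht.ρ0
      exact sq_le_sq' (by linarith) (by linarith)
    have h3 : sc'.kV * VV st.S K 0 ≤ 1 / 100 := by
      refine le_trans (mul_le_mul_of_nonneg_left ?_ ht.pos'.kV) ht.kV'
      have h4 := le_of_lin ht.pos.kV ht.kV hK.V
      have h5 : VV st.S K 0 ≤ ∑ c ∈ st.S, (2 * (bb K c - sc.ρ) ^ 2 + 2 * sc.ρ ^ 2) :=
        sum_le_sum fun c _ => by nlinarith [sq_nonneg (bb K c - 2 * sc.ρ)]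
      rw [sum_add_distrib, ← mul_sum, sum_const, nsmul_eq_mul, hN] at h5
      unfold VV at h4
      linarith
    have h4 := small (DD_nonneg K) ht.kD' hK.D
    have h5 := small (WW_nonneg K) ht.kW' hK.W
    unfold phiS
    rw [ht.ρ', ht.Fc, ht.kT', ht.kU', mul_zero, sub_zero]
    linarith
  have h1 := key _ _ sc'.Tp hP.A
  have h2 := key _ _ sc'.Tm hP.B
  have h3 := small (CC_nonneg vtx st.S st.G ht.pos.cy) ht.kC' hP.C
  unfold Phi
  rw [ht.kX', ht.cy', mul_add]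
  linarith

end Crest.Agent.R62
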