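import Crest.Agent.R62.DriftV1

/-!
# Row 62: drift of `DD`

`DD_step`, `K̂ c c = α_c + Δ_c`, `Δ_c = j β p² + 2 g p q + j α q²` (`p = K c a`, `q = K c b`), `K̂ a a = j α`.
-/

set_option autoImplicit false
set_option linter.unusedSectionVars false
set_option linter.unusedVariables false

open Finset Matrix

noncomputable section

namespace Crest.Agent.R62

variable {ι : Type} [Fintype ι] [DecidableEq ι]
variable {S : Finset ι} {w : ι → ι → ℝ} {K : Mat ι} {s : ℝ} {p : Par}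

/-- `f(a) = ∑_c α_c K c a ²` -/
def dF (K : Mat ι) (a : ι) : ℝ := ∑ c, K c c * K c a ^ 2
/-- `(K D K) a b` -/
def dM (K : Mat ι) (a b : ι) : ℝ := ∑ c, K c c * (K c a * K c b)

theorem D_hat (hs : ∀ c d, K c d = K d c) (s : ℝ) (a b c : ι) : hat K s a b c c - K c c =
    jj K s a b * K b b * K c a ^ 2 + 2 * gg K s a b * (K c a * K c b) +
      jj K s a b * K a a * K c b ^ 2 := by
  simp only [hat, l1, l2, Matrix.of_apply]
  ring

theorem D_lin_eq (hs : ∀ c d, K c d = K d c) (s : ℝ) (a b : ι) :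
    ∑ c, K c c * (hat K s a b c c - K c c) =
      (dF K a * K b b + dF K b * K a a) +
      ((jj K s a b - 1) * (dF K a * K b b) + (jj K s a b - 1) * (K a a * dF K b)) +
      (2 * s * dM K a b + 2 * ((gg K s a b - s) * dM K a b)) := by
  have : ∑ c, K c c * (hat K s a b c c - K c c) = jj K s a b * K b b * dF K a +
      2 * gg K s a b * dM K a b + jj K s a b * K a a * dF K b := by
    simp only [D_hat hs, dF, dM, Finset.mul_sum, ← Finset.sum_add_distrib]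
    exact Finset.sum_congr rfl fun c _ => by ring
  rw [this]
  ring

theorem D_diag_b (h : Bnd S K s p) : (∑ c, |K c c| * bb K c) ^ 2 ≤ p.δ * p.Db := by
  refine (Finset.sum_mul_sq_le_sq_mul_sq _ _ _).trans ?_
  simp only [sq_abs]
  exact mul_le_mul h.sum_diag_sq h.sum_bb_sq (Finset.sum_nonneg fun _ _ => sq_nonneg _) h.nn.δ

theorem D_sum_dF (h : Bnd S K s p) : ∑ a ∈ S, |dF K a| ≤ √(p.δ * p.Db) := by
  refine le_trans ?_ (Real.le_sqrt_of_sq_le (D_diag_b h))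
  calc ∑ a ∈ S, |dF K a| ≤ ∑ a, |dF K a| :=
        Finset.sum_le_sum_of_subset_of_nonneg (Finset.subset_univ _) fun _ _ _ => abs_nonneg _
    _ ≤ ∑ a, ∑ c, |K c c| * K c a ^ 2 := Finset.sum_le_sum fun a _ => by
        refine (Finset.abs_sum_le_sum_abs _ _).trans (le_of_eq ?_)
        exact Finset.sum_congr rfl fun c _ => by rw [abs_mul, abs_of_nonneg (sq_nonneg (K c a))]
    _ = _ := by
        rw [Finset.sum_comm]
        exact Finset.sum_congr rfl fun c _ => by rw [← Finset.mul_sum, bb_eq h.symm]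

theorem D_sum_sq_S (h : Side S K s) : ∑ a ∈ S, K a a ^ 2 = DD K :=
  Finset.sum_subset (Finset.subset_univ _) fun a _ ha => by rw [h.supp a a ha]; ring

theorem D_sum_S (h : Side S K s) : ∑ a ∈ S, K a a = pk K 1 := by
  simpa using h.sum_diag 0

theorem D_sum_abs_S (h : Bnd S K s p) : ∑ a ∈ S, |K a a| ≤ √(p.N * p.δ) :=
  (Finset.sum_le_sum_of_subset_of_nonneg (Finset.subset_univ _) fun _ _ _ => abs_nonneg _).trans
    h.sum_abs_diag

theorem Ctx.D_t1 (h : Ctx S w K s p) {E : ℝ} (hE : 0 ≤ E) (hc : CondD p E) :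
    |Ew w (fun a b => dF K a * K b b)| ≤ 2 * (p.N * E) := by
  have nn := h.bnd.nn
  have hy : 0 ≤ p.N * E := mul_nonneg nn.N hE
  have hκ := h.wt.κ20
  have h1 := h.wt.sep1 (dF K) (fun b => K b b)
  rw [D_sum_sq_S h.bnd.toSide, D_sum_S h.bnd.toSide] at h1
  have h2 := D_sum_dF h.bnd
  have h3 : |∑ a ∈ S, dF K a| ≤ √(p.δ * p.Db) := (Finset.abs_sum_le_sum_abs _ _).trans h2
  have hδ := mul_nonneg nn.δ nn.Db
  have h4 : √(p.δ * p.Db) * p.Fb ≤ p.N * E := by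
    refine abs_le_of_sq_le_sq' ?_ hy |>.2
    rw [mul_pow, Real.sq_sqrt hδ]
    linarith [hc.D3]
  have h5 : p.κ2 * √(p.δ * p.Db) * √p.δ ≤ p.N * E := by
    refine abs_le_of_sq_le_sq' ?_ hy |>.2
    rw [mul_pow, mul_pow, Real.sq_sqrt hδ, Real.sq_sqrt nn.δ]
    linarith [hc.D4]
  have h6 : |(∑ a ∈ S, dF K a) * pk K 1| ≤ p.N * E := by
    rw [abs_mul]
    exact (mul_le_mul h3 h.bnd.F (abs_nonneg _) (Real.sqrt_nonneg _)).trans h4
  have h7 : p.κ2 * (∑ a ∈ S, |dF K a|) * √(DD K) ≤ p.N * E := by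
    refine le_trans ?_ h5
    have := h.bnd.D
    gcongr
  have h8 := abs_sub_abs_le_abs_sub (Ew w fun a b => dF K a * K b b) ((∑ a ∈ S, dF K a) * pk K 1)
  linarith

theorem Ctx.D_j (h : Ctx S w K s p) {a b : ι} (hab : w a b ≠ 0) : |jj K s a b - 1| ≤ 6 * p.ε := by
  have := h.scal hab
  linarith [this.j1, this.thε]

theorem Ctx.D_t2aux (h : Ctx S w K s p) {E : ℝ} (hE : 0 ≤ E) (hc : CondD p E) :
    p.ε * ((∑ a ∈ S, |dF K a|) * ∑ a ∈ S, |K a a|) ≤ p.N * E := by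
  have nn := h.bnd.nn
  have hε := h.gl.ε0.le
  have h1 : p.ε * (√(p.δ * p.Db) * √(p.N * p.δ)) ≤ p.N * E := by
    refine abs_le_of_sq_le_sq' ?_ (mul_nonneg nn.N hE) |>.2
    rw [mul_pow, mul_pow, Real.sq_sqrt (mul_nonneg nn.δ nn.Db), Real.sq_sqrt (mul_nonneg nn.N nn.δ)]
    linarith [hc.D6]
  refine le_trans (mul_le_mul_of_nonneg_left ?_ hε) h1
  exact mul_le_mul (D_sum_dF h.bnd) (D_sum_abs_S h.bnd)
    (Finset.sum_nonneg fun _ _ => abs_nonneg _) (Real.sqrt_nonneg _)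

theorem Ctx.D_t2 (h : Ctx S w K s p) {E : ℝ} (hE : 0 ≤ E) (hc : CondD p E) :
    |Ew w (fun a b => (jj K s a b - 1) * (dF K a * K b b))| ≤ 12 * (p.N * E) := by
  have hε := h.gl.ε0.le
  have h1 := h.wt.abs_le_prod (F := fun a b => (jj K s a b - 1) * (dF K a * K b b))
    (f := fun a => 6 * p.ε * |dF K a|) (h := fun b => |K b b|) (fun a => by positivity)
    (fun b => abs_nonneg _) fun a b hab => by
      rw [abs_mul, abs_mul, mul_assoc (6 * p.ε)]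
      exact mul_le_mul_of_nonneg_right (h.D_j hab) (by positivity)
  rw [← Finset.mul_sum] at h1
  linarith [h.D_t2aux hE hc]

theorem Ctx.D_t3 (h : Ctx S w K s p) {E : ℝ} (hE : 0 ≤ E) (hc : CondD p E) :
    |Ew w (fun a b => (jj K s a b - 1) * (K a a * dF K b))| ≤ 12 * (p.N * E) := by
  have hε := h.gl.ε0.le
  have h1 := h.wt.abs_le_prod (F := fun a b => (jj K s a b - 1) * (K a a * dF K b))
    (f := fun a => 6 * p.ε * |K a a|) (h := fun b => |dF K b|) (fun a => by positivity)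
    (fun b => abs_nonneg _) fun a b hab => by
      rw [abs_mul, abs_mul, mul_assoc (6 * p.ε)]
      exact mul_le_mul_of_nonneg_right (h.D_j hab) (by positivity)
  rw [← Finset.mul_sum] at h1
  linarith [h.D_t2aux hE hc]

theorem Ctx.D_t4 (h : Ctx S w K s p) {E : ℝ} (hE : 0 ≤ E) (hc : CondD p E) :
    |Ew w (dM K)| ≤ 2 * (p.N * E) := by
  have nn := h.bnd.nn
  have hy : 0 ≤ p.N * E := mul_nonneg nn.N hE
  have hS := h.bnd.toSide
  obtain ⟨ξ, hξ⟩ : ∃ ξ : ι → ℝ, ∀ c, ξ c = ∑ a ∈ S, ∑ b ∈ S, (1 - w a b) * (K c a * K c b) :=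
    ⟨_, fun _ => rfl⟩
  have h1 : Ew w (dM K) = pk K 1 - ∑ c, K c c * ξ c := by
    have e := Ew_sum w Finset.univ fun c a b => K c c * (K c a * K c b)
    rw [show dM K = fun a b => ∑ c, K c c * (K c a * K c b) from rfl, e, pk_eq_sum, pow_one,
      ← Finset.sum_sub_distrib]
    refine Finset.sum_congr rfl fun c _ => ?_
    by_cases hc : c ∈ S
    · have e1 : ∑ a ∈ S, ∑ b ∈ S, K c a * K c b = 1 := by
        rw [← Finset.sum_mul_sum, hS.row' c hc, ← sq, hS.sq]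
      rw [Ew_mul, h.wt.eq_sum, hξ]
      simp only [sub_mul, one_mul, Finset.sum_sub_distrib, e1]
      ring
    · rw [Ew_mul, hS.supp c c hc]
      ring
  have h2 : |∑ c, K c c * ξ c| ≤ p.N * E := by
    refine abs_le_of_sq_le_sq ((Finset.sum_mul_sq_le_sq_mul_sq _ _ _).trans ?_) hy
    refine le_trans ?_ hc.D2
    refine mul_le_mul h.bnd.sum_diag_sq ?_ (Finset.sum_nonneg fun _ _ => sq_nonneg _) nn.δ
    simp only [hξ]
    exact h.wk.xi
  rw [h1]
  have := abs_sub (pk K 1) (∑ c, K c c * ξ c)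
  linarith [h.bnd.F, hc.D1]

theorem D_fro (h : Bnd S K s p) : fro (K * Matrix.diagonal (fun c => K c c) * K) ≤ p.δ * p.Db := by
  refine (fro_diag_le _ _ _).trans (le_trans (le_of_eq ?_) (D_diag_b h))
  congr 1
  refine Finset.sum_congr rfl fun c _ => ?_
  rw [← bb_eq' h.symm, ← bb_eq h.symm, Real.mul_self_sqrt (bb_nonneg h.symm c)]

theorem dM_eq (hs : ∀ c d, K c d = K d c) (a b : ι) :
    dM K a b = (K * Matrix.diagonal (fun c => K c c) * K) a b := by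
  rw [Matrix.mul_apply, dM]
  refine Finset.sum_congr rfl fun c _ => ?_
  rw [Matrix.mul_diagonal, hs a c]
  ring

theorem Ctx.D_t5 (h : Ctx S w K s p) {E : ℝ} (hE : 0 ≤ E) (hc : CondD p E) :
    |Ew w (fun a b => (gg K s a b - s) * dM K a b)| ≤ 15 * (p.N * E) := by
  have nn := h.bnd.nn
  have hy : 0 ≤ p.N * E := mul_nonneg nn.N hE
  have h1 : Ew w (fun a b => dM K a b ^ 2) ≤ 2 * (p.δ * p.Db) := by
    simp only [dM_eq h.bnd.symm]
    linarith [h.wt.sq_mat (K * Matrix.diagonal (fun c => K c c) * K), D_fro h.bnd]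
  have h2 := h.wt.cs_le (th K) (dM K) (y := 3 * (p.N * E)) (Ew_th_sq h.bnd h.wt) h1
    (by nlinarith [hc.D5, sq_nonneg (p.N * E)]) (by positivity)
  have h3 := h.wt.abs_le_abs (f := fun a b => (gg K s a b - s) * dM K a b)
    (g := fun a b => 5 * |th K a b * dM K a b|) fun a b hab => by
      rw [abs_mul, abs_mul, abs_of_nonneg (h.scal hab).th0, ← mul_assoc]
      exact mul_le_mul_of_nonneg_right (h.scal hab).g1 (abs_nonneg _)
  rw [Ew_mul] at h3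
  linarith

/-- * `s α_c p q`: `Ew (p q) = 1 - ξ_c` for `c ∈ S`, `∑ ξ² ≤ Ξ2` (`WtK.xi`): `D1`, `D2`;
* `(g - s) (K D K) a b`, `D = diagonal α`, `fro ≤ δ Db` (`fro_diag_le`): `D5`;
* `β f(a)`, `f(a) = ∑_c α_c p²`, `∑ |f| ≤ √(δ Db)`: `Wt.sep1`, `D3`, `D4`; `(j-1) β f(a)`, `|j-1| ≤ 6 ε`: `D6`. -/
theorem Ctx.D_lin (h : Ctx S w K s p) {E : ℝ} (hE : 0 ≤ E) (hc : CondD p E) :
    |Ew w (fun a b => ∑ c, K c c * (hat K s a b c c - K c c))| ≤ 200 * (p.N * E) := by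
  have hy : 0 ≤ p.N * E := mul_nonneg h.bnd.nn.N hE
  simp only [D_lin_eq h.bnd.symm, Ew_add, Ew_mul]
  rw [h.wt.swap fun a b => dF K a * K b b]
  have h1 := abs_le.1 (h.D_t1 hE hc)
  have h2 := abs_le.1 (h.D_t2 hE hc)
  have h3 := abs_le.1 (h.D_t3 hE hc)
  have h4 := abs_le.1 (h.D_t4 hE hc)
  have h5 := abs_le.1 (h.D_t5 hE hc)
  rw [abs_le]
  rcases h.bnd.sgn with rfl | rfl <;> constructor <;> linarith [h1.1, h1.2, h2.1, h2.2, h3.1, h3.2,
    h4.1, h4.2, h5.1, h5.2]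

theorem D_sq {j g α β x y : ℝ} (hj0 : 0 ≤ j) (hj : j ≤ 21 / 20) (hg : |g| ≤ 11 / 10) :
    (j * β * x ^ 2 + 2 * g * (x * y) + j * α * y ^ 2) ^ 2 ≤
      4 * (x ^ 4 * β ^ 2) + 15 * (x ^ 2 * y ^ 2) + 4 * (y ^ 4 * α ^ 2) := by
  have h1 : j ^ 2 ≤ 4 / 3 := by nlinarith
  have h2 : g ^ 2 ≤ 5 / 4 := by nlinarith [abs_nonneg g, sq_abs g]
  have h3 : ∀ u v t : ℝ, (u + v + t) ^ 2 ≤ 3 * (u ^ 2 + v ^ 2 + t ^ 2) := fun u v t => by
    nlinarith [sq_nonneg (u - v), sq_nonneg (u - t), sq_nonneg (v - t)]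
  calc _ ≤ _ := h3 _ _ _
    _ = 3 * (j ^ 2 * (x ^ 4 * β ^ 2) + 4 * g ^ 2 * (x ^ 2 * y ^ 2) + j ^ 2 * (y ^ 4 * α ^ 2)) := by
        ring
    _ ≤ 3 * (4 / 3 * (x ^ 4 * β ^ 2) + 4 * (5 / 4) * (x ^ 2 * y ^ 2) + 4 / 3 * (y ^ 4 * α ^ 2)) := by
        gcongr
    _ = _ := by ring

/-- `Δ² ≤ 3 (j² β² p⁴ + 4 g² p² q² + j² α² q⁴)`; `D7` -/
theorem Ctx.D_quad (h : Ctx S w K s p) {E : ℝ} (hE : 0 ≤ E) (hc : CondD p E) :
    Ew w (fun a b => ∑ c, (hat K s a b c c - K c c) ^ 2) ≤ 100 * p.W * DD K + 100 * (p.N * E) := by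
  have nn := h.bnd.nn
  have hy : 0 ≤ p.N * E := mul_nonneg nn.N hE
  have hD := DD_nonneg K
  have hW := mul_nonneg nn.W hD
  have h1 := h.wt.mono (f := fun a b => ∑ c, (hat K s a b c c - K c c) ^ 2)
    (g := fun a b => 4 * ((∑ c, K c a ^ 4) * K b b ^ 2) + 15 * (∑ c, K c a ^ 2 * K c b ^ 2) +
      4 * ((∑ c, K c b ^ 4) * K a a ^ 2)) fun a b hab => by
    have hs := h.scal hab
    simp only [D_hat h.bnd.symm, Finset.sum_mul, Finset.mul_sum, ← Finset.sum_add_distrib]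
    exact Finset.sum_le_sum fun c _ => D_sq (by linarith [hs.jl]) hs.ju hs.gu'
  simp only [Ew_add, Ew_mul] at h1
  rw [h.wt.swap fun a b => (∑ c, K c a ^ 4) * K b b ^ 2] at h1
  have h2 := h.wt.le_two' (f := fun a b => (∑ c, K c a ^ 4) * K b b ^ 2) fun a b => by positivity
  have e2 : ∑ a, ∑ b, (∑ c, K c a ^ 4) * K b b ^ 2 = WW K * DD K := by
    rw [← Finset.sum_mul_sum, Finset.sum_comm]
    rfl
  have h3 := h.wt.le_two' (f := fun a b => ∑ c, K c a ^ 2 * K c b ^ 2) fun a b => by positivity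
  have e3 : ∑ a, ∑ b, ∑ c, K c a ^ 2 * K c b ^ 2 = ∑ c, bb K c ^ 2 := by
    simp only [bb_eq h.bnd.symm, sq (∑ _, _), Finset.sum_mul_sum]
    exact Finset.sum_comm_cycle
  rw [e2] at h2
  rw [e3] at h3
  have h4 := mul_le_mul_of_nonneg_right h.bnd.W hD
  linarith [h.bnd.sum_bb_sq, hc.D7]

/-- the deleted entries: `j² ≥ 1 - 12 ε`, `Ctx.left_ge`, `D8`, `D9` -/
theorem Ctx.driftD (h : Ctx S w K s p) {E : ℝ} (hE : 0 ≤ E) (hc : CondD p E) :
    Ew w (fun a b => DD (step K s a b)) ≤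
      (Ew w (fun _ _ => 1) - 2 * p.N + 2000 * p.W) * DD K + 10 ^ 9 * (p.N * E) := by
  have nn := h.bnd.nn
  have hy : 0 ≤ p.N * E := mul_nonneg nn.N hE
  have hD := DD_nonneg K
  have hW := mul_nonneg nn.W hD
  have hε := h.gl.ε0.le
  have hε1 := h.gl.H10
  have h1 := h.wt.mono (f := fun a b => DD (step K s a b))
    (g := fun a b => DD K + 2 * (∑ c, K c c * (hat K s a b c c - K c c)) +
      (∑ c, (hat K s a b c c - K c c) ^ 2) - (1 - 12 * p.ε) * K a a ^ 2 -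
      (1 - 12 * p.ε) * K b b ^ 2) fun a b hab => by
    have ha := h.adm hab
    have hj := abs_le.1 (h.D_j hab)
    have hj2 : 1 - 12 * p.ε ≤ jj K s a b ^ 2 := by nlinarith [sq_nonneg (jj K s a b - 1)]
    have e : ∑ c, hat K s a b c c ^ 2 = DD K + 2 * (∑ c, K c c * (hat K s a b c c - K c c)) +
        ∑ c, (hat K s a b c c - K c c) ^ 2 := by
      rw [DD, Finset.mul_sum, ← Finset.sum_add_distrib, ← Finset.sum_add_distrib]
      exact Finset.sum_congr rfl fun c _ => by ring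
    rw [DD_step K s ha.ne, ha.hat_aa, ha.hat_bb, e, mul_pow, mul_pow]
    have := mul_le_mul_of_nonneg_right hj2 (sq_nonneg (K a a))
    have := mul_le_mul_of_nonneg_right hj2 (sq_nonneg (K b b))
    linarith
  simp only [Ew_add, Ew_sub, Ew_mul] at h1
  rw [Ew_const, h.wt.swap fun a _ => K a a ^ 2] at h1
  have h2 := h.left_ge (f := fun a => K a a ^ 2) fun a => sq_nonneg _
  rw [D_sum_sq_S h.bnd.toSide] at h2
  have h3 := (abs_le.1 (h.D_lin hE hc)).2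
  have h4 := h.D_quad hE hc
  have h5 : p.κ2 * √p.N * p.δ ≤ p.N * E := by
    refine abs_le_of_sq_le_sq' ?_ hy |>.2
    rw [mul_pow, mul_pow, Real.sq_sqrt nn.N]
    linarith [hc.D9]
  have hκ : 0 ≤ p.κ2 * √p.N := mul_nonneg h.wt.κ20 (Real.sqrt_nonneg _)
  have h6 : p.κ2 * √p.N * DD K ≤ p.N * E := (mul_le_mul_of_nonneg_left h.bnd.D hκ).trans h5
  have h7 : p.N * (p.ε * DD K) ≤ p.N * E :=
    mul_le_mul_of_nonneg_left ((mul_le_mul_of_nonneg_left h.bnd.D hε).trans hc.D8) nn.N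
  have h8 := mul_le_mul_of_nonneg_left h2 (show 0 ≤ 1 - 12 * p.ε by linarith)
  have h9 : 0 ≤ p.ε * (p.κ2 * √p.N * DD K) := by positivity
  nlinarith

end Crest.Agent.R62
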