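import Crest.Agent.R62.Ident

/-!
# Row 62: the change of the power traces

Write `U = UU = v G ṽᵀ`, `N_i = G ṽᵀ K^i v = blk K s (K^(i+1)) a b` and `Y_k = G ṽᵀ (K+U)^k v` (`2 × 2` matrices).

* Abstract lemmas `tr_pow_*` (`U = v M`, `M = G ṽᵀ : 2 × ι`, `n i = M K^i v`): expand `(K + v M)^k` with
  `pow_succ`/`mul_add`/`Matrix.mul_assoc` and rotate each word with `Matrix.trace_mul_comm` so that it becomes the
  trace of a product of the `2 × 2` matrices `n i`.  More economical for `k = 6`: put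
  `T i j = tr (M (K+U)^j K^i v)` and `R i j = M (K+U)^j K^i v`; then `R i 0 = n i`,
  `R i (j+1) = R (i+1) j + R 0 j * n i` and `tr (K+U)^k - tr K^k = ∑_{i+j=k-1} tr (R i j)`.
* With `e_k = tr N_{k-1} - ∑_{i+j=k-2} (N_i 0 0 * N_j 1 1 - N_i 0 1 * N_j 1 0)` (the coefficients of
  `1 - det (1 - z ∑ N_i z^i)`) Newton's identities are polynomial identities in the entries of the `N_i`
  (`simp [Matrix.trace_fin_two, Matrix.mul_apply, Fin.sum_univ_two]; ring`, after `obtain`ing names for the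
  entries).
* `e_k = c_k` (`ee_eq_cc`): `N_i = G X_i`, the symmetrised mixed determinant is multiplicative and
  `det G = -j`, `j h₀ = 1`, `s² = 1`.

All identities were checked numerically.
-/

set_option autoImplicit false

open Finset Matrix

noncomputable section

namespace Crest.Agent.R62

variable {ι : Type} [Fintype ι] [DecidableEq ι]

/-- coefficients of `1 - det (1 - z ∑ n_i z^i)` -/
def ee (n : ℕ → Matrix (Fin 2) (Fin 2) ℝ) (k : ℕ) : ℝ :=
  (n (k - 1)).trace - if 2 ≤ k then
    ∑ i ∈ range (k - 1), (n i 0 0 * n (k - 2 - i) 1 1 - n i 0 1 * n (k - 2 - i) 1 0) else 0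

/-- `R i j` of the header in terms of the `n i` -/
def newtonR (n : ℕ → Matrix (Fin 2) (Fin 2) ℝ) : ℕ → ℕ → Matrix (Fin 2) (Fin 2) ℝ
  | i, 0 => n i
  | i, j + 1 => newtonR n (i + 1) j + newtonR n 0 j * n i

theorem newtonR_zero (n : ℕ → Matrix (Fin 2) (Fin 2) ℝ) (i : ℕ) (p q : Fin 2) :
    newtonR n i 0 p q = n i p q := by
  rw [newtonR]

theorem newtonR_succ (n : ℕ → Matrix (Fin 2) (Fin 2) ℝ) (i j : ℕ) (p q : Fin 2) :
    newtonR n i (j + 1) p q =
      newtonR n (i + 1) j p q + (newtonR n 0 j p 0 * n i 0 q + newtonR n 0 j p 1 * n i 1 q) := by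
  rw [newtonR, Matrix.add_apply, Matrix.mul_apply, Fin.sum_univ_two]

/-- the symmetrised mixed determinant is multiplicative -/
theorem newton_ee_mul (G : Matrix (Fin 2) (Fin 2) ℝ) (X : ℕ → Matrix (Fin 2) (Fin 2) ℝ) (k : ℕ) :
    ee (fun i => G * X i) k = (G * X (k - 1)).trace - (G 0 0 * G 1 1 - G 0 1 * G 1 0) *
      if 2 ≤ k then
        ∑ i ∈ range (k - 1), (X i 0 0 * X (k - 2 - i) 1 1 - X i 0 1 * X (k - 2 - i) 1 0) else 0 := by
  unfold ee
  split_ifs with hk
  · congr 1
    set A : ℕ → ℕ → ℝ := fun i j => G 0 0 * G 1 0 * (X i 0 0 * X j 0 1 - X i 0 1 * X j 0 0) +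
      G 0 1 * G 1 0 * (X i 1 0 * X j 0 1 - X i 1 1 * X j 0 0 + X i 0 0 * X j 1 1 - X i 0 1 * X j 1 0) +
      G 0 1 * G 1 1 * (X i 1 0 * X j 1 1 - X i 1 1 * X j 1 0) with hA
    have h0 : ∑ i ∈ range (k - 1), A i (k - 2 - i) = 0 := by
      have h1 := Finset.sum_range_reflect (fun i => A i (k - 2 - i)) (k - 1)
      have h2 : ∑ i ∈ range (k - 1), A (k - 1 - 1 - i) (k - 2 - (k - 1 - 1 - i)) =
          -∑ i ∈ range (k - 1), A i (k - 2 - i) := by
        rw [← Finset.sum_neg_distrib]
        refine Finset.sum_congr rfl fun i hi => ?_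
        have hi' := Finset.mem_range.1 hi
        rw [show k - 2 - (k - 1 - 1 - i) = i by omega, show k - 1 - 1 - i = k - 2 - i by omega]
        simp only [hA]; ring
      linarith
    rw [Finset.mul_sum, ← add_zero (∑ i ∈ range (k - 1), (G 0 0 * G 1 1 - G 0 1 * G 1 0) * _),
      ← h0, ← Finset.sum_add_distrib]
    refine Finset.sum_congr rfl fun i _ => ?_
    simp only [hA, Matrix.mul_apply, Fin.sum_univ_two]
    ring
  · simp

section Abstract
variable (K : Mat ι) (v : Matrix ι (Fin 2) ℝ) (M : Matrix (Fin 2) ι ℝ)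
  (n : ℕ → Matrix (Fin 2) (Fin 2) ℝ) (hn : ∀ i, n i = M * K ^ i * v)
include hn

theorem newtonR_eq (j : ℕ) : ∀ i, newtonR n i j = M * (K + v * M) ^ j * K ^ i * v := by
  induction j with
  | zero => intro i; rw [newtonR, hn, pow_zero, Matrix.mul_one]
  | succ j ih =>
    intro i
    rw [newtonR, ih, ih, hn, pow_succ (K + v * M), pow_succ' K, pow_zero]
    simp only [Matrix.mul_add, Matrix.add_mul, Matrix.mul_assoc, Matrix.one_mul]

theorem newton_step (i j : ℕ) : ((K + v * M) ^ (j + 1) * K ^ i).trace =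
    ((K + v * M) ^ j * K ^ (i + 1)).trace + (newtonR n i j 0 0 + newtonR n i j 1 1) := by
  rw [← Matrix.trace_fin_two, newtonR_eq K v M n hn, pow_succ' (K + v * M), pow_succ K,
    Matrix.add_mul, Matrix.add_mul, Matrix.trace_add]
  congr 1
  · rw [Matrix.mul_assoc, Matrix.trace_mul_comm]; simp only [Matrix.mul_assoc]
  · rw [Matrix.mul_assoc, Matrix.mul_assoc, Matrix.trace_mul_comm]; simp only [Matrix.mul_assoc]

theorem newton_sum (k : ℕ) : ((K + v * M) ^ k).trace - (K ^ k).trace =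
    ∑ j ∈ range k, (newtonR n (k - 1 - j) j 0 0 + newtonR n (k - 1 - j) j 1 1) := by
  have key : ∀ j i, ((K + v * M) ^ j * K ^ i).trace = (K ^ (i + j)).trace +
      ∑ l ∈ range j, (newtonR n (i + j - 1 - l) l 0 0 + newtonR n (i + j - 1 - l) l 1 1) := by
    intro j
    induction j with
    | zero => intro i; simp
    | succ j ih =>
      intro i
      rw [newton_step K v M n hn, ih, Finset.sum_range_succ,
        show i + 1 + j = i + (j + 1) by ring, show i + (j + 1) - 1 - j = i by omega, add_assoc]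
  have := key k 0
  rw [pow_zero, Matrix.mul_one, zero_add] at this
  rw [this]; ring

theorem tr_pow_one : ((K + v * M) ^ 1).trace - (K ^ 1).trace = ee n 1 := by
  rw [newton_sum K v M n hn]
  norm_num only [ee, Finset.sum_range_succ, Finset.sum_range_zero, Matrix.trace_fin_two,
    newtonR_succ, newtonR_zero, if_true, if_false]
  ring

theorem tr_pow_two : ((K + v * M) ^ 2).trace - (K ^ 2).trace = 2 * ee n 2 + ee n 1 ^ 2 := by
  rw [newton_sum K v M n hn]
  norm_num only [ee, Finset.sum_range_succ, Finset.sum_range_zero, Matrix.trace_fin_two,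
    newtonR_succ, newtonR_zero, if_true, if_false]
  ring

theorem tr_pow_three : ((K + v * M) ^ 3).trace - (K ^ 3).trace =
    3 * ee n 3 + 3 * ee n 1 * ee n 2 + ee n 1 ^ 3 := by
  rw [newton_sum K v M n hn]
  norm_num only [ee, Finset.sum_range_succ, Finset.sum_range_zero, Matrix.trace_fin_two,
    newtonR_succ, newtonR_zero, if_true, if_false]
  ring

/-- first show that the left side is
`6 tr n₅ + 6 tr (n₀ n₄) + 6 tr (n₁ n₃) + 3 tr (n₂ n₂) + 6 tr (n₀ n₀ n₃) + 6 tr (n₀ n₁ n₂) + 6 tr (n₀ n₂ n₁)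
 + 2 tr (n₁ n₁ n₁) + 6 tr (n₀³ n₂) + 6 tr (n₀² n₁²) + 3 tr (n₀ n₁ n₀ n₁) + 6 tr (n₀⁴ n₁) + tr n₀⁶` -/
theorem tr_pow_six : ((K + v * M) ^ 6).trace - (K ^ 6).trace =
    6 * ee n 6 + 6 * ee n 1 * ee n 5 + 6 * ee n 2 * ee n 4 + 3 * ee n 3 ^ 2 +
      6 * ee n 1 ^ 2 * ee n 4 + 12 * ee n 1 * ee n 2 * ee n 3 + 2 * ee n 2 ^ 3 +
      6 * ee n 1 ^ 3 * ee n 3 + 9 * ee n 1 ^ 2 * ee n 2 ^ 2 + 6 * ee n 1 ^ 4 * ee n 2 +
      ee n 1 ^ 6 := by
  rw [newton_sum K v M n hn]
  norm_num only [ee, Finset.sum_range_succ, Finset.sum_range_zero, Matrix.trace_fin_two,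
    newtonR_succ, newtonR_zero, if_true, if_false]
  ring

end Abstract

variable {K : Mat ι} {s : ℝ} {a b : ι}

theorem newton_pow_symm (h : ∀ c d, K c d = K d c) (k : ℕ) (c d : ι) :
    (K ^ k) c d = (K ^ k) d c := by
  have hT : Kᵀ = K := by ext c d; exact h d c
  have : (K ^ k)ᵀ = K ^ k := by rw [Matrix.transpose_pow, hT]
  exact (congrFun (congrFun this d) c)

theorem newton_blk (K : Mat ι) (s : ℝ) (a b : ι) (W K₂ : Mat ι) :
    blk K s (W * K₂) a b = GG K s a b * vT K s a b * W * vE K₂ a b := by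
  rw [blk, ← vT_mul_vE]; simp only [Matrix.mul_assoc]

theorem newton_blk_one (K : Mat ι) (s : ℝ) (a b : ι) (K₂ : Mat ι) :
    blk K s K₂ a b = GG K s a b * vT K s a b * vE K₂ a b := by
  have := newton_blk K s a b 1 K₂
  rwa [Matrix.one_mul, Matrix.mul_one] at this

theorem newton_UU (K : Mat ι) (s : ℝ) (a b : ι) :
    UU K s a b = vE K a b * (GG K s a b * vT K s a b) := by
  rw [UU, Matrix.mul_assoc]

theorem newton_hn (K : Mat ι) (s : ℝ) (a b : ι) (i : ℕ) :
    blk K s (K ^ (i + 1)) a b = GG K s a b * vT K s a b * K ^ i * vE K a b := by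
  rw [pow_succ, newton_blk]

theorem Adm.newton_det (h : Adm K s a b) :
    GG K s a b 0 0 * GG K s a b 1 1 - GG K s a b 0 1 * GG K s a b 1 0 = -jj K s a b := by
  have hj : jj K s a b * R62.h0 K s a b = 1 := inv_mul_cancel₀ h.h0
  have hs : s ^ 2 = 1 := by rcases h.sgn with rfl | rfl <;> norm_num
  simp only [GG, gg, Matrix.of_apply, Matrix.cons_val', Matrix.cons_val_zero, Matrix.cons_val_one,
    Matrix.cons_val_fin_one]
  rw [R62.h0] at hj
  linear_combination (-jj K s a b) * hj + jj K s a b ^ 2 * (K a b ^ 2 - 1) * hs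

/-- do `interval_cases k` and use `hh_one … hh_six` -/
theorem Adm.ee_eq_cc (h : Adm K s a b) (k : ℕ) (h1 : 1 ≤ k) (h6 : k ≤ 6) :
    ee (fun i => blk K s (K ^ (i + 1)) a b) k = cc K s a b k := by
  have hX : ∀ i : ℕ, XB K s (K ^ (i + 1)) a b =
      !![(K ^ (i + 2)) a a - s * (K ^ (i + 1)) a b, (K ^ (i + 2)) a b - s * (K ^ (i + 1)) b b;
        (K ^ (i + 2)) a b - s * (K ^ (i + 1)) a a, (K ^ (i + 2)) b b - s * (K ^ (i + 1)) a b] := by
    intro i
    rw [XB, ← pow_succ', newton_pow_symm h.symm (i + 1) b a, newton_pow_symm h.symm (i + 1 + 1) b a]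
  simp only [blk]
  rw [newton_ee_mul (GG K s a b) (fun i => XB K s (K ^ (i + 1)) a b), h.newton_det, cc]
  simp only [hX, Matrix.trace_fin_two, Matrix.mul_apply, Fin.sum_univ_two, GG, gg, Matrix.of_apply,
    Matrix.cons_val', Matrix.cons_val_zero, Matrix.cons_val_one, Matrix.cons_val_fin_one]
  interval_cases k
  · rw [hh_one h.symm]
    norm_num only [bb, Finset.sum_range_succ, Finset.sum_range_zero, if_true, if_false, pow_one]
    rcases h.sgn with rfl | rfl <;> ring
  · rw [hh_two h.symm]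
    norm_num only [bb, Finset.sum_range_succ, Finset.sum_range_zero, if_true, if_false, pow_one]
    rcases h.sgn with rfl | rfl <;> ring
  · rw [hh_three h.symm]
    norm_num only [bb, Finset.sum_range_succ, Finset.sum_range_zero, if_true, if_false, pow_one]
    rcases h.sgn with rfl | rfl <;> ring
  · rw [hh_four h.symm]
    norm_num only [bb, Finset.sum_range_succ, Finset.sum_range_zero, if_true, if_false, pow_one]
    rcases h.sgn with rfl | rfl <;> ring
  · rw [hh_five h.symm]
    norm_num only [bb, Finset.sum_range_succ, Finset.sum_range_zero, if_true, if_false, pow_one]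
    rcases h.sgn with rfl | rfl <;> ring
  · rw [hh_six h.symm]
    norm_num only [bb, Finset.sum_range_succ, Finset.sum_range_zero, if_true, if_false, pow_one]
    rcases h.sgn with rfl | rfl <;> ring

theorem Adm.d1 (h : Adm K s a b) : pk (step K s a b) 1 - pk K 1 = cc K s a b 1 := by
  rw [h.pk_step 0, newton_UU, pk, ← h.ee_eq_cc 1 (by norm_num) (by norm_num)]
  exact tr_pow_one K _ _ _ (newton_hn K s a b)

theorem Adm.d2 (h : Adm K s a b) :
    pk (step K s a b) 2 - pk K 2 = 2 * cc K s a b 2 + cc K s a b 1 ^ 2 := by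
  rw [h.pk_step 1, newton_UU, pk, ← h.ee_eq_cc 1 (by norm_num) (by norm_num),
    ← h.ee_eq_cc 2 (by norm_num) (by norm_num)]
  exact tr_pow_two K _ _ _ (newton_hn K s a b)

theorem Adm.d3 (h : Adm K s a b) : pk (step K s a b) 3 - pk K 3 =
    3 * cc K s a b 3 + 3 * cc K s a b 1 * cc K s a b 2 + cc K s a b 1 ^ 3 := by
  rw [h.pk_step 2, newton_UU, pk, ← h.ee_eq_cc 1 (by norm_num) (by norm_num),
    ← h.ee_eq_cc 2 (by norm_num) (by norm_num), ← h.ee_eq_cc 3 (by norm_num) (by norm_num)]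
  exact tr_pow_three K _ _ _ (newton_hn K s a b)

theorem Adm.d6 (h : Adm K s a b) : pk (step K s a b) 6 - pk K 6 =
    6 * cc K s a b 6 + 6 * cc K s a b 1 * cc K s a b 5 + 6 * cc K s a b 2 * cc K s a b 4 +
      3 * cc K s a b 3 ^ 2 + 6 * cc K s a b 1 ^ 2 * cc K s a b 4 +
      12 * cc K s a b 1 * cc K s a b 2 * cc K s a b 3 + 2 * cc K s a b 2 ^ 3 +
      6 * cc K s a b 1 ^ 3 * cc K s a b 3 + 9 * cc K s a b 1 ^ 2 * cc K s a b 2 ^ 2 +
      6 * cc K s a b 1 ^ 4 * cc K s a b 2 + cc K s a b 1 ^ 6 := by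
  rw [h.pk_step 5, newton_UU, pk, ← h.ee_eq_cc 1 (by norm_num) (by norm_num),
    ← h.ee_eq_cc 2 (by norm_num) (by norm_num), ← h.ee_eq_cc 3 (by norm_num) (by norm_num),
    ← h.ee_eq_cc 4 (by norm_num) (by norm_num), ← h.ee_eq_cc 5 (by norm_num) (by norm_num),
    ← h.ee_eq_cc 6 (by norm_num) (by norm_num)]
  exact tr_pow_six K _ _ _ (newton_hn K s a b)

theorem newton_XX (A B : Mat ι) (v w : Matrix ι (Fin 2) ℝ) (M N : Matrix (Fin 2) ι ℝ) :
    ((A + v * M) ^ 2 * (B + w * N) ^ 2).trace = (A ^ 2 * B ^ 2).trace +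
      ((M * (A * B ^ 2) * v).trace + (M * (B ^ 2 * A) * v).trace +
        (N * (B * A ^ 2) * w).trace + (N * (A ^ 2 * B) * w).trace) +
      ((M * v * (M * B ^ 2 * v)).trace + (M * w * (N * (B * A) * v)).trace +
        (N * w * (N * A ^ 2 * w)).trace + (N * v * (M * (A * B) * w)).trace +
        (M * A * w * (N * B * v)).trace + (M * B * w * (N * A * v)).trace) +
      ((M * v * (M * w) * (N * B * v)).trace + (M * v * (M * B * w) * (N * v)).trace +
        (M * A * w * (N * w) * (N * v)).trace + (M * w * (N * w) * (N * A * v)).trace) +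
      (M * v * (M * w) * (N * w) * (N * v)).trace := by
  have e0 : (A * (v * (M * (B * B)))).trace = (M * (B * (B * (A * v)))).trace := by
    rw [Matrix.trace_mul_comm]; simp only [Matrix.mul_assoc]
    rw [Matrix.trace_mul_comm]; simp only [Matrix.mul_assoc]
  have e1 : (v * (M * (A * (B * B)))).trace = (M * (A * (B * (B * v)))).trace := by
    rw [Matrix.trace_mul_comm]; simp only [Matrix.mul_assoc]
  have e2 : (A * (A * (B * (w * N)))).trace = (N * (A * (A * (B * w)))).trace := by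
    rw [Matrix.trace_mul_comm]; simp only [Matrix.mul_assoc]
    rw [Matrix.trace_mul_comm]; simp only [Matrix.mul_assoc]
    rw [Matrix.trace_mul_comm]; simp only [Matrix.mul_assoc]
    rw [Matrix.trace_mul_comm]; simp only [Matrix.mul_assoc]
  have e3 : (A * (A * (w * (N * B)))).trace = (N * (B * (A * (A * w)))).trace := by
    rw [Matrix.trace_mul_comm]; simp only [Matrix.mul_assoc]
    rw [Matrix.trace_mul_comm]; simp only [Matrix.mul_assoc]
    rw [Matrix.trace_mul_comm]; simp only [Matrix.mul_assoc]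
  have e4 : (v * (M * (v * (M * (B * B))))).trace = (M * (v * (M * (B * (B * v))))).trace := by
    rw [Matrix.trace_mul_comm]; simp only [Matrix.mul_assoc]
  have e5 : (A * (v * (M * (B * (w * N))))).trace = (M * (B * (w * (N * (A * v))))).trace := by
    rw [Matrix.trace_mul_comm]; simp only [Matrix.mul_assoc]
    rw [Matrix.trace_mul_comm]; simp only [Matrix.mul_assoc]
  have e6 : (A * (v * (M * (w * (N * B))))).trace = (M * (w * (N * (B * (A * v))))).trace := by
    rw [Matrix.trace_mul_comm]; simp only [Matrix.mul_assoc]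
    rw [Matrix.trace_mul_comm]; simp only [Matrix.mul_assoc]
  have e7 : (v * (M * (A * (B * (w * N))))).trace = (N * (v * (M * (A * (B * w))))).trace := by
    rw [Matrix.trace_mul_comm]; simp only [Matrix.mul_assoc]
    rw [Matrix.trace_mul_comm]; simp only [Matrix.mul_assoc]
    rw [Matrix.trace_mul_comm]; simp only [Matrix.mul_assoc]
    rw [Matrix.trace_mul_comm]; simp only [Matrix.mul_assoc]
    rw [Matrix.trace_mul_comm]; simp only [Matrix.mul_assoc]
  have e8 : (v * (M * (A * (w * (N * B))))).trace = (M * (A * (w * (N * (B * v))))).trace := by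
    rw [Matrix.trace_mul_comm]; simp only [Matrix.mul_assoc]
  have e9 : (A * (A * (w * (N * (w * N))))).trace = (N * (w * (N * (A * (A * w))))).trace := by
    rw [Matrix.trace_mul_comm]; simp only [Matrix.mul_assoc]
    rw [Matrix.trace_mul_comm]; simp only [Matrix.mul_assoc]
    rw [Matrix.trace_mul_comm]; simp only [Matrix.mul_assoc]
  have e10 : (v * (M * (v * (M * (B * (w * N)))))).trace = (M * (v * (M * (B * (w * (N * v)))))).trace := by
    rw [Matrix.trace_mul_comm]; simp only [Matrix.mul_assoc]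
  have e11 : (v * (M * (v * (M * (w * (N * B)))))).trace = (M * (v * (M * (w * (N * (B * v)))))).trace := by
    rw [Matrix.trace_mul_comm]; simp only [Matrix.mul_assoc]
  have e12 : (A * (v * (M * (w * (N * (w * N)))))).trace = (M * (w * (N * (w * (N * (A * v)))))).trace := by
    rw [Matrix.trace_mul_comm]; simp only [Matrix.mul_assoc]
    rw [Matrix.trace_mul_comm]; simp only [Matrix.mul_assoc]
  have e13 : (v * (M * (A * (w * (N * (w * N)))))).trace = (M * (A * (w * (N * (w * (N * v)))))).trace := by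
    rw [Matrix.trace_mul_comm]; simp only [Matrix.mul_assoc]
  have e14 : (v * (M * (v * (M * (w * (N * (w * N))))))).trace = (M * (v * (M * (w * (N * (w * (N * v))))))).trace := by
    rw [Matrix.trace_mul_comm]; simp only [Matrix.mul_assoc]
  simp only [pow_two, Matrix.mul_add, Matrix.add_mul, Matrix.mul_assoc, Matrix.trace_add]
  rw [e0, e1, e2, e3, e4, e5, e6, e7, e8, e9, e10, e11, e12, e13, e14]
  ring

/-- The 16 words of `(A+U)² (B+U')²` (`XX_step`); rotate each so that it starts with `G ṽᵀ` and use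
`vT_mul_vE`.  An abstract version (matrices `v, M, v', M'`) first is advisable. -/
theorem XX_expand {A B : Mat ι} (hA : Adm A 1 a b) (hB : Adm B (-1) a b) :
    XX (step A 1 a b) (step B (-1) a b) = XX A B +
      ((blk A 1 (A * B ^ 2 * A) a b).trace + (blk A 1 (B ^ 2 * A ^ 2) a b).trace +
        (blk B (-1) (B * A ^ 2 * B) a b).trace + (blk B (-1) (A ^ 2 * B ^ 2) a b).trace) +
      ((blk A 1 A a b * blk A 1 (B ^ 2 * A) a b).trace +
        (blk A 1 B a b * blk B (-1) (B * A ^ 2) a b).trace +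
        (blk B (-1) B a b * blk B (-1) (A ^ 2 * B) a b).trace +
        (blk B (-1) A a b * blk A 1 (A * B ^ 2) a b).trace +
        (blk A 1 (A * B) a b * blk B (-1) (B * A) a b).trace +
        (blk A 1 (B ^ 2) a b * blk B (-1) (A ^ 2) a b).trace) +
      ((blk A 1 A a b * blk A 1 B a b * blk B (-1) (B * A) a b).trace +
        (blk A 1 A a b * blk A 1 (B ^ 2) a b * blk B (-1) A a b).trace +
        (blk A 1 (A * B) a b * blk B (-1) B a b * blk B (-1) A a b).trace +
        (blk A 1 B a b * blk B (-1) B a b * blk B (-1) (A ^ 2) a b).trace) +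
      (blk A 1 A a b * blk A 1 B a b * blk B (-1) B a b * blk B (-1) A a b).trace := by
  have e1 : B ^ 2 * A ^ 2 = B ^ 2 * A * A := by rw [pow_two A, Matrix.mul_assoc]
  have e2 : A ^ 2 * B ^ 2 = A ^ 2 * B * B := by rw [pow_two B, Matrix.mul_assoc]
  have e3 : B * A ^ 2 = B * A * A := by rw [pow_two A, Matrix.mul_assoc]
  have e4 : A * B ^ 2 = A * B * B := by rw [pow_two B, Matrix.mul_assoc]
  rw [XX_step hA hB, newton_UU, newton_UU, newton_XX, XX, newton_blk A 1 a b (A * B ^ 2) A,
    newton_blk B (-1) a b (B * A ^ 2) B, congrArg (fun L => blk A 1 L a b) e1,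
    congrArg (fun L => blk B (-1) L a b) e2, congrArg (fun L => blk B (-1) L a b) e3,
    congrArg (fun L => blk A 1 L a b) e4, congrArg (fun L => blk A 1 L a b) (pow_two B),
    congrArg (fun L => blk B (-1) L a b) (pow_two A),
    newton_blk A 1 a b (B ^ 2 * A) A, newton_blk B (-1) a b (A ^ 2 * B) B,
    newton_blk B (-1) a b (B * A) A, newton_blk A 1 a b (A * B) B,
    newton_blk A 1 a b (B ^ 2) A, newton_blk B (-1) a b (A ^ 2) B,
    newton_blk A 1 a b A B, newton_blk B (-1) a b B A, newton_blk A 1 a b B B,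
    newton_blk B (-1) a b A A, newton_blk_one A 1 a b A, newton_blk_one A 1 a b B,
    newton_blk_one B (-1) a b A, newton_blk_one B (-1) a b B]

end Crest.Agent.R62
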