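import Crest.Agent.R62.Mom
import Crest.Agent.R62.Newton

/-!
# Row 62: drift and variance of `tr K` and `tr K²`

Each error term is bounded by a small multiple of `N E` with one field of `CondF` / `CondQ`
(use `Wt.sep`, `Wt.inner`, `Wt.mat`, `Wt.cs_le`, `Wt.abs_le_prod`, `sqrt_mul_sqrt_le`).
The constant `10⁹` is generous.
-/

set_option autoImplicit false
set_option linter.unusedSectionVars false

open Finset Matrix

noncomputable section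

namespace Crest.Agent.R62

variable {ι : Type} [Fintype ι] [DecidableEq ι]
variable {S : Finset ι} {w : ι → ι → ℝ} {K : Mat ι} {s : ℝ} {p : Par}

/-- `κ √A √B ≤ y` from `κ² A' B' ≤ y²` -/
theorem FQ.kap {κ A B A' B' y : ℝ} (hκ : 0 ≤ κ) (hA : 0 ≤ A) (hA' : A ≤ A') (hB : 0 ≤ B)
    (hB' : B ≤ B') (h : κ ^ 2 * A' * B' ≤ y ^ 2) (hy : 0 ≤ y) : κ * √A * √B ≤ y := by
  have h1 : κ * √A = √(κ ^ 2 * A) := by
    rw [Real.sqrt_mul (sq_nonneg κ), Real.sqrt_sq hκ]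
  rw [h1]
  refine sqrt_mul_sqrt_le (by positivity) (le_trans ?_ h) hy
  have : A * B ≤ A' * B' := mul_le_mul hA' hB' hB (hA.trans hA')
  have h2 := mul_le_mul_of_nonneg_left this (sq_nonneg κ)
  nlinarith

theorem FQ.sum_le_univ (S : Finset ι) {f : ι → ℝ} (hf : ∀ a, 0 ≤ f a) :
    ∑ a ∈ S, f a ≤ ∑ a, f a :=
  Finset.sum_le_sum_of_subset_of_nonneg (Finset.subset_univ S) fun a _ _ => hf a

theorem FQ.sum_diag1 (h : Side S K s) : ∑ a ∈ S, K a a = pk K 1 := by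
  have := h.sum_diag 0
  simpa using this

theorem FQ.diag_sq (h : Bnd S K s p) : ∑ a ∈ S, K a a ^ 2 ≤ p.δ :=
  (FQ.sum_le_univ S fun _ => sq_nonneg _).trans h.sum_diag_sq

theorem FQ.a3_sq (h : Bnd S K s p) : ∑ a ∈ S, (K ^ 3) a a ^ 2 ≤ p.a3 :=
  (FQ.sum_le_univ S fun _ => sq_nonneg _).trans h.sum_a3_sq

theorem FQ.sq_nn (S : Finset ι) (f : ι → ℝ) : 0 ≤ ∑ a ∈ S, f a ^ 2 :=
  Finset.sum_nonneg fun _ _ => sq_nonneg _

theorem FQ.r_sq (h : Ctx S w K s p) : Ew w (fun a b => K a b ^ 2) ≤ 2 * p.Qb := by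
  have h1 := h.wt.sq_mat K
  have h2 := h.bnd.fro_one
  linarith

theorem FQ.r2_sq (h : Ctx S w K s p) : Ew w (fun a b => (K ^ 2) a b ^ 2) ≤ 2 * p.P4 := by
  have h1 := h.wt.sq_mat (K ^ 2)
  have h2 := h.bnd.fro_two
  linarith

theorem FQ.r3_sq (h : Ctx S w K s p) : Ew w (fun a b => (K ^ 3) a b ^ 2) ≤ 2 * p.Λ ^ 6 := by
  have h1 := h.wt.sq_mat (K ^ 3)
  have h2 := h.bnd.fro_pow 0
  norm_num at h2
  linarith

theorem FQ.abs_ab (h : Ctx S w K s p) :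
    Ew w (fun a b => |K a a * K b b|) ≤ 2 * (p.N * p.δ) := by
  have h1 := h.wt.abs_le_prod (F := fun a b => |K a a * K b b|) (f := fun a => |K a a|)
    (h := fun a => |K a a|) (fun _ => abs_nonneg _) (fun _ => abs_nonneg _)
    (fun a b _ => by rw [abs_abs, abs_mul])
  have h2 : ∑ a ∈ S, |K a a| ≤ √(p.N * p.δ) :=
    (FQ.sum_le_univ S fun _ => abs_nonneg _).trans h.bnd.sum_abs_diag
  have h3 : 0 ≤ ∑ a ∈ S, |K a a| := Finset.sum_nonneg fun _ _ => abs_nonneg _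
  have h4 : 0 ≤ p.N * p.δ := mul_nonneg h.bnd.nn.N h.bnd.nn.δ
  have h5 : (∑ a ∈ S, |K a a|) * ∑ a ∈ S, |K a a| ≤ p.N * p.δ := by
    have := mul_le_mul h2 h2 h3 (Real.sqrt_nonneg _)
    rwa [Real.mul_self_sqrt h4] at this
  have := le_abs_self (Ew w fun a b => |K a a * K b b|)
  linarith

/-- the term `α δ_b` -/
theorem FQ.alpha_delta (h : Ctx S w K s p) {E : ℝ} (hE : 0 ≤ E) (hc : CondF p E) :
    |Ew w (fun a b => K a a * (bb K b - 1)) + p.μ * p.N * pk K 1| ≤ 2 * (p.N * E) := by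
  have nn := h.bnd.nn
  have hNE : 0 ≤ p.N * E := mul_nonneg nn.N hE
  have h1 := h.wt.sep (fun a => K a a) (fun b => bb K b - 1)
  have h2 : p.κ * √(∑ a ∈ S, K a a ^ 2) * √(∑ b ∈ S, (bb K b - 1) ^ 2) ≤ p.N * E :=
    FQ.kap h.wt.κ0 (FQ.sq_nn S _) (FQ.diag_sq h.bnd) (FQ.sq_nn S _) h.bnd.sum_dm hc.F2 hNE
  have h3 : ∑ b ∈ S, (bb K b - 1) = (pk K 2 - p.N * p.ρ) - p.μ * p.N := by
    rw [Finset.sum_sub_distrib, h.bnd.toSide.sum_bb]
    simp only [Finset.sum_const, nsmul_eq_mul, mul_one, h.bnd.card, Par.μ]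
    ring
  rw [FQ.sum_diag1 h.bnd.toSide, h3] at h1
  have h4 : |pk K 1 * (pk K 2 - p.N * p.ρ)| ≤ p.N * E := by
    rw [abs_mul]
    exact (mul_le_mul h.bnd.F h.bnd.X (abs_nonneg _) nn.Fb).trans hc.F1
  have h5 := abs_le.1 (h1.trans h2)
  have h6 := abs_le.1 h4
  rw [abs_le]
  constructor <;> nlinarith [h5.1, h5.2, h6.1, h6.2]

/-- `Δ p₁ = c₁ = -h₁ - (j-1) h₁` (`F4`), `-h₁ = 2 s r₂ + α δ_b + β δ_a - 2 r r₂`.
`2 s r₂`: `WtK.tilt`, `F3`.  `α δ_b`: `Wt.sep` (`F2`), main term `p₁ (p₂ - N) = p₁ (p₂ - N ρ) - μ N p₁` (`F1`).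
`r r₂`: `Qb P4 ≤ q2 g1` (`F4`). -/
theorem Ctx.meanF (h : Ctx S w K s p) {E : ℝ} (hE : 0 ≤ E) (hc : CondF p E) :
    |Ew w (fun a b => pk (step K s a b) 1 - pk K 1) + p.γ * Ew w (fun _ _ => 1) +
      2 * p.μ * p.N * pk K 1| ≤ 10 ^ 9 * (p.N * E) := by
  have nn := h.bnd.nn
  have hNE : 0 ≤ p.N * E := mul_nonneg nn.N hE
  have hsy := h.bnd.toSide.symm
  have e1 : Ew w (fun a b => pk (step K s a b) 1 - pk K 1) =
      Ew w (fun a b => cc K s a b 1 + hh K s a b 1) + Ew w (fun a b => 2 * s * (K ^ 2) a b) +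
        Ew w (fun a b => K a a * (bb K b - 1)) + Ew w (fun a b => K b b * (bb K a - 1)) -
        2 * Ew w (fun a b => K a b * (K ^ 2) a b) := by
    rw [← Ew_mul, ← Ew_add, ← Ew_add, ← Ew_add, ← Ew_sub]
    refine Ew_congr w fun a b hab => ?_
    rw [(h.adm hab).d1, hh_one hsy]
    ring
  have e2 : Ew w (fun a b => K b b * (bb K a - 1)) = Ew w (fun a b => K a a * (bb K b - 1)) :=
    h.wt.swap fun a b => K a a * (bb K b - 1)
  have t1 : |Ew w (fun a b => cc K s a b 1 + hh K s a b 1)| ≤ 60 * (p.N * E) := by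
    have a1 := h.wt.abs_le_abs (g := fun a b => 3 * |th K a b * hh K s a b 1|)
      fun a b hab => h.abs_cc_add_le hab 1
    rw [Ew_mul] at a1
    have a2 := h.wt.cs_le (fun a b => th K a b) (fun a b => hh K s a b 1) (y := 20 * (p.N * E))
      (Ew_th_sq h.bnd h.wt) h.h1_sq (by nlinarith [hc.F4]) (by positivity)
    linarith
  have t2 := h.wk.tilt.trans hc.F3
  have t3 := FQ.alpha_delta h hE hc
  have t4 : |Ew w (fun a b => K a b * (K ^ 2) a b)| ≤ 2 * (p.N * E) := by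
    have a1 := h.wt.abs_le_abs (f := fun a b => K a b * (K ^ 2) a b)
      (g := fun a b => |K a b * (K ^ 2) a b|) fun a b _ => le_rfl
    have a0 : p.Qb * p.P4 ≤ p.q2 * p.g1 := by
      refine mul_le_mul ?_ ?_ nn.P4 nn.q2
      · unfold Par.q2; nlinarith [sq_nonneg p.δ]
      · unfold Par.g1; nlinarith [mul_nonneg nn.δ nn.Dm]
    have a2 := h.wt.cs_le (fun a b => K a b) (fun a b => (K ^ 2) a b) (y := 2 * (p.N * E))
      (FQ.r_sq h) (FQ.r2_sq h) (by nlinarith [hc.F4]) (by positivity)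
    linarith
  rw [e1, e2]
  have u1 := abs_le.1 t1
  have u2 := abs_le.1 t2
  have u3 := abs_le.1 t3
  have u4 := abs_le.1 t4
  rw [abs_le]
  constructor <;> nlinarith [u1.1, u1.2, u2.1, u2.2, u3.1, u3.2, u4.1, u4.2]

theorem Ctx.varF (h : Ctx S w K s p) :
    Ew w (fun a b => (pk (step K s a b) 1 - pk K 1) ^ 2) ≤ 10 ^ 9 * p.g1 := by
  have e1 : Ew w (fun a b => (pk (step K s a b) 1 - pk K 1) ^ 2) =
      Ew w (fun a b => cc K s a b 1 ^ 2) :=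
    Ew_congr w fun a b hab => by rw [(h.adm hab).d1]
  rw [e1]
  have := h.c1_sq
  have := h.bnd.nn.g1
  linarith

/-- the term `δ̃_a δ̃_b` -/
theorem FQ.dd (h : Ctx S w K s p) {E : ℝ} (hE : 0 ≤ E) (hc : CondQ p E) :
    |Ew w (fun a b => (bb K a - p.ρ) * (bb K b - p.ρ))| ≤ 2 * (p.N * E) := by
  have nn := h.bnd.nn
  have hNE : 0 ≤ p.N * E := mul_nonneg nn.N hE
  have h1 := h.wt.sep (fun a => bb K a - p.ρ) (fun b => bb K b - p.ρ)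
  have hV : ∑ a ∈ S, (bb K a - p.ρ) ^ 2 ≤ p.V := h.bnd.V
  have hκV : 0 ≤ p.κ * p.V := mul_nonneg h.wt.κ0 nn.V
  have h2 : p.κ * √(∑ a ∈ S, (bb K a - p.ρ) ^ 2) * √(∑ b ∈ S, (bb K b - p.ρ) ^ 2) ≤ p.N * E :=
    FQ.kap h.wt.κ0 (FQ.sq_nn S _) hV (FQ.sq_nn S _) hV
      (by have := pow_le_pow_left₀ hκV hc.Q4 2; nlinarith) hNE
  rw [h.bnd.sum_dt] at h1
  have h4 : (pk K 2 - p.N * p.ρ) * (pk K 2 - p.N * p.ρ) ≤ p.N * E := by
    have := sq_le_sq' (abs_le.1 h.bnd.X).1 (abs_le.1 h.bnd.X).2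
    nlinarith [hc.Q3]
  have h5 := abs_le.1 (h1.trans h2)
  have h6 := mul_self_nonneg (pk K 2 - p.N * p.ρ)
  rw [abs_le]
  constructor <;> linarith [h5.1, h5.2]

/-- the term `μ δ̃_a` -/
theorem FQ.mud (h : Ctx S w K s p) {E : ℝ} (hE : 0 ≤ E) (hc : CondQ p E) :
    |p.μ * Ew w (fun a _ => bb K a - p.ρ) - p.μ * p.N * (pk K 2 - p.N * p.ρ)| ≤ p.N * E := by
  have nn := h.bnd.nn
  have hNE : 0 ≤ p.N * E := mul_nonneg nn.N hE
  have h1 := h.wt.sep (fun a => bb K a - p.ρ) (fun _ => 1)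
  have hV : ∑ a ∈ S, (bb K a - p.ρ) ^ 2 ≤ p.V := h.bnd.V
  have hN : ∑ _b ∈ S, (1 : ℝ) ^ 2 ≤ p.N := by simp [h.bnd.card]
  have h2 : p.μ * p.κ * √(∑ a ∈ S, (bb K a - p.ρ) ^ 2) * √(∑ _b ∈ S, (1 : ℝ) ^ 2) ≤ p.N * E :=
    FQ.kap (mul_nonneg nn.μ0 h.wt.κ0) (FQ.sq_nn S _) hV (FQ.sq_nn S fun _ => 1) hN
      (by nlinarith [hc.Q2]) hNE
  have hN' : ∑ _b ∈ S, (1 : ℝ) = p.N := by simp [h.bnd.card]
  rw [h.bnd.sum_dt, hN'] at h1
  simp only [mul_one] at h1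
  have h3 := mul_le_mul_of_nonneg_left h1 nn.μ0
  have h4 : p.μ * Ew w (fun a _ => bb K a - p.ρ) - p.μ * p.N * (pk K 2 - p.N * p.ρ) =
      p.μ * (Ew w (fun a _ => bb K a - p.ρ) - (pk K 2 - p.N * p.ρ) * p.N) := by ring
  rw [h4, abs_mul, abs_of_nonneg nn.μ0]
  refine h3.trans (le_trans (le_of_eq ?_) h2)
  ring

/-- the term `s r₃` -/
theorem FQ.sr3 (h : Ctx S w K s p) {E : ℝ} (hE : 0 ≤ E) (hc : CondQ p E) :
    |s * Ew w (fun a b => (K ^ 3) a b) - p.N| ≤ p.N * E := by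
  have nn := h.bnd.nn
  have hNE : 0 ≤ p.N * E := mul_nonneg nn.N hE
  have hsy := h.bnd.toSide.symm
  have h0 : |Ew w (fun a b => (K ^ 3) a b) - ∑ a ∈ S, ∑ b ∈ S, (K ^ 3) a b| ≤ p.N * E := by
    rcases hc.Q5 with h5 | h5
    · have h1 := h.wt.inner K (K ^ 2)
      have e : Kᵀ * K ^ 2 = K ^ 3 := by rw [transpose_of_symm hsy, ← pow_succ']
      rw [e] at h1
      exact h1.trans (FQ.kap h.wt.κ0 (fro_nonneg _) h.bnd.fro_one (fro_nonneg _) h.bnd.fro_two h5 hNE)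
    · have h1 := h.wt.mat (K ^ 3)
      have h2 := h.bnd.fro_pow 0
      norm_num at h2
      exact h1.trans (FQ.kap h.wt.κ20 (Nat.cast_nonneg _) h.bnd.card.le (fro_nonneg _) h2 h5 hNE)
  rw [h.bnd.toSide.pow_total, h.bnd.card] at h0
  have hs := h.bnd.toSide.sq
  have e : s * Ew w (fun a b => (K ^ 3) a b) - p.N =
      s * (Ew w (fun a b => (K ^ 3) a b) - p.N * s ^ 3) := by
    have : s * (p.N * s ^ 3) = p.N * (s ^ 2) ^ 2 := by ring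
    rw [mul_sub, this, hs]; ring
  rw [e, abs_mul, h.bnd.toSide.abs, one_mul]
  exact h0

/-- the term `s r` -/
theorem FQ.sr1 (h : Ctx S w K s p) {E : ℝ} (hE : 0 ≤ E) (hc : CondQ p E) :
    |s * Ew w (fun a b => K a b) - p.N| ≤ p.N * E := by
  have nn := h.bnd.nn
  have hNE : 0 ≤ p.N * E := mul_nonneg nn.N hE
  have h0 : |Ew w (fun a b => K a b) - ∑ a ∈ S, ∑ b ∈ S, K a b| ≤ p.N * E :=
    (h.wt.mat K).trans (FQ.kap h.wt.κ20 (Nat.cast_nonneg _) h.bnd.card.le (fro_nonneg _)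
      h.bnd.fro_one hc.Q6 hNE)
  have h1 := h.bnd.toSide.pow_total 1
  simp only [pow_one] at h1
  rw [h1, h.bnd.card] at h0
  have hs := h.bnd.toSide.sq
  have e : s * Ew w (fun a b => K a b) - p.N = s * (Ew w (fun a b => K a b) - p.N * s) := by
    have : s * (p.N * s) = p.N * s ^ 2 := by ring
    rw [mul_sub, this, hs]; ring
  rw [e, abs_mul, h.bnd.toSide.abs, one_mul]
  exact h0

/-- the term `α β₃` -/
theorem FQ.ab3 (h : Ctx S w K s p) {E : ℝ} (hE : 0 ≤ E) (hc : CondQ p E) :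
    |Ew w (fun a b => K a a * (K ^ 3) b b)| ≤ 2 * (p.N * E) := by
  have nn := h.bnd.nn
  have hNE : 0 ≤ p.N * E := mul_nonneg nn.N hE
  have h1 := h.wt.sep (fun a => K a a) (fun b => (K ^ 3) b b)
  have h2 : p.κ * √(∑ a ∈ S, K a a ^ 2) * √(∑ b ∈ S, (K ^ 3) b b ^ 2) ≤ p.N * E :=
    FQ.kap h.wt.κ0 (FQ.sq_nn S _) (FQ.diag_sq h.bnd) (FQ.sq_nn S _) (FQ.a3_sq h.bnd) hc.Q8 hNE
  rw [FQ.sum_diag1 h.bnd.toSide] at h1
  have h3 : |∑ b ∈ S, (K ^ 3) b b| ≤ p.t :=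
    (Finset.abs_sum_le_sum_abs _ _).trans
      ((FQ.sum_le_univ S fun _ => abs_nonneg _).trans h.bnd.t)
  have h4 : |pk K 1 * ∑ b ∈ S, (K ^ 3) b b| ≤ p.N * E := by
    rw [abs_mul]
    exact (mul_le_mul h.bnd.F h3 (abs_nonneg _) nn.Fb).trans hc.Q7
  have h5 := abs_le.1 (h1.trans h2)
  have h6 := abs_le.1 h4
  rw [abs_le]
  constructor <;> linarith [h5.1, h5.2, h6.1, h6.2]

/-- the term `r r₃` -/
theorem FQ.rr3 (h : Ctx S w K s p) {E : ℝ} (hE : 0 ≤ E) (hc : CondQ p E) :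
    |Ew w (fun a b => K a b * (K ^ 3) a b)| ≤ 2 * (p.N * E) := by
  have nn := h.bnd.nn
  have hNE : 0 ≤ p.N * E := mul_nonneg nn.N hE
  have a1 := h.wt.abs_le_abs (f := fun a b => K a b * (K ^ 3) a b)
    (g := fun a b => |K a b * (K ^ 3) a b|) fun a b _ => le_rfl
  have a0 : p.Qb * p.Λ ^ 6 ≤ p.q2 * p.g2 := by
    refine mul_le_mul ?_ ?_ (by have := nn.Λ; positivity) nn.q2
    · unfold Par.q2; nlinarith [sq_nonneg p.δ]
    · unfold Par.g2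
      have b1 := mul_nonneg nn.N nn.V
      have b2 := mul_nonneg nn.δ nn.a3
      have b3 := mul_nonneg (mul_nonneg (sq_nonneg p.ζ) (sq_nonneg p.Λ)) nn.P4
      have b4 := nn.Qb
      nlinarith [sq_nonneg p.V, sq_nonneg p.δ]
  have a2 := h.wt.cs_le (fun a b => K a b) (fun a b => (K ^ 3) a b) (y := 2 * (p.N * E))
    (FQ.r_sq h) (FQ.r3_sq h) (by nlinarith [hc.Q9]) (by positivity)
  linarith

/-- the term `j - 1` -/
theorem FQ.jm1 (h : Ctx S w K s p) {E : ℝ} (hE : 0 ≤ E) (hc : CondQ p E) :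
    |Ew w (fun a b => jj K s a b - 1) - 2 * p.N| ≤ 34 * (p.N * E) := by
  have nn := h.bnd.nn
  have e1 : Ew w (fun a b => jj K s a b - 1) =
      Ew w (fun a b => jj K s a b - 1 - 2 * s * K a b) + 2 * s * Ew w (fun a b => K a b) := by
    rw [← Ew_mul, ← Ew_add]
    exact Ew_congr w fun a b _ => by ring
  have a1 := h.wt.abs_le_abs (g := fun a b => 8 * (K a b ^ 2 + |K a a * K b b|))
    fun a b hab => (h.scal hab).j2
  rw [Ew_mul, Ew_add] at a1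
  have a2 := FQ.r_sq h
  have a3 := FQ.abs_ab h
  have a4 : p.N * p.δ ≤ p.N * E := mul_le_mul_of_nonneg_left hc.Q11 nn.N
  have a5 := abs_le.1 (FQ.sr1 h hE hc)
  have a6 := abs_le.1 a1
  have a7 := hc.Q10
  rw [e1, abs_le]
  constructor <;> linarith [a5.1, a5.2, a6.1, a6.2]

/-- the term `(j - 1)(h₂ - (1 - μ²))` -/
theorem FQ.jh2 (h : Ctx S w K s p) {E : ℝ} (hE : 0 ≤ E) (hc : CondQ p E) :
    |Ew w (fun a b => (jj K s a b - 1) * (hh K s a b 2 - (1 - p.μ ^ 2)))| ≤ 180 * (p.N * E) := by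
  have nn := h.bnd.nn
  have hNE : 0 ≤ p.N * E := mul_nonneg nn.N hE
  have a1 := h.wt.abs_le_abs
    (f := fun a b => (jj K s a b - 1) * (hh K s a b 2 - (1 - p.μ ^ 2)))
    (g := fun a b => 9 * |th K a b * g2pt K p.ρ a b|) fun a b hab => by
      have b1 := (h.scal hab).j1
      have b2 := h.h2_sub hab
      have b3 := (h.scal hab).th0
      have b4 := g2pt_nonneg K p.ρ a b
      rw [abs_mul, abs_of_nonneg (mul_nonneg b3 b4)]
      have := mul_le_mul b1 b2 (abs_nonneg _) (by linarith)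
      linarith
  rw [Ew_mul] at a1
  have a2 := h.wt.cs_le (fun a b => th K a b) (fun a b => g2pt K p.ρ a b) (y := 20 * (p.N * E))
    (Ew_th_sq h.bnd h.wt) h.g2pt_sq (by nlinarith [hc.Q9]) (by positivity)
  linarith

/-- `Δ p₂ = 2 c₂ + c₁²` (`c₁²`: `Q12`); `c₂ + (1 - μ²) = A - (j-1)(1-μ²) - (j-1)(h₂ - (1-μ²))` with
`A = δ̃_a δ̃_b - μ (δ̃_a + δ̃_b) + 2 s r₃ + α β₃ + α₃ β - 2 r r₃ - r₂² - α β + r²`.
* last term: `3 ϑ · 3 g2pt`, `Q9`;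
* `j - 1 = 2 s r ± 8 (r² + |α β|)`: `Ew (2 s r) = 2 N ± ` (`Wt.mat`, `Q6`), `Q10`, `Q11` (`(∑ |α|)² ≤ N δ`);
* `Ew (2 s r₃) = 2 N ±` (`Wt.inner` with `K`, `K²`, or `Wt.mat`; `Q5`);
* `Ew (δ̃_a) = N (p₂ - N ρ) ±` (`Wt.sep`, `Q2`); `δ̃_a δ̃_b`: `Q3`, `Q4`; `α β₃`: `Q7`, `Q8`;
  `r r₃`: `Qb Λ⁶ ≤ q2 g2` (`Q9`); `r₂²`: `P4 ≤ g1` (`Q12`);
* main terms: `-4 μ N (p₂ - N ρ) + 4 N - 4 (1 - μ²) N = -4 μ N (p₂ - N ρ - 1) - 4 μ ρ N` (`Q1`). -/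
theorem Ctx.meanQ (h : Ctx S w K s p) {E : ℝ} (hE : 0 ≤ E) (hc : CondQ p E) :
    |Ew w (fun a b => pk (step K s a b) 2 - pk K 2 + 2 - 2 * p.μ ^ 2) +
      4 * p.μ * p.N * (pk K 2 - p.N * p.ρ - 1)| ≤ 10 ^ 9 * (p.N * E) := by
  have nn := h.bnd.nn
  have hNE : 0 ≤ p.N * E := mul_nonneg nn.N hE
  have hsy := h.bnd.toSide.symm
  have e1 : Ew w (fun a b => pk (step K s a b) 2 - pk K 2 + 2 - 2 * p.μ ^ 2) =
      2 * Ew w (fun a b => (bb K a - p.ρ) * (bb K b - p.ρ)) -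
        2 * p.μ * Ew w (fun a _ => bb K a - p.ρ) - 2 * p.μ * Ew w (fun _ b => bb K b - p.ρ) +
        4 * s * Ew w (fun a b => (K ^ 3) a b) + 2 * Ew w (fun a b => K a a * (K ^ 3) b b) +
        2 * Ew w (fun a b => K b b * (K ^ 3) a a) - 4 * Ew w (fun a b => K a b * (K ^ 3) a b) -
        2 * Ew w (fun a b => (K ^ 2) a b ^ 2) - 2 * Ew w (fun a b => K a a * K b b) +
        2 * Ew w (fun a b => K a b ^ 2) -
        2 * (1 - p.μ ^ 2) * Ew w (fun a b => jj K s a b - 1) -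
        2 * Ew w (fun a b => (jj K s a b - 1) * (hh K s a b 2 - (1 - p.μ ^ 2))) +
        Ew w (fun a b => cc K s a b 1 ^ 2) := by
    simp only [← Ew_mul, ← Ew_add, ← Ew_sub]
    refine Ew_congr w fun a b hab => ?_
    rw [(h.adm hab).d2]
    have e : cc K s a b 2 = -(jj K s a b * hh K s a b 2) := rfl
    rw [e, hh_two hsy]
    unfold Par.μ
    ring
  have e2 : Ew w (fun _ b => bb K b - p.ρ) = Ew w (fun a _ => bb K a - p.ρ) :=
    h.wt.swap fun a _ => bb K a - p.ρ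
  have e3 : Ew w (fun a b => K b b * (K ^ 3) a a) = Ew w (fun a b => K a a * (K ^ 3) b b) :=
    h.wt.swap fun a b => K a a * (K ^ 3) b b
  have t1 := abs_le.1 (FQ.dd h hE hc)
  have t2 := abs_le.1 (FQ.mud h hE hc)
  have t3 := abs_le.1 (FQ.sr3 h hE hc)
  have t4 := abs_le.1 (FQ.ab3 h hE hc)
  have t5 := abs_le.1 (FQ.rr3 h hE hc)
  have t6 : Ew w (fun a b => (K ^ 2) a b ^ 2) ≤ 2 * (p.N * E) := by
    have a1 := FQ.r2_sq h
    have a2 : p.P4 ≤ p.g1 := by unfold Par.g1; nlinarith [mul_nonneg nn.δ nn.Dm]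
    linarith [hc.Q12]
  have t6' : 0 ≤ Ew w (fun a b => (K ^ 2) a b ^ 2) := h.wt.Ew_nonneg fun _ _ _ => sq_nonneg _
  have t7 : |Ew w (fun a b => K a a * K b b)| ≤ 2 * (p.N * E) := by
    have a1 := h.wt.abs_le_abs (f := fun a b => K a a * K b b)
      (g := fun a b => |K a a * K b b|) fun a b _ => le_rfl
    have a2 := FQ.abs_ab h
    have a4 : p.N * p.δ ≤ p.N * E := mul_le_mul_of_nonneg_left hc.Q11 nn.N
    linarith
  have t7' := abs_le.1 t7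
  have t8 : Ew w (fun a b => K a b ^ 2) ≤ 2 * (p.N * E) := by
    have a1 := FQ.r_sq h
    linarith [hc.Q10]
  have t8' : 0 ≤ Ew w (fun a b => K a b ^ 2) := h.wt.Ew_nonneg fun _ _ _ => sq_nonneg _
  have t9 : |(1 - p.μ ^ 2) * (Ew w (fun a b => jj K s a b - 1) - 2 * p.N)| ≤ 34 * (p.N * E) := by
    have a1 := FQ.jm1 h hE hc
    have a2 : |1 - p.μ ^ 2| ≤ 1 := by
      have b1 := nn.μ0
      have b2 := nn.μ1
      rw [abs_le]
      constructor <;> nlinarith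
    rw [abs_mul]
    have := mul_le_mul a2 a1 (abs_nonneg _) zero_le_one
    linarith
  have t9' := abs_le.1 t9
  have t10 := abs_le.1 (FQ.jh2 h hE hc)
  have t11 : Ew w (fun a b => cc K s a b 1 ^ 2) ≤ 120 * (p.N * E) := by
    have a1 := h.c1_sq
    linarith [hc.Q12]
  have t11' : 0 ≤ Ew w (fun a b => cc K s a b 1 ^ 2) := h.wt.Ew_nonneg fun _ _ _ => sq_nonneg _
  have t12 : 0 ≤ p.μ * p.N - p.μ ^ 2 * p.N ∧ p.μ * p.N - p.μ ^ 2 * p.N ≤ p.N * E := by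
    have a1 : p.μ * p.N - p.μ ^ 2 * p.N = p.N * (p.μ * p.ρ) := by unfold Par.μ; ring
    have a2 : p.μ * p.ρ ≤ E := by nlinarith [nn.μ0, nn.μ1, h.bnd.ρ0, hc.Q1]
    rw [a1]
    exact ⟨mul_nonneg nn.N (mul_nonneg nn.μ0 h.bnd.ρ0), mul_le_mul_of_nonneg_left a2 nn.N⟩
  rw [e1, e2, e3, abs_le]
  constructor <;> nlinarith [t1.1, t1.2, t2.1, t2.2, t3.1, t3.2, t4.1, t4.2, t5.1, t5.2, t7'.1, t7'.2,
    t9'.1, t9'.2, t10.1, t10.2, t12.1, t12.2]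

/-- `c2_add`, `c₁⁴ ≤ 36 ζ² Λ² c₁²` -/
theorem Ctx.varQ (h : Ctx S w K s p) :
    Ew w (fun a b => (pk (step K s a b) 2 - pk K 2 + 2 - 2 * p.μ ^ 2) ^ 2) ≤
      10 ^ 9 * (p.g2 + p.ζ ^ 2 * p.Λ ^ 2 * p.g1) := by
  have nn := h.bnd.nn
  have a1 : Ew w (fun a b => (pk (step K s a b) 2 - pk K 2 + 2 - 2 * p.μ ^ 2) ^ 2) ≤
      Ew w (fun a b => 392 * g2pt K p.ρ a b ^ 2 + 72 * (p.ζ ^ 2 * p.Λ ^ 2) * cc K s a b 1 ^ 2) := by
    refine h.wt.mono fun a b hab => ?_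
    rw [(h.adm hab).d2]
    have b1 := h.c2_add hab
    have b2 := h.c1_le hab
    have b3 : (cc K s a b 2 + (1 - p.μ ^ 2)) ^ 2 ≤ (7 * g2pt K p.ρ a b) ^ 2 :=
      sq_le_sq' (abs_le.1 b1).1 (abs_le.1 b1).2
    have b4 : cc K s a b 1 ^ 2 ≤ (6 * (p.ζ * p.Λ)) ^ 2 :=
      sq_le_sq' (abs_le.1 b2).1 (abs_le.1 b2).2
    have b5 := mul_le_mul_of_nonneg_right b4 (sq_nonneg (cc K s a b 1))
    nlinarith [sq_nonneg (2 * (cc K s a b 2 + (1 - p.μ ^ 2)) - cc K s a b 1 ^ 2)]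
  rw [Ew_add, Ew_mul, Ew_mul] at a1
  have a2 := h.g2pt_sq
  have a3 := h.c1_sq
  have a4 : 0 ≤ p.ζ ^ 2 * p.Λ ^ 2 := by positivity
  have a5 := mul_le_mul_of_nonneg_left a3 a4
  have a6 := mul_nonneg a4 nn.g1
  have a7 := nn.g2
  nlinarith

end Crest.Agent.R62
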