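import Crest.Agent.R62.Mom
import Crest.Agent.R62.Newton

/-!
# Row 62: drift and variance of `tr K³`

Each error term is bounded by a small multiple of `N E` with one field of `CondT`
(use `Wt.sep`, `Wt.inner`, `Wt.cs_le`, `Wt.abs_le_prod`, `sqrt_mul_sqrt_le`).
-/

set_option autoImplicit false

open Finset Matrix

noncomputable section

namespace Crest.Agent.R62

variable {ι : Type} [Fintype ι] [DecidableEq ι]
variable {S : Finset ι} {w : ι → ι → ℝ} {K : Mat ι} {s : ℝ} {p : Par}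

theorem Ctx.T_sep (h : Ctx S w K s p) (f g : ι → ℝ) {A B y : ℝ} (hA : ∑ a ∈ S, f a ^ 2 ≤ A)
    (hB : ∑ b ∈ S, g b ^ 2 ≤ B) (hy : 0 ≤ y) (hc : p.κ ^ 2 * A * B ≤ y ^ 2) :
    |Ew w (fun a b => f a * g b) - (∑ a ∈ S, f a) * ∑ b ∈ S, g b| ≤ y := by
  refine (h.wt.sep f g).trans ?_
  have hκ := h.wt.κ0
  have h1 : 0 ≤ ∑ a ∈ S, f a ^ 2 := sum_nonneg fun _ _ => sq_nonneg _
  have h2 : 0 ≤ ∑ b ∈ S, g b ^ 2 := sum_nonneg fun _ _ => sq_nonneg _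
  have h3 : √(p.κ ^ 2 * A) * √B ≤ y :=
    sqrt_mul_sqrt_le (mul_nonneg (sq_nonneg _) (h1.trans hA)) hc hy
  rw [Real.sqrt_mul (sq_nonneg _), Real.sqrt_sq hκ] at h3
  refine le_trans ?_ h3
  gcongr

theorem Ctx.T_sub (_h : Ctx S w K s p) (f : ι → ℝ) : ∑ a ∈ S, f a ^ 2 ≤ ∑ a, f a ^ 2 :=
  sum_le_sum_of_subset_of_nonneg (subset_univ _) fun _ _ _ => sq_nonneg _

theorem Ctx.T_mat (h : Ctx S w K s p) (X Y : Mat ι) {A B y : ℝ} (hA : fro X ≤ A) (hB : fro Y ≤ B)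
    (hy : 0 ≤ y) (hc : A * B ≤ y ^ 2) : |Ew w (fun a b => X a b * Y a b)| ≤ 2 * y := by
  refine (h.wt.abs_le_abs (g := fun a b => |X a b * Y a b|) fun _ _ _ => le_rfl).trans ?_
  exact h.wt.cs_le (fun a b => X a b) (fun a b => Y a b) (A := 2 * A) (B := 2 * B)
    ((h.wt.sq_mat X).trans (by linarith)) ((h.wt.sq_mat Y).trans (by linarith))
    (by nlinarith) (by linarith)

theorem Ctx.T_r4 (h : Ctx S w K s p) {E : ℝ} (hc : CondT p E) :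
    |Ew w (fun a b => (K ^ 4) a b)| ≤ 2 * (p.N * E) := by
  have h1 := h.wt.inner (K ^ 2) (K ^ 2)
  have e : (K ^ 2)ᵀ * K ^ 2 = K ^ 4 := by
    rw [transpose_of_symm (pow_symm h.bnd.symm 2), ← pow_add]
  have hs : s ^ 4 = 1 := by
    rw [show s ^ 4 = (s ^ 2) ^ 2 by ring, h.bnd.toSide.sq]; norm_num
  rw [e, h.bnd.toSide.pow_total, hs, h.bnd.card, mul_one, mul_assoc,
    Real.mul_self_sqrt (fro_nonneg _)] at h1
  have h2 : p.κ * fro (K ^ 2) ≤ p.κ * p.P4 := mul_le_mul_of_nonneg_left h.bnd.fro_two h.wt.κ0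
  have h3 := hc.T2
  have h4 : p.N ≤ p.N * E := le_mul_of_one_le_right h.bnd.nn.N hc.T1
  have h5 := h.bnd.nn.N
  rw [abs_le] at h1 ⊢
  constructor <;> linarith [h1.1, h1.2]

theorem Ctx.T_a3 (h : Ctx S w K s p) {E : ℝ} (hE : 0 ≤ E) (hc : CondT p E) :
    |Ew w (fun a b => (K ^ 3) a a * (bb K b - 1)) + p.μ * p.N * pk K 3| ≤ 2 * (p.N * E) := by
  have hy : 0 ≤ p.N * E := mul_nonneg h.bnd.nn.N hE
  have h1 := h.T_sep (fun a => (K ^ 3) a a) (fun b => bb K b - 1)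
    ((h.T_sub _).trans h.bnd.sum_a3_sq) h.bnd.sum_dm hy hc.T4
  have e1 : ∑ a ∈ S, (K ^ 3) a a = pk K 3 := h.bnd.toSide.sum_diag 2
  have e2 : ∑ b ∈ S, (bb K b - 1) = pk K 2 - p.N := by
    rw [sum_sub_distrib, h.bnd.toSide.sum_bb, sum_const, nsmul_eq_mul, h.bnd.card, mul_one]
  rw [e1, e2] at h1
  have h2 : |pk K 3| ≤ p.t := by
    rw [pk_eq_sum]; exact (abs_sum_le_sum_abs _ _).trans h.bnd.t
  have h3 : |pk K 3 * (pk K 2 - p.N * p.ρ)| ≤ p.N * E := by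
    rw [abs_mul]
    exact (mul_le_mul h2 h.bnd.X (abs_nonneg _) h.bnd.nn.t).trans hc.T3
  have e3 : pk K 3 * (pk K 2 - p.N) = pk K 3 * (pk K 2 - p.N * p.ρ) - p.μ * p.N * pk K 3 := by
    rw [Par.μ]; ring
  rw [e3] at h1
  rw [abs_le] at h1 h3 ⊢
  constructor <;> linarith [h1.1, h1.2, h3.1, h3.2]

theorem Ctx.T_a4 (h : Ctx S w K s p) {E : ℝ} (hE : 0 ≤ E) (hc : CondT p E) :
    |Ew w (fun a b => K a a * (K ^ 4) b b)| ≤ 2 * (p.N * E) := by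
  have hy : 0 ≤ p.N * E := mul_nonneg h.bnd.nn.N hE
  have h0 : ∑ a, (K ^ 4) a a ^ 2 ≤ p.Λ ^ 4 * p.B := by simpa using h.bnd.sum_ak_sq 0
  have h1 := h.T_sep (fun a => K a a) (fun b => (K ^ 4) b b)
    ((h.T_sub _).trans h.bnd.sum_diag_sq) ((h.T_sub _).trans h0) hy hc.T6
  have e1 : ∑ a ∈ S, K a a = pk K 1 := by simpa using h.bnd.toSide.sum_diag 0
  have e2 : ∑ a ∈ S, (K ^ 4) a a = pk K 4 := h.bnd.toSide.sum_diag 3
  rw [e1, e2] at h1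
  have h4 : 0 ≤ pk K 4 := pk_even_nonneg h.bnd.symm 2
  have h3 : |pk K 1 * pk K 4| ≤ p.N * E := by
    rw [abs_mul, abs_of_nonneg h4]
    exact (mul_le_mul h.bnd.F h.bnd.P4 h4 h.bnd.nn.Fb).trans hc.T5
  rw [abs_le] at h1 h3 ⊢
  constructor <;> linarith [h1.1, h1.2, h3.1, h3.2]

theorem Ctx.T_ab (h : Ctx S w K s p) {E : ℝ} (hE : 0 ≤ E) (hc : CondT p E) :
    |Ew w (fun a b => K a a * bb K b)| ≤ 2 * (p.N * E) := by
  have hy : 0 ≤ p.N * E := mul_nonneg h.bnd.nn.N hE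
  have hb := bb_nonneg h.bnd.symm
  refine (h.wt.abs_le_prod (f := fun a => |K a a|) (h := bb K) (fun _ => abs_nonneg _) hb
    fun a b _ => by rw [abs_mul, abs_of_nonneg (hb b)]).trans ?_
  have h1 : ∑ a ∈ S, |K a a| ≤ √(p.N * p.δ) :=
    (sum_le_sum_of_subset_of_nonneg (subset_univ _) fun _ _ _ => abs_nonneg _).trans
      h.bnd.sum_abs_diag
  have h2 : ∑ b ∈ S, bb K b ≤ p.Qb := h.bnd.toSide.sum_bb.trans_le h.bnd.Q
  have h3 : √(p.N * p.δ) * √(p.Qb ^ 2) ≤ p.N * E :=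
    sqrt_mul_sqrt_le (mul_nonneg h.bnd.nn.N h.bnd.nn.δ) hc.T9 hy
  rw [Real.sqrt_sq h.bnd.nn.Qb] at h3
  have h4 : (∑ a ∈ S, |K a a|) * ∑ b ∈ S, bb K b ≤ √(p.N * p.δ) * p.Qb :=
    mul_le_mul h1 h2 (sum_nonneg fun b _ => hb b) (Real.sqrt_nonneg _)
  linarith

theorem Ctx.T_h3 (h : Ctx S w K s p) {E : ℝ} (hE : 0 ≤ E) (hc : CondT p E) :
    |Ew w (fun a b => hh K s a b 3) - 2 * (p.μ * p.N * pk K 3)| ≤ 28 * (p.N * E) := by
  have nn := h.bnd.nn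
  have hy : 0 ≤ p.N * E := mul_nonneg nn.N hE
  have hq : p.Qb ≤ p.q2 := by rw [Par.q2]; nlinarith
  have hz : 1 ≤ p.ζ ^ 2 := by nlinarith [h.gl.H12]
  have hΛ8 : 0 ≤ p.Λ ^ 8 := pow_nonneg nn.Λ 8
  have t1 : 0 ≤ p.a3 * p.Dm := mul_nonneg nn.a3 nn.Dm
  have t2 : 0 ≤ p.δ * (p.Λ ^ 4 * p.B) := mul_nonneg nn.δ (mul_nonneg (pow_nonneg nn.Λ 4) nn.B)
  have t3 : 0 ≤ p.δ * p.Db := mul_nonneg nn.δ nn.Db
  have t4 : p.Λ ^ 8 ≤ p.ζ ^ 2 * p.Λ ^ 8 := le_mul_of_one_le_left hΛ8 hz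
  have g8 : p.Λ ^ 8 ≤ p.g3 := by rw [Par.g3]; linarith [nn.P4]
  have g4 : p.P4 ≤ p.g3 := by rw [Par.g3]; linarith
  have a1 := h.T_r4 hc
  have a2 := h.T_a3 hE hc
  have a4 := h.T_a4 hE hc
  have a6 := h.T_mat K (K ^ 4) h.bnd.fro_one (h.bnd.fro_pow 1) hy
    ((mul_le_mul hq g8 hΛ8 nn.q2).trans hc.T7)
  have a7 := h.T_mat (K ^ 2) (K ^ 3) h.bnd.fro_two (h.bnd.fro_pow 0) hy hc.T8
  have a8 := h.T_ab hE hc
  have a10 := h.T_mat K (K ^ 2) h.bnd.fro_one h.bnd.fro_two hy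
    ((mul_le_mul hq g4 nn.P4 nn.q2).trans hc.T7)
  have s3 := h.wt.swap (fun a b => (K ^ 3) a a * (bb K b - 1))
  have s5 := h.wt.swap (fun a b => K a a * (K ^ 4) b b)
  have s9 := h.wt.swap (fun a b => K a a * bb K b)
  have e : Ew w (fun a b => hh K s a b 3) =
      Ew w (fun a b => (-2 * s) * (K ^ 4) a b - (K ^ 3) a a * (bb K b - 1) -
        (K ^ 3) b b * (bb K a - 1) - K a a * (K ^ 4) b b - K b b * (K ^ 4) a a +
        2 * (K a b * (K ^ 4) a b) + 2 * ((K ^ 2) a b * (K ^ 3) a b) + K a a * bb K b +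
        K b b * bb K a - 2 * (K a b * (K ^ 2) a b)) :=
    Ew_congr w fun a b _ => by rw [hh_three h.bnd.symm]; ring
  rw [e]
  simp only [Ew_sub, Ew_add]
  rw [Ew_mul w (-2 * s), Ew_mul w 2, Ew_mul w 2, Ew_mul w 2, s3, s5, s9]
  rw [abs_le] at a1 a2 a4 a6 a7 a8 a10 ⊢
  rcases h.bnd.sgn with hs | hs <;> rw [hs] <;>
    constructor <;> linarith [a1.1, a1.2, a2.1, a2.2, a4.1, a4.2, a6.1, a6.2, a7.1, a7.2, a8.1,
      a8.2, a10.1, a10.2]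

theorem Ctx.T_c3 (h : Ctx S w K s p) {E : ℝ} (hE : 0 ≤ E) (hc : CondT p E) :
    |Ew w (fun a b => cc K s a b 3 + hh K s a b 3)| ≤ 192 * (p.N * E) := by
  have hy : 0 ≤ p.N * E := mul_nonneg h.bnd.nn.N hE
  refine (h.wt.abs_le_abs (g := fun a b => 3 * |th K a b * hh K s a b 3|)
    fun a b hab => h.abs_cc_add_le hab 3).trans ?_
  rw [Ew_mul]
  have := h.wt.cs_le (fun a b => th K a b) (fun a b => hh K s a b 3) (y := 64 * (p.N * E))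
    (Ew_th_sq h.bnd h.wt) h.h3_sq (by nlinarith [hc.T7, sq_nonneg (p.N * E)]) (by linarith)
  linarith

theorem Ctx.T_c12 (h : Ctx S w K s p) {E : ℝ} (hE : 0 ≤ E) (hc : CondT p E) :
    |Ew w (fun a b => cc K s a b 1 * cc K s a b 2)| ≤ 786 * (p.N * E) := by
  have nn := h.bnd.nn
  have hy : 0 ≤ p.N * E := mul_nonneg nn.N hE
  refine (h.wt.abs_le_abs
    (g := fun a b => |cc K s a b 1 * 1| + 7 * |cc K s a b 1 * g2pt K p.ρ a b|)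
    fun a b hab => ?_).trans ?_
  · have h1 := abs_le.1 (h.c2_add hab)
    have h2 := g2pt_nonneg K p.ρ a b
    have h3 : 0 ≤ 1 - p.μ ^ 2 := by nlinarith [nn.μ0, nn.μ1]
    have h4 : |cc K s a b 2| ≤ 1 + 7 * g2pt K p.ρ a b :=
      abs_le.2 ⟨by nlinarith [sq_nonneg p.μ], by linarith [h1.2]⟩
    rw [abs_mul, abs_mul, abs_mul, abs_one, abs_of_nonneg h2]
    nlinarith [abs_nonneg (cc K s a b 1)]
  rw [Ew_add, Ew_mul]
  have h1 := h.wt.cs_le (fun a b => cc K s a b 1) (fun _ _ => 1) (y := 16 * (p.N * E))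
    (B := 2 * p.N ^ 2) h.c1_sq (by simpa using h.Z_le)
    (by nlinarith [mul_le_mul_of_nonneg_left hc.T10 (sq_nonneg p.N), sq_nonneg (p.N * E)])
    (by linarith)
  have h2 := h.wt.cs_le (fun a b => cc K s a b 1) (fun a b => g2pt K p.ρ a b)
    (y := 110 * (p.N * E)) h.c1_sq h.g2pt_sq (by nlinarith [hc.T11, sq_nonneg (p.N * E)])
    (by linarith)
  linarith

theorem Ctx.T_c111 (h : Ctx S w K s p) {E : ℝ} (hc : CondT p E) :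
    |Ew w (fun a b => cc K s a b 1 ^ 3)| ≤ 720 * (p.N * E) := by
  have nn := h.bnd.nn
  have hz : 0 ≤ p.ζ * p.Λ := mul_nonneg (by linarith [h.gl.H12]) nn.Λ
  refine (h.wt.abs_le_abs (g := fun a b => 6 * (p.ζ * p.Λ) * cc K s a b 1 ^ 2)
    fun a b hab => ?_).trans ?_
  · rw [show cc K s a b 1 ^ 3 = cc K s a b 1 * cc K s a b 1 ^ 2 by ring, abs_mul, abs_of_nonneg (sq_nonneg (cc K s a b 1))]
    exact mul_le_mul_of_nonneg_right (h.c1_le hab) (sq_nonneg _)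
  rw [Ew_mul]
  have h1 := mul_le_mul_of_nonneg_left h.c1_sq (show 0 ≤ 6 * (p.ζ * p.Λ) by linarith)
  have h2 := hc.T12
  linarith

/-- `Δ p₃ = 3 c₃ + 3 c₁ c₂ + c₁³`, `c₃ = -h₃ - (j-1) h₃` (`T7`), and in `-h₃` (`hh_three`):
* `Ew r₄ = N ± κ P4` (`Wt.inner`; `T1`, `T2`);
* `Ew (α₃ δ_b) = p₃ (p₂ - N ρ) - μ N p₃ ±` (`T3`, `T4`; `|p₃| ≤ t`);
* `α β₄`: `T5`, `T6`; `r r₄`, `r r₂`: `Qb Λ⁸, Qb P4 ≤ q2 g3` (`T7`); `r₂ r₃`: `T8`; `α b_b`: `T9`;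
* `|c₂| ≤ 1 + 7 g2pt`: `T10` (with `Z ≤ 2 N²`), `T11`; `c₁³`: `T12`. -/
theorem Ctx.meanT (h : Ctx S w K s p) {E : ℝ} (hE : 0 ≤ E) (hc : CondT p E) :
    |Ew w (fun a b => pk (step K s a b) 3 - pk K 3) + 6 * p.μ * p.N * pk K 3| ≤
      10 ^ 9 * (p.N * E) := by
  have hy : 0 ≤ p.N * E := mul_nonneg h.bnd.nn.N hE
  have e : Ew w (fun a b => pk (step K s a b) 3 - pk K 3) =
      Ew w (fun a b => 3 * (cc K s a b 3 + hh K s a b 3) - 3 * hh K s a b 3 +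
        3 * (cc K s a b 1 * cc K s a b 2) + cc K s a b 1 ^ 3) :=
    Ew_congr w fun a b hab => by rw [(h.adm hab).d3]; ring
  rw [e, Ew_add, Ew_add, Ew_sub, Ew_mul w 3, Ew_mul w 3, Ew_mul w 3]
  have a1 := abs_le.1 (h.T_h3 hE hc)
  have a2 := abs_le.1 (h.T_c3 hE hc)
  have a3 := abs_le.1 (h.T_c12 hE hc)
  have a4 := abs_le.1 (h.T_c111 hc)
  rw [abs_le]
  constructor <;> linarith [a1.1, a1.2, a2.1, a2.2, a3.1, a3.2, a4.1, a4.2]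

theorem Ctx.varT (h : Ctx S w K s p) :
    Ew w (fun a b => (pk (step K s a b) 3 - pk K 3) ^ 2) ≤
      10 ^ 9 * (p.g3 + p.ζ ^ 4 * p.Λ ^ 4 * p.g1) := by
  have nn := h.bnd.nn
  have hz : 0 ≤ p.ζ ^ 4 * p.Λ ^ 4 := by positivity
  refine (h.wt.mono (g := fun a b => 27 * cc K s a b 3 ^ 2 +
    28188 * (p.ζ ^ 4 * p.Λ ^ 4) * cc K s a b 1 ^ 2) fun a b hab => ?_).trans ?_
  · rw [(h.adm hab).d3]
    have h1 : cc K s a b 1 ^ 4 ≤ 1296 * (p.ζ ^ 4 * p.Λ ^ 4) := by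
      have := pow_le_pow_left₀ (abs_nonneg _) (h.c1_le hab) 4
      rw [(by decide : Even 4).pow_abs] at this
      linarith [show (6 * (p.ζ * p.Λ)) ^ 4 = 1296 * (p.ζ ^ 4 * p.Λ ^ 4) by ring]
    have h2 : cc K s a b 2 ^ 2 ≤ 900 * (p.ζ ^ 4 * p.Λ ^ 4) := by
      have := pow_le_pow_left₀ (abs_nonneg _) (h.c2_le hab) 2
      rw [sq_abs] at this
      linarith [show (30 * (p.ζ ^ 2 * p.Λ ^ 2)) ^ 2 = 900 * (p.ζ ^ 4 * p.Λ ^ 4) by ring]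
    generalize cc K s a b 1 = c1 at h1 ⊢
    generalize cc K s a b 2 = c2 at h2 ⊢
    generalize cc K s a b 3 = c3
    generalize p.ζ ^ 4 * p.Λ ^ 4 = L at h1 h2 ⊢
    have h3 := mul_le_mul_of_nonneg_left h1 (sq_nonneg c1)
    have h4 := mul_le_mul_of_nonneg_left h2 (sq_nonneg c1)
    have h5 : (3 * c3 + 3 * c1 * c2 + c1 ^ 3) ^ 2 ≤
        3 * ((3 * c3) ^ 2 + (3 * c1 * c2) ^ 2 + (c1 ^ 3) ^ 2) := by
      nlinarith [sq_nonneg (3 * c3 - 3 * c1 * c2), sq_nonneg (3 * c3 - c1 ^ 3),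
        sq_nonneg (3 * c1 * c2 - c1 ^ 3)]
    nlinarith
  rw [Ew_add, Ew_mul, Ew_mul]
  have h1 := h.c3_sq
  have h2 := mul_le_mul_of_nonneg_left h.c1_sq (show 0 ≤ 28188 * (p.ζ ^ 4 * p.Λ ^ 4) by linarith)
  have h3 := nn.g3
  have h4 := mul_nonneg hz nn.g1
  nlinarith

end Crest.Agent.R62
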