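import Crest.Agent.R62.Mom
import Crest.Agent.R62.Newton

/-!
# Row 62: drift of `tr K⁶`

Each error term is bounded by a small multiple of `N E` with one field of `CondU`.
-/

set_option autoImplicit false

open Finset Matrix

noncomputable section

namespace Crest.Agent.R62

variable {ι : Type} [Fintype ι] [DecidableEq ι]
variable {S : Finset ι} {w : ι → ι → ℝ} {K : Mat ι} {s : ℝ} {p : Par}

theorem dU_mat (hw : Wt S w p) (X Y : Mat ι) {A B y : ℝ} (hA : fro X ≤ A) (hB : fro Y ≤ B)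
    (h : A * B ≤ y ^ 2) (hy : 0 ≤ y) : Ew w (fun a b => |X a b * Y a b|) ≤ 2 * y :=
  hw.cs_le (fun a b => X a b) (fun a b => Y a b) (A := 2 * A) (B := 2 * B)
    ((hw.sq_mat X).trans (by linarith)) ((hw.sq_mat Y).trans (by linarith))
    (by nlinarith) (by linarith)

theorem dU_sub (S : Finset ι) {f : ι → ℝ} (hf : ∀ a, 0 ≤ f a) : ∑ a ∈ S, f a ≤ ∑ a, f a :=
  Finset.sum_le_sum_of_subset_of_nonneg (Finset.subset_univ S) fun a _ _ => hf a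

theorem dU_prod (hw : Wt S w p) (f g : ι → ℝ) {A B y : ℝ} (hA : ∑ a, |f a| ≤ A)
    (hB : ∑ a, |g a| ≤ B) (h : A * B ≤ y) : Ew w (fun a b => |f a * g b|) ≤ 2 * y := by
  have h1 := hw.abs_le_prod (F := fun a b => |f a * g b|) (f := fun a => |f a|)
    (h := fun a => |g a|) (fun a => abs_nonneg _) (fun a => abs_nonneg _)
    (fun a b _ => by rw [abs_abs, abs_mul])
  have h2 := (dU_sub S fun a => abs_nonneg (f a)).trans hA
  have h3 := (dU_sub S fun a => abs_nonneg (g a)).trans hB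
  have h4 : 0 ≤ ∑ a ∈ S, |f a| := Finset.sum_nonneg fun a _ => abs_nonneg _
  have h5 : 0 ≤ ∑ a ∈ S, |g a| := Finset.sum_nonneg fun a _ => abs_nonneg _
  have h6 := mul_le_mul h2 h3 h5 (h4.trans h2)
  linarith [le_abs_self (Ew w fun a b => |f a * g b|)]

theorem dU_sqrt {κ x y A B z : ℝ} (hκ : 0 ≤ κ) (hx0 : 0 ≤ x) (hy0 : 0 ≤ y) (hx : x ≤ A)
    (hy : y ≤ B) (h : κ ^ 2 * A * B ≤ z ^ 2) (hz : 0 ≤ z) : κ * √x * √y ≤ z := by
  refine abs_le_of_sq_le_sq' ?_ hz |>.2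
  rw [mul_pow, mul_pow, Real.sq_sqrt hx0, Real.sq_sqrt hy0]
  refine le_trans ?_ h
  have hA := hx0.trans hx
  gcongr

theorem dU_sep (hw : Wt S w p) (f g : ι → ℝ) {A B y : ℝ} (hA : ∑ a ∈ S, f a ^ 2 ≤ A)
    (hB : ∑ a ∈ S, g a ^ 2 ≤ B) (h : p.κ ^ 2 * A * B ≤ y ^ 2) (hy : 0 ≤ y) :
    Ew w (fun a b => f a * g b) ≤ (∑ a ∈ S, f a) * (∑ b ∈ S, g b) + y := by
  have h1 := (le_abs_self _).trans (hw.sep f g)
  have h2 := dU_sqrt hw.κ0 (Finset.sum_nonneg fun a _ => sq_nonneg (f a))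
    (Finset.sum_nonneg fun a _ => sq_nonneg (g a)) hA hB h hy
  linarith

theorem Ctx.dU_r7 (h : Ctx S w K s p) {E : ℝ} (hE : 0 ≤ E) (hc : CondU p E) :
    Ew w (fun a b => s * (K ^ 7) a b) ≤ 2 * (p.N * E) := by
  have hb := h.bnd
  have hN := h.gl.N100
  have hΛ := hb.nn.Λ
  have e : (K ^ 3)ᵀ * K ^ 4 = K ^ 7 := by
    rw [transpose_of_symm (pow_symm hb.symm 3), ← pow_add]
  have h1 := h.wt.inner (K ^ 3) (K ^ 4)
  rw [e, hb.toSide.pow_total, hb.card] at h1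
  have h2 : p.κ * √(fro (K ^ 3)) * √(fro (K ^ 4)) ≤ p.κ * p.Λ ^ 7 :=
    dU_sqrt h.wt.κ0 (fro_nonneg _) (fro_nonneg _) (hb.fro_pow 0) (hb.fro_pow 1)
      (le_of_eq (by ring)) (mul_nonneg h.wt.κ0 (pow_nonneg hΛ _))
  have h3 := abs_le.1 (h1.trans (h2.trans hc.U2))
  have h4 : p.N ≤ p.N * E := by nlinarith [hc.U19]
  rw [Ew_mul]
  rcases hb.sgn with rfl | rfl
  · have := h3.2
    norm_num at this ⊢
    linarith
  · have := h3.1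
    norm_num at this ⊢
    linarith

theorem Ctx.dU_a6 (h : Ctx S w K s p) {E : ℝ} (hE : 0 ≤ E) (hc : CondU p E) :
    Ew w (fun a b => (K ^ 6) a a * (bb K b - 1)) ≤ 2 * (p.N * E) := by
  have hb := h.bnd
  have hn := hb.nn
  have hy : 0 ≤ p.N * E := mul_nonneg hn.N hE
  have h1 := dU_sep h.wt (fun a => (K ^ 6) a a) (fun b => bb K b - 1)
    ((dU_sub S fun a => sq_nonneg _).trans (hb.sum_ak_sq 2)) hb.sum_dm hc.U4 hy
  have h2 : ∑ a ∈ S, (K ^ 6) a a = pk K 6 := hb.toSide.sum_diag 5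
  have h3 : ∑ b ∈ S, (bb K b - 1) ≤ p.X := by
    have h4 : ∑ b ∈ S, (bb K b - 1) ≤ ∑ b ∈ S, (bb K b - p.ρ) :=
      Finset.sum_le_sum fun b _ => by linarith [hb.ρ1]
    rw [hb.sum_dt] at h4
    exact h4.trans ((le_abs_self _).trans hb.X)
  have h5 : 0 ≤ pk K 6 := pk_even_nonneg hb.symm 3
  have h6 : pk K 6 * ∑ b ∈ S, (bb K b - 1) ≤ p.Λ ^ 6 * p.X :=
    (mul_le_mul_of_nonneg_left h3 h5).trans (mul_le_mul_of_nonneg_right hb.P6 hn.X)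
  rw [h2] at h1
  linarith [hc.U3]

theorem Ctx.dU_a7 (h : Ctx S w K s p) {E : ℝ} (hE : 0 ≤ E) (hc : CondU p E) :
    Ew w (fun a b => K a a * (K ^ 7) b b) ≤ 2 * (p.N * E) := by
  have hb := h.bnd
  have hn := hb.nn
  have hy : 0 ≤ p.N * E := mul_nonneg hn.N hE
  have h1 := dU_sep h.wt (fun a => K a a) (fun b => (K ^ 7) b b)
    ((dU_sub S fun a => sq_nonneg _).trans hb.sum_diag_sq)
    ((dU_sub S fun a => sq_nonneg _).trans (hb.sum_ak_sq 3)) hc.U6 hy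
  have h2 : ∑ a ∈ S, K a a = pk K 1 := by simpa using hb.toSide.sum_diag 0
  have h3 : ∑ a ∈ S, (K ^ 7) a a = pk K 7 := hb.toSide.sum_diag 6
  have h4 : |pk K 7| ≤ p.Λ ^ 7 := by
    have h5 := abs_trace_mul_le (K ^ 3) (K ^ 4)
    rw [← pow_add] at h5
    have h6 : 1 * √(fro (K ^ 3)) * √(fro (K ^ 4)) ≤ p.Λ ^ 7 :=
      dU_sqrt zero_le_one (fro_nonneg _) (fro_nonneg _) (hb.fro_pow 0) (hb.fro_pow 1)
        (le_of_eq (by ring)) (pow_nonneg hn.Λ _)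
    rw [one_mul] at h6
    exact h5.trans h6
  have h7 : pk K 1 * pk K 7 ≤ p.Fb * p.Λ ^ 7 := by
    refine (le_abs_self _).trans ?_
    rw [abs_mul]
    exact mul_le_mul hb.F h4 (abs_nonneg _) hn.Fb
  rw [h2, h3] at h1
  linarith [hc.U5]

theorem Ctx.dU_g6 (h : Ctx S w K s p) : p.Qb * p.Λ ^ 14 ≤ p.q2 * p.g6 := by
  have hn := h.bnd.nn
  have h1 : p.Qb ≤ p.q2 := le_add_of_nonneg_right (sq_nonneg _)
  have hΛ := hn.Λ
  have hB := hn.B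
  have hDm := hn.Dm
  have hDb := hn.Db
  have hδ := hn.δ
  have ha := hn.a3
  have hζ : 1 ≤ p.ζ ^ 2 := one_le_pow₀ (by linarith [h.gl.H12])
  have h2 : p.Λ ^ 14 ≤ p.ζ ^ 2 * p.Λ ^ 14 := le_mul_of_one_le_left (by positivity) hζ
  have h3 : 0 ≤ p.Λ ^ 8 * p.B * p.Dm + p.δ * (p.Λ ^ 10 * p.B) + p.a3 * (p.Λ ^ 6 * p.B) +
      (p.Λ ^ 4 * p.B) ^ 2 + p.δ * (p.Λ ^ 6 * p.B) + p.Db * (p.Λ ^ 4 * p.B) + p.a3 ^ 2 := by
    positivity
  have h4 : p.Λ ^ 14 ≤ p.g6 := by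
    unfold Par.g6
    linarith
  exact mul_le_mul h1 h4 (by positivity) hn.q2

/-- In `-h₆` (`hh_six`):
* `Ew (2 s r₇) ≤ 2 N + 2 κ Λ⁷` (`Wt.inner` with `K³`, `K⁴`; `U19` and `N ≥ 1`, `U2`);
* `Ew (α₆ δ_b) ≤ p₆ (p₂ - N) + …`, `p₂ - N ≤ X`, `0 ≤ p₆ ≤ Λ⁶` (`U3`, `U4`);
* `α β₇`: `|p₇| ≤ Λ⁷` (`abs_trace_mul_le`), `U5`, `U6`; `α₃ β₅`: `U7`; `α₄ β₄`: `U8`;
* `r r₇`, `r r₅`: `Qb Λ¹⁴ ≤ q2 g6` (`U9`); `r₂ r₆`, `r₂ r₄`: `U10`; `r₃ r₅`, `r₄²`, `r₃²`: `U11`;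
* `α β₅`: `U12`; `b β₄`: `U13`; `α₃ β₃`: `U14`. -/
theorem Ctx.neg_h6 (h : Ctx S w K s p) {E : ℝ} (hE : 0 ≤ E) (hc : CondU p E) :
    Ew w (fun a b => -hh K s a b 6) ≤ 100 * (p.N * E) := by
  have hb := h.bnd
  have hn := hb.nn
  have hw := h.wt
  have hy : 0 ≤ p.N * E := mul_nonneg hn.N hE
  have hΛ := hb.Λ1
  have h9 : p.Qb * p.Λ ^ 14 ≤ (p.N * E) ^ 2 := h.dU_g6.trans hc.U9
  have h11 : p.Λ ^ 16 ≤ (p.N * E) ^ 2 := by
    have := pow_le_pow_left₀ (by positivity) hc.U11 2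
    rwa [← pow_mul] at this
  have t1 := h.dU_r7 hE hc
  have t2 := h.dU_a6 hE hc
  have t2' := (hw.swap fun a b => (K ^ 6) a a * (bb K b - 1)).trans_le t2
  have t3 := h.dU_a7 hE hc
  have t3' := (hw.swap fun a b => K a a * (K ^ 7) b b).trans_le t3
  have t4 := dU_prod hw (fun a => (K ^ 3) a a) (fun b => (K ^ 5) b b) hb.t hb.P5 hc.U7
  have t4' := (hw.swap fun a b => |(K ^ 3) a a * (K ^ 5) b b|).trans_le t4
  have s4 : ∑ a, |(K ^ 4) a a| ≤ p.P4 := by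
    rw [Finset.sum_congr rfl fun a _ => abs_of_nonneg (pow_even_diag_nonneg hb.symm 2 a),
      ← pk_eq_sum]
    exact hb.P4
  have t5 := dU_prod hw (fun a => (K ^ 4) a a) (fun b => (K ^ 4) b b) s4 s4
    ((sq p.P4).symm.trans_le hc.U8)
  have t6 := dU_mat hw K (K ^ 7) hb.fro_one (hb.fro_pow 4) h9 hy
  have t7 := dU_mat hw (K ^ 2) (K ^ 6) hb.fro_two (hb.fro_pow 3) hc.U10 hy
  have t8 := dU_mat hw (K ^ 3) (K ^ 5) (hb.fro_pow 0) (hb.fro_pow 2)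
    (le_trans (le_of_eq (by ring)) h11) hy
  have s10 : √(p.N * p.δ) * p.P5 ≤ p.N * E := by
    refine abs_le_of_sq_le_sq' ?_ hy |>.2
    rw [mul_pow, Real.sq_sqrt (mul_nonneg hn.N hn.δ)]
    exact hc.U12
  have t10 := dU_prod hw (fun a => K a a) (fun b => (K ^ 5) b b) hb.sum_abs_diag hb.P5 s10
  have t10' := (hw.swap fun a b => |K a a * (K ^ 5) b b|).trans_le t10
  have t12 := dU_prod hw (fun a => (K ^ 3) a a) (fun b => (K ^ 3) b b) hb.t hb.t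
    ((sq p.t).symm.trans_le hc.U14)
  have t13 := dU_mat hw K (K ^ 5) hb.fro_one (hb.fro_pow 2)
    ((mul_le_mul_of_nonneg_left (pow_le_pow_right₀ hΛ (by norm_num)) hn.Qb).trans h9) hy
  have t14 := dU_mat hw (K ^ 2) (K ^ 4) hb.fro_two (hb.fro_pow 1)
    ((mul_le_mul_of_nonneg_left (pow_le_pow_right₀ hΛ (by norm_num)) hn.P4).trans hc.U10) hy
  have t15 := dU_mat hw (K ^ 3) (K ^ 3) (hb.fro_pow 0) (hb.fro_pow 0)
    (le_trans (by rw [← pow_add]; exact pow_le_pow_right₀ hΛ (by norm_num)) h11) hy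
  have key : Ew w (fun a b => -hh K s a b 6) ≤ Ew w (fun a b =>
      2 * (s * (K ^ 7) a b) + (K ^ 6) a a * (bb K b - 1) + (K ^ 6) b b * (bb K a - 1) +
      K a a * (K ^ 7) b b + K b b * (K ^ 7) a a + |(K ^ 3) a a * (K ^ 5) b b| +
      |(K ^ 3) b b * (K ^ 5) a a| + |(K ^ 4) a a * (K ^ 4) b b| + 2 * |K a b * (K ^ 7) a b| +
      2 * |(K ^ 2) a b * (K ^ 6) a b| + 2 * |(K ^ 3) a b * (K ^ 5) a b| +
      |K a a * (K ^ 5) b b| + |K b b * (K ^ 5) a a| + |(K ^ 3) a a * (K ^ 3) b b| +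
      2 * |K a b * (K ^ 5) a b| + 2 * |(K ^ 2) a b * (K ^ 4) a b| +
      |(K ^ 3) a b * (K ^ 3) a b|) := by
    refine hw.mono fun a b _ => ?_
    rw [hh_six hb.symm]
    have a1 := mul_nonneg (bb_nonneg hb.symm a) (pow_even_diag_nonneg hb.symm 2 b)
    have a2 := mul_nonneg (pow_even_diag_nonneg hb.symm 2 a) (bb_nonneg hb.symm b)
    norm_num at a1 a2
    have a3 := sq_nonneg ((K ^ 4) a b)
    have b1 := le_abs_self ((K ^ 3) a a * (K ^ 5) b b)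
    have b2 := le_abs_self ((K ^ 3) b b * (K ^ 5) a a)
    have b3 := le_abs_self ((K ^ 4) a a * (K ^ 4) b b)
    have b4 := neg_abs_le (K a b * (K ^ 7) a b)
    have b5 := neg_abs_le ((K ^ 2) a b * (K ^ 6) a b)
    have b6 := neg_abs_le ((K ^ 3) a b * (K ^ 5) a b)
    have b7 := neg_abs_le (K a a * (K ^ 5) b b)
    have b8 := neg_abs_le (K b b * (K ^ 5) a a)
    have b9 := neg_abs_le ((K ^ 3) a a * (K ^ 3) b b)
    have b10 := le_abs_self (K a b * (K ^ 5) a b)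
    have b11 := le_abs_self ((K ^ 2) a b * (K ^ 4) a b)
    have b12 := le_abs_self ((K ^ 3) a b * (K ^ 3) a b)
    linarith
  simp only [Ew_add, Ew_mul w 2] at key
  linarith

/-- the pointwise bound for the polynomial in the `c_k` -/
theorem dU_poly {c1 c2 c3 c4 g Z : ℝ} (hZ : 0 ≤ Z) (h1 : |c1| ≤ 6 * Z) (h2 : |c2| ≤ 30 * Z ^ 2)
    (h3 : |c3| ≤ 20 * Z ^ 3) (h4 : |c4| ≤ 30 * Z ^ 4) (hg0 : 0 ≤ g) (hg : g ≤ 9 * Z ^ 2)
    (h2g : c2 ≤ 7 * g) :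
    3 * c3 ^ 2 + 6 * c1 ^ 2 * c4 + 12 * c1 * c2 * c3 + 2 * c2 ^ 3 + 6 * c1 ^ 3 * c3 +
        9 * c1 ^ 2 * c2 ^ 2 + 6 * c1 ^ 4 * c2 + c1 ^ 6 ≤
      9 * c3 ^ 2 + 22176 * Z ^ 4 * c1 ^ 2 + 6174 * Z ^ 2 * g ^ 2 := by
  have q := sq_nonneg c1
  have s1 : c1 ^ 2 ≤ (6 * Z) ^ 2 := sq_le_sq' (abs_le.1 h1).1 (abs_le.1 h1).2
  have s2 : c2 ^ 2 ≤ (30 * Z ^ 2) ^ 2 := sq_le_sq' (abs_le.1 h2).1 (abs_le.1 h2).2
  have a1 : c1 ^ 2 * c4 ≤ c1 ^ 2 * (30 * Z ^ 4) := mul_le_mul_of_nonneg_left (abs_le.1 h4).2 q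
  have a2 : c1 ^ 2 * c2 ^ 2 ≤ c1 ^ 2 * (30 * Z ^ 2) ^ 2 := mul_le_mul_of_nonneg_left s2 q
  have a3 : 2 * (c1 * c2 * c3) ≤ c3 ^ 2 + c1 ^ 2 * c2 ^ 2 := by
    nlinarith [sq_nonneg (c1 * c2 - c3)]
  have a4 : c1 * c3 ≤ 6 * Z * (20 * Z ^ 3) := by
    refine (le_abs_self _).trans ?_
    rw [abs_mul]
    exact mul_le_mul h1 h3 (abs_nonneg _) (by positivity)
  have a4' := mul_le_mul_of_nonneg_left a4 q
  have a5 : c1 ^ 2 * c2 ≤ (6 * Z) ^ 2 * (30 * Z ^ 2) :=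
    (mul_le_mul_of_nonneg_left (abs_le.1 h2).2 q).trans
      (mul_le_mul_of_nonneg_right s1 (by positivity))
  have a5' := mul_le_mul_of_nonneg_left a5 q
  have a6 : c1 ^ 2 * c1 ^ 2 ≤ (6 * Z) ^ 2 * (6 * Z) ^ 2 := mul_le_mul s1 s1 q (by positivity)
  have a6' := mul_le_mul_of_nonneg_left a6 q
  have a7 : c2 ^ 3 ≤ (7 * g) ^ 3 := (Odd.strictMono_pow (by decide : Odd 3)).monotone h2g
  have a8 : g ^ 2 * g ≤ g ^ 2 * (9 * Z ^ 2) := mul_le_mul_of_nonneg_left hg (sq_nonneg g)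
  linarith

/-- `Adm.d6`.  `c₆ = -h₆ - (j-1) h₆` (`U9`); `c₁ c₅`: `U15`; `c₂ c₄`: `U16`; `c₃²`: `U17`;
`|c₁ c₂ c₃| ≤ c₃² + c₁² c₂²`; all terms with a factor `c₁²`: pointwise bounds and `U18` (`ζ ≥ 1`);
`|c₂|³ ≤ (1 + 7 g)³ ≤ 4 (1 + 343 g³)`, `g ≤ 9 ζ² Λ²`: `U19`, `U20`. -/
theorem Ctx.driftU (h : Ctx S w K s p) {E : ℝ} (hE : 0 ≤ E) (hc : CondU p E) :
    Ew w (fun a b => pk (step K s a b) 6 - pk K 6) ≤ 10 ^ 9 * (p.N * E) := by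
  have hb := h.bnd
  have hn := hb.nn
  have hw := h.wt
  have hy : 0 ≤ p.N * E := mul_nonneg hn.N hE
  have hΛ := hn.Λ
  have hζ : 1 ≤ p.ζ := by linarith [h.gl.H12]
  have hZ : 0 ≤ p.ζ * p.Λ := by positivity
  have key : Ew w (fun a b => pk (step K s a b) 6 - pk K 6) ≤ Ew w (fun a b =>
      6 * (-hh K s a b 6) + 18 * |th K a b * hh K s a b 6| +
      6 * |cc K s a b 1 * cc K s a b 5| + 6 * |cc K s a b 2 * cc K s a b 4| +
      9 * cc K s a b 3 ^ 2 + 22176 * (p.ζ * p.Λ) ^ 4 * cc K s a b 1 ^ 2 +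
      6174 * (p.ζ * p.Λ) ^ 2 * g2pt K p.ρ a b ^ 2) := by
    refine hw.mono fun a b hab => ?_
    rw [(h.adm hab).d6]
    have e2 : (p.ζ * p.Λ) ^ 2 = p.ζ ^ 2 * p.Λ ^ 2 := mul_pow _ _ _
    have e3 : p.ζ ^ 2 * p.Λ ^ 3 ≤ (p.ζ * p.Λ) ^ 3 := by
      rw [mul_pow]
      exact mul_le_mul_of_nonneg_right (pow_le_pow_right₀ hζ (by norm_num)) (by positivity)
    have e4 : p.ζ ^ 2 * p.Λ ^ 4 ≤ (p.ζ * p.Λ) ^ 4 := by
      rw [mul_pow]
      exact mul_le_mul_of_nonneg_right (pow_le_pow_right₀ hζ (by norm_num)) (by positivity)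
    have hμ : p.μ ^ 2 ≤ 1 := pow_le_one₀ hn.μ0 hn.μ1
    have h1 := dU_poly (c4 := cc K s a b 4) (c3 := cc K s a b 3) (c2 := cc K s a b 2) hZ
      (h.c1_le hab) (by rw [e2]; exact h.c2_le hab) (by linarith [h.c3_le hab])
      (by linarith [h.c4_le hab]) (g2pt_nonneg K p.ρ a b) (by rw [e2]; exact h.g2pt_le hab)
      (by linarith [(abs_le.1 (h.c2_add hab)).2])
    have h2 := (le_abs_self _).trans (h.abs_cc_add_le hab 6)
    have h3 := le_abs_self (cc K s a b 1 * cc K s a b 5)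
    have h4 := le_abs_self (cc K s a b 2 * cc K s a b 4)
    linarith
  simp only [Ew_add, Ew_mul] at key
  have t1 := h.neg_h6 hE hc
  have t2 := hw.cs_le (fun a b => th K a b) (fun a b => hh K s a b 6) (y := 64 * (p.N * E))
    (Ew_th_sq hb hw) h.h6_sq (by nlinarith [hc.U9, sq_nonneg (p.N * E)]) (by linarith)
  have t3 := hw.cs_le (fun a b => cc K s a b 1) (fun a b => cc K s a b 5) (y := 400 * (p.N * E))
    h.c1_sq h.c5_sq (by nlinarith [hc.U15, sq_nonneg (p.N * E)]) (by linarith)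
  have t4 := hw.cs_le (fun a b => cc K s a b 2) (fun a b => cc K s a b 4) (y := 4000 * (p.N * E))
    h.c2_sq h.c4_sq (by nlinarith [hc.U16, sq_nonneg (p.N * E)]) (by linarith)
  have t5 := h.c3_sq
  have t6 := mul_le_mul_of_nonneg_left h.c1_sq (pow_nonneg hZ 4)
  have t7 := mul_le_mul_of_nonneg_left h.g2pt_sq (pow_nonneg hZ 2)
  have u17 := hc.U17
  have u18 := hc.U18
  have u20 := hc.U20
  nlinarith

end Crest.Agent.R62
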