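import Crest.Agent.R62.DriftV1

/-!
# Row 62: drift of `VV`
-/

set_option autoImplicit false
set_option linter.unusedSectionVars false

open Finset Matrix

noncomputable section

namespace Crest.Agent.R62

variable {ι : Type} [Fintype ι] [DecidableEq ι]
variable {S : Finset ι} {w : ι → ι → ℝ} {K : Mat ι} {s : ℝ} {p : Par}

theorem dv_lin {j g : ℝ} (hj : j ^ 2 ≤ 5 / 4) (hg : g ^ 2 ≤ 5 / 4) (u v : ℝ) :
    (j * u + g * v) ^ 2 ≤ 5 / 2 * (u ^ 2 + v ^ 2) := by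
  have h1 := mul_le_mul_of_nonneg_right hj (sq_nonneg u)
  have h2 := mul_le_mul_of_nonneg_right hg (sq_nonneg v)
  nlinarith [sq_nonneg (j * u - g * v)]

theorem dv_five (x₁ x₂ x₃ x₄ x₅ : ℝ) :
    (x₁ + x₂ + x₃ + x₄ + x₅) ^ 2 ≤ 5 * (x₁ ^ 2 + x₂ ^ 2 + x₃ ^ 2 + x₄ ^ 2 + x₅ ^ 2) := by
  nlinarith [sq_nonneg (x₁ - x₂), sq_nonneg (x₁ - x₃), sq_nonneg (x₁ - x₄), sq_nonneg (x₁ - x₅),
    sq_nonneg (x₂ - x₃), sq_nonneg (x₂ - x₄), sq_nonneg (x₂ - x₅), sq_nonneg (x₃ - x₄),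
    sq_nonneg (x₃ - x₅), sq_nonneg (x₄ - x₅)]

theorem dv_four {l β p q d Z : ℝ} (hl : l ^ 2 ≤ 5 / 2 * ((β * p) ^ 2 + q ^ 2)) (hd : (d * β) ^ 2 ≤ Z) :
    (d * l ^ 2) ^ 2 ≤ 13 * (Z * (β ^ 2 * p ^ 4) + d ^ 2 * q ^ 4) := by
  have h1 : (l ^ 2) ^ 2 ≤ (5 / 2 * ((β * p) ^ 2 + q ^ 2)) ^ 2 := pow_le_pow_left₀ (sq_nonneg _) hl 2
  have h2 : (l ^ 2) ^ 2 ≤ 13 * (((β * p) ^ 2) ^ 2 + (q ^ 2) ^ 2) := by
    nlinarith [sq_nonneg ((β * p) ^ 2 - q ^ 2), sq_nonneg ((β * p) ^ 2), sq_nonneg (q ^ 2)]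
  have h3 : (d * β) ^ 2 * (β ^ 2 * p ^ 4) ≤ Z * (β ^ 2 * p ^ 4) :=
    mul_le_mul_of_nonneg_right hd (by positivity)
  calc (d * l ^ 2) ^ 2 = d ^ 2 * (l ^ 2) ^ 2 := by ring
    _ ≤ d ^ 2 * (13 * (((β * p) ^ 2) ^ 2 + (q ^ 2) ^ 2)) := mul_le_mul_of_nonneg_left h2 (sq_nonneg _)
    _ = 13 * ((d * β) ^ 2 * (β ^ 2 * p ^ 4) + d ^ 2 * q ^ 4) := by ring
    _ ≤ _ := by linarith

/-- the majorant of `dB²` (half of it) -/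
def dvF (Z p q p₂ β d : ℝ) : ℝ :=
  50 * (β ^ 2 * (p₂ ^ 2 * p ^ 2)) + 50 * (p₂ ^ 2 * q ^ 2) + 65 * (d ^ 2 * q ^ 4) +
    205 * (Z * (β ^ 2 * p ^ 4)) + 140 * (Z * (p ^ 2 * q ^ 2))

theorem dvF_nonneg {Z : ℝ} (hZ : 0 ≤ Z) (p q p₂ β d : ℝ) : 0 ≤ dvF Z p q p₂ β d := by
  unfold dvF; positivity

theorem dv_pt {p q p₂ q₂ α β da db r l₁ l₂ Z : ℝ} (h1 : l₁ ^ 2 ≤ 5 / 2 * ((β * p) ^ 2 + q ^ 2))
    (h2 : l₂ ^ 2 ≤ 5 / 2 * ((α * q) ^ 2 + p ^ 2)) (hab : (α * β) ^ 2 ≤ 1) (ha : (da * β) ^ 2 ≤ Z)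
    (hb : (db * α) ^ 2 ≤ Z) (hr : r ^ 2 ≤ Z) :
    (2 * (p₂ * l₁ + q₂ * l₂) + (da * l₁ ^ 2 + db * l₂ ^ 2) + 2 * r * l₁ * l₂) ^ 2 ≤
      dvF Z p q p₂ β da + dvF Z q p q₂ α db := by
  have hZ : 0 ≤ Z := (sq_nonneg _).trans hr
  have e := dv_five (2 * p₂ * l₁) (2 * q₂ * l₂) (da * l₁ ^ 2) (db * l₂ ^ 2) (2 * r * l₁ * l₂)
  have t1 : (2 * p₂ * l₁) ^ 2 ≤ 10 * (β ^ 2 * (p₂ ^ 2 * p ^ 2) + p₂ ^ 2 * q ^ 2) := by
    have := mul_le_mul_of_nonneg_left h1 (sq_nonneg p₂)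
    calc (2 * p₂ * l₁) ^ 2 = 4 * (p₂ ^ 2 * l₁ ^ 2) := by ring
      _ ≤ 4 * (p₂ ^ 2 * (5 / 2 * ((β * p) ^ 2 + q ^ 2))) := by linarith
      _ = _ := by ring
  have t2 : (2 * q₂ * l₂) ^ 2 ≤ 10 * (α ^ 2 * (q₂ ^ 2 * q ^ 2) + q₂ ^ 2 * p ^ 2) := by
    have := mul_le_mul_of_nonneg_left h2 (sq_nonneg q₂)
    calc (2 * q₂ * l₂) ^ 2 = 4 * (q₂ ^ 2 * l₂ ^ 2) := by ring
      _ ≤ 4 * (q₂ ^ 2 * (5 / 2 * ((α * q) ^ 2 + p ^ 2))) := by linarith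
      _ = _ := by ring
  have t3 := dv_four h1 ha
  have t4 := dv_four h2 hb
  have t5 : (2 * r * l₁ * l₂) ^ 2 ≤
      25 * (Z * (β ^ 2 * p ^ 4) + 2 * (Z * (p ^ 2 * q ^ 2)) + Z * (α ^ 2 * q ^ 4)) := by
    have k1 : l₁ ^ 2 * l₂ ^ 2 ≤ (5 / 2 * ((β * p) ^ 2 + q ^ 2)) * (5 / 2 * ((α * q) ^ 2 + p ^ 2)) :=
      mul_le_mul h1 h2 (sq_nonneg _) (by positivity)
    have k2 : (α * β) ^ 2 * (p ^ 2 * q ^ 2) ≤ 1 * (p ^ 2 * q ^ 2) :=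
      mul_le_mul_of_nonneg_right hab (by positivity)
    have k3 : l₁ ^ 2 * l₂ ^ 2 ≤ 25 / 4 * (β ^ 2 * p ^ 4 + 2 * (p ^ 2 * q ^ 2) + α ^ 2 * q ^ 4) := by
      refine k1.trans ?_
      calc _ = 25 / 4 * ((α * β) ^ 2 * (p ^ 2 * q ^ 2) + β ^ 2 * p ^ 4 + p ^ 2 * q ^ 2 +
            α ^ 2 * q ^ 4) := by ring
        _ ≤ _ := by linarith
    calc (2 * r * l₁ * l₂) ^ 2 = 4 * (r ^ 2 * (l₁ ^ 2 * l₂ ^ 2)) := by ring
      _ ≤ 4 * (Z * (25 / 4 * (β ^ 2 * p ^ 4 + 2 * (p ^ 2 * q ^ 2) + α ^ 2 * q ^ 4))) := by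
        have := mul_le_mul hr k3 (by positivity) hZ
        linarith
      _ = _ := by ring
  have n1 : 0 ≤ Z * (β ^ 2 * p ^ 4) := by positivity
  have n2 : 0 ≤ Z * (α ^ 2 * q ^ 4) := by positivity
  have n3 : 0 ≤ Z * (p ^ 2 * q ^ 2) := by positivity
  have e' : (2 * (p₂ * l₁ + q₂ * l₂) + (da * l₁ ^ 2 + db * l₂ ^ 2) + 2 * r * l₁ * l₂) =
      2 * p₂ * l₁ + 2 * q₂ * l₂ + da * l₁ ^ 2 + db * l₂ ^ 2 + 2 * r * l₁ * l₂ := by ring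
  have e'' : Z * (q ^ 2 * p ^ 2) = Z * (p ^ 2 * q ^ 2) := by ring
  rw [e']
  unfold dvF
  rw [e'']
  linarith

theorem dv_sq_le {x y b : ℝ} (hb : 0 ≤ b) (h : |x| * (1 + b) ≤ y) : ((b - 1) * x) ^ 2 ≤ y ^ 2 := by
  refine sq_le_sq' ?_ ?_ <;>
  · have h1 : |(b - 1) * x| ≤ y := by
      rw [abs_mul, mul_comm]
      refine le_trans (mul_le_mul_of_nonneg_left ?_ (abs_nonneg _)) h
      rw [abs_le]; constructor <;> linarith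
    have := abs_le.1 h1
    linarith [this.1, this.2]

theorem Ctx.dB_sq (h : Ctx S w K s p) {a b : ι} (hab : w a b ≠ 0) (c : ι) :
    dB K s a b c ^ 2 ≤
      dvF (p.ζ ^ 2 * p.Λ ^ 2) (K c a) (K c b) ((K ^ 2) c a) (K b b) (bb K a - 1) +
        dvF (p.ζ ^ 2 * p.Λ ^ 2) (K c b) (K c a) ((K ^ 2) c b) (K a a) (bb K b - 1) := by
  have hs := h.scal hab
  have ha := h.wk.alw a b hab
  have hsy := h.bnd.symm
  have hj : jj K s a b ^ 2 ≤ 5 / 4 := by nlinarith [hs.jl, hs.ju]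
  have hg : gg K s a b ^ 2 ≤ 5 / 4 := by
    have := abs_le.1 hs.gu'
    nlinarith [this.1, this.2]
  have hba := bb_nonneg hsy a
  have hbb := bb_nonneg hsy b
  unfold dB
  refine dv_pt ?_ ?_ ?_ ?_ ?_ ?_
  · have := dv_lin hj hg (K b b * K c a) (K c b)
    rwa [← mul_assoc] at this
  · have := dv_lin hj hg (K a a * K c b) (K c a)
    rwa [← mul_assoc, add_comm (jj K s a b * K a a * K c b)] at this
  · have h1 := abs_le.1 (ha.ab.trans (show p.ε ≤ 1 by linarith [h.gl.H10, h.gl.ε0]))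
    nlinarith [h1.1, h1.2]
  · rw [← mul_pow]; exact dv_sq_le hba ha.be
  · rw [← mul_pow]; exact dv_sq_le hbb ha.al
  · have h1 : (K ^ 2) a b ^ 2 ≤ bb K a * bb K b := pow_add_sq_le hsy 1 1 a b
    have h2 := ha.bb2
    nlinarith

theorem dv_sum3 (S : Finset ι) (f : ι → ℝ) (g : ι → ι → ℝ) (hf : ∀ b, 0 ≤ f b) (hg : ∀ c a, 0 ≤ g c a) :
    ∑ a ∈ S, ∑ b ∈ S, ∑ c ∈ S, f b * g c a ≤ (∑ b ∈ S, f b) * ∑ c, ∑ a, g c a := by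
  have h1 : ∑ a ∈ S, ∑ b ∈ S, ∑ c ∈ S, f b * g c a = (∑ b ∈ S, f b) * ∑ c ∈ S, ∑ a ∈ S, g c a := by
    rw [sum_comm, sum_mul]
    refine sum_congr rfl fun b _ => ?_
    rw [sum_comm, mul_sum]
    exact sum_congr rfl fun c _ => (mul_sum _ _ _).symm
  rw [h1]
  refine mul_le_mul_of_nonneg_left ?_ (sum_nonneg fun b _ => hf b)
  exact (sum_le_sum fun c _ => sum_le_univ_sum_of_nonneg (hg c)).trans
    (sum_le_univ_sum_of_nonneg fun c => sum_nonneg fun a _ => hg c a)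

theorem dv_sum3' (S : Finset ι) (f g : ι → ι → ℝ) (hf : ∀ c a, 0 ≤ f c a) (hg : ∀ c b, 0 ≤ g c b) :
    ∑ a ∈ S, ∑ b ∈ S, ∑ c ∈ S, f c a * g c b ≤ ∑ c, (∑ a, f c a) * ∑ b, g c b := by
  have h1 : ∑ a ∈ S, ∑ b ∈ S, ∑ c ∈ S, f c a * g c b =
      ∑ c ∈ S, (∑ a ∈ S, f c a) * ∑ b ∈ S, g c b := by
    rw [sum_congr rfl fun a _ => sum_comm, sum_comm]
    exact sum_congr rfl fun c _ => (sum_mul_sum _ _ _ _).symm
  rw [h1]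
  refine (sum_le_sum fun c _ => mul_le_mul (sum_le_univ_sum_of_nonneg (hf c))
    (sum_le_univ_sum_of_nonneg (hg c)) (sum_nonneg fun b _ => hg c b)
    (sum_nonneg fun a _ => hf c a)).trans (sum_le_univ_sum_of_nonneg fun c => ?_)
  exact mul_nonneg (sum_nonneg fun a _ => hf c a) (sum_nonneg fun b _ => hg c b)

theorem Ctx.dvF_sum (h : Ctx S w K s p) {E : ℝ} (hE : 0 ≤ E) (hc : CondV p E) :
    ∑ a ∈ S, ∑ b ∈ S, ∑ c ∈ S,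
      dvF (p.ζ ^ 2 * p.Λ ^ 2) (K c a) (K c b) ((K ^ 2) c a) (K b b) (bb K a - 1) ≤
      130 * p.W * VV S K p.ρ + 600 * (p.N * E) := by
  have hB := h.bnd
  have hsy := hB.symm
  have nn := hB.nn
  have hZ : 0 ≤ p.ζ ^ 2 * p.Λ ^ 2 := by positivity
  have hδ : ∑ b ∈ S, K b b ^ 2 ≤ p.δ :=
    (sum_le_univ_sum_of_nonneg fun b => sq_nonneg (K b b)).trans hB.sum_diag_sq
  have hW : ∑ c, ∑ a, K c a ^ 4 ≤ p.W := hB.W
  have hW0 : 0 ≤ ∑ c, ∑ a, K c a ^ 4 := WW_nonneg K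
  have s1 : ∑ a ∈ S, ∑ b ∈ S, ∑ c ∈ S, K b b ^ 2 * ((K ^ 2) c a ^ 2 * K c a ^ 2) ≤ p.N * E := by
    refine (dv_sum3 S (fun b => K b b ^ 2) (fun c a => (K ^ 2) c a ^ 2 * K c a ^ 2)
      (fun _ => sq_nonneg _) fun _ _ => by positivity).trans (le_trans ?_ hc.V18)
    refine mul_le_mul hδ (le_trans (sum_le_sum fun c _ => sum_le_sum fun a _ => ?_) (hB.sum_om h.gl))
      (sum_nonneg fun c _ => sum_nonneg fun a _ => by positivity) nn.δ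
    rw [mul_comm]
    exact mul_le_mul_of_nonneg_left (pow_add_sq_le hsy 1 1 c a) (sq_nonneg _)
  have s2 : ∑ a ∈ S, ∑ b ∈ S, ∑ c ∈ S, (K ^ 2) c a ^ 2 * K c b ^ 2 ≤ p.N * E := by
    refine (dv_sum3' S (fun c a => (K ^ 2) c a ^ 2) (fun c b => K c b ^ 2)
      (fun _ _ => sq_nonneg _) fun _ _ => sq_nonneg _).trans (le_trans (le_trans (le_of_eq ?_)
        hB.sum_b_a4) hc.V17)
    refine sum_congr rfl fun c _ => ?_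
    rw [sum_pow_sq hsy 2 c, ← bb_eq hsy c, mul_comm]
  have s3 : ∑ a ∈ S, ∑ b ∈ S, ∑ c ∈ S, (bb K a - 1) ^ 2 * K c b ^ 4 ≤
      2 * p.W * VV S K p.ρ + 2 * (p.N * E) := by
    rw [sum_comm]
    refine (dv_sum3 S (fun a => (bb K a - 1) ^ 2) (fun c b => K c b ^ 4)
      (fun _ => sq_nonneg _) fun _ _ => by positivity).trans ?_
    have h1 : ∑ a ∈ S, (bb K a - 1) ^ 2 ≤ 2 * VV S K p.ρ + 2 * (p.N * p.μ ^ 2) := by
      calc ∑ a ∈ S, (bb K a - 1) ^ 2 ≤ ∑ a ∈ S, (2 * (bb K a - p.ρ) ^ 2 + 2 * p.μ ^ 2) := by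
            refine sum_le_sum fun a _ => ?_
            unfold Par.μ
            nlinarith [sq_nonneg (bb K a - p.ρ + (1 - p.ρ))]
        _ = _ := by
            rw [sum_add_distrib, ← mul_sum, sum_const, nsmul_eq_mul, hB.card, VV]; ring
    have h2 := mul_le_mul h1 hW hW0 (by have := VV_nonneg S K p.ρ; have := nn.N; positivity)
    have h3 := mul_le_mul_of_nonneg_left hc.V19 nn.N
    nlinarith
  have s4 : ∑ a ∈ S, ∑ b ∈ S, ∑ c ∈ S, p.ζ ^ 2 * p.Λ ^ 2 * (K b b ^ 2 * K c a ^ 4) ≤ p.N * E := by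
    simp only [← mul_sum]
    refine le_trans ?_ hc.V20
    rw [mul_assoc (p.ζ ^ 2 * p.Λ ^ 2)]
    refine mul_le_mul_of_nonneg_left ?_ hZ
    simp only [mul_sum]
    exact (dv_sum3 S (fun b => K b b ^ 2) (fun c a => K c a ^ 4)
      (fun _ => sq_nonneg _) fun _ _ => by positivity).trans (mul_le_mul hδ hW hW0 nn.δ)
  have s5 : ∑ a ∈ S, ∑ b ∈ S, ∑ c ∈ S, p.ζ ^ 2 * p.Λ ^ 2 * (K c a ^ 2 * K c b ^ 2) ≤ p.N * E := by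
    simp only [← mul_sum]
    refine le_trans (mul_le_mul_of_nonneg_left ?_ hZ) hc.V21
    refine (dv_sum3' S (fun c a => K c a ^ 2) (fun c b => K c b ^ 2)
      (fun _ _ => sq_nonneg _) fun _ _ => sq_nonneg _).trans (le_trans (le_of_eq ?_) hB.sum_bb_sq)
    refine sum_congr rfl fun c _ => ?_
    rw [← bb_eq hsy c, sq]
  have hNE : 0 ≤ p.N * E := mul_nonneg nn.N hE
  unfold dvF
  simp only [sum_add_distrib]
  simp only [← mul_sum (a := (50 : ℝ)), ← mul_sum (a := (65 : ℝ)), ← mul_sum (a := (205 : ℝ)),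
    ← mul_sum (a := (140 : ℝ))]
  linarith

/-- `dB² ≤ 5 (4 p₂² ℓ₁² + 4 q₂² ℓ₂² + δ_a² ℓ₁⁴ + δ_b² ℓ₂⁴ + 4 r₂² ℓ₁² ℓ₂²)`, `ℓ₁² ≤ 2.5 (β² p² + q²)`,
`ℓ₁⁴ ≤ 12 (β⁴ p⁴ + q⁴)`.
* `∑ p₂² q² = ∑_c α₄(c) b_c ≤ a3` (`V17`); `∑ β² p₂² p² ≤ δ Om` (`p₂² ≤ b_c b_a`; `V18`);
* `∑ δ_a² q⁴ ≤ (2 VV + 2 N μ²) W` (this gives the `W · VV` term and `V19`);
  `β⁴ δ_a² p⁴ ≤ ζ² Λ² β² p⁴` (`Alw.be`; `V20`);
* `r₂² ≤ ζ² Λ²`, `ℓ₁² ℓ₂² ≤ 7 (β² p⁴ + (1 + α² β²) p² q² + α² q⁴)`: `V20`, `V21` (`∑_{a,b} p² q² = b_c²`). -/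
theorem Ctx.V_quad (h : Ctx S w K s p) {E : ℝ} (hE : 0 ≤ E) (hc : CondV p E) :
    Ew w (fun a b => ∑ c ∈ S, dB K s a b c ^ 2) ≤ 1000 * p.W * VV S K p.ρ + 10000 * (p.N * E) := by
  have hZ : 0 ≤ p.ζ ^ 2 * p.Λ ^ 2 := by positivity
  set F : ι → ι → ℝ := fun a b => ∑ c ∈ S,
    dvF (p.ζ ^ 2 * p.Λ ^ 2) (K c a) (K c b) ((K ^ 2) c a) (K b b) (bb K a - 1) with hF
  have h1 : Ew w (fun a b => ∑ c ∈ S, dB K s a b c ^ 2) ≤ Ew w (fun a b => F a b + F b a) := by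
    refine h.wt.mono fun a b hab => ?_
    rw [hF]
    simp only [← sum_add_distrib]
    exact sum_le_sum fun c _ => h.dB_sq hab c
  rw [Ew_add, h.wt.swap F] at h1
  have h2 : Ew w F ≤ 2 * ∑ a ∈ S, ∑ b ∈ S, F a b :=
    h.wt.le_two fun a b => sum_nonneg fun c _ => dvF_nonneg hZ _ _ _ _ _
  have h3 : ∑ a ∈ S, ∑ b ∈ S, F a b ≤ _ := h.dvF_sum hE hc
  have h4 : 0 ≤ p.W * VV S K p.ρ := mul_nonneg h.bnd.nn.W (VV_nonneg _ _ _)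
  have h5 : 0 ≤ p.N * E := mul_nonneg h.bnd.nn.N hE
  linarith

theorem dv_cancel {N ρ μ κ η x X Z : ℝ} (hN : 0 < N) (hρ : 0 ≤ ρ) (hμ0 : 0 ≤ μ) (hμ1 : μ ≤ 1)
    (hκ : 0 ≤ κ) (hx : |x| ≤ X) (hZ0 : 0 ≤ Z) (hZ : Z ≤ 2 * N ^ 2) (hZ1 : |Z - N ^ 2| ≤ κ * N)
    (hη : |η - 2 * ρ * μ / N| ≤ 8 * ρ / N ^ 2) :
    2 * η * x * Z - 4 * (μ * N * (ρ * x)) ≤ 4 * (ρ * X * (κ + 8)) := by
  have hX : 0 ≤ X := (abs_nonneg _).trans hx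
  have e : 2 * η * x * Z - 4 * (μ * N * (ρ * x)) =
      4 * (ρ * μ) * (x * ((Z - N ^ 2) / N)) + 2 * (x * (η - 2 * ρ * μ / N)) * Z := by
    field_simp
    ring
  have h1 : x * ((Z - N ^ 2) / N) ≤ X * κ := by
    refine (le_abs_self _).trans ?_
    rw [abs_mul, abs_div, abs_of_pos hN]
    exact mul_le_mul hx ((div_le_iff₀ hN).2 hZ1) (by positivity) hX
  have h2 : x * (η - 2 * ρ * μ / N) ≤ X * (8 * ρ / N ^ 2) := by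
    refine (le_abs_self _).trans ?_
    rw [abs_mul]
    exact mul_le_mul hx hη (abs_nonneg _) hX
  have h3 : 4 * (ρ * μ) * (x * ((Z - N ^ 2) / N)) ≤ 4 * (ρ * 1) * (X * κ) :=
    (mul_le_mul_of_nonneg_left h1 (by positivity)).trans
      (mul_le_mul_of_nonneg_right (by nlinarith) (by positivity))
  have h4 : 2 * (x * (η - 2 * ρ * μ / N)) * Z ≤ 2 * (X * (8 * ρ / N ^ 2)) * (2 * N ^ 2) :=
    (mul_le_mul_of_nonneg_right (by linarith) hZ0).trans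
      (mul_le_mul_of_nonneg_left hZ (by positivity))
  have h5 : 2 * (X * (8 * ρ / N ^ 2)) * (2 * N ^ 2) = 32 * (ρ * X) := by
    field_simp
    ring
  rw [e]
  nlinarith

theorem dv_eta {N ρ μ η Z : ℝ} (hN : 100 ≤ N) (hρ : 0 ≤ ρ) (hρ1 : ρ ≤ 1) (hμ0 : 0 ≤ μ) (hμ1 : μ ≤ 1)
    (hZ0 : 0 ≤ Z) (hZ : Z ≤ 2 * N ^ 2) (hη : |η - 2 * ρ * μ / N| ≤ 8 * ρ / N ^ 2) :
    2 * N * η ^ 2 * Z ≤ 36 * (N * ρ) := by
  have hN0 : 0 < N := by linarith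
  have h1 : 8 * ρ / N ^ 2 ≤ ρ / N := by
    rw [div_le_div_iff₀ (by positivity) hN0]
    nlinarith [mul_nonneg (mul_nonneg hρ hN0.le) (show 0 ≤ N - 8 by linarith)]
  have h2 : 0 ≤ 2 * ρ * μ / N := by positivity
  have h3 : 2 * ρ * μ / N ≤ 2 * (ρ / N) := by
    rw [← mul_div_assoc]
    exact div_le_div_of_nonneg_right (by nlinarith) hN0.le
  have h4 := abs_le.1 (hη.trans h1)
  have h5 : 0 ≤ ρ / N := by positivity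
  have h6 : η ^ 2 ≤ (3 * (ρ / N)) ^ 2 := sq_le_sq' (by linarith [h4.1]) (by linarith [h4.2])
  calc 2 * N * η ^ 2 * Z ≤ 2 * N * (3 * (ρ / N)) ^ 2 * (2 * N ^ 2) :=
        mul_le_mul (mul_le_mul_of_nonneg_left h6 (by positivity)) hZ hZ0 (by positivity)
    _ = 36 * (N * ρ) * ρ := by field_simp; ring
    _ ≤ _ := mul_le_of_le_one_right (by positivity) hρ1

/-- With `η = ρ - ρ'` and `Adm.bb_step`:
`VV S' K' ρ' ≤ ∑_{c ∈ S} (δ̃_c + η + dB c)² ≤ VV + 2 η x + 2 ∑ δ̃ dB + 2 N η² + 2 ∑ dB²`, `x = p₂ - N ρ`.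
`2 ∑ δ̃ dB` gives `4 (x - μ N)(VV + ρ x)` (`V_lin1–3`; `V1`, `V2`), and `-4 μ ρ N x` cancels against
`2 η x Z` up to `ρ X (4 κ + 32)` (`Wt.Z`, `V3`); `N η² Z ≤ 200 ρ N` (`V22`). -/
theorem Ctx.driftV (h : Ctx S w K s p) {E ρ' : ℝ} (hE : 0 ≤ E) (hc : CondV p E)
    (hρ : |p.ρ - ρ' - 2 * p.ρ * p.μ / p.N| ≤ 8 * p.ρ / p.N ^ 2) :
    Ew w (fun a b => VV ((S.erase a).erase b) (step K s a b) ρ') ≤
      (Ew w (fun _ _ => 1) - 4 * p.μ * p.N + 2000 * p.W) * VV S K p.ρ + 10 ^ 9 * (p.N * E) := by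
  have hB := h.bnd
  have hsy := hB.symm
  have nn := hB.nn
  have hN := h.gl.N100
  have hN0 := h.gl.N0
  have hNE : 0 ≤ p.N * E := mul_nonneg nn.N hE
  set η := p.ρ - ρ' with hη
  set x := pk K 2 - p.N * p.ρ with hx
  set Z := Ew w (fun _ _ => 1) with hZ
  set v := VV S K p.ρ with hv
  have hv0 : 0 ≤ v := VV_nonneg _ _ _
  have h1 : Ew w (fun a b => VV ((S.erase a).erase b) (step K s a b) ρ') ≤
      Ew w (fun a b => (v + 2 * η * x + 2 * p.N * η ^ 2) +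
        (2 * ∑ c ∈ S, (bb K c - p.ρ) * dB K s a b c + 2 * ∑ c ∈ S, dB K s a b c ^ 2)) := by
    refine h.wt.mono fun a b hab => ?_
    have e1 : VV ((S.erase a).erase b) (step K s a b) ρ' =
        ∑ c ∈ (S.erase a).erase b, (bb K c - p.ρ + η + dB K s a b c) ^ 2 := by
      refine sum_congr rfl fun c hc => ?_
      rw [(h.adm hab).bb_step c (ne_of_mem_erase (mem_of_mem_erase hc)) (ne_of_mem_erase hc), hη, dB]
      ring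
    rw [e1]
    refine (sum_le_sum_of_subset_of_nonneg ((erase_subset _ _).trans (erase_subset _ _))
      fun c _ _ => sq_nonneg _).trans ?_
    calc ∑ c ∈ S, (bb K c - p.ρ + η + dB K s a b c) ^ 2
        ≤ ∑ c ∈ S, ((bb K c - p.ρ) ^ 2 + 2 * η * (bb K c - p.ρ) + 2 * η ^ 2 +
          (2 * ((bb K c - p.ρ) * dB K s a b c) + 2 * dB K s a b c ^ 2)) :=
          sum_le_sum fun c _ => by nlinarith [sq_nonneg (η - dB K s a b c)]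
      _ = _ := by
          simp only [sum_add_distrib, ← mul_sum, sum_const, nsmul_eq_mul, hB.card, hB.sum_dt]
          rw [hv, VV]; ring
  rw [Ew_add, Ew_const, Ew_add, Ew_mul, Ew_mul, ← hZ] at h1
  have h2 := h.V_quad hE hc
  have h3 : Ew w (fun a b => ∑ c ∈ S, (bb K c - p.ρ) * dB K s a b c) ≤
      2 * ((pk K 2 - p.N) * (v + p.ρ * x)) + 1000 * (p.N * E) := by
    set F1 : ι → ι → ℝ := fun a b => ∑ c ∈ S, (bb K c - p.ρ) * ((K ^ 2) c a * l1 K s a b c) with hF1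
    set F2 : ι → ι → ℝ := fun a b => ∑ c ∈ S, (bb K c - p.ρ) * ((bb K a - 1) * l1 K s a b c ^ 2)
      with hF2
    set F3 : ι → ι → ℝ := fun a b =>
      ∑ c ∈ S, (bb K c - p.ρ) * ((K ^ 2) a b * l1 K s a b c * l2 K s a b c) with hF3
    have e : (fun a b => ∑ c ∈ S, (bb K c - p.ρ) * dB K s a b c) =
        fun a b => (2 * F1 a b + 2 * F1 b a) + (F2 a b + F2 b a) + 2 * F3 a b := by
      funext a b
      simp only [hF1, hF2, hF3, mul_sum, ← sum_add_distrib, ← l2_eq_l1 hsy s a b]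
      refine sum_congr rfl fun c _ => ?_
      rw [dB]; ring
    have k1 := abs_le.1 (h.V_lin1 hE hc)
    have k2 := abs_le.1 (h.V_lin2 hE hc)
    have k3 := abs_le.1 (h.V_lin3 hE hc)
    rw [e, Ew_add, Ew_add, Ew_add, Ew_add, Ew_mul, Ew_mul, Ew_mul, h.wt.swap F1, h.wt.swap F2]
    linarith [k1.2, k2.2, k3.2]
  have hXa : |x| ≤ p.X := hB.X
  have hZ0 : 0 ≤ Z := h.wt.Ew_nonneg fun _ _ _ => zero_le_one
  have hZ1 : |Z - p.N ^ 2| ≤ p.κ * p.N := by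
    have := h.wt.Z
    rwa [hB.card] at this
  have t1 : x * v ≤ p.N * E := by
    refine le_trans ?_ hc.V2
    rw [mul_comm]
    exact (mul_le_mul_of_nonneg_left ((le_abs_self x).trans hXa) hv0).trans
      (mul_le_mul_of_nonneg_right hB.V nn.X)
  have t2 : p.ρ * x ^ 2 ≤ p.N * E :=
    (mul_le_mul_of_nonneg_left (sq_le_sq' (abs_le.1 hXa).1 (abs_le.1 hXa).2) hB.ρ0).trans hc.V1
  have t3 := dv_cancel hN0 hB.ρ0 nn.μ0 nn.μ1 h.wt.κ0 hXa hZ0 h.Z_le hZ1 hρ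
  have t4 := dv_eta hN hB.ρ0 hB.ρ1 nn.μ0 nn.μ1 hZ0 h.Z_le hρ
  have t5 := mul_le_mul_of_nonneg_left hc.V22 nn.N
  have t6 := hc.V3
  have e : pk K 2 - p.N = x - p.μ * p.N := by rw [hx, Par.μ]; ring
  rw [e] at h3
  nlinarith

end Crest.Agent.R62
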