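import Crest.Agent.R62.Mom

/-!
# Row 62: drift of `VV`, the terms linear in the increment

Notation: `p = K c a`, `q = K c b`, `p₂ = (K²) c a`, `q₂ = (K²) c b`, `ℓ₁ = j β p + g q`, `ℓ₂ = g p + j α q`,
`δ̃_c = b_c - ρ`, `f(a) = ∑_c δ̃_c K c a ²`, `D = diagonal δ̃` (on `S`).  By symmetry of `w` (`Wt.swap`; note
`l2 K s a b = l1 K s b a` for symmetric `K`) the `ℓ₂` terms equal the `ℓ₁` terms.
Useful: `∑_a f(a)² ≤ V W` (`f(a)² ≤ V ∑_c K c a ⁴`), `∑_a |f(a)| ≤ ∑ |δ̃_c| b_c ≤ √(V Db)`,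
`fro (K D K) ≤ (∑ |δ̃_c| b_c)² ≤ V Db`, `fro (K² D K) ≤ (∑ |δ̃_c| √(α₄(c) b_c))² ≤ V a3`
(expand `fro (X D Y) = ∑_{c,d} δ̃_c δ̃_d (XᵀX)_{cd} (Y Yᵀ)_{cd}` and use Cauchy–Schwarz on the Gram entries).
-/

set_option autoImplicit false
set_option linter.unusedSectionVars false

open Finset Matrix

noncomputable section

namespace Crest.Agent.R62

variable {ι : Type} [Fintype ι] [DecidableEq ι]

/-- the increment of the row norm `b_c` -/
def dB (K : Mat ι) (s : ℝ) (a b c : ι) : ℝ :=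
  2 * ((K ^ 2) c a * l1 K s a b c + (K ^ 2) c b * l2 K s a b c) +
    ((bb K a - 1) * l1 K s a b c ^ 2 + (bb K b - 1) * l2 K s a b c ^ 2) +
    2 * (K ^ 2) a b * l1 K s a b c * l2 K s a b c

variable {S : Finset ι} {w : ι → ι → ℝ} {K : Mat ι} {s : ℝ} {p : Par}

theorem l2_eq_l1 (h : ∀ c d, K c d = K d c) (s : ℝ) (a b c : ι) : l2 K s a b c = l1 K s b a c := by
  unfold l1 l2 gg jj h0
  rw [h b a, mul_comm (K b b) (K a a)]
  ring

theorem v1_cs {κ : Type} (T : Finset κ) (f g : κ → ℝ) :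
    |∑ c ∈ T, f c * g c| ≤ √(∑ c ∈ T, f c ^ 2) * √(∑ c ∈ T, g c ^ 2) := by
  rw [← Real.sqrt_mul (sum_nonneg fun _ _ => sq_nonneg _)]
  exact Real.abs_le_sqrt (sum_mul_sq_le_sq_mul_sq T f g)

theorem v1_cs_sq {κ : Type} (T : Finset κ) (f g : κ → ℝ) {A B : ℝ} (hA : ∑ c ∈ T, f c ^ 2 ≤ A)
    (hB : ∑ c ∈ T, g c ^ 2 ≤ B) : (∑ c ∈ T, |f c| * g c) ^ 2 ≤ A * B := by
  refine (sum_mul_sq_le_sq_mul_sq T _ _).trans ?_
  simp only [sq_abs]
  exact mul_le_mul hA hB (sum_nonneg fun _ _ => sq_nonneg _)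
    ((sum_nonneg fun _ _ => sq_nonneg _).trans hA)

theorem v1_le_of_sq {x c A y : ℝ} (hx : x ^ 2 ≤ A) (h : c ^ 2 * A ≤ y ^ 2) (hy : 0 ≤ y) :
    c * x ≤ y := by
  refine (le_abs_self _).trans (abs_le_of_sq_le_sq' ?_ hy |> fun h => abs_le.2 h)
  rw [mul_pow]
  exact (mul_le_mul_of_nonneg_left hx (sq_nonneg c)).trans h

/-- the Gram bound used for `fro (K D K)`, `fro (K² D K)` -/
theorem fro_diag_le (X Y : Mat ι) (u : ι → ℝ) : fro (X * Matrix.diagonal u * Y) ≤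
    (∑ c, |u c| * (√(∑ a, X a c ^ 2) * √(∑ b, Y c b ^ 2))) ^ 2 := by
  have e : fro (X * Matrix.diagonal u * Y) =
      ∑ c, ∑ d, u c * u d * ((∑ a, X a c * X a d) * ∑ b, Y c b * Y d b) := by
    unfold fro
    have e1 : ∀ a b, (X * Matrix.diagonal u * Y) a b ^ 2 =
        ∑ c, ∑ d, u c * u d * ((X a c * X a d) * (Y c b * Y d b)) := by
      intro a b
      rw [Matrix.mul_apply, sq, sum_mul_sum]
      refine sum_congr rfl fun c _ => sum_congr rfl fun d _ => ?_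
      rw [Matrix.mul_diagonal, Matrix.mul_diagonal]; ring
    simp only [e1]
    calc ∑ a, ∑ b, ∑ c, ∑ d, u c * u d * ((X a c * X a d) * (Y c b * Y d b))
        = ∑ a, ∑ c, ∑ d, ∑ b, u c * u d * ((X a c * X a d) * (Y c b * Y d b)) := by
          refine sum_congr rfl fun a _ => ?_
          rw [sum_comm]
          exact sum_congr rfl fun c _ => sum_comm
      _ = ∑ c, ∑ d, ∑ a, ∑ b, u c * u d * ((X a c * X a d) * (Y c b * Y d b)) := by
          rw [sum_comm]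
          exact sum_congr rfl fun c _ => sum_comm
      _ = _ := by
          refine sum_congr rfl fun c _ => sum_congr rfl fun d _ => ?_
          rw [sum_mul_sum, mul_sum]
          exact sum_congr rfl fun a _ => (mul_sum _ _ _).symm
  rw [e, sq, sum_mul_sum]
  refine sum_le_sum fun c _ => sum_le_sum fun d _ => (le_abs_self _).trans ?_
  rw [abs_mul, abs_mul, abs_mul]
  have h1 := v1_cs univ (fun a => X a c) (fun a => X a d)
  have h2 := v1_cs univ (fun b => Y c b) (fun b => Y d b)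
  calc |u c| * |u d| * (|∑ a, X a c * X a d| * |∑ b, Y c b * Y d b|)
      ≤ |u c| * |u d| * ((√(∑ a, X a c ^ 2) * √(∑ a, X a d ^ 2)) *
        (√(∑ b, Y c b ^ 2) * √(∑ b, Y d b ^ 2))) := by gcongr
    _ = _ := by ring

/-- `Xᵀ D Y` with `D = diagonal δ̃` on `S` -/
def v1M (S : Finset ι) (K : Mat ι) (ρ : ℝ) (X Y : Mat ι) : Mat ι :=
  Matrix.of fun a b => ∑ c ∈ S, (bb K c - ρ) * (X c a * Y c b)

theorem v1M_apply (S : Finset ι) (K : Mat ι) (ρ : ℝ) (X Y : Mat ι) (a b : ι) :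
    v1M S K ρ X Y a b = ∑ c ∈ S, (bb K c - ρ) * (X c a * Y c b) := rfl

theorem v1M_fro (S : Finset ι) (K : Mat ι) (ρ : ℝ) (X Y : Mat ι) : fro (v1M S K ρ X Y) ≤
    (∑ c ∈ S, |bb K c - ρ| * (√(∑ a, X c a ^ 2) * √(∑ b, Y c b ^ 2))) ^ 2 := by
  have e : v1M S K ρ X Y = Xᵀ * Matrix.diagonal (fun c => if c ∈ S then bb K c - ρ else 0) * Y := by
    ext a b
    rw [v1M_apply, Matrix.mul_apply]
    simp only [Matrix.mul_diagonal, Matrix.transpose_apply]
    rw [← sum_subset (subset_univ S) (fun c _ hc => by simp [hc])]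
    exact sum_congr rfl fun c hc => by rw [if_pos hc]; ring
  rw [e]
  refine (fro_diag_le _ _ _).trans (le_of_eq ?_)
  congr 1
  rw [← sum_subset (subset_univ S) (fun c _ hc => by simp [hc])]
  exact sum_congr rfl fun c hc => by rw [if_pos hc]; rfl

theorem v1_sub (S : Finset ι) {f : ι → ℝ} (hf : ∀ a, 0 ≤ f a) : ∑ a ∈ S, f a ≤ ∑ a, f a :=
  sum_le_sum_of_subset_of_nonneg (subset_univ S) fun a _ _ => hf a

theorem Bnd.v1_a4 (h : Bnd S K s p) (c : ι) : ∑ a, (K ^ 2) c a ^ 2 = (K ^ 4) c c :=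
  sum_pow_sq h.symm 2 c

theorem Bnd.v1_sum21 (h : Bnd S K s p) :
    (∑ c ∈ S, |bb K c - p.ρ| * (√(∑ a, (K ^ 2) c a ^ 2) * √(∑ b, K c b ^ 2))) ^ 2 ≤
      p.V * p.a3 := by
  refine v1_cs_sq S _ _ h.V ((v1_sub S fun _ => sq_nonneg _).trans (le_trans (le_of_eq ?_) h.sum_b_a4))
  refine sum_congr rfl fun c _ => ?_
  rw [mul_pow, Real.sq_sqrt (sum_nonneg fun _ _ => sq_nonneg _),
    Real.sq_sqrt (sum_nonneg fun _ _ => sq_nonneg _), h.v1_a4, ← bb_eq h.symm, mul_comm]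

theorem Bnd.v1_sum11 (h : Bnd S K s p) : (∑ c ∈ S, |bb K c - p.ρ| * bb K c) ^ 2 ≤ p.V * p.Db :=
  v1_cs_sq S _ _ h.V ((v1_sub S fun _ => sq_nonneg _).trans h.sum_bb_sq)

theorem Bnd.v1_fro21 (h : Bnd S K s p) : fro (v1M S K p.ρ (K ^ 2) K) ≤ p.V * p.a3 :=
  (v1M_fro _ _ _ _ _).trans h.v1_sum21

theorem Bnd.v1_fro11 (h : Bnd S K s p) : fro (v1M S K p.ρ K K) ≤ p.V * p.Db := by
  refine (v1M_fro _ _ _ _ _).trans (le_trans (le_of_eq ?_) h.v1_sum11)
  congr 1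
  refine sum_congr rfl fun c _ => ?_
  rw [Real.mul_self_sqrt (sum_nonneg fun _ _ => sq_nonneg _), ← bb_eq h.symm]

theorem Bnd.v1_diag_sq (h : Bnd S K s p) (X Y : Mat ι) {B : ℝ}
    (hB : ∑ c, ∑ a, (X c a * Y c a) ^ 2 ≤ B) : ∑ a ∈ S, v1M S K p.ρ X Y a a ^ 2 ≤ p.V * B := by
  have h1 : ∀ a, v1M S K p.ρ X Y a a ^ 2 ≤ p.V * ∑ c, (X c a * Y c a) ^ 2 := fun a =>
    (sum_mul_sq_le_sq_mul_sq S _ _).trans (mul_le_mul h.V (v1_sub S fun _ => sq_nonneg _)
      (sum_nonneg fun _ _ => sq_nonneg _) h.nn.V)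
  refine (v1_sub S fun _ => sq_nonneg _).trans ((sum_le_sum fun a _ => h1 a).trans ?_)
  rw [← mul_sum, sum_comm]
  exact mul_le_mul_of_nonneg_left hB h.nn.V

theorem Bnd.v1_F_sq (h : Bnd S K s p) (hg : Glob p) :
    ∑ a ∈ S, v1M S K p.ρ (K ^ 2) K a a ^ 2 ≤ p.V * p.Om := by
  refine h.v1_diag_sq _ _ (le_trans (sum_le_sum fun c _ => sum_le_sum fun a _ => ?_) (h.sum_om hg))
  have := pow_add_sq_le h.symm 1 1 c a
  rw [mul_pow, mul_comm]
  exact mul_le_mul_of_nonneg_left this (sq_nonneg _)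

theorem Bnd.v1_f_sq (h : Bnd S K s p) : ∑ a ∈ S, v1M S K p.ρ K K a a ^ 2 ≤ p.V * p.W := by
  refine h.v1_diag_sq _ _ (le_trans (le_of_eq ?_) h.W)
  exact sum_congr rfl fun c _ => sum_congr rfl fun a _ => by ring

theorem Bnd.v1_sum_S (h : Bnd S K s p) (X : Mat ι) (c : ι) :
    ∑ a ∈ S, X c a * K c a = ∑ a, X c a * K c a :=
  sum_subset (subset_univ S) fun a _ ha => by rw [h.toSide.supp' c a ha, mul_zero]

theorem Bnd.v1_F_sum (h : Bnd S K s p) :
    (∑ a ∈ S, v1M S K p.ρ (K ^ 2) K a a) ^ 2 ≤ p.V * p.a3 := by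
  have e : ∑ a ∈ S, v1M S K p.ρ (K ^ 2) K a a = ∑ c ∈ S, (bb K c - p.ρ) * (K ^ 3) c c := by
    simp only [v1M_apply]
    rw [sum_comm]
    refine sum_congr rfl fun c _ => ?_
    rw [← mul_sum, h.v1_sum_S, pow_succ K 2, Matrix.mul_apply]
    congr 1
    exact sum_congr rfl fun a _ => by rw [h.symm a c]
  rw [e]
  exact (sum_mul_sq_le_sq_mul_sq S _ _).trans (mul_le_mul h.V
    ((v1_sub S fun _ => sq_nonneg _).trans h.sum_a3_sq) (sum_nonneg fun _ _ => sq_nonneg _) h.nn.V)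

theorem Bnd.v1_bbS (h : Bnd S K s p) (c : ι) : ∑ a ∈ S, K c a * K c a = bb K c := by
  rw [h.v1_sum_S, bb_eq h.symm]
  exact sum_congr rfl fun a _ => (sq _).symm

theorem Bnd.v1_f_sum (h : Bnd S K s p) :
    ∑ a ∈ S, v1M S K p.ρ K K a a = VV S K p.ρ + p.ρ * (pk K 2 - p.N * p.ρ) := by
  simp only [v1M_apply]
  rw [sum_comm, ← h.sum_dt, VV, mul_sum, ← sum_add_distrib]
  refine sum_congr rfl fun c _ => ?_
  rw [← mul_sum, h.v1_bbS]; ring

theorem Bnd.v1_f_abs (h : Bnd S K s p) : (∑ a ∈ S, |v1M S K p.ρ K K a a|) ^ 2 ≤ p.V * p.Db := by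
  refine le_trans (pow_le_pow_left₀ (sum_nonneg fun _ _ => abs_nonneg _) ?_ 2) h.v1_sum11
  calc ∑ a ∈ S, |v1M S K p.ρ K K a a| ≤ ∑ a ∈ S, ∑ c ∈ S, |bb K c - p.ρ| * (K c a * K c a) := by
        refine sum_le_sum fun a _ => (abs_sum_le_sum_abs _ _).trans (le_of_eq ?_)
        exact sum_congr rfl fun c _ => by rw [abs_mul, abs_mul_self]
    _ = _ := by
        rw [sum_comm]
        exact sum_congr rfl fun c _ => by rw [← mul_sum, h.v1_bbS]

theorem Bnd.v1_diagS (h : Bnd S K s p) : ∑ a ∈ S, K a a ^ 2 ≤ p.δ :=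
  (v1_sub S fun _ => sq_nonneg _).trans h.sum_diag_sq

theorem v1_sqrt_sq_le {A B : ℝ} (hB : 0 ≤ B) (h : A ≤ B) : √A ^ 2 ≤ B := by
  rcases le_total 0 A with hA | hA
  · rwa [Real.sq_sqrt hA]
  · rw [Real.sqrt_eq_zero'.2 hA]; simpa using hB

theorem v1_mul_sq_le {x y A B : ℝ} (hx : x ^ 2 ≤ A) (hy : y ^ 2 ≤ B) : (x * y) ^ 2 ≤ A * B := by
  rw [mul_pow]
  exact mul_le_mul hx hy (sq_nonneg _) ((sq_nonneg _).trans hx)

theorem Wt.v1_prod (hw : Wt S w p) {f h : ι → ℝ} {A B : ℝ} (hA : ∑ a ∈ S, f a ^ 2 ≤ A)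
    (hB : ∑ a ∈ S, h a ^ 2 ≤ B) : Ew w (fun a b => (f a * h b) ^ 2) ≤ 2 * (A * B) :=
  (hw.sq_prod f h).trans (mul_le_mul_of_nonneg_left (mul_le_mul hA hB
    (sum_nonneg fun _ _ => sq_nonneg _) ((sum_nonneg fun _ _ => sq_nonneg _).trans hA)) zero_le_two)

theorem Wt.v1_mat (hw : Wt S w p) {X : Mat ι} {A : ℝ} (hA : fro X ≤ A) :
    Ew w (fun a b => X a b ^ 2) ≤ 2 * A :=
  (hw.sq_mat X).trans (by linarith)

theorem Ctx.v1_A (h : Ctx S w K s p) {E : ℝ} (hE : 0 ≤ E) (hc : CondV p E) :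
    |Ew w (fun a b => v1M S K p.ρ (K ^ 2) K a b)| ≤ 2 * (p.N * E) := by
  have hy : 0 ≤ p.N * E := mul_nonneg h.gl.N0.le hE
  have hb := h.bnd
  have e : Ew w (fun a b => v1M S K p.ρ (K ^ 2) K a b) =
      ∑ c ∈ S, (bb K c - p.ρ) * Ew w (fun a b => (K ^ 2) c a * K c b) := by
    simp only [v1M_apply]
    rw [Ew_sum w S fun c a b => (bb K c - p.ρ) * ((K ^ 2) c a * K c b)]
    exact sum_congr rfl fun c _ => Ew_mul w _ _
  have h1 : ∀ c ∈ S, |Ew w (fun a b => (K ^ 2) c a * K c b) - s| ≤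
      p.κ * (√(∑ a, (K ^ 2) c a ^ 2) * √(∑ b, K c b ^ 2)) := by
    intro c hc
    have := h.wt.sep (fun a => (K ^ 2) c a) (fun b => K c b)
    rw [hb.toSide.pow_row 2 c hc, hb.toSide.row' c hc, hb.toSide.sq, one_mul, mul_assoc] at this
    refine this.trans (mul_le_mul_of_nonneg_left ?_ h.wt.κ0)
    exact mul_le_mul (Real.sqrt_le_sqrt (v1_sub S fun _ => sq_nonneg _))
      (Real.sqrt_le_sqrt (v1_sub S fun _ => sq_nonneg _)) (Real.sqrt_nonneg _) (Real.sqrt_nonneg _)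
  have e2 : ∑ c ∈ S, (bb K c - p.ρ) * Ew w (fun a b => (K ^ 2) c a * K c b) =
      ∑ c ∈ S, (bb K c - p.ρ) * (Ew w (fun a b => (K ^ 2) c a * K c b) - s) +
        s * (pk K 2 - p.N * p.ρ) := by
    rw [← hb.sum_dt, mul_sum, ← sum_add_distrib]
    exact sum_congr rfl fun c _ => by ring
  rw [e, e2]
  refine (abs_add_le _ _).trans ?_
  have h2 : |s * (pk K 2 - p.N * p.ρ)| ≤ p.N * E := by
    rw [abs_mul, hb.toSide.abs, one_mul]; exact hb.X.trans hc.V5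
  have h3 : |∑ c ∈ S, (bb K c - p.ρ) * (Ew w (fun a b => (K ^ 2) c a * K c b) - s)| ≤ p.N * E := by
    refine (abs_sum_le_sum_abs _ _).trans (le_trans ?_
      (v1_le_of_sq (c := p.κ) hb.v1_sum21 (by have := hc.V6; linarith) hy))
    rw [mul_sum]
    refine sum_le_sum fun c hcS => ?_
    rw [abs_mul, mul_left_comm]
    exact mul_le_mul_of_nonneg_left (h1 c hcS) (abs_nonneg _)
  linarith

theorem Ctx.v1_C (h : Ctx S w K s p) {E : ℝ} (hE : 0 ≤ E) (hc : CondV p E) :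
    |Ew w (fun a b => v1M S K p.ρ (K ^ 2) K a a * K b b)| ≤ 2 * (p.N * E) := by
  have hy : 0 ≤ p.N * E := mul_nonneg h.gl.N0.le hE
  have hb := h.bnd
  have h1 := h.wt.sep (fun a => v1M S K p.ρ (K ^ 2) K a a) (fun b => K b b)
  have hV := hb.nn.V
  have h2 : p.κ * √(∑ a ∈ S, v1M S K p.ρ (K ^ 2) K a a ^ 2) * √(∑ b ∈ S, K b b ^ 2) ≤ p.N * E := by
    rw [mul_assoc]
    exact v1_le_of_sq (v1_mul_sq_le
      (v1_sqrt_sq_le (mul_nonneg hV (hb.om_nonneg h.gl)) (hb.v1_F_sq h.gl))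
      (v1_sqrt_sq_le hb.nn.δ hb.v1_diagS)) (by have := hc.V8; linarith) hy
  have h3 : |(∑ a ∈ S, v1M S K p.ρ (K ^ 2) K a a) * ∑ b ∈ S, K b b| ≤ p.N * E := by
    have e : ∑ b ∈ S, K b b = pk K 1 := by simpa using hb.toSide.sum_diag 0
    rw [e, abs_mul, mul_comm]
    refine (mul_le_mul_of_nonneg_right hb.F (abs_nonneg _)).trans
      (v1_le_of_sq (A := p.V * p.a3) (by rw [sq_abs]; exact hb.v1_F_sum)
        (by have := hc.V7; linarith) hy)
  have := abs_sub_abs_le_abs_sub (Ew w (fun a b => v1M S K p.ρ (K ^ 2) K a a * K b b))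
    ((∑ a ∈ S, v1M S K p.ρ (K ^ 2) K a a) * ∑ b ∈ S, K b b)
  linarith

/-- `p₂ ℓ₁ = s p₂ q + (g - s) p₂ q + β p₂ p + (j - 1) β p₂ p`.
* `s p₂ q`: `Wt.op` for each `c` (`∑_{a,b} p₂ q = s`; error `κ √(α₄(c) b_c)`), `V5`, `V6`;
* `(g-s) p₂ q`: `5 ϑ |(K² D K) a b|`, `V10`;
* `β F(a)`, `F(a) = ∑_c δ̃_c p₂ p`: `Wt.sep`, `|∑ F| = |∑ δ̃_c α₃(c)| ≤ √(V a3)` (`V7`),
  `∑ F² ≤ V ∑ K c a ² b_c b_a ≤ V Om` (`V8`); `(j-1) β F(a)`: `V9`. -/
theorem Ctx.V_lin1 (h : Ctx S w K s p) {E : ℝ} (hE : 0 ≤ E) (hc : CondV p E) :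
    |Ew w (fun a b => ∑ c ∈ S, (bb K c - p.ρ) * ((K ^ 2) c a * l1 K s a b c))| ≤
      100 * (p.N * E) := by
  have hy : 0 ≤ p.N * E := mul_nonneg h.gl.N0.le hE
  have hb := h.bnd
  set M := v1M S K p.ρ (K ^ 2) K with hM
  have e : (fun a b => ∑ c ∈ S, (bb K c - p.ρ) * ((K ^ 2) c a * l1 K s a b c)) =
      fun a b => (s * M a b + M a a * K b b) +
        ((gg K s a b - s) * M a b + (jj K s a b - 1) * (M a a * K b b)) := by
    funext a b
    simp only [hM, v1M_apply, l1, mul_sum, sum_mul, ← sum_add_distrib]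
    exact sum_congr rfl fun c _ => by ring
  rw [e, Ew_add, Ew_add, Ew_mul]
  have hA := h.v1_A hE hc
  have hC := h.v1_C hE hc
  have hth := Ew_th_sq hb h.wt
  have hB := h.wt.cs_le (fun a b => th K a b) (fun a b => M a b) hth (h.wt.v1_mat hb.v1_fro21)
    (y := 3 * (p.N * E)) (by have := hc.V10; nlinarith [sq_nonneg (p.N * E)]) (by linarith)
  have hD := h.wt.cs_le (fun a b => th K a b) (fun a b => M a a * K b b) hth
    (h.wt.v1_prod (hb.v1_F_sq h.gl) hb.v1_diagS)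
    (y := 3 * (p.N * E)) (by have := hc.V9; nlinarith [sq_nonneg (p.N * E)]) (by linarith)
  have hR : |Ew w fun a b => (gg K s a b - s) * M a b + (jj K s a b - 1) * (M a a * K b b)| ≤
      Ew w fun a b => 5 * |th K a b * M a b| + 3 * |th K a b * (M a a * K b b)| := by
    refine h.wt.abs_le_abs fun a b hab => (abs_add_le _ _).trans ?_
    have hs := h.scal hab
    rw [abs_mul, abs_mul (jj K s a b - 1), abs_mul (th K a b), abs_mul (th K a b),
      abs_of_nonneg hs.th0, ← mul_assoc, ← mul_assoc 3]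
    exact add_le_add (mul_le_mul_of_nonneg_right hs.g1 (abs_nonneg _))
      (mul_le_mul_of_nonneg_right hs.j1 (abs_nonneg _))
  conv at hR => rhs; rw [Ew_add, Ew_mul, Ew_mul]
  have h1 : |s * Ew w fun a b => M a b| ≤ 2 * (p.N * E) := by
    rw [abs_mul, hb.toSide.abs, one_mul]; exact hA
  refine (abs_add_le _ _).trans ((add_le_add (abs_add_le _ _) hR).trans ?_)
  linarith

/-- `ℓ₁² = q² + (g² - 1) q² + 2 j β g p q + j² β² p²`.
* `δ_a f(b)`: `Wt.sep1` (after `Wt.swap`; `V4`), main term `(p₂ - N) ∑_c δ̃_c b_c`, `∑_c δ̃_c b_c = VV + ρ x`;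
* `(g²-1) δ_a f(b)` with `|δ_a| ≤ |δ̃_a| + μ`: `ϑ ≤ 2 ε` and `V13`; `V14`;
* `β δ_a (K D K) a b`: `V12`; `β² δ_a f(a)`: `V11`. -/
theorem Ctx.V_lin2 (h : Ctx S w K s p) {E : ℝ} (hE : 0 ≤ E) (hc : CondV p E) :
    |Ew w (fun a b => ∑ c ∈ S, (bb K c - p.ρ) * ((bb K a - 1) * l1 K s a b c ^ 2)) -
      (pk K 2 - p.N) * (VV S K p.ρ + p.ρ * (pk K 2 - p.N * p.ρ))| ≤ 200 * (p.N * E) := by
  have hy : 0 ≤ p.N * E := mul_nonneg h.gl.N0.le hE
  have hb := h.bnd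
  have hn := hb.nn
  set M := v1M S K p.ρ K K with hM
  have e : (fun a b => ∑ c ∈ S, (bb K c - p.ρ) * ((bb K a - 1) * l1 K s a b c ^ 2)) =
      fun a b => (bb K a - 1) * M b b + ((gg K s a b ^ 2 - 1) * ((bb K a - 1) * M b b) +
        2 * (jj K s a b * gg K s a b) * ((bb K a - 1) * K b b * M a b) +
        jj K s a b ^ 2 * ((bb K a - 1) * M a a * K b b ^ 2)) := by
    funext a b
    simp only [hM, v1M_apply, l1, mul_sum, sum_mul, ← sum_add_distrib]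
    exact sum_congr rfl fun c _ => by ring
  rw [e, Ew_add]
  have hA : |Ew w (fun a b => (bb K a - 1) * M b b) -
      (pk K 2 - p.N) * (VV S K p.ρ + p.ρ * (pk K 2 - p.N * p.ρ))| ≤ p.N * E := by
    have h1 := h.wt.sep1 (fun a => M a a) (fun b => bb K b - 1)
    have e1 : ∑ b ∈ S, (bb K b - 1) = pk K 2 - p.N := by
      rw [sum_sub_distrib, hb.toSide.sum_bb, ← hb.card]; simp
    have e2 : Ew w (fun a b => (bb K a - 1) * M b b) = Ew w (fun a b => M a a * (bb K b - 1)) := by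
      rw [← h.wt.swap]; simp only [mul_comm]
    rw [hb.v1_f_sum, e1, mul_comm, mul_assoc] at h1
    rw [e2]
    exact h1.trans (v1_le_of_sq (v1_mul_sq_le hb.v1_f_abs (v1_sqrt_sq_le hn.Dm hb.sum_dm))
      (by have := hc.V4; linarith) hy)
  have hth := Ew_th_sq hb h.wt
  -- `ε |δ̃_a| |f b|`
  have hB1 : p.ε * Ew w (fun a b => |bb K a - p.ρ| * |M b b|) ≤ 2 * (p.N * E) := by
    have h1 := h.wt.abs_le_prod (F := fun a b => |bb K a - p.ρ| * |M b b|)
      (f := fun a => |bb K a - p.ρ|) (h := fun b => |M b b|) (fun _ => abs_nonneg _)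
      (fun _ => abs_nonneg _) (fun a b _ => by rw [abs_mul, abs_abs, abs_abs])
    have h2 : (∑ a ∈ S, |bb K a - p.ρ|) ^ 2 ≤ p.V * p.N := by
      have := v1_cs_sq S (fun a => bb K a - p.ρ) (fun _ => 1) hb.V (B := p.N)
        (by rw [← hb.card]; simp)
      simpa using this
    have h3 := v1_le_of_sq (c := p.ε) (v1_mul_sq_le h2 hb.v1_f_abs)
      (by have := hc.V13; linarith) hy
    have := mul_le_mul_of_nonneg_left ((le_abs_self _).trans h1) h.gl.ε0.le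
    linarith
  have hB2 := h.wt.cs_le (fun a b => th K a b) (fun _ b => p.μ * M b b) hth
    (h.wt.v1_prod (f := fun _ => p.μ) (A := p.N * p.μ ^ 2) (by rw [← hb.card]; simp) hb.v1_f_sq)
    (y := 3 * (p.N * E)) (by have := hc.V14; nlinarith [sq_nonneg (p.N * E)]) (by linarith)
  have hC := h.wt.cs_le (fun a b => (bb K a - 1) * K b b) (fun a b => M a b)
    (h.wt.v1_prod hb.sum_dm hb.v1_diagS) (h.wt.v1_mat hb.v1_fro11)
    (y := 2 * (p.N * E)) (by have := hc.V12; nlinarith [sq_nonneg (p.N * E)]) (by linarith)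
  have hD : Ew w (fun a b => |bb K a - 1| * |M a a| * K b b ^ 2) ≤ 2 * (p.N * E) := by
    have h1 := h.wt.abs_le_prod (F := fun a b => |bb K a - 1| * |M a a| * K b b ^ 2)
      (f := fun a => |bb K a - 1| * |M a a|) (h := fun b => K b b ^ 2) (fun _ => by positivity)
      (fun _ => sq_nonneg _) (fun a b _ => le_of_eq (abs_of_nonneg (by positivity)))
    have h2 := v1_cs_sq S (fun a => bb K a - 1) (fun a => |M a a|) hb.sum_dm (B := p.V * p.W)
      (by simp only [sq_abs]; exact hb.v1_f_sq)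
    have h3 := v1_le_of_sq (c := p.δ) h2 (by have := hc.V11; linarith) hy
    have h4 := mul_le_mul_of_nonneg_left hb.v1_diagS
      (sum_nonneg (s := S) (f := fun a => |bb K a - 1| * |M a a|) fun _ _ => by positivity)
    have := (le_abs_self _).trans h1
    linarith
  have hR : |Ew w fun a b => (gg K s a b ^ 2 - 1) * ((bb K a - 1) * M b b) +
        2 * (jj K s a b * gg K s a b) * ((bb K a - 1) * K b b * M a b) +
        jj K s a b ^ 2 * ((bb K a - 1) * M a a * K b b ^ 2)| ≤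
      Ew w fun a b => (22 * p.ε) * (|bb K a - p.ρ| * |M b b|) + 11 * |th K a b * (p.μ * M b b)| +
        3 * |(bb K a - 1) * K b b * M a b| + 2 * (|bb K a - 1| * |M a a| * K b b ^ 2) := by
    refine h.wt.abs_le_abs fun a b hab => (abs_add_three _ _ _).trans ?_
    have hs := h.scal hab
    have hj0 : 0 ≤ jj K s a b := by linarith [hs.jl]
    refine add_le_add (add_le_add ?_ ?_) ?_
    · have h1 : |bb K a - 1| ≤ |bb K a - p.ρ| + p.μ := by
        have : bb K a - 1 = (bb K a - p.ρ) - p.μ := by rw [Par.μ]; ring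
        rw [this]
        exact (abs_sub _ _).trans (by rw [abs_of_nonneg hn.μ0])
      rw [abs_mul, abs_mul, abs_mul, abs_mul, abs_of_nonneg hs.th0, abs_of_nonneg hn.μ0]
      have hm := abs_nonneg (M b b)
      have hd := abs_nonneg (bb K a - p.ρ)
      have ht := hs.th0
      calc |gg K s a b ^ 2 - 1| * (|bb K a - 1| * |M b b|)
          ≤ (11 * th K a b) * ((|bb K a - p.ρ| + p.μ) * |M b b|) := by
            have := hs.g2
            gcongr
        _ = 11 * th K a b * (|bb K a - p.ρ| * |M b b|) + 11 * (th K a b * (p.μ * |M b b|)) := by ring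
        _ ≤ 11 * (2 * p.ε) * (|bb K a - p.ρ| * |M b b|) + 11 * (th K a b * (p.μ * |M b b|)) := by
            have := hs.thε
            gcongr
        _ = _ := by ring
    · rw [abs_mul]
      refine mul_le_mul_of_nonneg_right ?_ (abs_nonneg _)
      rw [abs_mul, abs_mul, abs_of_nonneg hj0, abs_two]
      have := mul_le_mul hs.ju hs.gu' (abs_nonneg _) (by norm_num)
      linarith
    · rw [abs_mul, abs_mul, abs_mul, abs_of_nonneg (sq_nonneg (jj K s a b)),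
        abs_of_nonneg (sq_nonneg (K b b))]
      refine mul_le_mul_of_nonneg_right ?_ (by positivity)
      nlinarith [hs.ju]
  conv at hR => rhs; rw [Ew_add, Ew_add, Ew_add, Ew_mul, Ew_mul, Ew_mul, Ew_mul]
  rw [add_sub_right_comm]
  refine (abs_add_le _ _).trans ((add_le_add hA hR).trans ?_)
  linarith

/-- `ℓ₁ ℓ₂ = j β g p² + (j² α β + g²) p q + j α g q²`: `V15`, `V16` -/
theorem Ctx.V_lin3 (h : Ctx S w K s p) {E : ℝ} (hE : 0 ≤ E) (hc : CondV p E) :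
    |Ew w (fun a b => ∑ c ∈ S, (bb K c - p.ρ) * ((K ^ 2) a b * l1 K s a b c * l2 K s a b c))| ≤
      100 * (p.N * E) := by
  have hy : 0 ≤ p.N * E := mul_nonneg h.gl.N0.le hE
  have hb := h.bnd
  set M := v1M S K p.ρ K K with hM
  have e : (fun a b => ∑ c ∈ S, (bb K c - p.ρ) * ((K ^ 2) a b * l1 K s a b c * l2 K s a b c)) =
      fun a b => (jj K s a b * gg K s a b) * ((K ^ 2) a b * (M a a * K b b)) +
        (jj K s a b ^ 2 * (K a a * K b b) + gg K s a b ^ 2) * ((K ^ 2) a b * M a b) +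
        (jj K s a b * gg K s a b) * ((K ^ 2) a b * (K a a * M b b)) := by
    funext a b
    simp only [hM, v1M_apply, l1, l2, mul_sum, sum_mul, ← sum_add_distrib]
    exact sum_congr rfl fun c _ => by ring
  rw [e]
  have h2 := h.wt.v1_mat hb.fro_two
  have hA := h.wt.cs_le (fun a b => (K ^ 2) a b) (fun a b => M a a * K b b) h2
    (h.wt.v1_prod hb.v1_f_sq hb.v1_diagS)
    (y := 2 * (p.N * E)) (by have := hc.V15; nlinarith [sq_nonneg (p.N * E)]) (by linarith)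
  have hB := h.wt.cs_le (fun a b => (K ^ 2) a b) (fun a b => M a b) h2 (h.wt.v1_mat hb.v1_fro11)
    (y := 2 * (p.N * E)) (by have := hc.V16; nlinarith [sq_nonneg (p.N * E)]) (by linarith)
  have hC := h.wt.cs_le (fun a b => (K ^ 2) a b) (fun a b => K a a * M b b) h2
    (h.wt.v1_prod hb.v1_diagS hb.v1_f_sq)
    (y := 2 * (p.N * E)) (by have := hc.V15; nlinarith [sq_nonneg (p.N * E)]) (by linarith)
  refine (h.wt.abs_le_abs (g := fun a b => 2 * |(K ^ 2) a b * (M a a * K b b)| +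
    2 * |(K ^ 2) a b * M a b| + 2 * |(K ^ 2) a b * (K a a * M b b)|) fun a b hab => ?_).trans ?_
  · have hs := h.scal hab
    have hj0 : 0 ≤ jj K s a b := by linarith [hs.jl]
    have h1 : |jj K s a b * gg K s a b| ≤ 2 := by
      rw [abs_mul, abs_of_nonneg hj0]
      have := mul_le_mul hs.ju hs.gu' (abs_nonneg _) (by norm_num)
      linarith
    have h3 : |jj K s a b ^ 2 * (K a a * K b b) + gg K s a b ^ 2| ≤ 2 := by
      refine (abs_add_le _ _).trans ?_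
      rw [abs_mul, abs_of_nonneg (sq_nonneg (jj K s a b)), abs_pow]
      have a1 : jj K s a b ^ 2 ≤ 2 := by nlinarith [hs.ju]
      have a2 : |K a a * K b b| ≤ 1 / 100 := (h.wk.alw a b hab).ab.trans (by linarith [h.gl.H10])
      have a3 := mul_le_mul a1 a2 (abs_nonneg _) zero_le_two
      have a4 := pow_le_pow_left₀ (abs_nonneg _) hs.gu' 2
      linarith
    refine (abs_add_three _ _ _).trans ?_
    rw [abs_mul, abs_mul (_ + _), abs_mul (jj K s a b * gg K s a b)]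
    gcongr
  · rw [Ew_add, Ew_add, Ew_mul, Ew_mul, Ew_mul]
    linarith

end Crest.Agent.R62
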