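import Crest.Agent.R62.DriftW1

/-!
# Row 62: drift of `WW`
-/

set_option autoImplicit false
set_option linter.unusedSectionVars false

open Finset Matrix

noncomputable section

namespace Crest.Agent.R62

variable {ι : Type} [Fintype ι] [DecidableEq ι]
variable {S : Finset ι} {w : ι → ι → ℝ} {K : Mat ι} {s : ℝ} {p : Par}

private theorem W4_expand (P Q : ι → ℝ) :
    ∑ c, ∑ d, (P c * Q d + Q c * P d) ^ 4 =
      2 * ((∑ c, P c ^ 4) * ∑ c, Q c ^ 4) + (8 * ((∑ c, P c ^ 3 * Q c) * ∑ c, P c * Q c ^ 3) +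
        6 * (∑ c, P c ^ 2 * Q c ^ 2) ^ 2) := by
  have e : ∀ c d, (P c * Q d + Q c * P d) ^ 4 =
      P c ^ 4 * Q d ^ 4 + (4 * (P c ^ 3 * Q c)) * (P d * Q d ^ 3) +
        (6 * (P c ^ 2 * Q c ^ 2)) * (P d ^ 2 * Q d ^ 2) + (4 * (P c * Q c ^ 3)) * (P d ^ 3 * Q d) +
        Q c ^ 4 * P d ^ 4 := fun c d => by ring
  simp only [e, sum_add_distrib, ← mul_sum, ← sum_mul]
  ring

private theorem W4_cross (P Q : ι → ℝ) {y : ℝ} (hy : 0 ≤ y)
    (h : (∑ c, P c ^ 4) * ∑ c, Q c ^ 4 ≤ y ^ 2) :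
    (∑ c, P c ^ 2 * Q c ^ 2) ≤ y ∧
      8 * ((∑ c, P c ^ 3 * Q c) * ∑ c, P c * Q c ^ 3) + 6 * (∑ c, P c ^ 2 * Q c ^ 2) ^ 2 ≤
        14 * (y * ∑ c, P c ^ 2 * Q c ^ 2) := by
  have hm0 : 0 ≤ ∑ c, P c ^ 2 * Q c ^ 2 := sum_nonneg fun c _ => by positivity
  have hP0 : 0 ≤ ∑ c, P c ^ 4 := sum_nonneg fun c _ => by positivity
  have hQ0 : 0 ≤ ∑ c, Q c ^ 4 := sum_nonneg fun c _ => by positivity
  have h1 := Finset.sum_mul_sq_le_sq_mul_sq univ (fun c => P c ^ 2) (fun c => Q c ^ 2)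
  have h2 := Finset.sum_mul_sq_le_sq_mul_sq univ (fun c => P c ^ 2) (fun c => P c * Q c)
  have h3 := Finset.sum_mul_sq_le_sq_mul_sq univ (fun c => P c * Q c) (fun c => Q c ^ 2)
  have e1 : ∑ c, (P c ^ 2) ^ 2 = ∑ c, P c ^ 4 := sum_congr rfl fun c _ => by ring
  have e2 : ∑ c, (Q c ^ 2) ^ 2 = ∑ c, Q c ^ 4 := sum_congr rfl fun c _ => by ring
  have e3 : ∑ c, (P c * Q c) ^ 2 = ∑ c, P c ^ 2 * Q c ^ 2 := sum_congr rfl fun c _ => by ring
  have e4 : ∑ c, P c ^ 2 * (P c * Q c) = ∑ c, P c ^ 3 * Q c := sum_congr rfl fun c _ => by ring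
  have e5 : ∑ c, P c * Q c * Q c ^ 2 = ∑ c, P c * Q c ^ 3 := sum_congr rfl fun c _ => by ring
  rw [e1, e2] at h1
  rw [e1, e3, e4] at h2
  rw [e2, e3, e5] at h3
  set m := ∑ c, P c ^ 2 * Q c ^ 2
  set A := ∑ c, P c ^ 3 * Q c
  set B := ∑ c, P c * Q c ^ 3
  set wa := ∑ c, P c ^ 4
  set wb := ∑ c, Q c ^ 4
  have hm : m ≤ y := le_trans (le_abs_self m) (abs_le_of_sq_le_sq (h1.trans h) hy)
  have hAB : (A * B) ^ 2 ≤ (y * m) ^ 2 := by
    calc (A * B) ^ 2 = A ^ 2 * B ^ 2 := by ring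
      _ ≤ (wa * m) * (m * wb) := mul_le_mul h2 h3 (sq_nonneg _) (by positivity)
      _ = (wa * wb) * m ^ 2 := by ring
      _ ≤ y ^ 2 * m ^ 2 := mul_le_mul_of_nonneg_right h (sq_nonneg _)
      _ = (y * m) ^ 2 := by ring
  have hAB' : A * B ≤ y * m :=
    le_trans (le_abs_self _) (abs_le_of_sq_le_sq hAB (by positivity))
  refine ⟨hm, ?_⟩
  have : m ^ 2 ≤ y * m := by nlinarith
  linarith

private theorem W4_R (P Q : ι → ℝ) (j α β : ℝ) (hj0 : 0 ≤ j) (hj : j ≤ 21 / 20) :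
    ∑ c, ∑ d, (j * (β * (P c * P d) + α * (Q c * Q d))) ^ 4 ≤
      10 * (β ^ 4 * (∑ c, P c ^ 4) ^ 2 + α ^ 4 * (∑ c, Q c ^ 4) ^ 2) := by
  have hj4 : j ^ 4 ≤ 5 / 4 := by
    calc j ^ 4 ≤ (21 / 20) ^ 4 := pow_le_pow_left₀ hj0 hj 4
      _ ≤ 5 / 4 := by norm_num
  have e : ∀ c d, (j * (β * (P c * P d) + α * (Q c * Q d))) ^ 4 ≤
      (10 * β ^ 4 * P c ^ 4) * P d ^ 4 + (10 * α ^ 4 * Q c ^ 4) * Q d ^ 4 := by
    intro c d
    have h8 : ∀ x y : ℝ, (x + y) ^ 4 ≤ 8 * (x ^ 4 + y ^ 4) := by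
      intro x y
      nlinarith [sq_nonneg (x - y), sq_nonneg (x + y), sq_nonneg (x ^ 2 - y ^ 2),
        mul_nonneg (sq_nonneg (x - y)) (sq_nonneg (x + y)), sq_nonneg ((x - y) ^ 2),
        mul_nonneg (sq_nonneg (x - y)) (add_nonneg (sq_nonneg x) (sq_nonneg y))]
    have h1 := h8 (β * (P c * P d)) (α * (Q c * Q d))
    have h2 : 0 ≤ (β * (P c * P d) + α * (Q c * Q d)) ^ 4 := by positivity
    calc (j * (β * (P c * P d) + α * (Q c * Q d))) ^ 4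
        = j ^ 4 * (β * (P c * P d) + α * (Q c * Q d)) ^ 4 := by ring
      _ ≤ 5 / 4 * (8 * ((β * (P c * P d)) ^ 4 + (α * (Q c * Q d)) ^ 4)) :=
          mul_le_mul hj4 h1 h2 (by norm_num)
      _ = _ := by ring
  calc _ ≤ ∑ c, ∑ d, ((10 * β ^ 4 * P c ^ 4) * P d ^ 4 + (10 * α ^ 4 * Q c ^ 4) * Q d ^ 4) :=
        sum_le_sum fun c _ => sum_le_sum fun d _ => e c d
    _ = _ := by
        simp only [sum_add_distrib, ← mul_sum, ← sum_mul]
        ring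

private theorem W4_ww (h : ∀ c d, K c d = K d c) (a : ι) : ∑ c, K c a ^ 4 = ww K a :=
  sum_congr rfl fun c _ => by rw [h c a]

/-- the cross terms -/
private def crossW (K : Mat ι) (a b : ι) : ℝ :=
  8 * ((∑ c, K c a ^ 3 * K c b) * ∑ c, K c a * K c b ^ 3) + 6 * (∑ c, K c a ^ 2 * K c b ^ 2) ^ 2

private theorem W4_point (h : Ctx S w K s p) {a b : ι} (hab : w a b ≠ 0) :
    (1 + p.ε) * ∑ c, ∑ d, (hat K s a b c d - K c d) ^ 4 ≤
      (1 + 50 * p.ε) * (2 * (ww K a * ww K b) + crossW K a b) +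
        650 / p.ε ^ 3 * (K b b ^ 4 * ww K a ^ 2 + K a a ^ 4 * ww K b ^ 2) := by
  have hs := h.scal hab
  have hsy := h.bnd.symm
  have ε0 := h.gl.ε0
  have ε1 := h.gl.H10
  set ε := p.ε
  set g := gg K s a b
  set j := jj K s a b
  have e : ∀ c d, hat K s a b c d - K c d =
      g * (K c a * K d b + K c b * K d a) +
        j * (K b b * (K c a * K d a) + K a a * (K c b * K d b)) := by
    intro c d
    simp only [hat, l1, l2, Matrix.of_apply, g, j]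
    ring
  have hF := W4_expand (fun c => K c a) (fun c => K c b)
  have hR := W4_R (fun c => K c a) (fun c => K c b) j (K a a) (K b b) (by linarith [hs.jl]) hs.ju
  simp only [W4_ww hsy] at hF hR
  have hF0 : 0 ≤ ∑ c, ∑ d, (K c a * K d b + K c b * K d a) ^ 4 :=
    sum_nonneg fun c _ => sum_nonneg fun d _ => by positivity
  have hR0 : 0 ≤ K b b ^ 4 * ww K a ^ 2 + K a a ^ 4 * ww K b ^ 2 := by positivity
  have hg4 : g ^ 4 ≤ (1 + 10 * ε) ^ 4 := by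
    calc g ^ 4 = |g| ^ 4 := by rw [← abs_pow, abs_of_nonneg (by positivity)]
      _ ≤ (1 + 10 * ε) ^ 4 := pow_le_pow_left₀ (abs_nonneg _) hs.gu 4
  have hnum : (1 + ε) * ((1 + ε) * g ^ 4) ≤ 1 + 50 * ε := by
    have h1 : (1 + 10 * ε) ^ 2 ≤ 1 + 21 * ε := by nlinarith
    have h2 : (1 + 10 * ε) ^ 4 ≤ 1 + 47 * ε := by
      have : (1 + 10 * ε) ^ 4 = ((1 + 10 * ε) ^ 2) ^ 2 := by ring
      rw [this]
      have h3 : ((1 + 10 * ε) ^ 2) ^ 2 ≤ (1 + 21 * ε) ^ 2 := pow_le_pow_left₀ (by positivity) h1 2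
      nlinarith
    have h3 : (1 + ε) * (1 + ε) ≤ 1 + 201 / 100 * ε := by nlinarith
    calc (1 + ε) * ((1 + ε) * g ^ 4) = ((1 + ε) * (1 + ε)) * g ^ 4 := by ring
      _ ≤ (1 + 201 / 100 * ε) * (1 + 47 * ε) :=
          mul_le_mul h3 (hg4.trans h2) (by positivity) (by positivity)
      _ ≤ 1 + 50 * ε := by nlinarith
  have hsum : ∑ c, ∑ d, (hat K s a b c d - K c d) ^ 4 ≤
      ((1 + ε) * g ^ 4) * ∑ c, ∑ d, (K c a * K d b + K c b * K d a) ^ 4 +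
        64 / ε ^ 3 * ∑ c, ∑ d, (j * (K b b * (K c a * K d a) + K a a * (K c b * K d b))) ^ 4 := by
    simp only [mul_sum, ← sum_add_distrib]
    refine sum_le_sum fun c _ => sum_le_sum fun d _ => ?_
    rw [e]
    refine (add_pow_four_le' _ _ ε ε0 (by linarith)).trans (le_of_eq ?_)
    ring
  have hc : (1 + ε) * (64 / ε ^ 3 * 10) ≤ 650 / ε ^ 3 := by
    have : (1 + ε) * (64 / ε ^ 3 * 10) = (640 * (1 + ε)) / ε ^ 3 := by ring
    rw [this]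
    exact div_le_div_of_nonneg_right (by linarith) (by positivity)
  calc (1 + ε) * ∑ c, ∑ d, (hat K s a b c d - K c d) ^ 4
      ≤ (1 + ε) * (((1 + ε) * g ^ 4) * ∑ c, ∑ d, (K c a * K d b + K c b * K d a) ^ 4 +
        64 / ε ^ 3 * (10 * (K b b ^ 4 * ww K a ^ 2 + K a a ^ 4 * ww K b ^ 2))) := by
        refine mul_le_mul_of_nonneg_left (hsum.trans ?_) (by positivity)
        have := mul_le_mul_of_nonneg_left hR (show 0 ≤ 64 / ε ^ 3 by positivity)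
        linarith
    _ = ((1 + ε) * ((1 + ε) * g ^ 4)) * ∑ c, ∑ d, (K c a * K d b + K c b * K d a) ^ 4 +
        ((1 + ε) * (64 / ε ^ 3 * 10)) * (K b b ^ 4 * ww K a ^ 2 + K a a ^ 4 * ww K b ^ 2) := by ring
    _ ≤ (1 + 50 * ε) * ∑ c, ∑ d, (K c a * K d b + K c b * K d a) ^ 4 +
        650 / ε ^ 3 * (K b b ^ 4 * ww K a ^ 2 + K a a ^ 4 * ww K b ^ 2) :=
        add_le_add (mul_le_mul_of_nonneg_right hnum hF0) (mul_le_mul_of_nonneg_right hc hR0)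
    _ = _ := by rw [hF]; rfl

private theorem W4_sumww (K : Mat ι) : ∑ a, ∑ b, ww K a * ww K b = WW K ^ 2 := by
  rw [← sum_mul_sum, sq]; rfl

private theorem W4_main (h : Ctx S w K s p) :
    Ew w (fun a b => ww K a * ww K b) ≤ p.ω * WW K ^ 2 := by
  have h0 : ∀ a b, 0 ≤ ww K a * ww K b := fun a b => mul_nonneg (ww_nonneg K a) (ww_nonneg K b)
  refine (h.wt.le_ω h0).trans (mul_le_mul_of_nonneg_left ?_ (by linarith [h.wt.ω1]))
  rw [← W4_sumww]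
  refine (sum_le_sum fun a _ => ?_).trans
    (sum_le_sum_of_subset_of_nonneg (subset_univ S) fun a _ _ => sum_nonneg fun b _ => h0 a b)
  exact sum_le_sum_of_subset_of_nonneg (subset_univ S) fun b _ _ => h0 a b

private theorem W4_crossE (h : Ctx S w K s p) {E : ℝ} (hc : CondW p E) :
    Ew w (crossW K) ≤ 28 * (p.N * E) := by
  have hsy := h.bnd.symm
  rcases hc.W3 with h3 | h3
  · have hm0 : ∀ a b, 0 ≤ ∑ c, K c a ^ 2 * K c b ^ 2 := fun a b =>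
      sum_nonneg fun c _ => by positivity
    have h1 : Ew w (crossW K) ≤
        Ew w (fun a b => (14 * (p.ζ ^ 2 * p.Λ ^ 2)) * ∑ c, K c a ^ 2 * K c b ^ 2) := by
      refine h.wt.mono fun a b hab => ?_
      have hal := (h.wk.alw a b hab).bb2
      have ha := bb_nonneg hsy a
      have hb := bb_nonneg hsy b
      have hy : (∑ c, K c a ^ 4) * ∑ c, K c b ^ 4 ≤ (p.ζ ^ 2 * p.Λ ^ 2) ^ 2 := by
        rw [W4_ww hsy, W4_ww hsy]
        calc ww K a * ww K b ≤ bb K a ^ 2 * bb K b ^ 2 :=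
              mul_le_mul (ww_le_bb_sq hsy a) (ww_le_bb_sq hsy b) (ww_nonneg K b) (sq_nonneg _)
          _ = (bb K a * bb K b) ^ 2 := by ring
          _ ≤ _ := pow_le_pow_left₀ (by positivity) (by nlinarith) 2
      have := (W4_cross (fun c => K c a) (fun c => K c b) (by positivity) hy).2
      unfold crossW
      linarith
    rw [Ew_mul] at h1
    have h2 := h.wt.le_two' hm0
    have h4 : ∑ a, ∑ b, ∑ c, K c a ^ 2 * K c b ^ 2 = ∑ c, bb K c ^ 2 := by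
      have : ∀ a, ∑ b, ∑ c, K c a ^ 2 * K c b ^ 2 = ∑ c, ∑ b, K c a ^ 2 * K c b ^ 2 :=
        fun a => sum_comm
      simp only [this]
      rw [sum_comm]
      refine sum_congr rfl fun c _ => ?_
      rw [← sum_mul_sum, ← bb_eq hsy c, sq]
    rw [h4] at h2
    have h5 := h.bnd.sum_bb_sq
    have h6 : 0 ≤ 14 * (p.ζ ^ 2 * p.Λ ^ 2) := by positivity
    have h7 := mul_le_mul_of_nonneg_left (h2.trans (show _ ≤ 2 * p.Db by linarith)) h6
    nlinarith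
  · have h0 : ∀ a b, 0 ≤ ww K a * ww K b := fun a b => mul_nonneg (ww_nonneg K a) (ww_nonneg K b)
    have h1 : Ew w (crossW K) ≤ Ew w (fun a b => 14 * (ww K a * ww K b)) := by
      refine h.wt.mono fun a b _ => ?_
      have hy : (∑ c, K c a ^ 4) * ∑ c, K c b ^ 4 ≤ √(ww K a * ww K b) ^ 2 := by
        rw [W4_ww hsy, W4_ww hsy, Real.sq_sqrt (h0 a b)]
      obtain ⟨h2, h4⟩ := W4_cross (fun c => K c a) (fun c => K c b) (Real.sqrt_nonneg _) hy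
      have h5 := mul_le_mul_of_nonneg_left h2 (Real.sqrt_nonneg (ww K a * ww K b))
      rw [Real.mul_self_sqrt (h0 a b)] at h5
      unfold crossW
      linarith
    rw [Ew_mul] at h1
    have h2 := h.wt.le_two' h0
    rw [W4_sumww] at h2
    have h4 : WW K ^ 2 ≤ p.W ^ 2 := pow_le_pow_left₀ (WW_nonneg K) h.bnd.W 2
    linarith

private theorem W4_RE (h : Ctx S w K s p) {E : ℝ} (hc : CondW p E) :
    Ew w (fun a b => K b b ^ 4 * ww K a ^ 2) ≤ 2 * (p.ε ^ 3 * (p.N * E)) := by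
  have hsy := h.bnd.symm
  have hn := h.bnd.nn
  have hδ := h.bnd.sum_diag_sq
  have hW : ∑ a, ww K a ≤ p.W := h.bnd.W
  have hδ0 : 0 ≤ ∑ a, K a a ^ 2 := sum_nonneg fun a _ => sq_nonneg _
  have hW0 : 0 ≤ ∑ a, ww K a := sum_nonneg fun a _ => ww_nonneg K a
  rcases hc.W4 with h4 | h4
  · have h0 : ∀ a b, 0 ≤ ww K a * K b b ^ 2 := fun a b => mul_nonneg (ww_nonneg K a) (sq_nonneg _)
    have h1 : Ew w (fun a b => K b b ^ 4 * ww K a ^ 2) ≤
        Ew w (fun a b => (p.ζ ^ 2 * p.Λ ^ 2) * (ww K a * K b b ^ 2)) := by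
      refine h.wt.mono fun a b hab => ?_
      have hal := (h.wk.alw a b hab).be
      have ha := bb_nonneg hsy a
      have h2 : K b b ^ 2 * ww K a ≤ p.ζ ^ 2 * p.Λ ^ 2 := by
        calc K b b ^ 2 * ww K a ≤ K b b ^ 2 * bb K a ^ 2 :=
              mul_le_mul_of_nonneg_left (ww_le_bb_sq hsy a) (sq_nonneg _)
          _ = (|K b b| * bb K a) ^ 2 := by rw [mul_pow, sq_abs]
          _ ≤ (p.ζ * p.Λ) ^ 2 :=
              pow_le_pow_left₀ (by positivity) (by nlinarith [abs_nonneg (K b b)]) 2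
          _ = _ := by ring
      calc K b b ^ 4 * ww K a ^ 2 = (K b b ^ 2 * ww K a) * (ww K a * K b b ^ 2) := by ring
        _ ≤ _ := mul_le_mul_of_nonneg_right h2 (h0 a b)
    rw [Ew_mul] at h1
    have h2 := h.wt.le_two' h0
    rw [← sum_mul_sum] at h2
    have h3 : (∑ a, ww K a) * ∑ b, K b b ^ 2 ≤ p.W * p.δ := mul_le_mul hW hδ hδ0 hn.W
    have h6 : 0 ≤ p.ζ ^ 2 * p.Λ ^ 2 := by positivity
    have h7 := mul_le_mul_of_nonneg_left (h2.trans (show _ ≤ 2 * (p.W * p.δ) by linarith)) h6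
    nlinarith
  · have h0 : ∀ a b, 0 ≤ K b b ^ 4 * ww K a ^ 2 := fun a b => by positivity
    have h2 := h.wt.le_two' h0
    have e : ∑ a, ∑ b, K b b ^ 4 * ww K a ^ 2 = (∑ a, ww K a ^ 2) * ∑ b, (K b b ^ 2) ^ 2 := by
      rw [sum_mul_sum]
      exact sum_congr rfl fun a _ => sum_congr rfl fun b _ => by ring
    rw [e] at h2
    have h5 : ∑ a, ww K a ^ 2 ≤ p.W ^ 2 :=
      (sum_sq_le_sq_sum_of_nonneg fun a _ => ww_nonneg K a).trans (pow_le_pow_left₀ hW0 hW 2)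
    have h6 : ∑ b, (K b b ^ 2) ^ 2 ≤ p.δ ^ 2 :=
      (sum_sq_le_sq_sum_of_nonneg fun a _ => sq_nonneg _).trans (pow_le_pow_left₀ hδ0 hδ 2)
    have h7 := mul_le_mul h5 h6 (sum_nonneg fun a _ => sq_nonneg _) (sq_nonneg _)
    nlinarith

/-- `Δ = g (u + v) + R`, `u = p_c q_d`, `v = q_c p_d`, `R = j (β p_c p_d + α q_c q_d)`; `add_pow_four_le'`.
* `∑_{c,d} u⁴ = w_a w_b`, so `Ew ≤ ω WW²` (`Wt.le_ω`), `(ω - 1) W²`: `W2`; the factor
  `(1+ε)² g⁴ ≤ 1 + 50 ε` costs `200 ε W² ≤ 200 ε W N` (`H9`, `W1`);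
* cross terms: with `m = ∑_c p_c² q_c²`, `∑ u² v² = m²`, `|∑ u³ v| = |∑ p³ q| |∑ p q³| ≤ √(w_a m) √(w_b m)`;
  both are `≤ b_a b_b m ≤ ζ² Λ² m` (`∑_{a,b} m = ∑ b_c² ≤ Db`) and `≤ w_a w_b` (`W3`);
* `∑ R⁴ ≤ 10 (β⁴ w_a² + α⁴ w_b²)`, `β⁴ w_a² ≤ (β b_a)² β² w_a ≤ ζ² Λ² β² w_a`, or `∑ β⁴ ≤ δ²`,
  `∑ w_a² ≤ W²` (`W4`). -/
theorem Ctx.W_four (h : Ctx S w K s p) {E : ℝ} (hE : 0 ≤ E) (hc : CondW p E) :
    (1 + p.ε) * Ew w (fun a b => ∑ c, ∑ d, (hat K s a b c d - K c d) ^ 4) ≤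
      2 * WW K ^ 2 + 100000 * (p.N * E) := by
  have ε0 := h.gl.ε0
  have ε1 := h.gl.H10
  have hn := h.bnd.nn
  have hNE : 0 ≤ p.N * E := mul_nonneg hn.N hE
  have h1 : (1 + p.ε) * Ew w (fun a b => ∑ c, ∑ d, (hat K s a b c d - K c d) ^ 4) ≤
      Ew w (fun a b => (1 + 50 * p.ε) * (2 * (ww K a * ww K b) + crossW K a b) +
        650 / p.ε ^ 3 * (K b b ^ 4 * ww K a ^ 2 + K a a ^ 4 * ww K b ^ 2)) := by
    rw [← Ew_mul]
    exact h.wt.mono fun a b hab => W4_point h hab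
  rw [Ew_add, Ew_mul, Ew_mul, Ew_add, Ew_add, Ew_mul] at h1
  have h2 := W4_main h
  have h3 : Ew w (fun a b => crossW K a b) ≤ 28 * (p.N * E) := W4_crossE h hc
  have h4 := W4_RE h hc
  have h5 : Ew w (fun a b => K a a ^ 4 * ww K b ^ 2) ≤ 2 * (p.ε ^ 3 * (p.N * E)) := by
    rw [← h.wt.swap]; exact h4
  have h6 : 650 / p.ε ^ 3 * (Ew w (fun a b => K b b ^ 4 * ww K a ^ 2) +
      Ew w (fun a b => K a a ^ 4 * ww K b ^ 2)) ≤ 2600 * (p.N * E) := by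
    calc _ ≤ 650 / p.ε ^ 3 * (4 * (p.ε ^ 3 * (p.N * E))) :=
          mul_le_mul_of_nonneg_left (by linarith) (by positivity)
      _ = 2600 * (p.N * E) := by field_simp; ring
  have hW2 : WW K ^ 2 ≤ p.W ^ 2 := pow_le_pow_left₀ (WW_nonneg K) h.bnd.W 2
  have hω1 := h.wt.ω1
  have hω2 := h.wt.ω2
  have h7 : (p.ω - 1) * WW K ^ 2 ≤ p.N * E :=
    (mul_le_mul_of_nonneg_left hW2 (by linarith)).trans hc.W2
  have h8 : p.ε * WW K ^ 2 ≤ p.N * E := by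
    calc p.ε * WW K ^ 2 ≤ p.ε * p.W ^ 2 := mul_le_mul_of_nonneg_left hW2 ε0.le
      _ = p.W * (p.ε * p.W) := by ring
      _ ≤ p.N * E := mul_le_mul h.gl.H9 hc.W1 (mul_nonneg ε0.le hn.W) hn.N
  have h9 : p.ε * (p.ω * WW K ^ 2) ≤ 2 * (p.N * E) := by
    have : 0 ≤ p.ε * WW K ^ 2 := by positivity
    nlinarith
  have h10 : (1 + 50 * p.ε) * (2 * Ew w (fun a b => ww K a * ww K b) +
      Ew w (fun a b => crossW K a b)) ≤ (1 + 50 * p.ε) * (2 * (p.ω * WW K ^ 2) + 28 * (p.N * E)) :=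
    mul_le_mul_of_nonneg_left (by linarith) (by positivity)
  have h11 : p.ε * (p.N * E) ≤ p.N * E := by nlinarith
  nlinarith

private theorem hat_swap (h : ∀ c d, K c d = K d c) (s : ℝ) (a b c d : ι) :
    hat K s b a c d = hat K s a b c d := by
  simp only [hat, Matrix.of_apply]
  rw [l2_eq_l1 h s a b d, l2_eq_l1 h s b a d]
  ring

/-- `WW_step`, `add_pow_four_le`; the `b`-column is the `a`-column after `Wt.swap`
(`hat K s a b = hat K s b a` for symmetric `K`). -/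
theorem Ctx.driftW (h : Ctx S w K s p) {E : ℝ} (hE : 0 ≤ E) (hc : CondW p E) :
    Ew w (fun a b => WW (step K s a b)) ≤
      (Ew w (fun _ _ => 1) - 4 * p.N) * WW K + 2 * WW K ^ 2 + 10 ^ 9 * (p.N * E) := by
  have ε0 := h.gl.ε0
  have ε1 := h.gl.H10
  have hsy := h.bnd.symm
  have hn := h.bnd.nn
  have hNE : 0 ≤ p.N * E := mul_nonneg hn.N hE
  have h1 : Ew w (fun a b => WW (step K s a b)) ≤
      Ew w (fun a b => (WW K + 4 * (∑ c, ∑ d, K c d ^ 3 * (hat K s a b c d - K c d)) +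
        10 / p.ε * (∑ c, ∑ d, K c d ^ 2 * (hat K s a b c d - K c d) ^ 2) +
        (1 + p.ε) * ∑ c, ∑ d, (hat K s a b c d - K c d) ^ 4) -
        2 * (∑ d, hat K s a b d a ^ 4) - 2 * (∑ d, hat K s b a d b ^ 4) +
        (hat K s a b a a ^ 4 + 2 * hat K s a b a b ^ 4 + hat K s a b b b ^ 4)) := by
    refine h.wt.mono fun a b hab => ?_
    rw [WW_step hsy s (h.wk.alw a b hab).ne]
    have e : ∑ d, hat K s b a d b ^ 4 = ∑ d, hat K s a b d b ^ 4 :=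
      sum_congr rfl fun d _ => by rw [hat_swap hsy]
    have h2 : ∑ c, ∑ d, hat K s a b c d ^ 4 ≤
        WW K + 4 * (∑ c, ∑ d, K c d ^ 3 * (hat K s a b c d - K c d)) +
        10 / p.ε * (∑ c, ∑ d, K c d ^ 2 * (hat K s a b c d - K c d) ^ 2) +
        (1 + p.ε) * ∑ c, ∑ d, (hat K s a b c d - K c d) ^ 4 := by
      simp only [WW, ww, mul_sum, ← sum_add_distrib]
      refine sum_le_sum fun c _ => sum_le_sum fun d _ => ?_
      have := add_pow_four_le (K c d) (hat K s a b c d - K c d) p.ε ε0 (by linarith)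
      rw [add_sub_cancel] at this
      linarith
    rw [e]
    linarith
  rw [Ew_add, Ew_sub, Ew_sub, Ew_add, Ew_add, Ew_add, Ew_mul, Ew_mul, Ew_mul, Ew_mul, Ew_mul,
    Ew_const, h.wt.swap (fun a b => ∑ d, hat K s a b d a ^ 4)] at h1
  have h2 := (abs_le.1 (h.W_lin hE hc)).2
  have h3 := h.W_quad hE hc
  have h4 := h.W_del hE hc
  have h5 := h.W_corner hE hc
  have h6 := h.W_four hE hc
  have h7 : 10 / p.ε * Ew w (fun a b => ∑ c, ∑ d, K c d ^ 2 * (hat K s a b c d - K c d) ^ 2) ≤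
      1000 * (p.N * E) := by
    calc _ ≤ 10 / p.ε * (100 * (p.ε * (p.N * E))) := mul_le_mul_of_nonneg_left h3 (by positivity)
      _ = 1000 * (p.N * E) := by field_simp; ring
  nlinarith

end Crest.Agent.R62
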