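import Crest.Agent.R62.DriftV1

/-!
# Row 62: drift of `WW`, first part

`Δ c d = K̂ c d - K c d = j β p_c p_d + g (p_c q_d + q_c p_d) + j α q_c q_d` with `p_c = K c a`, `q_c = K c b`.
-/

set_option autoImplicit false

open Finset Matrix

noncomputable section

namespace Crest.Agent.R62

variable {ι : Type} [Fintype ι] [DecidableEq ι]
variable {S : Finset ι} {w : ι → ι → ℝ} {K : Mat ι} {s : ℝ} {p : Par}

/-- `4 x y³ ≤ ε y⁴ + (4/ε) x² y²` -/
theorem add_pow_four_le (x y ε : ℝ) (h0 : 0 < ε) (h1 : ε ≤ 1) :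
    (x + y) ^ 4 ≤ x ^ 4 + 4 * x ^ 3 * y + 10 / ε * (x ^ 2 * y ^ 2) + (1 + ε) * y ^ 4 := by
  have hu : 1 ≤ ε⁻¹ := (one_le_inv₀ h0).mpr h1
  have he : ε * ε⁻¹ = 1 := mul_inv_cancel₀ h0.ne'
  have h2 : 0 ≤ ε * (y ^ 2 - 2 * ε⁻¹ * x * y) ^ 2 := by positivity
  have h3 : ε * (y ^ 2 - 2 * ε⁻¹ * x * y) ^ 2 =
      ε * y ^ 4 - 4 * (ε * ε⁻¹) * (x * y ^ 3) + 4 * (ε * ε⁻¹) * ε⁻¹ * (x ^ 2 * y ^ 2) := by ring
  rw [he] at h3
  have h4 : 0 ≤ (ε⁻¹ - 1) * (x ^ 2 * y ^ 2) := mul_nonneg (by linarith) (by positivity)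
  rw [div_eq_mul_inv]
  nlinarith

theorem W1_add_sq_le (x y t : ℝ) (h0 : 0 < t) (h1 : t < 1) :
    (x + y) ^ 2 ≤ x ^ 2 / (1 - t) + y ^ 2 / t := by
  have h2 : 0 < 1 - t := by linarith
  have : x ^ 2 / (1 - t) + y ^ 2 / t - (x + y) ^ 2 = (t * x - (1 - t) * y) ^ 2 / ((1 - t) * t) := by
    field_simp
    ring
  have h3 : 0 ≤ (t * x - (1 - t) * y) ^ 2 / ((1 - t) * t) := by positivity
  linarith

/-- convexity: `(x + y)⁴ ≤ x⁴/(1-t)³ + y⁴/t³` with `t = ε/4` -/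
theorem add_pow_four_le' (x y ε : ℝ) (h0 : 0 < ε) (h1 : ε ≤ 1 / 10) :
    (x + y) ^ 4 ≤ (1 + ε) * x ^ 4 + 64 / ε ^ 3 * y ^ 4 := by
  obtain ⟨t, rfl⟩ : ∃ t, ε = 4 * t := ⟨ε / 4, by ring⟩
  have ht0 : 0 < t := by linarith
  have ht1 : t < 1 := by linarith
  have h2 : 0 < 1 - t := by linarith
  have a1 := W1_add_sq_le x y t ht0 ht1
  have a2 := W1_add_sq_le (x ^ 2 / (1 - t)) (y ^ 2 / t) t ht0 ht1
  have a3 : (x + y) ^ 4 ≤ (x ^ 2 / (1 - t) + y ^ 2 / t) ^ 2 := by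
    calc (x + y) ^ 4 = ((x + y) ^ 2) ^ 2 := by ring
      _ ≤ _ := pow_le_pow_left₀ (sq_nonneg _) a1 2
  have a4 : (y ^ 2 / t) ^ 2 / t = 64 / (4 * t) ^ 3 * y ^ 4 := by
    field_simp
    ring
  have a5 : (x ^ 2 / (1 - t)) ^ 2 / (1 - t) = x ^ 4 / (1 - t) ^ 3 := by
    field_simp
  have a6 : x ^ 4 / (1 - t) ^ 3 ≤ (1 + 4 * t) * x ^ 4 := by
    rw [div_le_iff₀ (by positivity)]
    have b1 : 1 ≤ (1 + 4 * t) * (1 - t) ^ 3 := by
      have : (1 + 4 * t) * (1 - t) ^ 3 = 1 + t * (1 - 9 * t) + t ^ 3 * (11 - 4 * t) := by ring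
      have c1 : 0 ≤ t * (1 - 9 * t) := mul_nonneg ht0.le (by linarith)
      have c2 : 0 ≤ t ^ 3 * (11 - 4 * t) := mul_nonneg (by positivity) (by linarith)
      linarith
    have b2 : 0 ≤ x ^ 4 := by positivity
    nlinarith
  linarith

/-- Cauchy–Schwarz for double sums -/
theorem W1_cs (f g : ι → ι → ℝ) :
    (∑ c, ∑ d, f c d * g c d) ^ 2 ≤ (∑ c, ∑ d, f c d ^ 2) * ∑ c, ∑ d, g c d ^ 2 := by
  simp only [← Fintype.sum_prod_type']
  exact Finset.sum_mul_sq_le_sq_mul_sq _ _ _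

/-- `(K M K) a b` -/
def W1Y (K : Mat ι) (a b : ι) : ℝ := ∑ c, ∑ d, K c d ^ 3 * (K c a * K d b)

/-- `T` -/
def W1T (K : Mat ι) : ℝ := ∑ c, ∑ d, |K c d| ^ 3 * (√(bb K c) * √(bb K d))

theorem W1T_nonneg (K : Mat ι) : 0 ≤ W1T K := by
  unfold W1T
  positivity

theorem W1_WW (K : Mat ι) : ∑ c, ∑ d, (K c d ^ 2) ^ 2 = WW K := by
  simp only [WW, ww, ← pow_mul]

theorem Ctx.W1T_sq (h : Ctx S w K s p) : W1T K ^ 2 ≤ p.W * p.Om := by
  have hs := h.bnd.symm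
  have e : W1T K = ∑ c, ∑ d, K c d ^ 2 * (|K c d| * (√(bb K c) * √(bb K d))) := by
    unfold W1T
    refine Finset.sum_congr rfl fun c _ => Finset.sum_congr rfl fun d _ => ?_
    rw [← sq_abs (K c d)]
    ring
  rw [e]
  refine (W1_cs _ _).trans ?_
  have e2 : ∑ c, ∑ d, (|K c d| * (√(bb K c) * √(bb K d))) ^ 2 =
      ∑ c, ∑ d, K c d ^ 2 * (bb K c * bb K d) := by
    refine Finset.sum_congr rfl fun c _ => Finset.sum_congr rfl fun d _ => ?_
    rw [mul_pow, mul_pow, sq_abs, Real.sq_sqrt (bb_nonneg hs c), Real.sq_sqrt (bb_nonneg hs d)]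
  rw [W1_WW, e2]
  refine mul_le_mul h.bnd.W (h.bnd.sum_om h.gl) ?_ h.bnd.nn.W
  exact Finset.sum_nonneg fun c _ => Finset.sum_nonneg fun d _ =>
    mul_nonneg (sq_nonneg _) (mul_nonneg (bb_nonneg hs c) (bb_nonneg hs d))

theorem W1Y_symm (hs : ∀ c d, K c d = K d c) (a b : ι) : W1Y K b a = W1Y K a b := by
  unfold W1Y
  rw [Finset.sum_comm]
  refine Finset.sum_congr rfl fun c _ => Finset.sum_congr rfl fun d _ => ?_
  rw [hs d c]
  ring

theorem Ctx.W1Y_fro (h : Ctx S w K s p) : ∑ a, ∑ b, W1Y K a b ^ 2 ≤ p.W * p.Om := by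
  have hs := h.bnd.symm
  have h1 : ∀ a b, W1Y K a b ^ 2 ≤ p.W * ∑ c, ∑ d, K c d ^ 2 * (K c a ^ 2 * K d b ^ 2) := by
    intro a b
    have e : W1Y K a b = ∑ c, ∑ d, K c d ^ 2 * (K c d * (K c a * K d b)) := by
      unfold W1Y
      refine Finset.sum_congr rfl fun c _ => Finset.sum_congr rfl fun d _ => ?_
      ring
    rw [e]
    refine (W1_cs _ _).trans ?_
    rw [W1_WW]
    simp only [mul_pow]
    exact mul_le_mul_of_nonneg_right h.bnd.W (by positivity)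
  calc ∑ a, ∑ b, W1Y K a b ^ 2 ≤ ∑ a, ∑ b, p.W * ∑ c, ∑ d, K c d ^ 2 * (K c a ^ 2 * K d b ^ 2) :=
        Finset.sum_le_sum fun a _ => Finset.sum_le_sum fun b _ => h1 a b
    _ = p.W * ∑ c, ∑ d, K c d ^ 2 * (bb K c * bb K d) := by
        simp only [← Finset.mul_sum]
        congr 1
        simp only [bb_eq hs, Finset.sum_mul_sum]
        simp only [Finset.mul_sum]
        calc ∑ a, ∑ b, ∑ c, ∑ d, K c d ^ 2 * (K c a ^ 2 * K d b ^ 2)
            = ∑ a, ∑ c, ∑ d, ∑ b, K c d ^ 2 * (K c a ^ 2 * K d b ^ 2) := by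
              refine Finset.sum_congr rfl fun a _ => ?_
              rw [Finset.sum_comm]
              exact Finset.sum_congr rfl fun c _ => Finset.sum_comm
          _ = ∑ c, ∑ d, ∑ a, ∑ b, K c d ^ 2 * (K c a ^ 2 * K d b ^ 2) := by
              rw [Finset.sum_comm]
              exact Finset.sum_congr rfl fun c _ => Finset.sum_comm
    _ ≤ _ := mul_le_mul_of_nonneg_left (h.bnd.sum_om h.gl) h.bnd.nn.W

theorem W1Y_diag (hs : ∀ c d, K c d = K d c) : ∑ a, |W1Y K a a| ≤ W1T K := by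
  calc ∑ a, |W1Y K a a| ≤ ∑ a, ∑ c, ∑ d, |K c d| ^ 3 * (|K c a| * |K d a|) := by
        refine Finset.sum_le_sum fun a _ => (Finset.abs_sum_le_sum_abs _ _).trans ?_
        refine Finset.sum_le_sum fun c _ => (Finset.abs_sum_le_sum_abs _ _).trans ?_
        refine Finset.sum_le_sum fun d _ => le_of_eq ?_
        rw [abs_mul, abs_mul, abs_pow]
    _ = ∑ c, ∑ d, |K c d| ^ 3 * ∑ a, |K c a| * |K d a| := by
        rw [Finset.sum_comm]
        refine Finset.sum_congr rfl fun c _ => ?_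
        rw [Finset.sum_comm]
        simp only [Finset.mul_sum]
    _ ≤ _ := by
        refine Finset.sum_le_sum fun c _ => Finset.sum_le_sum fun d _ => ?_
        refine mul_le_mul_of_nonneg_left ?_ (by positivity)
        have := Real.sum_mul_le_sqrt_mul_sqrt Finset.univ (fun a => |K c a|) fun a => |K d a|
        simpa only [sq_abs, ← bb_eq hs] using this

theorem W1_row_abs (h : Side S K s) (c : ι) : |∑ a ∈ S, K c a| ≤ 1 := by
  by_cases hc : c ∈ S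
  · rw [h.row' c hc, h.abs]
  · simp [h.supp c _ hc]

theorem W1_sqrt_row (hs : ∀ c d, K c d = K d c) (S : Finset ι) (c : ι) :
    √(∑ a ∈ S, K c a ^ 2) ≤ √(bb K c) := by
  refine Real.sqrt_le_sqrt ?_
  rw [bb_eq hs]
  exact Finset.sum_le_univ_sum_of_nonneg fun a => sq_nonneg _

theorem Ctx.W1_main (h : Ctx S w K s p) {E : ℝ} (hE : 0 ≤ E) (hc : CondW p E) :
    |Ew w (W1Y K)| ≤ 2 * (p.N * E) := by
  have hs := h.bnd.symm
  have hNE : 0 ≤ p.N * E := mul_nonneg h.bnd.nn.N hE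
  have hκ := h.wt.κ0
  have e : Ew w (W1Y K) = ∑ c, ∑ d, K c d ^ 3 * Ew w (fun a b => K c a * K d b) := by
    unfold W1Y
    rw [Ew_sum w Finset.univ (fun c a b => ∑ d, K c d ^ 3 * (K c a * K d b))]
    refine Finset.sum_congr rfl fun c _ => ?_
    rw [Ew_sum w Finset.univ (fun d a b => K c d ^ 3 * (K c a * K d b))]
    exact Finset.sum_congr rfl fun d _ => Ew_mul w _ _
  have h1 : ∀ c d, |Ew w (fun a b => K c a * K d b)| ≤ 1 + p.κ * (√(bb K c) * √(bb K d)) := by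
    intro c d
    have a1 := h.wt.sep (fun a => K c a) (fun b => K d b)
    have a2 : |(∑ a ∈ S, K c a) * ∑ b ∈ S, K d b| ≤ 1 := by
      rw [abs_mul]
      exact mul_le_one₀ (W1_row_abs h.bnd.toSide c) (abs_nonneg _) (W1_row_abs h.bnd.toSide d)
    have a3 : p.κ * √(∑ a ∈ S, K c a ^ 2) * √(∑ b ∈ S, K d b ^ 2) ≤
        p.κ * (√(bb K c) * √(bb K d)) := by
      rw [mul_assoc]
      exact mul_le_mul_of_nonneg_left (mul_le_mul (W1_sqrt_row hs S c) (W1_sqrt_row hs S d)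
        (Real.sqrt_nonneg _) (Real.sqrt_nonneg _)) hκ
    have a4 := abs_sub_abs_le_abs_sub (Ew w (fun a b => K c a * K d b))
      ((∑ a ∈ S, K c a) * ∑ b ∈ S, K d b)
    linarith
  have h2 : ∑ c, ∑ d, |K c d| * K c d ^ 2 ≤ p.N * E := by
    refine abs_le_of_sq_le_sq' ?_ hNE |>.2
    refine (W1_cs _ _).trans (le_trans ?_ hc.W6)
    rw [W1_WW]
    simp only [sq_abs]
    exact mul_le_mul h.bnd.fro_one h.bnd.W (WW_nonneg K) h.bnd.nn.Qb
  have h3 : p.κ * W1T K ≤ p.N * E := by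
    refine abs_le_of_sq_le_sq' ?_ hNE |>.2
    rw [mul_pow]
    refine le_trans ?_ hc.W7
    rw [mul_assoc]
    exact mul_le_mul_of_nonneg_left h.W1T_sq (sq_nonneg _)
  rw [e]
  calc |∑ c, ∑ d, K c d ^ 3 * Ew w (fun a b => K c a * K d b)|
      ≤ ∑ c, ∑ d, (|K c d| * K c d ^ 2 + p.κ * (|K c d| ^ 3 * (√(bb K c) * √(bb K d)))) := by
        refine (Finset.abs_sum_le_sum_abs _ _).trans (Finset.sum_le_sum fun c _ => ?_)
        refine (Finset.abs_sum_le_sum_abs _ _).trans (Finset.sum_le_sum fun d _ => ?_)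
        rw [abs_mul, abs_pow, ← sq_abs (K c d)]
        refine (mul_le_mul_of_nonneg_left (h1 c d) (by positivity)).trans (le_of_eq ?_)
        ring
    _ = ∑ c, ∑ d, |K c d| * K c d ^ 2 + p.κ * W1T K := by
        simp only [W1T, Finset.sum_add_distrib, Finset.mul_sum]
    _ ≤ _ := by linarith

theorem Ctx.W1_gs (h : Ctx S w K s p) {E : ℝ} (hE : 0 ≤ E) (hc : CondW p E) :
    |Ew w (fun a b => (gg K s a b - s) * W1Y K a b)| ≤ 15 * (p.N * E) := by
  have hNE : 0 ≤ p.N * E := mul_nonneg h.bnd.nn.N hE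
  have h1 : Ew w (fun a b => |th K a b * W1Y K a b|) ≤ 3 * (p.N * E) := by
    refine h.wt.cs_le (th K) (W1Y K) (Ew_th_sq h.bnd h.wt)
      ((h.wt.le_two' fun a b => sq_nonneg _).trans
        (mul_le_mul_of_nonneg_left h.W1Y_fro zero_le_two)) ?_ (by positivity)
    have := hc.W9
    nlinarith [sq_nonneg (p.N * E)]
  refine (h.wt.abs_le_abs (g := fun a b => 5 * |th K a b * W1Y K a b|) fun a b hab => ?_).trans ?_
  · rw [abs_mul, abs_mul, abs_of_nonneg (h.scal hab).th0, ← mul_assoc]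
    exact mul_le_mul_of_nonneg_right (h.scal hab).g1 (abs_nonneg _)
  · rw [Ew_mul]
    linarith

theorem Ctx.W1_dg (h : Ctx S w K s p) {E : ℝ} (hE : 0 ≤ E) (hc : CondW p E) :
    (∑ a ∈ S, |W1Y K a a|) * ∑ b ∈ S, |K b b| ≤ p.N * E := by
  have hNE : 0 ≤ p.N * E := mul_nonneg h.bnd.nn.N hE
  have h1 : ∑ a ∈ S, |W1Y K a a| ≤ W1T K :=
    (Finset.sum_le_univ_sum_of_nonneg fun a => abs_nonneg _).trans (W1Y_diag h.bnd.symm)
  have h2 : ∑ b ∈ S, |K b b| ≤ √(p.N * p.δ) :=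
    (Finset.sum_le_univ_sum_of_nonneg fun a => abs_nonneg _).trans h.bnd.sum_abs_diag
  refine (mul_le_mul h1 h2 (Finset.sum_nonneg fun _ _ => abs_nonneg _) (W1T_nonneg K)).trans ?_
  refine abs_le_of_sq_le_sq' ?_ hNE |>.2
  have h3 : 0 ≤ p.N * p.δ := mul_nonneg h.bnd.nn.N h.bnd.nn.δ
  rw [mul_pow, Real.sq_sqrt h3]
  refine le_trans ?_ hc.W8
  calc W1T K ^ 2 * (p.N * p.δ) ≤ p.W * p.Om * (p.N * p.δ) :=
        mul_le_mul_of_nonneg_right h.W1T_sq h3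
    _ = _ := by ring

theorem Ctx.W1_jabs (h : Ctx S w K s p) {a b : ι} (hab : w a b ≠ 0) : |jj K s a b| ≤ 21 / 20 := by
  have h1 := (h.scal hab).jl
  have h2 := (h.scal hab).ju
  rw [abs_le]
  constructor <;> linarith

/-- With `M c d = K c d ^ 3`: the sum is `j β (K M K) a a + 2 g (K M K) a b + j α (K M K) b b`, and
`T = ∑_{c,d} |K c d|³ √(b_c b_d) ≤ √(W Om)`.
* `s (K M K) a b`: `Wt.op` for each `(c,d)`: main term `∑ K c d ³ ≤ √(Qb W)` (`W6`), error `κ T` (`W7`);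
* `(g - s)(K M K) a b`: `√(fro (K M K)) ≤ T` (triangle inequality, or expand and use Cauchy–Schwarz on the
  Gram entries as in `fro_diag_le`), `W9`;
* `β (K M K) a a`: `∑_a |(K M K) a a| ≤ T`, `∑ |β| ≤ √(N δ)`, `W8`. -/
theorem Ctx.W_lin (h : Ctx S w K s p) {E : ℝ} (hE : 0 ≤ E) (hc : CondW p E) :
    |Ew w (fun a b => ∑ c, ∑ d, K c d ^ 3 * (hat K s a b c d - K c d))| ≤ 100 * (p.N * E) := by
  have hs := h.bnd.symm
  have e : (fun a b => ∑ c, ∑ d, K c d ^ 3 * (hat K s a b c d - K c d)) = fun a b =>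
      jj K s a b * K b b * W1Y K a a + jj K s a b * K a a * W1Y K b b +
        2 * (s * W1Y K a b + (gg K s a b - s) * W1Y K a b) := by
    funext a b
    have e1 : 2 * (s * W1Y K a b + (gg K s a b - s) * W1Y K a b) =
        gg K s a b * W1Y K a b + gg K s a b * W1Y K b a := by
      rw [W1Y_symm hs a b]; ring
    rw [e1]
    simp only [W1Y, Finset.mul_sum, ← Finset.sum_add_distrib]
    refine Finset.sum_congr rfl fun c _ => Finset.sum_congr rfl fun d _ => ?_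
    simp only [hat, l1, l2, Matrix.of_apply]
    ring
  have hd := h.W1_dg hE hc
  have a1 : |Ew w (fun a b => jj K s a b * K b b * W1Y K a a)| ≤
      2 * ((∑ a ∈ S, 21 / 20 * |W1Y K a a|) * ∑ b ∈ S, |K b b|) := by
    refine h.wt.abs_le_prod (fun a => by positivity) (fun b => abs_nonneg _) fun a b hab => ?_
    rw [abs_mul, abs_mul]
    have := mul_le_mul_of_nonneg_right (h.W1_jabs hab)
      (mul_nonneg (abs_nonneg (K b b)) (abs_nonneg (W1Y K a a)))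
    linarith
  have a2 : |Ew w (fun a b => jj K s a b * K a a * W1Y K b b)| ≤
      2 * ((∑ a ∈ S, |K a a|) * ∑ b ∈ S, 21 / 20 * |W1Y K b b|) := by
    refine h.wt.abs_le_prod (fun b => abs_nonneg _) (fun a => by positivity) fun a b hab => ?_
    rw [abs_mul, abs_mul]
    have := mul_le_mul_of_nonneg_right (h.W1_jabs hab)
      (mul_nonneg (abs_nonneg (K a a)) (abs_nonneg (W1Y K b b)))
    linarith
  rw [← Finset.mul_sum] at a1 a2
  have a3 : |s * Ew w (W1Y K)| ≤ 2 * (p.N * E) := by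
    rw [abs_mul, h.bnd.toSide.abs, one_mul]
    exact h.W1_main hE hc
  have a4 := h.W1_gs hE hc
  rw [e, Ew_add, Ew_add, Ew_mul, Ew_add, Ew_mul]
  rw [abs_le] at a1 a2 a3 a4 ⊢
  have hNE : 0 ≤ p.N * E := mul_nonneg h.bnd.nn.N hE
  constructor <;> nlinarith [a1.1, a1.2, a2.1, a2.2, a3.1, a3.2, a4.1, a4.2]

theorem W1_four_sq (x y z u : ℝ) : (x + y + z + u) ^ 2 ≤ 4 * (x ^ 2 + y ^ 2 + z ^ 2 + u ^ 2) := by
  nlinarith [sq_nonneg (x - y), sq_nonneg (x - z), sq_nonneg (x - u), sq_nonneg (y - z),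
    sq_nonneg (y - u), sq_nonneg (z - u)]

theorem Ctx.W1_delta (h : Ctx S w K s p) {a b : ι} (hab : w a b ≠ 0) (c d : ι) :
    (hat K s a b c d - K c d) ^ 2 ≤ 5 * (K c a ^ 2 * K d a ^ 2 * K b b ^ 2 + K c a ^ 2 * K d b ^ 2 +
      K d a ^ 2 * K c b ^ 2 + K a a ^ 2 * (K c b ^ 2 * K d b ^ 2)) := by
  have e : hat K s a b c d - K c d = jj K s a b * (K c a * K d a * K b b) +
      gg K s a b * (K c a * K d b) + gg K s a b * (K d a * K c b) +
      jj K s a b * (K a a * (K c b * K d b)) := by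
    simp only [hat, l1, l2, Matrix.of_apply]
    ring
  have hj : jj K s a b ^ 2 ≤ 5 / 4 := by
    have := pow_le_pow_left₀ (abs_nonneg _) (h.W1_jabs hab) 2
    rw [sq_abs] at this
    linarith
  have hg : gg K s a b ^ 2 ≤ 5 / 4 := by
    have := pow_le_pow_left₀ (abs_nonneg _) (h.scal hab).gu' 2
    rw [sq_abs] at this
    linarith
  rw [e]
  refine (W1_four_sq _ _ _ _).trans ?_
  simp only [mul_pow]
  have b1 := mul_le_mul_of_nonneg_right hj
    (show 0 ≤ K c a ^ 2 * K d a ^ 2 * K b b ^ 2 by positivity)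
  have b2 := mul_le_mul_of_nonneg_right hg (show 0 ≤ K c a ^ 2 * K d b ^ 2 by positivity)
  have b3 := mul_le_mul_of_nonneg_right hg (show 0 ≤ K d a ^ 2 * K c b ^ 2 by positivity)
  have b4 := mul_le_mul_of_nonneg_right hj
    (show 0 ≤ K a a ^ 2 * (K c b ^ 2 * K d b ^ 2) by positivity)
  linarith

theorem W1_pp (hs : ∀ c d, K c d = K d c) (c d : ι) :
    ∑ a, K c a ^ 2 * K d a ^ 2 ≤ bb K c * bb K d := by
  rw [bb_eq hs c, Finset.sum_mul]
  exact Finset.sum_le_sum fun a _ => mul_le_mul_of_nonneg_left (sq_le_bb hs d a) (sq_nonneg _)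

/-- `Δ² ≤ 5 (β² p_c² p_d² + p_c² q_d² + q_c² p_d² + α² q_c² q_d²)`, `∑_a p_c² p_d² ≤ b_c b_d`; `W5` -/
theorem Ctx.W_quad (h : Ctx S w K s p) {E : ℝ} (hE : 0 ≤ E) (hc : CondW p E) :
    Ew w (fun a b => ∑ c, ∑ d, K c d ^ 2 * (hat K s a b c d - K c d) ^ 2) ≤
      100 * (p.ε * (p.N * E)) := by
  have hs := h.bnd.symm
  have hδ := h.bnd.nn.δ
  have h1 : ∀ c d, Ew w (fun a b => (hat K s a b c d - K c d) ^ 2) ≤
      20 * (1 + p.δ) * (bb K c * bb K d) := by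
    intro c d
    refine (h.wt.mono fun a b hab => h.W1_delta hab c d).trans ?_
    refine (h.wt.le_two' fun a b => by positivity).trans ?_
    simp only [← Finset.mul_sum, Finset.sum_add_distrib, ← Finset.sum_mul, ← bb_eq hs]
    have a1 := W1_pp hs c d
    have a2 := h.bnd.sum_diag_sq
    have a3 : (∑ a, K c a ^ 2 * K d a ^ 2) * ∑ b, K b b ^ 2 ≤ bb K c * bb K d * p.δ :=
      mul_le_mul a1 a2 (by positivity) (mul_nonneg (bb_nonneg hs c) (bb_nonneg hs d))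
    nlinarith
  have e : Ew w (fun a b => ∑ c, ∑ d, K c d ^ 2 * (hat K s a b c d - K c d) ^ 2) =
      ∑ c, ∑ d, K c d ^ 2 * Ew w (fun a b => (hat K s a b c d - K c d) ^ 2) := by
    rw [Ew_sum w Finset.univ (fun c a b => ∑ d, K c d ^ 2 * (hat K s a b c d - K c d) ^ 2)]
    refine Finset.sum_congr rfl fun c _ => ?_
    rw [Ew_sum w Finset.univ (fun d a b => K c d ^ 2 * (hat K s a b c d - K c d) ^ 2)]
    exact Finset.sum_congr rfl fun d _ => Ew_mul w _ _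
  have hε : 0 ≤ p.ε * (p.N * E) := mul_nonneg h.gl.ε0.le (mul_nonneg h.bnd.nn.N hE)
  rw [e]
  calc _ ≤ ∑ c, ∑ d, 20 * (1 + p.δ) * (K c d ^ 2 * (bb K c * bb K d)) := by
        refine Finset.sum_le_sum fun c _ => Finset.sum_le_sum fun d _ => ?_
        refine (mul_le_mul_of_nonneg_left (h1 c d) (sq_nonneg _)).trans (le_of_eq ?_)
        ring
    _ = 20 * (1 + p.δ) * ∑ c, ∑ d, K c d ^ 2 * (bb K c * bb K d) := by
        simp only [Finset.mul_sum]
    _ ≤ 20 * (1 + p.δ) * p.Om := mul_le_mul_of_nonneg_left (h.bnd.sum_om h.gl) (by positivity)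
    _ ≤ _ := by
        have := hc.W5
        nlinarith

theorem Ctx.W1_a4 (h : Ctx S w K s p) : ∑ a ∈ S, K a a ^ 4 ≤ p.δ ^ 2 := by
  have h1 := h.bnd.sum_diag_sq
  have h2 : ∀ a, K a a ^ 2 ≤ p.δ := fun a =>
    (Finset.single_le_sum (f := fun a => K a a ^ 2) (fun _ _ => sq_nonneg _)
      (Finset.mem_univ a)).trans h1
  calc ∑ a ∈ S, K a a ^ 4 ≤ ∑ a, K a a ^ 4 :=
        Finset.sum_le_univ_sum_of_nonneg fun a => by positivity
    _ ≤ ∑ a, p.δ * K a a ^ 2 := Finset.sum_le_sum fun a _ => by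
        have := mul_le_mul_of_nonneg_right (h2 a) (sq_nonneg (K a a))
        nlinarith
    _ ≤ _ := by
        rw [← Finset.mul_sum, sq]
        exact mul_le_mul_of_nonneg_left h1 h.bnd.nn.δ

theorem Ctx.W1_j4 (h : Ctx S w K s p) {a b : ι} (hab : w a b ≠ 0) : jj K s a b ^ 4 ≤ 5 / 4 := by
  have := pow_le_pow_left₀ (abs_nonneg _) (h.W1_jabs hab) 4
  rw [(by decide : Even 4).pow_abs] at this
  linarith

theorem W1_sum_ww (h : Side S K s) : ∑ a ∈ S, ww K a = WW K := by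
  refine Finset.sum_subset (Finset.subset_univ S) fun a _ ha => ?_
  simp [ww, h.supp a _ ha]

theorem Ctx.W1_del_pt (h : Ctx S w K s p) {a b : ι} (hab : w a b ≠ 0) :
    ww K a - 50 * p.ε * ww K a - 80 / p.ε ^ 3 * (K a a ^ 4 * ww K b) ≤
      ∑ d, hat K s a b d a ^ 4 := by
  have hs := h.bnd.symm
  have hε := h.gl.ε0
  have hε1 := h.gl.H10
  have hs4 : s ^ 4 = 1 := by
    rw [show s ^ 4 = (s ^ 2) ^ 2 by ring, h.bnd.toSide.sq, one_pow]
  have hg : 1 - 40 * p.ε ≤ gg K s a b ^ 4 := by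
    have a1 := pow_le_pow_left₀ (by linarith) (h.scal hab).gl 4
    rw [(by decide : Even 4).pow_abs] at a1
    have a2 := one_add_mul_le_pow (show (-2 : ℝ) ≤ -(10 * p.ε) by linarith) 4
    push_cast at a2
    rw [← sub_eq_add_neg] at a2
    linarith
  have hj := h.W1_j4 hab
  simp only [ww, Finset.mul_sum, ← Finset.sum_sub_distrib]
  refine Finset.sum_le_sum fun d _ => ?_
  rw [(h.adm hab).hat_a, mul_pow, hs4, one_mul, l2, hs d a, hs d b]
  have a1 := add_pow_four_le' (gg K s a b * K a d + jj K s a b * K a a * K b d)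
    (-(jj K s a b * K a a * K b d)) p.ε hε (by linarith)
  rw [add_neg_cancel_right, (by decide : Even 4).neg_pow, mul_pow, mul_pow, mul_pow] at a1
  generalize (gg K s a b * K a d + jj K s a b * K a a * K b d) ^ 4 = Z at a1 ⊢
  have hx : 0 ≤ K a d ^ 4 := by positivity
  have hy : 0 ≤ K a a ^ 4 * K b d ^ 4 := by positivity
  have hu : 0 ≤ 1 / p.ε ^ 3 := by positivity
  have b1 : (1 - 40 * p.ε) * K a d ^ 4 ≤ gg K s a b ^ 4 * K a d ^ 4 :=
    mul_le_mul_of_nonneg_right hg hx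
  have b2 : 64 / p.ε ^ 3 * (jj K s a b ^ 4 * K a a ^ 4 * K b d ^ 4) ≤
      80 / p.ε ^ 3 * (K a a ^ 4 * K b d ^ 4) := by
    have := mul_le_mul_of_nonneg_right hj (mul_nonneg hu hy)
    calc _ = 64 * (jj K s a b ^ 4 * (1 / p.ε ^ 3 * (K a a ^ 4 * K b d ^ 4))) := by ring
      _ ≤ 64 * (5 / 4 * (1 / p.ε ^ 3 * (K a a ^ 4 * K b d ^ 4))) := by linarith
      _ = _ := by ring
  have b3 : 0 ≤ 80 / p.ε ^ 3 * (K a a ^ 4 * K b d ^ 4) := by positivity
  generalize 80 / p.ε ^ 3 * (K a a ^ 4 * K b d ^ 4) = U at b2 b3 ⊢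
  have b4 : (1 - 40 * p.ε) * K a d ^ 4 ≤ (1 + p.ε) * Z + U := by linarith
  have b5 : (1 + p.ε) * (K a d ^ 4 - 50 * p.ε * K a d ^ 4 - U) ≤ (1 + p.ε) * Z := by
    have c1 : 0 ≤ p.ε * K a d ^ 4 := by positivity
    have c2 : 0 ≤ p.ε * (p.ε * K a d ^ 4) := by positivity
    have c3 : 0 ≤ p.ε * U := by positivity
    nlinarith
  exact le_of_mul_le_mul_left b5 (by linarith)

/-- `K̂ d a = s (g p_d + j α q_d)`; by `add_pow_four_le'`, `(g p + y)⁴ ≥ (1 - ε) g⁴ p⁴ - 64 ε⁻³ y⁴`, and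
`(1-ε) g⁴ ≥ 1 - 50 ε`.  `Ctx.left_ge` (`W11`), `W1`, `∑ α⁴ ≤ δ²` (`W10`). -/
theorem Ctx.W_del (h : Ctx S w K s p) {E : ℝ} (hE : 0 ≤ E) (hc : CondW p E) :
    p.N * WW K - 1000 * (p.N * E) ≤ Ew w (fun a b => ∑ d, hat K s a b d a ^ 4) := by
  have hε := h.gl.ε0
  have hN := h.bnd.nn.N
  have hNE : 0 ≤ p.N * E := mul_nonneg hN hE
  have hW := h.bnd.W
  have hW0 := WW_nonneg K
  have hSW := W1_sum_ww h.bnd.toSide
  refine le_trans ?_ (h.wt.mono fun a b hab => h.W1_del_pt hab)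
  rw [Ew_sub, Ew_sub, Ew_mul, Ew_mul]
  have a1 := h.left_ge (f := ww K) (ww_nonneg K)
  rw [hSW] at a1
  have a2 : Ew w (fun a _ => ww K a) ≤ 2 * (p.N * p.W) := by
    refine (h.wt.le_two fun a b => ww_nonneg K a).trans ?_
    simp only [Finset.sum_const, nsmul_eq_mul, ← Finset.mul_sum, hSW, h.bnd.card]
    have := mul_le_mul_of_nonneg_left hW hN
    linarith
  have a3 : Ew w (fun a b => K a a ^ 4 * ww K b) ≤ 2 * (p.δ ^ 2 * p.W) := by
    refine (h.wt.le_two fun a b => mul_nonneg (by positivity) (ww_nonneg K b)).trans ?_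
    simp only [← Finset.mul_sum, ← Finset.sum_mul, hSW]
    have := mul_le_mul h.W1_a4 hW hW0 (sq_nonneg _)
    linarith
  have a4 : p.κ2 * √p.N * WW K ≤ p.N * E := by
    refine abs_le_of_sq_le_sq' ?_ hNE |>.2
    rw [mul_pow, mul_pow, Real.sq_sqrt hN]
    refine le_trans ?_ hc.W11
    exact mul_le_mul_of_nonneg_left (pow_le_pow_left₀ hW0 hW 2) (by positivity)
  have a5 : 50 * p.ε * Ew w (fun a _ => ww K a) ≤ 100 * (p.N * E) := by
    have b1 := mul_le_mul_of_nonneg_left a2 (show 0 ≤ 50 * p.ε by positivity)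
    have b2 := mul_le_mul_of_nonneg_left hc.W1 hN
    nlinarith
  have a6 : 80 / p.ε ^ 3 * Ew w (fun a b => K a a ^ 4 * ww K b) ≤ 160 * (p.N * E) := by
    have b1 := mul_le_mul_of_nonneg_left (a3.trans (mul_le_mul_of_nonneg_left hc.W10 zero_le_two))
      (show 0 ≤ 80 / p.ε ^ 3 by positivity)
    refine b1.trans (le_of_eq ?_)
    field_simp
    ring
  nlinarith

/-- `K̂ a a = j α` (`W12`), `|K̂ a b| = |g - s| ≤ 5 ϑ`, `ϑ⁴ ≤ 8 (r⁴ + α⁴ β⁴)`; `W ≤ N E` by `W1`, `H6` -/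
theorem Ctx.W_corner (h : Ctx S w K s p) {E : ℝ} (hE : 0 ≤ E) (hc : CondW p E) :
    Ew w (fun a b => hat K s a b a a ^ 4 + 2 * hat K s a b a b ^ 4 + hat K s a b b b ^ 4) ≤
      100000 * (p.N * E) := by
  have hε := h.gl.ε0
  have hN := h.bnd.nn.N
  have hN1 := h.gl.N100
  have hpt : ∀ a b, w a b ≠ 0 →
      hat K s a b a a ^ 4 + 2 * hat K s a b a b ^ 4 + hat K s a b b b ^ 4 ≤
        2 * K a a ^ 4 + 2 * K b b ^ 4 + 10000 * (K a b ^ 4 + K a a ^ 2 * K b b ^ 2) := by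
    intro a b hab
    have hj := h.W1_j4 hab
    rw [(h.adm hab).hat_aa, (h.adm hab).hat_ab, (h.adm hab).hat_bb, mul_pow, mul_pow]
    have a1 := mul_le_mul_of_nonneg_right hj (show 0 ≤ K a a ^ 4 by positivity)
    have a2 := mul_le_mul_of_nonneg_right hj (show 0 ≤ K b b ^ 4 by positivity)
    have a3 := pow_le_pow_left₀ (abs_nonneg _) (h.scal hab).g1 4
    rw [(by decide : Even 4).pow_abs, mul_pow, th] at a3
    have a4 := add_pow_le (abs_nonneg (K a b)) (abs_nonneg (K a a * K b b)) 4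
    rw [(by decide : Even 4).pow_abs] at a4
    have a5 : |K a a * K b b| ^ 4 ≤ K a a ^ 2 * K b b ^ 2 := by
      have b1 : |K a a * K b b| ≤ 1 := (h.wk.alw a b hab).ab.trans (by linarith [h.gl.H10])
      rw [← mul_pow, ← sq_abs (K a a * K b b)]
      exact pow_le_pow_of_le_one (abs_nonneg _) b1 (by norm_num)
    have a6 : 0 ≤ K a a ^ 4 := by positivity
    have a7 : 0 ≤ K b b ^ 4 := by positivity
    norm_num at a3 a4
    rw [← abs_mul] at a3 a4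
    linarith
  refine (h.wt.mono hpt).trans ((h.wt.le_two fun a b => by positivity).trans ?_)
  simp only [Finset.sum_add_distrib, ← Finset.mul_sum, ← Finset.sum_mul, Finset.sum_const,
    nsmul_eq_mul, h.bnd.card]
  have a1 := h.W1_a4.trans hc.W12
  have a2 : ∑ a ∈ S, ∑ b ∈ S, K a b ^ 4 ≤ p.N * E := by
    have b1 : ∑ a ∈ S, ∑ b ∈ S, K a b ^ 4 ≤ WW K := by
      rw [← W1_sum_ww h.bnd.toSide]
      exact Finset.sum_le_sum fun a _ => Finset.sum_le_univ_sum_of_nonneg fun b => by positivity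
    have b2 := mul_le_mul_of_nonneg_left hc.W1 hN
    have b3 := mul_le_mul_of_nonneg_right h.gl.H6 h.bnd.nn.W
    have b4 := h.bnd.W
    nlinarith
  have a3 : ∑ a ∈ S, K a a ^ 2 ≤ p.δ :=
    (Finset.sum_le_univ_sum_of_nonneg fun a => sq_nonneg _).trans h.bnd.sum_diag_sq
  have a4 : (∑ a ∈ S, K a a ^ 2) * ∑ a ∈ S, K a a ^ 2 ≤ p.N * E := by
    have b1 := mul_le_mul a3 a3 (by positivity) h.bnd.nn.δ
    have b2 := hc.W12
    nlinarith
  have a5 := mul_le_mul_of_nonneg_left a1 hN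
  have hNE : 0 ≤ p.N * E := mul_nonneg hN hE
  nlinarith

end Crest.Agent.R62
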