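import Crest.Agent.R62.DriftX2
import Crest.Agent.R62.Newton

/-!
# Row 62: drift of `XX`

`XX_expand` has 4 one-block, 6 two-block, 4 three-block and 1 four-block terms.  The lemmas `X_pair1`, `X_pair2`
(used twice, with the sides exchanged) and `X_pair3` (used twice) collect the one- and two-block terms.
-/

set_option autoImplicit false

open Finset Matrix

noncomputable section

namespace Crest.Agent.R62

variable {ι : Type} [Fintype ι] [DecidableEq ι]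
variable {S : Finset ι} {w : ι → ι → ℝ} {A B : Mat ι} {s t : ℝ} {p : Par} {θ : ι → ℝ}

/-- numerical consequences of `CondX` -/
structure DX_Num (p : Par) (E : ℝ) : Prop where
  NE : 0 ≤ p.N * E
  n1 : p.Λ ^ 4 * p.N ^ 3 ≤ (p.N * E) ^ 2
  n2 : p.Λ ^ 2 * p.P4 * p.N ^ 2 ≤ (p.N * E) ^ 2
  n3 : p.Λ ^ 2 * p.P4 + p.N ^ 2 ≤ p.N * E
  n4 : (p.N * p.δ + p.P4) * (p.Λ ^ 4 * p.P4 + p.Λ ^ 2 * p.N ^ 2) ≤ (p.N * E) ^ 2
  n5 : p.N ≤ p.N * E
  kap : p.κ ^ 2 * (p.Λ ^ 4 * p.N ^ 2) ≤ (p.N * E) ^ 2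
  Qb : p.Qb ≤ 2 * p.N
  N1 : 1 ≤ p.N
  Λ1 : 1 ≤ p.Λ

theorem DX_num (hA : Ctx S w A s p) {E : ℝ} (hE : 0 ≤ E) (hc : CondX p E) : DX_Num p E := by
  have nn := hA.bnd.nn
  have hN := nn.N
  have hΛ := nn.Λ
  have hV := nn.V
  have hδ := nn.δ
  have hP := nn.P4
  have Λ1 := hA.bnd.Λ1
  have N1 : 1 ≤ p.N := by have := hA.gl.N100; linarith
  have a0 : p.Λ ^ 4 * (p.N + p.P4) ≤ E ^ 2 := by
    refine le_trans ?_ hc.X10
    have : 0 ≤ p.Λ ^ 4 * (p.Λ ^ 2 * p.V + p.Λ ^ 2 * p.δ + p.N * p.δ ^ 2) +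
      p.Λ ^ 2 * p.N * p.δ * (1 + p.V) := by positivity
    linarith
  have a1 : p.Λ ^ 4 * p.N ≤ E ^ 2 := by
    have : 0 ≤ p.Λ ^ 4 * p.P4 := by positivity
    linarith
  have a2 : p.Λ ^ 2 * p.P4 ≤ E ^ 2 := by
    have : 0 ≤ p.Λ ^ 4 * p.N := by positivity
    have : p.Λ ^ 2 * p.P4 ≤ p.Λ ^ 4 * p.P4 :=
      mul_le_mul_of_nonneg_right (pow_le_pow_right₀ Λ1 (by norm_num)) hP
    linarith
  have a3 : p.κ ^ 2 * (p.Λ ^ 4 * p.N ^ 2) ≤ (p.N * E) ^ 2 := by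
    have := pow_le_pow_left₀ (mul_nonneg hA.wt.κ0 (sq_nonneg _)) hc.X8 2
    calc p.κ ^ 2 * (p.Λ ^ 4 * p.N ^ 2) = (p.κ * p.Λ ^ 2) ^ 2 * p.N ^ 2 := by ring
      _ ≤ E ^ 2 * p.N ^ 2 := by gcongr
      _ = _ := by ring
  refine ⟨by positivity, ?_, ?_, ?_, ?_, ?_, a3, hA.gl.H8, N1, Λ1⟩
  · calc p.Λ ^ 4 * p.N ^ 3 = (p.Λ ^ 4 * p.N) * p.N ^ 2 := by ring
      _ ≤ E ^ 2 * p.N ^ 2 := by gcongr
      _ = _ := by ring
  · calc p.Λ ^ 2 * p.P4 * p.N ^ 2 ≤ E ^ 2 * p.N ^ 2 := by gcongr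
      _ = _ := by ring
  · refine le_trans ?_ hc.X13
    have : 0 ≤ p.Λ ^ 2 * p.δ * p.N + p.Λ ^ 2 * p.V := by positivity
    linarith
  · refine le_trans (mul_le_mul_of_nonneg_left ?_ (by positivity)) hc.X12
    have : 0 ≤ p.Λ ^ 4 * p.δ * p.N + p.Λ ^ 4 * p.V := by positivity
    linarith
  · have := hc.X14
    have h1 : p.N ≤ p.Λ * p.N := le_mul_of_one_le_left hN Λ1
    exact le_mul_of_one_le_right hN (by linarith)

theorem DX_sq_nonneg_sum (f : ι → ℝ) : 0 ≤ ∑ a, f a ^ 2 := Finset.sum_nonneg fun _ _ => sq_nonneg _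

theorem DX_c1 {E f1 : ℝ} {d1 d2 : ι → ℝ} (nn : p.NN) (n : DX_Num p E) (h1 : f1 ≤ p.P4)
    (h2 : ∑ a, d1 a ^ 2 ≤ p.δ) {M : Mat ι} (h3 : fro M ≤ p.Λ ^ 4 * p.P4)
    (h4 : ∑ a, d2 a ^ 2 ≤ 4 * p.Λ ^ 2 * p.N) :
    (f1 + p.N * ∑ a, d1 a ^ 2) * (fro M + p.N * ∑ a, d2 a ^ 2) ≤ (10 * (p.N * E)) ^ 2 := by
  have hN := nn.N
  have hΛ := nn.Λ
  have hδ := nn.δ
  have hP := nn.P4
  have a1 : f1 + p.N * ∑ a, d1 a ^ 2 ≤ p.N * p.δ + p.P4 := by
    have := mul_le_mul_of_nonneg_left h2 hN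
    linarith
  have a2 : fro M + p.N * ∑ a, d2 a ^ 2 ≤ 4 * (p.Λ ^ 4 * p.P4 + p.Λ ^ 2 * p.N ^ 2) := by
    have := mul_le_mul_of_nonneg_left h4 hN
    have : 0 ≤ p.Λ ^ 4 * p.P4 := by positivity
    nlinarith
  have a3 := mul_le_mul a1 a2 (add_nonneg (fro_nonneg _) (mul_nonneg hN (DX_sq_nonneg_sum _)))
    (by positivity)
  have := n.n4
  nlinarith [sq_nonneg (p.N * E)]

theorem DX_c2 {E f1 : ℝ} {d : ι → ℝ} (nn : p.NN) (n : DX_Num p E) (h1 : f1 ≤ p.Qb)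
    (h2 : ∑ a, d a ^ 2 ≤ 4 * p.Λ ^ 4 * p.N) :
    f1 * (p.N * ∑ a, d a ^ 2) ≤ (10 * (p.N * E)) ^ 2 := by
  have hN := nn.N
  have a3 := mul_le_mul (h1.trans n.Qb) (mul_le_mul_of_nonneg_left h2 hN)
    (mul_nonneg hN (DX_sq_nonneg_sum _)) (by positivity)
  have := n.n1
  nlinarith [sq_nonneg (p.N * E)]

theorem DX_c3 {E f1 : ℝ} {d : ι → ℝ} (nn : p.NN) (n : DX_Num p E) (h1 : f1 ≤ p.Λ ^ 4 * p.Qb)
    (h2 : ∑ a, d a ^ 2 ≤ 4 * p.N) :
    f1 * (p.N * ∑ a, d a ^ 2) ≤ (10 * (p.N * E)) ^ 2 := by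
  have hN := nn.N
  have hΛ := nn.Λ
  have a3 := mul_le_mul (h1.trans (mul_le_mul_of_nonneg_left n.Qb (by positivity)))
    (mul_le_mul_of_nonneg_left h2 hN) (mul_nonneg hN (DX_sq_nonneg_sum _)) (by positivity)
  have := n.n1
  nlinarith [sq_nonneg (p.N * E)]

theorem DX_c4 {E f1 : ℝ} {M : Mat ι} (nn : p.NN) (n : DX_Num p E) (h1 : f1 ≤ p.Qb)
    (h2 : fro M ≤ p.Λ ^ 4 * p.Qb) : f1 * fro M ≤ (10 * (p.N * E)) ^ 2 := by
  have hN := nn.N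
  have hΛ := nn.Λ
  have a3 := mul_le_mul (h1.trans n.Qb) (h2.trans (mul_le_mul_of_nonneg_left n.Qb (by positivity)))
    (fro_nonneg _) (by positivity)
  have a4 : p.Λ ^ 4 * p.N ^ 2 ≤ p.Λ ^ 4 * p.N ^ 3 :=
    mul_le_mul_of_nonneg_left (pow_le_pow_right₀ n.N1 (by norm_num)) (by positivity)
  have := n.n1
  nlinarith [sq_nonneg (p.N * E)]

theorem DX_c5 {E f1 : ℝ} {d1 d2 : ι → ℝ} (nn : p.NN) (n : DX_Num p E) (h1 : f1 ≤ p.Λ ^ 2 * p.P4)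
    (h2 : ∑ a, d1 a ^ 2 ≤ 4 * p.N) {M : Mat ι} (h3 : fro M ≤ p.Λ ^ 2 * p.P4)
    (h4 : ∑ a, d2 a ^ 2 ≤ 4 * p.N) :
    (f1 + p.N * ∑ a, d1 a ^ 2) * (fro M + p.N * ∑ a, d2 a ^ 2) ≤ (10 * (p.N * E)) ^ 2 := by
  have hN := nn.N
  have hP := nn.P4
  have n3 := n.n3
  have NE := n.NE
  have b0 : 0 ≤ p.Λ ^ 2 * p.P4 := by positivity
  have a1 : f1 + p.N * ∑ a, d1 a ^ 2 ≤ 4 * (p.N * E) := by
    have := mul_le_mul_of_nonneg_left h2 hN
    nlinarith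
  have a2 : fro M + p.N * ∑ a, d2 a ^ 2 ≤ 4 * (p.N * E) := by
    have := mul_le_mul_of_nonneg_left h4 hN
    nlinarith
  have a3 := mul_le_mul a1 a2 (add_nonneg (fro_nonneg _) (mul_nonneg hN (DX_sq_nonneg_sum _)))
    (by positivity)
  nlinarith [sq_nonneg (p.N * E)]

theorem DX_c6 {E f1 : ℝ} {d : ι → ℝ} (nn : p.NN) (n : DX_Num p E) (h1 : f1 ≤ p.P4)
    (h2 : ∑ a, d a ^ 2 ≤ 4 * p.Λ ^ 2 * p.N) :
    f1 * (p.N * ∑ a, d a ^ 2) ≤ (10 * (p.N * E)) ^ 2 := by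
  have hN := nn.N
  have a3 := mul_le_mul h1 (mul_le_mul_of_nonneg_left h2 hN)
    (mul_nonneg hN (DX_sq_nonneg_sum _)) nn.P4
  have := n.n2
  nlinarith [sq_nonneg (p.N * E)]

theorem DX_c7 {E f1 : ℝ} {M : Mat ι} (nn : p.NN) (n : DX_Num p E) (h1 : f1 ≤ p.P4)
    (h2 : fro M ≤ p.P4) : f1 * fro M ≤ (10 * (p.N * E)) ^ 2 := by
  have hP := nn.P4
  have a1 : p.P4 ≤ p.N * E := by
    have := n.n3
    have : p.P4 ≤ p.Λ ^ 2 * p.P4 := le_mul_of_one_le_left hP (one_le_pow₀ n.Λ1)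
    nlinarith [sq_nonneg p.N]
  have a3 := mul_le_mul (h1.trans a1) (h2.trans a1) (fro_nonneg _) n.NE
  nlinarith [sq_nonneg (p.N * E)]

theorem DX_fro (hA : Bnd S A s p) (hB : Bnd S B t p) : fro (A * B) ≤ p.P4 := by
  rw [← XX_eq_fro hA.symm hB.symm]; exact XX_le_P4 hA hB

theorem DX_db (hA : Bnd S A s p) (hg : Glob p) : ∑ a, (A * A) a a ^ 2 ≤ 4 * p.N := by
  have := hA.sum_bb_sq.trans (hA.Db_le hg)
  simpa only [bb, sq A] using this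

theorem DX_sub (S : Finset ι) (f : ι → ℝ) : ∑ a ∈ S, f a ^ 2 ≤ ∑ a, f a ^ 2 :=
  Finset.sum_le_sum_of_subset_of_nonneg (Finset.subset_univ _) fun _ _ _ => sq_nonneg _

theorem DX_tr (h : Side S A s) (Y : Mat ι) : ∑ a ∈ S, (A * Y) a a = (A * Y).trace := by
  refine Finset.sum_subset (Finset.subset_univ _) fun a _ ha => ?_
  simp [Matrix.mul_apply, h.supp a _ ha]

/-- the indicator function of `S` is an eigenvector -/
def DX_Eig (S : Finset ι) (M : Mat ι) (c : ℝ) : Prop :=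
  M *ᵥ (fun c => if c ∈ S then (1 : ℝ) else 0) = c • fun c => if c ∈ S then (1 : ℝ) else 0

theorem DX_eig (h : Bnd S A s p) : DX_Eig S A s := h.toSide.mulVec_ind

theorem DX_Eig.mul {M M' : Mat ι} {c c' : ℝ} (h : DX_Eig S M c) (h' : DX_Eig S M' c') :
    DX_Eig S (M * M') (c * c') := by
  unfold DX_Eig at *
  rw [← Matrix.mulVec_mulVec, h', Matrix.mulVec_smul, h, smul_smul, mul_comm]

theorem DX_Eig.sq {M : Mat ι} {c : ℝ} (h : DX_Eig S M c) : DX_Eig S (M ^ 2) (c * c) := by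
  rw [pow_two]; exact h.mul h

theorem DX_total (hA : Bnd S A s p) {M : Mat ι} {c : ℝ} (h : DX_Eig S M c) (hc : |c| = 1) :
    |∑ a ∈ S, ∑ b ∈ S, M a b| ≤ p.N := by
  have e : ∀ a ∈ S, ∑ b ∈ S, M a b = c := fun a ha => by
    have := congrFun h a
    simpa [Matrix.mulVec, dotProduct, ha] using this
  rw [Finset.sum_congr rfl e, Finset.sum_const, nsmul_eq_mul, abs_mul, hc, mul_one, hA.card,
    abs_of_nonneg hA.nn.N]

theorem DX_one (hA : Ctx S w A s p) {E : ℝ} (hE : 0 ≤ E) (hc : CondX p E) {L X Y : Mat ι}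
    (hM : A * L = Xᵀ * Y) (hXY : fro X * fro Y ≤ (p.Λ * p.P4) ^ 2) (hL : fro L ≤ p.Λ ^ 4 * p.P4)
    (hd : ∑ a, L a a ^ 2 ≤ 4 * p.Λ ^ 4 * p.N) (he : |∑ a ∈ S, ∑ b ∈ S, (A * L) a b| ≤ p.N) :
    |Ew w (fun a b => (blk A s L a b).trace + (L a a + L b b))| ≤ 200 * (p.N * E) := by
  have nn := hA.bnd.nn
  have n := DX_num hA hE hc
  have hN := nn.N
  have hΛ := nn.Λ
  have hδ := nn.δ
  have hP := nn.P4
  have hq := nn.q2
  have NE := n.NE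
  have r := sqrt_mul_sqrt_le (fro_nonneg X) hXY (by positivity)
  have := hA.one_blk (L := L) (y := 2 * (p.N * E)) (by positivity) ?_ ?_ ?_ ?_ ?_
  · linarith
  · have a1 := sum_abs_diag_mul_le Xᵀ Y
    rw [fro_transpose, ← hM] at a1
    have a2 := pow_le_pow_left₀ (Finset.sum_nonneg fun _ _ => abs_nonneg _) (a1.trans r) 2
    have a3 := mul_le_mul_of_nonneg_right a2 (mul_nonneg hN hδ)
    have := hc.X3
    nlinarith [sq_nonneg (p.N * E)]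
  · have a3 := mul_le_mul_of_nonneg_left hL (mul_nonneg hN hδ)
    have := hc.X6
    nlinarith [sq_nonneg (p.N * E)]
  · have a1 := hA.wt.inner X Y
    rw [← hM, mul_assoc] at a1
    have a2 := mul_le_mul_of_nonneg_left r hA.wt.κ0
    have a3 := hc.X2
    have a4 := n.n5
    rw [abs_le] at a1 he ⊢
    constructor <;> nlinarith [a1.1, a1.2, he.1, he.2]
  · have a1 := (hA.bnd.op.fro_mul_left L).trans (mul_le_mul_of_nonneg_left hL (sq_nonneg _))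
    have a3 := mul_le_mul_of_nonneg_left a1 hq
    have := hc.X4
    nlinarith [sq_nonneg (p.N * E)]
  · have a3 := mul_le_mul_of_nonneg_left (mul_le_mul_of_nonneg_left hd hN) hq
    have := mul_le_mul_of_nonneg_right hc.X5 (sq_nonneg p.N)
    nlinarith [sq_nonneg (p.N * E)]

theorem DX_xb {K K₂ W : Mat ι} {s₂ lam : ℝ} (h : CtxT S w K s p θ) (h₂ : CtxT S w K₂ s₂ p θ)
    (hW : OpLe W lam) (hl : 0 ≤ lam) : XBd K s (W * K₂) θ lam :=
  xbd_of h.bnd.symm h₂.bnd.symm h.bnd.sgn hW hl h.θ1 h₂.θ1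

theorem DX_xb1 {K K₂ : Mat ι} {s₂ : ℝ} (h : CtxT S w K s p θ) (h₂ : CtxT S w K₂ s₂ p θ) :
    XBd K s K₂ θ 1 := by
  simpa using DX_xb h h₂ opLe_one zero_le_one

theorem DX_xb2 {K K₂ : Mat ι} {s₂ : ℝ} (h : CtxT S w K s p θ) (h₂ : CtxT S w K₂ s₂ p θ) :
    XBd K s (K₂ ^ 2) θ p.Λ := by
  rw [pow_two]; exact DX_xb h h₂ h₂.bnd.op h₂.bnd.nn.Λ

theorem DX_sep (hw : Wt S w p) {f h : ι → ℝ} {y F H : ℝ} (hf : ∑ a ∈ S, f a ^ 2 ≤ F)
    (hh : ∑ a ∈ S, h a ^ 2 ≤ H) (hy : p.κ ^ 2 * (F * H) ≤ y ^ 2) (hy0 : 0 ≤ y) :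
    Ew w (fun a b => f a * h b + f b * h a) ≤ 2 * ((∑ a ∈ S, f a) * ∑ b ∈ S, h b) + 2 * y := by
  rw [Ew_add, hw.swap (fun a b => f a * h b)]
  have a1 := (abs_le.1 (hw.sep f h)).2
  have f0 : 0 ≤ ∑ a ∈ S, f a ^ 2 := Finset.sum_nonneg fun _ _ => sq_nonneg _
  have h0 : 0 ≤ ∑ a ∈ S, h a ^ 2 := Finset.sum_nonneg fun _ _ => sq_nonneg _
  have a2 : p.κ * √(∑ a ∈ S, f a ^ 2) * √(∑ b ∈ S, h b ^ 2) ≤ y := by
    refine (pow_le_pow_iff_left₀ (by have := hw.κ0; positivity) hy0 two_ne_zero).1 (le_trans ?_ hy)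
    rw [mul_pow, mul_pow, Real.sq_sqrt f0, Real.sq_sqrt h0, mul_assoc]
    exact mul_le_mul_of_nonneg_left (mul_le_mul hf hh h0 (f0.trans hf)) (sq_nonneg _)
  linarith

theorem DX_XX (hA : Bnd S A s p) (hB : Bnd S B t p) (hX : XX A B ≤ p.Xb) {E u : ℝ}
    (hc : CondX p E) (hu : u ≤ p.X) : XX A B * u ≤ p.N * E := by
  have h0 := XX_nonneg hA.symm hB.symm
  have h1 := mul_le_mul_of_nonneg_left hu h0
  have h2 := mul_le_mul_of_nonneg_right hX hA.nn.X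
  have := hc.X7
  linarith

/-- `one_blk` with `L = A B² A` (`M = (B A²)ᵀ (B A)`; `X3`, `X6`, `X2` + `X14` via `Wt.inner`, `X4`, `X5`),
`two_blk` with `L = A` (`W = 1`), `L' = B² A` (`W = B²`; `X12`, `X10`); the main terms are
`δ_b (A B² A) a a + δ_a (A B² A) b b`: `Wt.sep`, `(p₂ - N) XX ≤ X Xb` (`X7`), error `X8`. -/
theorem X_pair1 (hA : CtxT S w A s p θ) (hB : CtxT S w B t p θ) (hX : XX A B ≤ p.Xb) {E : ℝ}
    (hE : 0 ≤ E) (hc : CondX p E) :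
    Ew w (fun a b => (blk A s (A * B ^ 2 * A) a b).trace +
      (blk A s A a b * blk A s (B ^ 2 * A) a b).trace) ≤ 3 * 10 ^ 7 * (p.N * E) := by
  have nn := hA.bnd.nn
  have n := DX_num hA.toCtx hE hc
  have hN := nn.N
  have hΛ := nn.Λ
  have fBA := DX_fro hB.bnd hA.bnd
  have dL := sum_diag_sandwich hA.bnd hB.bnd hA.gl
  have fL : fro (A * B ^ 2 * A) ≤ p.Λ ^ 4 * p.P4 := by
    have := (hA.bnd.op.mul hB.bnd.op).fro_mul_left (B * A)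
    have e : A * B * (B * A) = A * B ^ 2 * A := by simp only [sq, Matrix.mul_assoc]
    rw [e] at this
    refine this.trans ?_
    calc (p.Λ * p.Λ) ^ 2 * fro (B * A) ≤ (p.Λ * p.Λ) ^ 2 * p.P4 := by gcongr
      _ = _ := by ring
  have h1 := DX_one hA.toCtx hE hc (L := A * B ^ 2 * A) (X := B * A * A) (Y := B * A)
    (by simp only [Matrix.transpose_mul, transpose_of_symm hA.bnd.symm,
      transpose_of_symm hB.bnd.symm, sq, Matrix.mul_assoc])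
    (by
      have := (hA.bnd.op.fro_mul_right (B * A)).trans (mul_le_mul_of_nonneg_left fBA (sq_nonneg _))
      calc fro (B * A * A) * fro (B * A) ≤ (p.Λ ^ 2 * p.P4) * p.P4 :=
            mul_le_mul this fBA (fro_nonneg _) (mul_nonneg (sq_nonneg _) nn.P4)
        _ = _ := by ring)
    fL dL
    (DX_total hA.bnd ((DX_eig hA.bnd).mul (((DX_eig hA.bnd).mul (DX_eig hB.bnd).sq).mul
      (DX_eig hA.bnd))) (by simp only [abs_mul, hA.bnd.toSide.abs, hB.bnd.toSide.abs, mul_one]))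
  have e2 : A * (B ^ 2 * A) = A * B ^ 2 * A := (Matrix.mul_assoc _ _ _).symm
  have d21 : ∑ a, (B ^ 2 * A) a a ^ 2 ≤ 4 * p.Λ ^ 2 * p.N := by
    simpa using sum_diag_word hB.bnd hA.bnd hA.gl 1 0
  have f21 : fro (B ^ 2 * A) ≤ p.Λ ^ 4 * p.Qb := by
    refine ((hB.bnd.op.pow 2).fro_mul_left A).trans ?_
    rw [← pow_mul]
    exact mul_le_mul_of_nonneg_left hA.bnd.fro_one (by positivity)
  have h2 := hA.two_blk hA (DX_xb1 hA hA) (DX_xb hA hA (hB.bnd.op.pow 2) (sq_nonneg _)) zero_le_one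
    (sq_nonneg _) (by rw [one_mul]) hE hc
    (DX_c1 nn n (by rw [← sq]; exact hA.bnd.fro_two) hA.bnd.sum_diag_sq (by rw [e2]; exact fL) d21)
    (DX_c2 nn n hA.bnd.fro_one (by rw [e2]; exact dL))
    (DX_c3 nn n f21 (DX_db hA.bnd hA.gl)) (DX_c4 nn n hA.bnd.fro_one f21)
  have hss : s * s = 1 := by rw [← sq]; exact hA.bnd.toSide.sq
  rw [e2, hss] at h2
  have h3 := DX_sep hA.wt (f := fun a => (A * B ^ 2 * A) a a) (h := fun b => bb A b - 1)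
    (y := 4 * (p.N * E)) (F := 4 * p.Λ ^ 4 * p.N) (H := 4 * p.N) ((DX_sub S _).trans dL)
    (hA.bnd.sum_dm.trans (hA.bnd.Dm_le hA.gl)) (by have := n.kap; nlinarith) (by positivity)
  have t1 : ∑ a ∈ S, (A * B ^ 2 * A) a a = XX A B := by
    rw [← e2, DX_tr hA.bnd.toSide, e2, Matrix.trace_mul_comm, ← Matrix.mul_assoc, ← sq, XX]
  have t2 : ∑ b ∈ S, (bb A b - 1) ≤ p.X := by
    rw [Finset.sum_sub_distrib, hA.bnd.toSide.sum_bb, Finset.sum_const, nsmul_eq_mul, hA.bnd.card]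
    have := (abs_le.1 hA.bnd.X).2
    have := mul_le_mul_of_nonneg_left hA.bnd.ρ1 hN
    linarith
  have t3 := DX_XX hA.bnd hB.bnd hX hc t2
  rw [t1] at h3
  have e : Ew w (fun a b => (blk A s (A * B ^ 2 * A) a b).trace +
      (blk A s A a b * blk A s (B ^ 2 * A) a b).trace) =
      Ew w (fun a b => (blk A s (A * B ^ 2 * A) a b).trace +
        ((A * B ^ 2 * A) a a + (A * B ^ 2 * A) b b)) +
      Ew w (fun a b => (blk A s A a b * blk A s (B ^ 2 * A) a b).trace -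
        1 * ((A * A) b b * (A * B ^ 2 * A) a a + (A * A) a a * (A * B ^ 2 * A) b b)) +
      Ew w (fun a b => (A * B ^ 2 * A) a a * (bb A b - 1) + (A * B ^ 2 * A) b b * (bb A a - 1)) := by
    rw [← Ew_add, ← Ew_add]
    refine Ew_congr w fun a b _ => ?_
    simp only [bb, sq]
    ring
  rw [e]
  have := (abs_le.1 h1).2
  have := (abs_le.1 h2).2
  have := n.NE
  linarith

/-- as `X_pair1` with `L = B² A²`, and `L = B`, `L' = B A²` (`W = B A`); `s t = -1`, main terms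
`-(1 + (A B) b b) (B² A²) a a`: `neg_tr_AB`, `X7`, `X8` (`∑_S (1 + (A B) b b)² ≤ 10 N`). -/
theorem X_pair2 (hA : CtxT S w A s p θ) (hB : CtxT S w B t p θ) (hst : s * t = -1)
    (hX : XX A B ≤ p.Xb) {E : ℝ} (hE : 0 ≤ E) (hc : CondX p E) :
    Ew w (fun a b => (blk A s (B ^ 2 * A ^ 2) a b).trace +
      (blk A s B a b * blk B t (B * A ^ 2) a b).trace) ≤ 3 * 10 ^ 7 * (p.N * E) := by
  have nn := hA.bnd.nn
  have n := DX_num hA.toCtx hE hc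
  have hN := nn.N
  have hΛ := nn.Λ
  have fBA := DX_fro hB.bnd hA.bnd
  have dL : ∑ a, (B ^ 2 * A ^ 2) a a ^ 2 ≤ 4 * p.Λ ^ 4 * p.N := by
    simpa using sum_diag_word hB.bnd hA.bnd hA.gl 1 1
  have fBAA := (hA.bnd.op.fro_mul_right (B * A)).trans
    (mul_le_mul_of_nonneg_left fBA (sq_nonneg _))
  have fL : fro (B ^ 2 * A ^ 2) ≤ p.Λ ^ 4 * p.P4 := by
    have := hB.bnd.op.fro_mul_left (B * A * A)
    have e : B * (B * A * A) = B ^ 2 * A ^ 2 := by simp only [sq, Matrix.mul_assoc]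
    rw [e] at this
    refine this.trans ?_
    calc p.Λ ^ 2 * fro (B * A * A) ≤ p.Λ ^ 2 * (p.Λ ^ 2 * p.P4) := by gcongr
      _ = _ := by ring
  have h1 := DX_one hA.toCtx hE hc (L := B ^ 2 * A ^ 2) (X := B * A) (Y := B * A * A)
    (by simp only [Matrix.transpose_mul, transpose_of_symm hA.bnd.symm,
      transpose_of_symm hB.bnd.symm, sq, Matrix.mul_assoc])
    (by
      calc fro (B * A) * fro (B * A * A) ≤ p.P4 * (p.Λ ^ 2 * p.P4) :=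
            mul_le_mul fBA fBAA (fro_nonneg _) nn.P4
        _ = _ := by ring)
    fL dL
    (DX_total hA.bnd ((DX_eig hA.bnd).mul ((DX_eig hB.bnd).sq.mul (DX_eig hA.bnd).sq))
      (by simp only [abs_mul, hA.bnd.toSide.abs, hB.bnd.toSide.abs, mul_one]))
  have e2 : B * (B * A ^ 2) = B ^ 2 * A ^ 2 := by simp only [sq, Matrix.mul_assoc]
  have e3 : B * A * A = B * A ^ 2 := by simp only [sq, Matrix.mul_assoc]
  have d12 : ∑ a, (B * A ^ 2) a a ^ 2 ≤ 4 * p.Λ ^ 2 * p.N := by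
    simpa using sum_diag_word hB.bnd hA.bnd hA.gl 0 1
  have d11 : ∑ a, (A * B) a a ^ 2 ≤ 4 * p.N := by
    simpa using sum_diag_word hA.bnd hB.bnd hA.gl 0 0
  have f12 : fro (B * A ^ 2) ≤ p.Λ ^ 4 * p.Qb := by
    refine ((hA.bnd.op.pow 2).fro_mul_right B).trans ?_
    rw [← pow_mul]
    exact mul_le_mul_of_nonneg_left hB.bnd.fro_one (by positivity)
  have x2 := DX_xb hB hA (hB.bnd.op.mul hA.bnd.op) (mul_nonneg hΛ hΛ)
  rw [e3] at x2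
  have h2 := hA.two_blk hB (DX_xb1 hA hB) x2 zero_le_one
    (mul_nonneg hΛ hΛ) (by rw [one_mul, sq]) hE hc
    (DX_c1 nn n (DX_fro hA.bnd hB.bnd) hB.bnd.sum_diag_sq (by rw [e2]; exact fL) d12)
    (DX_c2 nn n hB.bnd.fro_one (by rw [e2]; exact dL))
    (DX_c3 nn n f12 d11) (DX_c4 nn n hB.bnd.fro_one f12)
  rw [e2, hst] at h2
  have q : ∑ b ∈ S, (-(1 + (A * B) b b)) ^ 2 ≤ 10 * p.N := by
    have b1 : ∑ b ∈ S, (-(1 + (A * B) b b)) ^ 2 ≤ ∑ b ∈ S, (2 + 2 * (A * B) b b ^ 2) :=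
      Finset.sum_le_sum fun b _ => by nlinarith [sq_nonneg (1 - (A * B) b b)]
    rw [Finset.sum_add_distrib, Finset.sum_const, nsmul_eq_mul, hA.bnd.card,
      ← Finset.mul_sum] at b1
    have := (DX_sub S fun b => (A * B) b b).trans d11
    linarith
  have h3 := DX_sep hA.wt (f := fun a => (B ^ 2 * A ^ 2) a a) (h := fun b => -(1 + (A * B) b b))
    (y := 7 * (p.N * E)) (F := 4 * p.Λ ^ 4 * p.N) (H := 10 * p.N) ((DX_sub S _).trans dL) q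
    (by have := n.kap; nlinarith [sq_nonneg (p.N * E)]) (by positivity)
  have t1 : ∑ a ∈ S, (B ^ 2 * A ^ 2) a a = XX A B := by
    rw [← e2, DX_tr hB.bnd.toSide, e2, XX_comm, XX]
  have t2 : ∑ b ∈ S, -(1 + (A * B) b b) ≤ p.X := by
    rw [Finset.sum_neg_distrib, Finset.sum_add_distrib, DX_tr hA.bnd.toSide, Finset.sum_const,
      nsmul_eq_mul, hA.bnd.card, mul_one]
    exact neg_tr_AB hA.bnd hB.bnd
  have t3 := DX_XX hA.bnd hB.bnd hX hc t2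
  rw [t1] at h3
  have e : Ew w (fun a b => (blk A s (B ^ 2 * A ^ 2) a b).trace +
      (blk A s B a b * blk B t (B * A ^ 2) a b).trace) =
      Ew w (fun a b => (blk A s (B ^ 2 * A ^ 2) a b).trace +
        ((B ^ 2 * A ^ 2) a a + (B ^ 2 * A ^ 2) b b)) +
      Ew w (fun a b => (blk A s B a b * blk B t (B * A ^ 2) a b).trace -
        -1 * ((A * B) b b * (B ^ 2 * A ^ 2) a a + (A * B) a a * (B ^ 2 * A ^ 2) b b)) +
      Ew w (fun a b => (B ^ 2 * A ^ 2) a a * -(1 + (A * B) b b) +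
        (B ^ 2 * A ^ 2) b b * -(1 + (A * B) a a)) := by
    rw [← Ew_add, ← Ew_add]
    refine Ew_congr w fun a b _ => ?_
    ring
  rw [e]
  have := (abs_le.1 h1).2
  have := (abs_le.1 h2).2
  have := n.NE
  linarith

/-- `two_blk` (`X13`, `X10`); main terms `-(A² B) b b (B² A) a a` resp. `-(A B²) b b (B A²) a a`:
`neg_tr_mul_tr` (`X9`), `X8`. -/
theorem X_pair3 (hA : CtxT S w A s p θ) (hB : CtxT S w B t p θ) (hst : s * t = -1)
    (hX : XX A B ≤ p.Xb) {E : ℝ} (hE : 0 ≤ E) (hc : CondX p E) :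
    Ew w (fun a b => (blk A s (A * B) a b * blk B t (B * A) a b).trace +
      (blk A s (B ^ 2) a b * blk B t (A ^ 2) a b).trace) ≤ 5 * 10 ^ 7 * (p.N * E) := by
  have nn := hA.bnd.nn
  have n := DX_num hA.toCtx hE hc
  have hN := nn.N
  have hΛ := nn.Λ
  have fBA := DX_fro hB.bnd hA.bnd
  have fAB := DX_fro hA.bnd hB.bnd
  have eA : A * (A * B) = A ^ 2 * B := by simp only [sq, Matrix.mul_assoc]
  have eB : B * (B * A) = B ^ 2 * A := by simp only [sq, Matrix.mul_assoc]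
  have dAB : ∑ a, (A * B) a a ^ 2 ≤ 4 * p.N := by
    simpa using sum_diag_word hA.bnd hB.bnd hA.gl 0 0
  have dBA : ∑ a, (B * A) a a ^ 2 ≤ 4 * p.N := by
    simpa using sum_diag_word hB.bnd hA.bnd hA.gl 0 0
  have dAAB : ∑ a, (A ^ 2 * B) a a ^ 2 ≤ 4 * p.Λ ^ 2 * p.N := by
    simpa using sum_diag_word hA.bnd hB.bnd hA.gl 1 0
  have dBBA : ∑ a, (B ^ 2 * A) a a ^ 2 ≤ 4 * p.Λ ^ 2 * p.N := by
    simpa using sum_diag_word hB.bnd hA.bnd hA.gl 1 0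
  have dABB : ∑ a, (A * B ^ 2) a a ^ 2 ≤ 4 * p.Λ ^ 2 * p.N := by
    simpa using sum_diag_word hA.bnd hB.bnd hA.gl 0 1
  have dBAA : ∑ a, (B * A ^ 2) a a ^ 2 ≤ 4 * p.Λ ^ 2 * p.N := by
    simpa using sum_diag_word hB.bnd hA.bnd hA.gl 0 1
  have dAA : ∑ a, (A ^ 2) a a ^ 2 ≤ 4 * p.N := hA.bnd.sum_bb_sq.trans (hA.bnd.Db_le hA.gl)
  have dBB : ∑ a, (B ^ 2) a a ^ 2 ≤ 4 * p.N := hB.bnd.sum_bb_sq.trans (hB.bnd.Db_le hA.gl)
  have h1 := hA.two_blk hB (DX_xb hA hB hA.bnd.op hΛ) (DX_xb hB hA hB.bnd.op hΛ) hΛ hΛ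
    (by rw [sq]) hE hc
    (DX_c5 nn n ((hA.bnd.op.fro_mul_left _).trans (mul_le_mul_of_nonneg_left fAB (sq_nonneg _))) dAB
      ((hB.bnd.op.fro_mul_left _).trans (mul_le_mul_of_nonneg_left fBA (sq_nonneg _))) dBA)
    (DX_c6 nn n fAB (by rw [eB]; exact dBBA)) (DX_c6 nn n fBA (by rw [eA]; exact dAAB))
    (DX_c7 nn n fAB fBA)
  rw [eA, eB, hst] at h1
  have fABB : fro (A * B ^ 2) ≤ p.Λ ^ 2 * p.P4 := by
    rw [sq B, ← Matrix.mul_assoc]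
    exact (hB.bnd.op.fro_mul_right _).trans (mul_le_mul_of_nonneg_left fAB (sq_nonneg _))
  have fBAA : fro (B * A ^ 2) ≤ p.Λ ^ 2 * p.P4 := by
    rw [sq A, ← Matrix.mul_assoc]
    exact (hA.bnd.op.fro_mul_right _).trans (mul_le_mul_of_nonneg_left fBA (sq_nonneg _))
  have h2 := hA.two_blk hB (DX_xb2 hA hB) (DX_xb2 hB hA) hΛ hΛ (by rw [sq]) hE hc
    (DX_c5 nn n fABB dBB fBAA dAA) (DX_c6 nn n hB.bnd.fro_two dBAA)
    (DX_c6 nn n hA.bnd.fro_two dABB) (DX_c7 nn n hB.bnd.fro_two hA.bnd.fro_two)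
  rw [hst] at h2
  have k : p.κ ^ 2 * (4 * p.Λ ^ 2 * p.N * (4 * p.Λ ^ 2 * p.N)) ≤ (4 * (p.N * E)) ^ 2 := by
    have := n.kap; nlinarith
  have h3 := DX_sep hA.wt (f := fun a => (B ^ 2 * A) a a) (h := fun b => -(A ^ 2 * B) b b)
    ((DX_sub S _).trans dBBA) ((DX_sub S _).trans (by simpa using dAAB)) k (by positivity)
  have h4 := DX_sep hA.wt (f := fun a => (B * A ^ 2) a a) (h := fun b => -(A * B ^ 2) b b)
    ((DX_sub S _).trans dBAA) ((DX_sub S _).trans (by simpa using dABB)) k (by positivity)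
  have t1 : ∑ a ∈ S, (B ^ 2 * A) a a = (B ^ 2 * A).trace := by rw [← eB, DX_tr hB.bnd.toSide]
  have t2 : ∑ a ∈ S, (A ^ 2 * B) a a = (A ^ 2 * B).trace := by rw [← eA, DX_tr hA.bnd.toSide]
  have t3 : ∑ a ∈ S, (B * A ^ 2) a a = (A ^ 2 * B).trace := by
    rw [DX_tr hB.bnd.toSide, Matrix.trace_mul_comm]
  have t4 : ∑ a ∈ S, (A * B ^ 2) a a = (B ^ 2 * A).trace := by
    rw [DX_tr hA.bnd.toSide, Matrix.trace_mul_comm]
  rw [Finset.sum_neg_distrib, t1, t2] at h3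
  rw [Finset.sum_neg_distrib, t3, t4] at h4
  have t5 := neg_tr_mul_tr hA.bnd hB.bnd hX
  have t6 : p.Qb * √(p.Qb * p.Xb) ≤ p.N * E := by
    have hQ := nn.Qb
    have hXb : 0 ≤ p.Xb := (XX_nonneg hA.bnd.symm hB.bnd.symm).trans hX
    refine (pow_le_pow_iff_left₀ (by positivity) n.NE two_ne_zero).1 (le_trans (le_of_eq ?_) hc.X9)
    rw [mul_pow, Real.sq_sqrt (mul_nonneg hQ hXb)]
    ring
  have e : Ew w (fun a b => (blk A s (A * B) a b * blk B t (B * A) a b).trace +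
      (blk A s (B ^ 2) a b * blk B t (A ^ 2) a b).trace) =
      Ew w (fun a b => (blk A s (A * B) a b * blk B t (B * A) a b).trace -
        -1 * ((A ^ 2 * B) b b * (B ^ 2 * A) a a + (A ^ 2 * B) a a * (B ^ 2 * A) b b)) +
      Ew w (fun a b => (blk A s (B ^ 2) a b * blk B t (A ^ 2) a b).trace -
        -1 * ((A * B ^ 2) b b * (B * A ^ 2) a a + (A * B ^ 2) a a * (B * A ^ 2) b b)) +
      Ew w (fun a b => (B ^ 2 * A) a a * -(A ^ 2 * B) b b + (B ^ 2 * A) b b * -(A ^ 2 * B) a a) +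
      Ew w (fun a b => (B * A ^ 2) a a * -(A * B ^ 2) b b + (B * A ^ 2) b b * -(A * B ^ 2) a a) := by
    rw [← Ew_add, ← Ew_add, ← Ew_add]
    refine Ew_congr w fun a b _ => ?_
    ring
  rw [e]
  have := (abs_le.1 h1).2
  have := (abs_le.1 h2).2
  have := n.NE
  linarith

/-- `θ = tt A B`, `θ² ≤ 3 (1 + b⁺² + b⁻²)` -/
theorem ctxT_of (hA : Ctx S w A 1 p) (hB : Ctx S w B (-1) p)
    (h2 : ∀ a b, w a b ≠ 0 → Alw2 A B p a b) :
    CtxT S w A 1 p (tt A B) ∧ CtxT S w B (-1) p (tt A B) := by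
  have bA := bb_nonneg hA.bnd.symm
  have bB := bb_nonneg hB.bnd.symm
  have q : ∑ c ∈ S, tt A B c ^ 2 ≤ 27 * p.N := by
    have b1 : ∑ c ∈ S, tt A B c ^ 2 ≤ ∑ c ∈ S, (3 + 3 * bb A c ^ 2 + 3 * bb B c ^ 2) :=
      Finset.sum_le_sum fun c _ => by
        unfold tt
        nlinarith [sq_nonneg (1 - bb A c), sq_nonneg (1 - bb B c), sq_nonneg (bb A c - bb B c)]
    rw [Finset.sum_add_distrib, Finset.sum_add_distrib, Finset.sum_const, nsmul_eq_mul, hA.bnd.card,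
      ← Finset.mul_sum, ← Finset.mul_sum] at b1
    have a1 := (DX_sub S (bb A)).trans (hA.bnd.sum_bb_sq.trans (hA.bnd.Db_le hA.gl))
    have a2 := (DX_sub S (bb B)).trans (hB.bnd.sum_bb_sq.trans (hB.bnd.Db_le hA.gl))
    linarith
  exact ⟨⟨hA, fun c => by have := bB c; unfold tt; linarith, q, fun a b h => (h2 a b h).alA,
      fun a b h => (h2 a b h).beA⟩,
    ⟨hB, fun c => by have := bA c; unfold tt; linarith, q, fun a b h => (h2 a b h).alB,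
      fun a b h => (h2 a b h).beB⟩⟩

theorem driftX (hA : Ctx S w A 1 p) (hB : Ctx S w B (-1) p)
    (h2 : ∀ a b, w a b ≠ 0 → Alw2 A B p a b) (hX : XX A B ≤ p.Xb) {E : ℝ} (hE : 0 ≤ E)
    (hc : CondX p E) :
    Ew w (fun a b => XX (step A 1 a b) (step B (-1) a b)) ≤
      Ew w (fun _ _ => 1) * XX A B + 10 ^ 9 * (p.N * E) := by
  obtain ⟨cA, cB⟩ := ctxT_of hA hB h2
  have hX' : XX B A ≤ p.Xb := by rwa [XX_comm]
  have hΛ := hA.bnd.nn.Λ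
  have p1 := X_pair1 cA cB hX hE hc
  have p2 := X_pair2 cA cB (by norm_num) hX hE hc
  have p3 := X_pair1 cB cA hX' hE hc
  have p4 := X_pair2 cB cA (by norm_num) hX' hE hc
  have p5 := X_pair3 cA cB (by norm_num) hX hE hc
  have q1 := (abs_le.1 (three_blk cA cA cB (DX_xb1 cA cA) (DX_xb1 cA cB)
    (DX_xb cB cA hB.bnd.op hΛ) zero_le_one zero_le_one hΛ (by simp) hE hc)).2
  have q2 := (abs_le.1 (three_blk cA cA cB (DX_xb1 cA cA) (DX_xb2 cA cB)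
    (DX_xb1 cB cA) zero_le_one hΛ zero_le_one (by simp) hE hc)).2
  have q3 := (abs_le.1 (three_blk cA cB cB (DX_xb cA cB hA.bnd.op hΛ) (DX_xb1 cB cB)
    (DX_xb1 cB cA) hΛ zero_le_one zero_le_one (by simp) hE hc)).2
  have q4 := (abs_le.1 (three_blk cA cB cB (DX_xb1 cA cB) (DX_xb1 cB cB)
    (DX_xb2 cB cA) zero_le_one zero_le_one hΛ (by simp) hE hc)).2
  have q5 := (abs_le.1 (four_blk cA cA cB cB (DX_xb1 cA cA) (DX_xb1 cA cB) (DX_xb1 cB cB)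
    (DX_xb1 cB cA) hE hc)).2
  have p0 := Ew_const w (XX A B)
  have NE := (DX_num hA hE hc).NE
  rw [Ew_congr w fun a b hab => XX_expand (hA.adm hab) (hB.adm hab)]
  simp only [Ew_add] at p1 p2 p3 p4 p5 ⊢
  linarith

end Crest.Agent.R62
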