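import Crest.Agent.R62.Mom

/-!
# Row 62: drift of `XX`, scaling of the `2 × 2` blocks

`θ` is a weight with `1 + b_c ≤ θ c` on both sides (`tt A B`).  With `D = diag (√θ_a, √θ_b)` the matrix `XB` is
`D X̃ D` with `|X̃| ≤ √2 λ`, so `blk = D⁻¹ (D G D X̃) D`; `Sca` records the resulting shape without dividing.
-/

set_option autoImplicit false

open Finset Matrix

noncomputable section

namespace Crest.Agent.R62

variable {ι : Type} [Fintype ι] [DecidableEq ι]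

/-- `M = D⁻¹ M̃ D` with `|M̃| ≤ m`, `t = √θ_b / √θ_a` -/
def Sca (t : ℝ) (M : Matrix (Fin 2) (Fin 2) ℝ) (m : ℝ) : Prop :=
  |M 0 0| ≤ m ∧ |M 1 1| ≤ m ∧ |M 0 1| ≤ m * t ∧ |M 1 0| ≤ m / t

theorem X1_abs2 {x y z u A B C D : ℝ} (hx : |x| ≤ A) (hy : |y| ≤ B) (hz : |z| ≤ C) (hu : |u| ≤ D) :
    |x * y + z * u| ≤ A * B + C * D := by
  refine (abs_add_le _ _).trans (add_le_add ?_ ?_) <;> rw [abs_mul]
  · exact mul_le_mul hx hy (abs_nonneg _) ((abs_nonneg _).trans hx)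
  · exact mul_le_mul hz hu (abs_nonneg _) ((abs_nonneg _).trans hz)

theorem Sca.mono {t m m' : ℝ} {M : Matrix (Fin 2) (Fin 2) ℝ} (ht : 0 < t) (h : Sca t M m)
    (hm : m ≤ m') : Sca t M m' :=
  ⟨h.1.trans hm, h.2.1.trans hm, h.2.2.1.trans (mul_le_mul_of_nonneg_right hm ht.le),
    h.2.2.2.trans (div_le_div_of_nonneg_right hm ht.le)⟩

theorem Sca.mul {t m m' : ℝ} {M M' : Matrix (Fin 2) (Fin 2) ℝ} (ht : 0 < t) (h : Sca t M m)
    (h' : Sca t M' m') : Sca t (M * M') (2 * (m * m')) := by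
  obtain ⟨a1, a2, a3, a4⟩ := h
  obtain ⟨b1, b2, b3, b4⟩ := h'
  simp only [Sca, Matrix.mul_apply, Fin.sum_univ_two]
  refine ⟨(X1_abs2 a1 b1 a3 b4).trans_eq ?_, (X1_abs2 a4 b3 a2 b2).trans_eq ?_,
    (X1_abs2 a1 b3 a3 b2).trans_eq ?_, (X1_abs2 a4 b1 a2 b4).trans_eq ?_⟩ <;> field_simp <;> ring

theorem Sca.trace {t m : ℝ} {M : Matrix (Fin 2) (Fin 2) ℝ} (h : Sca t M m) : |M.trace| ≤ 2 * m := by
  rw [Matrix.trace_fin_two]
  linarith [abs_add_le (M 0 0) (M 1 1), h.1, h.2.1]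

/-- entry bounds of `XB` -/
def XBd (K : Mat ι) (s : ℝ) (L : Mat ι) (θ : ι → ℝ) (lam : ℝ) : Prop := ∀ a b,
  |XB K s L a b 0 0| ≤ 2 * lam * θ a ∧ |XB K s L a b 1 1| ≤ 2 * lam * θ b ∧
  |XB K s L a b 0 1| ≤ 2 * lam * √(θ a * θ b) ∧ |XB K s L a b 1 0| ≤ 2 * lam * √(θ a * θ b)

theorem X1_entry {K K₂ W : Mat ι} {s lam : ℝ} {θ : ι → ℝ} (hK : ∀ a b, K a b = K b a)
    (hK₂ : ∀ a b, K₂ a b = K₂ b a) (hs : s = 1 ∨ s = -1) (hW : OpLe W lam) (hl : 0 ≤ lam)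
    (h1 : ∀ c, 1 + bb K c ≤ θ c) (h2 : ∀ c, 1 + bb K₂ c ≤ θ c) (a b d : ι) :
    |(K * (W * K₂)) a d - s * (W * K₂) b d| ≤ 2 * lam * √(θ a * θ d) := by
  have hb := hW.bilin (fun c => K a c - if c = b then s else 0) (fun e => K₂ e d)
  have e1 : (fun c => K a c - if c = b then s else 0) ⬝ᵥ (W *ᵥ fun e => K₂ e d) =
      (K * (W * K₂)) a d - s * (W * K₂) b d := by
    simp [dotProduct, Matrix.mulVec, Matrix.mul_apply, sub_mul, Finset.sum_sub_distrib]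
  have hs2 : s ^ 2 = 1 := by rcases hs with rfl | rfl <;> norm_num
  have e2 : (fun c => K a c - if c = b then s else 0) ⬝ᵥ (fun c => K a c - if c = b then s else 0) ≤
      2 * θ a := by
    have : ∀ c, (K a c - if c = b then s else 0) * (K a c - if c = b then s else 0) ≤
        2 * K a c ^ 2 + if c = b then 2 else 0 := by
      intro c
      split_ifs
      · nlinarith [sq_nonneg (K a c + s)]
      · nlinarith [sq_nonneg (K a c)]
    refine (Finset.sum_le_sum fun c _ => this c).trans ?_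
    rw [Finset.sum_add_distrib, ← Finset.mul_sum, ← bb_eq hK]
    simp only [Finset.sum_ite_eq', Finset.mem_univ, if_true]
    linarith [h1 a]
  have e3 : (fun e => K₂ e d) ⬝ᵥ (fun e => K₂ e d) = bb K₂ d := by
    rw [bb_eq' hK₂]
    simp [dotProduct, pow_two]
  have p1 : 0 ≤ θ a := by linarith [h1 a, bb_nonneg hK a]
  have p2 : 0 ≤ θ d := by linarith [h1 d, bb_nonneg hK d]
  rw [e1, e3] at hb
  refine abs_le_of_sq_le_sq' ?_ (by positivity) |> abs_le.2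
  rw [mul_pow, mul_pow, Real.sq_sqrt (mul_nonneg p1 p2)]
  refine hb.trans ?_
  have e4 := mul_le_mul e2 (show bb K₂ d ≤ θ d by linarith [h2 d]) (bb_nonneg hK₂ d) (by linarith)
  have e5 := mul_le_mul_of_nonneg_left e4 (sq_nonneg lam)
  nlinarith [mul_nonneg (sq_nonneg lam) (mul_nonneg p1 p2)]

/-- `XB = ṽᵀ W v₂` (`vT_mul_vE`), `|ṽ_a|² ≤ 2 (b_a + 1)`, `|v_a|² = b_a`, `OpLe.bilin` -/
theorem xbd_of {K K₂ W : Mat ι} {s lam : ℝ} {θ : ι → ℝ} (hK : ∀ a b, K a b = K b a)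
    (hK₂ : ∀ a b, K₂ a b = K₂ b a) (hs : s = 1 ∨ s = -1) (hW : OpLe W lam) (hl : 0 ≤ lam)
    (h1 : ∀ c, 1 + bb K c ≤ θ c) (h2 : ∀ c, 1 + bb K₂ c ≤ θ c) : XBd K s (W * K₂) θ lam := by
  intro a b
  have p : ∀ c, 0 ≤ θ c := fun c => by linarith [h1 c, bb_nonneg hK c]
  have key := X1_entry hK hK₂ hs hW hl h1 h2
  have k1 := key a b a
  have k2 := key b a b
  have k3 := key a b b
  have k4 := key b a a
  rw [Real.sqrt_mul_self (p _)] at k1 k2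
  rw [mul_comm (θ b)] at k4
  exact ⟨k1, k2, k3, k4⟩

/-- `n` -/
def nA (K : Mat ι) (θ : ι → ℝ) (a b : ι) : ℝ := √(θ a * θ b) + |K b b| * θ a + |K a a| * θ b
/-- `n'` -/
def nB (K : Mat ι) (θ : ι → ℝ) (a b : ι) : ℝ :=
  th K a b * √(θ a * θ b) + |K b b| * θ a + |K a a| * θ b
/-- the swap -/
def sw2 : Matrix (Fin 2) (Fin 2) ℝ := !![0, 1; 1, 0]

/-- one side together with the weight `θ` -/
structure CtxT (S : Finset ι) (w : ι → ι → ℝ) (K : Mat ι) (s : ℝ) (p : Par) (θ : ι → ℝ) : Prop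
    extends Ctx S w K s p where
  θ1 : ∀ c, 1 + bb K c ≤ θ c
  θ2 : ∑ c ∈ S, θ c ^ 2 ≤ 27 * p.N
  al : ∀ a b, w a b ≠ 0 → |K a a| * θ b ≤ p.ζ * p.Λ
  be : ∀ a b, w a b ≠ 0 → |K b b| * θ a ≤ p.ζ * p.Λ

variable {S : Finset ι} {w : ι → ι → ℝ} {K K' L L' : Mat ι} {s s' lam lam' : ℝ} {p : Par}
  {θ : ι → ℝ}

theorem CtxT.one_le (h : CtxT S w K s p θ) (c : ι) : 1 ≤ θ c := by
  linarith [h.θ1 c, bb_nonneg h.bnd.symm c]

theorem CtxT.t_pos (h : CtxT S w K s p θ) (a b : ι) : 0 < √(θ b) / √(θ a) :=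
  div_pos (Real.sqrt_pos.2 (by linarith [h.one_le b])) (Real.sqrt_pos.2 (by linarith [h.one_le a]))

theorem CtxT.sq_le (h : CtxT S w K s p θ) (a b : ι) :
    1 ≤ √(θ a * θ b) ∧ √(θ a * θ b) ≤ θ a * θ b := by
  have h1 : 1 ≤ θ a * θ b := one_le_mul_of_one_le_of_one_le (h.one_le a) (h.one_le b)
  exact ⟨Real.one_le_sqrt.2 h1, Real.sqrt_le_iff.2 ⟨by linarith, by nlinarith⟩⟩

theorem CtxT.sca_gen (h : CtxT S w K s p θ) (hx : XBd K s L θ lam) (a b : ι)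
    {G : Matrix (Fin 2) (Fin 2) ℝ} {A B C : ℝ} (g0 : |G 0 0| ≤ A) (g1 : |G 0 1| ≤ B)
    (g2 : |G 1 0| ≤ B) (g3 : |G 1 1| ≤ C) :
    Sca (√(θ b) / √(θ a)) (G * XB K s L a b)
      (2 * lam * (B * √(θ a * θ b) + A * θ a + C * θ b)) := by
  obtain ⟨x0, x3, x1, x2⟩ := hx a b
  have pa : 0 < θ a := by linarith [h.one_le a]
  have pb : 0 < θ b := by linarith [h.one_le b]
  have hl : 0 ≤ lam := by
    have := (abs_nonneg _).trans x0
    exact le_of_mul_le_mul_right (by linarith : 0 * θ a ≤ lam * θ a) pa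
  have hA := (abs_nonneg _).trans g0
  have hC := (abs_nonneg _).trans g3
  rw [Real.sqrt_mul pa.le] at x1 x2 ⊢
  obtain ⟨u, hu, eu⟩ : ∃ u, 0 < u ∧ θ a = u * u := ⟨√(θ a), Real.sqrt_pos.2 pa,
    (Real.mul_self_sqrt pa.le).symm⟩
  obtain ⟨v, hv, ev⟩ : ∃ v, 0 < v ∧ θ b = v * v := ⟨√(θ b), Real.sqrt_pos.2 pb,
    (Real.mul_self_sqrt pb.le).symm⟩
  simp only [eu, ev, Real.sqrt_mul_self hu.le, Real.sqrt_mul_self hv.le] at x0 x1 x2 x3 ⊢
  simp only [Sca, Matrix.mul_apply, Fin.sum_univ_two]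
  refine ⟨(X1_abs2 g0 x0 g1 x2).trans ?_, (X1_abs2 g2 x1 g3 x3).trans ?_,
    (X1_abs2 g0 x1 g1 x3).trans ?_, (X1_abs2 g2 x0 g3 x2).trans ?_⟩
  · have : 0 ≤ lam * (C * (v * v)) := by positivity
    linarith
  · have : 0 ≤ lam * (A * (u * u)) := by positivity
    linarith
  · rw [← mul_div_assoc, le_div_iff₀ hu]
    have : 0 ≤ lam * (C * (v * v * v)) := by positivity
    linarith
  · rw [div_div_eq_mul_div, le_div_iff₀ hv]
    have : 0 ≤ lam * (A * (u * u * u)) := by positivity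
    linarith

theorem X1_jmul {j x : ℝ} (h0 : 24 / 25 ≤ j) (h1 : j ≤ 21 / 20) : |j * x| ≤ 21 / 20 * |x| := by
  rw [abs_mul, abs_of_nonneg (by linarith)]
  exact mul_le_mul_of_nonneg_right h1 (abs_nonneg _)

theorem CtxT.sca_blk (h : CtxT S w K s p θ) (hx : XBd K s L θ lam) (hl : 0 ≤ lam) {a b : ι}
    (hab : w a b ≠ 0) : Sca (√(θ b) / √(θ a)) (blk K s L a b) (3 * lam * nA K θ a b) := by
  have sc := h.scal hab
  refine (h.sca_gen hx a b (G := GG K s a b) (X1_jmul sc.jl sc.ju) sc.gu' sc.gu'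
    (X1_jmul sc.jl sc.ju)).mono (h.t_pos a b) ?_
  have pa : 0 < θ a := by linarith [h.one_le a]
  have pb : 0 < θ b := by linarith [h.one_le b]
  have e1 : 0 ≤ lam * √(θ a * θ b) := by positivity
  have e2 : 0 ≤ lam * (|K b b| * θ a) := by positivity
  have e3 : 0 ≤ lam * (|K a a| * θ b) := by positivity
  unfold nA
  linarith

theorem CtxT.sca_sw (h : CtxT S w K s p θ) (hx : XBd K s L θ lam) (a b : ι) :
    Sca (√(θ b) / √(θ a)) (s • (sw2 * XB K s L a b)) (2 * lam * √(θ a * θ b)) := by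
  have hs := h.bnd.toSide.abs
  rw [← Matrix.smul_mul]
  refine (h.sca_gen hx a b (G := s • sw2) (A := 0) (B := 1) (C := 0) ?_ ?_ ?_ ?_).mono
    (h.t_pos a b) (le_of_eq (by ring)) <;> simp [sw2, hs]

/-- `G - s σ = !![j β, g - s; g - s, j α]` -/
theorem CtxT.sca_sub (h : CtxT S w K s p θ) (hx : XBd K s L θ lam) (hl : 0 ≤ lam) {a b : ι}
    (hab : w a b ≠ 0) : Sca (√(θ b) / √(θ a)) (blk K s L a b - s • (sw2 * XB K s L a b))
      (10 * lam * nB K θ a b) := by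
  have sc := h.scal hab
  rw [blk, ← Matrix.smul_mul, ← Matrix.sub_mul]
  refine (h.sca_gen hx a b (G := GG K s a b - s • sw2) (A := 21 / 20 * |K b b|)
    (B := 5 * th K a b) (C := 21 / 20 * |K a a|) ?_ ?_ ?_ ?_).mono (h.t_pos a b) ?_
  · simpa [GG, sw2, -abs_mul] using X1_jmul sc.jl sc.ju
  · simpa [GG, sw2] using sc.g1
  · simpa [GG, sw2] using sc.g1
  · simpa [GG, sw2, -abs_mul] using X1_jmul sc.jl sc.ju
  · have pa : 0 < θ a := by linarith [h.one_le a]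
    have pb : 0 < θ b := by linarith [h.one_le b]
    have e2 : 0 ≤ lam * (|K b b| * θ a) := by positivity
    have e3 : 0 ≤ lam * (|K a a| * θ b) := by positivity
    unfold nB
    linarith

theorem CtxT.diag_sq (h : CtxT S w K s p θ) : ∑ a ∈ S, |K a a| ^ 2 ≤ p.δ := by
  simp only [sq_abs]
  exact (Finset.sum_le_sum_of_subset_of_nonneg (Finset.subset_univ S)
    fun _ _ _ => sq_nonneg _).trans h.bnd.sum_diag_sq

theorem CtxT.Ett (h : CtxT S w K s p θ) : Ew w (fun a b => (θ a * θ b) ^ 2) ≤ 1458 * p.N ^ 2 := by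
  have h0 : 0 ≤ ∑ c ∈ S, θ c ^ 2 := Finset.sum_nonneg fun _ _ => sq_nonneg _
  have := mul_le_mul h.θ2 h.θ2 h0 (h0.trans h.θ2)
  linarith [h.wt.sq_prod θ θ]

theorem CtxT.Eal (h : CtxT S w K s p θ) :
    Ew w (fun a b => (|K a a| * θ b) ^ 2) ≤ 54 * (p.δ * p.N) := by
  have h0 : 0 ≤ ∑ c ∈ S, θ c ^ 2 := Finset.sum_nonneg fun _ _ => sq_nonneg _
  have := mul_le_mul h.diag_sq h.θ2 h0 h.bnd.nn.δ
  linarith [h.wt.sq_prod (fun a => |K a a|) θ]

theorem CtxT.Ebe (h : CtxT S w K s p θ) :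
    Ew w (fun a b => (|K b b| * θ a) ^ 2) ≤ 54 * (p.δ * p.N) := by
  rw [← h.wt.swap]
  exact h.Eal

theorem CtxT.EP (h : CtxT S w K s p θ) :
    Ew w (fun a b => (|K b b| * θ a + |K a a| * θ b) ^ 2) ≤ 216 * (p.δ * p.N) := by
  refine (h.wt.mono (g := fun a b => 2 * (|K b b| * θ a) ^ 2 + 2 * (|K a a| * θ b) ^ 2)
    fun a b _ => by nlinarith [sq_nonneg (|K b b| * θ a - |K a a| * θ b)]).trans ?_
  rw [Ew_add, Ew_mul, Ew_mul]
  linarith [h.Eal, h.Ebe]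

theorem CtxT.nA_nonneg (h : CtxT S w K s p θ) (K' : Mat ι) (a b : ι) : 0 ≤ nA K' θ a b := by
  have pa : 0 < θ a := by linarith [h.one_le a]
  have pb : 0 < θ b := by linarith [h.one_le b]
  unfold nA
  positivity

theorem CtxT.nB_nonneg (h : CtxT S w K s p θ) (K' : Mat ι) (a b : ι) : 0 ≤ nB K' θ a b := by
  have pa : 0 < θ a := by linarith [h.one_le a]
  have pb : 0 < θ b := by linarith [h.one_le b]
  unfold nB th
  positivity

theorem CtxT.nA_pow (h : CtxT S w K s p θ) (k : ℕ) (hk : k ≤ 2) :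
    Ew w (fun a b => nA K θ a b ^ (k + 2)) ≤
      2 ^ (k + 1) * (1458 * p.N ^ 2 + 2 ^ (k + 1) * ((p.ζ * p.Λ) ^ k * (108 * (p.δ * p.N)))) := by
  have hz : 0 ≤ (p.ζ * p.Λ) ^ k :=
    pow_nonneg (mul_nonneg (by linarith [h.gl.H12]) h.bnd.nn.Λ) k
  refine (h.wt.mono (g := fun a b => 2 ^ (k + 1) * ((θ a * θ b) ^ 2 + 2 ^ (k + 1) *
    ((p.ζ * p.Λ) ^ k * ((|K b b| * θ a) ^ 2 + (|K a a| * θ b) ^ 2)))) fun a b hab => ?_).trans ?_
  · have pa : 0 < θ a := by linarith [h.one_le a]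
    have pb : 0 < θ b := by linarith [h.one_le b]
    have p1 : 0 ≤ |K b b| * θ a := by positivity
    have p2 : 0 ≤ |K a a| * θ b := by positivity
    rw [nA, add_assoc]
    refine (add_pow_le (Real.sqrt_nonneg _) (add_nonneg p1 p2) _).trans ?_
    refine mul_le_mul_of_nonneg_left (add_le_add ?_ ?_) (by positivity)
    · refine (pow_le_pow_right₀ (h.sq_le a b).1 (show k + 2 ≤ 2 * 2 by omega)).trans_eq ?_
      rw [pow_mul, Real.sq_sqrt (by positivity)]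
    · refine (add_pow_le p1 p2 _).trans (mul_le_mul_of_nonneg_left ?_ (by positivity))
      rw [mul_add, pow_add, pow_add]
      exact add_le_add
        (mul_le_mul_of_nonneg_right (pow_le_pow_left₀ p1 (h.be a b hab) k) (sq_nonneg _))
        (mul_le_mul_of_nonneg_right (pow_le_pow_left₀ p2 (h.al a b hab) k) (sq_nonneg _))
  · rw [Ew_mul, Ew_add, Ew_mul, Ew_mul, Ew_add]
    gcongr
    · exact h.Ett
    · linarith [h.Eal, h.Ebe]

/-- `n³ ≤ 9 (θ_a² θ_b² + ζ Λ β² θ_a² + ζ Λ α² θ_b²)` (`θ ≥ 1`) -/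
theorem CtxT.nA_three (h : CtxT S w K s p θ) :
    Ew w (fun a b => nA K θ a b ^ 3) ≤ 20000 * (p.N ^ 2 + p.ζ * p.Λ * p.δ * p.N) := by
  refine (h.nA_pow 1 (by norm_num)).trans ?_
  have h1 : 0 ≤ p.ζ * p.Λ * p.δ * p.N :=
    mul_nonneg (mul_nonneg (mul_nonneg (by linarith [h.gl.H12]) h.bnd.nn.Λ) h.bnd.nn.δ) h.bnd.nn.N
  norm_num
  nlinarith [sq_nonneg p.N]

theorem CtxT.nA_four (h : CtxT S w K s p θ) :
    Ew w (fun a b => nA K θ a b ^ 4) ≤ 50000 * (p.N ^ 2 + p.ζ ^ 2 * p.Λ ^ 2 * p.δ * p.N) := by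
  refine (h.nA_pow 2 le_rfl).trans ?_
  have h1 : 0 ≤ p.ζ ^ 2 * p.Λ ^ 2 * p.δ * p.N :=
    mul_nonneg (mul_nonneg (by positivity) h.bnd.nn.δ) h.bnd.nn.N
  norm_num
  nlinarith [sq_nonneg p.N]

/-- `ϑ θ_a θ_b`: Cauchy–Schwarz with `Ew_th_sq`; `|β| θ_a √(θ_a θ_b) ≤ θ_a² · |β| θ_b`,
`∑ |β| θ_b ≤ √(27 δ N)`; `|β| |β'| θ_a²`, `|β| θ_a |α'| θ_b`: `27 δ N` each -/
theorem CtxT.nB_nA (h : CtxT S w K s p θ) (h' : CtxT S w K' s' p θ) :
    Ew w (fun a b => nB K θ a b * nA K' θ a b) ≤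
      2000 * (√p.q2 * p.N + p.N * √(p.δ * p.N) + p.δ * p.N) := by
  have nn := h.bnd.nn
  have hN := nn.N
  have hδ := nn.δ
  have e1 := h.wt.cs_le _ _ (Ew_th_sq h.bnd h.wt) h.Ett (y := 80 * (√p.q2 * p.N))
    (by rw [mul_pow, mul_pow, Real.sq_sqrt nn.q2]; nlinarith [mul_nonneg nn.q2 (sq_nonneg p.N)])
    (by positivity)
  have hy : 1458 * p.N ^ 2 * (216 * (p.δ * p.N)) ≤ (600 * (p.N * √(p.δ * p.N))) ^ 2 := by
    rw [mul_pow, mul_pow, Real.sq_sqrt (by positivity)]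
    nlinarith [mul_nonneg (sq_nonneg p.N) (mul_nonneg hδ hN)]
  have e2 := h.wt.cs_le _ _ h.Ett h'.EP hy (by positivity)
  have e3 := h.wt.cs_le _ _ h.Ett h.EP hy (by positivity)
  have e4 := h.wt.cs_le _ _ h.EP h'.EP (y := 216 * (p.δ * p.N)) (le_of_eq (by ring))
    (by positivity)
  refine (h.wt.mono (g := fun a b => |th K a b * (θ a * θ b)| +
    |θ a * θ b * (|K' b b| * θ a + |K' a a| * θ b)| + |θ a * θ b * (|K b b| * θ a + |K a a| * θ b)| +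
    |(|K b b| * θ a + |K a a| * θ b) * (|K' b b| * θ a + |K' a a| * θ b)|) fun a b hab => ?_).trans ?_
  · have pa : 0 < θ a := by linarith [h.one_le a]
    have pb : 0 < θ b := by linarith [h.one_le b]
    have sc := h.scal hab
    have t0 := sc.th0
    have t1 : th K a b ≤ 1 := by linarith [sc.thε, h.gl.H10]
    rw [abs_of_nonneg (by positivity), abs_of_nonneg (a := θ a * θ b * _) (by positivity),
      abs_of_nonneg (a := θ a * θ b * _) (by positivity), abs_of_nonneg (a := (_ + _) * _) (by positivity),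
      nB, nA, add_assoc, add_assoc]
    have q1 : 0 ≤ |K b b| * θ a + |K a a| * θ b := by positivity
    have q2 : 0 ≤ |K' b b| * θ a + |K' a a| * θ b := by positivity
    generalize |K b b| * θ a + |K a a| * θ b = P at q1
    generalize |K' b b| * θ a + |K' a a| * θ b = P' at q2
    have r1 := (h.sq_le a b).2
    have r2 := Real.mul_self_sqrt (mul_pos pa pb).le
    have r3 := Real.sqrt_nonneg (θ a * θ b)
    generalize √(θ a * θ b) = r at r1 r2 r3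
    have r4 : th K a b * r ≤ θ a * θ b := (mul_le_of_le_one_left r3 t1).trans r1
    have r5 := mul_le_mul_of_nonneg_right r4 q2
    have r6 := mul_le_mul_of_nonneg_right r1 q1
    have r7 : th K a b * r * r = th K a b * (θ a * θ b) := by rw [mul_assoc, r2]
    nlinarith
  · rw [Ew_add, Ew_add, Ew_add]
    have f1 : 0 ≤ √p.q2 * p.N := by positivity
    have f2 : 0 ≤ p.N * √(p.δ * p.N) := by positivity
    have f3 : 0 ≤ p.δ * p.N := by positivity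
    linarith

/-- `tr (B B') - tr (σX σX') = tr ((B - σX) B') + tr (σX (B' - σX'))`, `√(θ_a θ_b) ≤ nA`;
`X5`, `X10` (`N δ ≤ N + N δ²`), `X13` -/
theorem CtxT.two_sub (h : CtxT S w K s p θ) (h' : CtxT S w K' s' p θ) (hx : XBd K s L θ lam)
    (hx' : XBd K' s' L' θ lam') (hl : 0 ≤ lam) (hl' : 0 ≤ lam') (hll : lam * lam' ≤ p.Λ ^ 2)
    {E : ℝ} (hE : 0 ≤ E) (hc : CondX p E) :
    Ew w (fun a b => |(blk K s L a b * blk K' s' L' a b).trace -
      s * s' * (sw2 * XB K s L a b * (sw2 * XB K' s' L' a b)).trace|) ≤ 10 ^ 7 * (p.N * E) := by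
  have nn := h.bnd.nn
  have hN := nn.N
  have hδ := nn.δ
  have hΛ := nn.Λ
  refine (h.wt.mono (g := fun a b => 120 * p.Λ ^ 2 * (nB K θ a b * nA K' θ a b) +
    80 * p.Λ ^ 2 * (nB K' θ a b * nA K θ a b)) fun a b hab => ?_).trans ?_
  · have t := h.t_pos a b
    have a1 := ((h.sca_sub hx hl hab).mul t (h'.sca_blk hx' hl' hab)).trace
    have a2 := ((h.sca_sw hx a b).mul t (h'.sca_sub hx' hl' hab)).trace
    have e : (blk K s L a b * blk K' s' L' a b).trace -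
        s * s' * (sw2 * XB K s L a b * (sw2 * XB K' s' L' a b)).trace =
        ((blk K s L a b - s • (sw2 * XB K s L a b)) * blk K' s' L' a b).trace +
        (s • (sw2 * XB K s L a b) * (blk K' s' L' a b - s' • (sw2 * XB K' s' L' a b))).trace := by
      simp only [Matrix.sub_mul, Matrix.mul_sub, Matrix.smul_mul, Matrix.mul_smul, Matrix.trace_sub,
        Matrix.trace_smul, smul_eq_mul]
      ring
    rw [e]
    refine (abs_add_le _ _).trans (add_le_add (a1.trans ?_) (a2.trans ?_))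
    · have := mul_le_mul_of_nonneg_right hll (mul_nonneg (h.nB_nonneg K a b) (h.nA_nonneg K' a b))
      linarith
    · have pa : 0 < θ a := by linarith [h.one_le a]
      have pb : 0 < θ b := by linarith [h.one_le b]
      have b1 : √(θ a * θ b) ≤ nA K θ a b := by
        rw [nA, add_assoc]
        exact le_add_of_nonneg_right (by positivity)
      have b2 := mul_le_mul_of_nonneg_left b1 (h.nB_nonneg K' a b)
      have := mul_le_mul hll b2 (mul_nonneg (h.nB_nonneg K' a b) (Real.sqrt_nonneg _)) (sq_nonneg _)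
      linarith
  · rw [Ew_add, Ew_mul, Ew_mul]
    have c1 := mul_le_mul_of_nonneg_left (h.nB_nA h') (show 0 ≤ 120 * p.Λ ^ 2 by positivity)
    have c2 := mul_le_mul_of_nonneg_left (h'.nB_nA h) (show 0 ≤ 80 * p.Λ ^ 2 by positivity)
    have d1 : p.Λ ^ 2 * √p.q2 ≤ E := by
      refine abs_le_of_sq_le_sq' ?_ hE |>.2
      rw [mul_pow, Real.sq_sqrt nn.q2]
      linarith [hc.X5]
    have d2 : p.Λ ^ 2 * √(p.δ * p.N) ≤ E := by
      refine abs_le_of_sq_le_sq' ?_ hE |>.2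
      rw [mul_pow, Real.sq_sqrt (by positivity)]
      refine le_trans ?_ hc.X10
      have hV := nn.V
      have hP := nn.P4
      have k1 : p.δ * p.N ≤ p.N + p.Λ ^ 2 * p.V + p.Λ ^ 2 * p.δ + p.N * p.δ ^ 2 + p.P4 := by
        have k2 : 0 ≤ p.Λ ^ 2 * p.V := by positivity
        have k3 : 0 ≤ p.Λ ^ 2 * p.δ := by positivity
        nlinarith [mul_nonneg hN (sq_nonneg (p.δ - 1)), mul_nonneg hδ hN]
      have k4 := mul_le_mul_of_nonneg_left k1 (show 0 ≤ p.Λ ^ 4 by positivity)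
      have k5 : 0 ≤ p.Λ ^ 2 * p.N * p.δ * (1 + p.V) := by positivity
      linarith
    have d3 : p.Λ ^ 2 * p.δ * p.N ≤ p.N * E := by
      have hV := nn.V
      have hP := nn.P4
      have k2 : 0 ≤ p.Λ ^ 2 * p.V := by positivity
      have k3 : 0 ≤ p.Λ ^ 2 * p.P4 := by positivity
      linarith [hc.X13, sq_nonneg p.N]
    have d4 := mul_le_mul_of_nonneg_left d1 hN
    have d5 := mul_le_mul_of_nonneg_left d2 hN
    have d6 : 0 ≤ p.N * E := by positivity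
    linarith

/-- `n₁ n₂ n₃ ≤ n₁³ + n₂³ + n₃³`; `X14`, `X15` -/
theorem three_blk {K₁ K₂ K₃ L₁ L₂ L₃ : Mat ι} {s₁ s₂ s₃ l₁ l₂ l₃ : ℝ} (h₁ : CtxT S w K₁ s₁ p θ)
    (h₂ : CtxT S w K₂ s₂ p θ) (h₃ : CtxT S w K₃ s₃ p θ) (x₁ : XBd K₁ s₁ L₁ θ l₁)
    (x₂ : XBd K₂ s₂ L₂ θ l₂) (x₃ : XBd K₃ s₃ L₃ θ l₃) (p₁ : 0 ≤ l₁) (p₂ : 0 ≤ l₂) (p₃ : 0 ≤ l₃)
    (hl : l₁ * l₂ * l₃ ≤ p.Λ) {E : ℝ} (hE : 0 ≤ E) (hc : CondX p E) :
    |Ew w (fun a b => (blk K₁ s₁ L₁ a b * blk K₂ s₂ L₂ a b * blk K₃ s₃ L₃ a b).trace)| ≤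
      10 ^ 8 * (p.N * E) := by
  have nn := h₁.bnd.nn
  have hN := nn.N
  have hδ := nn.δ
  have hΛ := nn.Λ
  refine (h₁.wt.abs_le_abs (g := fun a b => 216 * p.Λ *
    (nA K₁ θ a b ^ 3 + nA K₂ θ a b ^ 3 + nA K₃ θ a b ^ 3)) fun a b hab => ?_).trans ?_
  · have t := h₁.t_pos a b
    refine (((h₁.sca_blk x₁ p₁ hab).mul t (h₂.sca_blk x₂ p₂ hab)).mul t
      (h₃.sca_blk x₃ p₃ hab)).trace.trans ?_
    have n1 := h₁.nA_nonneg K₁ a b
    have n2 := h₁.nA_nonneg K₂ a b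
    have n3 := h₁.nA_nonneg K₃ a b
    generalize nA K₁ θ a b = x at n1
    generalize nA K₂ θ a b = y at n2
    generalize nA K₃ θ a b = z at n3
    have e1 : x * y * z ≤ x ^ 3 + y ^ 3 + z ^ 3 := by
      have e2 : 0 ≤ (x + y + z) * ((x - y) ^ 2 + (y - z) ^ 2 + (z - x) ^ 2) := by positivity
      have e3 : 0 ≤ x * y * z := by positivity
      nlinarith
    have := mul_le_mul hl e1 (by positivity) hΛ
    linarith
  · rw [Ew_mul, Ew_add, Ew_add]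
    have c1 : Ew w (fun a b => nA K₁ θ a b ^ 3) + Ew w (fun a b => nA K₂ θ a b ^ 3) +
        Ew w (fun a b => nA K₃ θ a b ^ 3) ≤ 60000 * (p.N ^ 2 + p.ζ * p.Λ * p.δ * p.N) := by
      linarith [h₁.nA_three, h₂.nA_three, h₃.nA_three]
    refine (mul_le_mul_of_nonneg_left c1 (by positivity)).trans ?_
    have d1 := mul_le_mul_of_nonneg_left hc.X14 hN
    have hz := h₁.gl.H12
    have d2 : p.ζ * p.Λ ^ 2 * p.δ ≤ E := by
      refine le_trans ?_ hc.X15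
      have : p.ζ ≤ p.ζ ^ 2 := by nlinarith
      gcongr
    have d3 := mul_le_mul_of_nonneg_left d2 hN
    have d6 : 0 ≤ p.N * E := by positivity
    linarith

/-- `n₁ n₂ n₃ n₄ ≤ (n₁⁴ + n₂⁴ + n₃⁴ + n₄⁴) / 4`; `X14`, `X15` -/
theorem four_blk {K₁ K₂ K₃ K₄ L₁ L₂ L₃ L₄ : Mat ι} {s₁ s₂ s₃ s₄ : ℝ} (h₁ : CtxT S w K₁ s₁ p θ)
    (h₂ : CtxT S w K₂ s₂ p θ) (h₃ : CtxT S w K₃ s₃ p θ) (h₄ : CtxT S w K₄ s₄ p θ)
    (x₁ : XBd K₁ s₁ L₁ θ 1) (x₂ : XBd K₂ s₂ L₂ θ 1) (x₃ : XBd K₃ s₃ L₃ θ 1) (x₄ : XBd K₄ s₄ L₄ θ 1)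
    {E : ℝ} (hE : 0 ≤ E) (hc : CondX p E) :
    |Ew w (fun a b => (blk K₁ s₁ L₁ a b * blk K₂ s₂ L₂ a b * blk K₃ s₃ L₃ a b *
      blk K₄ s₄ L₄ a b).trace)| ≤ 2 * 10 ^ 8 * (p.N * E) := by
  have nn := h₁.bnd.nn
  have hN := nn.N
  refine (h₁.wt.abs_le_abs (g := fun a b => 324 *
    (nA K₁ θ a b ^ 4 + nA K₂ θ a b ^ 4 + nA K₃ θ a b ^ 4 + nA K₄ θ a b ^ 4)) fun a b hab => ?_).trans ?_
  · have t := h₁.t_pos a b
    refine ((((h₁.sca_blk x₁ zero_le_one hab).mul t (h₂.sca_blk x₂ zero_le_one hab)).mul t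
      (h₃.sca_blk x₃ zero_le_one hab)).mul t (h₄.sca_blk x₄ zero_le_one hab)).trace.trans ?_
    generalize nA K₁ θ a b = x
    generalize nA K₂ θ a b = y
    generalize nA K₃ θ a b = z
    generalize nA K₄ θ a b = u
    nlinarith [sq_nonneg (x * y - z * u), sq_nonneg (x ^ 2 - y ^ 2), sq_nonneg (z ^ 2 - u ^ 2)]
  · rw [Ew_mul, Ew_add, Ew_add, Ew_add]
    have d1 : p.N * p.N ≤ p.N * E :=
      mul_le_mul_of_nonneg_left ((le_mul_of_one_le_left hN h₁.bnd.Λ1).trans hc.X14) hN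
    have d3 := mul_le_mul_of_nonneg_left hc.X15 hN
    have d6 : 0 ≤ p.N * E := by positivity
    linarith [h₁.nA_four, h₂.nA_four, h₃.nA_four, h₄.nA_four]

end Crest.Agent.R62
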