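import Crest.Agent.R62.DriftX1

/-!
# Row 62: drift of `XX`, one and two blocks
-/

set_option autoImplicit false

open Finset Matrix

noncomputable section

namespace Crest.Agent.R62

variable {ι : Type} [Fintype ι] [DecidableEq ι]
variable {S : Finset ι} {w : ι → ι → ℝ} {K K' L L' : Mat ι} {s s' lam lam' : ℝ} {p : Par}
  {θ : ι → ℝ}

theorem X2_sq_left (hw : Wt S w p) (hN : (S.card : ℝ) = p.N) (f : ι → ℝ) :
    Ew w (fun a _ => f a ^ 2) ≤ 2 * (p.N * ∑ a, f a ^ 2) := by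
  refine (hw.le_two fun _ _ => sq_nonneg _).trans ?_
  have h1 : ∑ a ∈ S, f a ^ 2 ≤ ∑ a, f a ^ 2 :=
    sum_le_sum_of_subset_of_nonneg (subset_univ _) fun _ _ _ => sq_nonneg _
  simp only [sum_const, nsmul_eq_mul]
  rw [← mul_sum, ← hN]
  gcongr

theorem X2_sq_right (hw : Wt S w p) (hN : (S.card : ℝ) = p.N) (f : ι → ℝ) :
    Ew w (fun _ b => f b ^ 2) ≤ 2 * (p.N * ∑ a, f a ^ 2) := by
  rw [hw.swap fun a _ => f a ^ 2]
  exact X2_sq_left hw hN f

theorem X2_sq_mat' (hw : Wt S w p) (X : Mat ι) : Ew w (fun a b => X b a ^ 2) ≤ 2 * fro X := by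
  rw [hw.swap fun a b => X a b ^ 2]
  exact hw.sq_mat X

theorem X2_off (hw : Wt S w p) (hN : (S.card : ℝ) = p.N) (hs : s = 1 ∨ s = -1) (M L : Mat ι) :
    Ew w (fun a b => (M b a - s * L a a) ^ 2) ≤ 4 * (fro M + p.N * ∑ a, L a a ^ 2) := by
  have h1 : Ew w (fun a b => (M b a - s * L a a) ^ 2) ≤
      Ew w (fun a b => 2 * M b a ^ 2 + 2 * L a a ^ 2) := by
    refine hw.mono fun a b _ => ?_
    rcases hs with rfl | rfl
    · nlinarith [sq_nonneg (M b a + L a a)]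
    · nlinarith [sq_nonneg (M b a - L a a)]
  simp only [Ew_add, Ew_mul] at h1
  linarith [X2_sq_mat' hw M, X2_sq_left hw hN fun a => L a a]

/-- With `M = K L`:
`tr blk = j β (M_aa - s L_ba) + g (M_ba + M_ab) - g s (L_aa + L_bb) + j α (M_bb - s L_ab)`; write
`g = s + (g - s)`, `|g - s| ≤ 5 ϑ`, `Ew ϑ² ≤ 4 q2`, `∑ |β| ≤ √(N δ)`, `Ew β² ≤ 2 N δ`. -/
theorem Ctx.one_blk (h : Ctx S w K s p) {y : ℝ} (hy : 0 ≤ y)
    (h1 : (∑ a, |(K * L) a a|) ^ 2 * (p.N * p.δ) ≤ y ^ 2) (h2 : p.N * p.δ * fro L ≤ y ^ 2)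
    (h3 : |Ew w (fun a b => (K * L) a b)| ≤ y) (h4 : p.q2 * fro (K * L) ≤ y ^ 2)
    (h5 : p.q2 * (p.N * ∑ a, L a a ^ 2) ≤ y ^ 2) :
    |Ew w (fun a b => (blk K s L a b).trace + (L a a + L b b))| ≤ 100 * y := by
  have hw := h.wt
  have hN := h.bnd.card
  have nn := h.bnd.nn
  have hs2 : s * s = 1 := by rw [← sq]; exact h.bnd.toSide.sq
  have hsa : |s| = 1 := h.bnd.toSide.abs
  set M := K * L with hM
  have hδ : ∑ a, K a a ^ 2 ≤ p.δ := h.bnd.sum_diag_sq
  have hα : Ew w (fun a _ => K a a ^ 2) ≤ 2 * (p.N * p.δ) :=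
    (X2_sq_left hw hN fun a => K a a).trans (by have := nn.N; gcongr)
  have hβ : Ew w (fun _ b => K b b ^ 2) ≤ 2 * (p.N * p.δ) := by
    rw [hw.swap fun a _ => K a a ^ 2]; exact hα
  have hth := Ew_th_sq h.bnd hw
  -- the eight error terms
  have t1 : Ew w (fun a b => |M a a| * |K b b|) ≤ 2 * y := by
    have e1 := hw.abs_le_prod (F := fun a b => |M a a| * |K b b|) (f := fun a => |M a a|)
      (h := fun b => |K b b|) (fun _ => abs_nonneg _) (fun _ => abs_nonneg _)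
      (fun a b _ => by rw [abs_mul, abs_abs, abs_abs])
    have e2 : ∑ a ∈ S, |M a a| ≤ ∑ a, |M a a| :=
      sum_le_sum_of_subset_of_nonneg (subset_univ _) fun _ _ _ => abs_nonneg _
    have e3 : ∑ a ∈ S, |K a a| ≤ √(p.N * p.δ) :=
      (sum_le_sum_of_subset_of_nonneg (subset_univ _) fun _ _ _ => abs_nonneg _).trans
        h.bnd.sum_abs_diag
    have e0 : 0 ≤ ∑ a, |M a a| := sum_nonneg fun _ _ => abs_nonneg _
    have e4 : (∑ a, |M a a|) * √(p.N * p.δ) ≤ y := by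
      have := sqrt_mul_sqrt_le (sq_nonneg (∑ a, |M a a|)) h1 hy
      rwa [Real.sqrt_sq e0] at this
    have e5 : (∑ a ∈ S, |M a a|) * ∑ a ∈ S, |K a a| ≤ (∑ a, |M a a|) * √(p.N * p.δ) :=
      mul_le_mul e2 e3 (sum_nonneg fun _ _ => abs_nonneg _) e0
    linarith [le_abs_self (Ew w fun a b => |M a a| * |K b b|)]
  have t2 : Ew w (fun a b => |M b b| * |K a a|) ≤ 2 * y := by
    rw [hw.swap fun a b => |M a a| * |K b b|]; exact t1
  have t3 : Ew w (fun a b => |K a a * L a b|) ≤ 2 * y :=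
    hw.cs_le _ _ hα (hw.sq_mat L) (by nlinarith) (by linarith)
  have t4 : Ew w (fun a b => |K b b * L b a|) ≤ 2 * y := by
    rw [hw.swap fun a b => |K a a * L a b|]; exact t3
  have t5 : Ew w (fun a b => |th K a b * M a b|) ≤ 3 * y :=
    hw.cs_le _ _ hth (hw.sq_mat M) (by nlinarith [sq_nonneg y]) (by linarith)
  have t6 : Ew w (fun a b => |th K a b * M b a|) ≤ 3 * y :=
    hw.cs_le _ _ hth (X2_sq_mat' hw M) (by nlinarith [sq_nonneg y]) (by linarith)
  have t7 : Ew w (fun a b => |th K a b * L a a|) ≤ 3 * y :=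
    hw.cs_le _ _ hth (X2_sq_left hw hN fun a => L a a) (by nlinarith [sq_nonneg y]) (by linarith)
  have t8 : Ew w (fun a b => |th K a b * L b b|) ≤ 3 * y :=
    hw.cs_le _ _ hth (X2_sq_right hw hN fun a => L a a) (by nlinarith [sq_nonneg y]) (by linarith)
  have e : Ew w (fun a b => (blk K s L a b).trace + (L a a + L b b)) =
      s * (Ew w (fun a b => M b a) + Ew w (fun a b => M a b)) +
        Ew w (fun a b => jj K s a b * (K b b * M a a - s * (K b b * L b a) + K a a * M b b -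
          s * (K a a * L a b)) + (gg K s a b - s) * (M b a + M a b - s * L a a - s * L b b)) := by
    rw [← Ew_add, ← Ew_mul, ← Ew_add]
    refine Ew_congr w fun a b _ => ?_
    simp only [blk, GG, XB, ← hM]
    simp only [Matrix.mul_fin_two, Matrix.trace_fin_two_of]
    linear_combination (-(L a a + L b b)) * hs2
  have hR : |Ew w (fun a b => jj K s a b * (K b b * M a a - s * (K b b * L b a) + K a a * M b b -
      s * (K a a * L a b)) + (gg K s a b - s) * (M b a + M a b - s * L a a - s * L b b))| ≤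
      Ew w (fun a b => 21 / 20 * (|M a a| * |K b b| + |K b b * L b a| + |M b b| * |K a a| +
        |K a a * L a b|) + 5 * (|th K a b * M b a| + |th K a b * M a b| + |th K a b * L a a| +
          |th K a b * L b b|)) := by
    refine hw.abs_le_abs fun a b hab => ?_
    have sc := h.scal hab
    have j0 : 0 ≤ jj K s a b := by linarith [sc.jl]
    have b1 : |K b b * M a a - s * (K b b * L b a) + K a a * M b b - s * (K a a * L a b)| ≤
        |M a a| * |K b b| + |K b b * L b a| + |M b b| * |K a a| + |K a a * L a b| := by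
      refine (abs_sub _ _).trans (add_le_add ((abs_add_le _ _).trans (add_le_add
        ((abs_sub _ _).trans (add_le_add ?_ ?_)) ?_)) ?_)
      · rw [abs_mul, mul_comm]
      · rw [abs_mul s, hsa, one_mul]
      · rw [abs_mul, mul_comm]
      · rw [abs_mul s, hsa, one_mul]
    have b2 : |M b a + M a b - s * L a a - s * L b b| ≤ |M b a| + |M a b| + |L a a| + |L b b| := by
      refine (abs_sub _ _).trans (add_le_add ((abs_sub _ _).trans (add_le_add
        (abs_add_le _ _) ?_)) ?_)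
      · rw [abs_mul s, hsa, one_mul]
      · rw [abs_mul s, hsa, one_mul]
    refine (abs_add_le _ _).trans (add_le_add ?_ ?_)
    · rw [abs_mul, abs_of_nonneg j0]
      exact mul_le_mul sc.ju b1 (abs_nonneg _) (by norm_num)
    · rw [abs_mul]
      refine (mul_le_mul sc.g1 b2 (abs_nonneg _) (by linarith [sc.th0])).trans (le_of_eq ?_)
      simp only [abs_mul, abs_of_nonneg sc.th0]
      ring
  simp only [Ew_add, Ew_mul] at hR
  have h3' : |Ew w (fun a b => M b a)| ≤ y := by rw [hw.swap fun a b => M a b]; exact h3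
  have hs' : |s * (Ew w (fun a b => M b a) + Ew w (fun a b => M a b))| ≤ 2 * y := by
    rw [abs_mul, hsa, one_mul]
    linarith [abs_add_le (Ew w fun a b => M b a) (Ew w fun a b => M a b)]
  rw [e]
  refine (abs_add_le _ _).trans ?_
  simp only [Ew_add]
  linarith

/-- `tr (σ X σ X') = X₁₀ X'₁₀ + X₁₁ X'₀₀ + X₀₀ X'₁₁ + X₀₁ X'₀₁` with `X₀₀ = M_aa - s L_ba`,
`X₁₀ = M_ba - s L_aa`, …; all terms but `M_bb M'_aa + M_aa M'_bb` by `Wt.cs_le`
(`Ew X₁₀² ≤ 4 (fro M + N ∑ L_aa²)`). -/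
theorem two_main (hw : Wt S w p) (hN : (S.card : ℝ) = p.N) (hs : s = 1 ∨ s = -1)
    (hs' : s' = 1 ∨ s' = -1) {y : ℝ} (hy : 0 ≤ y)
    (h1 : (fro (K * L) + p.N * ∑ a, L a a ^ 2) * (fro (K' * L') + p.N * ∑ a, L' a a ^ 2) ≤ y ^ 2)
    (h2 : fro L * (p.N * ∑ a, (K' * L') a a ^ 2) ≤ y ^ 2)
    (h3 : fro L' * (p.N * ∑ a, (K * L) a a ^ 2) ≤ y ^ 2) (h4 : fro L * fro L' ≤ y ^ 2) :
    Ew w (fun a b => |(sw2 * XB K s L a b * (sw2 * XB K' s' L' a b)).trace -
      ((K * L) b b * (K' * L') a a + (K * L) a a * (K' * L') b b)|) ≤ 100 * y := by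
  have hsa : |s| = 1 := by rcases hs with rfl | rfl <;> simp
  have hsa' : |s'| = 1 := by rcases hs' with rfl | rfl <;> simp
  set M := K * L with hM
  set M' := K' * L' with hM'
  have t1 : Ew w (fun a b => |(M b a - s * L a a) * (M' b a - s' * L' a a)|) ≤ 4 * y :=
    hw.cs_le _ _ (X2_off hw hN hs M L) (X2_off hw hN hs' M' L') (by nlinarith) (by linarith)
  have t2 : Ew w (fun a b => |(M a b - s * L b b) * (M' a b - s' * L' b b)|) ≤ 4 * y := by
    rw [hw.swap fun a b => |(M b a - s * L a a) * (M' b a - s' * L' a a)|]; exact t1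
  have t3 : Ew w (fun a b => |L' a b * M a a|) ≤ 2 * y :=
    hw.cs_le _ _ (hw.sq_mat L') (X2_sq_left hw hN fun a => M a a) (by nlinarith) (by linarith)
  have t4 : Ew w (fun a b => |L' b a * M b b|) ≤ 2 * y := by
    rw [hw.swap fun a b => |L' a b * M a a|]; exact t3
  have t5 : Ew w (fun a b => |L a b * M' a a|) ≤ 2 * y :=
    hw.cs_le _ _ (hw.sq_mat L) (X2_sq_left hw hN fun a => M' a a) (by nlinarith) (by linarith)
  have t6 : Ew w (fun a b => |L b a * M' b b|) ≤ 2 * y := by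
    rw [hw.swap fun a b => |L a b * M' a a|]; exact t5
  have t7 : Ew w (fun a b => |L a b * L' b a|) ≤ 2 * y :=
    hw.cs_le _ _ (hw.sq_mat L) (X2_sq_mat' hw L') (by nlinarith) (by linarith)
  have t8 : Ew w (fun a b => |L b a * L' a b|) ≤ 2 * y := by
    rw [hw.swap fun a b => |L a b * L' b a|]; exact t7
  have hR : Ew w (fun a b => |(sw2 * XB K s L a b * (sw2 * XB K' s' L' a b)).trace -
      (M b b * M' a a + M a a * M' b b)|) ≤
      Ew w (fun a b => |(M b a - s * L a a) * (M' b a - s' * L' a a)| +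
        |(M a b - s * L b b) * (M' a b - s' * L' b b)| + |L' a b * M a a| + |L' b a * M b b| +
        |L a b * M' a a| + |L b a * M' b b| + |L a b * L' b a| + |L b a * L' a b|) := by
    refine hw.mono fun a b _ => ?_
    have e : (sw2 * XB K s L a b * (sw2 * XB K' s' L' a b)).trace -
        (M b b * M' a a + M a a * M' b b) =
        (M b a - s * L a a) * (M' b a - s' * L' a a) +
        (M a b - s * L b b) * (M' a b - s' * L' b b) + (-s') * (L' a b * M a a) +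
        (-s') * (L' b a * M b b) + (-s) * (L a b * M' a a) + (-s) * (L b a * M' b b) +
        (s * s') * (L a b * L' b a) + (s * s') * (L b a * L' a b) := by
      simp only [sw2, XB, ← hM, ← hM']
      simp only [Matrix.mul_fin_two, Matrix.trace_fin_two_of]
      ring
    have u1 : ∀ x : ℝ, |(-s') * x| = |x| := fun x => by rw [abs_mul, abs_neg, hsa', one_mul]
    have u2 : ∀ x : ℝ, |(-s) * x| = |x| := fun x => by rw [abs_mul, abs_neg, hsa, one_mul]
    have u3 : ∀ x : ℝ, |(s * s') * x| = |x| := fun x => by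
      rw [abs_mul, abs_mul, hsa, hsa', one_mul, one_mul]
    rw [e]
    refine (abs_add_le _ _).trans (add_le_add ?_ (u3 _).le)
    refine (abs_add_le _ _).trans (add_le_add ?_ (u3 _).le)
    refine (abs_add_le _ _).trans (add_le_add ?_ (u2 _).le)
    refine (abs_add_le _ _).trans (add_le_add ?_ (u2 _).le)
    refine (abs_add_le _ _).trans (add_le_add ?_ (u1 _).le)
    refine (abs_add_le _ _).trans (add_le_add ?_ (u1 _).le)
    exact abs_add_le _ _
  simp only [Ew_add] at hR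
  linarith

/-- `two_sub` and `two_main` -/
theorem CtxT.two_blk (h : CtxT S w K s p θ) (h' : CtxT S w K' s' p θ) (hx : XBd K s L θ lam)
    (hx' : XBd K' s' L' θ lam') (hl : 0 ≤ lam) (hl' : 0 ≤ lam') (hll : lam * lam' ≤ p.Λ ^ 2)
    {E : ℝ} (hE : 0 ≤ E) (hc : CondX p E)
    (h1 : (fro (K * L) + p.N * ∑ a, L a a ^ 2) * (fro (K' * L') + p.N * ∑ a, L' a a ^ 2) ≤
      (10 * (p.N * E)) ^ 2)
    (h2 : fro L * (p.N * ∑ a, (K' * L') a a ^ 2) ≤ (10 * (p.N * E)) ^ 2)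
    (h3 : fro L' * (p.N * ∑ a, (K * L) a a ^ 2) ≤ (10 * (p.N * E)) ^ 2)
    (h4 : fro L * fro L' ≤ (10 * (p.N * E)) ^ 2) :
    |Ew w (fun a b => (blk K s L a b * blk K' s' L' a b).trace -
      s * s' * ((K * L) b b * (K' * L') a a + (K * L) a a * (K' * L') b b))| ≤
      2 * 10 ^ 7 * (p.N * E) := by
  have hw := h.wt
  have hNE : 0 ≤ p.N * E := mul_nonneg h.gl.N0.le hE
  have a1 := h.two_sub h' hx hx' hl hl' hll hE hc
  have a2 := two_main (K := K) (K' := K') hw h.bnd.card h.bnd.sgn h'.bnd.sgn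
    (y := 10 * (p.N * E)) (by linarith) h1 h2 h3 h4
  have hsa : |s| = 1 := h.bnd.toSide.abs
  have hsa' : |s'| = 1 := h'.bnd.toSide.abs
  have a3 : |Ew w (fun a b => (blk K s L a b * blk K' s' L' a b).trace -
      s * s' * ((K * L) b b * (K' * L') a a + (K * L) a a * (K' * L') b b))| ≤
      Ew w (fun a b => |(blk K s L a b * blk K' s' L' a b).trace -
        s * s' * (sw2 * XB K s L a b * (sw2 * XB K' s' L' a b)).trace| +
        |(sw2 * XB K s L a b * (sw2 * XB K' s' L' a b)).trace -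
          ((K * L) b b * (K' * L') a a + (K * L) a a * (K' * L') b b)|) := by
    refine hw.abs_le_abs fun a b _ => ?_
    refine (abs_sub_le _ (s * s' * (sw2 * XB K s L a b * (sw2 * XB K' s' L' a b)).trace) _).trans
      (add_le_add le_rfl (le_of_eq ?_))
    rw [← mul_sub, abs_mul, abs_mul, hsa, hsa', one_mul, one_mul]
  rw [Ew_add] at a3
  linarith

/-! ## Norms of words in two matrices -/

section Words
variable {A B : Mat ι} {t : ℝ}

/-- `XX = tr (A² B²) ≤ √(p₄ p₄)` -/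
theorem XX_le_P4 (hA : Bnd S A s p) (hB : Bnd S B t p) : XX A B ≤ p.P4 := by
  refine (le_abs_self _).trans ((abs_trace_mul_le _ _).trans
    (sqrt_mul_sqrt_le (fro_nonneg _) ?_ hA.nn.P4))
  rw [sq p.P4]
  exact mul_le_mul hA.fro_two hB.fro_two (fro_nonneg _) hA.nn.P4

theorem XX_comm (A B : Mat ι) : XX A B = XX B A := by
  exact Matrix.trace_mul_comm _ _

/-- `(A^(i+1) B^(j+1)) a a = ⟨A^(i+1) e_a, B^(j+1) e_a⟩`, `∑ b⁺ b⁻ ≤ Db ≤ 4 N` -/
theorem sum_diag_word (hA : Bnd S A s p) (hB : Bnd S B t p) (hg : Glob p) (i j : ℕ) :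
    ∑ a, (A ^ (i + 1) * B ^ (j + 1)) a a ^ 2 ≤ 4 * p.Λ ^ (2 * (i + j)) * p.N := by
  have e : A ^ (i + 1) * B ^ (j + 1) = Aᵀ * (A ^ i * B ^ j) * B := by
    rw [transpose_of_symm hA.symm, pow_succ' A, pow_succ B]
    simp only [Matrix.mul_assoc]
  have ho := (hA.op.pow i).mul (hB.op.pow j)
  have hΛ : (p.Λ ^ i * p.Λ ^ j) ^ 2 = p.Λ ^ (2 * (i + j)) := by ring
  have h0 : 0 ≤ p.Λ ^ (2 * (i + j)) := pow_nonneg hA.nn.Λ _
  calc ∑ a, (A ^ (i + 1) * B ^ (j + 1)) a a ^ 2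
      ≤ ∑ a, p.Λ ^ (2 * (i + j)) * ((bb A a ^ 2 + bb B a ^ 2) / 2) := by
        refine sum_le_sum fun a _ => ?_
        have h1 := ho.entry_sq_le A B a a
        rw [← e, hΛ, ← bb_eq' hA.symm, ← bb_eq' hB.symm] at h1
        exact h1.trans (mul_le_mul_of_nonneg_left (by nlinarith [sq_nonneg (bb A a - bb B a)]) h0)
    _ = p.Λ ^ (2 * (i + j)) * ((∑ a, bb A a ^ 2 + ∑ a, bb B a ^ 2) / 2) := by
        rw [← mul_sum, ← sum_div, sum_add_distrib]
    _ ≤ p.Λ ^ (2 * (i + j)) * (4 * p.N) := mul_le_mul_of_nonneg_left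
        (by linarith [hA.sum_bb_sq, hB.sum_bb_sq, hA.Db_le hg]) h0
    _ = _ := by ring

theorem sum_diag_sandwich (hA : Bnd S A s p) (hB : Bnd S B t p) (hg : Glob p) :
    ∑ a, (A * B ^ 2 * A) a a ^ 2 ≤ 4 * p.Λ ^ 4 * p.N := by
  have h0 : 0 ≤ p.Λ ^ 4 := pow_nonneg hA.nn.Λ _
  calc ∑ a, (A * B ^ 2 * A) a a ^ 2 ≤ ∑ a, p.Λ ^ 4 * bb A a ^ 2 := by
        refine sum_le_sum fun a _ => ?_
        have h1 := (hB.op.pow 2).entry_sq_le A A a a
        rw [transpose_of_symm hA.symm, ← bb_eq' hA.symm] at h1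
        exact h1.trans (le_of_eq (by ring))
    _ = p.Λ ^ 4 * ∑ a, bb A a ^ 2 := by rw [← mul_sum]
    _ ≤ p.Λ ^ 4 * (4 * p.N) := mul_le_mul_of_nonneg_left (hA.sum_bb_sq.trans (hA.Db_le hg)) h0
    _ = _ := by ring

theorem X2_tr (hA : Bnd S A s p) (hB : Bnd S B t p) (hX : XX A B ≤ p.Xb) :
    -p.Qb ≤ (A ^ 2 * B).trace ∧ |(A ^ 2 * B).trace| ≤ √(p.Qb * p.Xb) := by
  constructor
  · have h1 := hB.toSide.trace_psd A
    rw [transpose_of_symm hA.symm, Matrix.trace_mul_cycle, ← sq] at h1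
    linarith [hA.fro_one]
  · rw [sq, Matrix.mul_assoc]
    refine (abs_trace_mul_le _ _).trans ?_
    rw [← XX_eq_fro hA.symm hB.symm, Real.sqrt_mul hA.nn.Qb]
    exact mul_le_mul (Real.sqrt_le_sqrt hA.fro_one) (Real.sqrt_le_sqrt hX) (Real.sqrt_nonneg _)
      (Real.sqrt_nonneg _)

/-- `tr (A² B) ≥ -p₂` (`Side.trace_psd`), `|tr (A² B)| ≤ ‖A‖ ‖A B‖`, and the same for `tr (B² A)` -/
theorem neg_tr_mul_tr (hA : Bnd S A s p) (hB : Bnd S B t p) (hX : XX A B ≤ p.Xb) :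
    -((A ^ 2 * B).trace * (B ^ 2 * A).trace) ≤ p.Qb * √(p.Qb * p.Xb) := by
  obtain ⟨u1, u2⟩ := X2_tr hA hB hX
  obtain ⟨v1, v2⟩ := X2_tr hB hA ((XX_comm B A).trans_le hX)
  have hQ := hA.nn.Qb
  have hR := Real.sqrt_nonneg (p.Qb * p.Xb)
  have u3 := abs_le.1 u2
  have v3 := abs_le.1 v2
  rcases le_total 0 (A ^ 2 * B).trace with hu | hu <;>
    rcases le_total 0 (B ^ 2 * A).trace with hv | hv
  · nlinarith [mul_nonneg hu hv, mul_nonneg hQ hR]
  · have := mul_le_mul u3.2 (show -(B ^ 2 * A).trace ≤ p.Qb by linarith) (by linarith) hR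
    linarith
  · have := mul_le_mul (show -(A ^ 2 * B).trace ≤ p.Qb by linarith) v3.2 hv hQ
    linarith
  · nlinarith [mul_nonneg_of_nonpos_of_nonpos hu hv, mul_nonneg hQ hR]

/-- `|tr (A B)| ≤ √(p₂ p₂) ≤ N ρ + X` -/
theorem neg_tr_AB (hA : Bnd S A s p) (hB : Bnd S B t p) : -(p.N + (A * B).trace) ≤ p.X := by
  have hN := hA.nn.N
  have hX := hA.nn.X
  have hρ : p.N * p.ρ ≤ p.N := by nlinarith [hA.ρ1]
  have a1 : fro A ≤ p.N + p.X := by
    rw [fro_eq_pk2 hA.symm]; linarith [(abs_le.1 hA.X).2]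
  have a2 : fro B ≤ p.N + p.X := by
    rw [fro_eq_pk2 hB.symm]; linarith [(abs_le.1 hB.X).2]
  have a3 : √(fro A) * √(fro B) ≤ p.N + p.X := by
    refine sqrt_mul_sqrt_le (fro_nonneg _) ?_ (by linarith)
    rw [sq]
    exact mul_le_mul a1 a2 (fro_nonneg _) (by linarith)
  linarith [(abs_le.1 ((abs_trace_mul_le A B).trans a3)).1]

end Words

end Crest.Agent.R62
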