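import Crest.Agent.R62.Tools

/-!
# Row 62: the excluded pairs

A pair `(a,b)` is excluded if it is a conflict or violates one of the inequalities of `Alw2`.  Each of the ten
pieces is dominated by a simple kernel, which gives the three bounds of `Small`.
-/

set_option autoImplicit false
set_option linter.unusedSectionVars false
set_option linter.unusedVariables false

open Finset Matrix

noncomputable section

namespace Crest.Agent.R62

variable {ι : Type} [Fintype ι] [DecidableEq ι]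

/-- a nonnegative kernel on `S × S` with small operator norm, rows and total mass -/
structure Small (S : Finset ι) (e : ι → ι → ℝ) (k r n : ℝ) : Prop where
  nonneg : ∀ a b, 0 ≤ e a b
  op : ∀ u v : ι → ℝ, ∑ a ∈ S, ∑ b ∈ S, e a b * (|u a| * |v b|) ≤
    k * √(∑ a ∈ S, u a ^ 2) * √(∑ b ∈ S, v b ^ 2)
  row : ∀ a ∈ S, ∑ b ∈ S, e a b ≤ r
  cnt : ∑ a ∈ S, ∑ b ∈ S, e a b ≤ n

variable {S : Finset ι} {A B K : Mat ι} {s : ℝ} {p : Par}

theorem Small.add {e e' : ι → ι → ℝ} {k r n k' r' n' : ℝ} (h : Small S e k r n)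
    (h' : Small S e' k' r' n') : Small S (fun a b => e a b + e' a b) (k + k') (r + r') (n + n') := by
  refine ⟨fun a b => add_nonneg (h.nonneg a b) (h'.nonneg a b), fun u v => ?_, fun a ha => ?_, ?_⟩
  · simp only [add_mul, sum_add_distrib]
    exact add_le_add (h.op u v) (h'.op u v)
  · rw [sum_add_distrib]
    exact add_le_add (h.row a ha) (h'.row a ha)
  · simp only [sum_add_distrib]
    exact add_le_add h.cnt h'.cnt

theorem Small.mono {e e' : ι → ι → ℝ} {k r n k' r' n' : ℝ} (h : Small S e k r n)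
    (h0 : ∀ a b, 0 ≤ e' a b) (hle : ∀ a ∈ S, ∀ b ∈ S, e' a b ≤ e a b) (hk : k ≤ k') (hr : r ≤ r')
    (hn : n ≤ n') : Small S e' k' r' n' := by
  refine ⟨h0, fun u v => ?_, fun a ha => ?_, ?_⟩
  · refine le_trans (sum_le_sum fun a ha => sum_le_sum fun b hb =>
      mul_le_mul_of_nonneg_right (hle a ha b hb) (by positivity)) ((h.op u v).trans ?_)
    gcongr
  · exact ((sum_le_sum fun b hb => hle a ha b hb).trans (h.row a ha)).trans hr
  · exact ((sum_le_sum fun a ha => sum_le_sum fun b hb => hle a ha b hb).trans h.cnt).trans hn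

theorem excl_cs (S : Finset ι) (f g : ι → ι → ℝ) : ∑ a ∈ S, ∑ b ∈ S, f a b * g a b ≤
    √(∑ a ∈ S, ∑ b ∈ S, f a b ^ 2) * √(∑ a ∈ S, ∑ b ∈ S, g a b ^ 2) := by
  have := Real.sum_mul_le_sqrt_mul_sqrt (S ×ˢ S) (fun q => f q.1 q.2) (fun q => g q.1 q.2)
  simpa only [sum_product] using this

/-- the operator norm is at most the Frobenius norm -/
theorem excl_op {e : ι → ι → ℝ} {k : ℝ} (hk : 0 ≤ k) (he : ∑ a ∈ S, ∑ b ∈ S, e a b ^ 2 ≤ k ^ 2)
    (u v : ι → ℝ) : ∑ a ∈ S, ∑ b ∈ S, e a b * (|u a| * |v b|) ≤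
      k * √(∑ a ∈ S, u a ^ 2) * √(∑ b ∈ S, v b ^ 2) := by
  refine (excl_cs S e fun a b => |u a| * |v b|).trans ?_
  have h1 : ∑ a ∈ S, ∑ b ∈ S, (|u a| * |v b|) ^ 2 = (∑ a ∈ S, u a ^ 2) * ∑ b ∈ S, v b ^ 2 := by
    rw [sum_mul_sum]
    exact sum_congr rfl fun a _ => sum_congr rfl fun b _ => by rw [mul_pow, sq_abs, sq_abs]
  rw [h1, Real.sqrt_mul (sum_nonneg fun _ _ => sq_nonneg _), mul_assoc]
  exact mul_le_mul_of_nonneg_right (Real.sqrt_le_iff.2 ⟨hk, he⟩) (by positivity)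

theorem excl_ind {P : Prop} [Decidable P] {x y : ℝ} (hy : 0 < y) (hx : 0 ≤ x) (h : P → y ≤ x) :
    (if P then (1 : ℝ) else 0) ≤ x / y := by
  split_ifs with hP
  · exact (one_le_div hy).2 (h hP)
  · positivity

theorem excl_ind_sq (P : Prop) [Decidable P] :
    (if P then (1 : ℝ) else 0) ^ 2 = if P then (1 : ℝ) else 0 := by
  split_ifs <;> simp

theorem excl_sum_le {f : ι → ℝ} (hf : ∀ a, 0 ≤ f a) : ∑ a ∈ S, f a ≤ ∑ a, f a :=
  sum_le_sum_of_subset_of_nonneg (subset_univ _) fun a _ _ => hf a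

open Classical in
/-- Schur test: `|u_a| |v_b| ≤ (x u_a² + v_b² / x) / 2`, or Cauchy–Schwarz -/
theorem small_conf (cf : ι → ι → Prop) (hs : ∀ a b, cf a b → cf b a) {dg : ℝ} (h0 : 0 ≤ dg)
    (hd : ∀ c ∈ S, ((S.filter fun e => cf c e).card : ℝ) ≤ dg) :
    Small S (fun a b => if cf a b then 1 else 0) dg dg (dg * S.card) := by
  have hrow : ∀ a ∈ S, ∑ b ∈ S, (if cf a b then (1 : ℝ) else 0) ≤ dg := fun a ha => by
    rw [Finset.sum_boole]
    exact hd a ha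
  refine ⟨fun a b => by split_ifs <;> norm_num, fun u v => ?_, hrow, ?_⟩
  · have h1 := excl_cs S (fun a b => (if cf a b then (1 : ℝ) else 0) * |u a|)
      (fun a b => (if cf a b then (1 : ℝ) else 0) * |v b|)
    have h2 : ∑ a ∈ S, ∑ b ∈ S, ((if cf a b then (1 : ℝ) else 0) * |u a|) ^ 2 ≤
        dg * ∑ a ∈ S, u a ^ 2 := by
      rw [mul_sum]
      refine sum_le_sum fun a ha => le_trans (le_of_eq ?_)
        (mul_le_mul_of_nonneg_right (hrow a ha) (sq_nonneg _))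
      rw [sum_mul]
      exact sum_congr rfl fun b _ => by split_ifs <;> simp
    have h3 : ∑ a ∈ S, ∑ b ∈ S, ((if cf a b then (1 : ℝ) else 0) * |v b|) ^ 2 ≤
        dg * ∑ b ∈ S, v b ^ 2 := by
      rw [mul_sum, sum_comm]
      refine sum_le_sum fun b hb => le_trans ?_
        (mul_le_mul_of_nonneg_right (hrow b hb) (sq_nonneg _))
      rw [sum_mul]
      refine sum_le_sum fun a _ => ?_
      by_cases h : cf a b
      · simp [h, hs a b h]
      · rw [if_neg h]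
        have : (0 : ℝ) ≤ (if cf b a then (1 : ℝ) else 0) * v b ^ 2 := by positivity
        simpa using this
    calc _ = ∑ a ∈ S, ∑ b ∈ S, ((if cf a b then (1 : ℝ) else 0) * |u a|) *
          ((if cf a b then (1 : ℝ) else 0) * |v b|) :=
          sum_congr rfl fun a _ => sum_congr rfl fun b _ => by split_ifs <;> simp
      _ ≤ √(dg * ∑ a ∈ S, u a ^ 2) * √(dg * ∑ b ∈ S, v b ^ 2) :=
          h1.trans (mul_le_mul (Real.sqrt_le_sqrt h2) (Real.sqrt_le_sqrt h3) (Real.sqrt_nonneg _)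
            (Real.sqrt_nonneg _))
      _ = (√dg * √dg) * √(∑ a ∈ S, u a ^ 2) * √(∑ b ∈ S, v b ^ 2) := by
          rw [Real.sqrt_mul h0, Real.sqrt_mul h0]
          ring
      _ = _ := by rw [Real.mul_self_sqrt h0]
  · have := sum_le_card_nsmul S _ dg hrow
    rwa [nsmul_eq_mul, mul_comm] at this

open Classical in
/-- `1 ≤ r² / ε²`; `E2` (`√W ≤ sw`), `E6` (`b_a ≤ Λ²`), `E10` -/
theorem small_r (h : Bnd S K s p) (hg : Glob p) (hc : CondWt p) :
    Small S (fun a b => if p.ε < |K a b| then 1 else 0) p.κE (p.κ2E ^ 2) p.nE := by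
  have hε := hg.ε0
  have h2 : ∀ a b, (if p.ε < |K a b| then (1 : ℝ) else 0) ≤ K a b ^ 2 / p.ε ^ 2 := fun a b =>
    excl_ind (by positivity) (by positivity) fun hh => by
      rw [← sq_abs (K a b)]
      exact pow_le_pow_left₀ hε.le hh.le 2
  have h4 : ∀ a b, (if p.ε < |K a b| then (1 : ℝ) else 0) ≤ K a b ^ 4 / p.ε ^ 4 := fun a b =>
    excl_ind (by positivity) (by positivity) fun hh => by
      rw [← Even.pow_abs (by decide : Even 4) (K a b)]
      exact pow_le_pow_left₀ hε.le hh.le 4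
  have hrow : ∀ a, ∑ b ∈ S, (if p.ε < |K a b| then (1 : ℝ) else 0) ≤ bb K a / p.ε ^ 2 := fun a => by
    refine (sum_le_sum fun b _ => h2 a b).trans ?_
    rw [← sum_div, bb_eq h.symm]
    exact div_le_div_of_nonneg_right (excl_sum_le fun _ => sq_nonneg _) (by positivity)
  refine ⟨fun a b => by split_ifs <;> norm_num, excl_op hc.κE0 ?_, fun a _ => ?_, ?_⟩
  · simp only [excl_ind_sq]
    refine (sum_le_sum fun a _ => sum_le_sum fun b _ => h4 a b).trans ?_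
    simp only [← sum_div]
    rw [div_le_iff₀ (by positivity)]
    have a1 : ∑ a ∈ S, ∑ b ∈ S, K a b ^ 4 ≤ WW K :=
      (sum_le_sum fun a _ => excl_sum_le fun _ => by positivity).trans
        (excl_sum_le fun a => ww_nonneg K a)
    have a2 := pow_le_pow_left₀ hg.sw0 hc.E2 2
    calc _ ≤ (p.ε ^ 2 * p.κE) ^ 2 := a1.trans (h.W.trans (hg.H13.trans a2))
      _ = _ := by ring
  · refine (hrow a).trans ?_
    rw [div_le_iff₀ (by positivity)]
    have a2 := pow_le_pow_left₀ (zero_le_one.trans h.Λ1) hc.E6 2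
    calc _ ≤ (p.ε * p.κ2E) ^ 2 := (h.op.bb_le h.symm a).trans a2
      _ = _ := by ring
  · refine (sum_le_sum fun a _ => hrow a).trans ?_
    rw [← sum_div, div_le_iff₀ (by positivity), h.toSide.sum_bb, mul_comm]
    exact h.Q.trans hc.E10

open Classical in
theorem excl_prod (f h : ι → ℝ) (hf : ∀ a, 0 ≤ f a) (hh : ∀ a, 0 ≤ h a) {y k r n : ℝ} (hy : 0 < y)
    (hk : 0 ≤ k) (h1 : (∑ a ∈ S, f a ^ 2) * ∑ b ∈ S, h b ^ 2 ≤ k ^ 2 * y ^ 2)
    (h2 : (∑ a ∈ S, f a ^ 2) * ∑ b ∈ S, h b ^ 2 ≤ r * y ^ 2)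
    (h3 : (∑ a ∈ S, f a ^ 2) * ∑ b ∈ S, h b ^ 2 ≤ n * y ^ 2) :
    Small S (fun a b => if y < f a * h b then 1 else 0) k r n := by
  have h0 : ∀ a b, (0 : ℝ) ≤ if y < f a * h b then 1 else 0 := fun a b => by split_ifs <;> norm_num
  have hc : ∑ a ∈ S, ∑ b ∈ S, (if y < f a * h b then (1 : ℝ) else 0) ≤
      ((∑ a ∈ S, f a ^ 2) * ∑ b ∈ S, h b ^ 2) / y ^ 2 := by
    rw [sum_mul_sum]
    simp only [sum_div]
    refine sum_le_sum fun a _ => sum_le_sum fun b _ => excl_ind (by positivity) (by positivity) fun hh => ?_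
    rw [← mul_pow]
    exact pow_le_pow_left₀ hy.le hh.le 2
  have hy2 : 0 < y ^ 2 := by positivity
  refine ⟨h0, excl_op hk ?_, fun a ha => ?_, hc.trans ((div_le_iff₀ hy2).2 h3)⟩
  · simp only [excl_ind_sq]
    exact hc.trans ((div_le_iff₀ hy2).2 h1)
  · exact (single_le_sum (f := fun a => ∑ b ∈ S, if y < f a * h b then (1 : ℝ) else 0)
      (fun a _ => sum_nonneg fun b _ => h0 a b) ha).trans (hc.trans ((div_le_iff₀ hy2).2 h2))

open Classical in
/-- a rank one kernel: `1 ≤ f a h b / y ≤ (f a h b / y)²` on the set -/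
theorem small_prod (f h : ι → ℝ) (hf : ∀ a, 0 ≤ f a) (hh : ∀ a, 0 ≤ h a) {y k : ℝ} (hy : 0 < y)
    (hk : 0 ≤ k) (hfh : (∑ a ∈ S, f a ^ 2) * ∑ b ∈ S, h b ^ 2 ≤ (k * y) ^ 2) :
    Small S (fun a b => if y < f a * h b then 1 else 0) k (k ^ 2) (k ^ 2) := by
  exact excl_prod f h hf hh hy hk (by rwa [← mul_pow]) (by rwa [← mul_pow]) (by rwa [← mul_pow])

open Classical in
/-- `θ̂ = θ · 1_{θ > 6}`: `θ ≤ 3 + |δ̃⁺| + |δ̃⁻|`, so `θ̂ ≤ 2 (|δ̃⁺| + |δ̃⁻|)` -/
theorem sum_tthat (hA : Bnd S A 1 p) (hB : Bnd S B (-1) p) :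
    ∑ c ∈ S, (if 6 < tt A B c then tt A B c else 0) ^ 2 ≤ 16 * p.V := by
  have h1 : ∀ c, (if 6 < tt A B c then tt A B c else 0) ^ 2 ≤
      8 * ((bb A c - p.ρ) ^ 2 + (bb B c - p.ρ) ^ 2) := fun c => by
    split_ifs with h
    · have h2 : tt A B c ≤ 2 * ((bb A c - p.ρ) + (bb B c - p.ρ)) := by
        have := hA.ρ1
        unfold tt at h ⊢
        linarith
      have h3 := pow_le_pow_left₀ (by linarith) h2 2
      nlinarith [sq_nonneg ((bb A c - p.ρ) - (bb B c - p.ρ))]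
    · have : (0 : ℝ) ≤ 8 * ((bb A c - p.ρ) ^ 2 + (bb B c - p.ρ) ^ 2) := by positivity
      simpa using this
  refine (sum_le_sum fun c _ => h1 c).trans ?_
  rw [← mul_sum, sum_add_distrib]
  have h2 := hA.V
  have h3 := hB.V
  unfold VV at h2 h3
  linarith

/-- the excluded set as a `0/1` kernel -/
structure Exc (S : Finset ι) (A B : Mat ι) (p : Par) (cf : ι → ι → Prop) (e : ι → ι → ℝ) : Prop
    extends Small S e (37 * p.κE) (325 * p.κ2E ^ 2) (325 * p.nE) where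
  symm : ∀ a b, e a b = e b a
  val : ∀ a b, e a b = 0 ∨ e a b = 1
  good : ∀ a ∈ S, ∀ b ∈ S, e a b = 0 → ¬ cf a b ∧ Alw2 A B p a b

open Classical in
/-- Take `e a b = if ¬ cf a b ∧ Alw2 A B p a b then 0 else 1` (symmetric).  It is dominated by the sum of:
conflicts (`E1`, `E5`, `E9`, `1 ≤ dg`); `|r^±| > ε`; `|α^±| |β^±| > ε` (`E3`, `E7`, `E11`);
`θ̂_a θ̂_b > ζ² Λ²` (as `θ ≤ 3 Λ²`, `θ_a θ_b > ζ² Λ²` forces both `> 6`; `E4`, `E8`, `E12`; constants `16`, `256`);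
`|α^±| θ̂_b > ζ Λ` and transposes (`|α| ≤ Λ` forces `θ_b > 6`; `δ V ≤ ε κ² ζ² Λ²`; constants `4`, `16`).
`small_prod` has to be applied three times per piece (with `k = κE`, `κ2E`, `√nE`). -/
theorem exists_exc (hA : Bnd S A 1 p) (hB : Bnd S B (-1) p) (hg : Glob p) (hc : CondWt p)
    (cf : ι → ι → Prop) (hs : ∀ a b, cf a b → cf b a) (hr : ∀ a, cf a a)
    (hd : ∀ c ∈ S, ((S.filter fun e => cf c e).card : ℝ) ≤ p.dg) : ∃ e, Exc S A B p cf e := by
  have hε := hg.ε0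
  have hε1 : p.ε ≤ 1 := by linarith [hg.H10]
  have hΛ := hA.Λ1
  have hζ := hg.H12
  have hκ := hc.κE0
  have hκ2 := hc.κ2E0
  have hδ := hA.nn.δ
  have hV := hA.nn.V
  have hdg := hg.H14
  have hn : 0 ≤ p.nE := (mul_nonneg (by linarith) hg.N0.le).trans hc.E9
  have hy : 0 < p.ζ * p.Λ := by positivity
  have hy2 : 0 < p.ζ ^ 2 * p.Λ ^ 2 := by positivity
  set τ : ι → ℝ := fun c => if 6 < tt A B c then tt A B c else 0 with hτ
  have τ0 : ∀ c, 0 ≤ τ c := fun c => by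
    simp only [hτ]
    split_ifs with h <;> linarith
  have τ2 : ∑ c ∈ S, τ c ^ 2 ≤ 16 * p.V := sum_tthat hA hB
  have τ2' : 0 ≤ ∑ c ∈ S, τ c ^ 2 := sum_nonneg fun _ _ => sq_nonneg _
  have d2 : ∀ {K : Mat ι} {s : ℝ}, Bnd S K s p → ∑ a ∈ S, |K a a| ^ 2 ≤ p.δ := fun h => by
    simp only [sq_abs]
    exact (excl_sum_le fun _ => sq_nonneg _).trans h.sum_diag_sq
  have d2' : ∀ K : Mat ι, 0 ≤ ∑ a ∈ S, |K a a| ^ 2 := fun K => sum_nonneg fun _ _ => sq_nonneg _
  -- the ten pieces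
  have s1 : Small S (fun a b => if cf a b then 1 else 0) p.κE (p.κ2E ^ 2) p.nE := by
    have h := small_conf cf hs (by linarith) hd
    refine h.mono h.nonneg (fun _ _ _ _ => le_rfl) hc.E1 ?_ ?_
    · nlinarith [hc.E5]
    · rw [hA.card]
      exact hc.E9
  have s2 := small_r hA hg hc
  have s3 := small_r hB hg hc
  have sab : ∀ {K : Mat ι} {s : ℝ}, Bnd S K s p →
      Small S (fun a b => if p.ε < |K a a| * |K b b| then 1 else 0) p.κE (p.κ2E ^ 2) p.nE := by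
    intro K s h
    have h1 : (∑ a ∈ S, |K a a| ^ 2) * ∑ a ∈ S, |K a a| ^ 2 ≤ p.δ ^ 2 := by
      rw [sq p.δ]
      exact mul_le_mul (d2 h) (d2 h) (d2' K) hδ
    refine excl_prod _ _ (fun _ => abs_nonneg _) (fun _ => abs_nonneg _) hε hκ (h1.trans ?_)
      (h1.trans ?_) (h1.trans ?_)
    · exact (pow_le_pow_left₀ hδ hc.E3 2).trans_eq (by ring)
    · exact (pow_le_pow_left₀ hδ hc.E7 2).trans_eq (by ring)
    · exact hc.E11.trans_eq (by ring)
  have s6 : Small S (fun a b => if p.ζ ^ 2 * p.Λ ^ 2 < τ a * τ b then 1 else 0) (16 * p.κE)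
      (256 * p.κ2E ^ 2) (256 * p.nE) := by
    have h1 : (∑ a ∈ S, τ a ^ 2) * ∑ a ∈ S, τ a ^ 2 ≤ 256 * p.V ^ 2 :=
      (mul_le_mul τ2 τ2 τ2' (by positivity)).trans_eq (by ring)
    refine excl_prod _ _ τ0 τ0 hy2 (by positivity) (h1.trans ?_) (h1.trans ?_) (h1.trans ?_)
    · exact (mul_le_mul_of_nonneg_left (pow_le_pow_left₀ hV hc.E4 2) (by norm_num)).trans_eq (by ring)
    · exact (mul_le_mul_of_nonneg_left (pow_le_pow_left₀ hV hc.E8 2) (by norm_num)).trans_eq (by ring)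
    · exact (mul_le_mul_of_nonneg_left hc.E12 (by norm_num)).trans_eq (by ring)
  have a1 : ∀ {k : ℝ}, 0 ≤ k → p.δ ≤ p.ε * k → p.V ≤ k * p.ζ ^ 2 * p.Λ ^ 2 →
      p.δ * (16 * p.V) ≤ 16 * k ^ 2 * (p.ζ * p.Λ) ^ 2 := by
    intro k hk h1 h2
    have h3 : p.δ ≤ k := h1.trans (mul_le_of_le_one_left hk hε1)
    calc p.δ * (16 * p.V) ≤ k * (16 * (k * p.ζ ^ 2 * p.Λ ^ 2)) := by gcongr
      _ = _ := by ring
  have a2 : p.δ * (16 * p.V) ≤ 16 * p.nE * (p.ζ * p.Λ) ^ 2 := by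
    have h3 : p.δ ^ 2 ≤ p.nE :=
      hc.E11.trans (mul_le_of_le_one_left hn (pow_le_one₀ hε.le hε1))
    have h4 : (p.δ * p.V) ^ 2 ≤ (p.nE * (p.ζ * p.Λ) ^ 2) ^ 2 := by
      calc (p.δ * p.V) ^ 2 = p.δ ^ 2 * p.V ^ 2 := by ring
        _ ≤ p.nE * (p.nE * p.ζ ^ 4 * p.Λ ^ 4) := mul_le_mul h3 hc.E12 (by positivity) hn
        _ = _ := by ring
    have h5 := (pow_le_pow_iff_left₀ (by positivity) (by positivity) two_ne_zero).1 h4
    linarith
  have sal : ∀ {K : Mat ι} {s : ℝ}, Bnd S K s p →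
      Small S (fun a b => if p.ζ * p.Λ < |K a a| * τ b then 1 else 0) (4 * p.κE)
        (16 * p.κ2E ^ 2) (16 * p.nE) := by
    intro K s h
    have h1 : (∑ a ∈ S, |K a a| ^ 2) * ∑ a ∈ S, τ a ^ 2 ≤ p.δ * (16 * p.V) :=
      mul_le_mul (d2 h) τ2 τ2' hδ
    exact excl_prod _ _ (fun _ => abs_nonneg _) τ0 hy (by positivity)
      (h1.trans ((a1 hκ hc.E3 hc.E4).trans_eq (by ring))) (h1.trans (a1 hκ2 hc.E7 hc.E8)) (h1.trans a2)
  have sbe : ∀ {K : Mat ι} {s : ℝ}, Bnd S K s p →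
      Small S (fun a b => if p.ζ * p.Λ < τ a * |K b b| then 1 else 0) (4 * p.κE)
        (16 * p.κ2E ^ 2) (16 * p.nE) := by
    intro K s h
    have h1 : (∑ a ∈ S, τ a ^ 2) * ∑ a ∈ S, |K a a| ^ 2 ≤ p.δ * (16 * p.V) := by
      rw [mul_comm]
      exact mul_le_mul (d2 h) τ2 τ2' hδ
    exact excl_prod _ _ τ0 (fun _ => abs_nonneg _) hy (by positivity)
      (h1.trans ((a1 hκ hc.E3 hc.E4).trans_eq (by ring))) (h1.trans (a1 hκ2 hc.E7 hc.E8)) (h1.trans a2)
  have tot := ((((((((s1.add s2).add s3).add (sab hA)).add (sab hB)).add s6).add (sal hA)).add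
    (sbe hA)).add (sal hB)).add (sbe hB)
  -- pointwise facts
  have t0 : ∀ c, 0 ≤ tt A B c := fun c => by
    have := bb_nonneg hA.symm c
    have := bb_nonneg hB.symm c
    unfold tt
    linarith
  have t3 : ∀ c, tt A B c ≤ 3 * p.Λ ^ 2 := fun c => by
    have := hA.op.bb_le hA.symm c
    have := hB.op.bb_le hB.symm c
    have : 1 ≤ p.Λ ^ 2 := one_le_pow₀ hΛ
    unfold tt
    linarith
  have hal : ∀ {K : Mat ι} {s : ℝ}, Bnd S K s p → ∀ a b, ¬ p.ζ * p.Λ < |K a a| * τ b →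
      |K a a| * tt A B b ≤ p.ζ * p.Λ := by
    intro K s h a b hh
    by_cases h6 : 6 < tt A B b
    · simp only [hτ, if_pos h6] at hh
      exact not_lt.1 hh
    · have h1 : |K a a| ≤ p.Λ := abs_le_of_sq_le_sq' ((sq_le_bb h.symm a a).trans
        (h.op.bb_le h.symm a)) (by linarith) |> abs_le.2
      rw [mul_comm p.ζ]
      exact mul_le_mul h1 ((not_lt.1 h6).trans hζ) (t0 b) (by linarith)
  have htt : ∀ a b, ¬ p.ζ ^ 2 * p.Λ ^ 2 < τ a * τ b → tt A B a * tt A B b ≤ p.ζ ^ 2 * p.Λ ^ 2 := by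
    intro a b hh
    have h36 : 36 * p.Λ ^ 2 ≤ p.ζ ^ 2 * p.Λ ^ 2 :=
      mul_le_mul_of_nonneg_right (by nlinarith) (sq_nonneg _)
    have hL : 0 ≤ p.Λ ^ 2 := sq_nonneg _
    by_cases ha : 6 < tt A B a
    · by_cases hb : 6 < tt A B b
      · simp only [hτ, if_pos ha, if_pos hb] at hh
        exact not_lt.1 hh
      · have := mul_le_mul (t3 a) (not_lt.1 hb) (t0 b) (by positivity)
        linarith
    · have := mul_le_mul (not_lt.1 ha) (t3 b) (t0 b) (by positivity)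
      linarith
  have hsym : ∀ a b, (¬ cf a b ∧ Alw2 A B p a b) → ¬ cf b a ∧ Alw2 A B p b a := fun a b h =>
    ⟨fun h' => h.1 (hs _ _ h'), h.2.ne.symm, hA.symm a b ▸ h.2.rA, hB.symm a b ▸ h.2.rB,
      mul_comm (A a a) (A b b) ▸ h.2.abA, mul_comm (B a a) (B b b) ▸ h.2.abB,
      mul_comm (tt A B a) (tt A B b) ▸ h.2.tt2, h.2.beA, h.2.alA, h.2.beB, h.2.alB⟩
  have ind : ∀ {P : Prop} [Decidable P], (if P then (1 : ℝ) else 0) < 1 → ¬ P := by
    intro P _ h hP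
    rw [if_pos hP] at h
    exact lt_irrefl _ h
  refine ⟨fun a b => if ¬ cf a b ∧ Alw2 A B p a b then 0 else 1,
    tot.mono (fun a b => by split_ifs <;> norm_num) (fun a _ b _ => ?_) (by linarith) (by linarith)
      (by linarith), fun a b => ?_, fun a b => ?_, fun a _ b _ h => ?_⟩
  · by_cases hgd : ¬ cf a b ∧ Alw2 A B p a b
    · rw [if_pos hgd]
      exact tot.nonneg a b
    · rw [if_neg hgd]
      by_contra hlt
      have n1 := s1.nonneg a b
      have n2 := s2.nonneg a b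
      have n3 := s3.nonneg a b
      have n4 := (sab hA).nonneg a b
      have n5 := (sab hB).nonneg a b
      have n6 := s6.nonneg a b
      have n7 := (sal hA).nonneg a b
      have n8 := (sbe hA).nonneg a b
      have n9 := (sal hB).nonneg a b
      have n10 := (sbe hB).nonneg a b
      beta_reduce at n1 n2 n3 n4 n5 n6 n7 n8 n9 n10 hlt
      rw [not_le] at hlt
      have c1 : ¬ cf a b := ind (by linarith)
      refine hgd ⟨c1, fun h => c1 (h ▸ hr a), not_lt.1 (ind (by linarith)), not_lt.1 (ind (by linarith)),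
        ?_, ?_, htt a b (ind (by linarith)), hal hA a b (ind (by linarith)), hal hA b a ?_,
        hal hB a b (ind (by linarith)), hal hB b a ?_⟩
      · rw [abs_mul]
        exact not_lt.1 (ind (by linarith))
      · rw [abs_mul]
        exact not_lt.1 (ind (by linarith))
      · rw [mul_comm _ (τ a)]
        exact ind (by linarith)
      · rw [mul_comm _ (τ a)]
        exact ind (by linarith)
  · exact if_congr ⟨hsym a b, hsym b a⟩ rfl rfl
  · split_ifs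
    · exact Or.inl rfl
    · exact Or.inr rfl
  · by_contra h'
    rw [if_neg h'] at h
    exact one_ne_zero h

end Crest.Agent.R62
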