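import Crest.Agent.R62.Lin

/-!
# Row 62: exact formulas for one step

`G = GG K s a b` is the inverse of `s σ - K_{ab,ab}` (`σ` the swap), `v = vE K a b` the columns `a, b` of `K`,
`K̂ = hat = K + v G vᵀ`.  Since `K̂ E = s v G σ` (`hat_a`, `hat_b`), `K̂ P = K + v G ṽᵀ` with
`ṽᵀ = vT = vᵀ - s σ Eᵀ` and `P = PP a b` the projection killing `a, b`; `step = P K̂ P`.
All identities were checked numerically.
-/

set_option autoImplicit false
set_option linter.unusedSectionVars false
set_option linter.unusedVariables false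

open Finset Matrix

noncomputable section

namespace Crest.Agent.R62

variable {ι : Type} [Fintype ι] [DecidableEq ι]

/-- `G` -/
def GG (K : Mat ι) (s : ℝ) (a b : ι) : Matrix (Fin 2) (Fin 2) ℝ :=
  !![jj K s a b * K b b, gg K s a b; gg K s a b, jj K s a b * K a a]
/-- `ṽᵀ w v₂` in terms of `L = w K₂` -/
def XB (K : Mat ι) (s : ℝ) (L : Mat ι) (a b : ι) : Matrix (Fin 2) (Fin 2) ℝ :=
  !![(K * L) a a - s * L b a, (K * L) a b - s * L b b;
     (K * L) b a - s * L a a, (K * L) b b - s * L a b]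
/-- the block `G ṽᵀ w v₂` -/
def blk (K : Mat ι) (s : ℝ) (L : Mat ι) (a b : ι) : Matrix (Fin 2) (Fin 2) ℝ :=
  GG K s a b * XB K s L a b
/-- `v` -/
def vE (K : Mat ι) (a b : ι) : Matrix ι (Fin 2) ℝ := Matrix.of fun c i => K c (![a, b] i)
/-- `ṽᵀ` -/
def vT (K : Mat ι) (s : ℝ) (a b : ι) : Matrix (Fin 2) ι ℝ :=
  Matrix.of fun i c => K (![a, b] i) c - if c = ![b, a] i then s else 0
/-- `v G ṽᵀ` -/
def UU (K : Mat ι) (s : ℝ) (a b : ι) : Mat ι := vE K a b * GG K s a b * vT K s a b
/-- the projection killing `a, b` -/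
def PP (a b : ι) : Mat ι := Matrix.diagonal fun c => if c = a ∨ c = b then 0 else 1

/-- the hypotheses of all identities -/
structure Adm (K : Mat ι) (s : ℝ) (a b : ι) : Prop where
  symm : ∀ c d, K c d = K d c
  sgn : s = 1 ∨ s = -1
  ne : a ≠ b
  h0 : h0 K s a b ≠ 0

section
variable {K : Mat ι} {s : ℝ} {a b : ι}

theorem Adm.ident_sq (h : Adm K s a b) : s ^ 2 = 1 := by
  rcases h.sgn with h1 | h1 <;> rw [h1] <;> norm_num

theorem Adm.ident_jj (h : Adm K s a b) :
    jj K s a b * ((s - K a b) ^ 2 - K a a * K b b) = 1 := by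
  have h1 : jj K s a b * R62.h0 K s a b = 1 := inv_mul_cancel₀ h.h0
  have h2 := h.ident_sq
  unfold R62.h0 at h1
  linear_combination h1 + jj K s a b * (1 - K a b ^ 2) * h2

theorem ident_sum_off (hab : a ≠ b) (f : ι → ℝ) :
    ∑ d, (if d = a ∨ d = b then 0 else f d) = ∑ d, f d - f a - f b := by
  have : ∀ d, (if d = a ∨ d = b then 0 else f d) =
      f d - (if d = a then f d else 0) - (if d = b then f d else 0) := by
    intro d
    by_cases h1 : d = a
    · subst h1
      simp [hab]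
    · by_cases h2 : d = b
      · subst h2
        simp [h1]
      · simp [h1, h2]
  simp only [this, Finset.sum_sub_distrib, Finset.sum_ite_eq', Finset.mem_univ, if_true]

theorem ident_sq_apply (h : ∀ c d, K c d = K d c) (x y : ι) :
    (K ^ 2) x y = ∑ d, K d x * K d y := by
  rw [pow_two, Matrix.mul_apply]
  exact Finset.sum_congr rfl fun d _ => by rw [h x d]

theorem ident_pow_proj {P H : Mat ι} (hP : P * P = P) (k : ℕ) :
    (P * H * P) ^ (k + 1) = P * (H * P) ^ (k + 1) := by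
  induction k with
  | zero => simp [Matrix.mul_assoc]
  | succ k ih =>
    rw [pow_succ' _ (k + 1), ih, pow_succ' (H * P) (k + 1)]
    simp only [← Matrix.mul_assoc]
    rw [Matrix.mul_assoc (P * H) P P, hP]

theorem ident_pow_mul_proj {P H : Mat ι} (hP : P * P = P) (k : ℕ) :
    (H * P) ^ (k + 1) * P = (H * P) ^ (k + 1) := by
  rw [pow_succ, Matrix.mul_assoc, Matrix.mul_assoc H, hP]

theorem hat_symm (h : ∀ c d, K c d = K d c) (c d : ι) : hat K s a b c d = hat K s a b d c := by
  simp only [hat, l1, l2, Matrix.of_apply, h d c]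
  ring

theorem step_symm (h : ∀ c d, K c d = K d c) (c d : ι) : step K s a b c d = step K s a b d c := by
  simp only [step, Matrix.of_apply, hat_symm h c d]
  refine if_congr ?_ rfl rfl
  tauto

theorem Adm.hat_a (h : Adm K s a b) (d : ι) : hat K s a b d a = s * l2 K s a b d := by
  have h1 := h.ident_jj
  simp only [hat, l1, l2, gg, Matrix.of_apply]
  linear_combination (-K d a) * h1

theorem Adm.hat_b (h : Adm K s a b) (d : ι) : hat K s a b d b = s * l1 K s a b d := by
  have h1 := h.ident_jj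
  simp only [hat, l1, l2, gg, Matrix.of_apply, h.symm b a]
  linear_combination (-K d b) * h1

theorem Adm.hat_aa (h : Adm K s a b) : hat K s a b a a = jj K s a b * K a a := by
  rw [h.hat_a]
  simp only [l2, gg]
  linear_combination (jj K s a b * K a a) * h.ident_sq

theorem Adm.hat_bb (h : Adm K s a b) : hat K s a b b b = jj K s a b * K b b := by
  rw [h.hat_b]
  simp only [l1, gg, h.symm b a]
  linear_combination (jj K s a b * K b b) * h.ident_sq

theorem Adm.hat_ab (h : Adm K s a b) : hat K s a b a b = gg K s a b - s := by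
  rw [h.hat_b]
  simp only [l1, gg]
  linear_combination (-s) * h.ident_jj + (jj K s a b * (s - K a b)) * h.ident_sq

theorem step_eq_PP (K : Mat ι) (s : ℝ) (a b : ι) :
    step K s a b = PP a b * hat K s a b * PP a b := by
  ext c d
  simp only [step, PP, Matrix.of_apply, Matrix.mul_diagonal, Matrix.diagonal_mul]
  by_cases h1 : c = a ∨ c = b
  · rw [if_pos (by tauto), if_pos h1, zero_mul, zero_mul]
  · by_cases h2 : d = a ∨ d = b
    · rw [if_pos (by tauto), if_pos h2, mul_zero]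
    · rw [if_neg (by tauto), if_neg h1, if_neg h2, one_mul, mul_one]

theorem PP_mul_PP (a b : ι) : PP a b * PP a b = (PP a b : Mat ι) := by
  unfold PP
  rw [Matrix.diagonal_mul_diagonal]
  congr 1
  funext c
  split_ifs <;> simp

theorem Adm.hat_mul_PP (h : Adm K s a b) : hat K s a b * PP a b = K + UU K s a b := by
  ext c d
  have h1 : (K + UU K s a b) c d = hat K s a b c d - (if d = b then s else 0) * l1 K s a b c -
      (if d = a then s else 0) * l2 K s a b c := by
    rw [hat_symm h.symm c d]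
    simp only [UU, vE, vT, GG, hat, l1, l2, Matrix.add_apply, Matrix.mul_apply, Fin.sum_univ_two,
      Matrix.of_apply, Matrix.cons_val', Matrix.cons_val_zero, Matrix.cons_val_one,
      Matrix.cons_val_fin_one, h.symm d c, h.symm d a, h.symm d b]
    ring_nf
  rw [h1]
  simp only [PP, Matrix.mul_diagonal]
  by_cases h2 : d = a
  · subst h2
    simp [h.hat_a, h.ne]
  · by_cases h3 : d = b
    · subst h3
      simp [h.hat_b, h2]
    · simp [h2, h3]

theorem vT_mul_vE (K : Mat ι) (s : ℝ) (a b : ι) (W K₂ : Mat ι) :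
    vT K s a b * W * vE K₂ a b = XB K s (W * K₂) a b := by
  have h1 : W * vE K₂ a b = vE (W * K₂) a b := by
    ext c i
    simp [vE, Matrix.mul_apply]
  rw [Matrix.mul_assoc, h1]
  generalize W * K₂ = L
  have h2 : ∀ i k : Fin 2, (vT K s a b * vE L a b) i k =
      (K * L) (![a, b] i) (![a, b] k) - s * L (![b, a] i) (![a, b] k) := by
    intro i k
    simp [vT, vE, Matrix.mul_apply, sub_mul, Finset.sum_sub_distrib]
  ext i k
  rw [h2]
  fin_cases i <;> fin_cases k <;> simp [XB]

/-- `(P K̂ P)^(k+1) = P (K̂ P)^(k+1)` and the trace is cyclic -/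
theorem Adm.pk_step (h : Adm K s a b) (k : ℕ) :
    pk (step K s a b) (k + 1) = ((K + UU K s a b) ^ (k + 1)).trace := by
  unfold pk
  rw [step_eq_PP, ident_pow_proj (PP_mul_PP a b), Matrix.trace_mul_comm,
    ident_pow_mul_proj (PP_mul_PP a b), h.hat_mul_PP]

theorem XX_step {A B : Mat ι} {s t : ℝ} (hA : Adm A s a b) (hB : Adm B t a b) :
    XX (step A s a b) (step B t a b) =
      ((A + UU A s a b) ^ 2 * (B + UU B t a b) ^ 2).trace := by
  unfold XX
  rw [step_eq_PP, step_eq_PP, ident_pow_proj (PP_mul_PP a b) 1, ident_pow_proj (PP_mul_PP a b) 1,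
    Matrix.mul_assoc, Matrix.trace_mul_comm, ← Matrix.mul_assoc _ (PP a b),
    ident_pow_mul_proj (PP_mul_PP a b), Matrix.mul_assoc, ident_pow_mul_proj (PP_mul_PP a b),
    hA.hat_mul_PP, hB.hat_mul_PP]

/-- row norms after the step: `b'_c = ∑_d K̂ c d ² - K̂ c a ² - K̂ c b ²` -/
theorem Adm.bb_step (h : Adm K s a b) (c : ι) (hca : c ≠ a) (hcb : c ≠ b) :
    bb (step K s a b) c = bb K c + 2 * ((K ^ 2) c a * l1 K s a b c + (K ^ 2) c b * l2 K s a b c) +
      (bb K a - 1) * l1 K s a b c ^ 2 + (bb K b - 1) * l2 K s a b c ^ 2 +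
      2 * (K ^ 2) a b * l1 K s a b c * l2 K s a b c := by
  have h1 : bb (step K s a b) c = ∑ d, hat K s a b d c ^ 2 - hat K s a b a c ^ 2 -
      hat K s a b b c ^ 2 := by
    unfold bb
    rw [ident_sq_apply (step_symm h.symm), ← ident_sum_off h.ne]
    refine Finset.sum_congr rfl fun d _ => ?_
    simp only [step, Matrix.of_apply, hca, hcb, or_false]
    split_ifs <;> ring
  have h2 : ∑ d, hat K s a b d c ^ 2 = bb K c +
      2 * ((K ^ 2) c a * l1 K s a b c + (K ^ 2) c b * l2 K s a b c) +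
      bb K a * l1 K s a b c ^ 2 + bb K b * l2 K s a b c ^ 2 +
      2 * (K ^ 2) a b * l1 K s a b c * l2 K s a b c := by
    unfold bb
    simp only [ident_sq_apply h.symm, Finset.sum_mul, Finset.mul_sum, ← Finset.sum_add_distrib]
    refine Finset.sum_congr rfl fun d _ => ?_
    simp only [hat, Matrix.of_apply]
    ring
  rw [h1, h2, hat_symm h.symm a c, hat_symm h.symm b c, h.hat_a, h.hat_b]
  linear_combination (-(l1 K s a b c ^ 2 + l2 K s a b c ^ 2)) * h.ident_sq

theorem DD_step (K : Mat ι) (s : ℝ) (hab : a ≠ b) :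
    DD (step K s a b) = ∑ c, hat K s a b c c ^ 2 - hat K s a b a a ^ 2 - hat K s a b b b ^ 2 := by
  unfold DD
  rw [← ident_sum_off hab]
  refine Finset.sum_congr rfl fun c _ => ?_
  simp only [step, Matrix.of_apply]
  by_cases h1 : c = a ∨ c = b
  · rw [if_pos (by tauto), if_pos h1]; ring
  · rw [if_neg (by tauto), if_neg h1]

theorem WW_step (h : ∀ c d, K c d = K d c) (s : ℝ) (hab : a ≠ b) :
    WW (step K s a b) = ∑ c, ∑ d, hat K s a b c d ^ 4 - 2 * ∑ d, hat K s a b d a ^ 4 -
      2 * ∑ d, hat K s a b d b ^ 4 +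
      (hat K s a b a a ^ 4 + 2 * hat K s a b a b ^ 4 + hat K s a b b b ^ 4) := by
  have h1 : WW (step K s a b) = ∑ c, if c = a ∨ c = b then 0 else
      (∑ d, hat K s a b c d ^ 4 - hat K s a b c a ^ 4 - hat K s a b c b ^ 4) := by
    unfold WW ww
    refine Finset.sum_congr rfl fun c _ => ?_
    by_cases h1 : c = a ∨ c = b
    · rw [if_pos h1]
      refine Finset.sum_eq_zero fun d _ => ?_
      simp only [step, Matrix.of_apply]
      rw [if_pos (by tauto)]; ring
    · rw [if_neg h1, ← ident_sum_off hab]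
      refine Finset.sum_congr rfl fun d _ => ?_
      simp only [step, Matrix.of_apply]
      by_cases h2 : d = a ∨ d = b
      · rw [if_pos (by tauto), if_pos h2]; ring
      · rw [if_neg (by tauto), if_neg h2]
  have h2 : ∑ d, hat K s a b a d ^ 4 = ∑ d, hat K s a b d a ^ 4 :=
    Finset.sum_congr rfl fun d _ => by rw [hat_symm h a d]
  have h3 : ∑ d, hat K s a b b d ^ 4 = ∑ d, hat K s a b d b ^ 4 :=
    Finset.sum_congr rfl fun d _ => by rw [hat_symm h b d]
  rw [h1, ident_sum_off hab, Finset.sum_sub_distrib, Finset.sum_sub_distrib, h2, h3,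
    hat_symm h b a]
  ring

/-! ## Explicit `h_k` -/

theorem hh_one (h : ∀ c d, K c d = K d c) (s : ℝ) (a b : ι) : hh K s a b 1 =
    -2 * s * (K ^ 2) a b - K a a * (bb K b - 1) - K b b * (bb K a - 1) +
      2 * K a b * (K ^ 2) a b := by
  simp only [hh, om, bb, Finset.sum_range_succ, Finset.sum_range_zero]
  norm_num
  ring

theorem hh_two (h : ∀ c d, K c d = K d c) (s : ℝ) (a b : ι) : hh K s a b 2 =
    1 - (bb K a - 1) * (bb K b - 1) - 2 * s * (K ^ 3) a b - K a a * (K ^ 3) b b -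
      (K ^ 3) a a * K b b + 2 * K a b * (K ^ 3) a b + (K ^ 2) a b ^ 2 + K a a * K b b -
      K a b ^ 2 := by
  simp only [hh, om, bb, Finset.sum_range_succ, Finset.sum_range_zero]
  norm_num
  ring

theorem hh_three (h : ∀ c d, K c d = K d c) (s : ℝ) (a b : ι) : hh K s a b 3 =
    -2 * s * (K ^ 4) a b - (K ^ 3) a a * (bb K b - 1) - (K ^ 3) b b * (bb K a - 1) -
      K a a * (K ^ 4) b b - (K ^ 4) a a * K b b + 2 * K a b * (K ^ 4) a b +
      2 * (K ^ 2) a b * (K ^ 3) a b + K a a * bb K b + bb K a * K b b -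
      2 * K a b * (K ^ 2) a b := by
  simp only [hh, om, bb, Finset.sum_range_succ, Finset.sum_range_zero]
  norm_num
  ring

theorem hh_four (h : ∀ c d, K c d = K d c) (s : ℝ) (a b : ι) : hh K s a b 4 =
    -2 * s * (K ^ 5) a b - (K ^ 4) a a * (bb K b - 1) - (K ^ 4) b b * (bb K a - 1) -
      K a a * (K ^ 5) b b - (K ^ 5) a a * K b b - (K ^ 3) a a * (K ^ 3) b b +
      (2 * K a b * (K ^ 5) a b + 2 * (K ^ 2) a b * (K ^ 4) a b + (K ^ 3) a b ^ 2) +
      (K a a * (K ^ 3) b b + bb K a * bb K b + (K ^ 3) a a * K b b) -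
      (2 * K a b * (K ^ 3) a b + (K ^ 2) a b ^ 2) := by
  simp only [hh, om, bb, Finset.sum_range_succ, Finset.sum_range_zero]
  norm_num
  ring

theorem hh_five (h : ∀ c d, K c d = K d c) (s : ℝ) (a b : ι) : hh K s a b 5 =
    -2 * s * (K ^ 6) a b - (K ^ 5) a a * (bb K b - 1) - (K ^ 5) b b * (bb K a - 1) -
      K a a * (K ^ 6) b b - (K ^ 6) a a * K b b - (K ^ 3) a a * (K ^ 4) b b -
      (K ^ 4) a a * (K ^ 3) b b +
      (2 * K a b * (K ^ 6) a b + 2 * (K ^ 2) a b * (K ^ 5) a b + 2 * (K ^ 3) a b * (K ^ 4) a b) +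
      (K a a * (K ^ 4) b b + bb K a * (K ^ 3) b b + (K ^ 3) a a * bb K b + (K ^ 4) a a * K b b) -
      (2 * K a b * (K ^ 4) a b + 2 * (K ^ 2) a b * (K ^ 3) a b) := by
  simp only [hh, om, bb, Finset.sum_range_succ, Finset.sum_range_zero]
  norm_num
  ring

theorem hh_six (h : ∀ c d, K c d = K d c) (s : ℝ) (a b : ι) : hh K s a b 6 =
    -2 * s * (K ^ 7) a b - (K ^ 6) a a * (bb K b - 1) - (K ^ 6) b b * (bb K a - 1) -
      K a a * (K ^ 7) b b - (K ^ 7) a a * K b b - (K ^ 3) a a * (K ^ 5) b b -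
      (K ^ 5) a a * (K ^ 3) b b - (K ^ 4) a a * (K ^ 4) b b +
      (2 * K a b * (K ^ 7) a b + 2 * (K ^ 2) a b * (K ^ 6) a b + 2 * (K ^ 3) a b * (K ^ 5) a b +
        (K ^ 4) a b ^ 2) +
      (K a a * (K ^ 5) b b + bb K a * (K ^ 4) b b + (K ^ 3) a a * (K ^ 3) b b +
        (K ^ 4) a a * bb K b + (K ^ 5) a a * K b b) -
      (2 * K a b * (K ^ 5) a b + 2 * (K ^ 2) a b * (K ^ 4) a b + (K ^ 3) a b ^ 2) := by
  simp only [hh, om, bb, Finset.sum_range_succ, Finset.sum_range_zero]
  norm_num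
  ring

end

end Crest.Agent.R62
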