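import Crest.Agent.R62.InvInit

/-!
# Row 62: the features of the initial matrix

With `m = 1/√k`, `c₀ = (k-1) m`, `P c d = 1[vtx c = vtx d]`, `R c d = 1[vtx d = pt (vtx c)]`, `J` all ones:
`K0 = m P - m 1 + s m² R - (c₀/N₀) J`, and `P² = k P`, `P R = R P = k R`, `R² = k P`, `P J = J P = R J = J R = k J`,
`J² = N₀ J`, `tr P = tr J = N₀`, `tr R = 0`.  Hence `b_c = 1 - (c₀² + 2 s c₀)/N₀` and
`p₃ = N₀ (k² - 1)/k^(3/2) - (c₀ + s)³ + s`.
-/

set_option autoImplicit false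

open Finset Matrix

noncomputable section

namespace Crest.Agent.R62

variable {ι V : Type} [Fintype ι] [DecidableEq ι] [Fintype V] [DecidableEq V]
variable {vtx : ι → V} {pt : V → V} {k : ℕ} {G : SimpleGraph V} {s : ℝ}

/-- same vertex -/
def Pm (vtx : ι → V) : Mat ι := Matrix.of fun c d => if vtx c = vtx d then 1 else 0
/-- partner vertex -/
def Rm (vtx : ι → V) (pt : V → V) : Mat ι := Matrix.of fun c d => if vtx d = pt (vtx c) then 1 else 0
/-- all ones -/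
def Jm (ι : Type) : Mat ι := Matrix.of fun _ _ => 1

theorem K0_eq (vtx : ι → V) (pt : V → V) (k : ℕ) (s : ℝ) : K0 vtx pt k s =
    (1 / √(k : ℝ)) • Pm vtx - (1 / √(k : ℝ)) • (1 : Mat ι) + (s / k) • Rm vtx pt -
      (((k : ℝ) - 1) / √(k : ℝ) / Fintype.card ι) • Jm ι := by
  ext c d
  simp only [K0, Pm, Rm, Jm, Matrix.of_apply, Matrix.sub_apply, Matrix.add_apply, Matrix.smul_apply,
    Matrix.one_apply, smul_eq_mul]
  by_cases hcd : c = d
  · subst hcd
    simp only [ne_eq, not_true_eq_false, and_false, if_false, if_true]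
    split_ifs <;> ring
  · simp only [ne_eq, hcd, not_false_eq_true, and_true, if_false]
    split_ifs <;> ring

theorem Cfg.alg (h : Cfg vtx pt k G) :
    Pm vtx * Pm vtx = (k : ℝ) • Pm vtx ∧ Pm vtx * Rm vtx pt = (k : ℝ) • Rm vtx pt ∧
    Rm vtx pt * Pm vtx = (k : ℝ) • Rm vtx pt ∧ Rm vtx pt * Rm vtx pt = (k : ℝ) • Pm vtx ∧
    Pm vtx * Jm ι = (k : ℝ) • Jm ι ∧ Jm ι * Pm vtx = (k : ℝ) • Jm ι ∧
    Rm vtx pt * Jm ι = (k : ℝ) • Jm ι ∧ Jm ι * Rm vtx pt = (k : ℝ) • Jm ι ∧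
    Jm ι * Jm ι = (Fintype.card ι : ℝ) • Jm ι := by
  have hpt : ∀ u v : V, (v = pt u) ↔ (u = pt v) := fun u v =>
    ⟨fun e => by rw [e, h.inv], fun e => by rw [e, h.inv]⟩
  refine ⟨?_, ?_, ?_, ?_, ?_, ?_, ?_, ?_, ?_⟩
  · ext c d
    simp only [Pm, Matrix.mul_apply, Matrix.of_apply, Matrix.smul_apply, smul_eq_mul]
    rw [h.sum_vtx fun u => (if vtx c = u then (1 : ℝ) else 0) * (if u = vtx d then 1 else 0)]
    simp
  · ext c d
    simp only [Pm, Rm, Matrix.mul_apply, Matrix.of_apply, Matrix.smul_apply, smul_eq_mul]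
    rw [h.sum_vtx fun u => (if vtx c = u then (1 : ℝ) else 0) * (if vtx d = pt u then 1 else 0)]
    simp only [ite_mul, one_mul, zero_mul, Finset.sum_ite_eq, Finset.mem_univ, if_true]
  · ext c d
    simp only [Pm, Rm, Matrix.mul_apply, Matrix.of_apply, Matrix.smul_apply, smul_eq_mul]
    rw [h.sum_vtx fun u => (if u = pt (vtx c) then (1 : ℝ) else 0) * (if u = vtx d then 1 else 0)]
    simp [eq_comm]
  · ext c d
    simp only [Pm, Rm, Matrix.mul_apply, Matrix.of_apply, Matrix.smul_apply, smul_eq_mul]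
    rw [h.sum_vtx fun u => (if u = pt (vtx c) then (1 : ℝ) else 0) * (if vtx d = pt u then 1 else 0)]
    simp only [ite_mul, one_mul, zero_mul, Finset.sum_ite_eq', Finset.mem_univ, if_true, h.inv,
      eq_comm (a := vtx d)]
  · ext c d
    simp only [Pm, Jm, Matrix.mul_apply, Matrix.of_apply, Matrix.smul_apply, smul_eq_mul]
    rw [h.sum_vtx fun u => (if vtx c = u then (1 : ℝ) else 0) * 1]
    simp
  · ext c d
    simp only [Pm, Jm, Matrix.mul_apply, Matrix.of_apply, Matrix.smul_apply, smul_eq_mul]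
    rw [h.sum_vtx fun u => 1 * (if u = vtx d then (1 : ℝ) else 0)]
    simp
  · ext c d
    simp only [Rm, Jm, Matrix.mul_apply, Matrix.of_apply, Matrix.smul_apply, smul_eq_mul]
    rw [h.sum_vtx fun u => (if u = pt (vtx c) then (1 : ℝ) else 0) * 1]
    simp
  · ext c d
    simp only [Rm, Jm, Matrix.mul_apply, Matrix.of_apply, Matrix.smul_apply, smul_eq_mul]
    rw [h.sum_vtx fun u => 1 * (if vtx d = pt u then (1 : ℝ) else 0)]
    simp [hpt _ (vtx d)]
  · ext c d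
    simp [Jm, Matrix.mul_apply]

theorem Cfg.two_k_le (h : Cfg vtx pt k G) : 2 * k ≤ Fintype.card ι := by
  obtain ⟨v⟩ := Fintype.card_pos_iff.mp h.ne
  have h2 : 1 < Fintype.card V := Fintype.one_lt_card_iff.mpr ⟨pt v, v, h.fix v⟩
  rw [h.card]
  exact Nat.mul_le_mul_right k h2

/-- the algebra spanned by `P`, `1`, `R`, `J` -/
def Qm (vtx : ι → V) (pt : V → V) (a b c d : ℝ) : Mat ι :=
  a • Pm vtx + b • (1 : Mat ι) + c • Rm vtx pt + d • Jm ι

theorem Cfg.Qm_mul (h : Cfg vtx pt k G) (a b c d a' b' c' d' : ℝ) :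
    Qm vtx pt a b c d * Qm vtx pt a' b' c' d' =
      Qm vtx pt (k * a * a' + a * b' + b * a' + k * c * c') (b * b')
        (k * a * c' + k * c * a' + b * c' + c * b')
        (k * a * d' + k * d * a' + b * d' + d * b' + k * c * d' + k * d * c' +
          Fintype.card ι * d * d') := by
  obtain ⟨h1, h2, h3, h4, h5, h6, h7, h8, h9⟩ := h.alg
  simp only [Qm, add_mul, mul_add, smul_mul_assoc, mul_smul_comm, Matrix.one_mul, Matrix.mul_one,
    h1, h2, h3, h4, h5, h6, h7, h8, h9]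
  module

theorem Cfg.Qm_diag (h : Cfg vtx pt k G) (a b c d : ℝ) (x : ι) :
    Qm vtx pt a b c d x x = a + b + d := by
  have := (h.fix (vtx x)).symm
  simp [Qm, Pm, Rm, Jm, this]

theorem K0_Qm (vtx : ι → V) (pt : V → V) (k : ℕ) (s : ℝ) : K0 vtx pt k s =
    Qm vtx pt (1 / √(k : ℝ)) (-(1 / √(k : ℝ))) (s / k)
      (-(((k : ℝ) - 1) / √(k : ℝ) / Fintype.card ι)) := by
  rw [K0_eq, Qm]
  module

theorem Cfg.K0_symm2 (h : Cfg vtx pt k G) (s : ℝ) (a b : ι) :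
    K0 vtx pt k s a b = K0 vtx pt k s b a := by
  have hpt : (vtx b = pt (vtx a)) ↔ (vtx a = pt (vtx b)) :=
    ⟨fun e => by rw [e, h.inv], fun e => by rw [e, h.inv]⟩
  have h1 : (vtx a = vtx b ∧ a ≠ b) ↔ (vtx b = vtx a ∧ b ≠ a) :=
    ⟨fun e => ⟨e.1.symm, e.2.symm⟩, fun e => ⟨e.1.symm, e.2.symm⟩⟩
  simp only [K0, Matrix.of_apply, hpt, h1]

theorem Cfg.sum_same (h : Cfg vtx pt k G) (c : ι) (x : ℝ) :
    ∑ d, (if vtx c = vtx d ∧ c ≠ d then x else 0) = ((k : ℝ) - 1) * x := by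
  have h1 : ∀ d, (if vtx c = vtx d ∧ c ≠ d then x else 0) =
      (if vtx c = vtx d then x else 0) - (if c = d then x else 0) := by
    intro d
    by_cases hcd : c = d
    · subst hcd; simp
    · simp [hcd]
  simp only [h1, Finset.sum_sub_distrib]
  rw [h.sum_vtx fun u => if vtx c = u then x else 0]
  simp
  ring

theorem Cfg.sum_pt2 (h : Cfg vtx pt k G) (c : ι) (x : ℝ) :
    ∑ d, (if vtx d = pt (vtx c) then x else 0) = (k : ℝ) * x := by
  rw [h.sum_vtx fun u => if u = pt (vtx c) then x else 0]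
  simp

/-- Schur test -/
theorem opLe_of_rows {K : Mat ι} (hs : ∀ a b, K a b = K b a) {Λ : ℝ} (hΛ : 0 ≤ Λ)
    (hr : ∀ a, ∑ b, |K a b| ≤ Λ) : OpLe K Λ := by
  intro v
  have h1 : ∀ a, (K *ᵥ v) a * (K *ᵥ v) a ≤ Λ * ∑ b, |K a b| * (v b * v b) := by
    intro a
    have h2 : (∑ b, K a b * v b) ^ 2 ≤ (∑ b, |K a b|) * ∑ b, |K a b| * (v b * v b) := by
      refine Finset.sum_sq_le_sum_mul_sum_of_sq_le_mul _ (fun b _ => abs_nonneg _)
        (fun b _ => mul_nonneg (abs_nonneg _) (mul_self_nonneg _)) (fun b _ => le_of_eq ?_)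
      rw [← mul_assoc, abs_mul_abs_self]; ring
    have h3 : 0 ≤ ∑ b, |K a b| * (v b * v b) :=
      Finset.sum_nonneg fun b _ => mul_nonneg (abs_nonneg _) (mul_self_nonneg _)
    calc (K *ᵥ v) a * (K *ᵥ v) a = (∑ b, K a b * v b) ^ 2 := by
          simp only [Matrix.mulVec, dotProduct]; ring
      _ ≤ _ := h2
      _ ≤ _ := mul_le_mul_of_nonneg_right (hr a) h3
  calc (K *ᵥ v) ⬝ᵥ (K *ᵥ v) ≤ ∑ a, Λ * ∑ b, |K a b| * (v b * v b) :=
        Finset.sum_le_sum fun a _ => h1 a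
    _ = Λ * ∑ b, (∑ a, |K b a|) * (v b * v b) := by
        rw [← Finset.mul_sum, Finset.sum_comm]
        congr 1
        refine Finset.sum_congr rfl fun b _ => ?_
        rw [Finset.sum_mul]
        exact Finset.sum_congr rfl fun a _ => by rw [hs a b]
    _ ≤ Λ * ∑ b, Λ * (v b * v b) := by
        refine mul_le_mul_of_nonneg_left (Finset.sum_le_sum fun b _ => ?_) hΛ
        exact mul_le_mul_of_nonneg_right (hr b) (mul_self_nonneg _)
    _ = Λ ^ 2 * (v ⬝ᵥ v) := by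
        rw [← Finset.mul_sum, dotProduct]; ring

theorem pow4_sub_le {x e : ℝ} (hx : |x| ≤ 1) (h0 : 0 ≤ e) (h1 : e ≤ 1) :
    (x - e) ^ 4 ≤ x ^ 4 + 15 * e := by
  obtain ⟨hx1, hx2⟩ := abs_le.mp hx
  have a2 : x ^ 2 ≤ 1 := by nlinarith
  have a3 : -(x ^ 3) ≤ 1 := by nlinarith [mul_nonneg (sq_nonneg x) (by linarith : 0 ≤ x + 1)]
  have e2 : e ^ 2 ≤ e := by nlinarith
  have e3 : e ^ 3 ≤ e := by nlinarith
  have e4 : e ^ 4 ≤ e := by nlinarith
  have b1 : -(x ^ 3) * e ≤ e := by nlinarith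
  have b2 : x ^ 2 * e ^ 2 ≤ e := by nlinarith [sq_nonneg e]
  have b3 : -x * e ^ 3 ≤ e := by nlinarith [pow_nonneg h0 3]
  nlinarith

/-- the features of the initial matrix -/
structure InitOut (K : Mat ι) (k : ℝ) : Prop where
  p1 : |pk K 1| ≤ k
  p2 : |pk K 2 - Fintype.card ι - 1| ≤ 4 * k
  p3 : |pk K 3 - Fintype.card ι * ((k ^ 2 - 1) / k * (1 / √k))| ≤ 9 * k ^ 2
  V : VV univ K 1 ≤ 9 * k ^ 2
  D : DD K ≤ k
  W : WW K ≤ 3 / 8 * Fintype.card ι + 40 * k ^ 2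
  op : OpLe K (3 * k)

/-- `W`: an entry is `x - e` with `x ∈ {m, s/k, 0}`, `0 ≤ e = c₀/N₀ ≤ 1`, `(x - e)⁴ ≤ x⁴ + 15 e` for the at most
`2 k` entries per row with `x ≠ 0`, and `(k-1)/k² + 1/k³ ≤ 3/8`.  `op`: row sums of absolute values are `≤ 3 k`
(Schur test, symmetric matrix). -/
theorem Cfg.initOut (h : Cfg vtx pt k G) (hs : s = 1 ∨ s = -1) : InitOut (K0 vtx pt k s) k := by
  have hk2 : (2 : ℝ) ≤ k := by exact_mod_cast h.two
  have hN2 : 2 * (k : ℝ) ≤ Fintype.card ι := by exact_mod_cast h.two_k_le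
  have hss : s * s = 1 := by rcases hs with rfl | rfl <;> norm_num
  have hs1 : |s| = 1 := by rcases hs with rfl | rfl <;> norm_num
  have hsle : -1 ≤ s ∧ s ≤ 1 := abs_le.mp hs1.le
  obtain ⟨N, hN⟩ : ∃ N : ℝ, N = Fintype.card ι := ⟨_, rfl⟩
  obtain ⟨r, hr⟩ : ∃ r : ℝ, r = √(k : ℝ) := ⟨_, rfl⟩
  have hrr : r * r = k := by rw [hr]; exact Real.mul_self_sqrt (by linarith)
  have hr0 : 0 ≤ r := by rw [hr]; exact Real.sqrt_nonneg _
  have hr1 : 1 ≤ r := by nlinarith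
  have hrk : r ≤ k := by nlinarith
  rw [← hN] at hN2
  have hN0 : 0 < N := by linarith
  obtain ⟨c, hc⟩ : ∃ c : ℝ, c = ((k : ℝ) - 1) / r := ⟨_, rfl⟩
  have hc0 : 0 ≤ c := by rw [hc]; exact div_nonneg (by linarith) hr0
  have hcr : c ≤ r := by rw [hc, div_le_iff₀ (by linarith)]; linarith
  have hK : K0 vtx pt k s = Qm vtx pt (1 / r) (-(1 / r)) (s / k) (-(c / N)) := by
    rw [K0_Qm, ← hr, ← hN, ← hc]
  have hrne : r ≠ 0 := by linarith
  have hkne : (k : ℝ) ≠ 0 := by linarith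
  have hNne : N ≠ 0 := hN0.ne'
  have hkr : (k : ℝ) = r * r := hrr.symm
  have d1 : ∀ x, K0 vtx pt k s x x = -(c / N) := by
    intro x; rw [hK, h.Qm_diag]; ring
  have d2 : ∀ x, (K0 vtx pt k s ^ 2) x x = 1 - c * (c + 2 * s) / N := by
    intro x
    rw [hK, pow_two, h.Qm_mul, h.Qm_diag, ← hN, hc, hkr]
    rcases hs with rfl | rfl <;> field_simp <;> ring
  have d3 : ∀ x, (K0 vtx pt k s ^ 3) x x =
      ((k : ℝ) ^ 2 - 1) / k * (1 / r) - ((c + s) ^ 3 - s) / N := by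
    intro x
    rw [hK, pow_three', h.Qm_mul, h.Qm_mul, h.Qm_diag, ← hN, hc, hkr]
    rcases hs with rfl | rfl <;> field_simp <;> ring
  have he0 : 0 ≤ c / N := div_nonneg hc0 hN0.le
  have he1 : c / N ≤ 1 := by rw [div_le_one hN0]; linarith
  have hent : ∀ x y, K0 vtx pt k s x y = (if vtx x = vtx y ∧ x ≠ y then 1 / r else 0) +
      (if vtx y = pt (vtx x) then s / k else 0) - c / N := by
    intro x y
    simp only [K0, Matrix.of_apply]
    rw [← hr, ← hN, ← hc]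
  have hm1 : |1 / r| ≤ 1 := by
    rw [abs_of_nonneg (by positivity), div_le_one (by linarith)]; exact hr1
  have hσ : |s / k| = 1 / k := by rw [abs_div, hs1, abs_of_pos (by linarith)]
  have hσ1 : |s / k| ≤ 1 := by rw [hσ, div_le_one (by linarith)]; linarith
  refine ⟨?_, ?_, ?_, ?_, ?_, ?_, ?_⟩
  · have : pk (K0 vtx pt k s) 1 = -c := by
      simp only [pk, pow_one, Matrix.trace, Matrix.diag, d1, Finset.sum_const, Finset.card_univ,
        nsmul_eq_mul, ← hN]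
      field_simp
    rw [this, abs_neg, abs_of_nonneg hc0]; linarith
  · have : pk (K0 vtx pt k s) 2 - Fintype.card ι - 1 = -(c + s) ^ 2 := by
      simp only [pk, Matrix.trace, Matrix.diag, d2, Finset.sum_const, Finset.card_univ,
        nsmul_eq_mul, ← hN]
      field_simp
      linear_combination hss
    rw [this, abs_neg, abs_of_nonneg (sq_nonneg _)]
    nlinarith [mul_le_mul_of_nonneg_left hsle.2 hc0]
  · have : pk (K0 vtx pt k s) 3 - Fintype.card ι * (((k : ℝ) ^ 2 - 1) / k * (1 / √(k : ℝ))) =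
        -(c ^ 3 + 3 * s * c ^ 2 + 3 * c) := by
      simp only [pk, Matrix.trace, Matrix.diag, d3, Finset.sum_const, Finset.card_univ,
        nsmul_eq_mul, ← hN, ← hr]
      rcases hs with rfl | rfl <;> field_simp <;> ring
    rw [this, abs_neg]
    have c2 : c ^ 2 ≤ k := by nlinarith
    have c3 : c ^ 3 ≤ k * k := by
      have : c ^ 3 = c ^ 2 * c := by ring
      rw [this]; exact mul_le_mul c2 (by linarith) hc0 (by linarith)
    have c4 : 0 ≤ c ^ 3 := by positivity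
    have c5 : -c ^ 2 ≤ s * c ^ 2 := by nlinarith [sq_nonneg c]
    have c6 : s * c ^ 2 ≤ c ^ 2 := by nlinarith [sq_nonneg c]
    rw [abs_le]
    constructor <;> nlinarith
  · have : VV univ (K0 vtx pt k s) 1 = (c * (c + 2 * s)) ^ 2 / N := by
      simp only [VV, bb, d2, Finset.sum_const, Finset.card_univ, nsmul_eq_mul, ← hN]
      field_simp
      ring
    rw [this, div_le_iff₀ hN0]
    have c1 : |c * (c + 2 * s)| ≤ 3 * k := by
      rw [abs_mul, abs_of_nonneg hc0]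
      have : |c + 2 * s| ≤ 3 * r := by rw [abs_le]; constructor <;> linarith
      calc c * |c + 2 * s| ≤ r * (3 * r) := mul_le_mul hcr this (abs_nonneg _) hr0
        _ = 3 * k := by linear_combination 3 * hrr
    have c2 : (c * (c + 2 * s)) ^ 2 ≤ (3 * k) ^ 2 := by
      rw [← sq_abs]; exact pow_le_pow_left₀ (abs_nonneg _) c1 2
    have c3 : 9 * (k : ℝ) ^ 2 * 1 ≤ 9 * (k : ℝ) ^ 2 * N :=
      mul_le_mul_of_nonneg_left (by linarith) (by positivity)
    nlinarith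
  · have : DD (K0 vtx pt k s) = c ^ 2 / N := by
      simp only [DD, d1, Finset.sum_const, Finset.card_univ, nsmul_eq_mul, ← hN]
      field_simp
    rw [this, div_le_iff₀ hN0]
    have c2 : c ^ 2 ≤ k := by nlinarith
    nlinarith
  · have hpt : ∀ x y, K0 vtx pt k s x y ^ 4 ≤
        (if vtx x = vtx y ∧ x ≠ y then (1 / r) ^ 4 + 15 * (c / N) else 0) +
        (if vtx y = pt (vtx x) then (s / k) ^ 4 + 15 * (c / N) else 0) + (c / N) ^ 4 := by
      intro x y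
      have q0 : 0 ≤ (c / N) ^ 4 := by positivity
      rw [hent]
      by_cases h1 : vtx x = vtx y ∧ x ≠ y
      · have h2 : ¬ vtx y = pt (vtx x) := fun e => h.fix (vtx x) (by rw [← e, h1.1])
        rw [if_pos h1, if_pos h1, if_neg h2, if_neg h2, add_zero, add_zero]
        linarith [pow4_sub_le hm1 he0 he1]
      · rw [if_neg h1, if_neg h1, zero_add, zero_add]
        by_cases h2 : vtx y = pt (vtx x)
        · rw [if_pos h2, if_pos h2]
          linarith [pow4_sub_le hσ1 he0 he1]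
        · rw [if_neg h2, if_neg h2]
          exact le_of_eq (by ring)
    have hrow : ∀ x, ww (K0 vtx pt k s) x ≤ ((k : ℝ) - 1) * ((1 / r) ^ 4 + 15 * (c / N)) +
        k * ((s / k) ^ 4 + 15 * (c / N)) + N * (c / N) ^ 4 := by
      intro x
      refine (Finset.sum_le_sum fun y _ => hpt x y).trans (le_of_eq ?_)
      rw [Finset.sum_add_distrib, Finset.sum_add_distrib, h.sum_same, h.sum_pt2]
      simp only [Finset.sum_const, Finset.card_univ, nsmul_eq_mul, ← hN]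
    have htot : WW (K0 vtx pt k s) ≤ N * (((k : ℝ) - 1) * ((1 / r) ^ 4 + 15 * (c / N)) +
        k * ((s / k) ^ 4 + 15 * (c / N)) + N * (c / N) ^ 4) := by
      refine (Finset.sum_le_sum fun x _ => hrow x).trans (le_of_eq ?_)
      simp only [Finset.sum_const, Finset.card_univ, nsmul_eq_mul, ← hN]
    have heq : N * (((k : ℝ) - 1) * ((1 / r) ^ 4 + 15 * (c / N)) +
        k * ((s / k) ^ 4 + 15 * (c / N)) + N * (c / N) ^ 4) =
        N * (((k : ℝ) ^ 2 - k + 1) / k ^ 3) + 15 * (2 * k - 1) * c + c ^ 4 / N ^ 2 := by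
      rw [hkr]
      rcases hs with rfl | rfl <;> field_simp <;> ring
    have b1 : ((k : ℝ) ^ 2 - k + 1) / k ^ 3 ≤ 3 / 8 := by
      rw [div_le_iff₀ (by positivity)]
      nlinarith [mul_nonneg (by linarith : (0 : ℝ) ≤ k - 2)
        (by nlinarith : (0 : ℝ) ≤ 3 * k ^ 2 - 2 * k + 4)]
    have b2 : 15 * (2 * (k : ℝ) - 1) * c ≤ 30 * k ^ 2 := by nlinarith
    have b3 : c ^ 4 / N ^ 2 ≤ (k : ℝ) ^ 2 := by
      rw [div_le_iff₀ (by positivity)]
      have c2 : c ^ 2 ≤ k := by nlinarith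
      have c4 : c ^ 4 ≤ (k : ℝ) ^ 2 := by
        have : c ^ 4 = (c ^ 2) ^ 2 := by ring
        rw [this]; exact pow_le_pow_left₀ (sq_nonneg _) c2 2
      have c5 : (k : ℝ) ^ 2 * 1 ≤ (k : ℝ) ^ 2 * N ^ 2 :=
        mul_le_mul_of_nonneg_left (by nlinarith) (by positivity)
      linarith
    have b4 := mul_le_mul_of_nonneg_left b1 hN0.le
    rw [← hN]
    nlinarith [sq_nonneg (k : ℝ)]
  · refine opLe_of_rows (h.K0_symm2 s) (by linarith) fun x => ?_
    have hpt : ∀ y, |K0 vtx pt k s x y| ≤ (if vtx x = vtx y ∧ x ≠ y then 1 / r else 0) +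
        (if vtx y = pt (vtx x) then 1 / (k : ℝ) else 0) + c / N := by
      intro y
      rw [hent]
      refine (abs_sub _ _).trans ?_
      rw [abs_of_nonneg he0]
      refine add_le_add_left ((abs_add_le _ _).trans (add_le_add ?_ ?_)) _
      · split_ifs
        · exact le_of_eq (abs_of_nonneg (by positivity))
        · simp
      · split_ifs
        · exact hσ.le
        · simp
    refine (Finset.sum_le_sum fun y _ => hpt y).trans ?_
    rw [Finset.sum_add_distrib, Finset.sum_add_distrib, h.sum_same, h.sum_pt2]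
    simp only [Finset.sum_const, Finset.card_univ, nsmul_eq_mul, ← hN]
    have e1 : ((k : ℝ) - 1) * (1 / r) = c := by rw [hc]; ring
    have e2 : (k : ℝ) * (1 / k) = 1 := by field_simp
    have e3 : N * (c / N) = c := by field_simp
    rw [e1, e2, e3]
    linarith

/-- `p₆ ≤ Λ⁴ p₂`, `XX = ‖A B‖² ≤ Λ² p₂` -/
theorem Cfg.init_phi (h : Cfg vtx pt k G) {sc : Sc} (hp : sc.Pos) (hρ : sc.ρ = 1) {N₀ : ℝ}
    (hN : (Fintype.card ι : ℝ) = N₀) (hF : sc.Fc = 0) {τ : ℝ}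
    (hTp : |sc.Tp - N₀ * (((k : ℝ) ^ 2 - 1) / k * (1 / √(k : ℝ)))| ≤ τ)
    (hTm : |sc.Tm - N₀ * (((k : ℝ) ^ 2 - 1) / k * (1 / √(k : ℝ)))| ≤ τ)
    (h1 : sc.kF * (k : ℝ) ^ 2 ≤ 1 / 2000) (h2 : sc.kx * (4 * k) ^ 2 ≤ 1 / 2000)
    (h3 : sc.kT * (9 * (k : ℝ) ^ 2 + τ) ^ 2 ≤ 1 / 2000)
    (h4 : sc.kU * (300 * (k : ℝ) ^ 4 * N₀) ≤ 1 / 2000) (h5 : sc.kV * (9 * (k : ℝ) ^ 2) ≤ 1 / 2000)
    (h6 : sc.kD * k ≤ 1 / 2000) (h7 : sc.kW * (3 / 4 * N₀ + 80 * (k : ℝ) ^ 2) ≤ 0.938)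
    (h8 : sc.kX * (30 * (k : ℝ) ^ 2 * N₀) ≤ 1 / 2000)
    (h9 : sc.kC * ((sc.cy + 1) * k * N₀) ≤ 1 / 2000) :
    Phi vtx sc ⟨univ, G, K0 vtx pt k 1, K0 vtx pt k (-1)⟩ ≤ 0.945 := by
  have hk2 : (2 : ℝ) ≤ k := by exact_mod_cast h.two
  have hN2 : 2 * (k : ℝ) ≤ N₀ := by rw [← hN]; exact_mod_cast h.two_k_le
  have hτ : 0 ≤ τ := (abs_nonneg _).trans hTp
  have hp2 : ∀ s : ℝ, s = 1 ∨ s = -1 → pk (K0 vtx pt k s) 2 ≤ 13 / 4 * N₀ := by
    intro s hs
    have := (abs_le.mp (h.initOut hs).p2).2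
    rw [hN] at this
    linarith
  have side : ∀ s Tc : ℝ, s = 1 ∨ s = -1 →
      |Tc - N₀ * (((k : ℝ) ^ 2 - 1) / k * (1 / √(k : ℝ)))| ≤ τ →
      phiS sc univ (K0 vtx pt k s) Tc ≤ 6 / 2000 := by
    intro s Tc hs hT
    have o := h.initOut hs
    have a1 : sc.kF * (pk (K0 vtx pt k s) 1 - sc.Fc) ^ 2 ≤ 1 / 2000 := by
      refine le_trans (mul_le_mul_of_nonneg_left ?_ hp.kF) h1
      rw [hF, sub_zero, ← sq_abs]
      exact pow_le_pow_left₀ (abs_nonneg _) o.p1 2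
    have a2 : sc.kx * (pk (K0 vtx pt k s) 2 - ((univ : Finset ι).card : ℝ) * sc.ρ - 1) ^ 2 ≤
        1 / 2000 := by
      refine le_trans (mul_le_mul_of_nonneg_left ?_ hp.kx) h2
      rw [hρ, mul_one, Finset.card_univ, ← sq_abs]
      exact pow_le_pow_left₀ (abs_nonneg _) o.p2 2
    have a3 : sc.kT * (pk (K0 vtx pt k s) 3 - Tc) ^ 2 ≤ 1 / 2000 := by
      refine le_trans (mul_le_mul_of_nonneg_left ?_ hp.kT) h3
      rw [← sq_abs]
      refine pow_le_pow_left₀ (abs_nonneg _) ?_ 2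
      have q1 := abs_le.mp o.p3
      have q2 := abs_le.mp hT
      rw [hN] at q1
      rw [abs_le]
      constructor <;> linarith [q1.1, q1.2, q2.1, q2.2]
    have a4 : sc.kU * pk (K0 vtx pt k s) 6 ≤ 1 / 2000 := by
      refine le_trans (mul_le_mul_of_nonneg_left ?_ hp.kU) h4
      have q1 := o.op.pk_le (h.K0_symm2 s) 2 1
      have q2 := mul_le_mul_of_nonneg_left (hp2 s hs) (by positivity : 0 ≤ (3 * (k : ℝ)) ^ (2 * 2))
      have q3 : 0 ≤ (k : ℝ) ^ 4 * N₀ := mul_nonneg (by positivity) (by linarith)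
      norm_num at q1 q2
      nlinarith
    have a5 : sc.kV * VV univ (K0 vtx pt k s) sc.ρ ≤ 1 / 2000 := by
      rw [hρ]
      exact le_trans (mul_le_mul_of_nonneg_left o.V hp.kV) h5
    have a6 : sc.kD * DD (K0 vtx pt k s) ≤ 1 / 2000 :=
      le_trans (mul_le_mul_of_nonneg_left o.D hp.kD) h6
    unfold phiS
    linarith
  have b1 := side 1 sc.Tp (Or.inl rfl) hTp
  have b2 := side (-1) sc.Tm (Or.inr rfl) hTm
  have b3 : sc.kW * (WW (K0 vtx pt k 1) + WW (K0 vtx pt k (-1))) ≤ 0.938 := by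
    refine le_trans (mul_le_mul_of_nonneg_left ?_ hp.kW) h7
    have q1 := (h.initOut (s := 1) (Or.inl rfl)).W
    have q2 := (h.initOut (s := -1) (Or.inr rfl)).W
    rw [hN] at q1 q2
    linarith
  have b4 : sc.kX * XX (K0 vtx pt k 1) (K0 vtx pt k (-1)) ≤ 1 / 2000 := by
    refine le_trans (mul_le_mul_of_nonneg_left ?_ hp.kX) h8
    rw [XX_eq_fro (h.K0_symm2 1) (h.K0_symm2 (-1))]
    have q1 := (h.initOut (s := 1) (Or.inl rfl)).op.fro_mul_left (K0 vtx pt k (-1))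
    rw [fro_eq_pk2 (h.K0_symm2 (-1))] at q1
    have q2 := mul_le_mul_of_nonneg_left (hp2 (-1) (Or.inr rfl))
      (by positivity : 0 ≤ (3 * (k : ℝ)) ^ 2)
    have q3 : 0 ≤ (k : ℝ) ^ 2 * N₀ := mul_nonneg (by positivity) (by linarith)
    nlinarith
  have b5 : sc.kC * CC vtx univ G sc.cy ≤ 1 / 2000 := by
    refine le_trans (mul_le_mul_of_nonneg_left ?_ hp.kC) h9
    rw [← hN]
    exact h.CC_le hp.cy
  unfold Phi
  dsimp only
  linarith

end Crest.Agent.R62
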