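import Crest.Agent.R62.InvStep

/-!
# Row 62: the invariant at the start

`m = 1/√k`, `T y = y ∘ vtx`, `(Tᵀ v)(u) = ∑_{vtx c = u} v c`, `M₀` the permutation matrix of `pt`, `N₀ = card ι`.
`K0 = m (T Tᵀ - 1) + s m² T M₀ Tᵀ - (1/m - m) J / N₀`.
-/

set_option autoImplicit false
set_option linter.unusedSectionVars false

open Finset Matrix

noncomputable section

namespace Crest.Agent.R62

variable {ι V : Type} [Fintype ι] [DecidableEq ι] [Fintype V] [DecidableEq V]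
variable {vtx : ι → V} {pt : V → V} {k : ℕ} {G : SimpleGraph V} {s : ℝ}

/-- `Tᵀ v` -/
def Tt (vtx : ι → V) (v : ι → ℝ) (u : V) : ℝ := ∑ c, if vtx c = u then v c else 0

theorem sum_mul_vtx (vtx : ι → V) (v : ι → ℝ) (f : V → ℝ) :
    ∑ c, v c * f (vtx c) = ∑ u, Tt vtx v u * f u := by
  simp only [Tt, Finset.sum_mul]
  rw [Finset.sum_comm]
  refine Finset.sum_congr rfl fun c _ => ?_
  simp [ite_mul]

theorem K0_mulVec (vtx : ι → V) (pt : V → V) (k : ℕ) (s : ℝ) (v : ι → ℝ) (c : ι) :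
    (K0 vtx pt k s *ᵥ v) c = 1 / √(k : ℝ) * (Tt vtx v (vtx c) - v c) +
      s / k * Tt vtx v (pt (vtx c)) - ((k : ℝ) - 1) / √(k : ℝ) / Fintype.card ι * ∑ d, v d := by
  have e : v c = ∑ d, if d = c then v d else 0 := by simp
  rw [e]
  simp only [mulVec, dotProduct, K0, Matrix.of_apply, Tt, Finset.mul_sum, ← Finset.sum_sub_distrib,
    ← Finset.sum_add_distrib]
  refine Finset.sum_congr rfl fun d _ => ?_
  by_cases h1 : d = c
  · subst h1
    by_cases h2 : vtx d = pt (vtx d)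
    · simp only [if_pos h2]; simp; ring
    · simp only [if_neg h2]; simp
  · have h1' : c ≠ d := fun h => h1 h.symm
    by_cases h2 : vtx d = pt (vtx c) <;> by_cases h3 : vtx d = vtx c
    · rw [if_pos ⟨h3.symm, h1'⟩, if_pos h2, if_pos h3, if_neg h1, if_pos h2]; ring
    · rw [if_neg fun h => h3 h.1.symm, if_pos h2, if_neg h3, if_neg h1, if_pos h2]; ring
    · rw [if_pos ⟨h3.symm, h1'⟩, if_neg h2, if_pos h3, if_neg h1, if_neg h2]; ring
    · rw [if_neg fun h => h3 h.1.symm, if_neg h2, if_neg h3, if_neg h1, if_neg h2]; ring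

theorem K0_form (vtx : ι → V) (pt : V → V) (k : ℕ) (s : ℝ) (v : ι → ℝ) :
    v ⬝ᵥ (K0 vtx pt k s *ᵥ v) = 1 / √(k : ℝ) * (Tt vtx v ⬝ᵥ Tt vtx v - v ⬝ᵥ v) +
      s / k * ∑ u, Tt vtx v u * Tt vtx v (pt u) -
      ((k : ℝ) - 1) / √(k : ℝ) / Fintype.card ι * (∑ c, v c) ^ 2 := by
  have e1 : Tt vtx v ⬝ᵥ Tt vtx v = ∑ c, v c * Tt vtx v (vtx c) := (sum_mul_vtx vtx v _).symm
  have e2 : ∑ u, Tt vtx v u * Tt vtx v (pt u) = ∑ c, v c * Tt vtx v (pt (vtx c)) :=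
    (sum_mul_vtx vtx v fun u => Tt vtx v (pt u)).symm
  have e3 : (∑ c, v c) ^ 2 = ∑ c, v c * ∑ d, v d := by rw [← Finset.sum_mul, sq]
  rw [e1, e2, e3, dotProduct, dotProduct, ← Finset.sum_sub_distrib, Finset.mul_sum,
    Finset.mul_sum, Finset.mul_sum, ← Finset.sum_add_distrib, ← Finset.sum_sub_distrib]
  refine Finset.sum_congr rfl fun c _ => ?_
  rw [K0_mulVec]; ring

theorem Cfg.card_pos (h : Cfg vtx pt k G) : (0 : ℝ) < Fintype.card ι := by
  have h1 := h.card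
  have h2 := h.two
  have h3 := h.ne
  have : 0 < Fintype.card ι := by rw [h1]; exact Nat.mul_pos h3 (by omega)
  exact_mod_cast this

theorem Cfg.one_lt_sqrt (h : Cfg vtx pt k G) : (1 : ℝ) < √(k : ℝ) := by
  have h2 : (2 : ℝ) ≤ k := by exact_mod_cast h.two
  rw [Real.lt_sqrt (by norm_num)]; linarith

theorem Cfg.K0_symm (h : Cfg vtx pt k G) (s : ℝ) (a b : ι) :
    K0 vtx pt k s a b = K0 vtx pt k s b a := by
  have e1 : (vtx a = vtx b ∧ a ≠ b) ↔ (vtx b = vtx a ∧ b ≠ a) :=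
    ⟨fun h => ⟨h.1.symm, h.2.symm⟩, fun h => ⟨h.1.symm, h.2.symm⟩⟩
  have e2 : vtx b = pt (vtx a) ↔ vtx a = pt (vtx b) :=
    ⟨fun e => by rw [e, h.inv], fun e => by rw [e, h.inv]⟩
  simp only [K0, Matrix.of_apply, e1, e2]

theorem Cfg.Tt_const (h : Cfg vtx pt k G) (c : ℝ) (u : V) : Tt vtx (fun _ => c) u = k * c := by
  rw [Tt, ← Finset.sum_filter, Finset.sum_const, h.fib u, nsmul_eq_mul]

theorem Cfg.K0_const (h : Cfg vtx pt k G) (s c : ℝ) (a : ι) :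
    (K0 vtx pt k s *ᵥ fun _ => c) a = s * c := by
  have h1 := h.card_pos
  have h2 := h.one_lt_sqrt
  have h3 : (2 : ℝ) ≤ k := by exact_mod_cast h.two
  rw [K0_mulVec, h.Tt_const, h.Tt_const, Finset.sum_const, Finset.card_univ, nsmul_eq_mul]
  field_simp
  ring

theorem Cfg.sum_pt (h : Cfg vtx pt k G) (f : V → ℝ) : ∑ u, f (pt u) = ∑ u, f u :=
  Equiv.sum_comp (Function.Involutive.toPerm pt h.inv) f

theorem Cfg.abs_pt_le (h : Cfg vtx pt k G) (hs : s = 1 ∨ s = -1) (u : V → ℝ) :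
    s * ∑ a, u a * u (pt a) ≤ u ⬝ᵥ u ∧ -(u ⬝ᵥ u) ≤ s * ∑ a, u a * u (pt a) := by
  have e : ∑ a, u (pt a) * u (pt a) = ∑ a, u a * u a := h.sum_pt fun a => u a * u a
  have h1 : 0 ≤ ∑ a, (u a - u (pt a)) ^ 2 := Finset.sum_nonneg fun _ _ => sq_nonneg _
  have h2 : 0 ≤ ∑ a, (u a + u (pt a)) ^ 2 := Finset.sum_nonneg fun _ _ => sq_nonneg _
  have e1 : ∑ a, (u a - u (pt a)) ^ 2 =
      ∑ a, u a * u a + ∑ a, u (pt a) * u (pt a) - 2 * ∑ a, u a * u (pt a) := by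
    rw [Finset.mul_sum, ← Finset.sum_add_distrib, ← Finset.sum_sub_distrib]
    exact Finset.sum_congr rfl fun _ _ => by ring
  have e2 : ∑ a, (u a + u (pt a)) ^ 2 =
      ∑ a, u a * u a + ∑ a, u (pt a) * u (pt a) + 2 * ∑ a, u a * u (pt a) := by
    rw [Finset.mul_sum, ← Finset.sum_add_distrib, ← Finset.sum_add_distrib]
    exact Finset.sum_congr rfl fun _ _ => by ring
  rw [dotProduct]
  rcases hs with rfl | rfl <;> constructor <;> linarith

theorem Cfg.exists_split (h : Cfg vtx pt k G) (v : ι → ℝ) :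
    ∃ (v' : ι → ℝ) (c : ℝ), ∑ a, v' a = 0 ∧ v = v' + fun _ => c := by
  have h1 := h.card_pos
  refine ⟨fun a => v a - (∑ b, v b) / Fintype.card ι, (∑ b, v b) / Fintype.card ι, ?_, ?_⟩
  · rw [Finset.sum_sub_distrib, Finset.sum_const, Finset.card_univ, nsmul_eq_mul]
    field_simp
    ring
  · ext a; simp

/-- the form of `1 + K0` on `1⊥` -/
theorem Cfg.form_perp (h : Cfg vtx pt k G) (s : ℝ) (v : ι → ℝ) (h0 : ∑ c, v c = 0) :
    v ⬝ᵥ v + v ⬝ᵥ (K0 vtx pt k s *ᵥ v) = (1 - 1 / √(k : ℝ)) * (v ⬝ᵥ v) +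
      1 / √(k : ℝ) * (Tt vtx v ⬝ᵥ Tt vtx v) +
      (1 / √(k : ℝ)) ^ 2 * (s * ∑ u, Tt vtx v u * Tt vtx v (pt u)) := by
  have e : (1 / √(k : ℝ)) ^ 2 = 1 / k := by
    rw [div_pow, Real.sq_sqrt (Nat.cast_nonneg k), one_pow]
  rw [K0_form, h0, e]; ring

/-- `v = v⊥ + c 1`: the form of `1 + K0` at `v` is the form at `v⊥` plus `(1 + s) c² N₀` -/
theorem Cfg.form_split (h : Cfg vtx pt k G) (hs : s = 1 ∨ s = -1) (v : ι → ℝ) (h0 : ∑ c, v c = 0)
    (c : ℝ) : (v + fun _ => c) ⬝ᵥ (v + fun _ => c) +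
      (v + fun _ => c) ⬝ᵥ (K0 vtx pt k s *ᵥ (v + fun _ => c)) =
      v ⬝ᵥ v + v ⬝ᵥ (K0 vtx pt k s *ᵥ v) + (1 + s) * c ^ 2 * Fintype.card ι := by
  have e0 : (K0 vtx pt k s *ᵥ fun _ => c) = fun _ => s * c := funext (h.K0_const s c)
  have e1 : ∀ t : ℝ, v ⬝ᵥ (fun _ => t) = 0 := fun t => by
    rw [dotProduct, ← Finset.sum_mul, h0, zero_mul]
  have e2 : ∀ t t' : ℝ, (fun _ : ι => t) ⬝ᵥ (fun _ => t') = t * t' * Fintype.card ι := fun t t' => by
    rw [dotProduct, Finset.sum_const, Finset.card_univ, nsmul_eq_mul, mul_comm]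
  have e3 : (fun _ : ι => c) ⬝ᵥ (K0 vtx pt k s *ᵥ v) = 0 := by
    rw [dotProduct_mulVec, ← mulVec_transpose, transpose_of_symm (h.K0_symm s), e0,
      dotProduct_comm, e1]
  rw [mulVec_add, add_dotProduct, add_dotProduct, dotProduct_add, dotProduct_add, dotProduct_add,
    dotProduct_add, e0, e3, e1, e1, dotProduct_comm (fun _ => c) v, e1, e2, e2]
  ring

/-- `psd`: on `1⊥` the form of `1 + K0` is `(1 - m)|v|² + m |u|² + s m² uᵀ M₀ u ≥ 0`, `u = Tᵀ v` -/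
theorem Cfg.side (h : Cfg vtx pt k G) (hs : s = 1 ∨ s = -1) : Side univ (K0 vtx pt k s) s := by
  refine ⟨hs, h.K0_symm s, fun a b ha => absurd (Finset.mem_univ a) ha, fun a _ => ?_, fun v => ?_⟩
  · have := h.K0_const s 1 a
    simpa [mulVec, dotProduct] using this
  · obtain ⟨v', c, h0, rfl⟩ := h.exists_split v
    have h1 := h.form_split hs v' h0 c
    have h2 := h.form_perp s v' h0
    have h3 := (h.abs_pt_le hs (Tt vtx v')).2
    have h4 := h.one_lt_sqrt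
    have h5 := h.card_pos
    have hm0 : 0 < 1 / √(k : ℝ) := by positivity
    have hm1 : 1 / √(k : ℝ) < 1 := by rw [div_lt_one (by positivity)]; exact h4
    generalize 1 / √(k : ℝ) = m at *
    have hv : 0 ≤ v' ⬝ᵥ v' := Finset.sum_nonneg fun _ _ => mul_self_nonneg _
    have hu : 0 ≤ Tt vtx v' ⬝ᵥ Tt vtx v' := Finset.sum_nonneg fun _ _ => mul_self_nonneg _
    have hs1 : 0 ≤ 1 + s := by rcases hs with rfl | rfl <;> norm_num
    have h6 : 0 ≤ (1 + s) * c ^ 2 * Fintype.card ι := by positivity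
    have h7 := mul_le_mul_of_nonneg_left h3 (sq_nonneg m)
    have h8 : 0 ≤ (1 - m) * (v' ⬝ᵥ v') := mul_nonneg (by linarith) hv
    have h9 : 0 ≤ m * (1 - m) * (Tt vtx v' ⬝ᵥ Tt vtx v') :=
      mul_nonneg (mul_nonneg hm0.le (by linarith)) hu
    nlinarith

theorem pair_ineq {m s p q α β : ℝ} (hs : s = 1 ∨ s = -1) (hm0 : 0 < m) (hm1 : m < 1) :
    m * (1 - m) * (2 * (1 + m) * (p * α + q * β) - m * (α * α + β * β) - 2 * m ^ 2 * (s * (α * β))) ≤
      (1 + m) * (p * p + q * q - 2 * m * (s * (p * q))) := by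
  have h1 : 0 ≤ (1 + m) * (1 - m) := mul_nonneg (by linarith) (by linarith)
  rcases hs with rfl | rfl
  · have a1 := mul_nonneg h1 (sq_nonneg (p + q - m * (α + β)))
    have a2 := sq_nonneg ((1 + m) * (p - q) - m * (1 - m) * (α - β))
    nlinarith
  · have a1 := mul_nonneg h1 (sq_nonneg (p - q - m * (α - β)))
    have a2 := sq_nonneg ((1 + m) * (p + q) - m * (1 - m) * (α + β))
    nlinarith

theorem Cfg.vertex_ineq (h : Cfg vtx pt k G) (hs : s = 1 ∨ s = -1) {m : ℝ} (hm0 : 0 < m)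
    (hm1 : m < 1) (y u : V → ℝ) :
    m * (1 - m) * (2 * (1 + m) * (∑ a, u a * y a) - m * (u ⬝ᵥ u) -
      m ^ 2 * (s * ∑ a, u a * u (pt a))) ≤ (1 + m) * (y ⬝ᵥ y - m * (s * ∑ a, y a * y (pt a))) := by
  have h1 := Finset.sum_le_sum (s := univ) fun a _ =>
    pair_ineq (p := y a) (q := y (pt a)) (α := u a) (β := u (pt a)) hs hm0 hm1
  have e1 : ∑ a, y (pt a) * u (pt a) = ∑ a, y a * u a := h.sum_pt fun a => y a * u a
  have e2 : ∑ a, u (pt a) * u (pt a) = ∑ a, u a * u a := h.sum_pt fun a => u a * u a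
  have e3 : ∑ a, y (pt a) * y (pt a) = ∑ a, y a * y a := h.sum_pt fun a => y a * y a
  have e4 : ∑ a, u a * y a = ∑ a, y a * u a := Finset.sum_congr rfl fun _ _ => mul_comm _ _
  simp only [← Finset.mul_sum, Finset.sum_sub_distrib, Finset.sum_add_distrib, e1, e2, e3] at h1
  rw [dotProduct, dotProduct, e4]
  linarith

/-- Suppose `s (yᵀM₀y + P) ≥ 2√k |y|²`, `P = ∑ w c w (π c)`, `w = T y`.  Put `x = w + s w ∘ π`; then
`x ∘ π = s x`, `∑ x = 0`, `|x|² = 2 ⟨x, w⟩ = 2 k |y|² + 2 s P`, and `x ≠ 0` (else `s P = -k |y|²`), so `QQ` gives `v`,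
w.l.o.g. `∑ v = 0` (`form_split`).  With `λ = 1 + m`, `u = Tᵀ v`, `⟨w, v⟩ = ⟨y, u⟩`:
`2⟨x - λ w, v⟩ - (1-m)|v|² ≤ |x - λ w|²/(1-m) = (λ² k |y|² - m |x|²)/(1-m)` and
`2 λ ⟨y,u⟩ - m|u|² - s m² uᵀM₀u ≤ λ² (|y|² - s m yᵀM₀y)/(m (1-m²))` (complete the square at
`u₀ = λ (y - s m M₀ y)/(m(1-m²))`).  The sum is `≤ |x|²/2` exactly when `2√k|y|² ≤ s P + s yᵀM₀y`. -/
theorem Cfg.good (h : Cfg vtx pt k G) (hs : s = 1 ∨ s = -1) :
    Good vtx univ G (K0 vtx pt k s) s (2 * √(k : ℝ)) := by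
  intro π hπ hq y hy0 hy
  by_contra hcon
  rw [not_lt, h.qf] at hcon
  have hinv : Function.Involutive π := fun c => (hπ c (Finset.mem_univ c)).2.2
  have hsum : ∀ f : ι → ℝ, ∑ c, f (π c) = ∑ c, f c := fun f =>
    Equiv.sum_comp (Function.Involutive.toPerm π hinv) f
  have hss : s * s = 1 := by rcases hs with rfl | rfl <;> norm_num
  have hr := h.one_lt_sqrt
  have hN := h.card_pos
  have hk : (2 : ℝ) ≤ k := by exact_mod_cast h.two
  have hrr : √(k : ℝ) * √(k : ℝ) = k := Real.mul_self_sqrt (Nat.cast_nonneg k)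
  have hY : 0 < y ⬝ᵥ y := by
    rcases (Finset.sum_nonneg fun a _ => mul_self_nonneg (y a) : 0 ≤ y ⬝ᵥ y).lt_or_eq with h' | h'
    · exact h'
    · exact absurd (dotProduct_self_eq_zero.1 h'.symm) hy
  have hQ := (h.abs_pt_le hs y).1
  set w : ι → ℝ := fun c => y (vtx c) with hw
  set x : ι → ℝ := fun c => w c + s * w (π c) with hx
  set P : ℝ := ∑ c, w c * w (π c) with hP
  have w0 : ∑ c, w c = 0 := by rw [hw, h.sum_vtx y, hy0, mul_zero]
  have ww : ∑ c, w c * w c = k * (y ⬝ᵥ y) := h.sum_vtx fun a => y a * y a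
  have ww' : ∑ c, w (π c) * w (π c) = k * (y ⬝ᵥ y) := (hsum fun c => w c * w c).trans ww
  have x0 : ∑ c, x c = 0 := by
    simp only [hx, Finset.sum_add_distrib, ← Finset.mul_sum, hsum w, w0]; ring
  have xw : ∑ c, x c * w c = k * (y ⬝ᵥ y) + s * P := by
    rw [← ww, hP, Finset.mul_sum, ← Finset.sum_add_distrib]
    exact Finset.sum_congr rfl fun c _ => by simp only [hx]; ring
  have xx : ∑ c, x c ^ 2 = 2 * (k * (y ⬝ᵥ y) + s * P) := by
    have : ∑ c, x c ^ 2 = ∑ c, w c * w c + ∑ c, w (π c) * w (π c) + 2 * (s * P) := by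
      rw [hP, Finset.mul_sum, Finset.mul_sum, ← Finset.sum_add_distrib, ← Finset.sum_add_distrib]
      exact Finset.sum_congr rfl fun c _ => by
        simp only [hx]; linear_combination (w (π c)) ^ 2 * hss
    rw [this, ww, ww']; ring
  have hx1 : ∀ c ∈ (univ : Finset ι), x (π c) = s * x c := fun c _ => by
    simp only [hx, hinv c]; linear_combination -(w (π c)) * hss
  have hx2 : ¬ ∃ t, ∀ c ∈ (univ : Finset ι), x c = t := by
    rintro ⟨t, ht⟩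
    have e1 : ∑ c, x c = Fintype.card ι * t := by
      rw [Finset.sum_congr rfl ht, Finset.sum_const, Finset.card_univ, nsmul_eq_mul]
    have ht0 : t = 0 := by
      rw [x0] at e1
      exact (mul_eq_zero.1 e1.symm).resolve_left hN.ne'
    have e2 : ∑ c, x c ^ 2 = 0 :=
      Finset.sum_eq_zero fun c hc => by rw [ht c hc, ht0]; norm_num
    have h1 : 0 < √(k : ℝ) * (y ⬝ᵥ y) := by positivity
    have h2 : 2 * (y ⬝ᵥ y) ≤ k * (y ⬝ᵥ y) := mul_le_mul_of_nonneg_right hk hY.le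
    nlinarith
  obtain ⟨v₀, hv⟩ := hq x hx1 hx2
  obtain ⟨v, c, h0, rfl⟩ := h.exists_split v₀
  have f1 := h.form_split hs v h0 c
  have f2 := h.form_perp s v h0
  have f3 : ∑ a, (v + fun _ => c : ι → ℝ) a ^ 2 = (v + fun _ => c) ⬝ᵥ (v + fun _ => c) :=
    Finset.sum_congr rfl fun _ _ => sq _
  have f4 : ∑ a, x a * (v + fun _ => c : ι → ℝ) a = ∑ a, x a * v a := by
    simp only [Pi.add_apply, mul_add, Finset.sum_add_distrib, ← Finset.sum_mul, x0]; ring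
  have hs1 : 0 ≤ 1 + s := by rcases hs with rfl | rfl <;> norm_num
  have f5 : 0 ≤ (1 + s) * c ^ 2 * Fintype.card ι := by positivity
  rw [f3, f4, f1, f2, xx] at hv
  have hm0 : 0 < 1 / √(k : ℝ) := by positivity
  have hm1 : 1 / √(k : ℝ) < 1 := by rw [div_lt_one (by positivity)]; exact hr
  have hmr : 1 / √(k : ℝ) * √(k : ℝ) = 1 := by field_simp
  have g1 := h.vertex_ineq hs hm0 hm1 y (Tt vtx v)
  have g2 : ∑ a, Tt vtx v a * y a = ∑ c, v c * w c := (sum_mul_vtx vtx v y).symm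
  rw [g2] at g1
  generalize √(k : ℝ) = r at *
  generalize 1 / r = m at *
  have g3 : 0 ≤ ∑ a, (x a - (1 + m) * w a - (1 - m) * v a) ^ 2 :=
    Finset.sum_nonneg fun _ _ => sq_nonneg _
  have g4 : ∑ a, (x a - (1 + m) * w a - (1 - m) * v a) ^ 2 = ∑ a, x a ^ 2 +
      (1 + m) ^ 2 * ∑ a, w a * w a + (1 - m) ^ 2 * (v ⬝ᵥ v) - 2 * (1 + m) * ∑ a, x a * w a -
      2 * (1 - m) * ∑ a, x a * v a + 2 * (1 + m) * (1 - m) * ∑ a, v a * w a := by
    simp only [dotProduct, Finset.mul_sum, ← Finset.sum_add_distrib, ← Finset.sum_sub_distrib]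
    exact Finset.sum_congr rfl fun _ _ => by ring
  rw [g4, xx, ww, xw] at g3
  rw [mul_add] at hcon
  generalize y ⬝ᵥ y = Y at *
  generalize s * ∑ a, y a * y (pt a) = Q at *
  generalize s * P = P' at *
  generalize s * ∑ a, Tt vtx v a * Tt vtx v (pt a) = R at *
  generalize Tt vtx v ⬝ᵥ Tt vtx v = U at *
  generalize v ⬝ᵥ v = VV at *
  generalize ∑ a, x a * v a = XV at *
  generalize ∑ a, v a * w a = VW at *
  have hv' : k * Y + P' < 2 * XV - ((1 - m) * VV + m * U + m ^ 2 * R) := by linarith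
  have k1 := mul_lt_mul_of_pos_left hv' (mul_pos hm0 (sub_pos.2 hm1))
  have k2 := mul_nonneg hm0.le g3
  have k3 := mul_le_mul_of_nonneg_left hcon (mul_pos hm0 (by linarith : 0 < 1 + m)).le
  have k4 : m * (1 + m) * (2 * r * Y) = 2 * (1 + m) * Y := by
    linear_combination 2 * (1 + m) * Y * hmr
  have k5 : m * m * (k * Y) = Y := by
    rw [← hrr]; linear_combination (m * r + 1) * Y * hmr
  nlinarith

theorem Cfg.inv' (h : Cfg vtx pt k G) :
    Inv vtx (k + 1) (2 * √(k : ℝ)) ⟨univ, G, K0 vtx pt k 1, K0 vtx pt k (-1)⟩ :=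
  ⟨h.side (Or.inl rfl), h.side (Or.inr rfl), h.ginv, h.good (Or.inl rfl), h.good (Or.inr rfl)⟩

end Crest.Agent.R62
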