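import Crest.Agent.R62.InvStep

/-!
# Row 62: the invariant survives the Möbius step

`φ(K) = (K + τ)(1 + τ K)⁻¹` satisfies `(1+φ)⁻¹ - 1/2 = (1-τ)/(1+τ) ((1+K)⁻¹ - 1/2)`, and `mob K ≥ φ(K)`.
To avoid inverses, write `v = u + τ K u` (`exists_solve`), so that "`φ(K) v = K u + τ u`".
-/

set_option autoImplicit false
set_option linter.unusedSectionVars false

open Finset Matrix

noncomputable section

namespace Crest.Agent.R62

variable {ι V : Type} [Fintype ι] [DecidableEq ι] [Fintype V] [DecidableEq V]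
variable {S : Finset ι} {K : Mat ι} {s z M : ℝ} {vtx : ι → V} {G : SimpleGraph V}

namespace InvMobAux

theorem dot_symm (h : ∀ a b, K a b = K b a) (x y : ι → ℝ) : x ⬝ᵥ (K *ᵥ y) = (K *ᵥ x) ⬝ᵥ y := by
  simp only [dotProduct, mulVec, Finset.mul_sum, Finset.sum_mul]
  rw [Finset.sum_comm]
  refine Finset.sum_congr rfl fun a _ => Finset.sum_congr rfl fun b _ => ?_
  rw [h a b]; ring

theorem dot_self_nonneg2 (x : ι → ℝ) : 0 ≤ x ⬝ᵥ x :=
  Finset.sum_nonneg fun c _ => mul_self_nonneg (x c)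

theorem mulVec_supp (h : Side S K s) (x : ι → ℝ) (c : ι) (hc : c ∉ S) : (K *ᵥ x) c = 0 := by
  simp [mulVec, dotProduct, h.supp c _ hc]

/-- the indicator of `S` -/
def ind (S : Finset ι) : ι → ℝ := fun c => if c ∈ S then 1 else 0

theorem ind_dot (x : ι → ℝ) (hx : ∀ c, c ∉ S → x c = 0) : ind S ⬝ᵥ x = ∑ c, x c := by
  refine Finset.sum_congr rfl fun c _ => ?_
  by_cases hc : c ∈ S <;> simp [ind, hc, hx c]

theorem ind_ind (S : Finset ι) : ind S ⬝ᵥ ind S = S.card := by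
  simp [ind, dotProduct]

theorem mulVec_ind (h : Side S K s) : K *ᵥ ind S = s • ind S := by
  funext a
  by_cases ha : a ∈ S
  · have h1 := h.row a ha
    simp only [mulVec, dotProduct, ind, Pi.smul_apply, if_pos ha, smul_eq_mul, mul_one]
    rw [← h1]
    refine Finset.sum_congr rfl fun b _ => ?_
    by_cases hb : b ∈ S
    · simp [hb]
    · rw [if_neg hb, h.symm a b, h.supp b a hb, mul_zero]
  · rw [mulVec_supp h _ a ha]
    simp [ind, ha]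

theorem sum_mulVec (h : Side S K s) (x : ι → ℝ) (hx : ∀ c, c ∉ S → x c = 0) :
    ∑ c, (K *ᵥ x) c = s * ∑ c, x c := by
  rw [← ind_dot _ (mulVec_supp h x), dot_symm h.symm, mulVec_ind h, smul_dotProduct, ind_dot x hx,
    smul_eq_mul]

theorem sq_one (h : Side S K s) : s * s = 1 := by
  rcases h.sgn with rfl | rfl <;> norm_num

theorem perp (h : Side S K s) {τ : ℝ} (h0 : 0 ≤ τ) (h1 : τ ≤ 1) (w : ι → ℝ)
    (hw : ∀ c, c ∉ S → w c = 0) :
    (1 + s * τ) * ((∑ c, w c) ^ 2 / S.card) ≤ w ⬝ᵥ w + τ * (w ⬝ᵥ (K *ᵥ w)) := by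
  set μ := ∑ c, w c with hμ
  set c : ℝ := μ / S.card with hc
  have e1 : c * μ = μ ^ 2 / S.card := by rw [hc]; ring
  have e2 : c * c * S.card = μ ^ 2 / S.card := by
    rw [hc]
    by_cases hN : (S.card : ℝ) = 0
    · simp [hN]
    · field_simp
  have hp := h.psd (w - c • ind S)
  have hn := dot_self_nonneg2 (w - c • ind S)
  have f1 : ind S ⬝ᵥ w = μ := ind_dot w hw
  have f2 : w ⬝ᵥ ind S = μ := by rw [dotProduct_comm, f1]
  have f3 : ind S ⬝ᵥ (K *ᵥ w) = s * μ := by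
    rw [dot_symm h.symm, mulVec_ind h, smul_dotProduct, f1, smul_eq_mul]
  have g1 : (w - c • ind S) ⬝ᵥ (w - c • ind S) = w ⬝ᵥ w - μ ^ 2 / S.card := by
    simp only [sub_dotProduct, dotProduct_sub, smul_dotProduct, dotProduct_smul, smul_eq_mul, f1, f2,
      ind_ind]
    linear_combination e2 - 2 * e1
  have g2 : (w - c • ind S) ⬝ᵥ (K *ᵥ (w - c • ind S)) = w ⬝ᵥ (K *ᵥ w) - s * (μ ^ 2 / S.card) := by
    simp only [mulVec_sub, mulVec_smul, mulVec_ind h, sub_dotProduct, dotProduct_sub,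
      smul_dotProduct, dotProduct_smul, smul_eq_mul, f2, f3, ind_ind]
    linear_combination s * e2 - 2 * s * e1
  rw [g1, g2] at hp
  rw [g1] at hn
  nlinarith [mul_nonneg h0 (sub_nonneg.2 hp), mul_nonneg (sub_nonneg.2 h1) hn]

/-- cut off outside `S` -/
def cut (S : Finset ι) (v : ι → ℝ) : ι → ℝ := fun c => if c ∈ S then v c else 0

theorem cut_supp (v : ι → ℝ) (c : ι) (hc : c ∉ S) : cut S v c = 0 := if_neg hc

theorem cut_dot (S : Finset ι) (x y : ι → ℝ) : cut S x ⬝ᵥ cut S y = ∑ c ∈ S, x c * y c := by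
  simp only [dotProduct, cut]
  rw [← Finset.sum_subset (Finset.subset_univ S) fun c _ hc => by simp [hc]]
  exact Finset.sum_congr rfl fun c hc => by simp [hc]

theorem cut_mob (v : ι → ℝ) :
    v ⬝ᵥ (mob S K s M *ᵥ v) = cut S v ⬝ᵥ (mob S K s M *ᵥ cut S v) := by
  simp only [dotProduct, mulVec, Finset.mul_sum]
  refine Finset.sum_congr rfl fun a _ => Finset.sum_congr rfl fun b _ => ?_
  by_cases ha : a ∈ S
  · by_cases hb : b ∈ S
    · simp only [cut, if_pos ha, if_pos hb]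
    · simp [mob, hb]
  · simp [mob, ha]

theorem cut_le (v : ι → ℝ) : cut S v ⬝ᵥ cut S v ≤ v ⬝ᵥ v := by
  refine Finset.sum_le_sum fun c _ => ?_
  by_cases hc : c ∈ S
  · simp [cut, hc]
  · simp [cut, hc, mul_self_nonneg]

end InvMobAux

open InvMobAux

/-- `1 + τ K ≥ 1 - τ > 0` is injective, hence surjective; the solution vanishes off `S` with `v` -/
theorem Side.exists_solve (h : Side S K s) {τ : ℝ} (h0 : 0 ≤ τ) (h1 : τ < 1) (v : ι → ℝ)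
    (hv : ∀ c, c ∉ S → v c = 0) : ∃ u : ι → ℝ, (∀ c, c ∉ S → u c = 0) ∧ v = u + τ • (K *ᵥ u) := by
  let L : (ι → ℝ) →ₗ[ℝ] (ι → ℝ) := LinearMap.id + τ • Matrix.mulVecLin K
  have hL : ∀ u, L u = u + τ • (K *ᵥ u) := fun u => rfl
  have hinj : Function.Injective L := by
    rw [injective_iff_map_eq_zero]
    intro u hu
    rw [hL] at hu
    have h2 : u ⬝ᵥ u + τ * (u ⬝ᵥ (K *ᵥ u)) = 0 := by
      have := congrArg (fun w => u ⬝ᵥ w) hu
      simpa [dotProduct_add, dotProduct_smul] using this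
    have h3 := h.psd u
    have h4 := dot_self_nonneg2 u
    have h5 : u ⬝ᵥ u = 0 := by
      by_contra hne
      have h6 : 0 < u ⬝ᵥ u := lt_of_le_of_ne h4 (Ne.symm hne)
      nlinarith [mul_nonneg h0 (sub_nonneg.2 h3), mul_pos (sub_pos.2 h1) h6]
    exact dotProduct_self_eq_zero.1 h5
  obtain ⟨u, hu⟩ := LinearMap.injective_iff_surjective.1 hinj v
  rw [hL] at hu
  refine ⟨u, fun c hc => ?_, hu.symm⟩
  have := congrFun hu c
  simpa [mulVec_supp h u c hc, hv c hc] using this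

/-- for `v` supported in `S`, with `m = ∑ v`:
`vᵀ mob v = (τ + λ)|v|² + (1-τ²) vᵀ(K - τ K² + τ² K³)v - (λ + τ³ - s τ⁴) m² / N` -/
theorem Side.mob_form (h : Side S K s) (v : ι → ℝ) (hv : ∀ c, c ∉ S → v c = 0) :
    v ⬝ᵥ (mob S K s M *ᵥ v) = (mobτ K M + mobl S K s M) * (v ⬝ᵥ v) +
      (1 - mobτ K M ^ 2) * (v ⬝ᵥ (K *ᵥ v) - mobτ K M * (v ⬝ᵥ ((K ^ 2) *ᵥ v)) +
        mobτ K M ^ 2 * (v ⬝ᵥ ((K ^ 3) *ᵥ v))) -
      (mobl S K s M + mobτ K M ^ 3 - s * mobτ K M ^ 4) / S.card * (∑ c, v c) ^ 2 := by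
  have e1 : v ⬝ᵥ v = ∑ a, ∑ b, v a * ((if a = b then (1 : ℝ) else 0) * v b) := by
    refine Finset.sum_congr rfl fun a _ => ?_
    rw [← Finset.mul_sum]
    simp
  have e2 : (∑ c, v c) ^ 2 = ∑ a, ∑ b, v a * v b := by
    rw [pow_two, Finset.sum_mul_sum]
  rw [e1, e2]
  simp only [dotProduct, mulVec, Finset.mul_sum, ← Finset.sum_add_distrib,
    ← Finset.sum_sub_distrib]
  refine Finset.sum_congr rfl fun a _ => Finset.sum_congr rfl fun b _ => ?_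
  by_cases ha : a ∈ S
  · by_cases hb : b ∈ S
    · simp only [mob, Matrix.of_apply, if_pos (And.intro ha hb)]
      split_ifs <;> ring
    · simp [hv b hb]
  · simp [hv a ha]

/-- The key inequality.  With `v = (1 + τ K) u` the polynomial part minus `vᵀ (K + τ) u` is
`(1-τ²) τ³ (K²u)ᵀ (1 + τ K)(K²u)`.  Split `u = u⊥ + c 1_S` (`K 1_S = s 1_S`): the constant part contributes exactly
`(τ³ - s τ⁴) m²/N` (`m = ∑ v = (1 + s τ) c N`, `(1-τ²) = (1 - s τ)(1 + s τ)`), the rest is `≥ 0`; and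
`λ (|v|² - m²/N) ≥ 0`. -/
theorem Side.mob_ge (h : Side S K s) (h0 : 0 ≤ mobτ K M) (h1 : mobτ K M < 1)
    (hl : 0 ≤ mobl S K s M) (u : ι → ℝ) (hu : ∀ c, c ∉ S → u c = 0) :
    (u + mobτ K M • (K *ᵥ u)) ⬝ᵥ (K *ᵥ u + mobτ K M • u) ≤
      (u + mobτ K M • (K *ᵥ u)) ⬝ᵥ (mob S K s M *ᵥ (u + mobτ K M • (K *ᵥ u))) := by
  have hv : ∀ c, c ∉ S → (u + mobτ K M • (K *ᵥ u)) c = 0 := fun c hc => by
    simp [hu c hc, mulVec_supp h u c hc]
  rw [h.mob_form _ hv]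
  have hcs := perp h le_rfl zero_le_one _ hv
  set τ := mobτ K M with hτ
  set l := mobl S K s M with hl'
  have hw := perp h h0 h1.le (K *ᵥ (K *ᵥ u)) (mulVec_supp h _)
  have hs := sq_one h
  have m1 : ∑ c, (K *ᵥ (K *ᵥ u)) c = ∑ c, u c := by
    rw [sum_mulVec h _ (mulVec_supp h _), sum_mulVec h _ hu, ← mul_assoc, hs, one_mul]
  have m2 : ∑ c, (u + τ • (K *ᵥ u)) c = (1 + s * τ) * ∑ c, u c := by
    simp only [Pi.add_apply, Pi.smul_apply, smul_eq_mul, Finset.sum_add_distrib, ← Finset.mul_sum]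
    rw [sum_mulVec h _ hu]
    ring
  rw [m1] at hw
  rw [m2] at hcs ⊢
  have p2 : ∀ x : ι → ℝ, (K ^ 2) *ᵥ x = K *ᵥ (K *ᵥ x) := fun x => by
    rw [mulVec_mulVec, pow_two]
  have p3 : ∀ x : ι → ℝ, (K ^ 3) *ᵥ x = K *ᵥ (K *ᵥ (K *ᵥ x)) := fun x => by
    rw [mulVec_mulVec, mulVec_mulVec, pow_three']
  rw [p2, p3]
  set u1 := K *ᵥ u with hu1
  set u2 := K *ᵥ u1 with hu2
  set u3 := K *ᵥ u2 with hu3
  set u4 := K *ᵥ u3 with hu4
  have d10 : u1 ⬝ᵥ u = u ⬝ᵥ u1 := dotProduct_comm _ _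
  have d02 : u ⬝ᵥ u2 = u1 ⬝ᵥ u1 := dot_symm h.symm _ _
  have d03 : u ⬝ᵥ u3 = u1 ⬝ᵥ u2 := dot_symm h.symm _ _
  have d04 : u ⬝ᵥ u4 = u1 ⬝ᵥ u3 := dot_symm h.symm _ _
  have d13 : u1 ⬝ᵥ u3 = u2 ⬝ᵥ u2 := dot_symm h.symm _ _
  have d14 : u1 ⬝ᵥ u4 = u2 ⬝ᵥ u3 := dot_symm h.symm _ _
  simp only [mulVec_add, mulVec_smul, ← hu1, ← hu2, ← hu3, ← hu4, add_dotProduct, dotProduct_add,
    smul_dotProduct, dotProduct_smul, smul_eq_mul, d10, d02, d03, d04, d13, d14] at hcs ⊢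
  set μ := ∑ c, u c
  have t1 : 0 ≤ (1 - τ ^ 2) * τ ^ 3 := mul_nonneg (by nlinarith) (by positivity)
  have k1 := mul_le_mul_of_nonneg_left hw t1
  have k2 := mul_le_mul_of_nonneg_left hcs hl
  have k3 : (l + τ ^ 3 - s * τ ^ 4) / S.card * ((1 + s * τ) * μ) ^ 2 =
      l * (((1 + s * τ) * μ) ^ 2 / S.card) +
        (1 - τ ^ 2) * τ ^ 3 * ((1 + s * τ) * (μ ^ 2 / S.card)) := by
    linear_combination (-(τ ^ 5) * (1 + s * τ) * (μ ^ 2 / S.card)) * hs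
  rw [k3]
  nlinarith [k1, k2]

/-- `psd`: `vᵀ v + vᵀ (K + τ) u = (1 + τ) [(1 - τ) uᵀ(1+K)u + τ |(1+K)u|²] ≥ 0` -/
theorem Side.mob (h : Side S K s) (hS : S.Nonempty) (h0 : 0 ≤ mobτ K M) (h1 : mobτ K M < 1)
    (hl : 0 ≤ mobl S K s M) : Side S (mob S K s M) s := by
  refine ⟨h.sgn, fun a b => ?_, fun a b ha => by simp [R62.mob, ha], fun a ha => ?_, fun v => ?_⟩
  · simp only [R62.mob, Matrix.of_apply, and_comm (a := a ∈ S), eq_comm (a := a), h.symm a b,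
      pow_symm h.symm 2 a b, pow_symm h.symm 3 a b]
  · have hN : (S.card : ℝ) ≠ 0 := by exact_mod_cast hS.card_pos.ne'
    rw [← Finset.sum_subset (Finset.subset_univ S) fun c _ hc => by simp [R62.mob, hc]]
    have e : ∀ b ∈ S, R62.mob S K s M a b = (if a = b then mobτ K M + mobl S K s M else 0) +
        (1 - mobτ K M ^ 2) * (K a b - mobτ K M * (K ^ 2) a b + mobτ K M ^ 2 * (K ^ 3) a b) -
        (mobl S K s M + mobτ K M ^ 3 - s * mobτ K M ^ 4) / S.card := fun b hb => by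
      simp only [R62.mob, Matrix.of_apply, if_pos (And.intro ha hb)]
    rw [Finset.sum_congr rfl e]
    simp only [Finset.sum_sub_distrib, Finset.sum_add_distrib, ← Finset.mul_sum, Finset.sum_ite_eq,
      if_pos ha, h.row' a ha, h.pow_row _ a ha, Finset.sum_const, nsmul_eq_mul]
    rw [mul_div_cancel₀ _ hN]
    have hs := sq_one h
    linear_combination ((1 - mobτ K M ^ 2) * (-mobτ K M + mobτ K M ^ 2 * s)) * hs
  · obtain ⟨u, hu, huv⟩ := h.exists_solve h0 h1 (cut S v) (cut_supp v)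
    have k1 := h.mob_ge h0 h1 hl u hu
    have k2 := cut_le (S := S) v
    rw [cut_mob, huv]
    rw [huv] at k2
    set τ := mobτ K M
    have k3 := h.psd u
    have k4 := dot_self_nonneg2 (u + K *ᵥ u)
    have d10 : (K *ᵥ u) ⬝ᵥ u = u ⬝ᵥ (K *ᵥ u) := dotProduct_comm _ _
    have k5 : 0 ≤ (u + τ • (K *ᵥ u)) ⬝ᵥ (u + τ • (K *ᵥ u)) +
        (u + τ • (K *ᵥ u)) ⬝ᵥ (K *ᵥ u + τ • u) := by
      simp only [add_dotProduct, dotProduct_add, smul_dotProduct, dotProduct_smul, smul_eq_mul,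
        d10] at k4 ⊢
      have a1 := mul_nonneg (sub_nonneg.2 h1.le) (sub_nonneg.2 k3)
      have a2 := mul_nonneg h0 k4
      have a3 : 0 ≤ 1 + τ := by linarith
      nlinarith [mul_nonneg a3 (add_nonneg a1 a2)]
    linarith

/-- Given `v` for `mob K` (cut off outside `S`), `v = u + τ K u`, take `v₂ = (1 + τ) u`.  With
`f(K; x, v) = 2⟨x,v⟩ - vᵀ(1+K)v - |x|²/2` and `φ` in place of `mob`:
`f(K; x, v₂) - (1+τ)/(1-τ) f(φ; x, v) = τ/(1-τ) |x - (1+τ)(1+K)u|² ≥ 0`. -/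
theorem QQ.mob {π : ι → ι} (h : Side S K s) (h0 : 0 ≤ mobτ K M) (h1 : mobτ K M < 1)
    (hl : 0 ≤ mobl S K s M) (hq : QQ S (mob S K s M) s π) : QQ S K s π := by
  intro x hx hx'
  obtain ⟨v, hv⟩ := hq x hx hx'
  obtain ⟨u, hu, huv⟩ := h.exists_solve h0 h1 (cut S v) (cut_supp v)
  have k1 := h.mob_ge h0 h1 hl u hu
  have cu : cut S ((1 + mobτ K M) • u) = (1 + mobτ K M) • u := by
    funext c
    by_cases hc : c ∈ S <;> simp [cut, hc, hu c]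
  refine ⟨(1 + mobτ K M) • u, ?_⟩
  simp only [pow_two] at hv ⊢
  rw [← cut_dot, ← cut_dot, ← cut_dot, cut_mob, huv] at hv
  rw [← cut_dot, ← cut_dot, ← cut_dot, cu]
  set τ := mobτ K M
  set y := cut S x
  have k4 := dot_self_nonneg2 (y - (1 + τ) • (u + K *ᵥ u))
  have hv' : 1 / 2 * y ⬝ᵥ y < 2 * y ⬝ᵥ (u + τ • (K *ᵥ u)) -
      ((u + τ • (K *ᵥ u)) ⬝ᵥ (u + τ • (K *ᵥ u)) + (u + τ • (K *ᵥ u)) ⬝ᵥ (K *ᵥ u + τ • u)) := by
    linarith
  have d10 : (K *ᵥ u) ⬝ᵥ u = u ⬝ᵥ (K *ᵥ u) := dotProduct_comm _ _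
  have d1 : u ⬝ᵥ y = y ⬝ᵥ u := dotProduct_comm _ _
  have d2 : (K *ᵥ u) ⬝ᵥ y = y ⬝ᵥ (K *ᵥ u) := dotProduct_comm _ _
  simp only [mulVec_smul, add_dotProduct, dotProduct_add, sub_dotProduct, dotProduct_sub,
    smul_dotProduct, dotProduct_smul, smul_eq_mul, d10, d1, d2] at k4 hv' ⊢
  have a1 : 0 < 1 + τ := by linarith
  have a2 := mul_pos a1 (sub_pos.2 hv')
  have a3 := mul_nonneg h0 k4
  refine sub_pos.1 (pos_of_mul_pos_left (b := 1 - τ) ?_ (sub_nonneg.2 h1.le))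
  nlinarith [a2, a3]

theorem Inv.mob {d : ℕ} {st : St ι V} (h : Inv vtx d z st) (hS : st.S.Nonempty)
    (hA0 : 0 ≤ mobτ st.A M) (hA1 : mobτ st.A M < 1) (hAl : 0 ≤ mobl st.S st.A 1 M)
    (hB0 : 0 ≤ mobτ st.B M) (hB1 : mobτ st.B M < 1) (hBl : 0 ≤ mobl st.S st.B (-1) M) :
    Inv vtx d z (st.mob M) :=
  ⟨h.sA.mob hS hA0 hA1 hAl, h.sB.mob hS hB0 hB1 hBl, h.gi,
    fun π hπ hq => h.gA π hπ (QQ.mob h.sA hA0 hA1 hAl hq),
    fun π hπ hq => h.gB π hπ (QQ.mob h.sB hB0 hB1 hBl hq)⟩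

end Crest.Agent.R62
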