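import Crest.Agent.R62.Ident
import Crest.Agent.R62.Graph

/-!
# Row 62: the invariant survives a step

Write `G⁻¹ = !![-α, s - r; s - r, -β] = (1 + s σ) - (1 + K_{ab,ab})`.  For `x` vanishing at `a, b`,
`q = (K x)(a), (K x)(b)` and `u ∈ ℝ²` (placed at `a, b`):

`(x + u)ᵀ (1 + K) (x + u) = xᵀ (1 + K') x + (u₁ + s u₂)² - (u - G q)ᵀ G⁻¹ (u - G q)`   (`form_step`).
-/

set_option autoImplicit false

open Finset Matrix

noncomputable section

namespace Crest.Agent.R62

variable {ι V : Type} [Fintype ι] [DecidableEq ι] [Fintype V] [DecidableEq V]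
variable {S : Finset ι} {K K' : Mat ι} {s z : ℝ} {a b : ι} {vtx : ι → V} {G : SimpleGraph V}

/-- the form of `G⁻¹` -/
def gi (K : Mat ι) (s : ℝ) (a b : ι) (u₁ u₂ : ℝ) : ℝ :=
  -K a a * u₁ ^ 2 + 2 * (s - K a b) * u₁ * u₂ - K b b * u₂ ^ 2

/-! ### small tools -/

private theorem two_dot (hab : a ≠ b) (u₁ u₂ : ℝ) :
    (Pi.single a u₁ + Pi.single b u₂ : ι → ℝ) ⬝ᵥ (Pi.single a u₁ + Pi.single b u₂) =
      u₁ ^ 2 + u₂ ^ 2 := by
  simp only [add_dotProduct, single_dotProduct, Pi.add_apply, Pi.single_eq_same,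
    Pi.single_eq_of_ne hab, Pi.single_eq_of_ne hab.symm]
  ring

private theorem two_form (h : ∀ c d, K c d = K d c) (u₁ u₂ : ℝ) :
    (Pi.single a u₁ + Pi.single b u₂ : ι → ℝ) ⬝ᵥ (K *ᵥ (Pi.single a u₁ + Pi.single b u₂)) =
      K a a * u₁ ^ 2 + 2 * K a b * u₁ * u₂ + K b b * u₂ ^ 2 := by
  simp only [add_dotProduct, single_dotProduct, mulVec_add, Pi.add_apply, mulVec_single,
    Pi.smul_apply, col_apply, MulOpposite.smul_eq_mul_unop, MulOpposite.unop_op]
  rw [h b a]
  ring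

omit [DecidableEq ι] in
private theorem dot_symm (h : ∀ c d, K c d = K d c) (u v : ι → ℝ) :
    u ⬝ᵥ (K *ᵥ v) = v ⬝ᵥ (K *ᵥ u) := by
  simp only [dotProduct, mulVec, Finset.mul_sum]
  rw [Finset.sum_comm]
  refine Finset.sum_congr rfl fun c _ => Finset.sum_congr rfl fun d _ => ?_
  rw [h d c]; ring

omit [DecidableEq ι] in
private theorem dot_self_of_supp {v : ι → ℝ} (hv : ∀ c, c ∉ S → v c = 0) :
    v ⬝ᵥ v = ∑ c ∈ S, v c ^ 2 := by
  rw [dotProduct, ← Finset.sum_subset (Finset.subset_univ S) fun c _ hc => by rw [hv c hc, mul_zero]]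
  exact Finset.sum_congr rfl fun c _ => by ring

omit [Fintype ι] in
private theorem sum_erase_erase (ha : a ∈ S) (hb : b ∈ S) (hab : a ≠ b) (f : ι → ℝ) :
    ∑ c ∈ S, f c = ∑ c ∈ (S.erase a).erase b, f c + f a + f b := by
  rw [← Finset.sum_erase_add S f ha,
    ← Finset.sum_erase_add (S.erase a) f (Finset.mem_erase.2 ⟨hab.symm, hb⟩)]
  ring

private theorem Side.form_eq (h : Side S K s) (v : ι → ℝ) :
    v ⬝ᵥ (K *ᵥ v) = ∑ c ∈ S, ∑ d ∈ S, v c * (K c d * v d) := by
  simp only [dotProduct, mulVec, Finset.mul_sum]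
  rw [← Finset.sum_subset (Finset.subset_univ S) fun c _ hc => by simp [h.supp c _ hc]]
  refine Finset.sum_congr rfl fun c _ => ?_
  exact (Finset.sum_subset (Finset.subset_univ S) fun d _ hd => by simp [h.supp' c d hd]).symm

omit [DecidableEq ι] in
private theorem Side.sum_col (h : Side S K s) (ha : a ∈ S) : ∑ c, K c a = s := by
  rw [← h.row a ha]; exact Finset.sum_congr rfl fun c _ => h.symm c a

private theorem Side.sum_l1 (h : Side S K s) (ha : a ∈ S) (hb : b ∈ S) :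
    ∑ c, l1 K s a b c = s * (jj K s a b * K b b + gg K s a b) := by
  simp only [l1, Finset.sum_add_distrib, ← Finset.mul_sum, h.sum_col ha, h.sum_col hb]
  ring

private theorem Side.sum_l2 (h : Side S K s) (ha : a ∈ S) (hb : b ∈ S) :
    ∑ c, l2 K s a b c = s * (gg K s a b + jj K s a b * K a a) := by
  simp only [l2, Finset.sum_add_distrib, ← Finset.mul_sum, h.sum_col ha, h.sum_col hb]
  ring

/-- The form `gi` has negative determinant `-h₀`, so it is positive somewhere; on the line `u₁ + s u₂ = 0` it is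
`-(1 + K_{ab,ab}) ≤ 0`; rescale. -/
theorem Side.exists_pos (h : Side S K s) (hab : a ≠ b) (h0 : 0 < h0 K s a b) :
    ∃ u₁ u₂, u₁ + s * u₂ = 1 ∧ 0 < gi K s a b u₁ u₂ := by
  have hs : s ^ 2 = 1 := h.sq
  have hdet : 0 < (s - K a b) ^ 2 - K a a * K b b := by
    have : (s - K a b) ^ 2 = (1 - s * K a b) ^ 2 := by
      have e : (1 - s * K a b) ^ 2 = 1 - 2 * s * K a b + s ^ 2 * K a b ^ 2 := by ring
      rw [e, hs]; nlinarith [hs]
    unfold R62.h0 at h0
    linarith
  have hex : ∃ u₁ u₂, 0 < gi K s a b u₁ u₂ := by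
    rcases lt_trichotomy (K a a) 0 with hα | hα | hα
    · exact ⟨1, 0, by unfold gi; nlinarith⟩
    · have hc : s - K a b ≠ 0 := by
        intro hc
        rw [hc, hα] at hdet
        simp at hdet
      refine ⟨(K b b + 1) / (2 * (s - K a b)), 1, ?_⟩
      unfold gi
      rw [hα]
      have : 2 * (s - K a b) * ((K b b + 1) / (2 * (s - K a b))) = K b b + 1 := by
        field_simp
      nlinarith
    · refine ⟨s - K a b, K a a, ?_⟩
      unfold gi
      have := mul_pos hα hdet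
      nlinarith
  obtain ⟨u₁, u₂, hu⟩ := hex
  have hpsd := h.psd (Pi.single a u₁ + Pi.single b u₂)
  rw [two_dot hab, two_form h.symm] at hpsd
  have hne : u₁ + s * u₂ ≠ 0 := by
    intro h0'
    have e : gi K s a b u₁ u₂ = (u₁ + s * u₂) ^ 2 -
        (u₁ ^ 2 + u₂ ^ 2 + (K a a * u₁ ^ 2 + 2 * K a b * u₁ * u₂ + K b b * u₂ ^ 2)) := by
      unfold gi
      have : (u₁ + s * u₂) ^ 2 = u₁ ^ 2 + 2 * s * u₁ * u₂ + s ^ 2 * u₂ ^ 2 := by ring
      rw [this, hs]; ring
    rw [e, h0'] at hu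
    nlinarith
  refine ⟨u₁ / (u₁ + s * u₂), u₂ / (u₁ + s * u₂), ?_, ?_⟩
  · field_simp
  · have e : gi K s a b (u₁ / (u₁ + s * u₂)) (u₂ / (u₁ + s * u₂)) =
        gi K s a b u₁ u₂ / (u₁ + s * u₂) ^ 2 := by
      unfold gi
      field_simp
    rw [e]
    positivity

/-- `G q = (∑_c ℓ₁(c) x_c, ∑_c ℓ₂(c) x_c)` -/
theorem Adm.form_step (h : Adm K s a b) (x : ι → ℝ) (hxa : x a = 0) (hxb : x b = 0) (u₁ u₂ : ℝ) :
    (x + Pi.single a u₁ + Pi.single b u₂) ⬝ᵥ (x + Pi.single a u₁ + Pi.single b u₂) +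
      (x + Pi.single a u₁ + Pi.single b u₂) ⬝ᵥ (K *ᵥ (x + Pi.single a u₁ + Pi.single b u₂)) =
    x ⬝ᵥ x + x ⬝ᵥ (step K s a b *ᵥ x) + (u₁ + s * u₂) ^ 2 -
      gi K s a b (u₁ - ∑ c, l1 K s a b c * x c) (u₂ - ∑ c, l2 K s a b c * x c) := by
  have hs : s ^ 2 = 1 := by rcases h.sgn with h | h <;> rw [h] <;> norm_num
  set q₁ : ℝ := ∑ c, K c a * x c with hq₁
  set q₂ : ℝ := ∑ c, K c b * x c with hq₂
  have hL₁ : ∑ c, l1 K s a b c * x c = jj K s a b * K b b * q₁ + gg K s a b * q₂ := by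
    rw [hq₁, hq₂, Finset.mul_sum, Finset.mul_sum, ← Finset.sum_add_distrib]
    refine Finset.sum_congr rfl fun c _ => ?_
    unfold l1; ring
  have hL₂ : ∑ c, l2 K s a b c * x c = gg K s a b * q₁ + jj K s a b * K a a * q₂ := by
    rw [hq₁, hq₂, Finset.mul_sum, Finset.mul_sum, ← Finset.sum_add_distrib]
    refine Finset.sum_congr rfl fun c _ => ?_
    unfold l2; ring
  have hstep : x ⬝ᵥ (step K s a b *ᵥ x) = x ⬝ᵥ (K *ᵥ x) +
      (q₁ * ∑ c, l1 K s a b c * x c + q₂ * ∑ c, l2 K s a b c * x c) := by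
    have e1 : x ⬝ᵥ (step K s a b *ᵥ x) = ∑ c, ∑ d, x c * (hat K s a b c d * x d) := by
      simp only [dotProduct, mulVec, Finset.mul_sum]
      refine Finset.sum_congr rfl fun c _ => Finset.sum_congr rfl fun d _ => ?_
      unfold step
      simp only [Matrix.of_apply]
      split_ifs with hcd
      · rcases hcd with rfl | rfl | rfl | rfl <;> simp [hxa, hxb]
      · rfl
    rw [e1, hq₁, hq₂, Finset.sum_mul_sum, Finset.sum_mul_sum]
    simp only [dotProduct, mulVec, Finset.mul_sum, ← Finset.sum_add_distrib]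
    refine Finset.sum_congr rfl fun c _ => Finset.sum_congr rfl fun d _ => ?_
    unfold hat
    simp only [Matrix.of_apply]
    ring
  have hxu : x ⬝ᵥ (Pi.single a u₁ + Pi.single b u₂ : ι → ℝ) = 0 := by
    rw [dotProduct_add, dotProduct_single, dotProduct_single, hxa, hxb]; ring
  have hxKu : x ⬝ᵥ (K *ᵥ (Pi.single a u₁ + Pi.single b u₂ : ι → ℝ)) = q₁ * u₁ + q₂ * u₂ := by
    rw [mulVec_add, dotProduct_add, hq₁, hq₂, Finset.sum_mul, Finset.sum_mul]
    simp only [mulVec_single, dotProduct, Pi.smul_apply, col_apply, MulOpposite.smul_eq_mul_unop,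
      MulOpposite.unop_op]
    congr 1 <;> exact Finset.sum_congr rfl fun c _ => by ring
  have huKx : (Pi.single a u₁ + Pi.single b u₂ : ι → ℝ) ⬝ᵥ (K *ᵥ x) = q₁ * u₁ + q₂ * u₂ := by
    rw [← hxKu, dot_symm h.symm]
  have hux : (Pi.single a u₁ + Pi.single b u₂ : ι → ℝ) ⬝ᵥ x = 0 := by rw [dotProduct_comm, hxu]
  have huu := two_dot h.ne u₁ u₂
  have huKu := two_form (a := a) (b := b) h.symm u₁ u₂
  rw [add_assoc x]
  generalize (Pi.single a u₁ + Pi.single b u₂ : ι → ℝ) = U at hxu hux hxKu huKx huu huKu ⊢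
  simp only [add_dotProduct, dotProduct_add, mulVec_add]
  rw [hxu, hux, hxKu, huKx, huu, huKu, hstep, hL₁, hL₂]
  have hj : jj K s a b * ((s - K a b) ^ 2 - K a a * K b b) = 1 := by
    have : (s - K a b) ^ 2 - K a a * K b b = R62.h0 K s a b := by
      unfold R62.h0
      have e : (1 - s * K a b) ^ 2 = 1 - 2 * s * K a b + s ^ 2 * K a b ^ 2 := by ring
      rw [e, hs]; nlinarith [hs]
    rw [this]
    exact inv_mul_cancel₀ h.h0
  unfold gi gg
  set j := jj K s a b
  linear_combination (-(u₂ ^ 2)) * hs +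
    (j * K b b * q₁ ^ 2 + 2 * (s - K a b) * j * q₁ * q₂ + j * K a a * q₂ ^ 2 -
      2 * u₁ * q₁ - 2 * u₂ * q₂) * hj

/-- `psd`: take `u = G q - λ u⁰` with `u₁ + s u₂ = 0`.  `row`: `∑_{c ∈ S} ℓ₁(c) = s (j β + g)`,
`hat_a`, `hat_b`. -/
theorem Side.step (h : Side S K s) (ha : a ∈ S) (hb : b ∈ S) (hab : a ≠ b) (h0 : 0 < h0 K s a b) :
    Side ((S.erase a).erase b) (step K s a b) s := by
  have hadm : Adm K s a b := ⟨h.symm, h.sgn, hab, h0.ne'⟩
  refine ⟨h.sgn, step_symm h.symm, ?_, ?_, ?_⟩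
  · intro c d hc
    unfold R62.step
    simp only [Matrix.of_apply]
    split_ifs with hcd
    · rfl
    · have hcS : c ∉ S := by
        intro hcS
        push Not at hcd
        exact hc (Finset.mem_erase.2 ⟨hcd.2.1, Finset.mem_erase.2 ⟨hcd.1, hcS⟩⟩)
      unfold hat
      simp [h.supp c _ hcS]
  · intro c hc
    obtain ⟨hcb, hc'⟩ := Finset.mem_erase.1 hc
    obtain ⟨hca, hcS⟩ := Finset.mem_erase.1 hc'
    have e1 : ∑ d, R62.step K s a b c d =
        ∑ d, hat K s a b c d - hat K s a b c a - hat K s a b c b := by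
      have e : ∀ d, R62.step K s a b c d = hat K s a b c d - (if d = a then hat K s a b c a else 0) -
          (if d = b then hat K s a b c b else 0) := by
        intro d
        unfold R62.step
        simp only [Matrix.of_apply, hca, hcb, false_or]
        by_cases hda : d = a
        · subst hda; simp [hab]
        · by_cases hdb : d = b
          · subst hdb; simp [hda]
          · simp [hda, hdb]
      simp only [e, Finset.sum_sub_distrib, Finset.sum_ite_eq', Finset.mem_univ, if_true]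
    have e2 : ∑ d, hat K s a b c d =
        s + (K c a * ∑ d, l1 K s a b d + K c b * ∑ d, l2 K s a b d) := by
      rw [← h.row c hcS, Finset.mul_sum, Finset.mul_sum, h.row c hcS]
      simp only [hat, Matrix.of_apply, Finset.sum_add_distrib, h.row c hcS]
    rw [e1, e2, hadm.hat_a, hadm.hat_b, h.sum_l1 ha hb, h.sum_l2 ha hb]
    unfold l1 l2
    ring
  · intro v
    obtain ⟨w₁, w₂, hw, hpos⟩ := h.exists_pos hab h0
    set x : ι → ℝ := fun c => if c = a ∨ c = b then 0 else v c with hx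
    have hxa : x a = 0 := by simp [hx]
    have hxb : x b = 0 := by simp [hx]
    have e1 : v ⬝ᵥ (R62.step K s a b *ᵥ v) = x ⬝ᵥ (R62.step K s a b *ᵥ x) := by
      simp only [dotProduct, mulVec, Finset.mul_sum]
      refine Finset.sum_congr rfl fun c _ => Finset.sum_congr rfl fun d _ => ?_
      unfold R62.step
      simp only [Matrix.of_apply, hx]
      by_cases hc : c = a ∨ c = b
      · rcases hc with hc | hc <;> simp [hc]
      · by_cases hd : d = a ∨ d = b
        · rcases hd with hd | hd <;> simp [hd]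
        · simp [hc, hd]
    have e2 : x ⬝ᵥ x ≤ v ⬝ᵥ v := by
      simp only [dotProduct]
      refine Finset.sum_le_sum fun c _ => ?_
      simp only [hx]
      split_ifs
      · simpa using mul_self_nonneg (v c)
      · exact le_rfl
    set L₁ := ∑ c, l1 K s a b c * x c with hL₁
    set L₂ := ∑ c, l2 K s a b c * x c with hL₂
    have hf := hadm.form_step x hxa hxb (L₁ - (L₁ + s * L₂) * w₁) (L₂ - (L₁ + s * L₂) * w₂)
    have hp := h.psd (x + Pi.single a (L₁ - (L₁ + s * L₂) * w₁) + Pi.single b (L₂ - (L₁ + s * L₂) * w₂))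
    rw [← hL₁, ← hL₂] at hf
    have e3 : L₁ - (L₁ + s * L₂) * w₁ + s * (L₂ - (L₁ + s * L₂) * w₂) = 0 := by
      linear_combination (-(L₁ + s * L₂)) * hw
    have e4 : gi K s a b (L₁ - (L₁ + s * L₂) * w₁ - L₁) (L₂ - (L₁ + s * L₂) * w₂ - L₂) =
        (L₁ + s * L₂) ^ 2 * gi K s a b w₁ w₂ := by
      unfold gi; ring
    rw [e3, e4] at hf
    have e5 : 0 ≤ (L₁ + s * L₂) ^ 2 * gi K s a b w₁ w₂ := by positivity
    rw [e1]
    nlinarith

/-- the matching extended by `a ↔ b` -/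
def ext (π : ι → ι) (a b : ι) : ι → ι := fun c => if c = a then b else if c = b then a else π c

theorem IsM.ext {π : ι → ι} (h : IsM ((S.erase a).erase b) π) (ha : a ∈ S) (hb : b ∈ S)
    (hab : a ≠ b) : IsM S (ext π a b) := by
  intro c hc
  by_cases hca : c = a
  · subst hca
    simp [R62.ext, hb, hab.symm]
  · by_cases hcb : c = b
    · subst hcb
      simp [R62.ext, ha, hca, hab]
    · have hc' : c ∈ (S.erase a).erase b := Finset.mem_erase.2 ⟨hcb, Finset.mem_erase.2 ⟨hca, hc⟩⟩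
      obtain ⟨h1, h2, h3⟩ := h c hc'
      obtain ⟨h1b, h1'⟩ := Finset.mem_erase.1 h1
      obtain ⟨h1a, h1S⟩ := Finset.mem_erase.1 h1'
      simp [R62.ext, hca, hcb, h1a, h1b, h1S, h2, h3]

/-- Let `t = x a` (so `x b = s t`).  Given `v'` on `S'` (cut it off outside `S'`) take `u = G q + μ u⁰` with
`u₁ + s u₂ = t`; by `form_step` the value at `v' + u` exceeds the value at `v'` by `t² + μ² gi(u⁰)`, and
`|x|²/2` grows by `t²`.  If `x` is non-constant on `S'` use the hypothesis.  If `x = c` on `S'`: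
for `s = 1` take `v' = (c/2) 1_{S'}` (equality on `S'`; `G q = (c/2, c/2)` by the row sums, so `μ = t - c ≠ 0`);
for `s = -1` one may take `c = 0` (`x (π e) = -x e`), `v' = 0`, `μ = t ≠ 0`. -/
theorem QQ.step {π : ι → ι} (h : Side S K s) (ha : a ∈ S) (hb : b ∈ S) (hab : a ≠ b)
    (h0 : 0 < h0 K s a b) (hπ : IsM ((S.erase a).erase b) π)
    (hq : QQ ((S.erase a).erase b) (step K s a b) s π) : QQ S K s (ext π a b) := by
  have hadm : Adm K s a b := ⟨h.symm, h.sgn, hab, h0.ne'⟩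
  have hs : s ^ 2 = 1 := h.sq
  have h' := h.step ha hb hab h0
  set S' := (S.erase a).erase b with hS'
  have haS' : a ∉ S' := by simp [hS']
  have hbS' : b ∉ S' := by simp [hS']
  have hsum : ∀ f : ι → ℝ, ∑ c ∈ S, f c = ∑ c ∈ S', f c + f a + f b := sum_erase_erase ha hb hab
  obtain ⟨w₁, w₂, hw, hpos⟩ := h.exists_pos hab h0
  intro x hx hnc
  have hxb : x b = s * x a := by simpa [R62.ext] using hx a ha
  have hx' : ∀ c ∈ S', x (π c) = s * x c := by
    intro c hc
    obtain ⟨hcb, hc'⟩ := Finset.mem_erase.1 hc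
    obtain ⟨hca, hcS⟩ := Finset.mem_erase.1 hc'
    simpa [R62.ext, hca, hcb] using hx c hcS
  -- the key step
  have key : ∀ v : ι → ℝ, (∀ c, c ∉ S' → v c = 0) → ∃ v' : ι → ℝ,
      2 * ∑ c ∈ S, x c * v' c - (∑ c ∈ S, v' c ^ 2 + v' ⬝ᵥ (K *ᵥ v')) =
      2 * ∑ c ∈ S', x c * v c - (∑ c ∈ S', v c ^ 2 + v ⬝ᵥ (R62.step K s a b *ᵥ v)) + x a ^ 2 +
        (x a - (∑ c, l1 K s a b c * v c + s * ∑ c, l2 K s a b c * v c)) ^ 2 * gi K s a b w₁ w₂ := by
    intro v hv
    set L₁ := ∑ c, l1 K s a b c * v c with hL₁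
    set L₂ := ∑ c, l2 K s a b c * v c with hL₂
    set μ := x a - (L₁ + s * L₂) with hμ
    have hf := hadm.form_step v (hv a haS') (hv b hbS') (L₁ + μ * w₁) (L₂ + μ * w₂)
    rw [← hL₁, ← hL₂] at hf
    set v' : ι → ℝ := v + Pi.single a (L₁ + μ * w₁) + Pi.single b (L₂ + μ * w₂) with hv'
    have hv'a : v' a = L₁ + μ * w₁ := by simp [hv', hv a haS', hab]
    have hv'b : v' b = L₂ + μ * w₂ := by simp [hv', hv b hbS', hab.symm]
    have hv'c : ∀ c ∈ S', v' c = v c := by
      intro c hc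
      have hca : c ≠ a := fun e => haS' (e ▸ hc)
      have hcb : c ≠ b := fun e => hbS' (e ▸ hc)
      simp [hv', hca, hcb]
    have hv'o : ∀ c, c ∉ S → v' c = 0 := by
      intro c hc
      have hca : c ≠ a := fun e => hc (e ▸ ha)
      have hcb : c ≠ b := fun e => hc (e ▸ hb)
      have hcS' : c ∉ S' := fun e => hc (Finset.mem_of_mem_erase (Finset.mem_of_mem_erase e))
      simp [hv', hca, hcb, hv c hcS']
    refine ⟨v', ?_⟩
    have e1 : ∑ c ∈ S, v' c ^ 2 = v' ⬝ᵥ v' := (dot_self_of_supp hv'o).symm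
    have e2 : ∑ c ∈ S', v c ^ 2 = v ⬝ᵥ v := (dot_self_of_supp hv).symm
    have e3 : ∑ c ∈ S, x c * v' c = ∑ c ∈ S', x c * v c + x a * (L₁ + μ * w₁) +
        s * x a * (L₂ + μ * w₂) := by
      rw [hsum, hv'a, hv'b, hxb]
      congr 2
      exact Finset.sum_congr rfl fun c hc => by rw [hv'c c hc]
    have e4 : L₁ + μ * w₁ + s * (L₂ + μ * w₂) = x a := by
      linear_combination μ * hw + hμ
    have e5 : gi K s a b (L₁ + μ * w₁ - L₁) (L₂ + μ * w₂ - L₂) = μ ^ 2 * gi K s a b w₁ w₂ := by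
      unfold gi; ring
    rw [e4, e5] at hf
    rw [e1, e2, e3, hf]
    linear_combination (2 * x a) * e4
  have hx2 : (1 / 2) * ∑ c ∈ S, x c ^ 2 = (1 / 2) * ∑ c ∈ S', x c ^ 2 + x a ^ 2 := by
    rw [hsum, hxb]
    linear_combination (x a ^ 2 / 2) * hs
  by_cases hc : ∃ t, ∀ c ∈ S', x c = t
  · obtain ⟨t, ht⟩ := hc
    rcases h.sgn with hs1 | hs1
    · have hne : x a - t ≠ 0 := by
        intro e
        refine hnc ⟨t, fun c hc => ?_⟩
        by_cases hca : c = a
        · rw [hca]; linarith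
        · by_cases hcb : c = b
          · rw [hcb, hxb, hs1]; linarith
          · exact ht c (Finset.mem_erase.2 ⟨hcb, Finset.mem_erase.2 ⟨hca, hc⟩⟩)
      set v : ι → ℝ := (t / 2) • fun c => if c ∈ S' then (1 : ℝ) else 0 with hv
      have hvo : ∀ c, c ∉ S' → v c = 0 := fun c hc => by simp [hv, hc]
      have hvi : ∀ c ∈ S', v c = t / 2 := fun c hc => by simp [hv, hc]
      obtain ⟨v', hv'⟩ := key v hvo
      refine ⟨v', ?_⟩
      have hj : jj K s a b * R62.h0 K s a b = 1 := inv_mul_cancel₀ h0.ne'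
      have hsumv : ∀ f : ι → ℝ, (∀ c, c ∉ S → f c = 0) →
          ∑ c, f c * v c = t / 2 * (∑ c, f c - f a - f b) := by
        intro f hf
        have e1 : ∑ c, f c * v c = ∑ c ∈ S', f c * v c :=
          (Finset.sum_subset (Finset.subset_univ _) fun c _ hc => by rw [hvo c hc, mul_zero]).symm
        have e2 : ∑ c, f c = ∑ c ∈ S, f c :=
          (Finset.sum_subset (Finset.subset_univ _) fun c _ hc => hf c hc).symm
        rw [e1, e2, hsum, Finset.sum_congr rfl fun c hc => by rw [hvi c hc], ← Finset.sum_mul]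
        ring
      have hL₁ : ∑ c, l1 K s a b c * v c = t / 2 := by
        rw [hsumv _ fun c hc => by simp [l1, h.supp c _ hc], h.sum_l1 ha hb]
        unfold l1 gg
        unfold R62.h0 at hj
        rw [h.symm b a]
        subst hs1
        linear_combination (t / 2) * hj
      have hL₂ : ∑ c, l2 K s a b c * v c = t / 2 := by
        rw [hsumv _ fun c hc => by simp [l2, h.supp c _ hc], h.sum_l2 ha hb]
        unfold l2 gg
        unfold R62.h0 at hj
        rw [h.symm b a]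
        subst hs1
        linear_combination (t / 2) * hj
      have hKv : R62.step K s a b *ᵥ v = s • v := by
        rw [hv, mulVec_smul, h'.mulVec_ind, smul_comm]
      have e1 : v ⬝ᵥ (R62.step K s a b *ᵥ v) = ∑ c ∈ S', v c ^ 2 := by
        rw [hKv, dotProduct_smul, dot_self_of_supp hvo, hs1, one_smul]
      have e2 : ∑ c ∈ S', v c ^ 2 = S'.card * (t / 2) ^ 2 := by
        rw [Finset.sum_congr rfl fun c hc => by rw [hvi c hc]]; simp
      have e3 : ∑ c ∈ S', x c * v c = S'.card * (t * (t / 2)) := by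
        rw [Finset.sum_congr rfl fun c hc => by rw [hvi c hc, ht c hc]]; simp
      have e4 : ∑ c ∈ S', x c ^ 2 = S'.card * t ^ 2 := by
        rw [Finset.sum_congr rfl fun c hc => by rw [ht c hc]]; simp
      have e5 : x a - (t / 2 + s * (t / 2)) = x a - t := by rw [hs1]; ring
      rw [hv', hx2, hL₁, hL₂, e1, e2, e3, e4, e5]
      have : 0 < (x a - t) ^ 2 * gi K s a b w₁ w₂ := by positivity
      nlinarith
    · have hx0 : ∀ c ∈ S', x c = 0 := by
        intro c hc
        have e1 := hx' c hc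
        rw [ht _ (hπ c hc).1, ht c hc, hs1] at e1
        rw [ht c hc]; linarith
      have hne : x a ≠ 0 := by
        intro e
        refine hnc ⟨0, fun c hc => ?_⟩
        by_cases hca : c = a
        · rw [hca, e]
        · by_cases hcb : c = b
          · rw [hcb, hxb, e, mul_zero]
          · exact hx0 c (Finset.mem_erase.2 ⟨hcb, Finset.mem_erase.2 ⟨hca, hc⟩⟩)
      obtain ⟨v', hv'⟩ := key 0 fun _ _ => rfl
      refine ⟨v', ?_⟩
      have e4 : ∑ c ∈ S', x c ^ 2 = 0 :=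
        Finset.sum_eq_zero fun c hc => by rw [hx0 c hc]; ring
      rw [hv', hx2, e4]
      have : 0 < x a ^ 2 * gi K s a b w₁ w₂ := by positivity
      simpa using this
  · obtain ⟨v, hv⟩ := hq x hx' hc
    set v₀ : ι → ℝ := fun c => if c ∈ S' then v c else 0 with hv₀
    obtain ⟨v', hv'⟩ := key v₀ fun c hc => by simp [hv₀, hc]
    refine ⟨v', ?_⟩
    have e1 : ∑ c ∈ S', x c * v₀ c = ∑ c ∈ S', x c * v c :=
      Finset.sum_congr rfl fun c hc => by simp [hv₀, hc]
    have e2 : ∑ c ∈ S', v₀ c ^ 2 = ∑ c ∈ S', v c ^ 2 :=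
      Finset.sum_congr rfl fun c hc => by simp [hv₀, hc]
    have e3 : v₀ ⬝ᵥ (R62.step K s a b *ᵥ v₀) = v ⬝ᵥ (R62.step K s a b *ᵥ v) := by
      rw [h'.form_eq, h'.form_eq]
      refine Finset.sum_congr rfl fun c hc => Finset.sum_congr rfl fun d hd => ?_
      simp [hv₀, hc, hd]
    rw [hv', hx2, e1, e2, e3]
    have : 0 ≤ (x a - (∑ c, l1 K s a b c * v₀ c + s * ∑ c, l2 K s a b c * v₀ c)) ^ 2 *
      gi K s a b w₁ w₂ := by positivity
    linarith

omit [Fintype ι] in
private theorem qf_ext {π : ι → ι} (ha : a ∈ S) (hb : b ∈ S) (hc : ¬ conf vtx G a b) (y : V → ℝ) :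
    qf (G ⊔ SimpleGraph.edge (vtx a) (vtx b)) y +
        ∑ c ∈ (S.erase a).erase b, y (vtx c) * y (vtx (π c)) =
      qf G y + ∑ c ∈ S, y (vtx c) * y (vtx (ext π a b c)) := by
  have hab : a ≠ b := by
    rintro rfl
    exact hc (Or.inl rfl)
  rw [qf_sup_edge (fun e => hc (Or.inl e)) (fun e => hc (Or.inr e)), sum_erase_erase ha hb hab]
  have e : ∑ c ∈ (S.erase a).erase b, y (vtx c) * y (vtx (ext π a b c)) =
      ∑ c ∈ (S.erase a).erase b, y (vtx c) * y (vtx (π c)) := by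
    refine Finset.sum_congr rfl fun c hc => ?_
    obtain ⟨hcb, hc'⟩ := Finset.mem_erase.1 hc
    obtain ⟨hca, -⟩ := Finset.mem_erase.1 hc'
    simp [ext, hca, hcb]
  rw [e]
  simp only [ext, if_true, if_neg hab.symm]
  ring

theorem Good.step (hg : Good vtx S G K s z) (h : Side S K s) (ha : a ∈ S) (hb : b ∈ S)
    (hc : ¬ conf vtx G a b) (h0 : 0 < h0 K s a b) :
    Good vtx ((S.erase a).erase b) (G ⊔ SimpleGraph.edge (vtx a) (vtx b)) (step K s a b) s z := by
  intro π hπ hq y hy hy0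
  have hab : a ≠ b := ne_of_not_conf hc
  have := hg (R62.ext π a b) (hπ.ext ha hb hab) (QQ.step h ha hb hab h0 hπ hq) y hy hy0
  rwa [← qf_ext ha hb hc] at this

theorem QQ.mono {π : ι → ι} (hle : Le2 K K') (hq : QQ S K' s π) : QQ S K s π := by
  intro x hx hnc
  obtain ⟨v, hv⟩ := hq x hx hnc
  exact ⟨v, by linarith [hle v]⟩

theorem Good.mono (hg : Good vtx S G K s z) (hle : Le2 K K') : Good vtx S G K' s z := by
  intro π hπ hq
  exact hg π hπ (hq.mono hle)

/-- Take `v = x/2` (cut off outside `S`); one needs `xᵀ K x < |x|²`.  Write `x = x⊥ + c 1_S`, `x⊥ ≠ 0`;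
`K 1_S = s 1_S`, and `K⊥ = K - s J/N` has `‖K⊥‖_F² = p₂ - 1 < 1`. -/
theorem Side.QQ_end (h : Side S K s) (h2 : pk K 2 < 2) (π : ι → ι) : QQ S K s π := by
  intro x _ hnc
  have hs : s ^ 2 = 1 := h.sq
  have hS : S.Nonempty := by
    rcases S.eq_empty_or_nonempty with e | e
    · exact absurd ⟨0, by simp [e]⟩ hnc
    · exact e
  have hN : (0 : ℝ) < S.card := by exact_mod_cast hS.card_pos
  set N : ℝ := (S.card : ℝ) with hNd
  set m : ℝ := (∑ c ∈ S, x c) / N with hm
  set w : ι → ℝ := fun c => x c - m with hw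
  have hw0 : ∑ c ∈ S, w c = 0 := by
    simp only [hw, Finset.sum_sub_distrib, Finset.sum_const, nsmul_eq_mul, ← hNd, hm]
    field_simp
    ring
  have hwpos : 0 < ∑ c ∈ S, w c ^ 2 := by
    by_contra hle
    have h0 : ∑ c ∈ S, w c ^ 2 = 0 :=
      le_antisymm (not_lt.1 hle) (Finset.sum_nonneg fun c _ => sq_nonneg _)
    rw [Finset.sum_eq_zero_iff_of_nonneg fun c _ => sq_nonneg _] at h0
    refine hnc ⟨m, fun c hc => ?_⟩
    have := pow_eq_zero_iff (two_ne_zero) |>.1 (h0 c hc)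
    simp only [hw] at this
    linarith
  have hx : ∀ c, x c = w c + m := fun c => by simp [hw]
  have hx2 : ∑ c ∈ S, x c ^ 2 = ∑ c ∈ S, w c ^ 2 + N * m ^ 2 := by
    have : ∀ c, x c ^ 2 = w c ^ 2 + 2 * m * w c + m ^ 2 := fun c => by rw [hx c]; ring
    simp only [this, Finset.sum_add_distrib, ← Finset.mul_sum, hw0, Finset.sum_const, nsmul_eq_mul,
      ← hNd]
    ring
  have hcol : ∀ d ∈ S, ∑ c ∈ S, K c d = s := fun d hd => by
    rw [← h.row' d hd]; exact Finset.sum_congr rfl fun c _ => h.symm c d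
  have hKx : ∑ c ∈ S, ∑ d ∈ S, x c * (K c d * x d) =
      ∑ c ∈ S, ∑ d ∈ S, (w c * w d) * (K c d - s / N) + N * s * m ^ 2 := by
    have e1 : ∀ c d, x c * (K c d * x d) = (w c * w d) * (K c d - s / N) + s / N * (w c * w d) +
        m * (w c * K c d) + m * (K c d * w d) + m ^ 2 * K c d := fun c d => by
      rw [hx c, hx d]; ring
    have e2 : ∑ c ∈ S, ∑ d ∈ S, s / N * (w c * w d) = 0 := by
      simp only [← Finset.mul_sum, hw0, mul_zero, Finset.sum_const_zero]
    have e3 : ∑ c ∈ S, ∑ d ∈ S, m * (w c * K c d) = 0 := by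
      simp only [← Finset.mul_sum]
      rw [Finset.sum_congr rfl fun c hc => by rw [h.row' c hc], ← Finset.sum_mul, hw0]
      ring
    have e4 : ∑ c ∈ S, ∑ d ∈ S, m * (K c d * w d) = 0 := by
      rw [Finset.sum_comm]
      simp only [← Finset.mul_sum, ← Finset.sum_mul]
      rw [Finset.sum_congr rfl fun c hc => by rw [hcol c hc], ← Finset.mul_sum, hw0]
      ring
    have e5 : ∑ c ∈ S, ∑ d ∈ S, m ^ 2 * K c d = N * s * m ^ 2 := by
      simp only [← Finset.mul_sum]
      rw [Finset.sum_congr rfl fun c hc => h.row' c hc]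
      simp only [Finset.sum_const, nsmul_eq_mul, ← hNd]
      ring
    simp only [e1, Finset.sum_add_distrib, e2, e3, e4, e5]
    ring
  have hfro : ∑ c ∈ S, ∑ d ∈ S, (K c d - s / N) ^ 2 = pk K 2 - 1 := by
    have e0 : ∑ c ∈ S, ∑ d ∈ S, K c d ^ 2 = pk K 2 := by
      rw [← fro_eq_pk2 h.symm, fro]
      rw [← Finset.sum_subset (Finset.subset_univ S) fun c _ hc => by simp [h.supp c _ hc]]
      refine Finset.sum_congr rfl fun c _ => ?_
      exact Finset.sum_subset (Finset.subset_univ S) fun d _ hd => by simp [h.supp' c d hd]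
    have e1 : ∀ c d, (K c d - s / N) ^ 2 = K c d ^ 2 - 2 * (s / N) * K c d + (s / N) ^ 2 :=
      fun c d => by ring
    have e2 : ∑ c ∈ S, ∑ d ∈ S, 2 * (s / N) * K c d = 2 * (s / N) * (N * s) := by
      simp only [← Finset.mul_sum]
      rw [Finset.sum_congr rfl fun c hc => h.row' c hc]
      simp only [Finset.sum_const, nsmul_eq_mul, ← hNd]
    simp only [e1, Finset.sum_add_distrib, Finset.sum_sub_distrib, e0, e2, Finset.sum_const,
      nsmul_eq_mul, ← hNd]
    field_simp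
    linear_combination (-1 : ℝ) * hs
  have hcs : (∑ c ∈ S, ∑ d ∈ S, (w c * w d) * (K c d - s / N)) ^ 2 ≤
      (∑ c ∈ S, w c ^ 2) ^ 2 * (pk K 2 - 1) := by
    have := Finset.sum_mul_sq_le_sq_mul_sq (S ×ˢ S) (fun p => w p.1 * w p.2)
      (fun p => K p.1 p.2 - s / N)
    simp only [Finset.sum_product] at this
    rw [hfro] at this
    refine this.trans (le_of_eq ?_)
    congr 1
    rw [pow_two (∑ c ∈ S, w c ^ 2), Finset.sum_mul_sum]
    exact Finset.sum_congr rfl fun c _ => Finset.sum_congr rfl fun d _ => by ring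
  have hlt : ∑ c ∈ S, ∑ d ∈ S, (w c * w d) * (K c d - s / N) < ∑ c ∈ S, w c ^ 2 := by
    refine lt_of_pow_lt_pow_left₀ 2 hwpos.le (hcs.trans_lt ?_)
    have := pow_pos hwpos 2
    nlinarith
  refine ⟨fun c => x c / 2, ?_⟩
  rw [h.form_eq]
  have e1 : ∑ c ∈ S, x c * (x c / 2) = (1 / 2) * ∑ c ∈ S, x c ^ 2 := by
    rw [Finset.mul_sum]; exact Finset.sum_congr rfl fun c _ => by ring
  have e2 : ∑ c ∈ S, (x c / 2) ^ 2 = (1 / 4) * ∑ c ∈ S, x c ^ 2 := by
    rw [Finset.mul_sum]; exact Finset.sum_congr rfl fun c _ => by ring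
  have e3 : ∑ c ∈ S, ∑ d ∈ S, x c / 2 * (K c d * (x d / 2)) =
      (1 / 4) * ∑ c ∈ S, ∑ d ∈ S, x c * (K c d * x d) := by
    simp only [Finset.mul_sum]
    exact Finset.sum_congr rfl fun c _ => Finset.sum_congr rfl fun d _ => by ring
  have hs1 : s ≤ 1 := by rcases h.sgn with e | e <;> rw [e] <;> norm_num
  have e4 : N * s * m ^ 2 ≤ N * m ^ 2 := by
    have : 0 ≤ N * m ^ 2 * (1 - s) :=
      mul_nonneg (mul_nonneg hN.le (sq_nonneg m)) (by linarith)
    linarith
  rw [e1, e2, e3, hKx, hx2]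
  linarith

theorem good0_of {A B : Mat ι} (hA : Side S A 1) (hB : Side S B (-1)) (gA : Good vtx S G A 1 z)
    (gB : Good vtx S G B (-1) z) (h2A : pk A 2 < 2) (h2B : pk B 2 < 2) : Good0 vtx S G z := by
  intro π hπ y hy hy0
  have h1 := gA π hπ (hA.QQ_end h2A π) y hy hy0
  have h2 := gB π hπ (hB.QQ_end h2B π) y hy hy0
  rw [abs_lt]
  constructor <;> linarith

theorem Good0.step (hg : Good0 vtx S G z) (ha : a ∈ S) (hb : b ∈ S) (hc : ¬ conf vtx G a b) :
    Good0 vtx ((S.erase a).erase b) (G ⊔ SimpleGraph.edge (vtx a) (vtx b)) z := by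
  intro π hπ y hy hy0
  have hab : a ≠ b := ne_of_not_conf hc
  have := hg (R62.ext π a b) (hπ.ext ha hb hab) y hy hy0
  rwa [← qf_ext ha hb hc] at this

theorem Good0.empty (hg : Good0 vtx (∅ : Finset ι) G z) (y : V → ℝ) (h0 : ∑ v, y v = 0)
    (hy : y ≠ 0) : |qf G y| < z * (y ⬝ᵥ y) := by
  simpa using hg id (fun c hc => absurd hc (Finset.notMem_empty c)) y h0 hy

theorem Inv.step {d : ℕ} {st : St ι V} (h : Inv vtx d z st) (hc : Cand vtx st a b) :
    Inv vtx d z (st.step vtx a b) := by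
  obtain ⟨ha, hb, hcf, hA, hB⟩ := hc
  have hab : a ≠ b := ne_of_not_conf hcf
  have hA0 : 0 < h0 st.A 1 a b := by linarith
  have hB0 : 0 < h0 st.B (-1) a b := by linarith
  exact ⟨h.sA.step ha hb hab hA0, h.sB.step ha hb hab hB0, h.gi.step ha hb hcf,
    h.gA.step h.sA ha hb hcf hA0, h.gB.step h.sB ha hb hcf hB0⟩

end Crest.Agent.R62
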