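import Crest.Agent.R62.Defs

/-!
# Row 62: linear algebra of one side

Elementary bounds for a symmetric matrix `K` with `OpLe K Λ`.  Everything is Cauchy–Schwarz
(`Finset.sum_mul_sq_le_sq_mul_sq`, `Finset.inner_mul_le_norm_mul_norm`); no spectral theorem is needed except
possibly in `opLe_of_pk6` (which also has an elementary proof, see there).
-/

set_option autoImplicit false

open Finset Matrix

noncomputable section

namespace Crest.Agent.R62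

variable {ι : Type} [Fintype ι] [DecidableEq ι]

/-! ## General matrices -/

omit [DecidableEq ι] in
theorem dot_self_nonneg (v : ι → ℝ) : 0 ≤ v ⬝ᵥ v :=
  Finset.sum_nonneg fun _ _ => mul_self_nonneg _

omit [DecidableEq ι] in
theorem dot_sq_le (u v : ι → ℝ) : (u ⬝ᵥ v) ^ 2 ≤ (u ⬝ᵥ u) * (v ⬝ᵥ v) := by
  simpa only [dotProduct, sq] using Finset.sum_mul_sq_le_sq_mul_sq univ u v

theorem fro_nonneg (X : Mat ι) : 0 ≤ fro X := by
  unfold fro; positivity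

theorem fro_transpose (X : Mat ι) : fro Xᵀ = fro X := by
  unfold fro; rw [Finset.sum_comm]; rfl

theorem fro_eq_trace (X : Mat ι) : fro X = (Xᵀ * X).trace := by
  unfold fro
  rw [Finset.sum_comm]
  simp only [Matrix.trace, Matrix.diag, Matrix.mul_apply, Matrix.transpose_apply, sq]

theorem abs_trace_mul_le (X Y : Mat ι) : |(X * Y).trace| ≤ √(fro X) * √(fro Y) := by
  have h1 : (X * Y).trace = ∑ p : ι × ι, X p.1 p.2 * Y p.2 p.1 := by
    rw [Fintype.sum_prod_type]; simp only [Matrix.trace, Matrix.diag, Matrix.mul_apply]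
  have h2 : fro X = ∑ p : ι × ι, X p.1 p.2 ^ 2 := by rw [Fintype.sum_prod_type]; rfl
  have h3 : fro Y = ∑ p : ι × ι, Y p.2 p.1 ^ 2 := by
    rw [Fintype.sum_prod_type, ← fro_transpose]; rfl
  rw [← Real.sqrt_mul (fro_nonneg X)]
  apply Real.abs_le_sqrt
  rw [h1, h2, h3]
  exact Finset.sum_mul_sq_le_sq_mul_sq _ _ _

/-- Cauchy–Schwarz for each diagonal entry, then for the sum -/
theorem sum_abs_diag_mul_le (X Y : Mat ι) : ∑ a, |(X * Y) a a| ≤ √(fro X) * √(fro Y) := by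
  have h1 : ∑ a, |(X * Y) a a| ≤ ∑ p : ι × ι, |X p.1 p.2| * |Y p.2 p.1| := by
    rw [Fintype.sum_prod_type]
    refine Finset.sum_le_sum fun a _ => ?_
    rw [Matrix.mul_apply]
    refine (Finset.abs_sum_le_sum_abs _ _).trans (le_of_eq ?_)
    simp only [abs_mul]
  have h2 : fro X = ∑ p : ι × ι, |X p.1 p.2| ^ 2 := by
    rw [Fintype.sum_prod_type]; simp only [sq_abs]; rfl
  have h3 : fro Y = ∑ p : ι × ι, |Y p.2 p.1| ^ 2 := by
    rw [Fintype.sum_prod_type, ← fro_transpose]; simp only [sq_abs]; rfl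
  rw [← Real.sqrt_mul (fro_nonneg X)]
  refine h1.trans (Real.le_sqrt_of_sq_le ?_)
  rw [h2, h3]
  exact Finset.sum_mul_sq_le_sq_mul_sq _ _ _

theorem OpLe.mono {X : Mat ι} {Λ Λ' : ℝ} (h : OpLe X Λ) (h0 : 0 ≤ Λ) (h1 : Λ ≤ Λ') : OpLe X Λ' := by
  intro v
  exact (h v).trans (mul_le_mul_of_nonneg_right (pow_le_pow_left₀ h0 h1 2) (dot_self_nonneg v))

theorem opLe_one : OpLe (1 : Mat ι) 1 := by
  intro v; simp

theorem OpLe.mul {X Y : Mat ι} {Λ Λ' : ℝ} (h : OpLe X Λ) (h' : OpLe Y Λ') : OpLe (X * Y) (Λ * Λ') := by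
  intro v
  rw [← Matrix.mulVec_mulVec]
  calc _ ≤ Λ ^ 2 * ((Y *ᵥ v) ⬝ᵥ (Y *ᵥ v)) := h _
    _ ≤ Λ ^ 2 * (Λ' ^ 2 * (v ⬝ᵥ v)) := mul_le_mul_of_nonneg_left (h' v) (sq_nonneg _)
    _ = _ := by ring

theorem OpLe.pow {X : Mat ι} {Λ : ℝ} (h : OpLe X Λ) (k : ℕ) : OpLe (X ^ k) (Λ ^ k) := by
  induction k with
  | zero => simpa using opLe_one
  | succ k ih => rw [pow_succ, pow_succ]; exact ih.mul h

/-- `|Xᵀ u|⁴ = ⟨u, X Xᵀ u⟩² ≤ |u|² Λ² |Xᵀ u|²` -/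
theorem OpLe.transpose {X : Mat ι} {Λ : ℝ} (h : OpLe X Λ) : OpLe Xᵀ Λ := by
  intro u
  set w := Xᵀ *ᵥ u with hw
  have e : w ⬝ᵥ w = u ⬝ᵥ (X *ᵥ w) := by
    rw [Matrix.dotProduct_mulVec u X w, ← Matrix.mulVec_transpose]
  have h1 := dot_sq_le u (X *ᵥ w)
  have h2 := h w
  have h0 := dot_self_nonneg w
  have h3 := dot_self_nonneg u
  rw [← e] at h1
  rcases h0.eq_or_lt with h4 | h4
  · rw [← h4]; positivity
  · have : (w ⬝ᵥ w) * (w ⬝ᵥ w) ≤ (Λ ^ 2 * (u ⬝ᵥ u)) * (w ⬝ᵥ w) := by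
      nlinarith [mul_le_mul_of_nonneg_left h2 h3]
    exact le_of_mul_le_mul_right this h4

theorem OpLe.bilin {X : Mat ι} {Λ : ℝ} (h : OpLe X Λ) (u v : ι → ℝ) :
    (u ⬝ᵥ (X *ᵥ v)) ^ 2 ≤ Λ ^ 2 * ((u ⬝ᵥ u) * (v ⬝ᵥ v)) := by
  have h1 := dot_sq_le u (X *ᵥ v)
  nlinarith [mul_le_mul_of_nonneg_left (h v) (dot_self_nonneg u)]

/-- column by column -/
theorem OpLe.fro_mul_left {X : Mat ι} {Λ : ℝ} (h : OpLe X Λ) (Y : Mat ι) :
    fro (X * Y) ≤ Λ ^ 2 * fro Y := by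
  unfold fro
  rw [Finset.sum_comm, Finset.sum_comm (f := fun a b => Y a b ^ 2), Finset.mul_sum]
  refine Finset.sum_le_sum fun b _ => ?_
  have := h (fun c => Y c b)
  simpa only [dotProduct, Matrix.mulVec, Matrix.mul_apply, sq] using this

theorem OpLe.fro_mul_right {Y : Mat ι} {Λ : ℝ} (h : OpLe Y Λ) (X : Mat ι) :
    fro (X * Y) ≤ Λ ^ 2 * fro X := by
  rw [← fro_transpose, Matrix.transpose_mul, ← fro_transpose X]
  exact h.transpose.fro_mul_left _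

theorem opLe_of_fro {X : Mat ι} {Λ : ℝ} (h : fro X ≤ Λ ^ 2) : OpLe X Λ := by
  intro v
  refine le_trans ?_ (mul_le_mul_of_nonneg_right h (dot_self_nonneg v))
  unfold fro
  rw [Finset.sum_mul, dotProduct]
  refine Finset.sum_le_sum fun a _ => ?_
  have := Finset.sum_mul_sq_le_sq_mul_sq univ (fun b => X a b) v
  simpa only [dotProduct, Matrix.mulVec, sq] using this

/-- an entry of `Xᵀ W Y` -/
theorem OpLe.entry_sq_le {W : Mat ι} {Λ : ℝ} (h : OpLe W Λ) (X Y : Mat ι) (a b : ι) :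
    (Xᵀ * W * Y) a b ^ 2 ≤ Λ ^ 2 * ((∑ c, X c a ^ 2) * ∑ c, Y c b ^ 2) := by
  have h1 := h.bilin (fun c => X c a) (fun c => Y c b)
  have e : (Xᵀ * W * Y) a b = (fun c => X c a) ⬝ᵥ (W *ᵥ fun c => Y c b) := by
    rw [Matrix.mul_assoc]
    simp only [Matrix.mul_apply, Matrix.transpose_apply, dotProduct, Matrix.mulVec]
  rw [e]
  simpa only [dotProduct, sq] using h1

/-- `√A √B ≤ y` from `A B ≤ y²` -/
theorem sqrt_mul_sqrt_le {A B y : ℝ} (hA : 0 ≤ A) (h : A * B ≤ y ^ 2) (hy : 0 ≤ y) :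
    √A * √B ≤ y := by
  rw [← Real.sqrt_mul hA]
  exact Real.sqrt_le_iff.2 ⟨hy, h⟩

/-! ## Symmetric matrices -/

section Symm
variable {K : Mat ι}

theorem transpose_of_symm (h : ∀ a b, K a b = K b a) : Kᵀ = K := by
  ext a b; exact h b a

theorem pow_symm (h : ∀ a b, K a b = K b a) (k : ℕ) (a b : ι) : (K ^ k) a b = (K ^ k) b a := by
  have : (K ^ k)ᵀ = K ^ k := by rw [Matrix.transpose_pow, transpose_of_symm h]
  exact (congrFun (congrFun this b) a)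

theorem pow_add_apply (h : ∀ a b, K a b = K b a) (i j : ℕ) (a b : ι) :
    (K ^ (i + j)) a b = ∑ c, (K ^ i) c a * (K ^ j) c b := by
  rw [pow_add, Matrix.mul_apply]
  exact Finset.sum_congr rfl fun c _ => by rw [pow_symm h i a c]

theorem sum_pow_sq (h : ∀ a b, K a b = K b a) (k : ℕ) (a : ι) :
    ∑ c, (K ^ k) a c ^ 2 = (K ^ (2 * k)) a a := by
  rw [two_mul, pow_add_apply h]
  exact Finset.sum_congr rfl fun c _ => by rw [pow_symm h k a c, sq]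

theorem pow_even_diag_nonneg (h : ∀ a b, K a b = K b a) (k : ℕ) (a : ι) : 0 ≤ (K ^ (2 * k)) a a := by
  rw [← sum_pow_sq h]; positivity

/-- Cauchy–Schwarz for `⟨K^i e_a, K^j e_b⟩` -/
theorem pow_add_sq_le (h : ∀ a b, K a b = K b a) (i j : ℕ) (a b : ι) :
    (K ^ (i + j)) a b ^ 2 ≤ (K ^ (2 * i)) a a * (K ^ (2 * j)) b b := by
  rw [pow_add_apply h, ← sum_pow_sq h, ← sum_pow_sq h]
  simp only [pow_symm h i a, pow_symm h j b]
  exact Finset.sum_mul_sq_le_sq_mul_sq _ _ _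

theorem fro_pow (h : ∀ a b, K a b = K b a) (k : ℕ) : fro (K ^ k) = pk K (2 * k) := by
  unfold fro pk
  simp only [sum_pow_sq h, Matrix.trace, Matrix.diag]

theorem pk_eq_sum (K : Mat ι) (k : ℕ) : pk K k = ∑ a, (K ^ k) a a := by
  rfl

theorem pk_even_nonneg (h : ∀ a b, K a b = K b a) (k : ℕ) : 0 ≤ pk K (2 * k) := by
  rw [← fro_pow h]; exact fro_nonneg _

theorem bb_eq (h : ∀ a b, K a b = K b a) (a : ι) : bb K a = ∑ c, K a c ^ 2 := by
  have := sum_pow_sq h 1 a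
  rw [pow_one] at this
  exact this.symm

theorem bb_eq' (h : ∀ a b, K a b = K b a) (a : ι) : bb K a = ∑ c, K c a ^ 2 := by
  rw [bb_eq h]
  exact Finset.sum_congr rfl fun c _ => by rw [h a c]

theorem bb_nonneg (h : ∀ a b, K a b = K b a) (a : ι) : 0 ≤ bb K a := by
  rw [bb_eq h]; positivity

theorem sq_le_bb (h : ∀ a b, K a b = K b a) (a b : ι) : K a b ^ 2 ≤ bb K a := by
  rw [bb_eq h]
  exact Finset.single_le_sum (f := fun c => K a c ^ 2) (fun _ _ => sq_nonneg _) (mem_univ b)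

theorem sum_bb (K : Mat ι) : ∑ a, bb K a = pk K 2 := by
  rfl

theorem fro_eq_pk2 (h : ∀ a b, K a b = K b a) : fro K = pk K 2 := by
  have := fro_pow h 1
  rwa [pow_one] at this

theorem ww_nonneg (K : Mat ι) (c : ι) : 0 ≤ ww K c := by
  unfold ww; positivity

theorem ww_le_bb_sq (h : ∀ a b, K a b = K b a) (c : ι) : ww K c ≤ bb K c ^ 2 := by
  have : bb K c ^ 2 = ∑ d, K c d ^ 2 * bb K c := by
    rw [← Finset.sum_mul, ← bb_eq h, sq]
  rw [this]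
  refine Finset.sum_le_sum fun d _ => ?_
  have h1 := sq_le_bb h c d
  nlinarith [sq_nonneg (K c d)]

theorem ww_le_WW (K : Mat ι) (c : ι) : ww K c ≤ WW K := by
  exact Finset.single_le_sum (f := fun c => ww K c) (fun _ _ => ww_nonneg _ _) (mem_univ c)

theorem WW_nonneg (K : Mat ι) : 0 ≤ WW K := by
  exact Finset.sum_nonneg fun _ _ => ww_nonneg _ _

theorem DD_nonneg (K : Mat ι) : 0 ≤ DD K := by
  unfold DD; positivity

theorem VV_nonneg (S : Finset ι) (K : Mat ι) (ρ : ℝ) : 0 ≤ VV S K ρ := by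
  unfold VV; positivity

/-- `tr (A² B²) = ‖A B‖_F²` -/
theorem XX_eq_fro {A B : Mat ι} (hA : ∀ a b, A a b = A b a) (hB : ∀ a b, B a b = B b a) :
    XX A B = fro (A * B) := by
  rw [fro_eq_trace, Matrix.transpose_mul, transpose_of_symm hA, transpose_of_symm hB, XX, sq, sq,
    ← Matrix.mul_assoc (A * A), Matrix.trace_mul_comm (A * A * B) B]
  simp only [Matrix.mul_assoc]

theorem XX_nonneg {A B : Mat ι} (hA : ∀ a b, A a b = A b a) (hB : ∀ a b, B a b = B b a) :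
    0 ≤ XX A B := by
  rw [XX_eq_fro hA hB]; exact fro_nonneg _

/-- With `n_j = |K^j v|²`: `n₁² ≤ n₀ n₂`, `n₂² ≤ n₁ n₃` (symmetry and Cauchy–Schwarz), so
`n₁³ ≤ n₀² n₃`, and `n₃ ≤ ‖K³‖_F² n₀ ≤ Λ⁶ n₀`. -/
theorem opLe_of_pk6 (h : ∀ a b, K a b = K b a) {Λ : ℝ} (hΛ : 0 ≤ Λ) (h6 : pk K 6 ≤ Λ ^ 6) :
    OpLe K Λ := by
  intro v
  have hs : ∀ u w : ι → ℝ, (K *ᵥ u) ⬝ᵥ (K *ᵥ w) = u ⬝ᵥ (K *ᵥ (K *ᵥ w)) := by
    intro u w
    rw [Matrix.dotProduct_mulVec u, ← Matrix.mulVec_transpose, transpose_of_symm h]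
  have h3 : OpLe (K ^ 3) (Λ ^ 3) := opLe_of_fro (by rw [fro_pow h, ← pow_mul]; exact h6)
  have e3 := h3 v
  have e : (K ^ 3) *ᵥ v = K *ᵥ (K *ᵥ (K *ᵥ v)) := by
    rw [Matrix.mulVec_mulVec, Matrix.mulVec_mulVec, pow_three, Matrix.mul_assoc]
  rw [e] at e3
  have a1 := dot_sq_le v (K *ᵥ (K *ᵥ v))
  have a2 := dot_sq_le (K *ᵥ v) (K *ᵥ (K *ᵥ (K *ᵥ v)))
  rw [← hs] at a1 a2
  have p0 := dot_self_nonneg v
  have p1 := dot_self_nonneg (K *ᵥ v)
  have p2 := dot_self_nonneg (K *ᵥ (K *ᵥ v))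
  generalize v ⬝ᵥ v = n0 at *
  generalize (K *ᵥ v) ⬝ᵥ (K *ᵥ v) = n1 at *
  generalize (K *ᵥ (K *ᵥ v)) ⬝ᵥ (K *ᵥ (K *ᵥ v)) = n2 at *
  generalize (K *ᵥ (K *ᵥ (K *ᵥ v))) ⬝ᵥ (K *ᵥ (K *ᵥ (K *ᵥ v))) = n3 at *
  rcases p1.eq_or_lt with h1 | h1
  · rw [← h1]; positivity
  have b1 : (n1 ^ 2) ^ 2 ≤ (n0 * n2) ^ 2 := pow_le_pow_left₀ (sq_nonneg _) a1 2
  have b2 : n0 ^ 2 * n2 ^ 2 ≤ n0 ^ 2 * (n1 * ((Λ ^ 3) ^ 2 * n0)) :=
    mul_le_mul_of_nonneg_left (a2.trans (mul_le_mul_of_nonneg_left e3 p1)) (sq_nonneg _)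
  have b3 : n1 ^ 3 * n1 ≤ (Λ ^ 2 * n0) ^ 3 * n1 := by
    calc n1 ^ 3 * n1 = (n1 ^ 2) ^ 2 := by ring
      _ ≤ (n0 * n2) ^ 2 := b1
      _ = n0 ^ 2 * n2 ^ 2 := by ring
      _ ≤ _ := b2
      _ = _ := by ring
  exact le_of_pow_le_pow_left₀ (by norm_num) (by positivity) (le_of_mul_le_mul_right b3 h1)

theorem OpLe.pow_entry_sq_le' (h : ∀ a b, K a b = K b a) {Λ : ℝ} (ho : OpLe K Λ) (k : ℕ)
    (a b : ι) : (K ^ (k + 2)) a b ^ 2 ≤ Λ ^ (2 * k) * (bb K a * bb K b) := by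
  have h1 := (ho.pow k).entry_sq_le K K a b
  rw [transpose_of_symm h, ← pow_succ', ← pow_succ, ← bb_eq' h, ← bb_eq' h, ← pow_mul,
    mul_comm k 2] at h1
  exact h1

/-- `α_k = ⟨K e_a, K^(k-2) K e_a⟩` -/
theorem OpLe.abs_diag_le (h : ∀ a b, K a b = K b a) {Λ : ℝ} (ho : OpLe K Λ) (hΛ : 0 ≤ Λ) (k : ℕ)
    (a : ι) : |(K ^ (k + 2)) a a| ≤ Λ ^ k * bb K a := by
  have h1 := ho.pow_entry_sq_le' h k a a
  apply abs_le_of_sq_le_sq' _ (mul_nonneg (pow_nonneg hΛ _) (bb_nonneg h a)) |> abs_le.2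
  calc _ ≤ _ := h1
    _ = _ := by ring

theorem OpLe.pow_entry_sq_le (h : ∀ a b, K a b = K b a) {Λ : ℝ} (ho : OpLe K Λ) (k : ℕ)
    (a b : ι) : (K ^ (k + 2)) a b ^ 2 ≤ Λ ^ (2 * k) * (bb K a * bb K b) := by
  exact ho.pow_entry_sq_le' h k a b

theorem OpLe.bb_le (h : ∀ a b, K a b = K b a) {Λ : ℝ} (ho : OpLe K Λ) (a : ι) : bb K a ≤ Λ ^ 2 := by
  have h1 := ho (Pi.single a 1)
  rw [bb_eq' h]
  simpa [dotProduct, Matrix.mulVec, Pi.single_apply, sq] using h1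

theorem OpLe.pk_le (h : ∀ a b, K a b = K b a) {Λ : ℝ} (ho : OpLe K Λ) (i j : ℕ) :
    pk K (2 * (i + j)) ≤ Λ ^ (2 * i) * pk K (2 * j) := by
  rw [← fro_pow h, ← fro_pow h, pow_add, mul_comm 2 i, pow_mul]
  exact (ho.pow i).fro_mul_left _

end Symm

/-! ## One side -/

section Side
variable {S : Finset ι} {K : Mat ι} {s : ℝ}

theorem Side.sq (h : Side S K s) : s ^ 2 = 1 := by
  rcases h.sgn with h1 | h1 <;> rw [h1] <;> norm_num

theorem Side.abs (h : Side S K s) : |s| = 1 := by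
  rcases h.sgn with h1 | h1 <;> rw [h1] <;> norm_num

theorem Side.supp' (h : Side S K s) (a b : ι) (hb : b ∉ S) : K a b = 0 := by
  rw [h.symm]; exact h.supp b a hb

theorem Side.pow_supp (h : Side S K s) (k : ℕ) (a b : ι) (ha : a ∉ S) : (K ^ (k + 1)) a b = 0 := by
  rw [pow_succ', Matrix.mul_apply]
  exact Finset.sum_eq_zero fun c _ => by rw [h.supp a c ha, zero_mul]

theorem Side.pow_supp' (h : Side S K s) (k : ℕ) (a b : ι) (hb : b ∉ S) : (K ^ (k + 1)) a b = 0 := by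
  rw [pow_symm h.symm]; exact h.pow_supp k b a hb

theorem Side.bb_supp (h : Side S K s) (a : ι) (ha : a ∉ S) : bb K a = 0 := by
  exact h.pow_supp 1 a a ha

theorem Side.row' (h : Side S K s) (a : ι) (ha : a ∈ S) : ∑ b ∈ S, K a b = s := by
  rw [← h.row a ha]
  exact Finset.sum_subset (subset_univ S) fun b _ hb => h.supp' a b hb

theorem Side.pow_row (h : Side S K s) (k : ℕ) (a : ι) (ha : a ∈ S) :
    ∑ b ∈ S, (K ^ k) a b = s ^ k := by
  induction k generalizing a with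
  | zero => simp [Matrix.one_apply, ha]
  | succ k ih =>
    simp only [pow_succ', Matrix.mul_apply]
    rw [Finset.sum_comm]
    have : ∀ c, ∑ b ∈ S, K a c * (K ^ k) c b = K a c * s ^ k := by
      intro c
      rw [← Finset.mul_sum]
      by_cases hc : c ∈ S
      · rw [ih c hc]
      · rw [h.supp' a c hc, zero_mul, zero_mul]
    simp only [this]
    rw [← Finset.sum_mul, h.row a ha]

theorem Side.pow_total (h : Side S K s) (k : ℕ) :
    ∑ a ∈ S, ∑ b ∈ S, (K ^ k) a b = S.card * s ^ k := by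
  rw [Finset.sum_congr rfl fun a ha => h.pow_row k a ha, Finset.sum_const, nsmul_eq_mul]

/-- `K` acts on the indicator of `S` by `s` -/
theorem Side.mulVec_ind (h : Side S K s) :
    K *ᵥ (fun c => if c ∈ S then (1 : ℝ) else 0) = s • fun c => if c ∈ S then (1 : ℝ) else 0 := by
  funext a
  simp only [Matrix.mulVec, dotProduct, mul_ite, mul_one, mul_zero, Finset.sum_ite_mem,
    Finset.univ_inter, Pi.smul_apply, smul_eq_mul]
  by_cases ha : a ∈ S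
  · rw [if_pos ha, h.row' a ha]
  · rw [if_neg ha]
    exact Finset.sum_eq_zero fun b _ => h.supp a b ha

theorem Side.sum_diag (h : Side S K s) (k : ℕ) : ∑ a ∈ S, (K ^ (k + 1)) a a = pk K (k + 1) := by
  rw [pk_eq_sum]
  exact Finset.sum_subset (subset_univ S) fun a _ ha => h.pow_supp k a a ha

theorem Side.sum_bb (h : Side S K s) : ∑ a ∈ S, bb K a = pk K 2 := by
  exact h.sum_diag 1

/-- `1 = (∑_b (K^k) a b)² ≤ N ∑_b (K^k) a b ²`, summed over `a` -/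
theorem Side.one_le_pk (h : Side S K s) (hS : S.Nonempty) (k : ℕ) : 1 ≤ pk K (2 * (k + 1)) := by
  have hN : (0 : ℝ) < S.card := by exact_mod_cast hS.card_pos
  have h1 : ∀ a ∈ S, (1 : ℝ) ≤ S.card * (K ^ (2 * (k + 1))) a a := by
    intro a ha
    have h2 := sq_sum_le_card_mul_sum_sq (s := S) (f := fun b => (K ^ (k + 1)) a b)
    rw [h.pow_row _ a ha, ← pow_mul, mul_comm (k + 1) 2, pow_mul, h.sq, one_pow] at h2
    refine h2.trans (mul_le_mul_of_nonneg_left ?_ hN.le)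
    rw [← sum_pow_sq h.symm]
    exact Finset.sum_le_sum_of_subset_of_nonneg (subset_univ S) fun _ _ _ => sq_nonneg _
  have h3 := Finset.sum_le_sum h1
  rw [Finset.sum_const, nsmul_eq_mul, ← Finset.mul_sum] at h3
  have h4 := h.sum_diag (2 * k + 1)
  rw [show 2 * k + 1 + 1 = 2 * (k + 1) by ring] at h4
  rw [h4] at h3
  exact le_of_mul_le_mul_left h3 hN

/-- `1 + K ≥ 0` tested on the columns of `X` -/
theorem Side.trace_psd (h : Side S K s) (X : Mat ι) : -fro X ≤ (Xᵀ * K * X).trace := by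
  unfold fro
  rw [Finset.sum_comm, ← Finset.sum_neg_distrib, Matrix.trace]
  refine Finset.sum_le_sum fun b _ => ?_
  have := h.psd (fun c => X c b)
  rw [Matrix.mul_assoc]
  simpa only [Matrix.diag, Matrix.mul_apply, Matrix.transpose_apply, dotProduct, Matrix.mulVec,
    _root_.sq] using this

theorem Side.neg_one_le_diag (h : Side S K s) (a : ι) : -1 ≤ K a a := by
  have := h.psd (Pi.single a 1)
  simpa [dotProduct, Matrix.mulVec, Pi.single_apply] using this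

/-- `α_{2k+1} + α_{2k} ≥ 0` -/
theorem Side.odd_diag (h : Side S K s) (k : ℕ) (a : ι) :
    -(K ^ (2 * k)) a a ≤ (K ^ (2 * k + 1)) a a := by
  have h1 := h.psd (fun c => (K ^ k) c a)
  have e1 : (K ^ (2 * k)) a a = (fun c => (K ^ k) c a) ⬝ᵥ (fun c => (K ^ k) c a) := by
    rw [two_mul, pow_add_apply h.symm]; rfl
  have e2 : (K ^ (2 * k + 1)) a a = (fun c => (K ^ k) c a) ⬝ᵥ (K *ᵥ fun c => (K ^ k) c a) := by
    rw [show 2 * k + 1 = k + (k + 1) by ring, pow_add_apply h.symm, pow_succ']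
    simp only [Matrix.mul_apply, dotProduct, Matrix.mulVec]
  rw [e1, e2]; exact h1

end Side

/-! ## Consequences of `Bnd` -/

section Bnd
variable {S : Finset ι} {K : Mat ι} {s : ℝ} {p : Par}

/-- all basic parameters are nonnegative -/
structure Par.NN (p : Par) : Prop where
  N : 0 ≤ p.N
  μ0 : 0 ≤ p.μ
  μ1 : p.μ ≤ 1
  Λ : 0 ≤ p.Λ
  Fb : 0 ≤ p.Fb
  X : 0 ≤ p.X
  Qb : 0 ≤ p.Qb
  t : 0 ≤ p.t
  P4 : 0 ≤ p.P4
  P5 : 0 ≤ p.P5
  V : 0 ≤ p.V
  δ : 0 ≤ p.δ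
  W : 0 ≤ p.W
  Db : 0 ≤ p.Db
  Dm : 0 ≤ p.Dm
  a3 : 0 ≤ p.a3
  B : 0 ≤ p.B
  q2 : 0 ≤ p.q2
  g1 : 0 ≤ p.g1
  g2 : 0 ≤ p.g2
  g3 : 0 ≤ p.g3
  g4 : 0 ≤ p.g4
  g5 : 0 ≤ p.g5
  g6 : 0 ≤ p.g6

theorem Bnd.nn (h : Bnd S K s p) : p.NN := by
  have N : 0 ≤ p.N := by rw [← h.card]; positivity
  have μ0 : 0 ≤ p.μ := by unfold Par.μ; linarith [h.ρ1]
  have μ1 : p.μ ≤ 1 := by unfold Par.μ; linarith [h.ρ0]
  have Λ : 0 ≤ p.Λ := by linarith [h.Λ1]
  have Fb : 0 ≤ p.Fb := (abs_nonneg _).trans h.F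
  have X : 0 ≤ p.X := (abs_nonneg _).trans h.X
  have Qb : 0 ≤ p.Qb := (pk_even_nonneg h.symm 1).trans h.Q
  have t : 0 ≤ p.t := (Finset.sum_nonneg fun _ _ => abs_nonneg _).trans h.t
  have P4 : 0 ≤ p.P4 := (pk_even_nonneg h.symm 2).trans h.P4
  have P5 : 0 ≤ p.P5 := (Finset.sum_nonneg fun _ _ => abs_nonneg _).trans h.P5
  have V : 0 ≤ p.V := (VV_nonneg _ _ _).trans h.V
  have δ : 0 ≤ p.δ := (DD_nonneg _).trans h.D
  have W : 0 ≤ p.W := (WW_nonneg _).trans h.W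
  have Db : 0 ≤ p.Db := by unfold Par.Db; positivity
  have Dm : 0 ≤ p.Dm := by unfold Par.Dm; positivity
  have a3 : 0 ≤ p.a3 := by unfold Par.a3; positivity
  have B : 0 ≤ p.B := by unfold Par.B; positivity
  have q2 : 0 ≤ p.q2 := by unfold Par.q2; positivity
  have g1 : 0 ≤ p.g1 := by unfold Par.g1; positivity
  have g2 : 0 ≤ p.g2 := by unfold Par.g2; positivity
  have g3 : 0 ≤ p.g3 := by unfold Par.g3; positivity
  have g4 : 0 ≤ p.g4 := by unfold Par.g4; positivity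
  have g5 : 0 ≤ p.g5 := by unfold Par.g5; positivity
  have g6 : 0 ≤ p.g6 := by unfold Par.g6; positivity
  exact ⟨N, μ0, μ1, Λ, Fb, X, Qb, t, P4, P5, V, δ, W, Db, Dm, a3, B, q2, g1, g2, g3, g4, g5, g6⟩

theorem Bnd.om_nonneg (h : Bnd S K s p) (hg : Glob p) : 0 ≤ p.Om := by
  have n := h.nn
  have := n.Qb; have := n.Db; have := n.V; have := hg.sw0
  unfold Par.Om; positivity

/-- `N ≥ 100` from `1 ≤ ε N`, `100 ε ≤ 1` -/
theorem Glob.N100 (hg : Glob p) : 100 ≤ p.N := by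
  nlinarith [hg.H6, hg.H10, hg.N0, hg.ε0]

theorem Bnd.one_le_Qb (h : Bnd S K s p) (hg : Glob p) : 1 ≤ p.Qb := by
  have hS : S.Nonempty := by
    rw [← Finset.card_pos]
    have := hg.N0
    rw [← h.card] at this
    exact_mod_cast this
  exact (h.toSide.one_le_pk hS 0).trans h.Q

theorem Bnd.one_le_P4 (h : Bnd S K s p) (hg : Glob p) : 1 ≤ p.P4 := by
  have hS : S.Nonempty := by
    rw [← Finset.card_pos]
    have := hg.N0
    rw [← h.card] at this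
    exact_mod_cast this
  exact (h.toSide.one_le_pk hS 1).trans h.P4

theorem Bnd.Db_le (h : Bnd S K s p) (hg : Glob p) : p.Db ≤ 4 * p.N := by
  have h1 : p.ρ ^ 2 ≤ 1 := by nlinarith [h.ρ0, h.ρ1]
  have := mul_le_mul_of_nonneg_left h1 hg.N0.le
  unfold Par.Db; linarith [hg.H4]

theorem Bnd.Dm_le (h : Bnd S K s p) (hg : Glob p) : p.Dm ≤ 4 * p.N := by
  have h1 : p.μ ^ 2 ≤ 1 := by nlinarith [h.nn.μ0, h.nn.μ1]
  have := mul_le_mul_of_nonneg_left h1 hg.N0.le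
  unfold Par.Dm; linarith [hg.H4]

theorem Bnd.pk_even_le (h : Bnd S K s p) (k : ℕ) : pk K (2 * (k + 3)) ≤ p.Λ ^ (2 * (k + 3)) := by
  calc _ ≤ p.Λ ^ (2 * k) * pk K (2 * 3) := h.op.pk_le h.symm k 3
    _ ≤ p.Λ ^ (2 * k) * p.Λ ^ 6 := mul_le_mul_of_nonneg_left h.P6 (pow_nonneg h.nn.Λ _)
    _ = _ := by ring

theorem Bnd.fro_one (h : Bnd S K s p) : fro K ≤ p.Qb := by
  rw [fro_eq_pk2 h.symm]; exact h.Q

theorem Bnd.fro_two (h : Bnd S K s p) : fro (K ^ 2) ≤ p.P4 := by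
  rw [R62.fro_pow h.symm]; exact h.P4

theorem Bnd.fro_pow (h : Bnd S K s p) (k : ℕ) : fro (K ^ (k + 3)) ≤ p.Λ ^ (2 * (k + 3)) := by
  rw [R62.fro_pow h.symm]; exact h.pk_even_le k

theorem Bnd.sum_diag_sq (h : Bnd S K s p) : ∑ a, K a a ^ 2 ≤ p.δ := by
  exact h.D

theorem Bnd.sum_abs_diag (h : Bnd S K s p) : ∑ a, |K a a| ≤ √(p.N * p.δ) := by
  apply Real.le_sqrt_of_sq_le
  have e : ∑ a, |K a a| = ∑ a ∈ S, |K a a| :=
    (Finset.sum_subset (subset_univ S) fun a _ ha => by rw [h.supp a a ha, abs_zero]).symm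
  rw [e]
  refine (sq_sum_le_card_mul_sum_sq (s := S) (f := fun a => |K a a|)).trans ?_
  rw [h.card]
  refine mul_le_mul_of_nonneg_left (le_trans ?_ h.D) h.nn.N
  simp only [sq_abs]
  exact Finset.sum_le_sum_of_subset_of_nonneg (subset_univ S) fun _ _ _ => sq_nonneg _

theorem Bnd.sum_bb_sq (h : Bnd S K s p) : ∑ a, bb K a ^ 2 ≤ p.Db := by
  have e : ∑ a, bb K a ^ 2 = ∑ a ∈ S, bb K a ^ 2 :=
    (Finset.sum_subset (subset_univ S) fun a _ ha => by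
      rw [h.toSide.bb_supp a ha]; norm_num).symm
  rw [e]
  calc _ ≤ ∑ a ∈ S, (2 * p.ρ ^ 2 + 2 * (bb K a - p.ρ) ^ 2) :=
        Finset.sum_le_sum fun a _ => by nlinarith [sq_nonneg (bb K a - 2 * p.ρ)]
    _ = 2 * p.N * p.ρ ^ 2 + 2 * VV S K p.ρ := by
        rw [Finset.sum_add_distrib, Finset.sum_const, nsmul_eq_mul, h.card, ← Finset.mul_sum, VV]
        ring
    _ ≤ _ := by unfold Par.Db; linarith [h.V]

theorem Bnd.sum_dm (h : Bnd S K s p) : ∑ a ∈ S, (bb K a - 1) ^ 2 ≤ p.Dm := by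
  calc _ ≤ ∑ a ∈ S, (2 * p.μ ^ 2 + 2 * (bb K a - p.ρ) ^ 2) :=
        Finset.sum_le_sum fun a _ => by
          unfold Par.μ; nlinarith [sq_nonneg (bb K a - p.ρ + (1 - p.ρ))]
    _ = 2 * VV S K p.ρ + 2 * p.N * p.μ ^ 2 := by
        rw [Finset.sum_add_distrib, Finset.sum_const, nsmul_eq_mul, h.card, ← Finset.mul_sum, VV]
        ring
    _ ≤ _ := by unfold Par.Dm; linarith [h.V]

/-- `∑ δ̃ = p₂ - N ρ` -/
theorem Bnd.sum_dt (h : Bnd S K s p) : ∑ a ∈ S, (bb K a - p.ρ) = pk K 2 - p.N * p.ρ := by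
  rw [Finset.sum_sub_distrib, h.toSide.sum_bb, Finset.sum_const, nsmul_eq_mul, h.card]

/-- splitting according to `b ≤ 2` or `b > 2` -/
theorem Bnd.sum_split (h : Bnd S K s p) {f g : ι → ℝ} {C : ℝ} (hC : 0 ≤ C) (hg : ∀ a, 0 ≤ g a)
    (h1 : ∀ a, bb K a ≤ 2 → f a ≤ g a) (h2 : ∀ a, f a ≤ C * bb K a ^ 2) :
    ∑ a, f a ≤ ∑ a, g a + 4 * C * p.V := by
  have e : VV S K p.ρ = ∑ a, if a ∈ S then (bb K a - p.ρ) ^ 2 else 0 := by
    simp only [VV, Finset.sum_ite_mem, Finset.univ_inter]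
  calc _ ≤ ∑ a, (g a + 4 * C * if a ∈ S then (bb K a - p.ρ) ^ 2 else 0) := by
        refine Finset.sum_le_sum fun a _ => ?_
        by_cases hb : bb K a ≤ 2
        · have : 0 ≤ 4 * C * if a ∈ S then (bb K a - p.ρ) ^ 2 else 0 := by positivity
          linarith [h1 a hb]
        · have ha : a ∈ S := by
            by_contra ha
            rw [h.toSide.bb_supp a ha] at hb
            norm_num at hb
          rw [if_pos ha]
          have a1 : bb K a ^ 2 ≤ 4 * (bb K a - p.ρ) ^ 2 := by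
            nlinarith [h.ρ0, h.ρ1, not_le.1 hb]
          have a2 := mul_le_mul_of_nonneg_left a1 hC
          linarith [h2 a, hg a]
    _ = ∑ a, g a + 4 * C * VV S K p.ρ := by
        rw [Finset.sum_add_distrib, ← Finset.mul_sum, e]
    _ ≤ _ := by
        have := mul_le_mul_of_nonneg_left h.V (by positivity : 0 ≤ 4 * C)
        linarith

/-- if `b ≤ 2` use `b α₄ ≤ 2 α₄`; otherwise `b α₄ ≤ Λ² b² ≤ 4 Λ² (b - ρ)²` -/
theorem Bnd.sum_b_a4 (h : Bnd S K s p) : ∑ a, bb K a * (K ^ 4) a a ≤ p.a3 := by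
  have hΛ := h.nn.Λ
  have := h.sum_split (f := fun a => bb K a * (K ^ 4) a a) (g := fun a => 2 * (K ^ 4) a a)
    (C := p.Λ ^ 2) (by positivity)
    (fun a => mul_nonneg zero_le_two (pow_even_diag_nonneg h.symm 2 a))
    (fun a ha => mul_le_mul_of_nonneg_right ha (pow_even_diag_nonneg h.symm 2 a))
    (fun a => by
      have h1 := (le_abs_self _).trans (h.op.abs_diag_le h.symm hΛ 2 a)
      have h2 := mul_le_mul_of_nonneg_left h1 (bb_nonneg h.symm a)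
      calc _ ≤ _ := h2
        _ = _ := by ring)
  rw [← Finset.mul_sum, ← pk_eq_sum] at this
  unfold Par.a3
  linarith [h.P4]

/-- `α₃² ≤ b α₄` -/
theorem Bnd.sum_a3_sq (h : Bnd S K s p) : ∑ a, (K ^ 3) a a ^ 2 ≤ p.a3 := by
  refine le_trans (Finset.sum_le_sum fun a _ => ?_) h.sum_b_a4
  exact pow_add_sq_le h.symm 1 2 a a

/-- if `b ≤ 2` use `α_k² ≤ b α_{2k-2}`; otherwise `α_k² ≤ Λ^(2k-4) b² ≤ 4 Λ^(2k-4) (b - ρ)²` -/
theorem Bnd.sum_ak_sq (h : Bnd S K s p) (k : ℕ) :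
    ∑ a, (K ^ (k + 4)) a a ^ 2 ≤ p.Λ ^ (2 * k + 4) * p.B := by
  have hΛ := h.nn.Λ
  have := h.sum_split (f := fun a => (K ^ (k + 4)) a a ^ 2)
    (g := fun a => 2 * (K ^ (2 * (k + 3))) a a) (C := p.Λ ^ (2 * k + 4)) (by positivity)
    (fun a => mul_nonneg zero_le_two (pow_even_diag_nonneg h.symm _ a))
    (fun a ha => by
      have h1 := pow_add_sq_le h.symm 1 (k + 3) a a
      rw [show 1 + (k + 3) = k + 4 by ring] at h1
      exact h1.trans (mul_le_mul_of_nonneg_right ha (pow_even_diag_nonneg h.symm _ a)))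
    (fun a => by
      have h1 := h.op.pow_entry_sq_le h.symm (k + 2) a a
      calc _ ≤ _ := h1
        _ = _ := by ring)
  rw [← Finset.mul_sum, ← pk_eq_sum] at this
  have h2 := h.pk_even_le k
  have e : p.Λ ^ (2 * (k + 3)) = p.Λ ^ (2 * k + 4) * p.Λ ^ 2 := by ring
  unfold Par.B
  rw [e] at h2
  linarith

/-- write `b = ρ + δ̃` on `S`; `2 ρ ∑ b δ̃ ≤ Db + V`; `∑ K² δ̃ δ̃ ≤ √W V ≤ sw V` -/
theorem Bnd.sum_om (h : Bnd S K s p) (hg : Glob p) :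
    ∑ c, ∑ d, K c d ^ 2 * (bb K c * bb K d) ≤ p.Om := by
  set e : ι → ℝ := fun c => if c ∈ S then bb K c - p.ρ else 0 with he
  have hV : ∑ c, e c ^ 2 ≤ p.V := by
    refine le_trans (le_of_eq ?_) h.V
    simp only [he, VV, ite_pow, ne_eq, OfNat.ofNat_ne_zero, not_false_eq_true, zero_pow,
      Finset.sum_ite_mem, Finset.univ_inter]
  have h1 : ∀ c d, K c d ^ 2 * (bb K c * bb K d) = p.ρ ^ 2 * K c d ^ 2 +
      (p.ρ * e c * K c d ^ 2 + p.ρ * e d * K c d ^ 2) + K c d ^ 2 * (e c * e d) := by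
    intro c d
    by_cases hc : c ∈ S
    · by_cases hd : d ∈ S
      · simp only [he, if_pos hc, if_pos hd]; ring
      · rw [h.toSide.supp' c d hd]; ring
    · rw [h.supp c d hc]; ring
  simp only [h1, Finset.sum_add_distrib]
  have h2 : ∑ c, ∑ d, p.ρ ^ 2 * K c d ^ 2 ≤ p.Qb := by
    simp only [← Finset.mul_sum]
    have a1 : p.ρ ^ 2 ≤ 1 := by nlinarith [h.ρ0, h.ρ1]
    have a2 := mul_le_mul_of_nonneg_right a1 (fro_nonneg K)
    have a3 := h.fro_one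
    unfold fro at a2 a3
    linarith
  have h3 : ∑ c, ∑ d, p.ρ * e c * K c d ^ 2 = ∑ c, p.ρ * e c * bb K c :=
    Finset.sum_congr rfl fun c _ => by rw [← Finset.mul_sum, bb_eq h.symm]
  have h4 : ∑ c, ∑ d, p.ρ * e d * K c d ^ 2 = ∑ c, p.ρ * e c * bb K c := by
    rw [Finset.sum_comm]
    exact Finset.sum_congr rfl fun c _ => by rw [← Finset.mul_sum, bb_eq' h.symm]
  have h5 : ∑ c, 2 * (p.ρ * e c * bb K c) ≤ ∑ c, (bb K c ^ 2 + e c ^ 2) := by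
    refine Finset.sum_le_sum fun c _ => ?_
    have a1 : p.ρ ^ 2 ≤ 1 := by nlinarith [h.ρ0, h.ρ1]
    nlinarith [sq_nonneg (p.ρ * e c - bb K c), mul_le_mul_of_nonneg_right a1 (sq_nonneg (e c))]
  rw [← Finset.mul_sum, Finset.sum_add_distrib] at h5
  have h6 : ∑ c, ∑ d, K c d ^ 2 * (e c * e d) ≤ p.sw * p.V := by
    have a1 := Finset.sum_mul_sq_le_sq_mul_sq univ (fun q : ι × ι => K q.1 q.2 ^ 2)
      (fun q => e q.1 * e q.2)
    simp only [Fintype.sum_prod_type] at a1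
    have a2 : ∑ c, ∑ d, (K c d ^ 2) ^ 2 = WW K := by
      unfold WW ww
      exact Finset.sum_congr rfl fun c _ => Finset.sum_congr rfl fun d _ => by ring
    have a3 : ∑ c, ∑ d, (e c * e d) ^ 2 = (∑ c, e c ^ 2) ^ 2 := by
      rw [_root_.sq (∑ c, e c ^ 2), Finset.sum_mul_sum]
      exact Finset.sum_congr rfl fun c _ => Finset.sum_congr rfl fun d _ => by ring
    rw [a2, a3] at a1
    refine (abs_le_of_sq_le_sq' (a1.trans ?_) (mul_nonneg hg.sw0 h.nn.V)).2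
    rw [mul_pow]
    exact mul_le_mul (h.W.trans hg.H13) (pow_le_pow_left₀ (by positivity) hV 2) (by positivity)
      (by positivity)
  rw [h3, h4]
  unfold Par.Om
  linarith [h.sum_bb_sq]

end Bnd

end Crest.Agent.R62
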