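import Crest.Agent.R62.Mob2
import Crest.Agent.R62.Derive
import Crest.Agent.R62.InvMob

/-!
# Row 62: the Möbius step, `VV`, `DD` and the potential
-/

set_option autoImplicit false

open Finset Matrix

noncomputable section

namespace Crest.Agent.R62

variable {ι V : Type} [Fintype ι] [DecidableEq ι] [Fintype V] [DecidableEq V]
variable {S : Finset ι} {K : Mat ι} {s : ℝ} {p : Par} {q : MPar}

/-! ### Entrywise helpers -/

section Help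
variable {M : ℝ}

theorem mob3_sq5 (a b c d e : ℝ) :
    (a + b + c + d + e) ^ 2 ≤ 5 * (a ^ 2 + b ^ 2 + c ^ 2 + d ^ 2 + e ^ 2) := by
  nlinarith [sq_nonneg (a - b), sq_nonneg (a - c), sq_nonneg (a - d), sq_nonneg (a - e),
    sq_nonneg (b - c), sq_nonneg (b - d), sq_nonneg (b - e), sq_nonneg (c - d), sq_nonneg (c - e),
    sq_nonneg (d - e)]

theorem mob3_sq4 (a b c d : ℝ) :
    (a + b + c + d) ^ 2 ≤ 4 * (a ^ 2 + b ^ 2 + c ^ 2 + d ^ 2) := by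
  nlinarith [sq_nonneg (a - b), sq_nonneg (a - c), sq_nonneg (a - d),
    sq_nonneg (b - c), sq_nonneg (b - d), sq_nonneg (c - d)]

theorem mob3_sq6 (a b c d e f : ℝ) :
    (a + b + c + d + e + f) ^ 2 ≤ 6 * (a ^ 2 + b ^ 2 + c ^ 2 + d ^ 2 + e ^ 2 + f ^ 2) := by
  nlinarith [sq_nonneg (a - b), sq_nonneg (a - c), sq_nonneg (a - d), sq_nonneg (a - e),
    sq_nonneg (a - f), sq_nonneg (b - c), sq_nonneg (b - d), sq_nonneg (b - e), sq_nonneg (b - f),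
    sq_nonneg (c - d), sq_nonneg (c - e), sq_nonneg (c - f), sq_nonneg (d - e), sq_nonneg (d - f),
    sq_nonneg (e - f)]

/-- the entries of `mob K - K` on `S` -/
def mobY (S : Finset ι) (K : Mat ι) (s M : ℝ) (c d : ι) : ℝ :=
  (if c = d then mobτ K M + mobl S K s M else 0) + -(mobτ K M ^ 2 * K c d) +
    -((1 - mobτ K M ^ 2) * mobτ K M * (K ^ 2) c d) +
    (1 - mobτ K M ^ 2) * mobτ K M ^ 2 * (K ^ 3) c d + -(mobc S K s M / S.card)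

/-- the diagonal of `K Y` -/
def mobKY (S : Finset ι) (K : Mat ι) (s M : ℝ) (c : ι) : ℝ :=
  (mobτ K M + mobl S K s M) * K c c + -(mobτ K M ^ 2 * bb K c) +
    -((1 - mobτ K M ^ 2) * mobτ K M * (K ^ 3) c c) +
    (1 - mobτ K M ^ 2) * mobτ K M ^ 2 * (K ^ 4) c c + -(s * (mobc S K s M / S.card))

theorem mob_apply_mem {c d : ι} (hc : c ∈ S) (hd : d ∈ S) :
    mob S K s M c d = K c d + mobY S K s M c d := by
  simp only [mob, mobY, mobc, Matrix.of_apply, hc, hd, and_self, if_true]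
  ring

theorem mob_apply_not {c d : ι} (hd : d ∉ S) : mob S K s M c d = 0 := by
  simp [mob, hd]

theorem Side.sum_mul_pow (h : Side S K s) (j : ℕ) (c : ι) :
    ∑ d ∈ S, K c d * (K ^ j) c d = (K ^ (1 + j)) c c := by
  rw [pow_add_apply h.symm 1 j c c]
  rw [Finset.sum_subset (Finset.subset_univ S)]
  · refine Finset.sum_congr rfl fun d _ => ?_
    rw [pow_one, h.symm c d, pow_symm h.symm j c d]
  · intro d _ hd
    rw [h.supp' c d hd, zero_mul]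

theorem Side.sum_sq_pow (h : Side S K s) (j : ℕ) (c : ι) :
    ∑ d ∈ S, (K ^ j) c d ^ 2 ≤ (K ^ (2 * j)) c c := by
  rw [← sum_pow_sq h.symm j c]
  exact Finset.sum_le_sum_of_subset_of_nonneg (Finset.subset_univ S) fun _ _ _ => sq_nonneg _

theorem Side.bb_mob (h : Side S K s) {c : ι} (hc : c ∈ S) :
    bb (R62.mob S K s M) c = bb K c + 2 * mobKY S K s M c + ∑ d ∈ S, mobY S K s M c d ^ 2 := by
  rw [bb_eq (mob_symm h.symm S s M) c, ← Finset.sum_subset (Finset.subset_univ S)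
    (fun d _ hd => by rw [mob_apply_not hd]; ring)]
  have h1 : ∑ d ∈ S, K c d * K c d = bb K c := by
    have := h.sum_mul_pow 1 c
    simp only [pow_one] at this
    exact this
  have h2 := h.sum_mul_pow 2 c
  have h3 := h.sum_mul_pow 3 c
  have h4 := h.row' c hc
  have h5 : ∑ d ∈ S, K c d * (if c = d then mobτ K M + mobl S K s M else 0) =
      (mobτ K M + mobl S K s M) * K c c := by
    simp only [mul_ite, mul_zero]
    rw [Finset.sum_ite_eq, if_pos hc, mul_comm]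
  have h6 : ∑ d ∈ S, K c d * mobY S K s M c d = mobKY S K s M c := by
    have : ∀ d ∈ S, K c d * mobY S K s M c d =
        K c d * (if c = d then mobτ K M + mobl S K s M else 0) +
          -(mobτ K M ^ 2) * (K c d * K c d) +
          -((1 - mobτ K M ^ 2) * mobτ K M) * (K c d * (K ^ 2) c d) +
          (1 - mobτ K M ^ 2) * mobτ K M ^ 2 * (K c d * (K ^ 3) c d) +
          -(mobc S K s M / S.card) * K c d := by
      intro d _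
      simp only [mobY]
      ring
    rw [Finset.sum_congr rfl this]
    simp only [Finset.sum_add_distrib, ← Finset.mul_sum]
    rw [h1, h2, h3, h4, h5]
    simp only [mobKY]
    norm_num
    ring
  have : ∀ d ∈ S, R62.mob S K s M c d ^ 2 =
      K c d * K c d + 2 * (K c d * mobY S K s M c d) + mobY S K s M c d ^ 2 := by
    intro d hd
    rw [mob_apply_mem hc hd]
    ring
  rw [Finset.sum_congr rfl this]
  simp only [Finset.sum_add_distrib, ← Finset.mul_sum]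
  rw [h1, h6]

/-- `α₆ ≤ Λ² α₄` -/
theorem Bnd.a6_le (h : Bnd S K s p) (c : ι) : (K ^ 6) c c ≤ p.Λ ^ 2 * (K ^ 4) c c := by
  have h1 := h.op (fun d => (K ^ 2) d c)
  have e1 : (K *ᵥ fun d => (K ^ 2) d c) = fun d => (K ^ 3) d c := by
    funext d
    rw [show (3 : ℕ) = 2 + 1 from rfl, pow_succ' K 2, Matrix.mul_apply]
    rfl
  rw [e1] at h1
  have e2 := pow_add_apply h.symm 3 3 c c
  have e3 := pow_add_apply h.symm 2 2 c c
  simp only [dotProduct] at h1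
  rw [← e2, ← e3] at h1
  exact h1

theorem Bnd.a4_le (h : Bnd S K s p) (c : ι) : (K ^ 4) c c ≤ p.Λ ^ 2 * bb K c :=
  (le_abs_self _).trans (OpLe.abs_diag_le h.symm h.op h.nn.Λ 2 c)

omit [DecidableEq ι] in
theorem sum_mem_le {f : ι → ℝ} (S : Finset ι) (hf : ∀ c, 0 ≤ f c) : ∑ c ∈ S, f c ≤ ∑ c, f c :=
  Finset.sum_le_sum_of_subset_of_nonneg (Finset.subset_univ S) fun c _ _ => hf c

theorem mob3_KY_pt {τ l a0 τb Λ e s α b a3 a4 : ℝ} (h0 : 0 < τ) (hτb : τ ≤ τb)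
    (hΛ : τ * Λ ≤ 1 / 2) (hΛ0 : 0 ≤ Λ) (hτa : τ ≤ a0) (ha : a0 ≤ 1 / 10) (hl0 : 0 ≤ l) (hla : l ≤ a0)
    (hs : s ^ 2 = 1) (hα : α ^ 2 ≤ b) (hb : 0 ≤ b) (h4 : 0 ≤ a4) (h4b : a4 ≤ Λ ^ 2 * b) :
    ((τ + l) * α + -(τ ^ 2 * b) + -((1 - τ ^ 2) * τ * a3) + (1 - τ ^ 2) * τ ^ 2 * a4 + -(s * e)) ^ 2 ≤
      5 * (4 * a0 ^ 2 * b + τb ^ 4 * b ^ 2 + τb ^ 2 * a3 ^ 2 + τb ^ 2 * (b * a4) + e ^ 2) := by
  refine (mob3_sq5 _ _ _ _ _).trans ?_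
  have hτ1 : τ ≤ 1 := by linarith
  have hu0 : 0 ≤ 1 - τ ^ 2 := by nlinarith
  have hu1 : 1 - τ ^ 2 ≤ 1 := by nlinarith
  have hu2 : (1 - τ ^ 2) ^ 2 ≤ 1 := by nlinarith
  have hτ2 : τ ^ 2 ≤ τb ^ 2 := by gcongr
  have hτ4 : τ ^ 4 ≤ τb ^ 4 := by gcongr
  have e1 : ((τ + l) * α) ^ 2 ≤ 4 * a0 ^ 2 * b := by
    rw [mul_pow]
    have : (τ + l) ^ 2 ≤ 4 * a0 ^ 2 := by nlinarith
    exact mul_le_mul this hα (sq_nonneg _) (by positivity)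
  have e2 : (-(τ ^ 2 * b)) ^ 2 ≤ τb ^ 4 * b ^ 2 := by
    have : (-(τ ^ 2 * b)) ^ 2 = τ ^ 4 * b ^ 2 := by ring
    rw [this]
    exact mul_le_mul_of_nonneg_right hτ4 (sq_nonneg _)
  have e3 : (-((1 - τ ^ 2) * τ * a3)) ^ 2 ≤ τb ^ 2 * a3 ^ 2 := by
    have : (-((1 - τ ^ 2) * τ * a3)) ^ 2 = ((1 - τ ^ 2) ^ 2 * τ ^ 2) * a3 ^ 2 := by ring
    rw [this]
    refine mul_le_mul_of_nonneg_right ?_ (sq_nonneg _)
    nlinarith [sq_nonneg τ]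
  have e4 : ((1 - τ ^ 2) * τ ^ 2 * a4) ^ 2 ≤ τb ^ 2 * (b * a4) := by
    have t1 : τ ^ 2 * a4 ≤ b := by
      have : (τ * Λ) ^ 2 ≤ 1 := by nlinarith [mul_nonneg h0.le hΛ0]
      calc τ ^ 2 * a4 ≤ τ ^ 2 * (Λ ^ 2 * b) := by gcongr
        _ = (τ * Λ) ^ 2 * b := by ring
        _ ≤ 1 * b := by gcongr
        _ = b := one_mul b
    calc ((1 - τ ^ 2) * τ ^ 2 * a4) ^ 2 = (1 - τ ^ 2) ^ 2 * (τ ^ 2 * ((τ ^ 2 * a4) * a4)) := by ring
      _ ≤ 1 * (τb ^ 2 * (b * a4)) := by gcongr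
      _ = _ := one_mul _
  have e5 : (-(s * e)) ^ 2 = e ^ 2 := by
    have : (-(s * e)) ^ 2 = s ^ 2 * e ^ 2 := by ring
    rw [this, hs, one_mul]
  linarith

theorem MCtx.e_sq (h : MCtx S K s p q) :
    p.N * (mobc S K s q.M / S.card) ^ 2 ≤ 9 * q.a0 ^ 2 := by
  have hs := h.scal
  have hN := h.cm.N2
  rw [h.bnd.card]
  have h1 : mobc S K s q.M ^ 2 ≤ (3 * q.a0) ^ 2 := by
    rw [← sq_abs]
    exact pow_le_pow_left₀ (abs_nonneg _) hs.c 2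
  have : p.N * (mobc S K s q.M / p.N) ^ 2 = mobc S K s q.M ^ 2 / p.N := by
    field_simp
  rw [this, div_le_iff₀ (by linarith)]
  nlinarith [sq_nonneg q.a0]

theorem MCtx.sum_KY (h : MCtx S K s p q) : ∑ c ∈ S, mobKY S K s q.M c ^ 2 ≤ 65 * q.Ev := by
  have hs := h.scal
  have hb := h.bnd
  have hn := hb.nn
  have hsy := hb.symm
  have hpt : ∀ c ∈ S, mobKY S K s q.M c ^ 2 ≤
      5 * (4 * q.a0 ^ 2 * bb K c + q.τb ^ 4 * bb K c ^ 2 + q.τb ^ 2 * (K ^ 3) c c ^ 2 +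
        q.τb ^ 2 * (bb K c * (K ^ 4) c c) + (mobc S K s q.M / S.card) ^ 2) := fun c _ =>
    mob3_KY_pt hs.τ0 hs.τb hs.τΛ hn.Λ hs.τa hs.a0 hs.l0 hs.la hb.toSide.sq (sq_le_bb hsy c c)
      (bb_nonneg hsy c) (pow_even_diag_nonneg hsy 2 c) (hb.a4_le c)
  refine (Finset.sum_le_sum hpt).trans ?_
  simp only [Finset.sum_add_distrib, ← Finset.mul_sum, Finset.sum_const, nsmul_eq_mul]
  have e1 : ∑ c ∈ S, bb K c ≤ p.Qb := by rw [hb.toSide.sum_bb]; exact hb.Q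
  have e2 : ∑ c ∈ S, bb K c ^ 2 ≤ p.Db := (sum_mem_le S fun c => sq_nonneg _).trans hb.sum_bb_sq
  have e3 : ∑ c ∈ S, (K ^ 3) c c ^ 2 ≤ p.a3 :=
    (sum_mem_le S fun c => sq_nonneg _).trans hb.sum_a3_sq
  have e4 : ∑ c ∈ S, bb K c * (K ^ 4) c c ≤ p.a3 :=
    (sum_mem_le S fun c => mul_nonneg (bb_nonneg hsy c) (pow_even_diag_nonneg hsy 2 c)).trans
      hb.sum_b_a4
  have e5 := h.e_sq
  rw [← hb.card] at e5
  have f1 := mul_le_mul_of_nonneg_left e1 (by positivity : 0 ≤ 4 * q.a0 ^ 2)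
  have f2 := mul_le_mul_of_nonneg_left e2 (by positivity : 0 ≤ q.τb ^ 4)
  have f3 := mul_le_mul_of_nonneg_left e3 (by positivity : 0 ≤ q.τb ^ 2)
  have f4 := mul_le_mul_of_nonneg_left e4 (by positivity : 0 ≤ q.τb ^ 2)
  have f5 : q.a0 ^ 2 ≤ q.a0 ^ 2 * p.Qb := le_mul_of_one_le_right (sq_nonneg _) h.cm.Q1
  have g1 : 0 ≤ q.a0 ^ 2 * p.Qb := mul_nonneg (sq_nonneg _) hn.Qb
  have g2 : 0 ≤ q.τb ^ 4 * p.Db := mul_nonneg (by positivity) hn.Db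
  have g3 : 0 ≤ q.τb ^ 2 * p.a3 := mul_nonneg (by positivity) hn.a3
  have := h.cm.M23
  nlinarith

theorem mob3_Y_pt {τ l e k1 k2 k3 : ℝ} {P : Prop} [Decidable P] (h0 : 0 < τ) (h1 : τ ≤ 1) :
    ((if P then τ + l else 0) + -(τ ^ 2 * k1) + -((1 - τ ^ 2) * τ * k2) +
      (1 - τ ^ 2) * τ ^ 2 * k3 + -e) ^ 2 ≤
      5 * ((if P then (τ + l) ^ 2 else 0) + τ ^ 4 * k1 ^ 2 + τ ^ 2 * k2 ^ 2 + τ ^ 4 * k3 ^ 2 + e ^ 2) := by
  refine (mob3_sq5 _ _ _ _ _).trans ?_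
  have hu0 : 0 ≤ 1 - τ ^ 2 := by nlinarith
  have hu1 : 1 - τ ^ 2 ≤ 1 := by nlinarith
  have hu2 : (1 - τ ^ 2) ^ 2 ≤ 1 := by nlinarith
  have e1 : (if P then τ + l else 0) ^ 2 = if P then (τ + l) ^ 2 else 0 := by
    split_ifs <;> simp
  have e2 : (-(τ ^ 2 * k1)) ^ 2 = τ ^ 4 * k1 ^ 2 := by ring
  have e3 : (-((1 - τ ^ 2) * τ * k2)) ^ 2 ≤ τ ^ 2 * k2 ^ 2 := by
    calc (-((1 - τ ^ 2) * τ * k2)) ^ 2 = (1 - τ ^ 2) ^ 2 * (τ ^ 2 * k2 ^ 2) := by ring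
      _ ≤ 1 * (τ ^ 2 * k2 ^ 2) := by gcongr
      _ = _ := one_mul _
  have e4 : ((1 - τ ^ 2) * τ ^ 2 * k3) ^ 2 ≤ τ ^ 4 * k3 ^ 2 := by
    calc ((1 - τ ^ 2) * τ ^ 2 * k3) ^ 2 = (1 - τ ^ 2) ^ 2 * (τ ^ 4 * k3 ^ 2) := by ring
      _ ≤ 1 * (τ ^ 4 * k3 ^ 2) := by gcongr
      _ = _ := one_mul _
  have e5 : (-e) ^ 2 = e ^ 2 := by ring
  linarith

theorem MCtx.row_Y (h : MCtx S K s p q) {c : ι} (hc : c ∈ S) :
    ∑ d ∈ S, mobY S K s q.M c d ^ 2 ≤ 5 * (4 * q.a0 ^ 2 + mobτ K q.M ^ 4 * bb K c +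
      2 * (mobτ K q.M ^ 2 * (K ^ 4) c c) + 9 * q.a0 ^ 2) := by
  have hs := h.scal
  have hb := h.bnd
  have hn := hb.nn
  have hτ1 : mobτ K q.M ≤ 1 := by linarith [hs.τa, hs.a0]
  have hpt : ∀ d ∈ S, mobY S K s q.M c d ^ 2 ≤
      5 * ((if c = d then (mobτ K q.M + mobl S K s q.M) ^ 2 else 0) + mobτ K q.M ^ 4 * K c d ^ 2 +
        mobτ K q.M ^ 2 * (K ^ 2) c d ^ 2 + mobτ K q.M ^ 4 * (K ^ 3) c d ^ 2 +
        (mobc S K s q.M / S.card) ^ 2) := fun d _ => mob3_Y_pt hs.τ0 hτ1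
  refine (Finset.sum_le_sum hpt).trans ?_
  simp only [Finset.sum_add_distrib, ← Finset.mul_sum, Finset.sum_const, nsmul_eq_mul]
  rw [Finset.sum_ite_eq, if_pos hc]
  have e1 : ∑ d ∈ S, K c d ^ 2 ≤ bb K c := by
    have := hb.toSide.sum_sq_pow 1 c
    simp only [pow_one] at this
    exact this
  have e2 : ∑ d ∈ S, (K ^ 2) c d ^ 2 ≤ (K ^ 4) c c := hb.toSide.sum_sq_pow 2 c
  have e3 : ∑ d ∈ S, (K ^ 3) c d ^ 2 ≤ (K ^ 6) c c := hb.toSide.sum_sq_pow 3 c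
  have e4 := hb.a6_le c
  have e5 := h.e_sq
  rw [← hb.card] at e5
  have a4 : 0 ≤ (K ^ 4) c c := pow_even_diag_nonneg hb.symm 2 c
  have f0 : (mobτ K q.M + mobl S K s q.M) ^ 2 ≤ 4 * q.a0 ^ 2 := by
    nlinarith [hs.τ0, hs.τa, hs.l0, hs.la]
  have f1 := mul_le_mul_of_nonneg_left e1 (by positivity : 0 ≤ mobτ K q.M ^ 4)
  have f2 := mul_le_mul_of_nonneg_left e2 (by positivity : 0 ≤ mobτ K q.M ^ 2)
  have f3 : mobτ K q.M ^ 4 * ∑ d ∈ S, (K ^ 3) c d ^ 2 ≤ mobτ K q.M ^ 2 * (K ^ 4) c c := by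
    have t : (mobτ K q.M * p.Λ) ^ 2 ≤ 1 := by
      nlinarith [mul_nonneg hs.τ0.le hn.Λ, hs.τΛ]
    calc mobτ K q.M ^ 4 * ∑ d ∈ S, (K ^ 3) c d ^ 2
        ≤ mobτ K q.M ^ 4 * (p.Λ ^ 2 * (K ^ 4) c c) :=
          mul_le_mul_of_nonneg_left (e3.trans e4) (by positivity)
      _ = (mobτ K q.M * p.Λ) ^ 2 * (mobτ K q.M ^ 2 * (K ^ 4) c c) := by ring
      _ ≤ 1 * (mobτ K q.M ^ 2 * (K ^ 4) c c) := by gcongr
      _ = _ := one_mul _
  linarith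

theorem MCtx.sum_YY (h : MCtx S K s p q) :
    ∑ c ∈ S, (∑ d ∈ S, mobY S K s q.M c d ^ 2) ^ 2 ≤ 1000 * q.Ev := by
  have hs := h.scal
  have hb := h.bnd
  have hn := hb.nn
  have hsy := hb.symm
  have hτ0 := hs.τ0
  have hτ1 : mobτ K q.M ≤ 1 := by linarith [hs.τa, hs.a0]
  have ha0 : 0 ≤ q.a0 := hτ0.le.trans hs.τa
  have hpt : ∀ c ∈ S, (∑ d ∈ S, mobY S K s q.M c d ^ 2) ^ 2 ≤
      75 * (2 * q.a0 ^ 2 + q.τb ^ 4 * bb K c ^ 2 + 4 * q.τb ^ 2 * (bb K c * (K ^ 4) c c)) := by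
    intro c hc
    have h1 := h.row_Y hc
    have h0 : 0 ≤ ∑ d ∈ S, mobY S K s q.M c d ^ 2 := Finset.sum_nonneg fun _ _ => sq_nonneg _
    have a4 : 0 ≤ (K ^ 4) c c := pow_even_diag_nonneg hsy 2 c
    have b0 := bb_nonneg hsy c
    have h2 := pow_le_pow_left₀ h0 h1 2
    refine h2.trans ?_
    have e1 : (13 * q.a0 ^ 2) ^ 2 ≤ 2 * q.a0 ^ 2 := by
      have : q.a0 ^ 2 ≤ 1 / 100 := by nlinarith [hs.a0]
      nlinarith [sq_nonneg q.a0]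
    have e2 : (mobτ K q.M ^ 4 * bb K c) ^ 2 ≤ q.τb ^ 4 * bb K c ^ 2 := by
      have t1 : mobτ K q.M ^ 4 ≤ 1 := pow_le_one₀ hτ0.le hτ1
      have t2 : mobτ K q.M ^ 4 ≤ q.τb ^ 4 := pow_le_pow_left₀ hτ0.le hs.τb 4
      calc (mobτ K q.M ^ 4 * bb K c) ^ 2 = mobτ K q.M ^ 4 * (mobτ K q.M ^ 4 * bb K c ^ 2) := by ring
        _ ≤ 1 * (q.τb ^ 4 * bb K c ^ 2) := by gcongr
        _ = _ := one_mul _
    have e3 : (2 * (mobτ K q.M ^ 2 * (K ^ 4) c c)) ^ 2 ≤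
        4 * q.τb ^ 2 * (bb K c * (K ^ 4) c c) := by
      have t : (mobτ K q.M * p.Λ) ^ 2 ≤ 1 := by
        nlinarith [mul_nonneg hs.τ0.le hn.Λ, hs.τΛ]
      have t1 : mobτ K q.M ^ 2 * (K ^ 4) c c ≤ bb K c :=
        calc mobτ K q.M ^ 2 * (K ^ 4) c c ≤ mobτ K q.M ^ 2 * (p.Λ ^ 2 * bb K c) :=
              mul_le_mul_of_nonneg_left (hb.a4_le c) (by positivity)
          _ = (mobτ K q.M * p.Λ) ^ 2 * bb K c := by ring
          _ ≤ 1 * bb K c := by gcongr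
          _ = _ := one_mul _
      have t2 : mobτ K q.M ^ 2 ≤ q.τb ^ 2 := pow_le_pow_left₀ hτ0.le hs.τb 2
      calc (2 * (mobτ K q.M ^ 2 * (K ^ 4) c c)) ^ 2
          = 4 * mobτ K q.M ^ 2 * ((mobτ K q.M ^ 2 * (K ^ 4) c c) * (K ^ 4) c c) := by ring
        _ ≤ 4 * q.τb ^ 2 * (bb K c * (K ^ 4) c c) := by gcongr
    generalize mobτ K q.M ^ 4 * bb K c = x at *
    generalize 2 * (mobτ K q.M ^ 2 * (K ^ 4) c c) = y at *
    have e4 : (5 * (4 * q.a0 ^ 2 + x + y + 9 * q.a0 ^ 2)) ^ 2 ≤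
        75 * ((13 * q.a0 ^ 2) ^ 2 + x ^ 2 + y ^ 2) := by
      nlinarith [sq_nonneg (13 * q.a0 ^ 2 - x), sq_nonneg (13 * q.a0 ^ 2 - y), sq_nonneg (x - y)]
    linarith
  refine (Finset.sum_le_sum hpt).trans ?_
  simp only [Finset.sum_add_distrib, ← Finset.mul_sum, Finset.sum_const, nsmul_eq_mul]
  have e2 : ∑ c ∈ S, bb K c ^ 2 ≤ p.Db := (sum_mem_le S fun c => sq_nonneg _).trans hb.sum_bb_sq
  have e4 : ∑ c ∈ S, bb K c * (K ^ 4) c c ≤ p.a3 :=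
    (sum_mem_le S fun c => mul_nonneg (bb_nonneg hsy c) (pow_even_diag_nonneg hsy 2 c)).trans
      hb.sum_b_a4
  have f2 := mul_le_mul_of_nonneg_left e2 (by positivity : 0 ≤ q.τb ^ 4)
  have f4 := mul_le_mul_of_nonneg_left e4 (by positivity : 0 ≤ 4 * q.τb ^ 2)
  have g1 : 0 ≤ q.a0 ^ 2 * p.Qb := mul_nonneg (sq_nonneg _) hn.Qb
  have g2 : 0 ≤ q.τb ^ 4 * p.Db := mul_nonneg (by positivity) hn.Db
  have g3 : 0 ≤ q.τb ^ 2 * p.a3 := mul_nonneg (by positivity) hn.a3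
  have g4 : q.a0 ^ 2 * p.N ≤ q.Ev := by
    have := h.cm.M24
    simp only [MPar.Yf] at this
    have t1 : 0 ≤ q.τb ^ 2 * p.P4 := mul_nonneg (by positivity) hn.P4
    have t2 : 0 ≤ q.τb ^ 4 * (p.Qb + p.Λ ^ 6) :=
      mul_nonneg (by positivity) (add_nonneg hn.Qb (by positivity))
    linarith
  have := h.cm.M23
  rw [hb.card]
  nlinarith

end Help

/-- `b* - ρ' = (b - 1) + M/(N+M) + 2 (K Y) c c + (Y²) c c`;
`(K Y) c c = (τ+λ) α - τ² b - (1-τ²) τ α₃ + (1-τ²) τ² α₄ - s c`, `∑ α² ≤ Qb`, `τ⁴ α₄² ≤ τ² b α₄ / 4`;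
`(Y²) c c ≤ 5 (4 a0² + τ⁴ b + τ² α₄ + τ⁴ α₆ + 9 a0²/N)`, `τ² α₆ ≤ α₄/4`; `M21`–`M24` -/
theorem MCtx.VV_le (h : MCtx S K s p q) :
    VV S (mob S K s q.M) (p.N / (p.N + q.M)) ≤ 100000 * q.Ev := by
  have hb := h.bnd
  have hn := hb.nn
  have hN := h.cm.N2
  have hM := h.cm.M0
  have hpt : ∀ c ∈ S, (bb (mob S K s q.M) c - p.N / (p.N + q.M)) ^ 2 ≤
      4 * ((bb K c - p.ρ) ^ 2 + (q.M / (p.N + q.M)) ^ 2 + 4 * mobKY S K s q.M c ^ 2 +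
        (∑ d ∈ S, mobY S K s q.M c d ^ 2) ^ 2) := by
    intro c hc
    have e : bb (mob S K s q.M) c - p.N / (p.N + q.M) = (bb K c - p.ρ) + q.M / (p.N + q.M) +
        2 * mobKY S K s q.M c + ∑ d ∈ S, mobY S K s q.M c d ^ 2 := by
      rw [hb.toSide.bb_mob hc, h.cm.ρ1]
      have : p.N / (p.N + q.M) = 1 - q.M / (p.N + q.M) := by
        field_simp
        ring
      rw [this]
      ring
    rw [e]
    refine (mob3_sq4 _ _ _ _).trans (le_of_eq ?_)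
    ring
  refine (Finset.sum_le_sum hpt).trans ?_
  simp only [Finset.sum_add_distrib, ← Finset.mul_sum, Finset.sum_const, nsmul_eq_mul]
  have e1 : ∑ c ∈ S, (bb K c - p.ρ) ^ 2 ≤ q.Ev := hb.V.trans h.cm.M21
  have e2 : (S.card : ℝ) * (q.M / (p.N + q.M)) ^ 2 ≤ q.Ev := by
    rw [hb.card]
    have t1 : q.M / (p.N + q.M) ≤ q.M / p.N :=
      div_le_div_of_nonneg_left hM.le (by linarith) (by linarith)
    have t2 : (q.M / (p.N + q.M)) ^ 2 ≤ (q.M / p.N) ^ 2 :=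
      pow_le_pow_left₀ (by positivity) t1 2
    have t3 : p.N * (q.M / p.N) ^ 2 = q.M ^ 2 / p.N := by field_simp
    calc p.N * (q.M / (p.N + q.M)) ^ 2 ≤ p.N * (q.M / p.N) ^ 2 :=
          mul_le_mul_of_nonneg_left t2 hn.N
      _ = q.M ^ 2 / p.N := t3
      _ ≤ q.Ev := by
          rw [div_le_iff₀ (by linarith)]
          linarith [h.cm.M22]
  have e3 := h.sum_KY
  have e4 := h.sum_YY
  have e5 : 0 ≤ q.Ev := hn.V.trans h.cm.M21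
  linarith

/-- `α* = (1 - τ²) α + λ - τ (b - 1) + τ³ b + (1-τ²) τ² α₃ - c`; `M25`–`M29` -/
theorem MCtx.DD_le (h : MCtx S K s p q) : DD (mob S K s q.M) ≤ 1000 * q.Ed := by
  have hs := h.scal
  have hb := h.bnd
  have hn := hb.nn
  have hsy := hb.symm
  have hN := h.cm.N2
  have hτ0 := hs.τ0
  have hτ1 : mobτ K q.M ≤ 1 := by linarith [hs.τa, hs.a0]
  have hu0 : 0 ≤ 1 - mobτ K q.M ^ 2 := by nlinarith
  have hu2 : (1 - mobτ K q.M ^ 2) ^ 2 ≤ 1 := by nlinarith [sq_nonneg (mobτ K q.M)]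
  have hτ2 : mobτ K q.M ^ 2 ≤ q.τb ^ 2 := pow_le_pow_left₀ hτ0.le hs.τb 2
  have hτ4 : mobτ K q.M ^ 4 ≤ q.τb ^ 4 := pow_le_pow_left₀ hτ0.le hs.τb 4
  have hτ21 : mobτ K q.M ^ 2 ≤ 1 := pow_le_one₀ hτ0.le hτ1
  have hpt : ∀ c ∈ S, mob S K s q.M c c ^ 2 ≤
      6 * (K c c ^ 2 + mobl S K s q.M ^ 2 + q.τb ^ 2 * (bb K c - p.ρ) ^ 2 + q.τb ^ 4 * bb K c ^ 2 +
        q.τb ^ 4 * (K ^ 3) c c ^ 2 + (mobc S K s q.M / S.card) ^ 2) := by
    intro c hc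
    have e : mob S K s q.M c c = (1 - mobτ K q.M ^ 2) * K c c + mobl S K s q.M +
        -(mobτ K q.M * (bb K c - p.ρ)) + mobτ K q.M ^ 3 * bb K c +
        (1 - mobτ K q.M ^ 2) * mobτ K q.M ^ 2 * (K ^ 3) c c + -(mobc S K s q.M / S.card) := by
      rw [mob_apply_mem hc hc, h.cm.ρ1]
      simp only [mobY, bb, if_true]
      ring
    rw [e]
    refine (mob3_sq6 _ _ _ _ _ _).trans ?_
    have e1 : ((1 - mobτ K q.M ^ 2) * K c c) ^ 2 ≤ K c c ^ 2 := by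
      rw [mul_pow]
      exact mul_le_of_le_one_left (sq_nonneg _) hu2
    have e3 : (-(mobτ K q.M * (bb K c - p.ρ))) ^ 2 ≤ q.τb ^ 2 * (bb K c - p.ρ) ^ 2 := by
      rw [neg_sq, mul_pow]
      exact mul_le_mul_of_nonneg_right hτ2 (sq_nonneg _)
    have e4 : (mobτ K q.M ^ 3 * bb K c) ^ 2 ≤ q.τb ^ 4 * bb K c ^ 2 := by
      calc (mobτ K q.M ^ 3 * bb K c) ^ 2 = mobτ K q.M ^ 2 * (mobτ K q.M ^ 4 * bb K c ^ 2) := by ring
        _ ≤ 1 * (q.τb ^ 4 * bb K c ^ 2) := by gcongr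
        _ = _ := one_mul _
    have e5 : ((1 - mobτ K q.M ^ 2) * mobτ K q.M ^ 2 * (K ^ 3) c c) ^ 2 ≤
        q.τb ^ 4 * (K ^ 3) c c ^ 2 := by
      calc ((1 - mobτ K q.M ^ 2) * mobτ K q.M ^ 2 * (K ^ 3) c c) ^ 2
          = (1 - mobτ K q.M ^ 2) ^ 2 * (mobτ K q.M ^ 4 * (K ^ 3) c c ^ 2) := by ring
        _ ≤ 1 * (q.τb ^ 4 * (K ^ 3) c c ^ 2) := by gcongr
        _ = _ := one_mul _
    rw [neg_sq (mobc S K s q.M / S.card)]
    linarith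
  have hDD : DD (mob S K s q.M) = ∑ c ∈ S, mob S K s q.M c c ^ 2 := by
    rw [DD, ← Finset.sum_subset (Finset.subset_univ S)
      (fun d _ hd => by rw [mob_apply_not hd]; ring)]
  rw [hDD]
  refine (Finset.sum_le_sum hpt).trans ?_
  simp only [Finset.sum_add_distrib, ← Finset.mul_sum, Finset.sum_const, nsmul_eq_mul]
  have e1 : ∑ c ∈ S, K c c ^ 2 ≤ q.Ed :=
    ((sum_mem_le S fun c => sq_nonneg _).trans hb.sum_diag_sq).trans h.cm.M25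
  have e2 : (S.card : ℝ) * mobl S K s q.M ^ 2 ≤ 16 * q.Ed := by
    rw [hb.card]
    have t2 : mobl S K s q.M ^ 2 ≤ (4 * p.Fb / p.N) ^ 2 := pow_le_pow_left₀ hs.l0 hs.lF 2
    have t3 : p.N * (4 * p.Fb / p.N) ^ 2 = 16 * p.Fb ^ 2 / p.N := by
      field_simp
      ring
    calc p.N * mobl S K s q.M ^ 2 ≤ p.N * (4 * p.Fb / p.N) ^ 2 := mul_le_mul_of_nonneg_left t2 hn.N
      _ = 16 * p.Fb ^ 2 / p.N := t3
      _ ≤ 16 * q.Ed := by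
          rw [div_le_iff₀ (by linarith)]
          linarith [h.cm.M26]
  have e3 : q.τb ^ 2 * ∑ c ∈ S, (bb K c - p.ρ) ^ 2 ≤ q.Ed :=
    (mul_le_mul_of_nonneg_left hb.V (by positivity)).trans h.cm.M27
  have e4 : ∑ c ∈ S, bb K c ^ 2 ≤ p.Db := (sum_mem_le S fun c => sq_nonneg _).trans hb.sum_bb_sq
  have e5 : ∑ c ∈ S, (K ^ 3) c c ^ 2 ≤ p.a3 :=
    (sum_mem_le S fun c => sq_nonneg _).trans hb.sum_a3_sq
  have f4 := mul_le_mul_of_nonneg_left e4 (by positivity : 0 ≤ q.τb ^ 4)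
  have f5 := mul_le_mul_of_nonneg_left e5 (by positivity : 0 ≤ q.τb ^ 4)
  have e6 := h.e_sq
  rw [← hb.card] at e6
  have e7 : q.a0 ^ 2 ≤ 1 / 100 := by nlinarith [hs.a0, hτ0.le.trans hs.τa]
  have := h.cm.M28
  have := h.cm.M29
  nlinarith

theorem MobOK.ctx {sc sc' : Sc} (ho : MobOK p q sc sc') {Tc : ℝ} (h : Side S K s)
    (hN : (S.card : ℝ) = p.N) (hT : Tc = sc.Tp ∨ Tc = sc.Tm) (hp : PartsS sc S K Tc 1) :
    MCtx S K s p q := by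
  refine ⟨ho.der.bnd h hN hT hp, ho.cm, ?_, ?_⟩
  · have h1 := abs_le_of_sq ho.σT0 ho.kT hp.T
    have h2 := (abs_le.mp h1).1
    rcases hT with rfl | rfl
    · linarith [ho.Tp]
    · linarith [ho.Tm]
  · have h1 := abs_le_of_sq ho.der.σF0 ho.der.kF hp.F
    have h2 := (abs_le.mp h1).2
    linarith [ho.Sl]

theorem MobOK.main {sc sc' : Sc} (ho : MobOK p q sc sc') {vtx : ι → V} {d : ℕ} {z : ℝ}
    {st : St ι V} (hi : Inv vtx d z st) (hN : (st.S.card : ℝ) = p.N) (hΦ : Phi vtx sc st ≤ 1) :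
    Inv vtx d z (st.mob q.M) ∧ Phi vtx sc' (st.mob q.M) ≤ 1 / 8 := by
  have hp := parts_of ho.der.pos hi.sA.symm hi.sB.symm hΦ
  have cA : MCtx st.S st.A 1 p q := ho.ctx hi.sA hN (Or.inl rfl) hp.A
  have cB : MCtx st.S st.B (-1) p q := ho.ctx hi.sB hN (Or.inr rfl) hp.B
  have hS : st.S.Nonempty := by
    rw [← Finset.card_pos]
    have : (0 : ℝ) < st.S.card := by rw [hN]; linarith [ho.cm.N2]
    exact_mod_cast this
  have sA := cA.scal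
  have sB := cB.scal
  refine ⟨hi.mob hS sA.τ0.le (by linarith [sA.τa, sA.a0]) sA.l0 sB.τ0.le
    (by linarith [sB.τa, sB.a0]) sB.l0, ?_⟩
  have hpos := ho.pos'
  have side : ∀ {K : Mat ι} {s : ℝ}, MCtx st.S K s p q →
      phiS sc' st.S (mob st.S K s q.M) 0 ≤ 5 / 100 := by
    intro K s c
    have hn := c.bnd.nn
    simp only [phiS]
    rw [c.p1, ho.Fc', ho.ρ', hN]
    have e2 : sc'.kx * (pk (mob st.S K s q.M) 2 - p.N * (p.N / (p.N + q.M)) - 1) ^ 2 ≤ 1 / 100 := by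
      refine le_trans (mul_le_mul_of_nonneg_left ?_ hpos.kx) ho.kx'
      rw [← sq_abs]
      exact pow_le_pow_left₀ (abs_nonneg _) c.p2 2
    have e3 : sc'.kT * (pk (mob st.S K s q.M) 3 - 0) ^ 2 ≤ 1 / 100 := by
      refine le_trans (mul_le_mul_of_nonneg_left ?_ hpos.kT) ho.kT'
      rw [sub_zero, ← sq_abs]
      exact pow_le_pow_left₀ (abs_nonneg _) c.p3 2
    have e4 := (mul_le_mul_of_nonneg_left c.p6 hpos.kU).trans ho.kU'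
    have e5 := (mul_le_mul_of_nonneg_left c.VV_le hpos.kV).trans ho.kV'
    have e6 := (mul_le_mul_of_nonneg_left c.DD_le hpos.kD).trans ho.kD'
    have e1 : sc'.kF * (0 - 0) ^ 2 = 0 := by ring
    linarith
  have hA := side cA
  have hB := side cB
  have hW : sc'.kW * (WW (mob st.S st.A 1 q.M) + WW (mob st.S st.B (-1) q.M)) ≤ 1 / 100 := by
    refine le_trans (mul_le_mul_of_nonneg_left ?_ hpos.kW) ho.kW'
    linarith [cA.WW_le, cB.WW_le]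
  have hC : sc'.kC * CC vtx st.S st.G sc'.cy ≤ 1 / 100 := by
    rw [ho.cy']
    have h0 := CC_nonneg vtx st.S st.G ho.der.pos.cy
    have h1 := mul_le_mul_of_nonneg_right ho.kC' h0
    linarith [hp.C]
  simp only [Phi, St.mob]
  rw [ho.Tp', ho.Tm', ho.kX', zero_mul]
  linarith

end Crest.Agent.R62
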