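import Crest.Agent.R62.NumA1
import Crest.Agent.R62.AutoA
import Crest.Agent.R62.AutoT

/-! # Row 62: the conditions hold in phase A -/

set_option autoImplicit false

noncomputable section

namespace Crest.Agent.R62

theorem numA0 {y k N₀ T N : ℝ} (h : YOK y k N₀ T) (h1 : y ^ 9780 + 2 ≤ N) (h2 : N ≤ N₀)
    (h3 : 2 * y ^ 9780 + 2 ≤ N) : StepAt y (scA y N₀ T) N := by
  have y0 := h.y0
  have h1' : y ^ 9780 ≤ N := by linarith only [h1]
  have N0 : 0 < N := lt_of_lt_of_le (pow_pos y0 _) h1'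
  have hL : 0 ≤ N₀ / 4 := div_nonneg h.N0_pos.le (by norm_num)
  have pL : 0 < N + N₀ / 4 := by linarith only [N0, hL]
  have hu : N ≤ y ^ 12002 := by linarith only [h2, h.N0_hi, h.N0_pos]
  have hF : (scA y N₀ T (N - 2)).Fc = (scA y N₀ T N).Fc - 0 := by
    show -(max 0 (2 * y ^ 9780 - (N - 2)) / (2 * y ^ 5349)) =
      -(max 0 (2 * y ^ 9780 - N) / (2 * y ^ 5349)) - 0
    rw [max_eq_left (by linarith only [h3]), max_eq_left (by linarith only [h3]), sub_zero]
  obtain ⟨s, ys, hN⟩ := YS.exists_s h.y20 (show 9780 < 12002 by norm_num) h1' hu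
  have Nu : Up y s N 117360 144024 := (ys.up_of_eq hN).mono ys (by decide) (by decide)
  have Nl : Lo y s N 117360 144024 := (lo_of_eq hN).mono ys (by decide) (by decide)
  have hΛ : N ^ 3 / y ^ 48030 * (Pw y s 37380 24048) ^ 6 = 1 := ys.kU hN 48030 (by decide) (by decide)
  obtain ⟨p, hp⟩ : ∃ p, p = pA y N₀ N 0 1 (Pw y s (-72) (-72)) (Pw y s 37380 24048) (Pw y s 170796 144132)
      (Pw y s 197550 144222) (Pw y s 45366 72030) (Pw y s 170592 143928) (Pw y s 45510 72174)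
      (Pw y s 37452 42612) (Pw y s 117516 144180) (Pw y s 45522 72186) (Pw y s 37464 42624)
      (Pw y s 208416 288408) (Pw y s 144162 144162) := ⟨_, rfl⟩
  have E : EnvA p y s := hp ▸
    { ys := ys
      N_u := Nu
      N_l := Nl
      ρ_u := up_one y s
      μ_u := ys.up_zero (sub_self 1) _ _
      ε_u := ys.up_Pw _ _
      ε_l := lo_Pw _ _ _ _
      ζ_u := ys.up_y
      ζ_l := lo_y y s
      θ_u := ((up_one y s).div ys (lo_y y s)).mono ys (by decide) (by decide)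
      θ_l := ((lo_one y s).div ys ys.up_y y0).mono ys (by decide) (by decide)
      Λ_u := ys.up_Pw _ _
      Λ_l := lo_Pw _ _ _ _
      Fb_u := (ys.up_npow 4432).mono ys (by decide) (by decide)
      X_u := (ys.up_npow 7921).mono ys (by decide) (by decide)
      X_l := (lo_npow y s 7921).mono ys (by decide) (by decide)
      Qb_u := ((ys.up_c 2 (by norm_num) (by norm_num)).mul ys Nu).mono ys (by decide) (by decide)
      t_u := (ys.up_npow 12003).mono ys (by decide) (by decide)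
      P4_u := ys.up_Pw _ _
      P4_l := lo_Pw _ _ _ _
      P5_u := ys.up_Pw _ _
      P5_l := lo_Pw _ _ _ _
      V_u := (h.up_V ys N0.le h2 7560).mono ys (by decide) (by decide)
      V_l := (h.lo_V N0.le h2 7560).mono ys (by decide) (by decide)
      δ_u := (h.up_V ys N0.le h2 1000).mono ys (by decide) (by decide)
      δ_l := (h.lo_V N0.le h2 1000).mono ys (by decide) (by decide)
      W_u := ((Nu.pow ys 2).div ys (h.lo_L N0.le)).mono ys (by decide) (by decide)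
      W_l := ((Nl.pow ys 2).div ys (h.up_L ys N0.le h2) pL).mono ys (by decide) (by decide)
      sw_u := ys.up_Pw _ _
      sw_l := lo_Pw _ _ _ _
      Xb_u := (ys.up_npow 14214).mono ys (by decide) (by decide)
      Xb_l := (lo_npow y s 14214).mono ys (by decide) (by decide)
      γ_u := ys.up_zero rfl _ _
      dg_u := ys.up_y
      dg_l := lo_y y s
      κE_u := ys.up_Pw _ _
      κE_l := lo_Pw _ _ _ _
      κ2E_u := ys.up_Pw _ _
      κ2E_l := lo_Pw _ _ _ _
      nE_u := ys.up_Pw _ _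
      nE_l := lo_Pw _ _ _ _
      κ_u := ys.up_Pw _ _
      κ_l := lo_Pw _ _ _ _
      κ2_u := ys.up_Pw _ _
      κ2_l := lo_Pw _ _ _ _
      Ξ2_u := ys.up_Pw _ _
      Ξ2_l := lo_Pw _ _ _ _
      RF_u := ys.up_Pw _ _
      RF_l := lo_Pw _ _ _ _
      ω_u := ys.up_zero (sub_self 1) _ _
      cy_l := (lo_npow y s 2).mono ys (by decide) (by decide)
      σF_l := (lo_npow y s 4340).mono ys (by decide) (by decide)
      σx_u := (ys.up_npow 7920).mono ys (by decide) (by decide)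
      σx_l := (lo_npow y s 7920).mono ys (by decide) (by decide)
      σT_l := (lo_npow y s 11997).mono ys (by decide) (by decide) }
  have e1 : p.N = N ∧ p.θ = 1 / y ∧ p.dg = y := hp ▸ ⟨rfl, rfl, rfl⟩
  have e2 : p.Qb ≤ 2 * p.N ∧ p.W ≤ p.N ∧ 1 ≤ p.ω ∧ p.ω ≤ 2 := hp ▸ ⟨le_rfl, W_le_N N0 hL, le_rfl, one_le_two⟩
  exact ⟨p, e1.1, e1.2.1, e1.2.2, stepA h h1 hp hΛ
    (derA h h1' h2 hp hΛ E.X1 E.X2 E.L1 E.I1 E.I2 E.I3 E.I4) (E.gl e2.1 e2.2.1)
    (E.wt e2.2.2.1 e2.2.2.2) E.cF E.cQ E.cV E.cD E.cW E.cT E.cU E.cX E.S1 E.S2 E.S2c E.S3 hF (Or.inl rfl)⟩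

theorem numAt {y k N₀ T N : ℝ} (h : YOK y k N₀ T) (h1 : y ^ 9780 + 2 ≤ N) (h2 : N ≤ N₀)
    (h3 : N ≤ 2 * y ^ 9780) : StepAt y (scA y N₀ T) N := by
  have y0 := h.y0
  have h1' : y ^ 9780 ≤ N := by linarith only [h1]
  have N0 : 0 < N := lt_of_lt_of_le (pow_pos y0 _) h1'
  have hL : 0 ≤ N₀ / 4 := div_nonneg h.N0_pos.le (by norm_num)
  have pL : 0 < N + N₀ / 4 := by linarith only [N0, hL]
  have hu : N ≤ y ^ 9781 := h3.trans (mul_pow_le_y h.y20 (by norm_num) (by norm_num))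
  have hF : (scA y N₀ T (N - 2)).Fc = (scA y N₀ T N).Fc - (1 / y ^ 5349) := by
    show -(max 0 (2 * y ^ 9780 - (N - 2)) / (2 * y ^ 5349)) =
      -(max 0 (2 * y ^ 9780 - N) / (2 * y ^ 5349)) - 1 / y ^ 5349
    rw [max_eq_right (by linarith only [h3]), max_eq_right (by linarith only [h3])]
    have := pow_pos y0 5349
    generalize y ^ 5349 = c at this ⊢
    generalize y ^ 9780 = c'
    field_simp; ring
  obtain ⟨s, ys, hN⟩ := YS.exists_s h.y20 (show 9780 < 9781 by norm_num) h1' hu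
  have Nu : Up y s N 117360 117372 := (ys.up_of_eq hN).mono ys (by decide) (by decide)
  have Nl : Lo y s N 117360 117372 := (lo_of_eq hN).mono ys (by decide) (by decide)
  have hΛ : N ^ 3 / y ^ 48030 * (Pw y s 37380 37374) ^ 6 = 1 := ys.kU hN 48030 (by decide) (by decide)
  obtain ⟨p, hp⟩ : ∃ p, p = pA y N₀ N (1 / y ^ 5349) 2 (Pw y s (-72) (-72)) (Pw y s 37380 37374)
      (Pw y s 170796 170784) (Pw y s 197550 197526) (Pw y s 45366 45378) (Pw y s 170592 170580)
      (Pw y s 45510 45522) (Pw y s 37452 37446) (Pw y s 117516 117528) (Pw y s 74772 74760)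
      (Pw y s 37464 37458) (Pw y s 245592 245568) (Pw y s 144162 144162) := ⟨_, rfl⟩
  have E : EnvT p y s := hp ▸
    { ys := ys
      N_u := Nu
      N_l := Nl
      ρ_u := up_one y s
      μ_u := ys.up_zero (sub_self 1) _ _
      ε_u := ys.up_Pw _ _
      ε_l := lo_Pw _ _ _ _
      ζ_u := ys.up_y
      ζ_l := lo_y y s
      θ_u := ((up_one y s).div ys (lo_y y s)).mono ys (by decide) (by decide)
      θ_l := ((lo_one y s).div ys ys.up_y y0).mono ys (by decide) (by decide)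
      Λ_u := ys.up_Pw _ _
      Λ_l := lo_Pw _ _ _ _
      Fb_u := (ys.up_npow 4432).mono ys (by decide) (by decide)
      X_u := (ys.up_npow 7921).mono ys (by decide) (by decide)
      X_l := (lo_npow y s 7921).mono ys (by decide) (by decide)
      Qb_u := ((ys.up_c 2 (by norm_num) (by norm_num)).mul ys Nu).mono ys (by decide) (by decide)
      t_u := (ys.up_npow 12003).mono ys (by decide) (by decide)
      P4_u := ys.up_Pw _ _
      P4_l := lo_Pw _ _ _ _
      P5_u := ys.up_Pw _ _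
      P5_l := lo_Pw _ _ _ _
      V_u := (h.up_V ys N0.le h2 7560).mono ys (by decide) (by decide)
      V_l := (h.lo_V N0.le h2 7560).mono ys (by decide) (by decide)
      δ_u := (h.up_V ys N0.le h2 1000).mono ys (by decide) (by decide)
      δ_l := (h.lo_V N0.le h2 1000).mono ys (by decide) (by decide)
      W_u := ((Nu.pow ys 2).div ys (h.lo_L N0.le)).mono ys (by decide) (by decide)
      W_l := ((Nl.pow ys 2).div ys (h.up_L ys N0.le h2) pL).mono ys (by decide) (by decide)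
      sw_u := ys.up_Pw _ _
      sw_l := lo_Pw _ _ _ _
      Xb_u := (ys.up_npow 14214).mono ys (by decide) (by decide)
      Xb_l := (lo_npow y s 14214).mono ys (by decide) (by decide)
      γ_u := ((up_one y s).div ys (lo_npow y s 5349)).mono ys (by decide) (by decide)
      Pl_u := ys.up_Pw _ _
      Pl_l := lo_Pw _ _ _ _
      dg_u := ys.up_y
      dg_l := lo_y y s
      κE_u := ys.up_Pw _ _
      κE_l := lo_Pw _ _ _ _
      κ2E_u := ys.up_Pw _ _
      κ2E_l := lo_Pw _ _ _ _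
      nE_u := ys.up_Pw _ _
      nE_l := lo_Pw _ _ _ _
      κ_u := ys.up_Pw _ _
      κ_l := lo_Pw _ _ _ _
      κ2_u := ys.up_Pw _ _
      κ2_l := lo_Pw _ _ _ _
      Ξ2_u := ys.up_Pw _ _
      Ξ2_l := lo_Pw _ _ _ _
      RF_u := ys.up_Pw _ _
      RF_l := lo_Pw _ _ _ _
      ω_u := (up_one y s).of_le (by show (0 : ℝ) ≤ 2 - 1; norm_num) (by show (2 : ℝ) - 1 ≤ 1; norm_num)
      cy_l := (lo_npow y s 2).mono ys (by decide) (by decide)
      σF_l := (lo_npow y s 4340).mono ys (by decide) (by decide)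
      σx_u := (ys.up_npow 7920).mono ys (by decide) (by decide)
      σx_l := (lo_npow y s 7920).mono ys (by decide) (by decide)
      σT_l := (lo_npow y s 11997).mono ys (by decide) (by decide)
      Tl_l := (lo_npow y s 11999).mono ys (by decide) (by decide) }
  have e1 : p.N = N ∧ p.θ = 1 / y ∧ p.dg = y := hp ▸ ⟨rfl, rfl, rfl⟩
  have e2 : p.Qb ≤ 2 * p.N ∧ p.W ≤ p.N ∧ 1 ≤ p.ω ∧ p.ω ≤ 2 := hp ▸ ⟨le_rfl, W_le_N N0 hL, one_le_two, le_rfl⟩
  exact ⟨p, e1.1, e1.2.1, e1.2.2, stepA h h1 hp hΛ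
    (derA h h1' h2 hp hΛ E.X1 E.X2 E.L1 E.I1 E.I2 E.I3 E.I4) (E.gl e2.1 e2.2.1)
    (E.wt e2.2.2.1 e2.2.2.2) E.cF E.cQ E.cV E.cD E.cW E.cT E.cU E.cX E.S1 E.S2 E.S2c E.S3 hF 
    (Or.inr ⟨E.cG (hp ▸ rfl), E.PT⟩)⟩

theorem numA {y k N₀ T N : ℝ} (h : YOK y k N₀ T) (h1 : y ^ 9780 + 2 ≤ N) (h2 : N ≤ N₀)
    (h3 : N ≤ 2 * y ^ 9780 ∨ 2 * y ^ 9780 + 2 ≤ N) : StepAt y (scA y N₀ T) N :=
  h3.elim (numAt h h1 h2) (numA0 h h1 h2)

end Crest.Agent.R62
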