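import Crest.Agent.R62.NumA1
import Crest.Agent.R62.AutoB

/-! # Row 62: the conditions hold in phase B -/

set_option autoImplicit false

noncomputable section

namespace Crest.Agent.R62

/-- the parameters of phase B -/
def pB (y N ε Λ P4 P5 sw κE κ2E nE κ κ2 Ξ2 RF : ℝ) : Par where
  N := N
  ρ := N / (N + y ^ 8200)
  ε := ε
  ζ := y
  θ := 1 / y
  Λ := Λ
  Fb := y ^ 3980
  X := y ^ 8119
  Qb := 2 * N
  t := y ^ 12005
  P4 := P4
  P5 := P5
  V := y ^ 8108
  δ := y ^ 1003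
  W := N ^ 2 / (N + y ^ 11996)
  sw := sw
  Xb := 0
  γ := 0
  Pl := 0
  Tl := 0
  dg := y
  κE := κE
  κ2E := κ2E
  nE := nE
  κ := κ
  κ2 := κ2
  Ξ2 := Ξ2
  RF := RF
  ω := 1
  cy := y ^ 2
  σF := y ^ 3980
  σx := y ^ 8118
  σT := y ^ 12004
  χ := 1
  L := y ^ 11996

theorem posB {y N : ℝ} (y0 : 0 < y) (h0 : 0 < N) : (scB y N).Pos := by
  constructor <;> simp only [scB] <;> positivity

theorem rho1 {N M : ℝ} (h0 : 0 < N - 2) (hM : 0 < M) :
    |(N - 2) * ((N - 2) / (N - 2 + M)) - N * (N / (N + M)) + 2 - 2 * (1 - N / (N + M)) ^ 2| ≤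
      8 * (N / (N + M)) / N := by
  have h1 : 0 < N := by linarith
  have h2 : 0 < N - 2 + M := by linarith
  have h3 : 0 < N + M := by linarith
  have e : (N - 2) * ((N - 2) / (N - 2 + M)) - N * (N / (N + M)) + 2 - 2 * (1 - N / (N + M)) ^ 2 =
      4 * M ^ 2 / ((N + M) ^ 2 * (N - 2 + M)) := by
    field_simp; ring
  have e2 : 8 * (N / (N + M)) / N = 8 / (N + M) := by field_simp
  rw [e, e2, abs_of_nonneg (by positivity), div_le_div_iff₀ (by positivity) h3]
  have : M ^ 2 ≤ (N + M) * (N - 2 + M) := by nlinarith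
  nlinarith [mul_le_mul_of_nonneg_right this h3.le, mul_pos (mul_pos h3 h3) h2]

theorem rho2 {N M : ℝ} (h0 : 0 < N - 2) (hM : 2 ≤ M) :
    |N / (N + M) - (N - 2) / (N - 2 + M) - 2 * (N / (N + M)) * (1 - N / (N + M)) / N| ≤
      8 * (N / (N + M)) / N ^ 2 := by
  have h1 : 0 < N := by linarith
  have h2 : 0 < N - 2 + M := by linarith
  have h3 : 0 < N + M := by linarith
  have e : N / (N + M) - (N - 2) / (N - 2 + M) - 2 * (N / (N + M)) * (1 - N / (N + M)) / N =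
      4 * M / ((N + M) ^ 2 * (N - 2 + M)) := by
    field_simp; ring
  have e2 : 8 * (N / (N + M)) / N ^ 2 = 8 / (N * (N + M)) := by field_simp
  rw [e, e2, abs_of_nonneg (by positivity), div_le_div_iff₀ (by positivity) (by positivity)]
  have : M * N ≤ (N + M) * (N - 2 + M) := by nlinarith
  nlinarith [mul_le_mul_of_nonneg_right this h3.le, mul_pos (mul_pos h3 h3) h2]

theorem grow_le {N W θ c : ℝ} (h0 : 0 < N) (hc : 0 ≤ c) (h : 4000 * W ≤ θ * N) :
    c * (1 + 4000 * W / N ^ 2) ≤ c * (1 + θ / N) := by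
  apply mul_le_mul_of_nonneg_left _ hc
  have : 4000 * W / N ^ 2 ≤ θ / N := by
    rw [div_le_div_iff₀ (by positivity) h0]; nlinarith
  linarith

theorem up_L {y s N : ℝ} (ys : YS y s) (h0 : 0 ≤ N) {j : ℕ} (h : N ≤ y ^ j) :
    Up y s (N + y ^ j) (12 * (j + 1 : ℕ)) (12 * (j + 1 : ℕ)) := by
  have := mul_pow_le_y ys.y20 (c := 2) (by norm_num) (show j < j + 1 by omega)
  have := pow_pos ys.pos j
  exact (ys.up_npow (j + 1)).of_le (by linarith) (by linarith)

theorem numB {y N : ℝ} (h : 10 ^ 20 ≤ y) (h1 : y ^ 8160 + 2 ≤ N) (h2 : N ≤ y ^ 9780) :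
    StepAt y (scB y) N := by
  have y0 : 0 < y := lt_of_lt_of_le (by norm_num) h
  have h1' : y ^ 8160 ≤ N := by linarith only [h1]
  have N2 : 0 < N - 2 := by have := pow_pos y0 8160; linarith only [this, h1]
  have N0 : 0 < N := by linarith only [N2]
  have hL : 0 ≤ y ^ 11996 := (pow_pos y0 _).le
  have pL : 0 < N + y ^ 11996 := by linarith only [N0, hL]
  have hM : 0 < y ^ 8200 := pow_pos y0 _
  have hM2 : 2 ≤ y ^ 8200 := by
    have := mul_pow_le_y h (c := 2) (by norm_num) (show 0 < 8200 by norm_num)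
    rwa [pow_zero, mul_one] at this
  have ρ0 : 0 ≤ N / (N + y ^ 8200) := by positivity
  have ρ1 : N / (N + y ^ 8200) ≤ 1 := by
    rw [div_le_one (by positivity)]; linarith only [hM]
  have hT : |(0 : ℝ)| + y ^ 12004 + 2 * (2 * N) ≤ y ^ 12005 := by
    have a4 := pow_le_pow_y h (show 9780 ≤ 12004 by norm_num)
    have a5 := mul_pow_le_y h (c := 5) (by norm_num) (show 12004 < 12005 by norm_num)
    rw [abs_zero]; linarith only [a4, a5, h2]
  have hFb : |(0 : ℝ)| + y ^ 3980 ≤ y ^ 3980 := by rw [abs_zero, zero_add]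
  have o2 : ∀ x : ℝ, x ≤ 1 ^ 2 * x := fun x => by rw [one_pow, one_mul]
  have o4 : ∀ x : ℝ, x ≤ 1 ^ 4 * x := fun x => by rw [one_pow, one_mul]
  have kU : (N - 2) ^ 3 / y ^ 48042 ≤ N ^ 3 / y ^ 48042 :=
    div_le_div_of_nonneg_right (pow_le_pow_left₀ N2.le (by linarith only) 3) (pow_pos y0 _).le
  obtain ⟨s, ys, hN⟩ := YS.exists_s h (show 8160 < 9780 by norm_num) h1' h2
  have Nu : Up y s N 97920 117360 := (ys.up_of_eq hN).mono ys (by decide) (by decide)
  have Nl : Lo y s N 97920 117360 := (lo_of_eq hN).mono ys (by decide) (by decide)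
  have hΛ : N ^ 3 / y ^ 48042 * (Pw y s 47124 37404) ^ 6 = 1 := ys.kU hN 48042 (by decide) (by decide)
  obtain ⟨p, hp⟩ : ∃ p, p = pB y N (Pw y s (-72) (-72)) (Pw y s 47124 37404) (Pw y s 190300 170860)
      (Pw y s 236534 197654) (Pw y s 25944 45384) (Pw y s 26088 45528) (Pw y s 47196 37476)
      (Pw y s 98076 117516) (Pw y s 26100 45540) (Pw y s 47208 37488) (Pw y s 150132 208452)
      (Pw y s 144194 144194) := ⟨_, rfl⟩
  have E : EnvB p y s := hp ▸
    { ys := ys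
      N_u := Nu
      N_l := Nl
      ρ_u := (up_one y s).of_le ρ0 ρ1
      μ_u := (up_one y s).of_le (sub_nonneg.2 ρ1) (sub_le_self 1 ρ0)
      ε_u := ys.up_Pw _ _
      ε_l := lo_Pw _ _ _ _
      ζ_u := ys.up_y
      ζ_l := lo_y y s
      θ_u := ((up_one y s).div ys (lo_y y s)).mono ys (by decide) (by decide)
      θ_l := ((lo_one y s).div ys ys.up_y y0).mono ys (by decide) (by decide)
      Λ_u := ys.up_Pw _ _
      Λ_l := lo_Pw _ _ _ _
      Fb_u := (ys.up_npow 3980).mono ys (by decide) (by decide)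
      X_u := (ys.up_npow 8119).mono ys (by decide) (by decide)
      X_l := (lo_npow y s 8119).mono ys (by decide) (by decide)
      Qb_u := ((ys.up_c 2 (by norm_num) (by norm_num)).mul ys Nu).mono ys (by decide) (by decide)
      t_u := (ys.up_npow 12005).mono ys (by decide) (by decide)
      P4_u := ys.up_Pw _ _
      P4_l := lo_Pw _ _ _ _
      P5_u := ys.up_Pw _ _
      P5_l := lo_Pw _ _ _ _
      V_u := (ys.up_npow 8108).mono ys (by decide) (by decide)
      V_l := (lo_npow y s 8108).mono ys (by decide) (by decide)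
      δ_u := (ys.up_npow 1003).mono ys (by decide) (by decide)
      δ_l := (lo_npow y s 1003).mono ys (by decide) (by decide)
      W_u := ((Nu.pow ys 2).div ys ((lo_npow y s 11996).of_le (le_add_of_nonneg_left N0.le))).mono ys
        (by decide) (by decide)
      W_l := ((Nl.pow ys 2).div ys (up_L ys N0.le (h2.trans (pow_le_pow_y h
        (show 9780 ≤ 11996 by norm_num)))) pL).mono ys (by decide) (by decide)
      sw_u := ys.up_Pw _ _
      sw_l := lo_Pw _ _ _ _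
      γ_u := ys.up_zero rfl _ _
      dg_u := ys.up_y
      dg_l := lo_y y s
      κE_u := ys.up_Pw _ _
      κE_l := lo_Pw _ _ _ _
      κ2E_u := ys.up_Pw _ _
      κ2E_l := lo_Pw _ _ _ _
      nE_u := ys.up_Pw _ _
      nE_l := lo_Pw _ _ _ _
      κ_u := ys.up_Pw _ _
      κ_l := lo_Pw _ _ _ _
      κ2_u := ys.up_Pw _ _
      κ2_l := lo_Pw _ _ _ _
      Ξ2_u := ys.up_Pw _ _
      Ξ2_l := lo_Pw _ _ _ _
      RF_u := ys.up_Pw _ _
      RF_l := lo_Pw _ _ _ _
      ω_u := ys.up_zero (sub_self 1) _ _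
      cy_l := (lo_npow y s 2).mono ys (by decide) (by decide)
      σF_l := (lo_npow y s 3980).mono ys (by decide) (by decide)
      σx_u := (ys.up_npow 8118).mono ys (by decide) (by decide)
      σx_l := (lo_npow y s 8118).mono ys (by decide) (by decide)
      σT_l := (lo_npow y s 12004).mono ys (by decide) (by decide) }
  have e2 : p.Qb ≤ 2 * p.N ∧ p.W ≤ p.N ∧ 1 ≤ p.ω ∧ p.ω ≤ 2 :=
    hp ▸ ⟨le_rfl, W_le_N N0 hL, le_rfl, one_le_two⟩
  have gl := E.gl e2.1 e2.2.1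
  have wt := E.wt e2.2.2.1 e2.2.2.2
  have c1 := E.cF; have c2 := E.cQ; have c3 := E.cV; have c4 := E.cD; have c5 := E.cW
  have c6 := E.cT; have c7 := E.cU; have c8 := E.S1; have c9 := E.S2; have c10 := E.S2c
  have c11 := E.S3; have X1 := E.X1; have X2 := E.X2; have L1 := E.L1; have I1 := E.I1
  have I2 := E.I2; have I3 := E.I3; have I4 := E.I4; have WB := E.WB
  have e1 : p.N = N ∧ p.θ = 1 / y ∧ p.dg = y := hp ▸ ⟨rfl, rfl, rfl⟩
  have kF : 1 / y ^ 7960 * (y ^ 3980) ^ 2 = 1 := inv_pow_sq y0 (by norm_num)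
  have kx : 1 / y ^ 16236 * (y ^ 8118) ^ 2 = 1 := inv_pow_sq y0 (by norm_num)
  have kT : 1 / y ^ 24008 * (y ^ 12004) ^ 2 = 1 := inv_pow_sq y0 (by norm_num)
  refine ⟨p, e1.1, e1.2.1, e1.2.2, ?_⟩
  subst hp
  have kV : 1 / y ^ 8108 * (1 + 4000 * (N ^ 2 / (N + y ^ 11996)) / N ^ 2) ≤
      1 ^ 2 * (1 / y ^ 8108) * (1 + 1 / y / N) := by
    rw [one_pow, one_mul]; exact grow_le N0 (by positivity) WB
  have kD : 1 / y ^ 1003 * (1 + 4000 * (N ^ 2 / (N + y ^ 11996)) / N ^ 2) ≤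
      1 * (1 / y ^ 1003) * (1 + 1 / y / N) := by
    rw [one_mul]; exact grow_le N0 (by positivity) WB
  exact ⟨⟨posB y0 N0, rfl, ρ0, ρ1, pow_pos y0 _, pow_pos y0 _, kF, kx,
      one_div_mul_cancel (pow_pos y0 _).ne', one_div_mul_cancel (pow_pos y0 _).ne', kW_mul N0 hL,
      hFb, X1, qb_le N0.le ρ1 X2, L1,
      Or.inl ⟨pow_pos y0 _, kT, hΛ, hT, hT, I1, I2, I3, I4⟩⟩,
    posB y0 N2, gl, wt, c1, c2, c3, c4, c5, c8, c9, c10, Or.inl rfl, (sub_zero 0).symm, Or.inr rfl,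
    rho1 N2 hM, rho2 N2 hM2, o2 _, o4 _, kV, kD, hL, W_mul N0 hL, kW_mul' N2, (chi_pow N2 2).le,
    rfl, rfl, Or.inr ⟨c6, c7, c11, pow_pos y0 _, kT, hΛ, le_rfl, kU, rfl, rfl,
      Or.inr ⟨rfl, rfl⟩⟩, Or.inl rfl, Or.inl rfl⟩

end Crest.Agent.R62
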