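import Crest.Agent.R62.NumB
import Crest.Agent.R62.AutoC

/-! # Row 62: the conditions hold in phase C -/

set_option autoImplicit false

noncomputable section

namespace Crest.Agent.R62

/-- the parameters of phase C -/
def pC (y N ε Λ X Qb t P4 P5 sw κE κ2E nE κ κ2 Ξ2 RF : ℝ) : Par where
  N := N
  ρ := 0
  ε := ε
  ζ := y
  θ := 1 / y
  Λ := Λ
  Fb := N / y ^ 4094
  X := X
  Qb := Qb
  t := t
  P4 := P4
  P5 := P5
  V := N ^ 2 / y ^ 8210
  δ := N / y ^ 7155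
  W := N ^ 2 / (N + y ^ 11995)
  sw := sw
  Xb := 0
  γ := 0
  Pl := 0
  Tl := 0
  dg := y
  κE := κE
  κ2E := κ2E
  nE := nE
  κ := κ
  κ2 := κ2
  Ξ2 := Ξ2
  RF := RF
  ω := 1
  cy := y ^ 2
  σF := N / y ^ 4094
  σx := N ^ 2 / y ^ 8198
  σT := 0
  χ := N / (N - 2)
  L := y ^ 11995

theorem posC {y N : ℝ} (y0 : 0 < y) (h0 : 0 < N) : (scC y N).Pos := by
  constructor <;> simp only [scC] <;> positivity

theorem div_mul_sq {y x : ℝ} (hy : 0 < y) (hx : 0 < x) {i j : ℕ} (h : j = i * 2) :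
    y ^ j / x ^ 2 * (x / y ^ i) ^ 2 = 1 := by
  rw [h, pow_mul]
  have := pow_pos hy i
  generalize y ^ i = c at this ⊢
  field_simp

theorem div_mul_div_one {a b : ℝ} (ha : 0 < a) (hb : 0 < b) : a / b * (b / a) = 1 := by
  field_simp

theorem numC {y N : ℝ} (h : 10 ^ 20 ≤ y) (h1 : y ^ 4098 + 2 ≤ N) (h2 : N ≤ y ^ 8160) :
    StepAt y (scC y) N := by
  have y0 : 0 < y := lt_of_lt_of_le (by norm_num) h
  have h1' : y ^ 4098 ≤ N := by linarith only [h1]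
  have N2 : 0 < N - 2 := by have := pow_pos y0 4098; linarith only [this, h1]
  have N0 : 0 < N := by linarith only [N2]
  have hL : 0 ≤ y ^ 11995 := (pow_pos y0 _).le
  have pL : 0 < N + y ^ 11995 := by linarith only [N0, hL]
  have hFb : |(0 : ℝ)| + N / y ^ 4094 ≤ N / y ^ 4094 := by rw [abs_zero, zero_add]
  have r1 : |(N - 2) * 0 - N * 0 + 2 - 2 * (1 - 0) ^ 2| ≤ 8 * 0 / N := by norm_num
  have r2 : |0 - 0 - 2 * 0 * (1 - 0) / N| ≤ 8 * 0 / N ^ 2 := by norm_num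
  have kx : y ^ 16396 / N ^ 4 * (N ^ 2 / y ^ 8198) ^ 2 = 1 := by
    have := div_mul_sq y0 (pow_pos N0 2) (show 16396 = 8198 * 2 by norm_num)
    rwa [← pow_mul] at this
  have hq : ∀ a b : ℝ, a + 1 ≤ b → N * 0 + a + 1 ≤ b := fun a b e => by rwa [mul_zero, zero_add]
  have hq2 : ∀ a : ℝ, a ≤ N → a ≤ 2 * N := fun a e => by linarith only [e, N0]
  obtain ⟨s, ys, hN⟩ := YS.exists_s h (show 4098 < 8160 by norm_num) h1' h2
  have Nu : Up y s N 49176 97920 := (ys.up_of_eq hN).mono ys (by decide) (by decide)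
  have Nl : Lo y s N 49176 97920 := (lo_of_eq hN).mono ys (by decide) (by decide)
  obtain ⟨p, hp⟩ : ∃ p, p = pC y N (Pw y s (-72) (-72)) (Pw y s 6 48738) (Pw y s 12 97476) (Pw y s 12 97476)
      (Pw y s 19 146215) (Pw y s 24 194952) (Pw y s 31 243690) (Pw y s (-22794) 25950)
      (Pw y s 12 26094) (Pw y s 78 48810) (Pw y s 49188 97932) (Pw y s 24 26106)
      (Pw y s 90 48822) (Pw y s (-108) 149544) (Pw y s 49188 146448) := ⟨_, rfl⟩
  have E : EnvC p y s := hp ▸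
    { ys := ys
      N_u := Nu
      N_l := Nl
      ρ_u := ys.up_zero rfl _ _
      μ_u := (up_one y s).of_le (sub_nonneg.2 zero_le_one) (sub_le_self 1 le_rfl)
      ε_u := ys.up_Pw _ _
      ε_l := lo_Pw _ _ _ _
      ζ_u := ys.up_y
      ζ_l := lo_y y s
      θ_u := ((up_one y s).div ys (lo_y y s)).mono ys (by decide) (by decide)
      θ_l := ((lo_one y s).div ys ys.up_y y0).mono ys (by decide) (by decide)
      Λ_u := ys.up_Pw _ _
      Λ_l := lo_Pw _ _ _ _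
      Fb_u := (Nu.div ys (lo_npow y s 4094)).mono ys (by decide) (by decide)
      X_u := ys.up_Pw _ _
      X_l := lo_Pw _ _ _ _
      Qb_u := ys.up_Pw _ _
      Qb_l := lo_Pw _ _ _ _
      t_u := ys.up_Pw _ _
      t_l := lo_Pw _ _ _ _
      P4_u := ys.up_Pw _ _
      P4_l := lo_Pw _ _ _ _
      P5_l := lo_Pw _ _ _ _
      V_u := ((Nu.pow ys 2).div ys (lo_npow y s 8210)).mono ys (by decide) (by decide)
      V_l := ((Nl.pow ys 2).div ys (ys.up_npow 8210) (pow_pos y0 _)).mono ys (by decide) (by decide)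
      δ_u := (Nu.div ys (lo_npow y s 7155)).mono ys (by decide) (by decide)
      δ_l := (Nl.div ys (ys.up_npow 7155) (pow_pos y0 _)).mono ys (by decide) (by decide)
      W_u := ((Nu.pow ys 2).div ys ((lo_npow y s 11995).of_le (le_add_of_nonneg_left N0.le))).mono ys
        (by decide) (by decide)
      W_l := ((Nl.pow ys 2).div ys (up_L ys N0.le (h2.trans (pow_le_pow_y h
        (show 8160 ≤ 11995 by norm_num)))) pL).mono ys (by decide) (by decide)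
      sw_u := ys.up_Pw _ _
      sw_l := lo_Pw _ _ _ _
      γ_u := ys.up_zero rfl _ _
      dg_u := ys.up_y
      dg_l := lo_y y s
      κE_u := ys.up_Pw _ _
      κE_l := lo_Pw _ _ _ _
      κ2E_u := ys.up_Pw _ _
      κ2E_l := lo_Pw _ _ _ _
      nE_u := ys.up_Pw _ _
      nE_l := lo_Pw _ _ _ _
      κ_u := ys.up_Pw _ _
      κ_l := lo_Pw _ _ _ _
      κ2_u := ys.up_Pw _ _
      κ2_l := lo_Pw _ _ _ _
      Ξ2_u := ys.up_Pw _ _
      Ξ2_l := lo_Pw _ _ _ _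
      RF_u := ys.up_Pw _ _
      RF_l := lo_Pw _ _ _ _
      ω_u := ys.up_zero (sub_self 1) _ _
      cy_l := (lo_npow y s 2).mono ys (by decide) (by decide)
      σF_l := (Nl.div ys (ys.up_npow 4094) (pow_pos y0 _)).mono ys (by decide) (by decide)
      σx_u := ((Nu.pow ys 2).div ys (lo_npow y s 8198)).mono ys (by decide) (by decide)
      σx_l := ((Nl.pow ys 2).div ys (ys.up_npow 8198) (pow_pos y0 _)).mono ys (by decide) (by decide) }
  have e2 : (p.Qb ≤ p.N → p.Qb ≤ 2 * p.N) ∧ p.W ≤ p.N ∧ 1 ≤ p.ω ∧ p.ω ≤ 2 :=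
    hp ▸ ⟨hq2 _, W_le_N N0 hL, le_rfl, one_le_two⟩
  have gl := E.gl (e2.1 E.C1) e2.2.1
  have wt := E.wt e2.2.2.1 e2.2.2.2
  have c1 := E.cF; have c2 := E.cQ; have c3 := E.cV; have c4 := E.cD; have c5 := E.cW
  have c8 := E.S1; have c9 := E.S2; have c10 := E.S2c
  have X1 := E.X1; have L1 := E.L1; have WB := E.WB; have C2 := E.C2; have C3 := E.C3
  have C4 := E.C4; have C5 := E.C5; have C6 := E.C6
  have e1 : p.N = N ∧ p.θ = 1 / y ∧ p.dg = y := hp ▸ ⟨rfl, rfl, rfl⟩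
  have kF : y ^ 8188 / N ^ 2 * (N / y ^ 4094) ^ 2 = 1 := div_mul_sq y0 N0 (by norm_num)
  refine ⟨p, e1.1, e1.2.1, e1.2.2, ?_⟩
  subst hp
  have kV : y ^ 8210 / (N - 2) ^ 2 * (1 + 4000 * (N ^ 2 / (N + y ^ 11995)) / N ^ 2) ≤
      (N / (N - 2)) ^ 2 * (y ^ 8210 / N ^ 2) * (1 + 1 / y / N) := by
    rw [← chi_pow N2 2]; exact grow_le N0 (by positivity) WB
  have kD : y ^ 7155 / (N - 2) * (1 + 4000 * (N ^ 2 / (N + y ^ 11995)) / N ^ 2) ≤
      N / (N - 2) * (y ^ 7155 / N) * (1 + 1 / y / N) := by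
    have := chi_pow (c := y ^ 7155) N2 1
    rw [pow_one, pow_one, pow_one] at this
    rw [← this]; exact grow_le N0 (by positivity) WB
  exact ⟨⟨posC y0 N0, rfl, le_rfl, zero_le_one, div_pos N0 (pow_pos y0 _),
      div_pos (pow_pos N0 _) (pow_pos y0 _), kF, kx,
      div_mul_div_one (pow_pos y0 _) (pow_pos N0 _), div_mul_div_one (pow_pos y0 _) N0, kW_mul N0 hL,
      hFb, X1, hq _ _ C2, L1, Or.inr ⟨C3, C4, C5, C6⟩⟩,
    posC y0 N2, gl, wt, c1, c2, c3, c4, c5, c8, c9, c10, Or.inr ⟨rfl, rfl⟩, (sub_zero 0).symm,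
    Or.inr rfl, r1, r2, (chi_pow N2 2).le, (chi_pow N2 4).le, kV, kD, hL, W_mul N0 hL, kW_mul' N2,
    (chi_pow N2 2).le, rfl, rfl, Or.inl ⟨rfl, rfl⟩, Or.inl rfl, Or.inl rfl⟩

end Crest.Agent.R62
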