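import Crest.Agent.R62.NumB
import Crest.Agent.R62.AutoM

/-! # Row 62: the conditions of the Möbius step -/

set_option autoImplicit false

noncomputable section

namespace Crest.Agent.R62

theorem small_le {y c : ℝ} (h : 10 ^ 20 ≤ y) (hc : 100 * c ≤ 10 ^ 20) {i j : ℕ} (hij : i < j) :
    1 / y ^ j * (c * y ^ i) ≤ 1 / 100 := by
  have y0 : 0 < y := lt_of_lt_of_le (by norm_num) h
  have := mul_pow_le_y h hc hij
  rw [one_div_mul_eq_div, div_le_div_iff₀ (pow_pos y0 _) (by norm_num)]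
  linarith

theorem small_sq_le {y : ℝ} (h : 10 ^ 20 ≤ y) {i j : ℕ} (hij : i * 2 < j) :
    1 / y ^ j * (1000 * y ^ i) ^ 2 ≤ 1 / 100 := by
  rw [mul_pow, ← pow_mul]; exact small_le h (by norm_num) hij

theorem numMob {y k N₀ T : ℝ} (h : YOK y k N₀ T) : ∃ (p : Par) (q : MPar), p.N = y ^ 9780 ∧
    q.M = y ^ 8200 ∧ MobOK p q (scA y N₀ T (y ^ 9780)) (scB y (y ^ 9780)) := by
  have y0 := h.y0
  obtain ⟨N, hN'⟩ : ∃ N, N = y ^ 9780 := ⟨_, rfl⟩
  obtain ⟨s, ys⟩ : ∃ s, YS y s := ⟨0, h.y20, le_rfl, zero_le_one⟩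
  have hN : N = Pw y s (12 * (9780 : ℕ)) (12 * (9780 : ℕ)) := hN'.trans (Pw_nat y s 9780).symm
  have N0 : 0 < N := hN' ▸ pow_pos y0 _
  have h2 : N ≤ N₀ := by
    have a := pow_le_pow_y h.y20 (show 9780 ≤ 12000 by norm_num)
    have b := h.N0_lo
    have c := pow_pos y0 12000
    rw [hN']; linarith only [a, b, c]
  have hL : 0 ≤ N₀ / 4 := div_nonneg h.N0_pos.le (by norm_num)
  have hQ : N ≤ 2 * N := by linarith only [N0]
  have hS : -(max 0 (2 * y ^ 9780 - N) / (2 * y ^ 5349)) + y ^ 4340 ≤ -y ^ 4430 := by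
    have a : max 0 (2 * y ^ 9780 - N) / (2 * y ^ 5349) = y ^ 4431 / 2 := by
      have e : y ^ 9780 = y ^ 4431 * y ^ 5349 := by rw [← pow_add]
      rw [hN', max_eq_right (by linarith only [pow_pos y0 9780]), e]
      have := pow_pos y0 5349
      generalize y ^ 5349 = c at this ⊢
      generalize y ^ 4431 = c'
      field_simp; ring
    have b := mul_pow_le_y h.y20 (c := 4) (by norm_num) (show 4430 < 4431 by norm_num)
    have c := pow_le_pow_y h.y20 (show 4340 ≤ 4430 by norm_num)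
    rw [a]; linarith only [b, c]
  have hW : (N + y ^ 11996) / N ^ 2 * (200000 * y ^ 7561) ≤ 1 / 100 := by
    have a := pow_le_pow_y h.y20 (show 9780 ≤ 11996 by norm_num)
    have b := small_le h.y20 (c := 400000) (by norm_num) (show 19557 < 19560 by norm_num)
    have e1 : y ^ 19557 = y ^ 11996 * y ^ 7561 := by rw [← pow_add]
    have e2 : y ^ 19560 = (y ^ 9780) ^ 2 := by rw [← pow_mul]
    rw [e1, e2, ← hN'] at b
    rw [← hN'] at a
    refine le_trans ?_ b
    have p1 := pow_pos y0 7561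
    generalize y ^ 11996 = c at a ⊢
    generalize y ^ 7561 = c' at p1 ⊢
    rw [div_mul_eq_mul_div, one_div_mul_eq_div]
    apply div_le_div_of_nonneg_right _ (by positivity)
    nlinarith
  have hC : 100 * (y ^ 11996 / N ^ 2) ≤ y ^ 11997 / N ^ 2 := by
    rw [← mul_div_assoc]
    exact div_le_div_of_nonneg_right (mul_pow_le_y h.y20 (by norm_num) (by norm_num)) (by positivity)
  have hE : 1000 * y ^ 8116 ≤ N :=
    (mul_pow_le_y h.y20 (by norm_num) (show 8116 < 9780 by norm_num)).trans hN'.ge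
  have Nu : Up y s N 117360 117360 := (ys.up_of_eq hN).mono ys (by decide) (by decide)
  have Nl : Lo y s N 117360 117360 := (lo_of_eq hN).mono ys (by decide) (by decide)
  have hΛ : N ^ 3 / y ^ 48030 * (Pw y s 37380 37380) ^ 6 = 1 := ys.kU hN 48030 (by decide) (by decide)
  have hU : N ^ 3 / y ^ 48042 * (1000 * (Pw y s 37380 37380) ^ 6) ≤ 1 / 100 := by
    have b := small_le h.y20 (c := 1000) (by norm_num) (show 0 < 12 by norm_num)
    have e : y ^ 48042 = y ^ 48030 * y ^ 12 := by rw [← pow_add]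
    rw [e]
    generalize (Pw y s 37380 37380) ^ 6 = u at hΛ ⊢
    generalize y ^ 48030 = c at hΛ ⊢
    have e2 : N ^ 3 / (c * y ^ 12) * (1000 * u) = 1 / y ^ 12 * (1000 * (N ^ 3 / c * u)) := by
      rw [← div_div]; ring
    rw [e2, hΛ]
    rwa [pow_zero] at b
  obtain ⟨p, hp⟩ : ∃ p, p = pA y N₀ N 0 1 0 (Pw y s 37380 37380) (Pw y s 170796 170796) (Pw y s 197550 197550) 0 0 0
      0 0 0 0 0 0 := ⟨_, rfl⟩
  obtain ⟨q, hq⟩ : ∃ q : MPar, q = ⟨y ^ 8200, (Pw y s (-45588) (-45588)), y ^ 4430, (Pw y s (-45588) (-45588)),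
      y ^ 8116, y ^ 8107, y ^ 1002, y ^ 7561⟩ := ⟨_, rfl⟩
  have E : EnvM p q y s := hp ▸ hq ▸
    { ys := ys
      N_u := Nu
      N_l := Nl
      ρ_u := up_one y s
      Λ_u := ys.up_Pw _ _
      Λ_l := lo_Pw _ _ _ _
      Fb_u := (ys.up_npow 4432).mono ys (by decide) (by decide)
      X_u := (ys.up_npow 7921).mono ys (by decide) (by decide)
      X_l := (lo_npow y s 7921).mono ys (by decide) (by decide)
      Qb_u := ((ys.up_c 2 (by norm_num) (by norm_num)).mul ys Nu).mono ys (by decide) (by decide)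
      Qb_l := Nl.of_le hQ
      t_u := (ys.up_npow 12003).mono ys (by decide) (by decide)
      t_l := (lo_npow y s 12003).mono ys (by decide) (by decide)
      P4_u := ys.up_Pw _ _
      P4_l := lo_Pw _ _ _ _
      P5_l := lo_Pw _ _ _ _
      V_u := (h.up_V ys N0.le h2 7560).mono ys (by decide) (by decide)
      δ_u := (h.up_V ys N0.le h2 1000).mono ys (by decide) (by decide)
      W_u := ((Nu.pow ys 2).div ys (h.lo_L N0.le)).mono ys (by decide) (by decide)
      σx_u := (ys.up_npow 7920).mono ys (by decide) (by decide)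
      Tl_l := (lo_npow y s 11999).mono ys (by decide) (by decide)
      M_u := (ys.up_npow 8200).mono ys (by decide) (by decide)
      M_l := (lo_npow y s 8200).mono ys (by decide) (by decide)
      τb_u := ys.up_Pw _ _
      τb_l := lo_Pw _ _ _ _
      Sl_l := (lo_npow y s 4430).mono ys (by decide) (by decide)
      a0_u := ys.up_Pw _ _
      a0_l := lo_Pw _ _ _ _
      Ex_l := (lo_npow y s 8116).mono ys (by decide) (by decide)
      Ev_l := (lo_npow y s 8107).mono ys (by decide) (by decide)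
      Ed_l := (lo_npow y s 1002).mono ys (by decide) (by decide)
      Ew_l := (lo_npow y s 7561).mono ys (by decide) (by decide) }
  have der := derA h hN'.ge h2 hp hΛ E.X1 E.X2 E.L1 E.I1 E.I2 E.I3 E.I4
  have cm := E.cm (hp ▸ rfl)
  have kT : 1 / y ^ 23994 * (y ^ 11997) ^ 2 = 1 := inv_pow_sq y0 (by norm_num)
  have k1 : 1 / y ^ 16236 * (1000 * y ^ 8116) ^ 2 ≤ 1 / 100 := small_sq_le h.y20 (by norm_num)
  have k2 : 1 / y ^ 24008 * (1000 * y ^ 12003) ^ 2 ≤ 1 / 100 := small_sq_le h.y20 (by norm_num)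
  have k3 : 1 / y ^ 8108 * (100000 * y ^ 8107) ≤ 1 / 100 :=
    small_le h.y20 (by norm_num) (by norm_num)
  have k4 : 1 / y ^ 1003 * (1000 * y ^ 1002) ≤ 1 / 100 := small_le h.y20 (by norm_num) (by norm_num)
  rw [← hN']
  refine ⟨p, q, hp ▸ rfl, hq ▸ rfl, ?_⟩
  subst hp hq
  exact ⟨der, posB y0 N0, cm, pow_pos y0 _, kT, h.T_lo, h.T_lo, hS, rfl,
    rfl, rfl, rfl, rfl, rfl, k1, k2, hU, k3, k4, hW, hC, hE⟩

end Crest.Agent.R62
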