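import Crest.Agent.R62.Spec3
import Crest.Agent.R62.Mob3
import Crest.Agent.R62.NumA
import Crest.Agent.R62.NumB
import Crest.Agent.R62.NumC
import Crest.Agent.R62.NumM

/-!
# Row 62: the four phases

`run_phase` with `st j = toSt n k (f^[j] start)` (`Function.iterate_succ_apply'`).  All boundaries
`n k`, `y^9780`, `y^8160`, `y^4098` are even, so `2 jA = n k - y^9780` etc. (the `min` is inactive as
`y^9780 ≤ y^12000 ≤ n`).
-/

set_option autoImplicit false

open Finset Matrix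

noncomputable section

namespace Crest.Agent.R62

variable {n k : ℕ}

theorem main_pow_le (_h : Big n k) {a b : ℕ} (hab : a ≤ b) : yN n ^ a ≤ yN n ^ b :=
  Nat.pow_le_pow_right (Nat.pow_pos (by norm_num)) hab

theorem main_pow_le_n (h : Big n k) {a : ℕ} (ha : a ≤ 12000) : yN n ^ a ≤ n :=
  (main_pow_le h ha).trans h.y.1

theorem main_even (h : Big n k) {a : ℕ} (ha : a ≠ 0) : 2 ∣ yN n ^ a := dvd_pow h.y.2.2.2 ha

theorem main_g (n k : ℕ) : (((n * k : ℕ) : ℝ)) ^ 42 ≤ (gN n k : ℝ) := by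
  unfold gN
  exact_mod_cast Nat.le_succ _

/-- one greedy phase of the algorithm -/
theorem main_phase (h : Big n k) (hk : 2 ≤ k) {sc : ℝ → Sc} {f : QS → QS}
    (hf : ∀ st, Greedy (vtxF n k) (gN n k) (sc (((toSt n k st).S.card : ℝ) - 2)) (toSt n k st)
      (toSt n k (f st))) {s₀ : QS} {hi lo J : ℕ} (hJ : lo + 2 * J = hi) (hlo : 1 ≤ lo)
    (hhi : hi ≤ n * k) (h1 : Inv (vtxF n k) (k + 1) (2 * √(k : ℝ)) (toSt n k s₀))
    (h2 : ((toSt n k s₀).S.card : ℝ) = hi)
    (h3 : Phi (vtxF n k) (sc hi) (toSt n k s₀) ≤ 0.95)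
    (hs : ∀ m j : ℕ, lo + 2 ≤ m → m + 2 * j = hi → StepAt (yN n) sc m)
    (hr : ∀ N : ℝ, lo ≤ N → N ≤ hi →
      RndOK (sc N) (n * k : ℕ) (gN n k) (1 / (yN n * (n * k : ℕ)))) :
    Inv (vtxF n k) (k + 1) (2 * √(k : ℝ)) (toSt n k (f^[J] s₀)) ∧
      ((toSt n k (f^[J] s₀)).S.card : ℝ) = lo ∧
      Phi (vtxF n k) (sc lo) (toSt n k (f^[J] s₀)) ≤ 1 := by
  have hy := h.yok hk
  have hJ' : (hi : ℝ) - 2 * J = lo := by
    rw [← hJ]
    push_cast
    ring
  have hlo' : (1 : ℝ) ≤ lo := by exact_mod_cast hlo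
  have hhi' : (hi : ℝ) ≤ (n * k : ℕ) := by exact_mod_cast hhi
  have hJ0 : (0 : ℝ) ≤ J := Nat.cast_nonneg _
  have hy0 : (0 : ℝ) < yN n := lt_of_lt_of_le (by norm_num) hy.y20
  have hk0 : (0 : ℝ) ≤ k := Nat.cast_nonneg _
  have key := run_phase (vtx := vtxF n k) (d := k + 1) (z := 2 * √(k : ℝ)) (g := gN n k)
    (y := yN n) (Nhi := hi) (φ := 0.95) (sc := sc) (fun j => toSt n k (f^[j] s₀)) J h1 h2 hy0
    (by have := hy.ky; push_cast; nlinarith) (by rw [hJ']; exact hlo')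
    (fun j hj => by
      have e : (hi : ℝ) - 2 * j = ((hi - 2 * j : ℕ) : ℝ) := by
        rw [Nat.cast_sub (by omega)]
        push_cast
        ring
      rw [e]
      exact hs _ j (by omega) (by omega))
    (fun j hj => by
      have hj' : (j : ℝ) + 1 ≤ J := by exact_mod_cast hj
      have hj0 : (0 : ℝ) ≤ j := Nat.cast_nonneg _
      rw [Fintype.card_fin]
      exact hr _ (by linarith) (by linarith))
    h3 (by have := numLoss hy (N := hi) (by linarith) hhi'; norm_num at this ⊢; linarith)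
    (fun j _ => by
      rw [Function.iterate_succ_apply']
      exact hf _)
  rwa [hJ'] at key

/-- phase A (`numA`: `N` and `2 y^9780` are even integers), then `MobOK.main`, `Inv.rnd`, `numRndB` -/
theorem sB_spec (h : Big n k) (hn : Even n) (hk : 2 ≤ k) :
    Inv (vtxF n k) (k + 1) (2 * √(k : ℝ)) (toSt n k (sB n k)) ∧
    ((toSt n k (sB n k)).S.card : ℝ) = (yN n : ℝ) ^ 9780 ∧
    Phi (vtxF n k) (scB (yN n) ((yN n : ℝ) ^ 9780)) (toSt n k (sB n k)) ≤ 1 / 4 := by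
  have hy := h.yok hk
  obtain ⟨a1, a2, a3⟩ := sA_spec h hn hk
  have e1 := main_even h (a := 9780) (by norm_num)
  have e2 : 2 ∣ n * k := (even_iff_two_dvd.1 hn).mul_right k
  have e3 : yN n ^ 9780 ≤ n * k :=
    (main_pow_le_n h (by norm_num)).trans (Nat.le_mul_of_pos_right n (by omega))
  have e4 : 1 ≤ yN n ^ 9780 := by simpa using main_pow_le h (a := 0) (b := 9780) (by norm_num)
  have c : ((yN n ^ 9780 : ℕ) : ℝ) = (yN n : ℝ) ^ 9780 := Nat.cast_pow _ _
  obtain ⟨b1, b2, b3⟩ := main_phase h hk (sc := scA (yN n) (n * k : ℕ) (tQ n k)) fA_spec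
    (hi := n * k) (lo := yN n ^ 9780) (J := jA n k) (by unfold jA; omega) e4 le_rfl a1 a2 a3
    (fun m j h1 h2 => by
      refine numA hy ?_ ?_ ?_
      · rw [← c]
        exact_mod_cast h1
      · exact_mod_cast (by omega : m ≤ n * k)
      · rw [← c]
        rcases (by omega : m ≤ 2 * yN n ^ 9780 ∨ 2 * yN n ^ 9780 + 2 ≤ m) with h3 | h3
        · left
          exact_mod_cast h3
        · right
          exact_mod_cast h3)
    (fun N h1 h2 => numRndA hy (c ▸ h1) h2 (main_g n k))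
  rw [c] at b2 b3
  obtain ⟨p, q, hp, hq, hm⟩ := numMob hy
  obtain ⟨m1, m2⟩ := hm.main b1 (b2.trans hp.symm) b3
  have hr := numRndB hy (N := (yN n : ℝ) ^ 9780)
    (by exact_mod_cast main_pow_le h (a := 8160) (b := 9780) (by norm_num)) le_rfl (main_g n k)
  rw [← Fintype.card_fin (n * k)] at hr
  obtain ⟨r1, r2⟩ := m1.rnd hr (m2.trans (by norm_num))
  have e : toSt n k (sB n k) =
      ((toSt n k ((fA n k)^[jA n k] (sA n k))).mob q.M).rnd (gN n k) := by
    rw [sB, toSt_rndS, toSt_mobS, hq, Rat.cast_pow, Rat.cast_natCast, Rat.cast_natCast]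
  rw [e]
  refine ⟨r1, b2, r2.trans ?_⟩
  have h10 := hr.m10
  have h20 := hy.y20
  have : 1 / ((yN n : ℝ) * (Fintype.card (Fin (n * k)) : ℕ)) ≤ 1 / 8 :=
    one_div_le_one_div_of_le (by norm_num) (by nlinarith)
  linarith

/-- phase B, then `TransOK.phi` -/
theorem sC_spec (h : Big n k) (hn : Even n) (hk : 2 ≤ k) :
    Inv (vtxF n k) (k + 1) (2 * √(k : ℝ)) (toSt n k (sC n k)) ∧
    ((toSt n k (sC n k)).S.card : ℝ) = (yN n : ℝ) ^ 8160 ∧
    Phi (vtxF n k) (scC (yN n) ((yN n : ℝ) ^ 8160)) (toSt n k (sC n k)) ≤ 1 / 4 := by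
  have hy := h.yok hk
  obtain ⟨a1, a2, a3⟩ := sB_spec h hn hk
  have e1 := main_even h (a := 9780) (by norm_num)
  have e2 := main_even h (a := 8160) (by norm_num)
  have e3 : yN n ^ 9780 ≤ n := main_pow_le_n h (by norm_num)
  have e4 : 1 ≤ yN n ^ 8160 := by simpa using main_pow_le h (a := 0) (b := 8160) (by norm_num)
  have e5 := main_pow_le h (a := 8160) (b := 9780) (by norm_num)
  have c : ((yN n ^ 9780 : ℕ) : ℝ) = (yN n : ℝ) ^ 9780 := Nat.cast_pow _ _
  have c' : ((yN n ^ 8160 : ℕ) : ℝ) = (yN n : ℝ) ^ 8160 := Nat.cast_pow _ _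
  obtain ⟨b1, b2, b3⟩ := main_phase h hk (sc := scB (yN n)) fB_spec
    (hi := yN n ^ 9780) (lo := yN n ^ 8160) (J := jB n) (by unfold jB; omega) e4
    (e3.trans (Nat.le_mul_of_pos_right n (by omega))) a1 (a2.trans c.symm)
    (by rw [c]; exact a3.trans (by norm_num))
    (fun m j h1 h2 => by
      refine numB hy.y20 ?_ ?_
      · rw [← c']
        exact_mod_cast h1
      · rw [← c]
        exact_mod_cast (by omega : m ≤ yN n ^ 9780))
    (fun N h1 h2 => numRndB hy (c' ▸ h1) (c ▸ h2) (main_g n k))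
  rw [c'] at b2 b3
  exact ⟨b1, b2, (numTrans hy.y20).phi b1.sA b1.sB b2 b3⟩

theorem numTrans_pos (h : Big n k) (hk : 2 ≤ k) : (scC (yN n) ((yN n : ℝ) ^ 4098)).Pos :=
  (numRndC (h.yok hk) le_rfl
    (by exact_mod_cast main_pow_le h (a := 4098) (b := 8160) (by norm_num)) (main_g n k)).pos

/-- phase C, then `Inv.finish` -/
theorem sD_spec (h : Big n k) (hn : Even n) (hk : 2 ≤ k) :
    GInv (vtxF n k) (k + 1) (toSt n k (sD n k)).S (toSt n k (sD n k)).G ∧
    NoConf (vtxF n k) (toSt n k (sD n k)).S (toSt n k (sD n k)).G ∧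
    Good0 (vtxF n k) (toSt n k (sD n k)).S (toSt n k (sD n k)).G (2 * √(k : ℝ)) ∧
    (toSt n k (sD n k)).S.card = yN n ^ 4098 := by
  have hy := h.yok hk
  obtain ⟨a1, a2, a3⟩ := sC_spec h hn hk
  have e1 := main_even h (a := 8160) (by norm_num)
  have e2 := main_even h (a := 4098) (by norm_num)
  have e3 : yN n ^ 8160 ≤ n := main_pow_le_n h (by norm_num)
  have e4 : 1 ≤ yN n ^ 4098 := by simpa using main_pow_le h (a := 0) (b := 4098) (by norm_num)
  have e5 := main_pow_le h (a := 4098) (b := 8160) (by norm_num)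
  have c : ((yN n ^ 8160 : ℕ) : ℝ) = (yN n : ℝ) ^ 8160 := Nat.cast_pow _ _
  have c' : ((yN n ^ 4098 : ℕ) : ℝ) = (yN n : ℝ) ^ 4098 := Nat.cast_pow _ _
  obtain ⟨b1, b2, b3⟩ := main_phase h hk (sc := scC (yN n)) fC_spec
    (hi := yN n ^ 8160) (lo := yN n ^ 4098) (J := jC n) (by unfold jC; omega) e4
    (e3.trans (Nat.le_mul_of_pos_right n (by omega))) a1 (a2.trans c.symm)
    (by rw [c]; exact a3.trans (by norm_num))
    (fun m j h1 h2 => by
      refine numC hy.y20 ?_ ?_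
      · rw [← c']
        exact_mod_cast h1
      · rw [← c]
        exact_mod_cast (by omega : m ≤ yN n ^ 8160))
    (fun N h1 h2 => numRndC hy (c' ▸ h1) (c ▸ h2) (main_g n k))
  have b4 : (toSt n k (sD n k)).S.card = yN n ^ 4098 := Nat.cast_injective (R := ℝ) b2
  rw [c'] at b3
  obtain ⟨n1, n2, n3⟩ := numEnd hy.y20
  obtain ⟨f1, f2⟩ := b1.finish (numTrans_pos h hk) rfl n1 n2 n3 b3
  exact ⟨b1.gi, f1, f2, b4⟩

/-- phase D -/
theorem finE_spec (h : Big n k) (hn : Even n) (hk : 2 ≤ k) :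
    GInv (vtxF n k) (k + 1) ∅ (toG n (finE n k)) ∧
    Good0 (vtxF n k) (∅ : Finset (Fin (n * k))) (toG n (finE n k)) (2 * √(k : ℝ)) := by
  obtain ⟨a1, a2, a3, a4⟩ := sD_spec h hn hk
  have e2 := main_even h (a := 4098) (by norm_num)
  have e3 : yN n ^ 4098 ≤ n := main_pow_le_n h (by norm_num)
  exact run_last (vtx := vtxF n k)
    (fun j => (toS (n * k) ((anyL n k)^[j] ((sD n k).1, (sD n k).2.1)).1,
      toG n ((anyL n k)^[j] ((sD n k).1, (sD n k).2.1)).2)) (jD n) a1 a2 a3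
    (a4.trans (by unfold jD; omega)) fun j _ => by
      rw [Function.iterate_succ_apply']
      exact anyL_spec _

end Crest.Agent.R62
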