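import Crest.Agent.R62.Lin

/-!
# Row 62: the Möbius step, parameters and low traces

`mob K = K + Y`, `Y = (τ + λ) 1_S - τ² K - (1-τ²) τ K² + (1-τ²) τ² K³ - c J_S`, `c = (λ + τ³ - s τ⁴)/N`.
-/

set_option autoImplicit false

open Finset Matrix

noncomputable section

namespace Crest.Agent.R62

variable {ι : Type} [Fintype ι] [DecidableEq ι]

/-- the identity on `S` -/
def IS (S : Finset ι) : Mat ι := Matrix.diagonal fun c => if c ∈ S then 1 else 0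
/-- the all-ones matrix on `S` -/
def JS (S : Finset ι) : Mat ι := Matrix.of fun c d => if c ∈ S ∧ d ∈ S then 1 else 0
/-- `c N` -/
def mobc (S : Finset ι) (K : Mat ι) (s M : ℝ) : ℝ :=
  mobl S K s M + mobτ K M ^ 3 - s * mobτ K M ^ 4

/-- the standing hypotheses -/
structure MCtx (S : Finset ι) (K : Mat ι) (s : ℝ) (p : Par) (q : MPar) : Prop where
  bnd : Bnd S K s p
  cm : CondMob p q
  T : p.Tl ≤ pk K 3
  F : pk K 1 ≤ -q.Sl

variable {S : Finset ι} {K : Mat ι} {s M : ℝ} {p : Par} {q : MPar}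

theorem Side.mob_eq (h : Side S K s) : mob S K s M =
    (mobτ K M + mobl S K s M) • IS S + (1 - mobτ K M ^ 2) •
      (K - mobτ K M • K ^ 2 + mobτ K M ^ 2 • K ^ 3) - (mobc S K s M / S.card) • JS S := by
  ext c d
  have h2 := h.pow_supp 1 c d
  have h3 := h.pow_supp 2 c d
  have h2' := h.pow_supp' 1 c d
  have h3' := h.pow_supp' 2 c d
  have h1 := h.supp c d
  have h1' := h.supp' c d
  simp only [Nat.reduceAdd] at h2 h3 h2' h3'
  simp only [mob, IS, JS, mobc, Matrix.of_apply, Matrix.sub_apply, Matrix.add_apply,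
    Matrix.smul_apply, smul_eq_mul, Matrix.diagonal_apply]
  by_cases hc : c ∈ S
  · by_cases hd : d ∈ S
    · simp [hc, hd]
    · have hcd : c ≠ d := fun e => hd (e ▸ hc)
      simp [hd, hcd, h1' hd, h2' hd, h3' hd]
  · simp [hc, h1 hc, h2 hc, h3 hc]

theorem Side.IS_mul (h : Side S K s) : IS S * K = K ∧ K * IS S = K := by
  constructor
  · ext c d
    rw [IS, Matrix.diagonal_mul]
    split_ifs with hc
    · exact one_mul _
    · rw [zero_mul, h.supp c d hc]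
  · ext c d
    rw [IS, Matrix.mul_diagonal]
    split_ifs with hd
    · exact mul_one _
    · rw [mul_zero, h.supp' c d hd]

theorem Side.JS_mul (h : Side S K s) : JS S * K = s • JS S ∧ K * JS S = s • JS S := by
  have h1 : K * JS S = s • JS S := by
    ext c d
    simp only [JS, Matrix.mul_apply, Matrix.of_apply, Matrix.smul_apply, smul_eq_mul]
    by_cases hd : d ∈ S
    · by_cases hc : c ∈ S
      · simp [hc, hd, h.row' c hc]
      · simp [hc, h.supp c _ hc]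
    · simp [hd]
  have hJ : (JS S)ᵀ = JS S := by
    ext c d
    simp only [JS, Matrix.transpose_apply, Matrix.of_apply, and_comm]
  refine ⟨?_, h1⟩
  have := congrArg Matrix.transpose h1
  rwa [Matrix.transpose_mul, Matrix.transpose_smul, hJ, transpose_of_symm h.symm] at this

theorem IS_JS (S : Finset ι) : IS S * IS S = IS S ∧ IS S * JS S = JS S ∧ JS S * IS S = JS S ∧
    JS S * JS S = (S.card : ℝ) • JS S ∧ (IS S).trace = S.card ∧ (JS S).trace = S.card ∧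
    fro (IS S) = S.card ∧ fro (JS S) = (S.card : ℝ) ^ 2 ∧ OpLe (IS S) 1 ∧ OpLe (JS S) S.card := by
  have f2 : fro (JS S) = (S.card : ℝ) ^ 2 := by
    simp [fro, JS, ite_and, sq]
  refine ⟨?_, ?_, ?_, ?_, ?_, ?_, ?_, f2, ?_, opLe_of_fro f2.le⟩
  · rw [IS, Matrix.diagonal_mul_diagonal]
    congr 1
    funext c
    split_ifs <;> simp
  · ext c d
    rw [IS, Matrix.diagonal_mul]
    by_cases hc : c ∈ S <;> simp [JS, hc]
  · ext c d
    rw [IS, Matrix.mul_diagonal]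
    by_cases hd : d ∈ S <;> simp [JS, hd]
  · ext c d
    by_cases hc : c ∈ S <;> by_cases hd : d ∈ S <;> simp [JS, Matrix.mul_apply, hc, hd]
  · simp [IS]
  · simp [JS, Matrix.trace]
  · simp [fro, IS, Matrix.diagonal_apply]
  · intro v
    rw [one_pow, one_mul]
    refine Finset.sum_le_sum fun c _ => ?_
    rw [IS, Matrix.mulVec_diagonal]
    split_ifs
    · simp
    · simpa using mul_self_nonneg (v c)

theorem mob_symm (h : ∀ a b, K a b = K b a) (S : Finset ι) (s M : ℝ) (a b : ι) :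
    mob S K s M a b = mob S K s M b a := by
  simp only [mob, Matrix.of_apply, h a b, pow_symm h 2 a b, pow_symm h 3 a b, and_comm (a := a ∈ S),
    eq_comm (a := a)]

/-- bounds for the scalars -/
structure MScal (S : Finset ι) (K : Mat ι) (s : ℝ) (p : Par) (q : MPar) : Prop where
  τ0 : 0 < mobτ K q.M
  τb : mobτ K q.M ≤ q.τb
  τΛ : mobτ K q.M * p.Λ ≤ 1 / 2
  τa : mobτ K q.M ≤ q.a0
  a0 : q.a0 ≤ 1 / 10
  τM : 2 * mobτ K q.M * pk K 3 = q.M
  l0 : 0 ≤ mobl S K s q.M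
  lF : mobl S K s q.M ≤ 4 * p.Fb / p.N
  la : mobl S K s q.M ≤ q.a0
  c : |mobc S K s q.M| ≤ 3 * q.a0

/-- With `x = p₂ - N`: `λ (N - 1) = -p₁ + τ² p₁ + τ x - τ³ p₂ - (1-τ²) τ² p₃ + τ³ - s τ⁴`, and `τ² p₃ = M²/(4 p₃)`;
`M2`–`M5` bound the five small terms by `Sl/2` in total, `Sl ≤ -p₁ ≤ Fb` (`0 < Sl` by `M3`). -/
theorem MCtx.scal (h : MCtx S K s p q) : MScal S K s p q := by
  have hb := h.bnd
  have hc := h.cm
  have nn := hb.nn
  have hp3 : 0 < pk K 3 := hc.Tl0.trans_le h.T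
  have hτ0 : 0 < mobτ K q.M := div_pos hc.M0 (by positivity)
  have hτM : 2 * mobτ K q.M * pk K 3 = q.M := by
    unfold mobτ
    field_simp
  have hN : (S.card : ℝ) - 1 ≠ 0 := by rw [hb.card]; linarith [hc.N2]
  have hl : mobl S K s q.M * (p.N - 1) = -(mobτ K q.M * p.N + (1 - mobτ K q.M ^ 2) *
      (pk K 1 - mobτ K q.M * pk K 2 + mobτ K q.M ^ 2 * pk K 3) -
      (mobτ K q.M ^ 3 - s * mobτ K q.M ^ 4)) := by
    rw [← hb.card, mobl, div_mul_cancel₀ _ hN]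
  have hcdef : mobc S K s q.M = mobl S K s q.M + (mobτ K q.M ^ 3 - s * mobτ K q.M ^ 4) := by
    unfold mobc; ring
  set τ := mobτ K q.M with hτ
  set l := mobl S K s q.M with hldef
  have hτb0 : 0 < q.τb := by
    by_contra hneg
    have := mul_nonpos_of_nonpos_of_nonneg (not_lt.1 hneg) hc.Tl0.le
    linarith [hc.M0, hc.M6]
  have hτb : τ ≤ q.τb := by
    have h1 : q.τb * p.Tl ≤ q.τb * pk K 3 := by gcongr; exact h.T
    have h2 : τ * pk K 3 ≤ q.τb * pk K 3 := by nlinarith [hc.M6, hc.M0]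
    exact le_of_mul_le_mul_right h2 hp3
  have hτa : τ ≤ q.a0 := hτb.trans hc.M7
  have ha0 : q.a0 ≤ 1 / 10 := by linarith [hc.M9]
  have hτ1 : τ ≤ 1 / 10 := hτa.trans ha0
  have hSl : 0 < q.Sl := by
    by_contra hneg
    have := mul_nonpos_of_nonpos_of_nonneg (not_lt.1 hneg) hc.Tl0.le
    nlinarith [hc.M0, hc.M3]
  have hF := abs_le.1 hb.F
  have hX : |pk K 2 - p.N| ≤ p.X := by simpa [hc.ρ1] using hb.X
  have hp2 : 0 ≤ pk K 2 := pk_even_nonneg hb.symm 1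
  have t2 : τ ^ 2 ≤ q.τb ^ 2 := by gcongr
  have t3 : τ ^ 3 ≤ q.τb ^ 3 := by gcongr
  have e1 : |τ ^ 2 * pk K 1| ≤ q.Sl / 8 := by
    rw [abs_mul, abs_of_nonneg (sq_nonneg τ)]
    calc τ ^ 2 * |pk K 1| ≤ q.τb ^ 2 * p.Fb := by gcongr; exact hb.F
      _ ≤ _ := by linarith [hc.M4]
  have e2 : |τ * (pk K 2 - p.N)| ≤ q.Sl / 8 := by
    rw [abs_mul, abs_of_pos hτ0]
    calc τ * |pk K 2 - p.N| ≤ q.τb * p.X := by gcongr
      _ ≤ _ := by linarith [hc.M2]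
  have e3 : 0 ≤ τ ^ 3 * pk K 2 ∧ τ ^ 3 * pk K 2 ≤ q.Sl / 16 := by
    refine ⟨by positivity, ?_⟩
    calc τ ^ 3 * pk K 2 ≤ q.τb ^ 3 * p.Qb := by gcongr; exact hb.Q
      _ ≤ _ := by linarith [hc.M5]
  have e4 : τ ^ 2 * pk K 3 ≤ q.Sl / 32 := by
    have h1 : q.Sl * p.Tl ≤ q.Sl * pk K 3 := by gcongr; exact h.T
    have h2 : τ ^ 2 * pk K 3 * pk K 3 ≤ q.Sl / 32 * pk K 3 := by
      have : q.M ^ 2 = 4 * (τ ^ 2 * pk K 3 * pk K 3) := by rw [← hτM]; ring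
      linarith [hc.M3]
    exact le_of_mul_le_mul_right h2 hp3
  have e4' : 0 ≤ (1 - τ ^ 2) * (τ ^ 2 * pk K 3) ∧ (1 - τ ^ 2) * (τ ^ 2 * pk K 3) ≤ q.Sl / 32 := by
    have h1 : 0 ≤ 1 - τ ^ 2 := by nlinarith
    have h2 : 0 ≤ τ ^ 2 * pk K 3 := by positivity
    exact ⟨by positivity, by nlinarith [mul_nonneg (sq_nonneg τ) h2]⟩
  have e5 : |τ ^ 3 - s * τ ^ 4| ≤ 2 * τ ^ 3 := by
    have h1 : τ ^ 4 ≤ τ ^ 3 := pow_le_pow_of_le_one hτ0.le (by linarith) (by norm_num)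
    have h2 : 0 ≤ τ ^ 4 := by positivity
    rw [abs_le]
    rcases hb.sgn with rfl | rfl <;> constructor <;> linarith
  have e5' : 2 * τ ^ 3 ≤ q.Sl / 8 := by
    have : q.τb ^ 3 * 1 ≤ q.τb ^ 3 * p.Qb := by gcongr; exact hc.Q1
    linarith [hc.M5]
  have hl' : l * (p.N - 1) = -pk K 1 + τ ^ 2 * pk K 1 + τ * (pk K 2 - p.N) - τ ^ 3 * pk K 2 -
      (1 - τ ^ 2) * (τ ^ 2 * pk K 3) + (τ ^ 3 - s * τ ^ 4) := by rw [hl]; ring
  have e1' := abs_le.1 e1
  have e2' := abs_le.1 e2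
  have e5'' := abs_le.1 e5
  have hN1 : 0 < p.N - 1 := by linarith [hc.N2]
  have hN0 : 0 < p.N := by linarith
  have hl0 : 0 ≤ l := by
    have : 0 ≤ l * (p.N - 1) := by linarith [h.F, e3.2, e4'.2]
    exact nonneg_of_mul_nonneg_left this hN1
  have hlF : l ≤ 4 * p.Fb / p.N := by
    rw [le_div_iff₀ hN0]
    have h1 : l * (p.N - 1) ≤ 2 * p.Fb := by linarith [h.F, e3.1, e4'.1]
    nlinarith [hc.N2]
  have hla : l ≤ q.a0 := hlF.trans (by rw [div_le_iff₀ hN0]; exact hc.M8)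
  have hτ3 : τ ^ 3 ≤ τ := pow_le_of_le_one hτ0.le (by linarith) (by norm_num)
  refine ⟨hτ0, hτb, ?_, hτa, ha0, hτM, hl0, hlF, hla, ?_⟩
  · have : τ * p.Λ ≤ q.τb * p.Λ := by gcongr; exact nn.Λ
    linarith [hc.M1]
  · rw [hcdef, abs_le]
    constructor <;> linarith

theorem Side.mob_sub (h : Side S K s) : mob S K s M - K =
    (mobτ K M + mobl S K s M) • IS S + (-mobτ K M ^ 2) • K +
      (-((1 - mobτ K M ^ 2) * mobτ K M)) • K ^ 2 + ((1 - mobτ K M ^ 2) * mobτ K M ^ 2) • K ^ 3 +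
      (-(mobc S K s M / S.card)) • JS S := by
  rw [h.mob_eq]
  module

omit [DecidableEq ι] in
theorem Mob1_fro_smul (c : ℝ) (X : Mat ι) : fro (c • X) = c ^ 2 * fro X := by
  simp only [fro, Matrix.smul_apply, smul_eq_mul, mul_pow, Finset.mul_sum]

omit [DecidableEq ι] in
theorem Mob1_fro_add5 (A B C D E : Mat ι) :
    fro (A + B + C + D + E) ≤ 5 * (fro A + fro B + fro C + fro D + fro E) := by
  simp only [fro, ← Finset.sum_add_distrib, Finset.mul_sum, Matrix.add_apply]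
  refine Finset.sum_le_sum fun a _ => Finset.sum_le_sum fun b _ => ?_
  nlinarith [sq_nonneg (A a b - B a b), sq_nonneg (A a b - C a b), sq_nonneg (A a b - D a b),
    sq_nonneg (A a b - E a b), sq_nonneg (B a b - C a b), sq_nonneg (B a b - D a b),
    sq_nonneg (B a b - E a b), sq_nonneg (C a b - D a b), sq_nonneg (C a b - E a b),
    sq_nonneg (D a b - E a b)]

/-- five terms -/
theorem MCtx.froY (h : MCtx S K s p q) : fro (mob S K s q.M - K) ≤ 70 * q.Yf p := by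
  have hb := h.bnd
  have hc := h.cm
  have nn := hb.nn
  have sc := h.scal
  have hN0 : 0 < p.N := by linarith [hc.N2]
  obtain ⟨-, -, -, -, -, -, fI, fJ, -, -⟩ := IS_JS S
  rw [hb.toSide.mob_sub]
  refine (Mob1_fro_add5 _ _ _ _ _).trans ?_
  simp only [Mob1_fro_smul]
  rw [fI, fJ, hb.card]
  have h0 := sc.τ0
  have hτb := sc.τb
  have hl0 := sc.l0
  have hcc : mobc S K s q.M ^ 2 ≤ (3 * q.a0) ^ 2 := sq_le_sq' (abs_le.1 sc.c).1 (abs_le.1 sc.c).2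
  set τ := mobτ K q.M with hτ
  set l := mobl S K s q.M with hldef
  have hτ1 : τ ≤ 1 / 10 := sc.τa.trans sc.a0
  have hu0 : 0 ≤ 1 - τ ^ 2 := by nlinarith
  have hu1 : 1 - τ ^ 2 ≤ 1 := by nlinarith
  have f1 : (τ + l) ^ 2 * p.N ≤ 4 * (q.a0 ^ 2 * p.N) := by
    calc (τ + l) ^ 2 * p.N ≤ (q.a0 + q.a0) ^ 2 * p.N := by gcongr; exacts [sc.τa, sc.la]
      _ = _ := by ring
  have f2 : (-τ ^ 2) ^ 2 * fro K ≤ q.τb ^ 4 * p.Qb := by
    calc (-τ ^ 2) ^ 2 * fro K = τ ^ 4 * fro K := by ring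
      _ ≤ _ := by gcongr; exacts [fro_nonneg _, hb.fro_one]
  have f3 : (-((1 - τ ^ 2) * τ)) ^ 2 * fro (K ^ 2) ≤ q.τb ^ 2 * p.P4 := by
    calc (-((1 - τ ^ 2) * τ)) ^ 2 * fro (K ^ 2) = ((1 - τ ^ 2) * τ) ^ 2 * fro (K ^ 2) := by ring
      _ ≤ (1 * q.τb) ^ 2 * p.P4 := by gcongr; exacts [fro_nonneg _, hb.fro_two]
      _ = _ := by ring
  have f4 : ((1 - τ ^ 2) * τ ^ 2) ^ 2 * fro (K ^ 3) ≤ q.τb ^ 4 * p.Λ ^ 6 := by
    calc ((1 - τ ^ 2) * τ ^ 2) ^ 2 * fro (K ^ 3) ≤ (1 * q.τb ^ 2) ^ 2 * p.Λ ^ 6 := by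
          gcongr; exacts [fro_nonneg _, hb.fro_pow 0]
      _ = _ := by ring
  have f5 : (-(mobc S K s q.M / p.N)) ^ 2 * p.N ^ 2 ≤ 9 * (q.a0 ^ 2 * p.N) := by
    calc (-(mobc S K s q.M / p.N)) ^ 2 * p.N ^ 2 = mobc S K s q.M ^ 2 := by field_simp
      _ ≤ 9 * (q.a0 ^ 2 * 1) := by linarith
      _ ≤ _ := by gcongr; linarith [hc.N2]
  have g1 : 0 ≤ q.a0 ^ 2 * p.N := by positivity
  have g2 : 0 ≤ q.τb ^ 2 * p.P4 := mul_nonneg (sq_nonneg _) nn.P4
  have g3 : 0 ≤ q.τb ^ 4 * p.Qb := mul_nonneg (by positivity) nn.Qb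
  have g4 : 0 ≤ q.τb ^ 4 * p.Λ ^ 6 := by positivity
  unfold MPar.Yf
  rw [mul_add (q.τb ^ 4)]
  linarith

theorem MCtx.p1 (h : MCtx S K s p q) : pk (mob S K s q.M) 1 = 0 := by
  have hb := h.bnd
  have hN : (S.card : ℝ) - 1 ≠ 0 := by rw [hb.card]; linarith [h.cm.N2]
  have hN0 : (S.card : ℝ) ≠ 0 := by rw [hb.card]; linarith [h.cm.N2]
  obtain ⟨-, -, -, -, tI, tJ, -⟩ := IS_JS S
  have hl : mobl S K s q.M * (S.card - 1) = -(mobτ K q.M * S.card + (1 - mobτ K q.M ^ 2) *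
      (pk K 1 - mobτ K q.M * pk K 2 + mobτ K q.M ^ 2 * pk K 3) -
      (mobτ K q.M ^ 3 - s * mobτ K q.M ^ 4)) := by
    rw [mobl, div_mul_cancel₀ _ hN]
  unfold pk at hl ⊢
  rw [pow_one] at hl ⊢
  rw [hb.toSide.mob_eq]
  simp only [Matrix.trace_sub, Matrix.trace_add, Matrix.trace_smul, smul_eq_mul, tI, tJ]
  rw [div_mul_cancel₀ _ hN0, mobc]
  linarith

/-- `p₂* = p₂ + 2 tr (K Y) + ‖Y‖²`, `tr (K Y) = (τ+λ) p₁ - τ² p₂ - (1-τ²) τ p₃ + (1-τ²) τ² p₄ - s c N`,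
`2 τ p₃ = M`, `N²/(N+M) = N - M + M²/(N+M)`; `M10`–`M15` -/
theorem MCtx.p2 (h : MCtx S K s p q) :
    |pk (mob S K s q.M) 2 - p.N * (p.N / (p.N + q.M)) - 1| ≤ 1000 * q.Ex := by
  have hb := h.bnd
  have hc := h.cm
  have nn := hb.nn
  have sc := h.scal
  have hN0 : 0 < p.N := by linarith [hc.N2]
  have hY := h.froY
  have hY0 := fro_nonneg (mob S K s q.M - K)
  have hsym : ∀ a b, (mob S K s q.M - K) a b = (mob S K s q.M - K) b a := fun a b => by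
    rw [Matrix.sub_apply, Matrix.sub_apply, mob_symm hb.symm, hb.symm a b]
  have htr : (K * (mob S K s q.M - K)).trace = (mobτ K q.M + mobl S K s q.M) * pk K 1 -
      mobτ K q.M ^ 2 * pk K 2 - (1 - mobτ K q.M ^ 2) * mobτ K q.M * pk K 3 +
      (1 - mobτ K q.M ^ 2) * mobτ K q.M ^ 2 * pk K 4 - s * mobc S K s q.M := by
    obtain ⟨-, -, -, -, -, tJ, -⟩ := IS_JS S
    rw [hb.toSide.mob_sub]
    simp only [Matrix.mul_add, Matrix.mul_smul, hb.toSide.IS_mul.2, hb.toSide.JS_mul.2,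
      Matrix.trace_add, Matrix.trace_smul, smul_eq_mul, tJ, ← pow_succ', ← sq, pk, pow_one,
      Nat.reduceAdd, hb.card]
    field_simp
    ring
  have hp2 : pk (mob S K s q.M) 2 = pk K 2 + 2 * (K * (mob S K s q.M - K)).trace +
      fro (mob S K s q.M - K) := by
    rw [fro_eq_pk2 hsym]
    generalize hYd : mob S K s q.M - K = Y
    have e : mob S K s q.M = K + Y := by rw [← hYd]; abel
    rw [e]
    simp only [pk, sq, Matrix.add_mul, Matrix.mul_add, Matrix.trace_add, Matrix.trace_mul_comm Y K]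
    ring
  rw [hp2, htr]
  have h0 := sc.τ0
  have hτb := sc.τb
  have hl0 := sc.l0
  have hτM := sc.τM
  have hsc : |s * mobc S K s q.M| ≤ 3 * q.a0 := by rw [abs_mul, hb.toSide.abs, one_mul]; exact sc.c
  set τ := mobτ K q.M with hτ
  set l := mobl S K s q.M with hldef
  have hτ1 : τ ≤ 1 / 10 := sc.τa.trans sc.a0
  have hu0 : 0 ≤ 1 - τ ^ 2 := by nlinarith
  have hu1 : 1 - τ ^ 2 ≤ 1 := by nlinarith
  have hM0 := hc.M0
  have hX : |pk K 2 - p.N| ≤ p.X := by simpa [hc.ρ1] using hb.X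
  have hp2' : 0 ≤ pk K 2 := pk_even_nonneg hb.symm 1
  have hp4 : 0 ≤ pk K 4 := pk_even_nonneg hb.symm 2
  have e0 : p.N * (p.N / (p.N + q.M)) = p.N - q.M + q.M ^ 2 / (p.N + q.M) := by
    field_simp
    ring
  have e1 : 0 ≤ q.M ^ 2 / (p.N + q.M) ∧ q.M ^ 2 / (p.N + q.M) ≤ q.Ex := by
    refine ⟨by positivity, ?_⟩
    rw [div_le_iff₀ (by positivity)]
    nlinarith [hc.M12, hc.M11]
  have e2 : |(τ + l) * pk K 1| ≤ 2 * q.Ex := by
    rw [abs_mul, abs_of_nonneg (by positivity)]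
    calc (τ + l) * |pk K 1| ≤ (q.a0 + q.a0) * p.Fb := by
          gcongr
          · linarith [sc.τa]
          · exact sc.τa
          · exact sc.la
          · exact hb.F
      _ ≤ _ := by linarith [hc.M13]
  have e3 : 0 ≤ τ ^ 2 * pk K 2 ∧ τ ^ 2 * pk K 2 ≤ q.τb ^ 2 * p.Qb :=
    ⟨by positivity, by gcongr; exact hb.Q⟩
  have e4 : 0 ≤ τ ^ 2 * q.M ∧ τ ^ 2 * q.M ≤ q.τb ^ 2 * q.M := ⟨by positivity, by gcongr⟩
  have e5 : 0 ≤ (1 - τ ^ 2) * τ ^ 2 * pk K 4 ∧ (1 - τ ^ 2) * τ ^ 2 * pk K 4 ≤ q.τb ^ 2 * p.P4 := by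
    refine ⟨by positivity, ?_⟩
    calc (1 - τ ^ 2) * τ ^ 2 * pk K 4 ≤ 1 * q.τb ^ 2 * p.P4 := by gcongr; exact hb.P4
      _ = _ := by ring
  have e6 : 2 * ((1 - τ ^ 2) * τ * pk K 3) = q.M - τ ^ 2 * q.M := by
    linear_combination (1 - τ ^ 2) * hτM
  have e7 := hc.M14
  rw [mul_add, mul_add] at e7
  have g1 : 0 ≤ q.τb ^ 2 * p.Qb := mul_nonneg (sq_nonneg _) nn.Qb
  have g2 : 0 ≤ q.τb ^ 2 * p.P4 := mul_nonneg (sq_nonneg _) nn.P4
  have g3 : 0 ≤ q.τb ^ 2 * q.M := by positivity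
  have a1 := abs_le.1 hX
  have a2 := abs_le.1 e2
  have a3 := abs_le.1 hsc
  have a4 := sc.a0
  have a5 := hc.M10
  have a6 := hc.M11
  have a7 := hc.M15
  rw [e0, abs_le]
  constructor <;> linarith [e1.1, e1.2, e3.1, e3.2, e4.1, e4.2, e5.1, e5.2]

/-- `p₃* = p₃ + 3 tr (K² Y) + 3 tr (Y K Y) + tr Y³`; `M16`–`M18` (`OpLe Y √(fro Y)`) -/
theorem MCtx.p3 (h : MCtx S K s p q) : |pk (mob S K s q.M) 3| ≤ 1000 * p.t := by
  have hb := h.bnd
  have hc := h.cm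
  have nn := hb.nn
  have hY := h.froY
  generalize hYd : mob S K s q.M - K = Y at hY
  have e : mob S K s q.M = K + Y := by rw [← hYd]; abel
  have hY0 := fro_nonneg Y
  have hYf : 0 ≤ q.Yf p := by linarith
  have ht := nn.t
  have hp3 : pk (K + Y) 3 = pk K 3 + 3 * (K ^ 2 * Y).trace + 3 * (Y * (K * Y)).trace +
      (Y * (Y * Y)).trace := by
    have c1 : (K * (Y * K)).trace = (K * (K * Y)).trace := by
      rw [← Matrix.mul_assoc, Matrix.trace_mul_comm]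
    have c2 : (Y * (K * K)).trace = (K * (K * Y)).trace := by
      rw [Matrix.trace_mul_comm, Matrix.mul_assoc]
    have c3 : (K * (Y * Y)).trace = (Y * (K * Y)).trace := by
      rw [← Matrix.mul_assoc, Matrix.trace_mul_comm]
    have c4 : (Y * (Y * K)).trace = (Y * (K * Y)).trace := by
      rw [← Matrix.mul_assoc, Matrix.trace_mul_comm, c3]
    simp only [pk, pow_succ, pow_zero, Matrix.one_mul, Matrix.add_mul, Matrix.mul_add,
      Matrix.trace_add, Matrix.mul_assoc, c1, c2, c3, c4]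
    ring
  have b1 : |pk K 3| ≤ p.t := by
    rw [pk_eq_sum]
    exact (Finset.abs_sum_le_sum_abs _ _).trans hb.t
  have b2 : |(K ^ 2 * Y).trace| ≤ 9 * p.t := by
    refine (abs_trace_mul_le _ _).trans (sqrt_mul_sqrt_le (fro_nonneg _) ?_ (by positivity))
    calc fro (K ^ 2) * fro Y ≤ p.P4 * (70 * q.Yf p) := by gcongr; exacts [nn.P4, hb.fro_two]
      _ ≤ _ := by nlinarith [hc.M16, sq_nonneg p.t]
  have b3 : |(Y * (K * Y)).trace| ≤ 70 * p.t := by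
    refine (abs_trace_mul_le _ _).trans (sqrt_mul_sqrt_le hY0 ?_ (by positivity))
    have hΛ := nn.Λ
    calc fro Y * fro (K * Y) ≤ fro Y * (p.Λ ^ 2 * fro Y) := by gcongr; exact hb.op.fro_mul_left Y
      _ = (p.Λ * fro Y) ^ 2 := by ring
      _ ≤ (p.Λ * (70 * q.Yf p)) ^ 2 := by gcongr
      _ = (70 * (p.Λ * q.Yf p)) ^ 2 := by ring
      _ ≤ _ := by gcongr; exact hc.M17
  have b4 : |(Y * (Y * Y)).trace| ≤ 586 * p.t := by
    refine (abs_trace_mul_le _ _).trans (sqrt_mul_sqrt_le hY0 ?_ (by positivity))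
    have ho : OpLe Y √(fro Y) := opLe_of_fro (Real.sq_sqrt hY0).ge
    have h1 := ho.fro_mul_left Y
    rw [Real.sq_sqrt hY0] at h1
    calc fro Y * fro (Y * Y) ≤ fro Y * (fro Y * fro Y) := by gcongr
      _ = fro Y ^ 3 := by ring
      _ ≤ (70 * q.Yf p) ^ 3 := by gcongr
      _ ≤ _ := by nlinarith [hc.M18, sq_nonneg p.t]
  have a1 := abs_le.1 b1
  have a2 := abs_le.1 b2
  have a3 := abs_le.1 b3
  have a4 := abs_le.1 b4
  rw [e, hp3, abs_le]
  constructor <;> linarith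

end Crest.Agent.R62
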