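import Crest.Agent.R62.Mob1

/-!
# Row 62: the Möbius step, `tr K⁶` and `WW`
-/

set_option autoImplicit false

open Finset Matrix

noncomputable section

namespace Crest.Agent.R62

variable {ι : Type} [Fintype ι] [DecidableEq ι]
variable {S : Finset ι} {K : Mat ι} {s : ℝ} {p : Par} {q : MPar}

theorem OpLe.add {X Y : Mat ι} {a b : ℝ} (h : OpLe X a) (h' : OpLe Y b) (ha : 0 ≤ a) (hb : 0 ≤ b) :
    OpLe (X + Y) (a + b) := by
  intro v
  have hx := h v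
  have hy := h' v
  rw [Matrix.add_mulVec]
  set x := X *ᵥ v
  set y := Y *ᵥ v
  have hv : 0 ≤ v ⬝ᵥ v := Finset.sum_nonneg fun i _ => mul_self_nonneg _
  have hx0 : 0 ≤ x ⬝ᵥ x := Finset.sum_nonneg fun i _ => mul_self_nonneg _
  have hy0 : 0 ≤ y ⬝ᵥ y := Finset.sum_nonneg fun i _ => mul_self_nonneg _
  have cs : (x ⬝ᵥ y) ^ 2 ≤ (x ⬝ᵥ x) * (y ⬝ᵥ y) := by
    simpa only [dotProduct, sq] using Finset.sum_mul_sq_le_sq_mul_sq Finset.univ x y
  have h1 : x ⬝ᵥ y ≤ a * b * (v ⬝ᵥ v) := by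
    refine (abs_le_of_sq_le_sq' (cs.trans ?_) (by positivity)).2
    calc _ ≤ (a ^ 2 * (v ⬝ᵥ v)) * (b ^ 2 * (v ⬝ᵥ v)) := mul_le_mul hx hy hy0 (by positivity)
      _ = _ := by ring
  rw [add_dotProduct, dotProduct_add, dotProduct_add, dotProduct_comm y x]
  nlinarith

theorem OpLe.smul {X : Mat ι} {a : ℝ} (h : OpLe X a) (c : ℝ) : OpLe (c • X) (|c| * a) := by
  intro v
  rw [Matrix.smul_mulVec, smul_dotProduct, dotProduct_smul, smul_eq_mul, smul_eq_mul, mul_pow,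
    sq_abs, ← mul_assoc, ← sq, mul_assoc]
  exact mul_le_mul_of_nonneg_left (h v) (sq_nonneg c)

theorem fro_add_le (X Y : Mat ι) : √(fro (X + Y)) ≤ √(fro X) + √(fro Y) := by
  have h1 := abs_trace_mul_le Xᵀ Y
  rw [fro_transpose] at h1
  have h2 : fro (X + Y) = fro X + 2 * (Xᵀ * Y).trace + fro Y := by
    have e : (Xᵀ * Y).trace = ∑ a, ∑ b, X a b * Y a b := by
      simp only [Matrix.trace, Matrix.diag, Matrix.mul_apply, Matrix.transpose_apply]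
      exact Finset.sum_comm
    rw [e]
    simp only [fro, Matrix.add_apply, Finset.mul_sum, ← Finset.sum_add_distrib]
    refine Finset.sum_congr rfl fun a _ => Finset.sum_congr rfl fun b _ => ?_
    ring
  rw [Real.sqrt_le_left (by positivity), h2, add_sq, Real.sq_sqrt (fro_nonneg X),
    Real.sq_sqrt (fro_nonneg Y)]
  linarith [le_abs_self (Xᵀ * Y).trace]

theorem Mob2_cube {A D : Mat ι} (h : Commute A D) :
    (A + D) ^ 3 = A ^ 3 + (3 : ℝ) • (A ^ 2 * D) + (3 : ℝ) • (A * D ^ 2) + D ^ 3 := by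
  have h1 : D * A = A * D := h.eq.symm
  have h2 : ∀ X : Mat ι, D * (A * X) = A * (D * X) := fun X => by
    rw [← Matrix.mul_assoc, h1, Matrix.mul_assoc]
  simp only [pow_succ, pow_zero, one_mul, add_mul, mul_add, mul_assoc, h1, h2]
  module

theorem Mob2_sqrt_fro {X Y : Mat ι} {a L : ℝ} (hY : OpLe Y a) (ha : 0 ≤ a) (hL : 0 ≤ L)
    (hX : fro X ≤ L ^ 2) : √(fro (X * Y)) ≤ a * L := by
  rw [Real.sqrt_le_left (by positivity), mul_pow]
  exact (hY.fro_mul_right X).trans (mul_le_mul_of_nonneg_left hX (sq_nonneg a))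

/-- `mob = K R + D`, `R = (1-τ²)(1 - τ K + τ² K²)` (`‖R‖ ≤ 7/4`), `D = (τ+λ) 1_S - c J_S` (`‖D‖ ≤ 1/2`,
`D = 1_S D`), all commuting (`Commute.add_pow` or direct expansion); `‖mob³‖_F ≤ 6 Λ³ + 5 √P4 + 2 √Qb + √N`;
`M19`, `M20`, `M34` -/
theorem MCtx.p6 (h : MCtx S K s p q) : pk (mob S K s q.M) 6 ≤ 1000 * p.Λ ^ 6 := by
  have hs := h.scal
  have hb := h.bnd
  have hS := hb.toSide
  have hN : (0 : ℝ) < S.card := by rw [hb.card]; linarith [h.cm.N2]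
  have hΛ := hb.nn.Λ
  obtain ⟨i1, i2, i3, i4, -, -, i7, -, i9, i10⟩ := IS_JS S
  have hmob := hS.mob_eq (M := q.M)
  set τ := mobτ K q.M with hτ
  set l := mobl S K s q.M with hl
  set c := mobc S K s q.M with hc
  set R : Mat ι := (1 - τ ^ 2) • (1 + (-τ) • K + τ ^ 2 • K ^ 2) with hR
  set D : Mat ι := (τ + l) • IS S + (-(c / S.card)) • JS S with hD
  have hτ0 := hs.τ0
  have hτ1 : τ ≤ 1 / 10 := hs.τa.trans hs.a0
  have e : mob S K s q.M = K * R + D := by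
    rw [hmob, hR, hD]
    simp only [Matrix.mul_smul, Matrix.mul_add, Matrix.mul_one, ← pow_succ', ← sq]
    module
  have cKD : Commute K D := by
    have c1 : Commute K (IS S) := hS.IS_mul.2.trans hS.IS_mul.1.symm
    have c2 : Commute K (JS S) := hS.JS_mul.2.trans hS.JS_mul.1.symm
    exact (c1.smul_right _).add_right (c2.smul_right _)
  have cKR : Commute K R :=
    (((Commute.one_right K).add_right ((Commute.refl K).smul_right _)).add_right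
      (((Commute.refl K).pow_right 2).smul_right _)).smul_right _
  have cRD : Commute R D :=
    (((Commute.one_left D).add_left (cKD.smul_left _)).add_left
      ((cKD.pow_left 2).smul_left _)).smul_left _
  have oR : OpLe R (7 / 4) := by
    have o1 := ((opLe_one.add (hb.op.smul (-τ)) zero_le_one (by positivity)).add
      ((hb.op.pow 2).smul (τ ^ 2)) (by positivity) (by positivity)).smul (1 - τ ^ 2)
    refine o1.mono (by positivity) ?_
    rw [abs_neg, abs_of_pos hτ0, abs_of_nonneg (sq_nonneg τ), abs_of_nonneg (by nlinarith)]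
    have a1 : τ * p.Λ ≤ 1 / 2 := hs.τΛ
    have a0 : 0 ≤ τ * p.Λ := by positivity
    have a2 : τ ^ 2 * p.Λ ^ 2 ≤ 1 / 4 := by rw [← mul_pow]; nlinarith
    have a3 : 0 ≤ τ ^ 2 * p.Λ ^ 2 := by positivity
    calc _ ≤ 1 * (1 + τ * p.Λ + τ ^ 2 * p.Λ ^ 2) := by
          gcongr
          nlinarith
      _ ≤ _ := by linarith
  have oD : OpLe D (1 / 2) := by
    have o1 := (i9.smul (τ + l)).add (i10.smul (-(c / S.card))) (by positivity) (by positivity)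
    refine o1.mono (by positivity) ?_
    rw [abs_neg, abs_div, abs_of_pos hN, div_mul_cancel₀ _ hN.ne', mul_one,
      abs_of_nonneg (by linarith [hs.l0])]
    linarith [hs.τa, hs.la, hs.c, hs.a0]
  have eD : D ^ 3 = IS S * D ^ 3 := by
    have : IS S * D = D := by
      rw [hD, Matrix.mul_add, Matrix.mul_smul, Matrix.mul_smul, i1, i2]
    rw [pow_succ' D 2, ← Matrix.mul_assoc, this]
  have e3 : mob S K s q.M ^ 3 = K ^ 3 * R ^ 3 + K ^ 2 * ((3 : ℝ) • (R ^ 2 * D)) +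
      K * ((3 : ℝ) • (R * D ^ 2)) + IS S * D ^ 3 := by
    rw [e, Mob2_cube (cKD.mul_left cRD), cKR.mul_pow, cKR.mul_pow, ← eD]
    simp only [Matrix.mul_smul, Matrix.mul_assoc]
  have hL : 0 ≤ p.Λ ^ 3 := by positivity
  have eL : (p.Λ ^ 3) ^ 2 = p.Λ ^ 6 := by ring
  have b1 := Mob2_sqrt_fro (X := K ^ 3) (oR.pow 3) (by positivity) hL
    (by rw [eL]; exact hb.fro_pow 0)
  have b2 := Mob2_sqrt_fro (X := K ^ 2) (((oR.pow 2).mul oD).smul 3) (by positivity) hL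
    (by rw [eL]; exact hb.fro_two.trans h.cm.M34)
  have b3 := Mob2_sqrt_fro (X := K) ((oR.mul (oD.pow 2)).smul 3) (by positivity) hL
    (by rw [eL]; exact hb.fro_one.trans h.cm.M19)
  have b4 := Mob2_sqrt_fro (X := IS S) (oD.pow 3) (by positivity) hL
    (by rw [eL, i7, hb.card]; exact h.cm.M20)
  rw [abs_of_pos (by norm_num : (0 : ℝ) < 3)] at b2 b3
  have t : √(fro (mob S K s q.M ^ 3)) ≤ 14 * p.Λ ^ 3 := by
    rw [e3]
    refine (fro_add_le _ _).trans ?_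
    have u1 := fro_add_le (K ^ 3 * R ^ 3 + K ^ 2 * ((3 : ℝ) • (R ^ 2 * D)))
      (K * ((3 : ℝ) • (R * D ^ 2)))
    have u2 := fro_add_le (K ^ 3 * R ^ 3) (K ^ 2 * ((3 : ℝ) • (R ^ 2 * D)))
    nlinarith
  rw [Real.sqrt_le_left (by positivity), fro_pow (mob_symm hb.symm S s q.M) 3, mul_pow, eL] at t
  have : 0 ≤ p.Λ ^ 6 := by positivity
  calc _ ≤ 14 ^ 2 * p.Λ ^ 6 := t
    _ ≤ _ := by nlinarith

theorem Mob2_WW (h : Bnd S K s p) {X : Mat ι} (hX : ∀ a b, X a b = X b a) {A B : ℝ} (hA : 0 ≤ A)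
    (hB : 0 ≤ B) (h1 : ∀ c d, X c d ^ 2 ≤ A * (bb K c * bb K d))
    (h2 : ∀ c, ∑ d, X c d ^ 2 ≤ B * bb K c) :
    WW X ≤ 4 * A * fro X + 8 * A * B * p.Λ ^ 2 * p.V := by
  let φ : ι → ℝ := fun c => if 2 < bb K c then bb K c else 0
  have hb0 := bb_nonneg h.symm
  have hbΛ := OpLe.bb_le h.symm h.op
  have hφ0 : ∀ c, 0 ≤ φ c := fun c => by
    simp only [φ]
    split_ifs
    · exact hb0 c
    · exact le_rfl
  have hΛ : 0 ≤ p.Λ ^ 2 := sq_nonneg _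
  have pt : ∀ c d, bb K c * bb K d ≤ 4 + p.Λ ^ 2 * φ c + p.Λ ^ 2 * φ d := by
    intro c d
    have a1 := mul_nonneg hΛ (hφ0 c)
    have a2 := mul_nonneg hΛ (hφ0 d)
    by_cases hc : 2 < bb K c
    · have : φ c = bb K c := if_pos hc
      rw [this] at a1 ⊢
      nlinarith [mul_le_mul_of_nonneg_left (hbΛ d) (hb0 c)]
    by_cases hd : 2 < bb K d
    · have : φ d = bb K d := if_pos hd
      rw [this] at a2 ⊢
      nlinarith [mul_le_mul_of_nonneg_left (hbΛ c) (hb0 d)]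
    · push Not at hc hd
      nlinarith [mul_le_mul hc hd (hb0 d) (by norm_num)]
  have pt2 : ∀ c d, X c d ^ 4 ≤ 4 * A * X c d ^ 2 + A * p.Λ ^ 2 * (φ c * X c d ^ 2) +
      A * p.Λ ^ 2 * (φ d * X d c ^ 2) := by
    intro c d
    rw [hX d c]
    calc X c d ^ 4 = X c d ^ 2 * X c d ^ 2 := by ring
      _ ≤ (A * (4 + p.Λ ^ 2 * φ c + p.Λ ^ 2 * φ d)) * X c d ^ 2 :=
          mul_le_mul_of_nonneg_right ((h1 c d).trans (mul_le_mul_of_nonneg_left (pt c d) hA))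
            (sq_nonneg _)
      _ = _ := by ring
  have hT : ∑ c, ∑ d, φ c * X c d ^ 2 ≤ 4 * B * p.V := by
    have a1 : ∀ c, ∑ d, φ c * X c d ^ 2 ≤ if c ∈ S then 4 * B * (bb K c - p.ρ) ^ 2 else 0 := by
      intro c
      rw [← Finset.mul_sum]
      refine (mul_le_mul_of_nonneg_left (h2 c) (hφ0 c)).trans ?_
      by_cases hc : 2 < bb K c
      · have e : φ c = bb K c := if_pos hc
        have hcS : c ∈ S := by
          by_contra hn
          rw [h.toSide.bb_supp c hn] at hc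
          norm_num at hc
        rw [e, if_pos hcS]
        have b1 : bb K c ^ 2 ≤ 4 * (bb K c - p.ρ) ^ 2 := by nlinarith [h.ρ1]
        nlinarith [mul_le_mul_of_nonneg_left b1 hB]
      · have e : φ c = 0 := if_neg hc
        rw [e, zero_mul]
        split_ifs
        · positivity
        · exact le_rfl
    refine (Finset.sum_le_sum fun c _ => a1 c).trans ?_
    rw [Finset.sum_ite_mem, Finset.univ_inter, ← Finset.mul_sum]
    exact mul_le_mul_of_nonneg_left h.V (by positivity)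
  calc WW X ≤ ∑ c, ∑ d, (4 * A * X c d ^ 2 + A * p.Λ ^ 2 * (φ c * X c d ^ 2) +
        A * p.Λ ^ 2 * (φ d * X d c ^ 2)) :=
        Finset.sum_le_sum fun c _ => Finset.sum_le_sum fun d _ => pt2 c d
    _ = 4 * A * fro X + A * p.Λ ^ 2 * (∑ c, ∑ d, φ c * X c d ^ 2) +
        A * p.Λ ^ 2 * (∑ c, ∑ d, φ c * X c d ^ 2) := by
        simp only [Finset.sum_add_distrib, ← Finset.mul_sum (a := 4 * A),
          ← Finset.mul_sum (a := A * p.Λ ^ 2), fro]
        rw [Finset.sum_comm (f := fun c d => φ d * X d c ^ 2)]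
    _ ≤ _ := by
        have := mul_le_mul_of_nonneg_left hT (mul_nonneg hA hΛ)
        nlinarith

/-- if `b_c, b_d ≤ 2` then `(K²) c d ⁴ ≤ 4 (K²) c d ²`; if `b_c > 2` then
`∑_d (K²) c d ⁴ ≤ Λ² b_c α₄(c) ≤ Λ⁴ b_c² ≤ 4 Λ⁴ δ̃_c²` -/
theorem Bnd.WW_two (h : Bnd S K s p) : WW (K ^ 2) ≤ 4 * p.P4 + 8 * p.Λ ^ 4 * p.V := by
  have h1 := Mob2_WW h (pow_symm h.symm 2) (A := 1) (B := p.Λ ^ 2) zero_le_one (sq_nonneg _)
    (fun c d => by simpa using OpLe.pow_entry_sq_le h.symm h.op 0 c d)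
    (fun c => by
      rw [sum_pow_sq h.symm]
      exact (le_abs_self _).trans (OpLe.abs_diag_le h.symm h.op h.nn.Λ 2 c))
  have h2 := h.fro_two
  calc _ ≤ _ := h1
    _ = 4 * fro (K ^ 2) + 8 * p.Λ ^ 4 * p.V := by ring
    _ ≤ _ := by linarith

theorem Bnd.WW_three (h : Bnd S K s p) : WW (K ^ 3) ≤ 4 * p.Λ ^ 8 + 8 * p.Λ ^ 8 * p.V := by
  have h1 := Mob2_WW h (pow_symm h.symm 3) (A := p.Λ ^ 2) (B := p.Λ ^ 4) (sq_nonneg _)
    (by positivity) (fun c d => OpLe.pow_entry_sq_le h.symm h.op 1 c d)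
    (fun c => by
      rw [sum_pow_sq h.symm]
      exact (le_abs_self _).trans (OpLe.abs_diag_le h.symm h.op h.nn.Λ 4 c))
  have h2 : fro (K ^ 3) ≤ p.Λ ^ 6 := h.fro_pow 0
  have h3 := mul_le_mul_of_nonneg_left h2 (sq_nonneg p.Λ)
  calc _ ≤ _ := h1
    _ = 4 * (p.Λ ^ 2 * fro (K ^ 3)) + 8 * p.Λ ^ 8 * p.V := by ring
    _ ≤ 4 * (p.Λ ^ 2 * p.Λ ^ 6) + 8 * p.Λ ^ 8 * p.V := by linarith
    _ = _ := by ring

theorem Mob2_WW_add (X Y : Mat ι) : WW (X + Y) ≤ 8 * (WW X + WW Y) := by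
  simp only [WW, ww, ← Finset.sum_add_distrib, Finset.mul_sum, Matrix.add_apply]
  refine Finset.sum_le_sum fun c _ => Finset.sum_le_sum fun d _ => ?_
  generalize X c d = x
  generalize Y c d = y
  nlinarith [sq_nonneg (x ^ 2 - y ^ 2), mul_nonneg (sq_nonneg (x - y)) (sq_nonneg (x + y)),
    mul_nonneg (sq_nonneg (x - y)) (sq_nonneg x), mul_nonneg (sq_nonneg (x - y)) (sq_nonneg y)]

theorem Mob2_WW_smul (c : ℝ) (X : Mat ι) : WW (c • X) = c ^ 4 * WW X := by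
  simp only [WW, ww, Finset.mul_sum, Matrix.smul_apply, smul_eq_mul, mul_pow]

theorem Mob2_WW_sub (X Y : Mat ι) : WW (X - Y) ≤ 8 * (WW X + WW Y) := by
  have h1 := Mob2_WW_add X ((-1 : ℝ) • Y)
  rw [Mob2_WW_smul, neg_one_smul, ← sub_eq_add_neg] at h1
  norm_num at h1 ⊢
  exact h1

theorem Mob2_WW_01 {X : Mat ι} (h : ∀ c d, X c d = 0 ∨ X c d = 1) : WW X = fro X := by
  refine Finset.sum_congr rfl fun c _ => Finset.sum_congr rfl fun d _ => ?_
  rcases h c d with h | h <;> simp [h]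

/-- `(x₁ + … + x₅)⁴ ≤ 125 ∑ x_i⁴`; `M30`–`M33` -/
theorem MCtx.WW_le (h : MCtx S K s p q) : WW (mob S K s q.M) ≤ 100000 * q.Ew := by
  have hs := h.scal
  have hb := h.bnd
  have hS := hb.toSide
  have hN2 := h.cm.N2
  have nn := hb.nn
  obtain ⟨-, -, -, -, -, -, i7, i8, -, -⟩ := IS_JS S
  have wI : WW (IS S) = p.N := by
    rw [Mob2_WW_01, i7, hb.card]
    intro c d
    simp only [IS, Matrix.diagonal_apply]
    split_ifs <;> simp
  have wJ : WW (JS S) = p.N ^ 2 := by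
    rw [Mob2_WW_01, i8, hb.card]
    intro c d
    simp only [JS, Matrix.of_apply]
    split_ifs <;> simp
  rw [hS.mob_eq, hb.card]
  set τ := mobτ K q.M with hτ
  set l := mobl S K s q.M with hl
  set c := mobc S K s q.M with hc
  have hτ0 := hs.τ0
  have hτ1 : τ ≤ 1 / 10 := hs.τa.trans hs.a0
  have ha0 : 0 ≤ q.a0 := hτ0.le.trans hs.τa
  have hΛ := nn.Λ
  have hV := nn.V
  have hP := nn.P4
  have b1 : WW ((τ + l) • IS S) ≤ 16 * q.Ew := by
    rw [Mob2_WW_smul, wI]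
    have a1 : (τ + l) ^ 4 ≤ (2 * q.a0) ^ 4 :=
      pow_le_pow_left₀ (by linarith [hs.l0]) (by linarith [hs.τa, hs.la]) 4
    calc _ ≤ (2 * q.a0) ^ 4 * p.N := mul_le_mul_of_nonneg_right a1 nn.N
      _ = 16 * (q.a0 ^ 4 * p.N) := by ring
      _ ≤ _ := by linarith [h.cm.M31]
  have b2 : WW K ≤ q.Ew := hb.W.trans h.cm.M30
  have b3 : WW (τ • K ^ 2) ≤ 8 * q.Ew := by
    rw [Mob2_WW_smul]
    have a1 : τ ^ 4 ≤ q.τb ^ 4 := pow_le_pow_left₀ hτ0.le hs.τb 4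
    have a2 : WW (K ^ 2) ≤ 8 * (p.P4 + p.Λ ^ 4 * p.V) := by linarith [hb.WW_two]
    calc _ ≤ q.τb ^ 4 * (8 * (p.P4 + p.Λ ^ 4 * p.V)) :=
          mul_le_mul a1 a2 (WW_nonneg _) (by positivity)
      _ = 8 * (q.τb ^ 4 * (p.P4 + p.Λ ^ 4 * p.V)) := by ring
      _ ≤ _ := by linarith [h.cm.M32]
  have b4 : WW (τ ^ 2 • K ^ 3) ≤ 8 * q.Ew := by
    rw [Mob2_WW_smul, ← pow_mul]
    have a1 : τ ^ (2 * 4) ≤ q.τb ^ 8 := pow_le_pow_left₀ hτ0.le hs.τb 8
    have a0 : 0 ≤ p.Λ ^ 8 := by positivity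
    have a2 : WW (K ^ 3) ≤ 8 * (p.Λ ^ 8 * (1 + p.V)) := by linarith [hb.WW_three]
    calc _ ≤ q.τb ^ 8 * (8 * (p.Λ ^ 8 * (1 + p.V))) :=
          mul_le_mul a1 a2 (WW_nonneg _) (by positivity)
      _ = 8 * (q.τb ^ 8 * p.Λ ^ 8 * (1 + p.V)) := by ring
      _ ≤ _ := by linarith [h.cm.M33]
  have b5 : WW ((c / p.N) • JS S) ≤ 81 * q.Ew := by
    rw [Mob2_WW_smul, wJ]
    have hN : 0 < p.N := by linarith
    have a1 : c ^ 4 ≤ (3 * q.a0) ^ 4 := by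
      rw [← Even.pow_abs (by norm_num : Even 4) c]
      exact pow_le_pow_left₀ (abs_nonneg _) hs.c 4
    have a2 : (c / p.N) ^ 4 * p.N ^ 2 = c ^ 4 / p.N ^ 2 := by field_simp
    have a3 : c ^ 4 / p.N ^ 2 ≤ c ^ 4 := div_le_self (by positivity) (by nlinarith)
    have a4 : q.a0 ^ 4 ≤ q.a0 ^ 4 * p.N := le_mul_of_one_le_right (by positivity) (by linarith)
    rw [a2]
    calc _ ≤ (3 * q.a0) ^ 4 := a3.trans a1
      _ = 81 * q.a0 ^ 4 := by ring
      _ ≤ _ := by linarith [h.cm.M31]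
  have c1 := Mob2_WW_sub K (τ • K ^ 2)
  have c2 := Mob2_WW_add (K - τ • K ^ 2) (τ ^ 2 • K ^ 3)
  have c3 : WW ((1 - τ ^ 2) • (K - τ • K ^ 2 + τ ^ 2 • K ^ 3)) ≤
      WW (K - τ • K ^ 2 + τ ^ 2 • K ^ 3) := by
    rw [Mob2_WW_smul]
    refine mul_le_of_le_one_left (WW_nonneg _) (pow_le_one₀ (by nlinarith) (by nlinarith))
  have c4 := Mob2_WW_add ((τ + l) • IS S) ((1 - τ ^ 2) • (K - τ • K ^ 2 + τ ^ 2 • K ^ 3))
  have c5 := Mob2_WW_sub ((τ + l) • IS S + (1 - τ ^ 2) • (K - τ • K ^ 2 + τ ^ 2 • K ^ 3))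
    ((c / p.N) • JS S)
  have hE : 0 ≤ q.Ew := (WW_nonneg K).trans b2
  linarith

end Crest.Agent.R62
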