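import Crest.Agent.R62.Tools
import Crest.Agent.R62.Ident

/-!
# Row 62: second moments and pointwise bounds of the `h_k`, `c_k`

Use the explicit formulas `hh_one … hh_six`, `(x₁ + … + x_m)² ≤ m ∑ x_i²` and for each product
`Wt.sq_prod`, `Wt.sq_mat`.  On the support of `w` (`WtK.alw`): `|r| ≤ ε ≤ 1/100`, `b_a b_b ≤ ζ² Λ²`,
`r_(k+2)² ≤ Λ^(2k) b_a b_b ≤ ζ² Λ^(2k+2)` (`OpLe.pow_entry_sq_le`), `|α_(k+2)| ≤ Λ^k b_a`,
`|δ_b|, |δ̃_b|, b_b ≤ 1 + b_b`, `|α| (1 + b_b) ≤ ζ Λ`.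
Sums: `∑ r² ≤ Qb`, `∑ r₂² ≤ P4 ≤ Λ⁶`, `∑ r_k² ≤ Λ^(2k)` (`k ≥ 3`), `∑ α² ≤ δ`, `∑ b² ≤ Db`, `∑_S δ² ≤ Dm`,
`∑ α₃² ≤ a3`, `∑ α_k² ≤ Λ^(2k-4) B` (`k ≥ 4`).
-/

set_option autoImplicit false
set_option linter.unusedSectionVars false

open Finset Matrix

noncomputable section

namespace Crest.Agent.R62

variable {ι : Type} [Fintype ι] [DecidableEq ι]

/-- the standing hypotheses of the one-sided drift estimates -/
structure Ctx (S : Finset ι) (w : ι → ι → ℝ) (K : Mat ι) (s : ℝ) (p : Par) : Prop where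
  bnd : Bnd S K s p
  wt : Wt S w p
  wk : WtK S w K s p
  gl : Glob p

variable {S : Finset ι} {w : ι → ι → ℝ} {K : Mat ι} {s : ℝ} {p : Par}

theorem Ctx.scal (h : Ctx S w K s p) {a b : ι} (hab : w a b ≠ 0) : Scal K s p.ε a b :=
  h.wk.scal h.bnd.toSide h.gl hab

theorem Ctx.adm (h : Ctx S w K s p) {a b : ι} (hab : w a b ≠ 0) : Adm K s a b :=
  ⟨h.bnd.symm, h.bnd.sgn, (h.wk.alw a b hab).ne, by have := (h.scal hab).h0l; linarith⟩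

/-! ### Second moments of sums -/

/-- `Ew f² ≤ m A`; `m` counts the summands of `f` -/
def SB (w f : ι → ι → ℝ) (m A : ℝ) : Prop := 0 < m ∧ Ew w (fun a b => f a b ^ 2) ≤ m * A

theorem add_sq_le_mom {x y m n : ℝ} (hm : 0 < m) (hn : 0 < n) :
    (x + y) ^ 2 ≤ (m + n) / m * x ^ 2 + (m + n) / n * y ^ 2 := by
  have h : (m + n) / m * x ^ 2 + (m + n) / n * y ^ 2 - (x + y) ^ 2 = (n * x - m * y) ^ 2 / (m * n) := by
    field_simp; ring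
  have h2 : 0 ≤ (n * x - m * y) ^ 2 / (m * n) := by positivity
  linarith

theorem SB.add (hw : Wt S w p) {f g : ι → ι → ℝ} {m n A B : ℝ} (hf : SB w f m A) (hg : SB w g n B) :
    SB w (fun a b => f a b + g a b) (m + n) (A + B) := by
  obtain ⟨hm, hf⟩ := hf
  obtain ⟨hn, hg⟩ := hg
  refine ⟨by linarith, ?_⟩
  have h1 : Ew w (fun a b => (f a b + g a b) ^ 2) ≤
      Ew w (fun a b => (m + n) / m * f a b ^ 2 + (m + n) / n * g a b ^ 2) :=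
    hw.mono fun a b _ => add_sq_le_mom hm hn
  rw [Ew_add, Ew_mul, Ew_mul] at h1
  have h2 : (m + n) / m * Ew w (fun a b => f a b ^ 2) ≤ (m + n) / m * (m * A) :=
    mul_le_mul_of_nonneg_left hf (by positivity)
  have h3 : (m + n) / n * Ew w (fun a b => g a b ^ 2) ≤ (m + n) / n * (n * B) :=
    mul_le_mul_of_nonneg_left hg (by positivity)
  have e2 : (m + n) / m * (m * A) = (m + n) * A := by field_simp
  have e3 : (m + n) / n * (n * B) = (m + n) * B := by field_simp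
  calc _ ≤ _ := h1
    _ ≤ (m + n) * A + (m + n) * B := by linarith
    _ = (m + n) * (A + B) := by ring

theorem SB.neg {f : ι → ι → ℝ} {m A : ℝ} (hf : SB w f m A) : SB w (fun a b => -f a b) m A := by
  refine ⟨hf.1, ?_⟩
  simpa only [neg_sq] using hf.2

theorem SB.abs {f : ι → ι → ℝ} {m A : ℝ} (hf : SB w f m A) : SB w (fun a b => |f a b|) m A := by
  refine ⟨hf.1, ?_⟩
  simpa only [sq_abs] using hf.2

theorem SB.sub (hw : Wt S w p) {f g : ι → ι → ℝ} {m n A B : ℝ} (hf : SB w f m A) (hg : SB w g n B) :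
    SB w (fun a b => f a b - g a b) (m + n) (A + B) := by
  simpa only [sub_eq_add_neg] using SB.add hw hf hg.neg

theorem SB.prod (hw : Wt S w p) {f g : ι → ℝ} {A B : ℝ} (hA : ∑ a ∈ S, f a ^ 2 ≤ A)
    (hB : ∑ b ∈ S, g b ^ 2 ≤ B) : SB w (fun a b => f a * g b) 1 (2 * (A * B)) := by
  refine ⟨one_pos, ?_⟩
  have h1 := hw.sq_prod f g
  have h0 : 0 ≤ ∑ a ∈ S, f a ^ 2 := sum_nonneg fun _ _ => sq_nonneg _
  have h0' : 0 ≤ ∑ a ∈ S, g a ^ 2 := sum_nonneg fun _ _ => sq_nonneg _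
  have h2 : (∑ a ∈ S, f a ^ 2) * ∑ b ∈ S, g b ^ 2 ≤ A * B := mul_le_mul hA hB h0' (h0.trans hA)
  linarith

theorem SB.prod' (hw : Wt S w p) {f g : ι → ℝ} {A B : ℝ} (hA : ∑ a ∈ S, f a ^ 2 ≤ A)
    (hB : ∑ b ∈ S, g b ^ 2 ≤ B) : SB w (fun a b => f b * g a) 1 (2 * (A * B)) := by
  have h := SB.prod hw hB hA
  refine ⟨one_pos, ?_⟩
  have h2 := h.2
  simp only [mul_comm (g _) (f _)] at h2
  rw [mul_comm A B]
  exact h2

theorem SB.mat (hw : Wt S w p) {u : ι → ι → ℝ} {X : Mat ι} {m F : ℝ}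
    (hu : ∀ a b, w a b ≠ 0 → u a b ^ 2 ≤ m) (hm : 0 ≤ m) (hF : fro X ≤ F) :
    SB w (fun a b => u a b * X a b) 1 (2 * (m * F)) := by
  refine ⟨one_pos, ?_⟩
  have h1 : Ew w (fun a b => (u a b * X a b) ^ 2) ≤ Ew w (fun a b => m * X a b ^ 2) :=
    hw.mono fun a b hab => by
      rw [mul_pow]; exact mul_le_mul_of_nonneg_right (hu a b hab) (sq_nonneg _)
  rw [Ew_mul] at h1
  have h2 := hw.sq_mat X
  have h3 : m * Ew w (fun a b => X a b ^ 2) ≤ m * (2 * F) :=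
    mul_le_mul_of_nonneg_left (by linarith) hm
  linarith

theorem SB.mat1 (hw : Wt S w p) {X : Mat ι} {F : ℝ} (hF : fro X ≤ F) :
    SB w (fun a b => X a b) 1 (2 * F) := by
  refine ⟨one_pos, ?_⟩
  have h2 := hw.sq_mat X
  linarith

theorem SB.sq (hw : Wt S w p) {X : Mat ι} {m F : ℝ}
    (hu : ∀ a b, w a b ≠ 0 → X a b ^ 2 ≤ m) (hm : 0 ≤ m) (hF : fro X ≤ F) :
    SB w (fun a b => X a b ^ 2) 1 (2 * (m * F)) := by
  simpa only [pow_two] using SB.mat hw (u := fun a b => X a b) hu hm hF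

/-! ### Pointwise bounds on the support -/

theorem Ctx.swap (h : Ctx S w K s p) {a b : ι} (hab : w a b ≠ 0) : w b a ≠ 0 := by
  rw [h.wt.symm]; exact hab

theorem Ctx.ζ0 (h : Ctx S w K s p) : 0 ≤ p.ζ := by have := h.gl.H12; linarith

theorem Ctx.Λ0 (h : Ctx S w K s p) : 0 ≤ p.Λ := by have := h.bnd.Λ1; linarith

theorem Ctx.b0 (h : Ctx S w K s p) (a : ι) : 0 ≤ bb K a := bb_nonneg h.bnd.symm a

theorem Ctx.r_le (h : Ctx S w K s p) {a b : ι} (hab : w a b ≠ 0) : |K a b| ≤ 1 / 100 := by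
  have := (h.wk.alw a b hab).r
  have := h.gl.H10
  linarith

theorem Ctx.ab_le (h : Ctx S w K s p) {a b : ι} (hab : w a b ≠ 0) : |K a a * K b b| ≤ 1 / 100 := by
  have := (h.wk.alw a b hab).ab
  have := h.gl.H10
  linarith

theorem Ctx.bb_one (h : Ctx S w K s p) {a b : ι} (hab : w a b ≠ 0) :
    bb K a * (1 + bb K b) ≤ p.ζ ^ 2 * p.Λ ^ 2 := by
  have := (h.wk.alw a b hab).bb2
  have := h.b0 b
  nlinarith

theorem Ctx.bb_bb (h : Ctx S w K s p) {a b : ι} (hab : w a b ≠ 0) :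
    bb K a * bb K b ≤ p.ζ ^ 2 * p.Λ ^ 2 := by
  have := h.bb_one hab
  have := h.b0 a
  nlinarith

theorem Ctx.rk_sq (h : Ctx S w K s p) (k : ℕ) {a b : ι} (hab : w a b ≠ 0) :
    (K ^ (k + 2)) a b ^ 2 ≤ p.ζ ^ 2 * p.Λ ^ (2 * k + 2) := by
  have h1 := h.bnd.op.pow_entry_sq_le h.bnd.symm k a b
  have h2 := mul_le_mul_of_nonneg_left (h.bb_bb hab) (pow_nonneg h.Λ0 (2 * k))
  calc _ ≤ _ := h1
    _ ≤ _ := h2
    _ = _ := by ring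

theorem Ctx.rk_abs (h : Ctx S w K s p) (k : ℕ) {a b : ι} (hab : w a b ≠ 0) :
    |(K ^ (k + 2)) a b| ≤ p.ζ * p.Λ ^ (k + 1) := by
  apply abs_le_of_sq_le_sq _ (mul_nonneg h.ζ0 (pow_nonneg h.Λ0 _))
  calc _ ≤ _ := h.rk_sq k hab
    _ = _ := by ring

theorem Ctx.abs_dl (h : Ctx S w K s p) (a : ι) : |bb K a - 1| ≤ 1 + bb K a := by
  have := h.b0 a
  rw [abs_le]; constructor <;> linarith

theorem Ctx.abs_dt (h : Ctx S w K s p) (a : ι) : |bb K a - p.ρ| ≤ 1 + bb K a := by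
  have := h.b0 a
  have := h.bnd.ρ0
  have := h.bnd.ρ1
  rw [abs_le]; constructor <;> linarith

theorem Ctx.abs_bb (h : Ctx S w K s p) (a : ι) : |bb K a| ≤ 1 + bb K a := by
  have := h.b0 a
  rw [abs_le]; constructor <;> linarith

theorem Ctx.diag_mul (h : Ctx S w K s p) (k : ℕ) {a b : ι} (hab : w a b ≠ 0) {x : ℝ}
    (hx : |x| ≤ 1 + bb K b) : |(K ^ (k + 2)) a a * x| ≤ p.ζ ^ 2 * p.Λ ^ (k + 2) := by
  have h1 := h.bnd.op.abs_diag_le h.bnd.symm h.Λ0 k a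
  have h2 := mul_le_mul_of_nonneg_left (h.bb_one hab) (pow_nonneg h.Λ0 k)
  rw [abs_mul]
  calc _ ≤ p.Λ ^ k * bb K a * (1 + bb K b) :=
        mul_le_mul h1 hx (abs_nonneg _) (mul_nonneg (pow_nonneg h.Λ0 _) (h.b0 a))
    _ = p.Λ ^ k * (bb K a * (1 + bb K b)) := by ring
    _ ≤ _ := h2
    _ = _ := by ring

theorem Ctx.al_mul (h : Ctx S w K s p) {a b : ι} (hab : w a b ≠ 0) {x : ℝ}
    (hx : |x| ≤ 1 + bb K b) : |K a a * x| ≤ p.ζ * p.Λ := by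
  rw [abs_mul]
  exact (mul_le_mul_of_nonneg_left hx (abs_nonneg _)).trans (h.wk.alw a b hab).al

theorem Ctx.al_diag (h : Ctx S w K s p) (k : ℕ) {a b : ι} (hab : w a b ≠ 0) :
    |K a a * (K ^ (k + 2)) b b| ≤ p.ζ * p.Λ ^ (k + 1) := by
  have h1 := h.bnd.op.abs_diag_le h.bnd.symm h.Λ0 k b
  have h2 := h.al_mul hab (h.abs_bb b)
  rw [abs_mul, abs_of_nonneg (h.b0 b)] at h2
  rw [abs_mul]
  calc _ ≤ |K a a| * (p.Λ ^ k * bb K b) := mul_le_mul_of_nonneg_left h1 (abs_nonneg _)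
    _ = p.Λ ^ k * (|K a a| * bb K b) := by ring
    _ ≤ p.Λ ^ k * (p.ζ * p.Λ) := mul_le_mul_of_nonneg_left h2 (pow_nonneg h.Λ0 k)
    _ = _ := by ring

theorem Ctx.diag_diag (h : Ctx S w K s p) (i j : ℕ) {a b : ι} (hab : w a b ≠ 0) :
    |(K ^ (i + 2)) a a * (K ^ (j + 2)) b b| ≤ p.ζ ^ 2 * p.Λ ^ (i + j + 2) := by
  have h1 := h.bnd.op.abs_diag_le h.bnd.symm h.Λ0 i a
  have h2 := h.bnd.op.abs_diag_le h.bnd.symm h.Λ0 j b
  have h3 := mul_le_mul_of_nonneg_left (h.bb_bb hab) (pow_nonneg h.Λ0 (i + j))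
  rw [abs_mul]
  calc _ ≤ p.Λ ^ i * bb K a * (p.Λ ^ j * bb K b) :=
        mul_le_mul h1 h2 (abs_nonneg _) (mul_nonneg (pow_nonneg h.Λ0 _) (h.b0 a))
    _ = p.Λ ^ (i + j) * (bb K a * bb K b) := by ring
    _ ≤ _ := h3
    _ = _ := by ring

theorem Ctx.abs_s (h : Ctx S w K s p) (x : ℝ) : |-2 * s * x| = 2 * |x| := by
  rw [abs_mul, abs_mul, h.bnd.toSide.abs]; norm_num

theorem Ctx.abs_s' (h : Ctx S w K s p) (x : ℝ) : |2 * s * x| = 2 * |x| := by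
  rw [abs_mul, abs_mul, h.bnd.toSide.abs]; norm_num

theorem Ctx.abs_r (h : Ctx S w K s p) {a b : ι} (hab : w a b ≠ 0) (x : ℝ) :
    |2 * K a b * x| ≤ |x| := by
  have h1 := h.r_le hab
  rw [abs_mul, abs_mul, abs_two]
  have := abs_nonneg x
  nlinarith

theorem abs_two_mul_le {x y A B : ℝ} (hx : |x| ≤ A) (hy : |y| ≤ B) : |2 * x * y| ≤ 2 * (A * B) := by
  rw [abs_mul, abs_mul, abs_two, mul_assoc]
  have := mul_le_mul hx hy (abs_nonneg _) ((abs_nonneg _).trans hx)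
  linarith

/-- monotonicity of the monomials `ζ^i Λ^j` -/
theorem Ctx.mon (h : Ctx S w K s p) {i j : ℕ} (hij : i ≤ j) :
    p.ζ ^ 2 * p.Λ ^ i ≤ p.ζ ^ 2 * p.Λ ^ j :=
  mul_le_mul_of_nonneg_left (pow_le_pow_right₀ h.bnd.Λ1 hij) (sq_nonneg _)

theorem Ctx.mon1 (h : Ctx S w K s p) {i j : ℕ} (hij : i ≤ j) :
    p.ζ * p.Λ ^ i ≤ p.ζ ^ 2 * p.Λ ^ j := by
  refine le_trans ?_ (h.mon hij)
  refine mul_le_mul_of_nonneg_right ?_ (pow_nonneg h.Λ0 _)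
  have := h.gl.H12
  nlinarith

theorem Ctx.mon0 (h : Ctx S w K s p) {i j : ℕ} (hij : i ≤ j) :
    36 * p.Λ ^ i ≤ p.ζ ^ 2 * p.Λ ^ j := by
  refine le_trans ?_ (h.mon hij)
  refine mul_le_mul_of_nonneg_right ?_ (pow_nonneg h.Λ0 _)
  have := h.gl.H12
  nlinarith

/-! ### The atoms -/

theorem Ctx.sum_le (_h : Ctx S w K s p) {f : ι → ℝ} {A : ℝ} (hf : ∑ a, f a ^ 2 ≤ A) :
    ∑ a ∈ S, f a ^ 2 ≤ A :=
  (sum_le_sum_of_subset_of_nonneg (subset_univ S) fun _ _ _ => sq_nonneg _).trans hf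

theorem Ctx.s1 (h : Ctx S w K s p) : ∑ a ∈ S, K a a ^ 2 ≤ p.δ := h.sum_le h.bnd.sum_diag_sq
theorem Ctx.sb (h : Ctx S w K s p) : ∑ a ∈ S, bb K a ^ 2 ≤ p.Db := h.sum_le h.bnd.sum_bb_sq
theorem Ctx.sd (h : Ctx S w K s p) : ∑ a ∈ S, (bb K a - 1) ^ 2 ≤ p.Dm := h.bnd.sum_dm
theorem Ctx.st (h : Ctx S w K s p) : ∑ a ∈ S, (bb K a - p.ρ) ^ 2 ≤ p.V := h.bnd.V
theorem Ctx.s3 (h : Ctx S w K s p) : ∑ a ∈ S, (K ^ 3) a a ^ 2 ≤ p.a3 := h.sum_le h.bnd.sum_a3_sq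
theorem Ctx.s4 (h : Ctx S w K s p) : ∑ a ∈ S, (K ^ 4) a a ^ 2 ≤ p.Λ ^ 4 * p.B :=
  h.sum_le (h.bnd.sum_ak_sq 0)
theorem Ctx.s5 (h : Ctx S w K s p) : ∑ a ∈ S, (K ^ 5) a a ^ 2 ≤ p.Λ ^ 6 * p.B :=
  h.sum_le (h.bnd.sum_ak_sq 1)
theorem Ctx.s6 (h : Ctx S w K s p) : ∑ a ∈ S, (K ^ 6) a a ^ 2 ≤ p.Λ ^ 8 * p.B :=
  h.sum_le (h.bnd.sum_ak_sq 2)
theorem Ctx.s7 (h : Ctx S w K s p) : ∑ a ∈ S, (K ^ 7) a a ^ 2 ≤ p.Λ ^ 10 * p.B :=
  h.sum_le (h.bnd.sum_ak_sq 3)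
theorem Ctx.f2 (h : Ctx S w K s p) : fro (K ^ 2) ≤ p.P4 := h.bnd.fro_two
theorem Ctx.f3 (h : Ctx S w K s p) : fro (K ^ 3) ≤ p.Λ ^ 6 := h.bnd.fro_pow 0
theorem Ctx.f4 (h : Ctx S w K s p) : fro (K ^ 4) ≤ p.Λ ^ 8 := h.bnd.fro_pow 1
theorem Ctx.f5 (h : Ctx S w K s p) : fro (K ^ 5) ≤ p.Λ ^ 10 := h.bnd.fro_pow 2
theorem Ctx.f6 (h : Ctx S w K s p) : fro (K ^ 6) ≤ p.Λ ^ 12 := h.bnd.fro_pow 3
theorem Ctx.f7 (h : Ctx S w K s p) : fro (K ^ 7) ≤ p.Λ ^ 14 := h.bnd.fro_pow 4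

theorem Ctx.sb_s (h : Ctx S w K s p) {X : Mat ι} {F : ℝ} (hF : fro X ≤ F) :
    SB w (fun a b => -2 * s * X a b) 1 (2 * (4 * F)) :=
  SB.mat h.wt (u := fun _ _ => -2 * s)
    (fun _ _ _ => by rw [mul_pow, h.bnd.toSide.sq]; norm_num) (by norm_num) hF

theorem Ctx.sb_r (h : Ctx S w K s p) {X : Mat ι} {F : ℝ} (hF : fro X ≤ F) :
    SB w (fun a b => 2 * K a b * X a b) 1 (2 * (1 * F)) :=
  SB.mat h.wt (u := fun a b => 2 * K a b)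
    (fun a b hab => by
      have h1 := h.r_le hab
      have h2 := abs_le.1 h1
      nlinarith) (by norm_num) hF

theorem Ctx.sb_rr (h : Ctx S w K s p) (k : ℕ) {X : Mat ι} {F : ℝ} (hF : fro X ≤ F) :
    SB w (fun a b => 2 * (K ^ (k + 2)) a b * X a b) 1
      (2 * (4 * (p.ζ ^ 2 * p.Λ ^ (2 * k + 2)) * F)) :=
  SB.mat h.wt (u := fun a b => 2 * (K ^ (k + 2)) a b)
    (fun a b hab => by
      have h1 := h.rk_sq k hab
      rw [mul_pow]; linarith) (by have := h.Λ0; positivity) hF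

theorem Ctx.sb_sq (h : Ctx S w K s p) (k : ℕ) {F : ℝ} (hF : fro (K ^ (k + 2)) ≤ F) :
    SB w (fun a b => (K ^ (k + 2)) a b ^ 2) 1 (2 * (p.ζ ^ 2 * p.Λ ^ (2 * k + 2) * F)) :=
  SB.sq h.wt (fun _ _ hab => h.rk_sq k hab) (by have := h.Λ0; positivity) hF

theorem Ctx.h1_sq (h : Ctx S w K s p) : Ew w (fun a b => hh K s a b 1 ^ 2) ≤ 100 * p.g1 := by
  have hw := h.wt
  have nn := h.bnd.nn
  simp only [hh_one h.bnd.symm]
  have H := (SB.add hw (SB.sub hw (SB.sub hw (h.sb_s h.f2) (SB.prod hw h.s1 h.sd))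
    (SB.prod' hw h.s1 h.sd)) (h.sb_r h.f2)).2
  refine H.trans ?_
  have := nn.P4
  have := mul_nonneg nn.δ nn.Dm
  unfold Par.g1
  linarith

/-- `r₂⁴ ≤ ζ² Λ² r₂²` -/
theorem Ctx.g2pt_sq (h : Ctx S w K s p) : Ew w (fun a b => g2pt K p.ρ a b ^ 2) ≤ 100 * p.g2 := by
  have hw := h.wt
  have nn := h.bnd.nn
  have hN : ∑ _a ∈ S, (1 : ℝ) ^ 2 ≤ p.N := by simp [h.bnd.card]
  have A1 : SB w (fun a _ => bb K a - p.ρ) 1 (2 * (p.V * p.N)) := by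
    simpa only [mul_one] using SB.prod hw h.st hN
  have A2 : SB w (fun _ b => bb K b - p.ρ) 1 (2 * (p.V * p.N)) := by
    simpa only [mul_one] using SB.prod' hw h.st hN
  have H := (SB.add hw (SB.add hw (SB.add hw (SB.add hw (SB.add hw (SB.add hw (SB.add hw (SB.add hw
    A1.abs A2.abs) (SB.prod hw h.st h.st).abs) (SB.mat1 hw h.f3).abs) (SB.mat1 hw h.bnd.fro_one).abs)
    (SB.prod hw h.s1 h.s3).abs) (SB.prod hw h.s3 h.s1).abs) (h.sb_sq 0 h.f2))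
    (SB.prod hw h.s1 h.s1).abs).2
  refine H.trans ?_
  have := mul_nonneg nn.N nn.V
  have := sq_nonneg p.V
  have := pow_nonneg nn.Λ 6
  have := nn.Qb
  have := mul_nonneg nn.δ nn.a3
  have := mul_nonneg (mul_nonneg (sq_nonneg p.ζ) (sq_nonneg p.Λ)) nn.P4
  have := sq_nonneg p.δ
  unfold Par.g2
  simp only [Nat.reduceMul, Nat.reduceAdd]
  linarith

theorem Ctx.h3_sq (h : Ctx S w K s p) : Ew w (fun a b => hh K s a b 3 ^ 2) ≤ 1000 * p.g3 := by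
  have hw := h.wt
  have nn := h.bnd.nn
  simp only [hh_three h.bnd.symm]
  have H := (SB.sub hw (SB.add hw (SB.add hw (SB.add hw (SB.add hw (SB.sub hw (SB.sub hw (SB.sub hw
    (SB.sub hw (h.sb_s h.f4) (SB.prod hw h.s3 h.sd)) (SB.prod' hw h.s3 h.sd))
    (SB.prod hw h.s1 h.s4)) (SB.prod hw h.s4 h.s1)) (h.sb_r h.f4)) (h.sb_rr 0 h.f3))
    (SB.prod hw h.s1 h.sb)) (SB.prod hw h.sb h.s1)) (h.sb_r h.f2)).2
  refine H.trans ?_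
  have := h.mon0 (le_refl 8)
  have := pow_nonneg nn.Λ 8
  have := mul_nonneg nn.a3 nn.Dm
  have := mul_nonneg nn.δ (mul_nonneg (pow_nonneg nn.Λ 4) nn.B)
  have := mul_nonneg nn.δ nn.Db
  have := nn.P4
  unfold Par.g3
  simp only [Nat.reduceMul, Nat.reduceAdd]
  linarith

theorem Ctx.h4_sq (h : Ctx S w K s p) : Ew w (fun a b => hh K s a b 4 ^ 2) ≤ 1000 * p.g4 := by
  have hw := h.wt
  have nn := h.bnd.nn
  simp only [hh_four h.bnd.symm]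
  have H := (SB.sub hw (SB.add hw (SB.add hw (SB.sub hw (SB.sub hw (SB.sub hw (SB.sub hw
    (SB.sub hw (h.sb_s h.f5) (SB.prod hw h.s4 h.sd)) (SB.prod' hw h.s4 h.sd))
    (SB.prod hw h.s1 h.s5)) (SB.prod hw h.s5 h.s1)) (SB.prod hw h.s3 h.s3))
    (SB.add hw (SB.add hw (h.sb_r h.f5) (h.sb_rr 0 h.f4)) (h.sb_sq 1 h.f3)))
    (SB.add hw (SB.add hw (SB.prod hw h.s1 h.s3) (SB.prod hw h.sb h.sb)) (SB.prod hw h.s3 h.s1)))
    (SB.add hw (h.sb_r h.f3) (h.sb_sq 0 (h.f2.trans h.gl.H5)))).2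
  refine H.trans ?_
  have := h.mon0 (le_refl 10)
  have := h.mon0 (show 6 ≤ 10 by norm_num)
  have := h.mon (show 8 ≤ 10 by norm_num)
  have := pow_nonneg nn.Λ 10
  have := mul_nonneg (mul_nonneg (pow_nonneg nn.Λ 4) nn.B) nn.Dm
  have := mul_nonneg nn.δ (mul_nonneg (pow_nonneg nn.Λ 6) nn.B)
  have := sq_nonneg p.a3
  have := mul_nonneg nn.δ nn.a3
  have := sq_nonneg p.Db
  unfold Par.g4
  simp only [Nat.reduceMul, Nat.reduceAdd]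
  linarith

theorem Ctx.h5_sq (h : Ctx S w K s p) : Ew w (fun a b => hh K s a b 5 ^ 2) ≤ 1000 * p.g5 := by
  have hw := h.wt
  have nn := h.bnd.nn
  simp only [hh_five h.bnd.symm]
  have H := (SB.sub hw (SB.add hw (SB.add hw (SB.sub hw (SB.sub hw (SB.sub hw (SB.sub hw (SB.sub hw
    (SB.sub hw (h.sb_s h.f6) (SB.prod hw h.s5 h.sd)) (SB.prod' hw h.s5 h.sd))
    (SB.prod hw h.s1 h.s6)) (SB.prod hw h.s6 h.s1)) (SB.prod hw h.s3 h.s4)) (SB.prod hw h.s4 h.s3))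
    (SB.add hw (SB.add hw (h.sb_r h.f6) (h.sb_rr 0 h.f5)) (h.sb_rr 1 h.f4)))
    (SB.add hw (SB.add hw (SB.add hw (SB.prod hw h.s1 h.s4) (SB.prod hw h.sb h.s3))
      (SB.prod hw h.s3 h.sb)) (SB.prod hw h.s4 h.s1)))
    (SB.add hw (h.sb_r h.f4) (h.sb_rr 0 h.f3))).2
  refine H.trans ?_
  have := h.mon0 (le_refl 12)
  have := h.mon0 (show 8 ≤ 12 by norm_num)
  have := h.mon (show 8 ≤ 12 by norm_num)
  have := pow_nonneg nn.Λ 12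
  have := mul_nonneg (mul_nonneg (pow_nonneg nn.Λ 6) nn.B) nn.Dm
  have := mul_nonneg nn.δ (mul_nonneg (pow_nonneg nn.Λ 8) nn.B)
  have := mul_nonneg nn.a3 (mul_nonneg (pow_nonneg nn.Λ 4) nn.B)
  have := mul_nonneg nn.δ (mul_nonneg (pow_nonneg nn.Λ 4) nn.B)
  have := mul_nonneg nn.Db nn.a3
  unfold Par.g5
  simp only [Nat.reduceMul, Nat.reduceAdd]
  linarith

theorem Ctx.h6_sq (h : Ctx S w K s p) : Ew w (fun a b => hh K s a b 6 ^ 2) ≤ 1000 * p.g6 := by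
  have hw := h.wt
  have nn := h.bnd.nn
  simp only [hh_six h.bnd.symm]
  have H := (SB.sub hw (SB.add hw (SB.add hw (SB.sub hw (SB.sub hw (SB.sub hw (SB.sub hw (SB.sub hw
    (SB.sub hw (SB.sub hw (h.sb_s h.f7) (SB.prod hw h.s6 h.sd)) (SB.prod' hw h.s6 h.sd))
    (SB.prod hw h.s1 h.s7)) (SB.prod hw h.s7 h.s1)) (SB.prod hw h.s3 h.s5)) (SB.prod hw h.s5 h.s3))
    (SB.prod hw h.s4 h.s4))
    (SB.add hw (SB.add hw (SB.add hw (h.sb_r h.f7) (h.sb_rr 0 h.f6)) (h.sb_rr 1 h.f5))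
      (h.sb_sq 2 h.f4)))
    (SB.add hw (SB.add hw (SB.add hw (SB.add hw (SB.prod hw h.s1 h.s5) (SB.prod hw h.sb h.s4))
      (SB.prod hw h.s3 h.s3)) (SB.prod hw h.s4 h.sb)) (SB.prod hw h.s5 h.s1)))
    (SB.add hw (SB.add hw (h.sb_r h.f5) (h.sb_rr 0 h.f4)) (h.sb_sq 1 h.f3))).2
  refine H.trans ?_
  have := h.mon0 (le_refl 14)
  have := h.mon0 (show 10 ≤ 14 by norm_num)
  have := h.mon (show 10 ≤ 14 by norm_num)
  have := pow_nonneg nn.Λ 14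
  have := mul_nonneg (mul_nonneg (pow_nonneg nn.Λ 8) nn.B) nn.Dm
  have := mul_nonneg nn.δ (mul_nonneg (pow_nonneg nn.Λ 10) nn.B)
  have := mul_nonneg nn.a3 (mul_nonneg (pow_nonneg nn.Λ 6) nn.B)
  have := sq_nonneg (p.Λ ^ 4 * p.B)
  have := mul_nonneg nn.δ (mul_nonneg (pow_nonneg nn.Λ 6) nn.B)
  have := mul_nonneg nn.Db (mul_nonneg (pow_nonneg nn.Λ 4) nn.B)
  have := sq_nonneg p.a3
  unfold Par.g6
  simp only [Nat.reduceMul, Nat.reduceAdd]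
  linarith

theorem g2pt_nonneg (K : Mat ι) (ρ : ℝ) (a b : ι) : 0 ≤ g2pt K ρ a b := by
  unfold g2pt
  positivity

theorem th_le_g2pt (K : Mat ι) (ρ : ℝ) (a b : ι) : th K a b ≤ g2pt K ρ a b := by
  unfold g2pt th
  have := abs_nonneg (bb K a - ρ)
  have := abs_nonneg (bb K b - ρ)
  have := abs_nonneg ((bb K a - ρ) * (bb K b - ρ))
  have := abs_nonneg ((K ^ 3) a b)
  have := abs_nonneg (K a a * (K ^ 3) b b)
  have := abs_nonneg ((K ^ 3) a a * K b b)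
  have := sq_nonneg ((K ^ 2) a b)
  linarith

/-- `δ = δ̃ - μ` -/
theorem Ctx.h2_sub (h : Ctx S w K s p) {a b : ι} (hab : w a b ≠ 0) :
    |hh K s a b 2 - (1 - p.μ ^ 2)| ≤ 3 * g2pt K p.ρ a b := by
  have nn := h.bnd.nn
  have e : hh K s a b 2 - (1 - p.μ ^ 2) = p.μ * (bb K a - p.ρ) + p.μ * (bb K b - p.ρ) -
      (bb K a - p.ρ) * (bb K b - p.ρ) - 2 * s * (K ^ 3) a b - K a a * (K ^ 3) b b -
      (K ^ 3) a a * K b b + 2 * K a b * (K ^ 3) a b + (K ^ 2) a b ^ 2 + K a a * K b b -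
      K a b ^ 2 := by
    rw [hh_two h.bnd.symm]; unfold Par.μ; ring
  have hμ : ∀ x : ℝ, |p.μ * x| ≤ |x| := fun x => by
    rw [abs_mul, abs_of_nonneg nn.μ0]
    exact mul_le_of_le_one_left (abs_nonneg _) nn.μ1
  have h1 := abs_le.1 (hμ (bb K a - p.ρ))
  have h2 := abs_le.1 (hμ (bb K b - p.ρ))
  have h3 := abs_le.1 (le_refl |(bb K a - p.ρ) * (bb K b - p.ρ)|)
  have h4 := abs_le.1 (h.abs_s' ((K ^ 3) a b)).le
  have h5 := abs_le.1 (le_refl |K a a * (K ^ 3) b b|)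
  have h6 := abs_le.1 (le_refl |(K ^ 3) a a * K b b|)
  have h7 := abs_le.1 (h.abs_r hab ((K ^ 3) a b))
  have h8 := sq_nonneg ((K ^ 2) a b)
  have h9 := abs_le.1 (le_refl |K a a * K b b|)
  have h10 : K a b ^ 2 ≤ |K a b| := by
    have := h.r_le hab
    have := abs_nonneg (K a b)
    rw [← sq_abs]; nlinarith
  have h11 := sq_nonneg (K a b)
  have := abs_nonneg (bb K a - p.ρ)
  have := abs_nonneg (bb K b - p.ρ)
  have := abs_nonneg ((bb K a - p.ρ) * (bb K b - p.ρ))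
  have := abs_nonneg (K a a * (K ^ 3) b b)
  have := abs_nonneg ((K ^ 3) a a * K b b)
  have := abs_nonneg (K a a * K b b)
  have := abs_nonneg (K a b)
  rw [e, abs_le]
  unfold g2pt
  constructor <;> linarith [h1.1, h1.2, h2.1, h2.2, h3.1, h3.2, h4.1, h4.2, h5.1, h5.2, h6.1, h6.2,
    h7.1, h7.2, h9.1, h9.2]

/-- `c₂ + (1 - μ²) = -j (h₂ - (1 - μ²)) - (j - 1)(1 - μ²)` -/
theorem Ctx.c2_add (h : Ctx S w K s p) {a b : ι} (hab : w a b ≠ 0) :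
    |cc K s a b 2 + (1 - p.μ ^ 2)| ≤ 7 * g2pt K p.ρ a b := by
  have nn := h.bnd.nn
  have sc := h.scal hab
  have e : cc K s a b 2 + (1 - p.μ ^ 2) = -(jj K s a b * (hh K s a b 2 - (1 - p.μ ^ 2))) -
      (jj K s a b - 1) * (1 - p.μ ^ 2) := by
    unfold cc; ring
  have h1 : |jj K s a b * (hh K s a b 2 - (1 - p.μ ^ 2))| ≤ 21 / 20 * (3 * g2pt K p.ρ a b) := by
    rw [abs_mul, abs_of_nonneg (by linarith [sc.jl])]
    exact mul_le_mul sc.ju (h.h2_sub hab) (abs_nonneg _) (by norm_num)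
  have hμ : |1 - p.μ ^ 2| ≤ 1 := by
    have := nn.μ0
    have := nn.μ1
    rw [abs_le]; constructor <;> nlinarith
  have h2 : |(jj K s a b - 1) * (1 - p.μ ^ 2)| ≤ 3 * th K a b := by
    rw [abs_mul]
    exact (mul_le_of_le_one_right (abs_nonneg _) hμ).trans sc.j1
  have h3 := th_le_g2pt K p.ρ a b
  have h4 := g2pt_nonneg K p.ρ a b
  have h1' := abs_le.1 h1
  have h2' := abs_le.1 h2
  rw [e, abs_le]
  constructor <;> linarith [h1'.1, h1'.2, h2'.1, h2'.2]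

theorem Ctx.abs_cc_le (h : Ctx S w K s p) {a b : ι} (hab : w a b ≠ 0) (k : ℕ) :
    |cc K s a b k| ≤ 21 / 20 * |hh K s a b k| := by
  have sc := h.scal hab
  unfold cc
  rw [abs_neg, abs_mul, abs_of_nonneg (by linarith [sc.jl])]
  exact mul_le_mul_of_nonneg_right sc.ju (abs_nonneg _)

theorem Ctx.abs_cc_add_le (h : Ctx S w K s p) {a b : ι} (hab : w a b ≠ 0) (k : ℕ) :
    |cc K s a b k + hh K s a b k| ≤ 3 * |th K a b * hh K s a b k| := by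
  have sc := h.scal hab
  have e : cc K s a b k + hh K s a b k = -((jj K s a b - 1) * hh K s a b k) := by
    unfold cc; ring
  rw [e, abs_neg, abs_mul, abs_mul, abs_of_nonneg sc.th0, ← mul_assoc]
  exact mul_le_mul_of_nonneg_right sc.j1 (abs_nonneg _)

theorem Ctx.c1_le (h : Ctx S w K s p) {a b : ι} (hab : w a b ≠ 0) :
    |cc K s a b 1| ≤ 6 * (p.ζ * p.Λ) := by
  refine (h.abs_cc_le hab 1).trans ?_
  have hba := h.swap hab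
  have r2 : |(K ^ 2) a b| ≤ p.ζ * p.Λ := by simpa using h.rk_abs 0 hab
  have h1 := abs_le.1 ((h.abs_s ((K ^ 2) a b)).le.trans (mul_le_mul_of_nonneg_left r2 zero_le_two))
  have h2 := abs_le.1 (h.al_mul hab (h.abs_dl b))
  have h3 := abs_le.1 (h.al_mul hba (h.abs_dl a))
  have h4 := abs_le.1 ((h.abs_r hab ((K ^ 2) a b)).trans r2)
  have : |hh K s a b 1| ≤ 5 * (p.ζ * p.Λ) := by
    rw [hh_one h.bnd.symm, abs_le]
    constructor <;> linarith [h1.1, h1.2, h2.1, h2.2, h3.1, h3.2, h4.1, h4.2]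
  have := mul_nonneg h.ζ0 h.Λ0
  linarith

theorem Ctx.g2pt_le (h : Ctx S w K s p) {a b : ι} (hab : w a b ≠ 0) :
    g2pt K p.ρ a b ≤ 9 * (p.ζ ^ 2 * p.Λ ^ 2) := by
  have hba := h.swap hab
  have hbb := (h.wk.alw a b hab).bb2
  have ha := h.b0 a
  have hb := h.b0 b
  have h1 : |bb K a - p.ρ| ≤ p.ζ ^ 2 * p.Λ ^ 2 := by
    have := h.abs_dt a
    nlinarith
  have h2 : |bb K b - p.ρ| ≤ p.ζ ^ 2 * p.Λ ^ 2 := by
    have := h.abs_dt b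
    nlinarith
  have h3 : |(bb K a - p.ρ) * (bb K b - p.ρ)| ≤ p.ζ ^ 2 * p.Λ ^ 2 := by
    rw [abs_mul]
    exact (mul_le_mul (h.abs_dt a) (h.abs_dt b) (abs_nonneg _) (by linarith)).trans hbb
  have h4 : |(K ^ 3) a b| ≤ p.ζ ^ 2 * p.Λ ^ 2 := (h.rk_abs 1 hab).trans (h.mon1 le_rfl)
  have h36 : 36 ≤ p.ζ ^ 2 * p.Λ ^ 2 := by simpa using h.mon0 (show 0 ≤ 2 by norm_num)
  have h5 := h.r_le hab
  have h6 : |K a a * (K ^ 3) b b| ≤ p.ζ ^ 2 * p.Λ ^ 2 := (h.al_diag 1 hab).trans (h.mon1 le_rfl)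
  have h7 : |(K ^ 3) a a * K b b| ≤ p.ζ ^ 2 * p.Λ ^ 2 := by
    rw [mul_comm]; exact (h.al_diag 1 hba).trans (h.mon1 le_rfl)
  have h8 : (K ^ 2) a b ^ 2 ≤ p.ζ ^ 2 * p.Λ ^ 2 := h.rk_sq 0 hab
  have h9 := h.ab_le hab
  unfold g2pt
  linarith

theorem Ctx.c2_le (h : Ctx S w K s p) {a b : ι} (hab : w a b ≠ 0) :
    |cc K s a b 2| ≤ 30 * (p.ζ ^ 2 * p.Λ ^ 2) := by
  refine (h.abs_cc_le hab 2).trans ?_
  have nn := h.bnd.nn
  have h1 := abs_le.1 (h.h2_sub hab)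
  have h2 := h.g2pt_le hab
  have h36 : 36 ≤ p.ζ ^ 2 * p.Λ ^ 2 := by simpa using h.mon0 (show 0 ≤ 2 by norm_num)
  have hμ0 := sq_nonneg p.μ
  have hμ1 : p.μ ^ 2 ≤ 1 := by have := nn.μ0; have := nn.μ1; nlinarith
  have : |hh K s a b 2| ≤ 28 * (p.ζ ^ 2 * p.Λ ^ 2) := by
    rw [abs_le]; constructor <;> linarith [h1.1, h1.2]
  linarith

theorem Ctx.c3_le (h : Ctx S w K s p) {a b : ι} (hab : w a b ≠ 0) :
    |cc K s a b 3| ≤ 20 * (p.ζ ^ 2 * p.Λ ^ 3) := by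
  refine (h.abs_cc_le hab 3).trans ?_
  have hba := h.swap hab
  have r2 : |(K ^ 2) a b| ≤ p.ζ * p.Λ ^ 1 := h.rk_abs 0 hab
  have r3 : |(K ^ 3) a b| ≤ p.ζ * p.Λ ^ 2 := h.rk_abs 1 hab
  have r4 : |(K ^ 4) a b| ≤ p.ζ ^ 2 * p.Λ ^ 3 := (h.rk_abs 2 hab).trans (h.mon1 le_rfl)
  have m13 : p.ζ * p.Λ ≤ p.ζ ^ 2 * p.Λ ^ 3 := by simpa using h.mon1 (show 1 ≤ 3 by norm_num)
  have h1 := abs_le.1 ((h.abs_s ((K ^ 4) a b)).le.trans (mul_le_mul_of_nonneg_left r4 zero_le_two))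
  have h2 := abs_le.1 (show |(K ^ 3) a a * (bb K b - 1)| ≤ p.ζ ^ 2 * p.Λ ^ 3 from
    h.diag_mul 1 hab (h.abs_dl b))
  have h3 := abs_le.1 (show |(K ^ 3) b b * (bb K a - 1)| ≤ p.ζ ^ 2 * p.Λ ^ 3 from
    h.diag_mul 1 hba (h.abs_dl a))
  have h4 := abs_le.1 (show |K a a * (K ^ 4) b b| ≤ p.ζ ^ 2 * p.Λ ^ 3 from
    (h.al_diag 2 hab).trans (h.mon1 le_rfl))
  have h5 := abs_le.1 (show |K b b * (K ^ 4) a a| ≤ p.ζ ^ 2 * p.Λ ^ 3 from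
    (h.al_diag 2 hba).trans (h.mon1 le_rfl))
  have h6 := abs_le.1 ((h.abs_r hab ((K ^ 4) a b)).trans r4)
  have h7 := abs_le.1 (show |2 * (K ^ 2) a b * (K ^ 3) a b| ≤ 2 * (p.ζ ^ 2 * p.Λ ^ 3) from
    (abs_two_mul_le r2 r3).trans_eq (by ring))
  have h8 := abs_le.1 ((h.al_mul hab (h.abs_bb b)).trans m13)
  have h9 := abs_le.1 ((h.al_mul hba (h.abs_bb a)).trans m13)
  have h10 := abs_le.1 (((h.abs_r hab ((K ^ 2) a b)).trans r2).trans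
    (h.mon1 (show 1 ≤ 3 by norm_num)))
  have : |hh K s a b 3| ≤ 12 * (p.ζ ^ 2 * p.Λ ^ 3) := by
    rw [hh_three h.bnd.symm, abs_le]
    constructor <;> linarith [h1.1, h1.2, h2.1, h2.2, h3.1, h3.2, h4.1, h4.2, h5.1, h5.2, h6.1, h6.2,
      h7.1, h7.2, h8.1, h8.2, h9.1, h9.2, h10.1, h10.2]
  have := mul_nonneg (sq_nonneg p.ζ) (pow_nonneg h.Λ0 3)
  linarith

theorem Ctx.c4_le (h : Ctx S w K s p) {a b : ι} (hab : w a b ≠ 0) :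
    |cc K s a b 4| ≤ 30 * (p.ζ ^ 2 * p.Λ ^ 4) := by
  refine (h.abs_cc_le hab 4).trans ?_
  have hba := h.swap hab
  have r2 : |(K ^ 2) a b| ≤ p.ζ * p.Λ ^ 1 := h.rk_abs 0 hab
  have r3 : |(K ^ 3) a b| ≤ p.ζ * p.Λ ^ 2 := h.rk_abs 1 hab
  have r4 : |(K ^ 4) a b| ≤ p.ζ * p.Λ ^ 3 := h.rk_abs 2 hab
  have r5 : |(K ^ 5) a b| ≤ p.ζ ^ 2 * p.Λ ^ 4 := (h.rk_abs 3 hab).trans (h.mon1 le_rfl)
  have h1 := abs_le.1 ((h.abs_s ((K ^ 5) a b)).le.trans (mul_le_mul_of_nonneg_left r5 zero_le_two))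
  have h2 := abs_le.1 (show |(K ^ 4) a a * (bb K b - 1)| ≤ p.ζ ^ 2 * p.Λ ^ 4 from
    h.diag_mul 2 hab (h.abs_dl b))
  have h3 := abs_le.1 (show |(K ^ 4) b b * (bb K a - 1)| ≤ p.ζ ^ 2 * p.Λ ^ 4 from
    h.diag_mul 2 hba (h.abs_dl a))
  have h4 := abs_le.1 (show |K a a * (K ^ 5) b b| ≤ p.ζ ^ 2 * p.Λ ^ 4 from
    (h.al_diag 3 hab).trans (h.mon1 le_rfl))
  have h5 := abs_le.1 (show |K b b * (K ^ 5) a a| ≤ p.ζ ^ 2 * p.Λ ^ 4 from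
    (h.al_diag 3 hba).trans (h.mon1 le_rfl))
  have h6 := abs_le.1 (show |(K ^ 3) a a * (K ^ 3) b b| ≤ p.ζ ^ 2 * p.Λ ^ 4 from
    h.diag_diag 1 1 hab)
  have h7 := abs_le.1 ((h.abs_r hab ((K ^ 5) a b)).trans r5)
  have h8 := abs_le.1 (show |2 * (K ^ 2) a b * (K ^ 4) a b| ≤ 2 * (p.ζ ^ 2 * p.Λ ^ 4) from
    (abs_two_mul_le r2 r4).trans_eq (by ring))
  have h9 : (K ^ 3) a b ^ 2 ≤ p.ζ ^ 2 * p.Λ ^ 4 := h.rk_sq 1 hab
  have h9' := sq_nonneg ((K ^ 3) a b)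
  have h10 := abs_le.1 (show |K a a * (K ^ 3) b b| ≤ p.ζ ^ 2 * p.Λ ^ 4 from
    (h.al_diag 1 hab).trans (h.mon1 (by norm_num)))
  have h11 : bb K a * bb K b ≤ p.ζ ^ 2 * p.Λ ^ 4 := (h.bb_bb hab).trans (h.mon (by norm_num))
  have h11' := mul_nonneg (h.b0 a) (h.b0 b)
  have h12 := abs_le.1 (show |K b b * (K ^ 3) a a| ≤ p.ζ ^ 2 * p.Λ ^ 4 from
    (h.al_diag 1 hba).trans (h.mon1 (by norm_num)))
  have h13 := abs_le.1 (((h.abs_r hab ((K ^ 3) a b)).trans r3).trans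
    (h.mon1 (show 2 ≤ 4 by norm_num)))
  have h14 : (K ^ 2) a b ^ 2 ≤ p.ζ ^ 2 * p.Λ ^ 4 := (h.rk_sq 0 hab).trans (h.mon (by norm_num))
  have h14' := sq_nonneg ((K ^ 2) a b)
  have h0 := mul_nonneg (sq_nonneg p.ζ) (pow_nonneg h.Λ0 4)
  have : |hh K s a b 4| ≤ 16 * (p.ζ ^ 2 * p.Λ ^ 4) := by
    rw [hh_four h.bnd.symm, abs_le]
    constructor <;> linarith [h1.1, h1.2, h2.1, h2.2, h3.1, h3.2, h4.1, h4.2, h5.1, h5.2, h6.1, h6.2,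
      h7.1, h7.2, h8.1, h8.2, h10.1, h10.2, h12.1, h12.2, h13.1, h13.2]
  linarith

theorem Ctx.cc_sq_le (h : Ctx S w K s p) (k : ℕ) :
    Ew w (fun a b => cc K s a b k ^ 2) ≤ 6 / 5 * Ew w (fun a b => hh K s a b k ^ 2) := by
  rw [← Ew_mul]
  refine h.wt.mono fun a b hab => ?_
  have h1 := pow_le_pow_left₀ (abs_nonneg _) (h.abs_cc_le hab k) 2
  rw [mul_pow, sq_abs, sq_abs] at h1
  have := sq_nonneg (hh K s a b k)
  linarith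

theorem Ctx.c1_sq (h : Ctx S w K s p) : Ew w (fun a b => cc K s a b 1 ^ 2) ≤ 120 * p.g1 := by
  linarith [h.cc_sq_le 1, h.h1_sq]

/-- `|c₂| ≤ 1 + 7 g2pt` -/
theorem Ctx.c2_sq (h : Ctx S w K s p) :
    Ew w (fun a b => cc K s a b 2 ^ 2) ≤ 10000 * (p.N ^ 2 + p.g2) := by
  have nn := h.bnd.nn
  have h1 : Ew w (fun a b => cc K s a b 2 ^ 2) ≤
      Ew w (fun a b => 2 * 1 + 98 * g2pt K p.ρ a b ^ 2) := by
    refine h.wt.mono fun a b hab => ?_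
    have h2 := abs_le.1 (h.c2_add hab)
    have hμ0 := sq_nonneg p.μ
    have hμ1 : p.μ ^ 2 ≤ 1 := by have := nn.μ0; have := nn.μ1; nlinarith
    have h3 : |cc K s a b 2| ≤ 1 + 7 * g2pt K p.ρ a b := by
      rw [abs_le]; constructor <;> linarith [h2.1, h2.2]
    have h4 := pow_le_pow_left₀ (abs_nonneg _) h3 2
    rw [sq_abs] at h4
    nlinarith [sq_nonneg (1 - 7 * g2pt K p.ρ a b)]
  rw [Ew_add, Ew_mul, Ew_mul] at h1
  have h2 := h.wt.Z_le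
  rw [h.bnd.card] at h2
  have h3 := h.g2pt_sq
  have := sq_nonneg p.N
  have := nn.g2
  linarith

theorem Ctx.c3_sq (h : Ctx S w K s p) : Ew w (fun a b => cc K s a b 3 ^ 2) ≤ 1200 * p.g3 := by
  linarith [h.cc_sq_le 3, h.h3_sq]

theorem Ctx.c4_sq (h : Ctx S w K s p) : Ew w (fun a b => cc K s a b 4 ^ 2) ≤ 1200 * p.g4 := by
  linarith [h.cc_sq_le 4, h.h4_sq]

theorem Ctx.c5_sq (h : Ctx S w K s p) : Ew w (fun a b => cc K s a b 5 ^ 2) ≤ 1200 * p.g5 := by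
  linarith [h.cc_sq_le 5, h.h5_sq]

theorem Ctx.Z_le (h : Ctx S w K s p) : Ew w (fun _ _ => 1) ≤ 2 * p.N ^ 2 := by
  have h2 := h.wt.Z_le
  rwa [h.bnd.card] at h2

theorem Ctx.Z_sub (h : Ctx S w K s p) : |Ew w (fun _ _ => 1) - p.N ^ 2| ≤ p.θ * p.N ^ 2 := by
  have h2 := h.wt.Z
  rw [h.bnd.card] at h2
  refine h2.trans ?_
  have := mul_le_mul_of_nonneg_right h.gl.H1 h.gl.N0.le
  linarith [show p.θ * p.N * p.N = p.θ * p.N ^ 2 by ring]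

/-- `Ew (f a) ≥ (N - κ₂ √N) ∑ f` for `f ≥ 0` (`Wt.row_sum`) -/
theorem Ctx.left_ge (h : Ctx S w K s p) {f : ι → ℝ} (hf : ∀ a, 0 ≤ f a) :
    (p.N - p.κ2 * √p.N) * ∑ a ∈ S, f a ≤ Ew w (fun a _ => f a) := by
  rw [h.wt.eq_sum, mul_sum]
  refine sum_le_sum fun a ha => ?_
  rw [← sum_mul]
  refine mul_le_mul_of_nonneg_right ?_ (hf a)
  have h1 := abs_le.1 (h.wt.row_sum a ha)
  rw [h.bnd.card] at h1
  linarith [h1.1]

end Crest.Agent.R62
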