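import Crest.Agent.R62.Sched
import Crest.Agent.R62.Init

/-!
# Row 62: the remaining numerical facts

Everything is a comparison of monomials in `y` (`pow_le_pow_right₀`, `div_le_iff₀`, `pow_add`); never let
`norm_num`/`simp` evaluate `5 ^ 4000`.  `1 ≤ xi N₀ N ≤ 5^4000 ≤ y` for `0 ≤ N ≤ N₀`; `y^12000 ≤ N₀ ≤ y^12002`,
`|T| ≤ N₀ k + 1`.
-/

set_option autoImplicit false

noncomputable section

namespace Crest.Agent.R62

variable {y k N₀ T N g : ℝ}

theorem numR_c {c : ℝ} {a b : ℕ} (hy : 10 ^ 20 ≤ y) (hc : c ≤ 10 ^ 20) (h : a + 1 ≤ b) :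
    c * y ^ a ≤ y ^ b := by
  have h1 : (1 : ℝ) ≤ y := le_trans (by norm_num) hy
  calc c * y ^ a ≤ y * y ^ a := mul_le_mul_of_nonneg_right (hc.trans hy) (by positivity)
    _ = y ^ (a + 1) := by rw [pow_succ']
    _ ≤ y ^ b := pow_le_pow_right₀ h1 h

theorem numR_inv {a : ℕ} (hy : 1 ≤ y) : 1 / y ^ a ≤ 1 := by
  rw [div_le_one (by positivity)]
  exact one_le_pow₀ hy

/-- `x / y^b ≤ 1/c` from `x ≤ d y^a` -/
theorem numR_small {x c d : ℝ} {a b : ℕ} (hy : 10 ^ 20 ≤ y) (hc : 0 < c) (hx : x ≤ d * y ^ a)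
    (hcd : c * d ≤ 10 ^ 20) (h : a + 1 ≤ b) : 1 / y ^ b * x ≤ 1 / c := by
  have h0 : (0 : ℝ) < y := lt_of_lt_of_le (by norm_num) hy
  rw [one_div_mul_eq_div, div_le_div_iff₀ (by positivity) hc, one_mul]
  calc x * c ≤ d * y ^ a * c := mul_le_mul_of_nonneg_right hx hc.le
    _ = c * d * y ^ a := by ring
    _ ≤ y ^ b := numR_c hy hcd h

/-- basic consequences of `YOK` -/
structure NumR (y k N₀ T : ℝ) : Prop where
  y1 : 1 ≤ y
  y0 : 0 < y
  k2 : k ^ 2 ≤ y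
  ky : k ≤ y
  lo : y ^ 12000 ≤ N₀
  hi : N₀ ≤ y ^ 12002
  yN : 2 * y ≤ N₀
  N10 : 10 ≤ N₀
  NN : 2 * N₀ ≤ N₀ ^ 2
  lo2 : y ^ 24000 ≤ N₀ ^ 2
  T : |T| ≤ N₀ ^ 2

theorem YOK.numR (h : YOK y k N₀ T) : NumR y k N₀ T := by
  have hy := h.y20
  have y1 : (1 : ℝ) ≤ y := le_trans (by norm_num) hy
  have y0 : (0 : ℝ) < y := by linarith
  have hk := h.k2
  have k2 : k ^ 2 ≤ y := by nlinarith [h.ky]
  have ky : k ≤ y := by nlinarith
  have lo : y ^ 12000 ≤ N₀ :=
    (le_mul_of_one_le_right (by positivity) (by linarith)).trans h.lo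
  have hi : N₀ ≤ y ^ 12002 := by
    refine h.hi.trans ?_
    rw [pow_succ y 12001]
    exact mul_le_mul_of_nonneg_left ky (by positivity)
  have yN : 2 * y ≤ N₀ := by
    have := numR_c (c := 2) (a := 1) (b := 12000) hy (by norm_num) (by norm_num)
    rw [pow_one] at this
    exact this.trans lo
  have N10 : 10 ≤ N₀ := by
    have : (10 : ℝ) ≤ y := le_trans (by norm_num) hy
    linarith
  refine ⟨y1, y0, k2, ky, lo, hi, yN, N10, by nlinarith, ?_, ?_⟩
  · rw [show 24000 = 12000 * 2 from rfl, pow_mul]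
    exact pow_le_pow_left₀ (by positivity) lo 2
  · have k0 : 0 < k := by linarith
    have s1 : 1 ≤ √k := Real.one_le_sqrt.2 (by linarith)
    have a0 : 0 ≤ (k ^ 2 - 1) / k := div_nonneg (by nlinarith) k0.le
    have a1 : (k ^ 2 - 1) / k ≤ k := by
      rw [div_le_iff₀ k0]
      nlinarith
    have b0 : 0 ≤ 1 / √k := by positivity
    have b1 : 1 / √k ≤ 1 := by
      rw [div_le_one (by linarith)]
      exact s1
    have c0 : 0 ≤ (k ^ 2 - 1) / k * (1 / √k) := mul_nonneg a0 b0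
    have c1 : (k ^ 2 - 1) / k * (1 / √k) ≤ k := by
      calc (k ^ 2 - 1) / k * (1 / √k) ≤ k * 1 := mul_le_mul a1 b1 b0 k0.le
        _ = k := mul_one k
    have hT := abs_le.1 h.T
    have d0 : 0 ≤ N₀ * ((k ^ 2 - 1) / k * (1 / √k)) := mul_nonneg (by linarith) c0
    have d1 : N₀ * ((k ^ 2 - 1) / k * (1 / √k)) ≤ N₀ * (N₀ / 2) :=
      mul_le_mul_of_nonneg_left (by linarith) (by linarith)
    rw [abs_le]
    constructor <;> nlinarith [hT.1, hT.2]

theorem NumR.pw (h : NumR y k N₀ T) {a : ℕ} (ha : a ≤ 24000) : y ^ a ≤ N₀ ^ 2 :=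
  (pow_le_pow_right₀ h.y1 ha).trans h.lo2

theorem NumR.one (h : NumR y k N₀ T) : 1 ≤ N₀ ^ 2 := by
  linarith [h.NN, h.N10]

theorem NumR.inv (h : NumR y k N₀ T) (a : ℕ) : 1 / y ^ a ≤ N₀ ^ 2 := (numR_inv h.y1).trans h.one

theorem NumR.kx (h : NumR y k N₀ T) {a : ℕ} (ha : a ≤ 24000) : 1 ≤ 1 / y ^ a * N₀ ^ 2 := by
  have := h.y0
  rw [one_div_mul_eq_div, le_div_iff₀ (by positivity), one_mul]
  exact h.pw ha

theorem NumR.grid (h : NumR y k N₀ T) (hg : N₀ ^ 42 ≤ g) : N₀ ^ 40 ≤ g * (1 / (y * N₀)) := by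
  have y0 := h.y0
  have N0 : 0 < N₀ := by linarith [h.N10]
  rw [mul_one_div, le_div_iff₀ (by positivity)]
  refine le_trans ?_ hg
  calc N₀ ^ 40 * (y * N₀) ≤ N₀ ^ 40 * (N₀ * N₀) := by
        refine mul_le_mul_of_nonneg_left (mul_le_mul_of_nonneg_right ?_ N0.le) (by positivity)
        linarith [h.yN]
    _ = N₀ ^ 42 := by ring

theorem NumR.e0 (h : NumR y k N₀ T) : 0 < 1 / (y * N₀) := by
  have y0 := h.y0
  have N0 : 0 < N₀ := by linarith [h.N10]
  positivity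

theorem NumR.e1 (h : NumR y k N₀ T) : 1 / (y * N₀) ≤ 1 := by
  have y0 := h.y0
  have N0 : 0 < N₀ := by linarith [h.N10]
  rw [div_le_one (by positivity)]
  exact one_le_mul_of_one_le_of_one_le h.y1 (by linarith [h.N10])

theorem numR_div_le {x z H : ℝ} (hx : 0 ≤ x) (hz : 1 ≤ z) (h : x ≤ H) : x / z ≤ H :=
  (div_le_self hx hz).trans h

theorem numR_posB (hy : 0 < y) (hN : 0 < N) : (scB y N).Pos := by
  constructor <;> simp only [scB] <;> positivity

theorem numR_posC (hy : 0 < y) (hN : 0 < N) : (scC y N).Pos := by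
  constructor <;> simp only [scC] <;> positivity

theorem xi_bounds (h : YOK y k N₀ T) (h0 : 0 ≤ N) (h1 : N ≤ N₀) : 1 ≤ xi N₀ N ∧ xi N₀ N ≤ y := by
  have N0 : 0 < N₀ := by linarith [h.numR.N10]
  have hd : 0 < N + N₀ / 4 := by linarith
  have b1 : 1 ≤ (N₀ + N₀ / 4) / (N + N₀ / 4) := by
    rw [le_div_iff₀ hd]
    linarith
  have b5 : (N₀ + N₀ / 4) / (N + N₀ / 4) ≤ 5 := by
    rw [div_le_iff₀ hd]
    linarith
  exact ⟨one_le_pow₀ b1, (pow_le_pow_left₀ (by linarith) b5 4000).trans h.y5⟩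

theorem numR_posA (h : YOK y k N₀ T) (hN : 0 < N) (h1 : N ≤ N₀) : (scA y N₀ T N).Pos := by
  have hy := h.numR.y0
  have hx : 0 < xi N₀ N := lt_of_lt_of_le one_pos (xi_bounds h hN.le h1).1
  have N0 : 0 < N₀ := by linarith
  constructor <;> simp only [scA] <;> positivity

theorem numTrans (h : 10 ^ 20 ≤ y) :
    TransOK (y ^ 8160) (y ^ 8118) (y ^ 8108) (scB y (y ^ 8160)) (scC y (y ^ 8160)) := by
  have y1 : (1 : ℝ) ≤ y := le_trans (by norm_num) h
  have y0 : (0 : ℝ) < y := by linarith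
  have hρ0 : 0 ≤ y ^ 8160 / (y ^ 8160 + y ^ 8200) := by positivity
  have hρ : y ^ 8160 / (y ^ 8160 + y ^ 8200) ≤ 1 / y ^ 40 := by
    rw [div_le_div_iff₀ (by positivity) (by positivity), ← pow_add, one_mul]
    exact le_add_of_nonneg_left (by positivity)
  refine ⟨numR_posB y0 (by positivity), numR_posC y0 (by positivity), hρ0, rfl, rfl, rfl, rfl, rfl,
    rfl, by positivity, ?_, ?_, ?_, ?_, ?_, ?_, ?_, ?_⟩ <;> simp only [scB, scC]
  · rw [← pow_mul, one_div_mul_cancel (by positivity)]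
  · rw [one_div_mul_cancel (by positivity)]
  · rw [← pow_mul, ← mul_div_assoc, div_le_div_iff₀ (by positivity) (by positivity), one_mul,
      mul_assoc, ← pow_add]
    exact numR_c h (by norm_num) (by norm_num)
  · have a1 : y ^ 8160 * (y ^ 8160 / (y ^ 8160 + y ^ 8200)) ≤ y ^ 8120 := by
      refine (mul_le_mul_of_nonneg_left hρ (by positivity)).trans (le_of_eq ?_)
      rw [mul_one_div, div_eq_iff (by positivity), ← pow_add]
    have a2 : y ^ 8118 ≤ y ^ 8120 := pow_le_pow_right₀ y1 (by norm_num)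
    have a3 : (y ^ 8118 + y ^ 8160 * (y ^ 8160 / (y ^ 8160 + y ^ 8200))) ^ 2 ≤ (2 * y ^ 8120) ^ 2 :=
      pow_le_pow_left₀ (by positivity) (by linarith) 2
    refine (mul_le_mul_of_nonneg_left a3 (by positivity)).trans ?_
    rw [← pow_mul, div_mul_eq_mul_div, ← one_div_mul_eq_div]
    exact numR_small (d := 4) (a := 32636) h (by norm_num) (le_of_eq (by ring)) (by norm_num)
      (by norm_num)
  · have a0 : (y ^ 8160 / (y ^ 8160 + y ^ 8200)) ^ 2 ≤ (1 / y ^ 40) ^ 2 :=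
      pow_le_pow_left₀ hρ0 hρ 2
    have a1 : y ^ 8160 * (y ^ 8160 / (y ^ 8160 + y ^ 8200)) ^ 2 ≤ y ^ 8080 := by
      refine (mul_le_mul_of_nonneg_left a0 (by positivity)).trans (le_of_eq ?_)
      rw [one_div_pow, mul_one_div, div_eq_iff (by positivity), ← pow_mul, ← pow_add]
    have a2 : y ^ 8080 ≤ y ^ 8108 := pow_le_pow_right₀ y1 (by norm_num)
    have a3 : 2 * y ^ 8108 + 2 * y ^ 8160 * (y ^ 8160 / (y ^ 8160 + y ^ 8200)) ^ 2 ≤
        4 * y ^ 8108 := by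
      rw [mul_assoc]
      linarith
    refine (mul_le_mul_of_nonneg_left a3 (by positivity)).trans ?_
    rw [← pow_mul, div_mul_eq_mul_div, ← one_div_mul_eq_div]
    exact numR_small (d := 4) (a := 16318) h (by norm_num) (le_of_eq (by ring)) (by norm_num)
      (by norm_num)
  · rw [← mul_div_assoc, div_le_div_iff₀ (by positivity) (by positivity), one_mul,
      mul_assoc, ← pow_add]
    exact numR_c h (by norm_num) (by norm_num)
  · rw [← mul_div_assoc]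
    refine div_le_div_of_nonneg_right ?_ (by positivity)
    have a1 : y ^ 8160 ≤ y ^ 11995 := pow_le_pow_right₀ y1 (by norm_num)
    have a2 : 200 * y ^ 11995 ≤ y ^ 11996 := numR_c h (by norm_num) (by norm_num)
    have a3 : 0 ≤ y ^ 8160 := by positivity
    linarith
  · rw [← mul_div_assoc]
    exact div_le_div_of_nonneg_right (numR_c h (by norm_num) (by norm_num)) (by positivity)

theorem numRndA (h : YOK y k N₀ T) (h1 : y ^ 9780 ≤ N) (h2 : N ≤ N₀) (hg : N₀ ^ 42 ≤ g) :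
    RndOK (scA y N₀ T N) N₀ g (1 / (y * N₀)) := by
  have n := h.numR
  have y0 := n.y0
  have N1 : 1 ≤ N := (one_le_pow₀ n.y1).trans h1
  have N0 : 0 < N := by linarith
  have hx := (xi_bounds h N0.le h2).1
  have hinv : ∀ a : ℕ, 1 / (y ^ a * xi N₀ N) ≤ N₀ ^ 2 := fun a =>
    numR_div_le zero_le_one (one_le_mul_of_one_le_of_one_le (one_le_pow₀ n.y1) hx) n.one
  refine ⟨numR_posA h N0 h2, ⟨?_, ?_, n.T, n.T, n.inv _, n.inv _, n.inv _, ?_, hinv _, hinv _, ?_,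
    n.inv _⟩, n.N10, le_rfl, n.kx (by norm_num), n.grid hg, n.e0, n.e1⟩ <;> simp only [scA]
  · rw [abs_one]
    exact n.one
  · rw [abs_neg, abs_of_nonneg (div_nonneg (le_max_left _ _) (by positivity))]
    have a1 : 1 ≤ y ^ 5349 := one_le_pow₀ n.y1
    have a2 : 2 * y ^ 9780 ≤ y ^ 24000 := numR_c h.y20 (by norm_num) (by norm_num)
    refine numR_div_le (le_max_left _ _) (by linarith) (max_le (by positivity) ?_)
    linarith [n.lo2]
  · rw [div_le_iff₀ (by positivity)]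
    have a1 : N₀ ≤ y ^ 48030 := n.hi.trans (pow_le_pow_right₀ n.y1 (by norm_num))
    calc N ^ 3 ≤ N₀ ^ 3 := pow_le_pow_left₀ N0.le h2 3
      _ = N₀ ^ 2 * N₀ := by ring
      _ ≤ N₀ ^ 2 * y ^ 48030 := mul_le_mul_of_nonneg_left a1 (by positivity)
  · exact numR_div_le (by linarith) (one_le_pow₀ N1) (by linarith [n.NN])

theorem numRndB (h : YOK y k N₀ T) (h1 : y ^ 8160 ≤ N) (h2 : N ≤ y ^ 9780) (hg : N₀ ^ 42 ≤ g) :
    RndOK (scB y N) N₀ g (1 / (y * N₀)) := by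
  have n := h.numR
  have y0 := n.y0
  have N1 : 1 ≤ N := (one_le_pow₀ n.y1).trans h1
  have N0 : 0 < N := by linarith
  have hρ : N / (N + y ^ 8200) ≤ 1 := by
    have : 0 < y ^ 8200 := by positivity
    rw [div_le_one (by positivity)]
    linarith
  have z : |(0 : ℝ)| ≤ N₀ ^ 2 := by
    rw [abs_zero]
    positivity
  refine ⟨numR_posB y0 N0, ⟨?_, z, z, z, n.inv _, n.inv _, n.inv _, ?_, n.inv _, n.inv _, ?_,
    sq_nonneg _⟩, n.N10, hρ, n.kx (by norm_num), n.grid hg, n.e0, n.e1⟩ <;> simp only [scB]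
  · rw [abs_of_nonneg (by positivity)]
    exact hρ.trans n.one
  · refine le_trans ?_ n.one
    rw [div_le_one (by positivity)]
    calc N ^ 3 ≤ (y ^ 9780) ^ 3 := pow_le_pow_left₀ N0.le h2 3
      _ ≤ y ^ 48042 := by
        rw [← pow_mul]
        exact pow_le_pow_right₀ n.y1 (by norm_num)
  · have a1 : y ^ 9780 ≤ y ^ 12000 := pow_le_pow_right₀ n.y1 (by norm_num)
    have a2 : y ^ 11996 ≤ y ^ 12000 := pow_le_pow_right₀ n.y1 (by norm_num)
    exact numR_div_le (by positivity) (one_le_pow₀ N1) (by linarith [n.NN, n.lo])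

theorem numRndC (h : YOK y k N₀ T) (h1 : y ^ 4098 ≤ N) (h2 : N ≤ y ^ 8160) (hg : N₀ ^ 42 ≤ g) :
    RndOK (scC y N) N₀ g (1 / (y * N₀)) := by
  have n := h.numR
  have y0 := n.y0
  have N1 : 1 ≤ N := (one_le_pow₀ n.y1).trans h1
  have N0 : 0 < N := by linarith
  have z : |(0 : ℝ)| ≤ N₀ ^ 2 := by
    rw [abs_zero]
    positivity
  have hd : ∀ a j : ℕ, a ≤ 24000 → y ^ a / N ^ j ≤ N₀ ^ 2 := fun a j ha =>
    numR_div_le (by positivity) (one_le_pow₀ N1) (n.pw ha)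
  refine ⟨numR_posC y0 N0, ⟨z, z, z, z, hd _ _ (by norm_num), hd _ _ (by norm_num), sq_nonneg _,
    sq_nonneg _, hd _ _ (by norm_num), ?_, ?_, sq_nonneg _⟩, n.N10, zero_le_one, ?_, n.grid hg, n.e0,
    n.e1⟩ <;> simp only [scC]
  · exact numR_div_le (by positivity) N1 (n.pw (by norm_num))
  · have a1 : y ^ 8160 ≤ y ^ 12000 := pow_le_pow_right₀ n.y1 (by norm_num)
    have a2 : y ^ 11995 ≤ y ^ 12000 := pow_le_pow_right₀ n.y1 (by norm_num)
    exact numR_div_le (by positivity) (one_le_pow₀ N1) (by linarith [n.NN, n.lo])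
  · rw [div_mul_eq_mul_div, le_div_iff₀ (by positivity), one_mul]
    calc N ^ 4 ≤ (y ^ 8160) ^ 4 := pow_le_pow_left₀ N0.le h2 4
      _ ≤ y ^ 16396 * y ^ 24000 := by
        rw [← pow_mul, ← pow_add]
        exact pow_le_pow_right₀ n.y1 (by norm_num)
      _ ≤ y ^ 16396 * N₀ ^ 2 := mul_le_mul_of_nonneg_left n.lo2 (by positivity)

theorem numEnd (h : 10 ^ 20 ≤ y) : 1 < (scC y (y ^ 4098)).kx ∧ 1 < (scC y (y ^ 4098)).kC ∧
    1 ≤ (scC y (y ^ 4098)).cy := by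
  have y1 : (1 : ℝ) < y := lt_of_lt_of_le (by norm_num) h
  have y0 : (0 : ℝ) < y := by linarith
  refine ⟨?_, ?_, one_le_pow₀ y1.le⟩ <;> simp only [scC]
  · rw [← pow_mul, one_lt_div (by positivity)]
    exact pow_lt_pow_right₀ y1 (by norm_num)
  · rw [← pow_mul, one_lt_div (by positivity)]
    exact pow_lt_pow_right₀ y1 (by norm_num)

/-- `log N ≤ 12002 log y`, `log y ≤ 2 √y`, `10^40 ≤ 5^60 ≤ 5^4000 ≤ y` -/
theorem numLoss (h : YOK y k N₀ T) (h1 : 1 ≤ N) (h2 : N ≤ N₀) :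
    2 * 10 ^ 12 / y * Real.log N ≤ 1 / 50 := by
  have n := h.numR
  have y0 := n.y0
  have a1 : Real.log N ≤ 12002 * Real.log y := by
    have := Real.log_le_log (by linarith) (h2.trans n.hi)
    rw [Real.log_pow] at this
    exact_mod_cast this
  have s0 : 0 < √y := Real.sqrt_pos.2 y0
  have ss : √y * √y = y := Real.mul_self_sqrt y0.le
  have a2 : Real.log y ≤ 2 * √y := by
    have t1 := Real.log_le_sub_one_of_pos s0
    rw [Real.log_sqrt y0.le] at t1
    linarith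
  have a3 : (10 : ℝ) ^ 40 ≤ y := by
    have t1 : (5 : ℝ) ^ 60 ≤ 5 ^ 4000 := pow_le_pow_right₀ (by norm_num) (by norm_num)
    have t2 : (10 : ℝ) ^ 40 ≤ 5 ^ 60 := by norm_num
    exact t2.trans (t1.trans h.y5)
  have a4 : (10 : ℝ) ^ 20 ≤ √y := Real.le_sqrt_of_sq_le (by rw [← pow_mul]; exact a3)
  rw [div_mul_eq_mul_div, div_le_div_iff₀ y0 (by norm_num), one_mul]
  have a5 : Real.log N ≤ 24004 * √y := by linarith
  nlinarith

/-- `Cfg.init_phi` with `τ = 1`; `xi N₀ N₀ = 1`, `Fc = 0` as `2 y^9780 ≤ N₀` -/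
theorem numInit {ι V : Type} [Fintype ι] [DecidableEq ι] [Fintype V] [DecidableEq V] {vtx : ι → V}
    {pt : V → V} {k : ℕ} {G : SimpleGraph V} (hc : Cfg vtx pt k G) (h : YOK y k N₀ T)
    (hN : (Fintype.card ι : ℝ) = N₀) :
    Phi vtx (scA y N₀ T N₀) ⟨Finset.univ, G, K0 vtx pt k 1, K0 vtx pt k (-1)⟩ ≤ 0.945 := by
  have n := h.numR
  have y0 := n.y0
  have hy := h.y20
  have N0 : 0 < N₀ := by linarith [n.N10]
  have k0 : (0 : ℝ) ≤ k := Nat.cast_nonneg _
  have k2 := n.k2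
  have hx := (xi_bounds h N0.le le_rfl).1
  have hinv : ∀ a : ℕ, 1 / (y ^ a * xi N₀ N₀) ≤ 1 / y ^ a := fun a =>
    one_div_le_one_div_of_le (by positivity) (le_mul_of_one_le_right (by positivity) hx)
  refine hc.init_phi (τ := 1) (numR_posA h N0 le_rfl) rfl hN ?_ h.T h.T ?_ ?_ ?_ ?_ ?_ ?_ ?_ ?_ ?_ <;>
    simp only [scA]
  · have a2 : 2 * y ^ 9780 ≤ y ^ 12000 := numR_c hy (by norm_num) (by norm_num)
    rw [max_eq_left (by linarith [n.lo]), zero_div, neg_zero]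
  · exact numR_small (d := 1) (a := 1) hy (by norm_num) (by linarith) (by norm_num) (by norm_num)
  · exact numR_small (d := 16) (a := 1) hy (by norm_num) (by nlinarith) (by norm_num) (by norm_num)
  · refine numR_small (d := 100) (a := 2) hy (by norm_num) ?_ (by norm_num) (by norm_num)
    have : (9 * (k : ℝ) ^ 2 + 1) ^ 2 ≤ (10 * y) ^ 2 :=
      pow_le_pow_left₀ (by positivity) (by linarith [n.y1]) 2
    linarith
  · rw [div_mul_eq_mul_div, ← one_div_mul_eq_div]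
    refine numR_small (d := 300) (a := 48010) hy (by norm_num) ?_ (by norm_num) (by norm_num)
    have a1 : N₀ ^ 4 ≤ (y ^ 12002) ^ 4 := pow_le_pow_left₀ N0.le n.hi 4
    have a2 : ((k : ℝ) ^ 2) ^ 2 ≤ y ^ 2 := pow_le_pow_left₀ (by positivity) k2 2
    calc N₀ ^ 3 * (300 * (k : ℝ) ^ 4 * N₀) = 300 * (((k : ℝ) ^ 2) ^ 2 * N₀ ^ 4) := by ring
      _ ≤ 300 * (y ^ 2 * (y ^ 12002) ^ 4) := by gcongr
      _ = 300 * y ^ 48010 := by rw [← pow_mul, ← pow_add]
  · refine (mul_le_mul_of_nonneg_right (hinv _) (by positivity)).trans ?_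
    exact numR_small (d := 9) (a := 1) hy (by norm_num) (by linarith) (by norm_num) (by norm_num)
  · refine (mul_le_mul_of_nonneg_right (hinv _) k0).trans ?_
    exact numR_small (d := 1) (a := 1) hy (by norm_num) (by linarith [n.ky]) (by norm_num)
      (by norm_num)
  · have a1 : 200000 * y ^ 1 ≤ y ^ 12000 := numR_c hy (by norm_num) (by norm_num)
    have a2 : 200000 * (k : ℝ) ^ 2 ≤ N₀ := by linarith [n.lo]
    rw [div_mul_eq_mul_div, div_le_iff₀ (by positivity)]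
    nlinarith
  · refine numR_small (d := 30) (a := 12003) hy (by norm_num) ?_ (by norm_num) (by norm_num)
    calc 30 * (k : ℝ) ^ 2 * N₀ ≤ 30 * y * y ^ 12002 := by
          have := n.hi
          gcongr
      _ = 30 * y ^ 12003 := by ring
  · have a1 : y ^ 2 + 1 ≤ 2 * y ^ 2 := by linarith [one_le_pow₀ (n := 2) n.y1]
    have a2 : 4000 * y ^ 11999 ≤ y ^ 12000 := numR_c hy (by norm_num) (by norm_num)
    rw [div_mul_eq_mul_div, div_le_div_iff₀ (by positivity) (by norm_num), one_mul]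
    calc y ^ 11997 * ((y ^ 2 + 1) * k * N₀) * 2000
        ≤ y ^ 11997 * ((2 * y ^ 2) * k * N₀) * 2000 := by gcongr
      _ = 4000 * y ^ 11999 * k * N₀ := by ring
      _ ≤ y ^ 12000 * k * N₀ := by gcongr
      _ ≤ N₀ * N₀ := mul_le_mul_of_nonneg_right h.lo N0.le
      _ = N₀ ^ 2 := by ring

end Crest.Agent.R62
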