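import Crest.Agent.R62.NumBase
import Crest.Agent.R62.NumR

/-! # Row 62: phase A, the parameters and the exact conditions -/

set_option autoImplicit false

noncomputable section

namespace Crest.Agent.R62

/-- the parameters of phase A -/
def pA (y N₀ N γ ω ε Λ P4 P5 sw Pl κE κ2E nE κ κ2 Ξ2 RF : ℝ) : Par where
  N := N
  ρ := 1
  ε := ε
  ζ := y
  θ := 1 / y
  Λ := Λ
  Fb := y ^ 4432
  X := y ^ 7921
  Qb := 2 * N
  t := y ^ 12003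
  P4 := P4
  P5 := P5
  V := y ^ 7560 * xi N₀ N
  δ := y ^ 1000 * xi N₀ N
  W := N ^ 2 / (N + N₀ / 4)
  sw := sw
  Xb := y ^ 14214
  γ := γ
  Pl := Pl
  Tl := y ^ 11999
  dg := y
  κE := κE
  κ2E := κ2E
  nE := nE
  κ := κ
  κ2 := κ2
  Ξ2 := Ξ2
  RF := RF
  ω := ω
  cy := y ^ 2
  σF := y ^ 4340
  σx := y ^ 7920
  σT := y ^ 11997
  χ := 1
  L := N₀ / 4

variable {y k N₀ T N s : ℝ}

theorem YOK.y0 (h : YOK y k N₀ T) : 0 < y := lt_of_lt_of_le (by norm_num) h.y20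

theorem YOK.k_le (h : YOK y k N₀ T) : 2 * k ≤ y ∧ k ^ 2 ≤ y := by
  have := h.k2; have := h.ky; constructor <;> nlinarith

theorem YOK.N0_lo (h : YOK y k N₀ T) : 2 * y ^ 12000 ≤ N₀ := by
  have h1 := h.lo; have h2 := h.k2; have h3 := pow_pos h.y0 12000
  nlinarith

theorem YOK.N0_hi (h : YOK y k N₀ T) : 2 * N₀ ≤ y ^ 12002 := by
  have h1 := h.hi; have h2 := h.k_le.1; have h3 := pow_pos h.y0 12001
  have e : y ^ 12002 = y ^ 12001 * y := by ring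
  rw [e]; nlinarith

theorem YOK.N0_pos (h : YOK y k N₀ T) : 0 < N₀ := by
  have := h.N0_lo; have := pow_pos h.y0 12000; linarith

theorem YOK.T_bounds (h : YOK y k N₀ T) : N₀ - 1 ≤ T ∧ T ≤ y ^ 12002 + 1 := by
  have hk := h.k2
  have hN := h.N0_pos
  have hs : 0 < √k := Real.sqrt_pos.2 (by linarith)
  have hq : √k ^ 2 = k := Real.sq_sqrt (by linarith)
  have h14 : 1.41 ≤ √k := Real.le_sqrt_of_sq_le (by norm_num; linarith)
  have hT := abs_le.1 h.T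
  have c1 : 1 ≤ (k ^ 2 - 1) / k * (1 / √k) := by
    rw [div_mul_div_comm, le_div_iff₀ (by positivity)]
    set r := √k
    rw [← hq]
    have : 1 ≤ r ^ 3 * (r - 1) := by
      have h3 : 1.41 ^ 3 ≤ r ^ 3 := pow_le_pow_left₀ (by norm_num) h14 3
      nlinarith
    nlinarith
  have c2 : (k ^ 2 - 1) / k * (1 / √k) ≤ k := by
    rw [div_mul_div_comm, div_le_iff₀ (by positivity)]
    have : k * k * 1 ≤ k * k * √k := mul_le_mul_of_nonneg_left (by linarith) (by positivity)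
    nlinarith
  have c3 : N₀ * k ≤ y ^ 12002 := by
    have h1 := h.hi; have h2 := h.k_le.2; have h3 := pow_pos h.y0 12001
    have e : y ^ 12002 = y ^ 12001 * y := by ring
    rw [e]; nlinarith
  constructor
  · nlinarith
  · nlinarith

theorem xi_pos (h0 : 0 < N₀) (h1 : 0 ≤ N) : 0 < xi N₀ N := by unfold xi; positivity

theorem xi_step (h0 : 0 < N₀) (h1 : 2 ≤ N) :
    xi N₀ N * (1 + 4000 / (N + N₀ / 4)) ≤ xi N₀ (N - 2) := by
  have p1 : 0 < N + N₀ / 4 := by linarith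
  have p2 : 0 < N - 2 + N₀ / 4 := by linarith
  have hx := xi_pos h0 (show 0 ≤ N by linarith)
  have e : (N₀ + N₀ / 4) / (N - 2 + N₀ / 4) =
      (N₀ + N₀ / 4) / (N + N₀ / 4) * (1 + 2 / (N - 2 + N₀ / 4)) := by
    rw [div_mul_eq_mul_div, div_eq_div_iff p2.ne' p1.ne', mul_assoc]
    congr 1
    rw [add_mul, div_mul_cancel₀ _ p2.ne']; ring
  have b : 1 + (4000 : ℕ) * (2 / (N - 2 + N₀ / 4)) ≤ (1 + 2 / (N - 2 + N₀ / 4)) ^ 4000 :=
    one_add_mul_le_pow (by have : 0 ≤ 2 / (N - 2 + N₀ / 4) := by positivity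
                           linarith) 4000
  have c : 4000 / (N + N₀ / 4) ≤ (4000 : ℕ) * (2 / (N - 2 + N₀ / 4)) := by
    clear b
    push_cast
    rw [div_le_iff₀ p1]
    have : 1 ≤ 2 / (N - 2 + N₀ / 4) * (N + N₀ / 4) := by
      rw [div_mul_eq_mul_div, le_div_iff₀ p2]; linarith
    nlinarith
  have e2 : xi N₀ (N - 2) = xi N₀ N * (1 + 2 / (N - 2 + N₀ / 4)) ^ 4000 := by
    unfold xi; rw [e, mul_pow]
  rw [e2]
  exact mul_le_mul_of_nonneg_left (le_trans (add_le_add le_rfl c) b) hx.le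

theorem posA (h : YOK y k N₀ T) (h0 : 0 < N) : (scA y N₀ T N).Pos := by
  have := h.y0; have := h.N0_pos; have := xi_pos h.N0_pos h0.le
  constructor <;> simp only [scA] <;> positivity

theorem YOK.T_abs (h : YOK y k N₀ T) (h2 : N ≤ N₀) :
    |T| + y ^ 11997 + 2 * (2 * N) ≤ y ^ 12003 := by
  have a1 := h.T_bounds
  have a2 := h.N0_hi
  have a3 := h.N0_lo
  have a4 := pow_le_pow_y h.y20 (show 11997 ≤ 12002 by norm_num)
  have a5 := mul_pow_le_y h.y20 (c := 10) (by norm_num) (show 12002 < 12003 by norm_num)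
  have a6 := pow_le_pow_y h.y20 (show 0 ≤ 12000 by norm_num)
  have a7 := pow_le_pow_y h.y20 (show 0 ≤ 12002 by norm_num)
  rw [pow_zero] at a6 a7
  rw [abs_of_nonneg (by linarith)]
  linarith

theorem YOK.T_lo (h : YOK y k N₀ T) : y ^ 11999 + y ^ 11997 ≤ T := by
  have a1 := h.T_bounds.1
  have a3 := h.N0_lo
  have a4 := pow_le_pow_y h.y20 (show 11997 ≤ 11999 by norm_num)
  have a5 := mul_pow_le_y h.y20 (c := 2) (by norm_num) (show 11999 < 12000 by norm_num)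
  have a6 := pow_le_pow_y h.y20 (show 0 ≤ 12000 by norm_num)
  rw [pow_zero] at a6
  linarith

theorem YOK.Fb (h : YOK y k N₀ T) (h1 : y ^ 9780 ≤ N) :
    |-(max 0 (2 * y ^ 9780 - N) / (2 * y ^ 5349))| + y ^ 4340 ≤ y ^ 4432 := by
  have y0 := h.y0
  have b1 : max 0 (2 * y ^ 9780 - N) ≤ y ^ 9780 := max_le (pow_pos y0 _).le (by linarith)
  have b2 : max 0 (2 * y ^ 9780 - N) / (2 * y ^ 5349) ≤ y ^ 4431 := by
    rw [div_le_iff₀ (by positivity)]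
    have e : y ^ 4431 * (2 * y ^ 5349) = 2 * y ^ 9780 := by ring
    have := pow_pos y0 9780
    rw [e]; linarith
  rw [abs_neg, abs_of_nonneg (by positivity)]
  have a4 := pow_le_pow_y h.y20 (show 4340 ≤ 4431 by norm_num)
  have a5 := mul_pow_le_y h.y20 (c := 2) (by norm_num) (show 4431 < 4432 by norm_num)
  linarith

theorem inv_pow_sq (hy : 0 < y) {i j : ℕ} (h : j = i * 2) : 1 / y ^ j * (y ^ i) ^ 2 = 1 := by
  rw [h, pow_mul]; exact one_div_mul_cancel (by positivity)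

theorem kW_mul {L : ℝ} (h0 : 0 < N) (hL : 0 ≤ L) : (N + L) / N ^ 2 * (N ^ 2 / (N + L)) = 1 := by
  have : 0 < N + L := by linarith
  field_simp

theorem W_mul {L : ℝ} (h0 : 0 < N) (hL : 0 ≤ L) : N ^ 2 / (N + L) * (N + L) = N ^ 2 :=
  div_mul_cancel₀ _ (by linarith)

theorem kW_mul' {L : ℝ} (h0 : 0 < N) : (N + L) / N ^ 2 * N ^ 2 = N + L :=
  div_mul_cancel₀ _ (by positivity)

theorem chi_pow {c : ℝ} (h0 : 0 < N - 2) (j : ℕ) :
    c / (N - 2) ^ j = (N / (N - 2)) ^ j * (c / N ^ j) := by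
  have : 0 < N := by linarith
  rw [div_pow]; field_simp

theorem qb_le {σ ρ : ℝ} (h0 : 0 ≤ N) (h1 : ρ ≤ 1) (h : σ + 1 ≤ N) : N * ρ + σ + 1 ≤ 2 * N := by
  nlinarith

theorem key_xi {c x x' L v : ℝ} (h0 : 0 < N) (hL : 0 ≤ L) (hc : 0 < c) (hx : 0 < x) (hx' : 0 < x')
    (hs : x * (1 + 4000 / (N + L)) ≤ x') (hv : 0 ≤ v) :
    1 / (c * x') * (1 + 4000 * (N ^ 2 / (N + L)) / N ^ 2) ≤ 1 / (c * x) * (1 + v) := by
  have p1 : 0 < N + L := by linarith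
  have e : 4000 * (N ^ 2 / (N + L)) / N ^ 2 = 4000 / (N + L) := by
    rw [mul_div_assoc, div_div_cancel_left' (by positivity), div_eq_mul_inv]
  rw [e]
  have a1 : 1 / (c * x') * (1 + 4000 / (N + L)) ≤ 1 / (c * x) := by
    rw [one_div_mul_eq_div, div_le_div_iff₀ (by positivity) (by positivity)]
    nlinarith
  have a2 : 0 ≤ 1 / (c * x) * v := by positivity
  nlinarith

section
variable {γ ω ε Λ P4 P5 sw Pl κE κ2E nE κ κ2 Ξ2 RF : ℝ}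

theorem derA (h : YOK y k N₀ T) (h1 : y ^ 9780 ≤ N) (h2 : N ≤ N₀) {p : Par}
    (hp : p = pA y N₀ N γ ω ε Λ P4 P5 sw Pl κE κ2E nE κ κ2 Ξ2 RF)
    (hΛ : N ^ 3 / y ^ 48030 * Λ ^ 6 = 1) (X1 : p.σx + 1 ≤ p.X) (X2 : p.σx + 1 ≤ p.N)
    (L1 : 1 ≤ p.Λ) (I1 : 8 * p.t ≤ p.P4) (I2 : 64 * p.t ^ 2 * p.Λ ^ 6 ≤ p.P4 ^ 3)
    (I3 : 4 * p.P4 * p.Λ ^ 6 ≤ p.P5 ^ 2) (I4 : 4 * p.P4 ≤ p.P5) : DerOK p (scA y N₀ T N) := by
  have y0 := h.y0
  have N0 : 0 < N := lt_of_lt_of_le (pow_pos y0 _) h1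
  have hL : 0 ≤ N₀ / 4 := div_nonneg h.N0_pos.le (by norm_num)
  have hx := xi_pos h.N0_pos N0.le
  subst hp
  exact ⟨posA h N0, rfl, zero_le_one, le_rfl, pow_pos y0 _, pow_pos y0 _, inv_pow_sq y0 rfl,
    inv_pow_sq y0 rfl, one_div_mul_cancel (mul_pos (pow_pos y0 _) hx).ne',
    one_div_mul_cancel (mul_pos (pow_pos y0 _) hx).ne', kW_mul N0 hL, h.Fb h1, X1,
    qb_le N0.le le_rfl X2, L1,
    Or.inl ⟨pow_pos y0 _, inv_pow_sq y0 rfl, hΛ, h.T_abs h2, h.T_abs h2, I1, I2, I3, I4⟩⟩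

theorem stepA (h : YOK y k N₀ T) (h1 : y ^ 9780 + 2 ≤ N) {p : Par}
    (hp : p = pA y N₀ N γ ω ε Λ P4 P5 sw Pl κE κ2E nE κ κ2 Ξ2 RF)
    (hΛ : N ^ 3 / y ^ 48030 * Λ ^ 6 = 1) (der : DerOK p (scA y N₀ T N)) (gl : Glob p) (wt : CondWt p)
    (cF : CondF p (p.θ * p.σF)) (cQ : CondQ p (p.θ * p.σx)) (cV : CondV p (p.θ * p.V))
    (cD : CondD p (p.θ * p.δ)) (cW : CondW p (p.θ * p.W)) (cT : CondT p (p.θ * p.σT))
    (cU : CondU p (p.θ * p.Λ ^ 6)) (cX : CondX p (p.θ * p.Xb))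
    (S1 : p.g1 ≤ p.N * (p.θ * p.σF ^ 2))
    (S2 : p.g2 + p.ζ ^ 2 * p.Λ ^ 2 * p.g1 ≤ p.N * (p.θ * p.σx ^ 2))
    (S2c : p.ρ ≤ p.N * (p.θ * p.σx ^ 2))
    (S3 : p.g3 + p.ζ ^ 4 * p.Λ ^ 4 * p.g1 ≤ p.N * (p.θ * p.σT ^ 2))
    (hF : (scA y N₀ T (N - 2)).Fc = (scA y N₀ T N).Fc - γ)
    (ht : γ = 0 ∨ (CondTilt p ∧ p.Pl * p.Qb ≤ p.Tl ^ 2)) :
    StepOK p (scA y N₀ T N) (scA y N₀ T (N - 2)) := by
  have y0 := h.y0
  have N2 : 0 < N - 2 := by have := pow_pos y0 9780; linarith only [this, h1]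
  have N0 : 0 < N := by linarith only [N2]
  have hL : 0 ≤ N₀ / 4 := div_nonneg h.N0_pos.le (by norm_num)
  have hx := xi_pos h.N0_pos N0.le
  have hx' := xi_pos h.N0_pos N2.le
  have hs := xi_step h.N0_pos (show 2 ≤ N by linarith only [N2])
  have hv : 0 ≤ 1 / y / N := by positivity
  have kT : 1 / y ^ 23994 * (y ^ 11997) ^ 2 = 1 := inv_pow_sq y0 rfl
  have kX : 1 / y ^ 14214 * y ^ 14214 = 1 := one_div_mul_cancel (pow_pos y0 _).ne'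
  have r1 : |(N - 2) * 1 - N * 1 + 2 - 2 * (1 - 1) ^ 2| ≤ 8 * 1 / N := by
    have : (N - 2) * 1 - N * 1 + 2 - 2 * ((1 : ℝ) - 1) ^ 2 = 0 := by ring
    rw [this, abs_zero]; positivity
  have r2 : |1 - 1 - 2 * 1 * (1 - 1) / N| ≤ 8 * 1 / N ^ 2 := by
    have : 1 - 1 - 2 * 1 * ((1 : ℝ) - 1) / N = 0 := by ring
    rw [this, abs_zero]; positivity
  have o2 : ∀ x : ℝ, x ≤ 1 ^ 2 * x := fun x => by rw [one_pow, one_mul]
  have o4 : ∀ x : ℝ, x ≤ 1 ^ 4 * x := fun x => by rw [one_pow, one_mul]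
  have kV : 1 / (y ^ 7560 * xi N₀ (N - 2)) * (1 + 4000 * (N ^ 2 / (N + N₀ / 4)) / N ^ 2) ≤
      1 ^ 2 * (1 / (y ^ 7560 * xi N₀ N)) * (1 + 1 / y / N) := by
    rw [one_pow, one_mul]; exact key_xi N0 hL (pow_pos y0 _) hx hx' hs hv
  have kD : 1 / (y ^ 1000 * xi N₀ (N - 2)) * (1 + 4000 * (N ^ 2 / (N + N₀ / 4)) / N ^ 2) ≤
      1 * (1 / (y ^ 1000 * xi N₀ N)) * (1 + 1 / y / N) := by
    rw [one_mul]; exact key_xi N0 hL (pow_pos y0 _) hx hx' hs hv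
  have kU : (N - 2) ^ 3 / y ^ 48030 ≤ N ^ 3 / y ^ 48030 :=
    div_le_div_of_nonneg_right (pow_le_pow_left₀ N2.le (by linarith only) 3) (pow_pos y0 _).le
  subst hp
  exact ⟨der, posA h N2, gl, wt, cF, cQ, cV, cD, cW, S1, S2, S2c, Or.inl rfl, hF, Or.inl rfl, r1, r2,
    o2 _, o4 _, kV, kD, hL, W_mul N0 hL, kW_mul' N2, (chi_pow N2 2).le, rfl, rfl,
    Or.inr ⟨cT, cU, S3, pow_pos y0 _, kT, hΛ, le_rfl, kU, rfl, rfl, Or.inl rfl⟩,
    Or.inr ⟨cX, kX, le_rfl⟩,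
    ht.imp id fun c => ⟨c.1, kX, pow_pos y0 _, kT, pow_pos y0 _, h.T_lo, h.T_lo, c.2⟩⟩

end

theorem W_le_N {L : ℝ} (h0 : 0 < N) (hL : 0 ≤ L) : N ^ 2 / (N + L) ≤ N := by
  rw [div_le_iff₀ (by linarith)]; nlinarith

theorem YOK.up_V (h : YOK y k N₀ T) (ys : YS y s) (h0 : 0 ≤ N) (h2 : N ≤ N₀) (j : ℕ) :
    Up y s (y ^ j * xi N₀ N) (12 * j + 12) (12 * j + 12) :=
  (ys.up_npow j).mul ys (ys.up_y.of_le (xi_pos h.N0_pos h0).le (xi_bounds h h0 h2).2)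

theorem YOK.lo_V (h : YOK y k N₀ T) (h0 : 0 ≤ N) (h2 : N ≤ N₀) (j : ℕ) :
    Lo y s (y ^ j * xi N₀ N) (12 * j) (12 * j) :=
  (lo_npow y s j).of_le (le_mul_of_one_le_right (pow_pos h.y0 j).le (xi_bounds h h0 h2).1)

theorem YOK.lo_L (h : YOK y k N₀ T) (h0 : 0 ≤ N) :
    Lo y s (N + N₀ / 4) (12 * (11999 : ℕ)) (12 * (11999 : ℕ)) := by
  apply (lo_npow y s 11999).of_le
  have a3 := h.N0_lo
  have a5 := mul_pow_le_y h.y20 (c := 2) (by norm_num) (show 11999 < 12000 by norm_num)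
  linarith

theorem YOK.up_L (h : YOK y k N₀ T) (ys : YS y s) (h0 : 0 ≤ N) (h2 : N ≤ N₀) :
    Up y s (N + N₀ / 4) (12 * (12002 : ℕ)) (12 * (12002 : ℕ)) := by
  have a3 := h.N0_hi
  have a4 := h.N0_pos
  exact (ys.up_npow 12002).of_le (by linarith) (by linarith)

theorem YS.kU {a b a' b' : ℤ} (ys : YS y s) (hN : N = Pw y s a b) (j : ℕ)
    (ha : 3 * a + 6 * a' = 12 * j) (hb : 3 * b + 6 * b' = 12 * j) :
    N ^ 3 / y ^ j * Pw y s a' b' ^ 6 = 1 := by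
  rw [div_mul_eq_mul_div, hN, ys.Pw_pow, ys.Pw_pow, ys.Pw_mul, ← Pw_nat y s j]
  push_cast
  rw [ha, hb]
  exact div_self (ys.Pw_pos _ _).ne'

end Crest.Agent.R62
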