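import Crest.Agent.R62.Sched

/-!
# Row 62: bookkeeping of exponents

`Pw y s a b = y ^ (((1 - s) a + s b) / 12)`: an exponent that is affine in `s ∈ [0, 1]` is given by its values at
the end points.
-/

set_option autoImplicit false

noncomputable section

namespace Crest.Agent.R62

/-- a power of `y` with exponent affine in `s` -/
def Pw (y s : ℝ) (a b : ℤ) : ℝ := y ^ (((1 - s) * (a : ℝ) + s * (b : ℝ)) / 12)

/-- the base and the interpolation parameter -/
structure YS (y s : ℝ) : Prop where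
  y20 : 10 ^ 20 ≤ y
  s0 : 0 ≤ s
  s1 : s ≤ 1

/-- upper bound -/
def Up (y s x : ℝ) (a b : ℤ) : Prop := 0 ≤ x ∧ x ≤ Pw y s a b
/-- lower bound -/
def Lo (y s x : ℝ) (a b : ℤ) : Prop := Pw y s a b ≤ x

variable {y s x x' : ℝ} {a b a' b' : ℤ}

theorem YS.one_lt (h : YS y s) : 1 < y := lt_of_lt_of_le (by norm_num) h.y20

theorem YS.pos (h : YS y s) : 0 < y := lt_trans one_pos h.one_lt

theorem YS.Pw_pos (h : YS y s) (a b : ℤ) : 0 < Pw y s a b := Real.rpow_pos_of_pos h.pos _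

theorem YS.Pw_mul (h : YS y s) (a b a' b' : ℤ) :
    Pw y s a b * Pw y s a' b' = Pw y s (a + a') (b + b') := by
  unfold Pw
  rw [← Real.rpow_add h.pos]
  congr 1; push_cast; ring

theorem YS.Pw_pow (h : YS y s) (a b : ℤ) (k : ℕ) : Pw y s a b ^ k = Pw y s (k * a) (k * b) := by
  unfold Pw
  rw [← Real.rpow_mul_natCast h.pos.le]
  congr 1; push_cast; ring

theorem YS.Pw_mono (h : YS y s) (ha : a ≤ a') (hb : b ≤ b') : Pw y s a b ≤ Pw y s a' b' := by
  unfold Pw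
  apply Real.rpow_le_rpow_of_exponent_le h.one_lt.le
  have h1 : (a : ℝ) ≤ a' := by exact_mod_cast ha
  have h2 : (b : ℝ) ≤ b' := by exact_mod_cast hb
  have := mul_le_mul_of_nonneg_left h1 (sub_nonneg.2 h.s1)
  have := mul_le_mul_of_nonneg_left h2 h.s0
  linarith

theorem Pw_nat (y s : ℝ) (k : ℕ) : Pw y s (12 * k) (12 * k) = y ^ k := by
  unfold Pw
  rw [← Real.rpow_natCast]
  congr 1; push_cast; ring

theorem Pw_zero (y s : ℝ) : Pw y s 0 0 = 1 := by simp [Pw]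

theorem YS.Pw_inv (h : YS y s) (a b : ℤ) : Pw y s (-a) (-b) = 1 / Pw y s a b := by
  rw [eq_div_iff (h.Pw_pos a b).ne', h.Pw_mul]; simp [Pw_zero]

theorem YS.exists_s (h : 10 ^ 20 ≤ y) {N : ℝ} {l u : ℕ} (hlu : l < u) (h1 : y ^ l ≤ N)
    (h2 : N ≤ y ^ u) : ∃ s, YS y s ∧ N = Pw y s (12 * l) (12 * u) := by
  have hy1 : 1 < y := lt_of_lt_of_le (by norm_num) h
  have hy0 : 0 < y := lt_trans one_pos hy1
  have hN : 0 < N := lt_of_lt_of_le (pow_pos hy0 l) h1
  have hl : 0 < Real.log y := Real.log_pos hy1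
  have hd : (0 : ℝ) < u - l := by have : (l : ℝ) < u := by exact_mod_cast hlu
                                  linarith
  have e1 : l * Real.log y ≤ Real.log N := by
    rw [← Real.log_pow]; exact Real.log_le_log (pow_pos hy0 l) h1
  have e2 : Real.log N ≤ u * Real.log y := by
    rw [← Real.log_pow]; exact Real.log_le_log hN h2
  refine ⟨(Real.log N / Real.log y - l) / (u - l), ⟨h, ?_, ?_⟩, ?_⟩
  · apply div_nonneg _ hd.le
    rw [sub_nonneg, le_div_iff₀ hl]; exact e1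
  · rw [div_le_one hd]
    have : Real.log N / Real.log y ≤ u := by rw [div_le_iff₀ hl]; exact e2
    linarith
  · unfold Pw
    have : ((1 - (Real.log N / Real.log y - l) / (u - l)) * ((12 * (l : ℤ) : ℤ) : ℝ) +
        (Real.log N / Real.log y - l) / (u - l) * ((12 * (u : ℤ) : ℤ) : ℝ)) / 12 =
        Real.log N / Real.log y := by
      push_cast; field_simp; ring
    rw [this, Real.rpow_def_of_pos hy0, mul_div_cancel₀ _ hl.ne', Real.exp_log hN]

theorem YS.up_Pw (h : YS y s) (a b : ℤ) : Up y s (Pw y s a b) a b := ⟨(h.Pw_pos a b).le, le_rfl⟩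

theorem lo_Pw (y s : ℝ) (a b : ℤ) : Lo y s (Pw y s a b) a b := le_rfl

theorem YS.up_of_eq (h : YS y s) (e : x = Pw y s a b) : Up y s x a b := e ▸ h.up_Pw a b

theorem lo_of_eq (e : x = Pw y s a b) : Lo y s x a b := e ▸ lo_Pw y s a b

theorem YS.up_npow (h : YS y s) (k : ℕ) : Up y s (y ^ k) (12 * k) (12 * k) :=
  h.up_of_eq (Pw_nat y s k).symm

theorem lo_npow (y s : ℝ) (k : ℕ) : Lo y s (y ^ k) (12 * k) (12 * k) :=
  lo_of_eq (Pw_nat y s k).symm

theorem YS.up_zero (h : YS y s) (e : x = 0) (a b : ℤ) : Up y s x a b :=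
  e ▸ ⟨le_rfl, (h.Pw_pos a b).le⟩

theorem up_one (y s : ℝ) : Up y s 1 0 0 := ⟨zero_le_one, (Pw_zero y s).ge⟩

theorem lo_one (y s : ℝ) : Lo y s 1 0 0 := (Pw_zero y s).le

theorem YS.up_c (h : YS y s) (c : ℝ) (h0 : 0 ≤ c) (h1 : c ≤ 10 ^ 20) : Up y s c 12 12 := by
  have := Pw_nat y s 1
  norm_num at this
  exact ⟨h0, by rw [this]; exact h1.trans h.y20⟩

theorem Up.mono (h : YS y s) (u : Up y s x a b) (ha : a ≤ a') (hb : b ≤ b') : Up y s x a' b' :=
  ⟨u.1, u.2.trans (h.Pw_mono ha hb)⟩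

theorem Lo.mono (h : YS y s) (u : Lo y s x a b) (ha : a' ≤ a) (hb : b' ≤ b) : Lo y s x a' b' :=
  (h.Pw_mono ha hb).trans u

theorem Up.of_le (u : Up y s x a b) (h0 : 0 ≤ x') (h1 : x' ≤ x) : Up y s x' a b := ⟨h0, h1.trans u.2⟩

theorem Lo.of_le (u : Lo y s x a b) (h1 : x ≤ x') : Lo y s x' a b := le_trans u h1

theorem Lo.pos (h : YS y s) (u : Lo y s x a b) : 0 < x := lt_of_lt_of_le (h.Pw_pos a b) u

theorem Up.mul (h : YS y s) (u : Up y s x a b) (u' : Up y s x' a' b') :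
    Up y s (x * x') (a + a') (b + b') :=
  ⟨mul_nonneg u.1 u'.1, by
    rw [← h.Pw_mul]; exact mul_le_mul u.2 u'.2 u'.1 (h.Pw_pos _ _).le⟩

theorem Lo.mul (h : YS y s) (u : Lo y s x a b) (u' : Lo y s x' a' b') :
    Lo y s (x * x') (a + a') (b + b') := by
  unfold Lo
  rw [← h.Pw_mul]; exact mul_le_mul u u' (h.Pw_pos _ _).le (u.pos h).le

theorem Up.pow (h : YS y s) (u : Up y s x a b) (k : ℕ) : Up y s (x ^ k) (k * a) (k * b) :=
  ⟨pow_nonneg u.1 k, by rw [← h.Pw_pow]; exact pow_le_pow_left₀ u.1 u.2 k⟩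

theorem Lo.pow (h : YS y s) (u : Lo y s x a b) (k : ℕ) : Lo y s (x ^ k) (k * a) (k * b) := by
  unfold Lo
  rw [← h.Pw_pow]; exact pow_le_pow_left₀ (h.Pw_pos _ _).le u k

theorem Up.add (h : YS y s) (u : Up y s x a b) (u' : Up y s x' a' b') :
    Up y s (x + x') (max a a' + 12) (max b b' + 12) := by
  have h1 := (u.mono h (le_max_left a a') (le_max_left b b')).2
  have h2 := (u'.mono h (le_max_right a a') (le_max_right b b')).2
  have h3 := (h.up_c 2 (by norm_num) (by norm_num)).2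
  have h4 := h.Pw_pos (max a a') (max b b')
  refine ⟨add_nonneg u.1 u'.1, ?_⟩
  rw [← h.Pw_mul]
  nlinarith

theorem Up.div (h : YS y s) (u : Up y s x a b) (u' : Lo y s x' a' b') :
    Up y s (x / x') (a - a') (b - b') := by
  have h1 := u'.pos h
  refine ⟨div_nonneg u.1 h1.le, ?_⟩
  rw [div_le_iff₀ h1]
  have h2 : Pw y s (a - a') (b - b') * Pw y s a' b' = Pw y s a b := by rw [h.Pw_mul]; simp
  calc x ≤ Pw y s a b := u.2
    _ = _ := h2.symm
    _ ≤ _ := mul_le_mul_of_nonneg_left u' (h.Pw_pos _ _).le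

theorem Lo.div (h : YS y s) (u : Lo y s x a b) (u' : Up y s x' a' b') (h1 : 0 < x') :
    Lo y s (x / x') (a - a') (b - b') := by
  unfold Lo
  rw [le_div_iff₀ h1]
  have h2 : Pw y s (a - a') (b - b') * Pw y s a' b' = Pw y s a b := by rw [h.Pw_mul]; simp
  calc _ ≤ Pw y s (a - a') (b - b') * Pw y s a' b' :=
        mul_le_mul_of_nonneg_left u'.2 (h.Pw_pos _ _).le
    _ = _ := h2
    _ ≤ x := u

theorem YS.le (h : YS y s) (u : Up y s x a b) (u' : Lo y s x' a' b') (ha : a ≤ a') (hb : b ≤ b') :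
    x ≤ x' := (u.mono h ha hb).2.trans u'

theorem YS.up_y (h : YS y s) : Up y s y 12 12 := by
  have := Pw_nat y s 1
  norm_num at this
  exact h.up_of_eq this.symm

theorem lo_y (y s : ℝ) : Lo y s y 12 12 := by
  have := Pw_nat y s 1
  norm_num at this
  exact lo_of_eq this.symm

theorem pow_le_pow_y (h : 10 ^ 20 ≤ y) {i j : ℕ} (hij : i ≤ j) : y ^ i ≤ y ^ j :=
  pow_le_pow_right₀ (le_trans (by norm_num) h) hij

theorem mul_pow_le_y (h : 10 ^ 20 ≤ y) {c : ℝ} (hc : c ≤ 10 ^ 20) {i j : ℕ} (hij : i < j) :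
    c * y ^ i ≤ y ^ j := by
  have h0 : 0 < y := lt_of_lt_of_le (by norm_num) h
  calc c * y ^ i ≤ y * y ^ i := mul_le_mul_of_nonneg_right (hc.trans h) (pow_pos h0 i).le
    _ = y ^ (i + 1) := by ring
    _ ≤ y ^ j := pow_le_pow_y h hij

end Crest.Agent.R62
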