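import Crest.Agent.R62.InvStep
import Crest.Agent.R62.Derive

/-!
# Row 62: rounding
-/

set_option autoImplicit false
set_option linter.unusedSectionVars false
set_option linter.unusedVariables false

open Finset Matrix

noncomputable section

namespace Crest.Agent.R62

variable {ι V : Type} [Fintype ι] [DecidableEq ι] [Fintype V] [DecidableEq V]

theorem fl_spec {g x : ℝ} (hg : 1 ≤ g) (hx : |x| ≤ g - 1) : x - 1 / g ≤ fl g x ∧ fl g x ≤ x := by
  have h0 : 0 < g := by linarith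
  obtain ⟨h1, h2⟩ := abs_le.1 hx
  have h3 : (⌊x * g⌋ : ℝ) / g ≤ x := by
    rw [div_le_iff₀ h0]
    exact Int.floor_le _
  have h4 : x - 1 / g ≤ (⌊x * g⌋ : ℝ) / g := by
    rw [le_div_iff₀ h0, sub_mul, one_div_mul_cancel h0.ne']
    exact (Int.sub_one_lt_floor _).le
  have h5 : 1 / g ≤ 1 := by rw [div_le_one h0]; exact hg
  rw [fl, min_eq_right (by linarith), max_eq_right (by linarith)]
  exact ⟨h4, h3⟩

theorem round_lap (w : ι → ι → ℝ) (hs : ∀ c d, w c d = w d c) (h0 : ∀ c d, 0 ≤ w c d) (v : ι → ℝ) :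
    0 ≤ ∑ c, v c * ∑ d, ((if c = d then ∑ e, w c e else 0) - w c d) * v d := by
  have h1 : ∑ c, v c * ∑ d, ((if c = d then ∑ e, w c e else 0) - w c d) * v d =
      ∑ c, ∑ d, w c d * (v c ^ 2 - v c * v d) := by
    refine sum_congr rfl fun c _ => ?_
    simp only [sub_mul, sum_sub_distrib, ite_mul, zero_mul, sum_ite_eq, mem_univ, if_true, mul_sub,
      mul_sum, sum_mul]
    congr 1 <;> exact sum_congr rfl fun d _ => by ring
  have h2 : ∑ c, ∑ d, w c d * (v c ^ 2 - v c * v d) = ∑ c, ∑ d, w c d * (v d ^ 2 - v c * v d) := by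
    rw [sum_comm]
    exact sum_congr rfl fun c _ => sum_congr rfl fun d _ => by rw [hs d c]; ring
  have h3 : 0 ≤ ∑ c, ∑ d, w c d * (v c ^ 2 - v c * v d) + ∑ c, ∑ d, w c d * (v d ^ 2 - v c * v d) := by
    rw [← sum_add_distrib]
    refine sum_nonneg fun c _ => ?_
    rw [← sum_add_distrib]
    refine sum_nonneg fun d _ => ?_
    have := mul_nonneg (h0 c d) (sq_nonneg (v c - v d))
    linarith
  rw [h1]
  linarith

/-- `rnd - K` is the Laplacian of the weights `K c d - fl g (K' c d) ∈ [0, η + 1/g]` on `S`, so it is positive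
semidefinite: `vᵀ (rnd - K) v = ½ ∑ weight (v c - v d)²` -/
theorem Side.rnd {S : Finset ι} {K K' : Mat ι} {s g η : ℝ} (h : Side S K s) (hg : 1 ≤ g) (hη : 0 ≤ η)
    (hs : ∀ c d, K' c d = K' d c)
    (h1 : ∀ c ∈ S, ∀ d ∈ S, c ≠ d → K c d - η ≤ K' c d ∧ K' c d ≤ K c d ∧ |K' c d| ≤ g - 1) :
    Side S (rnd g S K' s) s ∧ Le2 K (rnd g S K' s) ∧
      ∀ c d, |rnd g S K' s c d - K c d| ≤ S.card * (η + 1 / g) := by
  set w : ι → ι → ℝ := fun c d =>
    if c ∈ S ∧ d ∈ S ∧ c ≠ d then K c d - fl g (K' c d) else 0 with hw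
  have hg' : 0 ≤ 1 / g := by positivity
  have ws : ∀ c d, w c d = w d c := by
    intro c d
    simp only [hw]
    rw [h.symm c d, hs c d]
    exact if_congr (by tauto) rfl rfl
  have wb : ∀ c d, 0 ≤ w c d ∧ w c d ≤ if d ∈ S then η + 1 / g else 0 := by
    intro c d
    simp only [hw]
    by_cases hc : c ∈ S ∧ d ∈ S ∧ c ≠ d
    · obtain ⟨a1, a2, a3⟩ := h1 c hc.1 d hc.2.1 hc.2.2
      obtain ⟨a4, a5⟩ := fl_spec hg a3
      rw [if_pos hc, if_pos hc.2.1]
      constructor <;> linarith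
    · rw [if_neg hc]
      refine ⟨le_rfl, ?_⟩
      split_ifs
      · linarith
      · exact le_rfl
  have key : ∀ c d, R62.rnd g S K' s c d =
      K c d + ((if c = d then ∑ e, w c e else 0) - w c d) := by
    intro c d
    simp only [R62.rnd, Matrix.of_apply]
    by_cases hcd : c = d
    · subst hcd
      have e0 : w c c = 0 := by simp [hw]
      rw [if_pos rfl, if_pos rfl, e0, sub_zero]
      by_cases hc : c ∈ S
      · have e1 : ∑ e, w c e = ∑ e ∈ S.erase c, (K c e - fl g (K' c e)) := by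
          rw [← sum_subset (subset_univ (S.erase c))]
          · refine sum_congr rfl fun e he => ?_
            simp only [hw]
            rw [if_pos ⟨hc, (mem_erase.1 he).2, (mem_erase.1 he).1.symm⟩]
          · intro e _ he
            simp only [hw]
            exact if_neg fun hh => he (mem_erase.2 ⟨hh.2.2.symm, hh.2.1⟩)
        have e2 := h.row' c hc
        rw [← add_sum_erase _ _ hc] at e2
        rw [if_pos hc, e1, sum_sub_distrib]
        linarith
      · rw [if_neg hc, h.supp c c hc, zero_add]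
        exact (sum_eq_zero fun e _ => by simp [hw, hc]).symm
    · rw [if_neg hcd, if_neg hcd, zero_sub]
      simp only [hw]
      by_cases hc : c ∈ S ∧ d ∈ S
      · rw [if_pos hc, if_pos ⟨hc.1, hc.2, hcd⟩]
        ring
      · rw [if_neg hc, if_neg fun hh => hc ⟨hh.1, hh.2.1⟩, neg_zero, add_zero]
        by_cases hc' : c ∈ S
        · exact (h.supp' c d fun hd => hc ⟨hc', hd⟩).symm
        · exact (h.supp c d hc').symm
  have hle : Le2 K (R62.rnd g S K' s) := by
    intro v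
    have := round_lap w ws (fun c d => (wb c d).1) v
    simp only [dotProduct, Matrix.mulVec, key, add_mul, sum_add_distrib, mul_add]
    linarith
  refine ⟨⟨h.sgn, fun a b => ?_, fun a b ha => ?_, fun a ha => ?_,
    fun v => (h.psd v).trans (hle v)⟩, hle, fun c d => ?_⟩
  · rw [key, key, h.symm a b, ws a b]
    by_cases hab : a = b
    · subst hab
      rfl
    · rw [if_neg hab, if_neg (Ne.symm hab)]
  · simp [R62.rnd, ha]
  · simp only [key, sum_add_distrib, sum_sub_distrib, sum_ite_eq, mem_univ, if_true, h.row a ha]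
    ring
  · rw [key, add_sub_cancel_left]
    have hB : 0 ≤ η + 1 / g := by linarith
    by_cases hcd : c = d
    · subst hcd
      have e0 : w c c = 0 := by simp [hw]
      rw [if_pos rfl, e0, sub_zero, abs_of_nonneg (sum_nonneg fun e _ => (wb c e).1)]
      refine (sum_le_sum fun e _ => (wb c e).2).trans (le_of_eq ?_)
      rw [sum_ite_mem, univ_inter, sum_const, nsmul_eq_mul]
    · rw [if_neg hcd, zero_sub, abs_neg, abs_of_nonneg (wb c d).1]
      refine (wb c d).2.trans ?_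
      split_ifs with hd
      · have : (1 : ℝ) ≤ S.card := by exact_mod_cast card_pos.2 ⟨d, hd⟩
        exact le_mul_of_one_le_left hB this
      · positivity

/-- all entries are at most `R` -/
def EntLe (K : Mat ι) (R : ℝ) : Prop := ∀ a b, |K a b| ≤ R

theorem EntLe.mono {K : Mat ι} {R R' : ℝ} (h : EntLe K R) (hR : R ≤ R') : EntLe K R' :=
  fun a b => (h a b).trans hR

theorem EntLe.nonneg {K : Mat ι} {R : ℝ} (h : EntLe K R) (hm : 1 ≤ Fintype.card ι) : 0 ≤ R := by
  obtain ⟨a⟩ := Fintype.card_pos_iff.1 hm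
  exact (abs_nonneg _).trans (h a a)

theorem EntLe.add {K K' : Mat ι} {R R' : ℝ} (h : EntLe K R) (h' : EntLe K' R') :
    EntLe (K + K') (R + R') := fun a b => (abs_add_le _ _).trans (add_le_add (h a b) (h' a b))

theorem EntLe.mul {K K' : Mat ι} {R R' : ℝ} (h : EntLe K R) (h' : EntLe K' R') :
    EntLe (K * K') (Fintype.card ι * (R * R')) := by
  intro a b
  rw [Matrix.mul_apply]
  refine (abs_sum_le_sum_abs _ _).trans ((sum_le_card_nsmul _ _ (R * R') fun c _ => ?_).trans ?_)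
  · rw [abs_mul]
    exact mul_le_mul (h a c) (h' c b) (abs_nonneg _) ((abs_nonneg _).trans (h a c))
  · rw [card_univ, nsmul_eq_mul]

theorem EntLe.trace {K : Mat ι} {R : ℝ} (h : EntLe K R) : |K.trace| ≤ Fintype.card ι * R := by
  refine (abs_sum_le_sum_abs _ _).trans ((sum_le_card_nsmul _ _ R fun c _ => h c c).trans ?_)
  rw [card_univ, nsmul_eq_mul]

theorem EntLe.pow {K : Mat ι} {R : ℝ} (h : EntLe K R) (hm : 1 ≤ Fintype.card ι) (hR : 1 ≤ R) (j : ℕ) :
    EntLe (K ^ j) ((Fintype.card ι * R) ^ j) := by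
  induction j with
  | zero =>
    intro a b
    rw [pow_zero, pow_zero, Matrix.one_apply]
    split_ifs <;> simp
  | succ j ih =>
    rw [pow_succ, pow_succ]
    exact (ih.mul h).mono (le_of_eq (by ring))

/-- `K^(j+1) - K'^(j+1) = (K^j - K'^j) K + K'^j (K - K')` -/
theorem EntLe.pow_sub {K K' : Mat ι} {R η : ℝ} (h : EntLe K R) (h' : EntLe K' R)
    (hd : EntLe (K - K') η) (hm : 1 ≤ Fintype.card ι) (hR : 1 ≤ R) (j : ℕ) :
    EntLe (K ^ j - K' ^ j) (j * (Fintype.card ι * R) ^ j * η) := by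
  have hm' : (1 : ℝ) ≤ Fintype.card ι := by exact_mod_cast hm
  have hη := hd.nonneg hm
  induction j with
  | zero => intro a b; simp
  | succ j ih =>
    have e : K ^ (j + 1) - K' ^ (j + 1) = (K ^ j - K' ^ j) * K + K' ^ j * (K - K') := by
      rw [pow_succ, pow_succ, Matrix.sub_mul, Matrix.mul_sub]
      abel
    rw [e]
    refine ((ih.mul h).add ((h'.pow hm hR j).mul hd)).mono ?_
    have h1 : 0 ≤ Fintype.card ι * ((Fintype.card ι * R) ^ j * η) := by positivity
    have h2 := mul_le_mul_of_nonneg_left hR h1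
    rw [pow_succ]
    push_cast
    linarith

theorem round_sq {x x' c A C δ : ℝ} (hx : |x| ≤ A) (hx' : |x'| ≤ A) (hc : |c| ≤ C)
    (hd : |x - x'| ≤ δ) : (x' - c) ^ 2 ≤ (x - c) ^ 2 + δ * (2 * A + 2 * C) := by
  have h1 : |x + x' - 2 * c| ≤ 2 * A + 2 * C := by
    obtain ⟨a1, a2⟩ := abs_le.1 hx
    obtain ⟨a3, a4⟩ := abs_le.1 hx'
    obtain ⟨a5, a6⟩ := abs_le.1 hc
    exact abs_le.2 ⟨by linarith, by linarith⟩
  have h2 : |(x - x') * (x + x' - 2 * c)| ≤ δ * (2 * A + 2 * C) := by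
    rw [abs_mul]
    exact mul_le_mul hd h1 (abs_nonneg _) ((abs_nonneg _).trans hd)
  have h3 := (abs_le.1 h2).1
  nlinarith

theorem round_term {k H a a' x y : ℝ} (h0 : 0 ≤ k) (hk : k ≤ H) (h : a' ≤ a + x) (hy : 0 ≤ y)
    (hxy : x ≤ y) : k * a' ≤ k * a + H * y := by
  have h1 := mul_le_mul_of_nonneg_left h h0
  have h2 := mul_le_mul hk hxy
  have h3 : k * x ≤ k * y := mul_le_mul_of_nonneg_left hxy h0
  have h4 : k * y ≤ H * y := mul_le_mul_of_nonneg_right hk hy
  linarith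

theorem phiS_lip {sc : Sc} {S : Finset ι} {K K' : Mat ι} {R η H Tc : ℝ} (hp : sc.Pos) (hb : sc.Bd H)
    (hT : |Tc| ≤ H) (hH : 1 ≤ H) (h : EntLe K R) (h' : EntLe K' R) (hd : EntLe (K - K') η)
    (hm : 1 ≤ Fintype.card ι) (hR : 1 ≤ R) :
    phiS sc S K' Tc + sc.kW * WW K' ≤
      phiS sc S K Tc + sc.kW * WW K + 400 * H ^ 2 * (Fintype.card ι * R) ^ 8 * η := by
  obtain ⟨bρ, bF, -, -, kF, kx, kT, kU, kV, kD, kW, -⟩ := hb
  have hm' : (1 : ℝ) ≤ Fintype.card ι := by exact_mod_cast hm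
  have hη := hd.nonneg hm
  have hS : (S.card : ℝ) ≤ Fintype.card ι := by exact_mod_cast card_le_univ S
  have P := fun j => h.pow hm hR j
  have P' := fun j => h'.pow hm hR j
  have D := fun j => h.pow_sub h' hd hm hR j
  set m : ℝ := (Fintype.card ι : ℝ) with hmd
  set Q := m * R with hQ
  have hmQ : m ≤ Q := le_mul_of_one_le_right (by linarith) hR
  have hRQ : R ≤ Q := le_mul_of_one_le_left (by linarith) hm'
  have hQ1 : 1 ≤ Q := hm'.trans hmQ
  have hQ0 : 0 ≤ Q := by linarith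
  have hH0 : 0 ≤ H := by linarith
  have t : ∀ j, |pk K j| ≤ Q ^ (j + 1) := fun j =>
    (P j).trace.trans (by rw [pow_succ']; gcongr)
  have t' : ∀ j, |pk K' j| ≤ Q ^ (j + 1) := fun j =>
    (P' j).trace.trans (by rw [pow_succ']; gcongr)
  have td : ∀ j : ℕ, |pk K j - pk K' j| ≤ j * Q ^ (j + 1) * η := fun j => by
    have := (D j).trace
    rw [Matrix.trace_sub] at this
    refine this.trans ?_
    rw [pow_succ']
    calc m * (j * Q ^ j * η) ≤ Q * (j * Q ^ j * η) := by gcongr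
      _ = _ := by ring
  have hp8 : ∀ i, i ≤ 8 → Q ^ i ≤ H * Q ^ 8 := fun i hi =>
    (pow_le_pow_right₀ hQ1 hi).trans (le_mul_of_one_le_left (by positivity) hH)
  have hp8' : ∀ i, i ≤ 8 → Q ^ i * H ≤ H * Q ^ 8 := fun i hi => by
    rw [mul_comm]
    exact mul_le_mul_of_nonneg_left (pow_le_pow_right₀ hQ1 hi) hH0
  set Y := H * Q ^ 8 * η with hY
  have hY0 : 0 ≤ Y := by positivity
  have mk : ∀ {c x : ℝ}, x ≤ c * (H * Q ^ 8) → x * η ≤ c * Y := fun {c x} hx => by
    have := mul_le_mul_of_nonneg_right hx hη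
    rw [hY]
    linarith
  have e1 := round_term hp.kF kF (round_sq (t 1) (t' 1) bF (td 1)) (y := 4 * Y) (by positivity) (by
    have := mk (c := 4) (x := Q ^ 2 * (2 * Q ^ 2 + 2 * H))
      (by linarith [hp8 4 (by norm_num), hp8' 2 (by norm_num)])
    push_cast
    linarith)
  have c2 : |S.card * sc.ρ + 1| ≤ 2 * (Q * H) := by
    have a1 : |S.card * sc.ρ| ≤ Q * H := by
      rw [abs_mul, Nat.abs_cast]
      exact mul_le_mul (hS.trans hmQ) bρ (abs_nonneg _) hQ0
    have a2 : 1 ≤ Q * H := one_le_mul_of_one_le_of_one_le hQ1 hH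
    refine (abs_add_le _ _).trans ?_
    rw [abs_one]
    linarith
  have e2 := round_term hp.kx kx (round_sq (t 2) (t' 2) c2 (td 2)) (y := 12 * Y) (by positivity) (by
    have := mk (c := 12) (x := 2 * Q ^ 3 * (2 * Q ^ 3 + 4 * (Q * H)))
      (by linarith [hp8 6 (by norm_num), hp8' 4 (by norm_num)])
    push_cast
    linarith)
  have e3 := round_term hp.kT kT (round_sq (t 3) (t' 3) hT (td 3)) (y := 12 * Y) (by positivity) (by
    have := mk (c := 12) (x := 3 * Q ^ 4 * (2 * Q ^ 4 + 2 * H))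
      (by linarith [hp8 8 (by norm_num), hp8' 4 (by norm_num)])
    push_cast
    linarith)
  have e4 := round_term hp.kU kU (a' := pk K' 6) (a := pk K 6) (x := 6 * Q ^ 7 * η) (by
      have := (abs_le.1 (td 6)).1
      push_cast at this
      linarith) (y := 6 * Y) (by positivity) (mk (by linarith [hp8 7 (by norm_num)]))
  have e5 := round_term hp.kV kV (a' := VV S K' sc.ρ) (a := VV S K sc.ρ)
    (x := Q * (2 * Q ^ 2 * (2 * Q ^ 2 + 2 * H)) * η) (by
      have a1 : VV S K' sc.ρ ≤ ∑ c ∈ S, ((bb K c - sc.ρ) ^ 2 +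
          (2 : ℕ) * Q ^ 2 * η * (2 * Q ^ 2 + 2 * H)) :=
        sum_le_sum fun c _ => round_sq (P 2 c c) (P' 2 c c) bρ (D 2 c c)
      rw [sum_add_distrib, sum_const, nsmul_eq_mul] at a1
      have a2 : (S.card : ℝ) * ((2 : ℕ) * Q ^ 2 * η * (2 * Q ^ 2 + 2 * H)) ≤
          Q * ((2 : ℕ) * Q ^ 2 * η * (2 * Q ^ 2 + 2 * H)) :=
        mul_le_mul_of_nonneg_right (hS.trans hmQ) (by positivity)
      push_cast at a1 a2
      unfold VV at a1 ⊢
      linarith) (y := 8 * Y) (by positivity)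
      (mk (by linarith [hp8 5 (by norm_num), hp8' 3 (by norm_num)]))
  have e6 := round_term hp.kD kD (a' := DD K') (a := DD K) (x := 2 * Q ^ 1 * η) (by
      have a1 : DD K' ≤ ∑ c, (K c c ^ 2 + η * (2 * R + 2 * 0)) := sum_le_sum fun c _ => by
        simpa using round_sq (c := 0) (C := 0) (h c c) (h' c c) (by simp) (hd c c)
      rw [sum_add_distrib, sum_const, nsmul_eq_mul, card_univ] at a1
      unfold DD at a1 ⊢
      rw [hQ]
      linarith) (y := 2 * Y) (by positivity) (mk (by linarith [hp8 1 (by norm_num)]))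
  have e7 := round_term hp.kW kW (a' := WW K') (a := WW K) (x := 4 * Q ^ 3 * η) (by
      have a0 : ∀ c d, K' c d ^ 4 ≤ K c d ^ 4 + 4 * R ^ 3 * η := by
        intro c d
        have b1 : |K c d ^ 2| ≤ R ^ 2 := by
          rw [abs_pow]
          exact pow_le_pow_left₀ (abs_nonneg _) (h c d) 2
        have b2 : |K' c d ^ 2| ≤ R ^ 2 := by
          rw [abs_pow]
          exact pow_le_pow_left₀ (abs_nonneg _) (h' c d) 2
        have b3 : |K c d ^ 2 - K' c d ^ 2| ≤ 2 * R * η := by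
          rw [sq_sub_sq, abs_mul]
          refine mul_le_mul ((abs_add_le _ _).trans ?_) (hd c d) (abs_nonneg _) (by linarith)
          linarith [h c d, h' c d]
        have := round_sq (c := 0) (C := 0) b1 b2 (by simp) b3
        linarith
      have a1 : WW K' ≤ ∑ c, ∑ d, (K c d ^ 4 + 4 * R ^ 3 * η) :=
        sum_le_sum fun c _ => sum_le_sum fun d _ => a0 c d
      simp only [sum_add_distrib, sum_const, nsmul_eq_mul, card_univ] at a1
      have a2 : m * (m * (4 * R ^ 3 * η)) ≤ 4 * Q ^ 3 * η := by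
        have : 1 * (m * (m * (4 * R ^ 3 * η))) ≤ m * (m * (m * (4 * R ^ 3 * η))) :=
          mul_le_mul_of_nonneg_right hm' (by positivity)
        rw [hQ]
        linarith
      unfold WW ww at a1 ⊢
      linarith) (y := 4 * Y) (by positivity) (mk (by linarith [hp8 3 (by norm_num)]))
  have e8 : 0 ≤ H * Y := by positivity
  have e9 : 400 * H ^ 2 * Q ^ 8 * η = 400 * (H * Y) := by rw [hY]; ring
  simp only [← sub_sub] at e2
  unfold phiS
  rw [e9]
  linarith

theorem phi_lip {sc : Sc} {vtx : ι → V} {S : Finset ι} {G : SimpleGraph V} {A B A' B' : Mat ι}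
    {R η H : ℝ} (hp : sc.Pos) (hb : sc.Bd H) (hH : 1 ≤ H) (hA : EntLe A R) (hA' : EntLe A' R)
    (hB : EntLe B R) (hB' : EntLe B' R) (dA : EntLe (A - A') η) (dB : EntLe (B - B') η)
    (hm : 1 ≤ Fintype.card ι) (hR : 1 ≤ R) :
    Phi vtx sc ⟨S, G, A', B'⟩ ≤
      Phi vtx sc ⟨S, G, A, B⟩ + 1000 * H ^ 2 * (Fintype.card ι * R) ^ 8 * η := by
  have e1 := phiS_lip (S := S) hp hb hb.2.2.1 hH hA hA' dA hm hR
  have e2 := phiS_lip (S := S) hp hb hb.2.2.2.1 hH hB hB' dB hm hR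
  have hm' : (1 : ℝ) ≤ Fintype.card ι := by exact_mod_cast hm
  have hη := dA.nonneg hm
  have e : A ^ 2 * B ^ 2 - A' ^ 2 * B' ^ 2 =
      (A ^ 2 - A' ^ 2) * B ^ 2 + A' ^ 2 * (B ^ 2 - B' ^ 2) := by
    rw [Matrix.sub_mul, Matrix.mul_sub]
    abel
  have h1 := (((hA.pow_sub hA' dA hm hR 2).mul (hB.pow hm hR 2)).add
    ((hA'.pow hm hR 2).mul (hB.pow_sub hB' dB hm hR 2))).trace
  rw [← e, Matrix.trace_sub] at h1
  set m : ℝ := (Fintype.card ι : ℝ) with hmd
  set Q := m * R with hQ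
  have hmQ : m ≤ Q := le_mul_of_one_le_right (by linarith) hR
  have hQ1 : 1 ≤ Q := hm'.trans hmQ
  have h2 : m * (m * (4 * Q ^ 4 * η)) ≤ Q * (Q * (4 * Q ^ 4 * η)) := by gcongr
  have h3 : Q ^ 6 ≤ H * Q ^ 8 :=
    (pow_le_pow_right₀ hQ1 (by norm_num)).trans (le_mul_of_one_le_left (by positivity) hH)
  have h4 := mul_le_mul_of_nonneg_right h3 hη
  have e3 := round_term hp.kX hb.2.2.2.2.2.2.2.2.2.2.2 (a' := XX A' B') (a := XX A B)
    (x := m * (m * (4 * Q ^ 4 * η))) (by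
      have := (abs_le.1 h1).1
      push_cast at this
      unfold XX
      linarith) (y := 4 * (H * Q ^ 8 * η)) (by positivity) (by linarith)
  have e4 : 0 ≤ H ^ 2 * Q ^ 8 * η := by positivity
  simp only [Phi]
  linarith

/-- the numbers that control rounding: `m` half-edges, grid `1/g`, loss `e` -/
structure RndOK (sc : Sc) (m g e : ℝ) : Prop where
  pos : sc.Pos
  bd : sc.Bd (m ^ 2)
  m10 : 10 ≤ m
  ρ1 : sc.ρ ≤ 1
  kx : 1 ≤ sc.kx * m ^ 2
  g : m ^ 40 ≤ g * e
  e0 : 0 < e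
  e1 : e ≤ 1

/-- Rounding a state `st` (through approximate matrices `A'`, `B'`, at most `2/g` below) with `Phi ≤ 1`.
The entries are at most `R = 3 m` (`p₂ ≤ N ρ + 1 + m`), so the clamp is inactive; `η = 3 m / g ≤ 1`. -/
theorem Inv.rnd' {vtx : ι → V} {d : ℕ} {z g e : ℝ} {sc : Sc} {st : St ι V} {A' B' : Mat ι}
    (hi : Inv vtx d z st) (hr : RndOK sc (Fintype.card ι) g e) (hΦ : Phi vtx sc st ≤ 1)
    (sA : ∀ c d, A' c d = A' d c) (sB : ∀ c d, B' c d = B' d c)
    (hA : ∀ c d, c ≠ d → st.A c d - 2 / g ≤ A' c d ∧ A' c d ≤ st.A c d)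
    (hB : ∀ c d, c ≠ d → st.B c d - 2 / g ≤ B' c d ∧ B' c d ≤ st.B c d) :
    Inv vtx d z (St.rnd g ⟨st.S, st.G, A', B'⟩) ∧
      Phi vtx sc (St.rnd g ⟨st.S, st.G, A', B'⟩) ≤ Phi vtx sc st + e := by
  have h10 := hr.m10
  have hm : 1 ≤ Fintype.card ι := by
    have : (1 : ℝ) ≤ Fintype.card ι := by linarith
    exact_mod_cast this
  have hS : (st.S.card : ℝ) ≤ Fintype.card ι := by exact_mod_cast card_le_univ st.S
  have hP := parts_of hr.pos hi.sA.symm hi.sB.symm hΦ
  have hkx := hr.kx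
  have hg0 := hr.g
  have hbd := hr.bd
  set m : ℝ := (Fintype.card ι : ℝ) with hmd
  have hm0 : 0 < m := by linarith
  have h19 : (10 : ℝ) ^ 19 ≤ m ^ 19 := pow_le_pow_left₀ (by norm_num) h10 19
  have h21 : m ≤ m ^ 21 := le_self_pow₀ (by linarith) (by norm_num)
  have h40 : 10 ^ 19 * m ^ 21 ≤ g * e := by
    refine le_trans ?_ hg0
    calc 10 ^ 19 * m ^ 21 ≤ m ^ 19 * m ^ 21 := by gcongr
      _ = m ^ 40 := by ring
  have hgp : 0 < g := pos_of_mul_pos_left (lt_of_lt_of_le (by positivity) h40) hr.e0.le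
  have hge : g * e ≤ g := mul_le_of_le_one_right hgp.le hr.e1
  have hgm : 3 * m ≤ g := by linarith
  have h2g : 2 / g ≤ 1 := by rw [div_le_one hgp]; linarith
  have h2g0 : 0 ≤ 2 / g := by positivity
  have hη : 3 * m / g ≤ 1 := by rw [div_le_one hgp]; exact hgm
  have side : ∀ {K K' : Mat ι} {s Tc : ℝ}, Side st.S K s → PartsS sc st.S K Tc 1 →
      (∀ c d, K' c d = K' d c) → (∀ c d, c ≠ d → K c d - 2 / g ≤ K' c d ∧ K' c d ≤ K c d) →
      Side st.S (R62.rnd g st.S K' s) s ∧ Le2 K (R62.rnd g st.S K' s) ∧ EntLe K (3 * m) ∧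
        EntLe (R62.rnd g st.S K' s) (3 * m) ∧ EntLe (K - R62.rnd g st.S K' s) (3 * m / g) := by
    intro K K' s Tc h hp hs h1
    have a1 : (pk K 2 - st.S.card * sc.ρ - 1) ^ 2 ≤ m ^ 2 := by
      have b1 := mul_le_mul_of_nonneg_left hkx (sq_nonneg (pk K 2 - st.S.card * sc.ρ - 1))
      have b2 := mul_le_mul_of_nonneg_left hp.x' (sq_nonneg m)
      linarith
    have a2 := (abs_le_of_sq_le_sq' a1 hm0.le).2
    have a3 : st.S.card * sc.ρ ≤ st.S.card := mul_le_of_le_one_right (Nat.cast_nonneg _) hr.ρ1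
    have a4 : ∀ a b, |K a b| ≤ m := by
      intro a b
      have b1 := sq_le_bb h.symm a b
      have b2 : bb K a ≤ pk K 2 := by
        rw [← sum_bb]
        exact single_le_sum (fun c _ => bb_nonneg h.symm c) (mem_univ a)
      exact abs_le_of_sq_le_sq (by nlinarith) hm0.le
    obtain ⟨b1, b2, b3⟩ := h.rnd (K' := K') (g := g) (by linarith) h2g0 hs fun c _ d _ hcd => by
      obtain ⟨c1, c2⟩ := h1 c d hcd
      obtain ⟨c3, c4⟩ := abs_le.1 (a4 c d)
      exact ⟨c1, c2, abs_le.2 ⟨by linarith, by linarith⟩⟩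
    have b4 : ∀ c d, |R62.rnd g st.S K' s c d - K c d| ≤ 3 * m / g := fun c d =>
      (b3 c d).trans ((mul_le_mul_of_nonneg_right hS (by positivity)).trans (le_of_eq (by ring)))
    refine ⟨b1, b2, fun a b => (a4 a b).trans (by linarith), fun a b => ?_, fun a b => ?_⟩
    · obtain ⟨c1, c2⟩ := abs_le.1 (b4 a b)
      obtain ⟨c3, c4⟩ := abs_le.1 (a4 a b)
      exact abs_le.2 ⟨by linarith, by linarith⟩
    · rw [Matrix.sub_apply, abs_sub_comm]
      exact b4 a b
  obtain ⟨a1, a2, a3, a4, a5⟩ := side hi.sA hP.A sA hA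
  obtain ⟨b1, b2, b3, b4, b5⟩ := side hi.sB hP.B sB hB
  refine ⟨⟨a1, b1, hi.gi, hi.gA.mono a2, hi.gB.mono b2⟩, ?_⟩
  have h1 := phi_lip (vtx := vtx) (S := st.S) (G := st.G) hr.pos hbd
    (one_le_pow₀ (by linarith)) a3 a4 b3 b4 a5 b5 hm (by linarith)
  refine h1.trans (add_le_add le_rfl ?_)
  rw [← hmd, ← mul_div_assoc, div_le_iff₀ hgp]
  have h2 : 0 ≤ m ^ 21 := by positivity
  calc _ = 19683000 * m ^ 21 := by ring
    _ ≤ _ := by linarith

theorem Inv.rnd {vtx : ι → V} {d : ℕ} {z g e : ℝ} {sc : Sc} {st : St ι V}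
    (hi : Inv vtx d z st) (hr : RndOK sc (Fintype.card ι) g e) (hΦ : Phi vtx sc st ≤ 1) :
    Inv vtx d z (st.rnd g) ∧ Phi vtx sc (st.rnd g) ≤ Phi vtx sc st + e := by
  have hg : 0 < g := by
    have h1 : (0 : ℝ) < Fintype.card ι := by linarith [hr.m10]
    exact pos_of_mul_pos_left (lt_of_lt_of_le (by positivity) hr.g) hr.e0.le
  have h2 : 0 ≤ 2 / g := by positivity
  exact hi.rnd' hr hΦ hi.sA.symm hi.sB.symm (fun c d _ => ⟨by linarith, le_rfl⟩)
    fun c d _ => ⟨by linarith, le_rfl⟩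

end Crest.Agent.R62
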