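import Crest.Agent.R62.Tilt

/-!
# Row 62: existence of the weights

`w a b = (1 - e a b) (1 + ψ a b)` on `S × S`, `0` elsewhere; `1 - w = e (1 + ψ) - ψ` on `S × S`.
-/

set_option autoImplicit false

open Finset Matrix

noncomputable section

namespace Crest.Agent.R62

variable {ι : Type} [Fintype ι] [DecidableEq ι]
variable {S : Finset ι} {A B K : Mat ι} {s : ℝ} {p : Par} {cf : ι → ι → Prop} {e ψ : ι → ι → ℝ}

/-- the weights -/
def wt (S : Finset ι) (e ψ : ι → ι → ℝ) (a b : ι) : ℝ :=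
  if a ∈ S ∧ b ∈ S then (1 - e a b) * (1 + ψ a b) else 0

theorem one_sub_wt {a b : ι} (ha : a ∈ S) (hb : b ∈ S) :
    1 - wt S e ψ a b = e a b * (1 + ψ a b) - ψ a b := by
  unfold wt
  rw [if_pos ⟨ha, hb⟩]
  ring

theorem wt_ne_zero (hv : ∀ a b, e a b = 0 ∨ e a b = 1) {a b : ι} (h : wt S e ψ a b ≠ 0) :
    a ∈ S ∧ b ∈ S ∧ e a b = 0 := by
  unfold wt at h
  by_cases hab : a ∈ S ∧ b ∈ S
  · rw [if_pos hab] at h
    refine ⟨hab.1, hab.2, ?_⟩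
    rcases hv a b with h0 | h0
    · exact h0
    · exact absurd (by rw [h0]; ring) h
  · rw [if_neg hab] at h
    exact absurd rfl h

/-- the part of `1 - w` that comes from the excluded pairs -/
theorem exc_op {k r n : ℝ} (he : Small S e k r n) (h1 : ∀ a b, |ψ a b| ≤ 1 / 2) (u v : ι → ℝ) :
    |∑ a ∈ S, ∑ b ∈ S, e a b * (1 + ψ a b) * (u a * v b)| ≤
      3 / 2 * (k * √(∑ a ∈ S, u a ^ 2) * √(∑ b ∈ S, v b ^ 2)) := by
  have h2 : |∑ a ∈ S, ∑ b ∈ S, e a b * (1 + ψ a b) * (u a * v b)| ≤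
      ∑ a ∈ S, ∑ b ∈ S, 3 / 2 * (e a b * (|u a| * |v b|)) := by
    refine (Finset.abs_sum_le_sum_abs _ _).trans (Finset.sum_le_sum fun a _ => ?_)
    refine (Finset.abs_sum_le_sum_abs _ _).trans (Finset.sum_le_sum fun b _ => ?_)
    have h3 : |1 + ψ a b| ≤ 3 / 2 := by
      have := abs_le.1 (h1 a b)
      rw [abs_le]
      constructor <;> linarith [this.1, this.2]
    rw [abs_mul, abs_mul, abs_mul, abs_of_nonneg (he.nonneg a b)]
    have h4 : 0 ≤ e a b * (|u a| * |v b|) :=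
      mul_nonneg (he.nonneg a b) (mul_nonneg (abs_nonneg _) (abs_nonneg _))
    calc e a b * |1 + ψ a b| * (|u a| * |v b|) = |1 + ψ a b| * (e a b * (|u a| * |v b|)) := by ring
      _ ≤ 3 / 2 * (e a b * (|u a| * |v b|)) := mul_le_mul_of_nonneg_right h3 h4
  refine h2.trans ?_
  simp_rw [← Finset.mul_sum]
  exact mul_le_mul_of_nonneg_left (he.op u v) (by norm_num)

theorem sum_one_sub_wt (f : ι → ι → ℝ) :
    ∑ a ∈ S, ∑ b ∈ S, (1 - wt S e ψ a b) * f a b =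
      ∑ a ∈ S, ∑ b ∈ S, e a b * (1 + ψ a b) * f a b - ∑ a ∈ S, ∑ b ∈ S, ψ a b * f a b := by
  rw [← Finset.sum_sub_distrib]
  refine Finset.sum_congr rfl fun a ha => ?_
  rw [← Finset.sum_sub_distrib]
  refine Finset.sum_congr rfl fun b hb => ?_
  rw [one_sub_wt ha hb]
  ring

/-- Cauchy–Schwarz for a `0/1` kernel -/
theorem exc_sum_sq (hv : ∀ a b, e a b = 0 ∨ e a b = 1) (X : Mat ι) :
    (∑ a ∈ S, ∑ b ∈ S, e a b * X a b) ^ 2 ≤ (∑ a ∈ S, ∑ b ∈ S, e a b) * fro X := by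
  have h1 : ∑ a ∈ S, ∑ b ∈ S, e a b * X a b = ∑ q ∈ S ×ˢ S, e q.1 q.2 * X q.1 q.2 := by
    rw [Finset.sum_product]
  have h2 : ∑ a ∈ S, ∑ b ∈ S, e a b = ∑ q ∈ S ×ˢ S, e q.1 q.2 ^ 2 := by
    rw [Finset.sum_product]
    refine Finset.sum_congr rfl fun a _ => Finset.sum_congr rfl fun b _ => ?_
    rcases hv a b with h | h <;> simp [h]
  have h3 : ∑ q ∈ S ×ˢ S, X q.1 q.2 ^ 2 ≤ fro X := by
    rw [Finset.sum_product]
    unfold fro
    calc ∑ a ∈ S, ∑ b ∈ S, X a b ^ 2 ≤ ∑ a ∈ S, ∑ b, X a b ^ 2 :=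
          Finset.sum_le_sum fun a _ => Finset.sum_le_sum_of_subset_of_nonneg (Finset.subset_univ _)
            fun _ _ _ => sq_nonneg _
      _ ≤ ∑ a, ∑ b, X a b ^ 2 :=
          Finset.sum_le_sum_of_subset_of_nonneg (Finset.subset_univ _)
            fun _ _ _ => Finset.sum_nonneg fun _ _ => sq_nonneg _
  rw [h1, h2]
  refine (Finset.sum_mul_sq_le_sq_mul_sq _ _ _).trans ?_
  exact mul_le_mul_of_nonneg_left h3 (Finset.sum_nonneg fun _ _ => sq_nonneg _)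

/-- `op`: `1.5 · 37 κE + κ/8 ≤ κ` (`E14`); `row`: `(1 - w)² ≤ e + ψ²`, `325 κ2E² + κ2²/32 ≤ κ2²` (`E15`) -/
theorem wt_Wt (hc : CondWt p) (he : Exc S A B p cf e) (hs : ∀ a b, ψ a b = ψ b a)
    (h1 : ∀ a b, |ψ a b| ≤ 1 / 2) (hω : ∀ a b, 1 + ψ a b ≤ p.ω)
    (hop : ∀ u v : ι → ℝ, |∑ a ∈ S, ∑ b ∈ S, ψ a b * (u a * v b)| ≤
      p.κ / 8 * √(∑ a ∈ S, u a ^ 2) * √(∑ b ∈ S, v b ^ 2))
    (hrow : ∀ a ∈ S, ∑ b ∈ S, ψ a b ^ 2 ≤ p.κ2 ^ 2 / 32) : Wt S (wt S e ψ) p := by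
  have hκ : 0 ≤ p.κ := by linarith [hc.E14, hc.κE0]
  have hκ2 : 0 ≤ p.κ2 := by linarith [hc.E15, hc.κ2E0]
  refine ⟨fun a b => ?_, fun a b => ?_, fun a b => ?_, hc.ω1, hc.ω2, fun a b h => ?_, hκ, hκ2,
    fun u v => ?_, fun a ha => ?_⟩
  · unfold wt
    rw [he.symm a b, hs a b]
    simp only [and_comm]
  · unfold wt
    split_ifs
    · have := abs_le.1 (h1 a b)
      rcases he.val a b with h | h <;> rw [h] <;> nlinarith [this.1]
    · exact le_rfl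
  · unfold wt
    have := hc.ω1
    split_ifs
    · rcases he.val a b with h | h <;> rw [h] <;> nlinarith [hω a b]
    · linarith
  · exact ⟨(wt_ne_zero he.val h).1, (wt_ne_zero he.val h).2.1⟩
  · rw [sum_one_sub_wt (fun a b => u a * v b)]
    have h2 := exc_op he.toSmall h1 u v
    have h3 := hop u v
    have h4 : 0 ≤ √(∑ a ∈ S, u a ^ 2) * √(∑ b ∈ S, v b ^ 2) :=
      mul_nonneg (Real.sqrt_nonneg _) (Real.sqrt_nonneg _)
    refine (abs_sub _ _).trans ?_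
    have h5 : (3 / 2 * (37 * p.κE) + p.κ / 8) * (√(∑ a ∈ S, u a ^ 2) * √(∑ b ∈ S, v b ^ 2)) ≤
        p.κ * (√(∑ a ∈ S, u a ^ 2) * √(∑ b ∈ S, v b ^ 2)) :=
      mul_le_mul_of_nonneg_right (by linarith [hc.E14]) h4
    linarith
  · have h2 : ∑ b ∈ S, (1 - wt S e ψ a b) ^ 2 ≤ ∑ b ∈ S, (e a b + ψ a b ^ 2) := by
      refine Finset.sum_le_sum fun b hb => ?_
      rw [one_sub_wt ha hb]
      rcases he.val a b with h | h <;> rw [h] <;> nlinarith [sq_nonneg (ψ a b)]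
    rw [Finset.sum_add_distrib] at h2
    have h3 := he.row a ha
    have h4 := hrow a ha
    have h5 : (400 * p.κ2E) ^ 2 ≤ p.κ2 ^ 2 :=
      pow_le_pow_left₀ (by linarith [hc.κ2E0]) hc.E15 2
    nlinarith [sq_nonneg p.κ2E]

/-- `tilt`: `Ew (2 s r₂) = 2 s N - 2 s ∑ e r₂ - γ N²`, `|∑ e r₂| ≤ √(325 nE P4)` (`E17`, `E18`),
`|Z - N²| ≤ κ N`; `xi`: `|∑ e (1+ψ) K c a K c b| ≤ 1.5 · 37 κE b_c` (`E16`) -/
theorem wt_WtK (hK : Bnd S K s p) (hc : CondWt p) (he : Exc S A B p cf e)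
    (hw : Wt S (wt S e ψ) p) (h1 : ∀ a b, |ψ a b| ≤ 1 / 2)
    (hal : ∀ a b, Alw2 A B p a b → Alw K p a b) (hγ : 4 * p.γ * p.κ * p.N ≤ p.RF)
    (ht : 2 * s * ∑ a ∈ S, ∑ b ∈ S, (1 - e a b) * ψ a b * (K ^ 2) a b = -(p.γ * p.N ^ 2))
    (hxi : ∑ c, (∑ a ∈ S, ∑ b ∈ S, ψ a b * (K c a * K c b)) ^ 2 ≤ p.Ξ2 / 4) :
    WtK S (wt S e ψ) K s p := by
  have nn := hK.nn
  refine ⟨fun a b h => ?_, ?_, ?_⟩
  · obtain ⟨ha, hb, h0⟩ := wt_ne_zero he.val h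
    exact hal a b (he.good a ha b hb h0).2
  · have h2 : Ew (wt S e ψ) (fun a b => 2 * s * (K ^ 2) a b) =
        2 * s * (∑ a ∈ S, ∑ b ∈ S, (K ^ 2) a b) - 2 * s * (∑ a ∈ S, ∑ b ∈ S, e a b * (K ^ 2) a b) +
          2 * s * ∑ a ∈ S, ∑ b ∈ S, (1 - e a b) * ψ a b * (K ^ 2) a b := by
      rw [hw.eq_sum]
      simp only [Finset.mul_sum, ← Finset.sum_sub_distrib, ← Finset.sum_add_distrib]
      refine Finset.sum_congr rfl fun a ha => Finset.sum_congr rfl fun b hb => ?_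
      unfold wt
      rw [if_pos ⟨ha, hb⟩]
      ring
    have h3 := hK.toSide.pow_total 2
    rw [hK.toSide.sq, hK.card, mul_one] at h3
    have h4 := hw.Z
    rw [hK.card] at h4
    have h5 : (∑ a ∈ S, ∑ b ∈ S, e a b * (K ^ 2) a b) ^ 2 ≤ (p.RF / 10) ^ 2 := by
      refine (exc_sum_sq he.val (K ^ 2)).trans ?_
      have h6 : 0 ≤ ∑ a ∈ S, ∑ b ∈ S, e a b :=
        Finset.sum_nonneg fun a _ => Finset.sum_nonneg fun b _ => he.nonneg a b
      have h7 : (∑ a ∈ S, ∑ b ∈ S, e a b) * fro (K ^ 2) ≤ 325 * p.nE * p.P4 :=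
        (mul_le_mul_of_nonneg_left hK.fro_two h6).trans (mul_le_mul_of_nonneg_right he.cnt nn.P4)
      have h8 := hc.E18
      nlinarith [sq_nonneg p.RF]
    have h6 := abs_le.1 (abs_le_of_sq_le_sq' h5 (by linarith [hc.RF0]) |> fun h => abs_le.2 h)
    have h7 : |p.γ * (Ew (wt S e ψ) (fun _ _ => 1) - p.N ^ 2)| ≤ p.γ * (p.κ * p.N) := by
      rw [abs_mul, abs_of_nonneg hc.γ0]
      exact mul_le_mul_of_nonneg_left h4 hc.γ0
    have h8 := abs_le.1 h7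
    have h9 := hc.E17
    have h10 := nn.N
    rw [h2, h3, ht, abs_le]
    rcases hK.sgn with h | h <;> rw [h] <;> constructor <;> nlinarith [h6.1, h6.2, h8.1, h8.2]
  · have h2 : ∀ c, (∑ a ∈ S, ∑ b ∈ S, (1 - wt S e ψ a b) * (K c a * K c b)) ^ 2 ≤
        2 * (111 / 2 * p.κE) ^ 2 * bb K c ^ 2 +
          2 * (∑ a ∈ S, ∑ b ∈ S, ψ a b * (K c a * K c b)) ^ 2 := by
      intro c
      rw [sum_one_sub_wt (fun a b => K c a * K c b)]
      have h3 := exc_op he.toSmall h1 (fun a => K c a) (fun a => K c a)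
      have h4 : ∑ a ∈ S, K c a ^ 2 ≤ bb K c := by
        rw [bb_eq hK.symm]
        exact Finset.sum_le_sum_of_subset_of_nonneg (Finset.subset_univ _) fun _ _ _ => sq_nonneg _
      have h5 : 0 ≤ ∑ a ∈ S, K c a ^ 2 := Finset.sum_nonneg fun _ _ => sq_nonneg _
      rw [mul_assoc (37 * p.κE), Real.mul_self_sqrt h5] at h3
      have h6 : 3 / 2 * (37 * p.κE * ∑ a ∈ S, K c a ^ 2) ≤ 111 / 2 * p.κE * bb K c := by
        have := mul_le_mul_of_nonneg_left h4 hc.κE0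
        linarith
      have h7 := sq_le_sq' (abs_le.1 (h3.trans h6)).1 (abs_le.1 (h3.trans h6)).2
      nlinarith [sq_nonneg ((∑ a ∈ S, ∑ b ∈ S, e a b * (1 + ψ a b) * (K c a * K c b)) +
        ∑ a ∈ S, ∑ b ∈ S, ψ a b * (K c a * K c b))]
    refine (Finset.sum_le_sum fun c _ => h2 c).trans ?_
    rw [Finset.sum_add_distrib, ← Finset.mul_sum, ← Finset.mul_sum]
    have h3 : p.κE ^ 2 * ∑ c, bb K c ^ 2 ≤ p.κE ^ 2 * p.Db :=
      mul_le_mul_of_nonneg_left hK.sum_bb_sq (sq_nonneg _)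
    have h4 := hc.E16
    have h5 : 0 ≤ p.κE ^ 2 * p.Db := mul_nonneg (sq_nonneg _) nn.Db
    nlinarith

open Classical in
/-- `ψ = 0` if `γ = 0`, otherwise `ψ = psi A B x y` from `exists_tilt` (`G1`–`G4`) -/
theorem exists_weights (hA : Bnd S A 1 p) (hB : Bnd S B (-1) p) (hg : Glob p) (hc : CondWt p)
    (cf : ι → ι → Prop) (hs : ∀ a b, cf a b → cf b a) (hr : ∀ a, cf a a)
    (hd : ∀ c ∈ S, ((S.filter fun e => cf c e).card : ℝ) ≤ p.dg)
    (ht : p.γ = 0 ∨ (CondTilt p ∧ p.Pl ≤ pk A 4 ∧ p.Pl ≤ pk B 4 ∧ XX A B ≤ p.Xb)) :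
    ∃ w, Wt S w p ∧ WtK S w A 1 p ∧ WtK S w B (-1) p ∧
      ∀ a b, w a b ≠ 0 → ¬ cf a b ∧ Alw2 A B p a b := by
  obtain ⟨e, he⟩ := exists_exc hA hB hg hc cf hs hr hd
  have nn := hA.nn
  have hbA := bb_nonneg hA.symm
  have hbB := bb_nonneg hB.symm
  have hgood : ∀ ψ : ι → ι → ℝ, ∀ a b, wt S e ψ a b ≠ 0 → ¬ cf a b ∧ Alw2 A B p a b := by
    intro ψ a b h
    obtain ⟨ha, hb, h0⟩ := wt_ne_zero he.val h
    exact he.good a ha b hb h0
  have hκ : 0 ≤ p.κ := by linarith [hc.E14, hc.κE0]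
  rcases ht with h0 | ⟨hT, h4A, h4B, hX⟩
  · have h1 : ∀ a b : ι, |(fun _ _ => (0 : ℝ)) a b| ≤ 1 / 2 := fun _ _ => by norm_num
    have hΞ : 0 ≤ p.Ξ2 := by
      have h5 : 0 ≤ p.κE ^ 2 * p.Db := mul_nonneg (sq_nonneg _) nn.Db
      linarith [hc.E16]
    have hw : Wt S (wt S e fun _ _ => 0) p := by
      refine wt_Wt hc he (fun _ _ => rfl) h1 (fun _ _ => by linarith [hc.ω1]) (fun u v => ?_)
        (fun a _ => ?_)
      · simp only [zero_mul, Finset.sum_const_zero, abs_zero]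
        positivity
      · simp only [ne_eq, OfNat.ofNat_ne_zero, not_false_eq_true, zero_pow, Finset.sum_const_zero]
        positivity
    have hγ : 4 * p.γ * p.κ * p.N ≤ p.RF := by
      rw [h0]
      simpa using hc.RF0
    refine ⟨_, hw, wt_WtK hA hc he hw h1 (fun a b h => h.left hbA hbB) hγ ?_ ?_,
      wt_WtK hB hc he hw h1 (fun a b h => h.right hbA hbB) hγ ?_ ?_, hgood _⟩
    · simp [h0]
    · simpa using (by linarith : 0 ≤ p.Ξ2 / 4)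
    · simp [h0]
    · simpa using (by linarith : 0 ≤ p.Ξ2 / 4)
  · obtain ⟨x, y, hx, hy, htA, htB⟩ := exists_tilt hA hB hc hT he h4A h4B hX
    have h1 := abs_psi_le hA.toSide hB.toSide hx hy
    have hw : Wt S (wt S e (psi A B x y)) p := by
      refine wt_Wt hc he (psi_symm hA.toSide hB.toSide) h1 (fun a b => ?_) (fun u v => ?_)
        (fun a _ => ?_)
      · have := (abs_le.1 (h1 a b)).2
        rw [hT.ω2]
        linarith
      · refine (psi_op hA hB hx hy u v).trans ?_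
        refine mul_le_mul_of_nonneg_right (mul_le_mul_of_nonneg_right ?_ (Real.sqrt_nonneg _))
          (Real.sqrt_nonneg _)
        linarith [hT.G1]
      · refine (psi_row hA hB hx hy a).trans ?_
        have h5 : (2 * p.Λ) ^ 2 ≤ p.κ2 ^ 2 := pow_le_pow_left₀ (by linarith [nn.Λ]) hT.G2 2
        nlinarith
    have hxi := psi_xi hA hB hx hy
    refine ⟨_, hw, wt_WtK hA hc he hw h1 (fun a b h => h.left hbA hbB) hT.G4 ?_ ?_,
      wt_WtK hB hc he hw h1 (fun a b h => h.right hbA hbB) hT.G4 ?_ ?_, hgood _⟩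
    · rw [htA]
      ring
    · linarith [hxi.1, hT.G3]
    · rw [htB]
      ring
    · linarith [hxi.2, hT.G3]

end Crest.Agent.R62
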