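import Crest.Agent.R62.StepTerm
import Crest.Agent.R62.Derive
import Crest.Agent.R62.DriftFQ
import Crest.Agent.R62.DriftT
import Crest.Agent.R62.DriftU
import Crest.Agent.R62.DriftV
import Crest.Agent.R62.DriftD
import Crest.Agent.R62.DriftW
import Crest.Agent.R62.DriftX
import Crest.Agent.R62.Weights

/-!
# Row 62: some admissible pair almost does not increase the potential

Every term of `Phi` satisfies `Ew term' ≤ Z · term + C θ N` (`quad_term`, `lin_term` with `y = θ N`).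
On the support of `w`, `a, b ∈ S`, `a ≠ b`, so `card S' = N - 2`.
-/

set_option autoImplicit false

open Finset Matrix

noncomputable section

namespace Crest.Agent.R62

variable {ι V : Type} [Fintype ι] [DecidableEq ι] [Fintype V] [DecidableEq V]
variable {S : Finset ι} {w : ι → ι → ℝ} {K : Mat ι} {s Tc Tc' : ℝ} {sc sc' : Sc} {p : Par}

theorem Ctx.card_step (h : Ctx S w K s p) {a b : ι} (hab : w a b ≠ 0) :
    ((((S.erase a).erase b).card : ℕ) : ℝ) = p.N - 2 := by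
  have h1 := h.wt.supp a b hab
  have h2 := card_erase_erase h1.1 h1.2 (h.wk.alw a b hab).ne
  have h3 : ((((S.erase a).erase b).card : ℕ) : ℝ) + 2 = (S.card : ℝ) := by exact_mod_cast h2
  have h4 := h.bnd.card
  linarith

theorem Ctx.Z0 (h : Ctx S w K s p) : 0 ≤ Ew w (fun _ _ => 1) :=
  h.wt.Ew_nonneg fun _ _ _ => zero_le_one

theorem Ctx.y0 (h : Ctx S w K s p) : 0 ≤ p.θ * p.N := mul_nonneg h.gl.θ0.le h.gl.N0.le

theorem Ctx.μ0 (h : Ctx S w K s p) : 0 ≤ p.μ := by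
  have := h.bnd.ρ1
  unfold Par.μ
  linarith

theorem Ctx.μ1 (h : Ctx S w K s p) : p.μ ≤ 1 := by
  have := h.bnd.ρ0
  unfold Par.μ
  linarith

/-- second moment after a constant shift -/
theorem Wt.sq_add_const (hw : Wt S w p) (F : ι → ι → ℝ) (e : ℝ) :
    Ew w (fun a b => (F a b + e) ^ 2) ≤
      2 * Ew w (fun a b => F a b ^ 2) + 2 * e ^ 2 * Ew w (fun _ _ => 1) := by
  have h1 : Ew w (fun a b => (F a b + e) ^ 2) ≤
      Ew w (fun a b => 2 * F a b ^ 2 + 2 * e ^ 2) :=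
    hw.mono fun a b _ => by nlinarith [sq_nonneg (F a b - e)]
  have h2 : Ew w (fun a b => 2 * F a b ^ 2 + 2 * e ^ 2) =
      Ew w (fun a b => 2 * F a b ^ 2) + Ew w (fun _ _ => 2 * e ^ 2) :=
    Ew_add w (fun a b => 2 * F a b ^ 2) (fun _ _ => 2 * e ^ 2)
  have h3 : Ew w (fun a b => 2 * F a b ^ 2) = 2 * Ew w (fun a b => F a b ^ 2) :=
    Ew_mul w 2 (fun a b => F a b ^ 2)
  have h4 := Ew_const w (2 * e ^ 2)
  linarith

theorem Ew_add_const (w F : ι → ι → ℝ) (e : ℝ) :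
    Ew w (fun a b => F a b + e) = Ew w F + e * Ew w (fun _ _ => 1) := by
  have h2 : Ew w (fun a b => F a b + e) = Ew w F + Ew w (fun _ _ => e) :=
    Ew_add w F (fun _ _ => e)
  rw [h2, Ew_const w e]

theorem StepOK.chi (ho : StepOK p sc sc') (h : Ctx S w K s p) {j : ℕ} (hj : j ≤ 4) :
    p.χ ^ j * (Ew w (fun _ _ => 1) - 2 * j * p.μ * p.N) ≤
      Ew w (fun _ _ => 1) + 10 * (p.θ * p.N) ∧ 0 ≤ p.χ ^ j ∧ p.χ ^ j ≤ 11 / 10 :=
  h.zok.chi' hj ho.χ rfl h.μ0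

/-- the coefficient ratio of `VV` and `DD` -/
theorem ratio_aux {N θ W c k k' : ℝ} (hN : 100 ≤ N) (hθ0 : 0 < θ) (hθ : 100 * θ ≤ 1) (hW : 0 ≤ W)
    (hc0 : 0 ≤ c) (hc : c ≤ 11 / 10) (hk : k' * (1 + 4000 * W / N ^ 2) ≤ c * k * (1 + θ / N)) :
    k' ≤ c * (1 + θ / N) / (1 + 4000 * W / N ^ 2) * k ∧
      0 ≤ c * (1 + θ / N) / (1 + 4000 * W / N ^ 2) ∧
      c * (1 + θ / N) / (1 + 4000 * W / N ^ 2) ≤ 2 := by
  have hN0 : 0 < N := by linarith
  have h1 : 0 ≤ 4000 * W / N ^ 2 := by positivity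
  have h2 : 0 < 1 + 4000 * W / N ^ 2 := by linarith
  have h3 : 0 ≤ θ / N := by positivity
  have h4 : θ / N ≤ 1 / 10 := by
    rw [div_le_iff₀ hN0]
    linarith
  refine ⟨?_, by positivity, ?_⟩
  · rw [div_mul_eq_mul_div, le_div_iff₀ h2]
    linarith
  · rw [div_le_iff₀ h2]
    nlinarith

/-- `f = p₁ - Fc`, `D = Δ p₁ + γ`, `r = 2 μ N` (`μ = 0` or `Fc = 0`); `meanF`, `varF`, `S1`, and `γ = 0` or `G8` -/
theorem StepOK.termF (ho : StepOK p sc sc') (h : Ctx S w K s p) (hp : PartsS sc S K Tc 1) :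
    Ew w (fun a b => sc'.kF * (pk (step K s a b) 1 - sc'.Fc) ^ 2) ≤
      Ew w (fun _ _ => 1) * (sc.kF * (pk K 1 - sc.Fc) ^ 2) + 10 ^ 10 * (p.θ * p.N) := by
  have hd := ho.der
  have hy := h.y0
  have hE : 0 ≤ p.θ * p.σF := mul_nonneg h.gl.θ0.le hd.σF0.le
  have hm := h.meanF hE ho.cF
  have hv := h.varF
  obtain ⟨hZ, -, hc⟩ := ho.chi h (j := 2) (by norm_num)
  have hr : 2 * p.μ * p.N * (pk K 1 - sc.Fc) = 2 * p.μ * p.N * pk K 1 := by
    rcases ho.Fc0 with h1 | h1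
    · have : p.μ = 0 := by unfold Par.μ; linarith
      rw [this]; ring
    · rw [h1]; ring
  have hγ : 2 * p.γ ^ 2 * Ew w (fun _ _ => 1) ≤ 2 * (p.θ * p.N * p.σF ^ 2) := by
    have hN := h.gl.N0
    have h0 : 0 ≤ p.θ * p.N * p.σF ^ 2 := mul_nonneg hy (sq_nonneg _)
    rcases ho.tilt with h1 | h1
    · rw [h1]; linarith
    · have h2 := h1.1.G8
      have h3 := h.Z_le
      have h4 : 2 * p.γ ^ 2 * Ew w (fun _ _ => 1) ≤ 2 * p.γ ^ 2 * (2 * p.N ^ 2) :=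
        mul_le_mul_of_nonneg_left h3 (by positivity)
      have h5 := mul_le_mul_of_nonneg_left h2 hN.le
      nlinarith
  have key := quad_term h.wt (D := fun a b => pk (step K s a b) 1 - pk K 1 + p.γ)
    (f := pk K 1 - sc.Fc) (k := sc.kF) (k' := sc'.kF) (σ := p.σF) (c := p.χ ^ 2)
    (r := 2 * p.μ * p.N) (C := 2 * 10 ^ 9 + 2) (y := p.θ * p.N) hd.σF0 hd.kF hp.F ho.pos'.kF
    ho.kF' hc hy (by norm_num) ?_ ?_ ?_
  · have e1 : (fun a b => sc'.kF * (pk (step K s a b) 1 - sc'.Fc) ^ 2) =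
        fun a b => sc'.kF * (pk K 1 - sc.Fc + (pk (step K s a b) 1 - pk K 1 + p.γ)) ^ 2 := by
      funext a b
      rw [ho.Fc']
      ring
    rw [e1]
    nlinarith
  · rw [Ew_add_const w (fun a b => pk (step K s a b) 1 - pk K 1) p.γ, hr]
    have h0 : 0 ≤ p.θ * p.N * p.σF := mul_nonneg hy hd.σF0.le
    refine hm.trans ?_
    nlinarith
  · have h1 := h.wt.sq_add_const (fun a b => pk (step K s a b) 1 - pk K 1) p.γ
    have h2 := ho.S1
    beta_reduce at h1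
    nlinarith
  · have : (2 : ℝ) * ((2 : ℕ) : ℝ) * p.μ * p.N = 2 * (2 * p.μ * p.N) := by push_cast; ring
    rw [this] at hZ
    exact hZ

/-- `D = (Δ p₂ + 2 - 2 μ²) - e`, `|e| ≤ 8 ρ / N` (`ρ'`), `r = 4 μ N`; `meanQ`, `varQ`, `Q1`, `S2`, `S2c` -/
theorem StepOK.termQ (ho : StepOK p sc sc') (h : Ctx S w K s p) (hp : PartsS sc S K Tc 1) :
    Ew w (fun a b => sc'.kx * (pk (step K s a b) 2 - ((S.erase a).erase b).card * sc'.ρ - 1) ^ 2) ≤
      Ew w (fun _ _ => 1) * (sc.kx * (pk K 2 - S.card * sc.ρ - 1) ^ 2) + 10 ^ 10 * (p.θ * p.N) := by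
  have hd := ho.der
  have hy := h.y0
  have hN := h.gl.N0
  have hE : 0 ≤ p.θ * p.σx := mul_nonneg h.gl.θ0.le hd.σx0.le
  have hm := h.meanQ hE ho.cQ
  have hv := h.varQ
  obtain ⟨hZ, -, hc⟩ := ho.chi h (j := 4) (by norm_num)
  have hZ0 := h.Z0
  have hZ2 := h.Z_le
  have hρ0 := hd.ρ0
  have hρ1 := hd.ρ1
  obtain ⟨e, he⟩ : ∃ e, e = (p.N - 2) * sc'.ρ - p.N * p.ρ + 2 - 2 * p.μ ^ 2 := ⟨_, rfl⟩
  have he1 : |e| ≤ 8 * p.ρ / p.N := by rw [he]; exact ho.ρ'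
  have he2 : |e| * p.N ≤ 8 * p.ρ := by rwa [le_div_iff₀ hN] at he1
  have hx : sc.kx * (pk K 2 - p.N * p.ρ - 1) ^ 2 ≤ 1 := by
    have := hp.x'
    rwa [h.bnd.card, hd.ρ] at this
  have heZ : |(-e) * Ew w (fun _ _ => 1)| ≤ 16 * (p.θ * p.N * p.σx) := by
    rw [abs_mul, abs_neg, abs_of_nonneg hZ0]
    have h1 : |e| * Ew w (fun _ _ => 1) ≤ |e| * (2 * p.N ^ 2) :=
      mul_le_mul_of_nonneg_left hZ2 (abs_nonneg _)
    have h2 := mul_le_mul_of_nonneg_left he2 hN.le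
    have h3 := mul_le_mul_of_nonneg_left ho.cQ.Q1 hN.le
    nlinarith
  have heZ2 : 2 * (-e) ^ 2 * Ew w (fun _ _ => 1) ≤ 256 * (p.θ * p.N * p.σx ^ 2) := by
    have h1 : 2 * (-e) ^ 2 * Ew w (fun _ _ => 1) ≤ 2 * (-e) ^ 2 * (2 * p.N ^ 2) :=
      mul_le_mul_of_nonneg_left hZ2 (by positivity)
    have h2 : (|e| * p.N) ^ 2 ≤ (8 * p.ρ) ^ 2 :=
      pow_le_pow_left₀ (mul_nonneg (abs_nonneg _) hN.le) he2 2
    rw [mul_pow, sq_abs] at h2
    have h3 := ho.S2c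
    have h4 : p.ρ ^ 2 ≤ p.ρ := by nlinarith
    nlinarith
  have key := quad_term h.wt
    (D := fun a b => pk (step K s a b) 2 - pk K 2 + 2 - 2 * p.μ ^ 2 + -e)
    (f := pk K 2 - p.N * p.ρ - 1) (k := sc.kx) (k' := sc'.kx) (σ := p.σx) (c := p.χ ^ 4)
    (r := 4 * p.μ * p.N) (C := 2 * 10 ^ 9 + 256) (y := p.θ * p.N) hd.σx0 hd.kx hx ho.pos'.kx
    ho.kx' hc hy (by norm_num) ?_ ?_ ?_
  · have e1 : Ew w (fun a b => sc'.kx *
        (pk (step K s a b) 2 - ((S.erase a).erase b).card * sc'.ρ - 1) ^ 2) =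
        Ew w (fun a b => sc'.kx * (pk K 2 - p.N * p.ρ - 1 +
          (pk (step K s a b) 2 - pk K 2 + 2 - 2 * p.μ ^ 2 + -e)) ^ 2) := by
      refine Ew_congr w fun a b hab => ?_
      rw [h.card_step hab, he]
      ring
    rw [e1, h.bnd.card, hd.ρ]
    nlinarith
  · rw [Ew_add_const w (fun a b => pk (step K s a b) 2 - pk K 2 + 2 - 2 * p.μ ^ 2) (-e)]
    have h0 : 0 ≤ p.θ * p.N * p.σx := mul_nonneg hy hd.σx0.le
    rw [abs_le] at hm heZ ⊢
    constructor <;> nlinarith [hm.1, hm.2, heZ.1, heZ.2]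
  · have h1 := h.wt.sq_add_const (fun a b => pk (step K s a b) 2 - pk K 2 + 2 - 2 * p.μ ^ 2) (-e)
    have h2 := ho.S2
    beta_reduce at h1
    nlinarith
  · have : (2 : ℝ) * ((4 : ℕ) : ℝ) * p.μ * p.N = 2 * (4 * p.μ * p.N) := by push_cast; ring
    rw [this] at hZ
    exact hZ

theorem StepOK.termTU (ho : StepOK p sc sc') (h : Ctx S w K s p) (hp : PartsS sc S K Tc 1)
    (hT : (Tc = sc.Tp ∧ Tc' = sc'.Tp) ∨ (Tc = sc.Tm ∧ Tc' = sc'.Tm)) :
    Ew w (fun a b => sc'.kT * (pk (step K s a b) 3 - Tc') ^ 2 + sc'.kU * pk (step K s a b) 6) ≤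
      Ew w (fun _ _ => 1) * (sc.kT * (pk K 3 - Tc) ^ 2 + sc.kU * pk K 6) +
        10 ^ 10 * (p.θ * p.N) := by
  have hd := ho.der
  have hy := h.y0
  have hN := h.gl.N0
  have hZ0 := h.Z0
  have h6 : 0 ≤ pk K 6 := pk_even_nonneg h.bnd.symm 3
  rcases ho.top with ⟨h1, h2⟩ | ⟨cT, cU, hS, hσ, hkT, hkU, hkT', hkU', hTp, hTm, hρ⟩
  · have e1 : Ew w (fun a b => sc'.kT * (pk (step K s a b) 3 - Tc') ^ 2 +
        sc'.kU * pk (step K s a b) 6) = 0 := by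
      rw [h1, h2]
      simp [Ew]
    rw [e1]
    have h3 : 0 ≤ sc.kT * (pk K 3 - Tc) ^ 2 + sc.kU * pk K 6 :=
      add_nonneg (mul_nonneg hd.pos.kT (sq_nonneg _)) (mul_nonneg hd.pos.kU h6)
    have h4 := mul_nonneg hZ0 h3
    positivity
  · have hTT : Tc' = Tc := by
      rcases hT with ⟨h1, h2⟩ | ⟨h1, h2⟩
      · rw [h1, h2, hTp]
      · rw [h1, h2, hTm]
    have hr : 6 * p.μ * p.N * (pk K 3 - Tc) = 6 * p.μ * p.N * pk K 3 := by
      rcases hρ with h1 | ⟨h1, h2⟩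
      · have : p.μ = 0 := by unfold Par.μ; linarith
        rw [this]; ring
      · have : Tc = 0 := by
          rcases hT with ⟨h3, -⟩ | ⟨h3, -⟩
          · rw [h3, h1]
          · rw [h3, h2]
        rw [this]; ring
    have hE : 0 ≤ p.θ * p.σT := mul_nonneg h.gl.θ0.le hσ.le
    have hΛ : 0 ≤ p.Λ := by have := hd.Λ1; linarith
    have hE' : 0 ≤ p.θ * p.Λ ^ 6 := mul_nonneg h.gl.θ0.le (by positivity)
    have hm := h.meanT hE cT
    have hv := h.varT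
    have hU := h.driftU hE' cU
    have hμ := h.μ0
    have key := quad_term h.wt (D := fun a b => pk (step K s a b) 3 - pk K 3)
      (f := pk K 3 - Tc) (k := sc.kT) (k' := sc'.kT) (σ := p.σT) (c := 1)
      (r := 6 * p.μ * p.N) (C := 10 ^ 9) (y := p.θ * p.N) hσ hkT hp.T ho.pos'.kT
      (by linarith) (by norm_num) hy (by norm_num)
      (by rw [hr]; refine hm.trans (le_of_eq (by ring)))
      (by nlinarith)
      (by have := mul_nonneg hμ hN.le; nlinarith)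
    have eU : Ew w (fun a b => pk (step K s a b) 6) =
        Ew w (fun a b => pk (step K s a b) 6 - pk K 6) + pk K 6 * Ew w (fun _ _ => 1) := by
      rw [← Ew_add_const w (fun a b => pk (step K s a b) 6 - pk K 6) (pk K 6)]
      exact Ew_congr w fun a b _ => by ring
    have hX0 : 0 ≤ Ew w (fun a b => pk (step K s a b) 6) :=
      h.wt.Ew_nonneg fun a b _ => pk_even_nonneg (step_symm h.bnd.symm) 3
    have keyU := lin_term (Z := Ew w (fun _ _ => 1)) (Z' := Ew w (fun _ _ => 1)) (c := 1)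
      (C := 10 ^ 9) (y := p.θ * p.N) (e := 0) hkU hd.pos.kU h6 hp.U hX0 (k' := sc'.kU)
      (by linarith) zero_le_one (by norm_num) hy (by norm_num) le_rfl
      (by rw [eU]; nlinarith) (by linarith)
    have e1 : Ew w (fun a b => sc'.kT * (pk (step K s a b) 3 - Tc') ^ 2 +
        sc'.kU * pk (step K s a b) 6) =
        Ew w (fun a b => sc'.kT * (pk K 3 - Tc + (pk (step K s a b) 3 - pk K 3)) ^ 2) +
          sc'.kU * Ew w (fun a b => pk (step K s a b) 6) := by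
      rw [← Ew_mul w sc'.kU (fun a b => pk (step K s a b) 6), ← Ew_add]
      refine Ew_congr w fun a b _ => ?_
      rw [hTT]
      ring
    rw [e1]
    nlinarith

theorem StepOK.termV (ho : StepOK p sc sc') (h : Ctx S w K s p) (hp : PartsS sc S K Tc 1) :
    Ew w (fun a b => sc'.kV * VV ((S.erase a).erase b) (step K s a b) sc'.ρ) ≤
      Ew w (fun _ _ => 1) * (sc.kV * VV S K sc.ρ) + 10 ^ 10 * (p.θ * p.N) := by
  have hd := ho.der
  have hy := h.y0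
  have hN := h.gl.N0
  have hz := h.zok
  have hV0 : 0 ≤ p.V := (VV_nonneg _ _ _).trans h.bnd.V
  have hW0 : 0 ≤ p.W := (WW_nonneg _).trans h.bnd.W
  have hE : 0 ≤ p.θ * p.V := mul_nonneg h.gl.θ0.le hV0
  have hX := h.driftV hE ho.cV ho.ρ''
  obtain ⟨hZ, hc0, hc⟩ := ho.chi h (j := 2) (by norm_num)
  have e2 : (2 : ℝ) * ((2 : ℕ) : ℝ) * p.μ * p.N = 4 * p.μ * p.N := by push_cast; ring
  rw [e2] at hZ
  have hr : 4 * p.μ * p.N ≤ 4 * p.N := by have := h.μ1; nlinarith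
  have hg := hz.grow hc0 hr hW0 hZ
  obtain ⟨r1, r2, r3⟩ := ratio_aux hz.N100 hz.θ0 hz.θ1 hW0 hc0 hc ho.kV'
  have hX0 : 0 ≤ Ew w (fun a b => VV ((S.erase a).erase b) (step K s a b) sc'.ρ) :=
    h.wt.Ew_nonneg fun a b _ => VV_nonneg _ _ _
  have hx : sc.kV * VV S K p.ρ ≤ 1 := by
    have := hp.V
    rwa [hd.ρ] at this
  have key := lin_term (C := 10 ^ 9) (y := p.θ * p.N) hd.kV hd.pos.kV (VV_nonneg S K p.ρ) hx hX0 r1 r2 r3
    hy (by norm_num) (by positivity) (hX.trans (le_of_eq (by ring))) hg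
  rw [Ew_mul w sc'.kV (fun a b => VV ((S.erase a).erase b) (step K s a b) sc'.ρ), hd.ρ]
  nlinarith

theorem StepOK.termD (ho : StepOK p sc sc') (h : Ctx S w K s p) (hp : PartsS sc S K Tc 1) :
    Ew w (fun a b => sc'.kD * DD (step K s a b)) ≤
      Ew w (fun _ _ => 1) * (sc.kD * DD K) + 10 ^ 10 * (p.θ * p.N) := by
  have hd := ho.der
  have hy := h.y0
  have hN := h.gl.N0
  have hz := h.zok
  have hD0 : 0 ≤ p.δ := (DD_nonneg _).trans h.bnd.D
  have hW0 : 0 ≤ p.W := (WW_nonneg _).trans h.bnd.W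
  have hE : 0 ≤ p.θ * p.δ := mul_nonneg h.gl.θ0.le hD0
  have hX := h.driftD hE ho.cD
  obtain ⟨hZ, hc0, hc⟩ := ho.chi h (j := 1) (by norm_num)
  rw [pow_one] at hZ hc0 hc
  have hZ' : p.χ * (Ew w (fun _ _ => 1) - 2 * p.N) ≤ Ew w (fun _ _ => 1) + 10 * (p.θ * p.N) := by
    refine le_trans (mul_le_mul_of_nonneg_left ?_ hc0) hZ
    have := h.μ1
    push_cast
    nlinarith
  have hg := hz.grow hc0 (r := 2 * p.N) (by linarith) hW0 hZ'
  obtain ⟨r1, r2, r3⟩ := ratio_aux hz.N100 hz.θ0 hz.θ1 hW0 hc0 hc ho.kD'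
  have hX0 : 0 ≤ Ew w (fun a b => DD (step K s a b)) :=
    h.wt.Ew_nonneg fun a b _ => DD_nonneg _
  have key := lin_term (C := 10 ^ 9) (y := p.θ * p.N) hd.kD hd.pos.kD (DD_nonneg K) hp.D hX0 r1 r2 r3
    hy (by norm_num) (by positivity) (hX.trans (le_of_eq (by ring))) hg
  rw [Ew_mul w sc'.kD (fun a b => DD (step K s a b))]
  nlinarith

/-- `2 WW² ≤ 2 W · WW` -/
theorem StepOK.termW (ho : StepOK p sc sc') (h : Ctx S w K s p) (hp : PartsS sc S K Tc 1) :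
    Ew w (fun a b => sc'.kW * WW (step K s a b)) ≤
      Ew w (fun _ _ => 1) * (sc.kW * WW K) + 10 ^ 10 * (p.θ * p.N) := by
  have hd := ho.der
  have hy := h.y0
  have hN := h.gl.N0
  have hz := h.zok
  have hW := h.bnd.W
  have hWW := WW_nonneg K
  have hW0 : 0 ≤ p.W := hWW.trans hW
  have hE : 0 ≤ p.θ * p.W := mul_nonneg h.gl.θ0.le hW0
  have hX := h.driftW hE ho.cW
  obtain ⟨c, r1, r2, r3, hg⟩ := hz.wterm ho.L0 ho.WL hd.kW ho.kW'
  have hX0 : 0 ≤ Ew w (fun a b => WW (step K s a b)) :=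
    h.wt.Ew_nonneg fun a b _ => WW_nonneg _
  have hX' : Ew w (fun a b => WW (step K s a b)) ≤
      (Ew w (fun _ _ => 1) - 4 * p.N + 2 * p.W) * WW K + 10 ^ 9 * (p.θ * p.N * p.W) := by
    have := mul_le_mul_of_nonneg_left hW hWW
    nlinarith
  have key := lin_term hd.kW hd.pos.kW hWW hp.W hX0 r1.le r2 r3
    hy (by norm_num) (by positivity) hX' hg
  rw [Ew_mul w sc'.kW (fun a b => WW (step K s a b))]
  nlinarith

theorem StepOK.side (ho : StepOK p sc sc') (h : Ctx S w K s p) (hp : PartsS sc S K Tc 1)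
    (hT : (Tc = sc.Tp ∧ Tc' = sc'.Tp) ∨ (Tc = sc.Tm ∧ Tc' = sc'.Tm)) :
    Ew w (fun a b => phiS sc' ((S.erase a).erase b) (step K s a b) Tc' +
      sc'.kW * WW (step K s a b)) ≤
      Ew w (fun _ _ => 1) * (phiS sc S K Tc + sc.kW * WW K) + 6 * 10 ^ 10 * (p.θ * p.N) := by
  have h1 := ho.termF h hp
  have h2 := ho.termQ h hp
  have h3 := ho.termTU h hp hT
  have h4 := ho.termV h hp
  have h5 := ho.termD h hp
  have h6 := ho.termW h hp
  have e1 : Ew w (fun a b => phiS sc' ((S.erase a).erase b) (step K s a b) Tc' +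
      sc'.kW * WW (step K s a b)) =
      Ew w (fun a b => sc'.kF * (pk (step K s a b) 1 - sc'.Fc) ^ 2) +
      Ew w (fun a b => sc'.kx *
        (pk (step K s a b) 2 - ((S.erase a).erase b).card * sc'.ρ - 1) ^ 2) +
      Ew w (fun a b => sc'.kT * (pk (step K s a b) 3 - Tc') ^ 2 + sc'.kU * pk (step K s a b) 6) +
      Ew w (fun a b => sc'.kV * VV ((S.erase a).erase b) (step K s a b) sc'.ρ) +
      Ew w (fun a b => sc'.kD * DD (step K s a b)) +
      Ew w (fun a b => sc'.kW * WW (step K s a b)) := by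
    rw [← Ew_add, ← Ew_add, ← Ew_add, ← Ew_add, ← Ew_add]
    refine Ew_congr w fun a b _ => ?_
    unfold phiS
    ring
  rw [e1]
  unfold phiS
  linarith

/-- the cross term -/
theorem StepOK.termX (ho : StepOK p sc sc') {A B : Mat ι} (hA : Ctx S w A 1 p)
    (hB : Ctx S w B (-1) p) (h2 : ∀ a b, w a b ≠ 0 → Alw2 A B p a b) (hp : sc.kX * XX A B ≤ 1) :
    Ew w (fun a b => sc'.kX * XX (step A 1 a b) (step B (-1) a b)) ≤
      Ew w (fun _ _ => 1) * (sc.kX * XX A B) + 10 ^ 10 * (p.θ * p.N) := by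
  have hd := ho.der
  have hy := hA.y0
  have hZ0 := hA.Z0
  have hx0 : 0 ≤ XX A B := XX_nonneg hA.bnd.symm hB.bnd.symm
  rw [Ew_mul w sc'.kX (fun a b => XX (step A 1 a b) (step B (-1) a b))]
  rcases ho.cross with h1 | ⟨cX, hk, hk'⟩
  · rw [h1, zero_mul]
    have h4 := mul_nonneg hZ0 (mul_nonneg hd.pos.kX hx0)
    positivity
  · have hXb : XX A B ≤ p.Xb := le_of_lin hd.pos.kX hk hp
    have hE : 0 ≤ p.θ * p.Xb := mul_nonneg hA.gl.θ0.le (hx0.trans hXb)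
    have hX := driftX hA hB h2 hXb hE cX
    have hX0 : 0 ≤ Ew w (fun a b => XX (step A 1 a b) (step B (-1) a b)) :=
      hA.wt.Ew_nonneg fun a b _ => XX_nonneg (step_symm hA.bnd.symm) (step_symm hB.bnd.symm)
    have key := lin_term (Z := Ew w (fun _ _ => 1)) (Z' := Ew w (fun _ _ => 1)) (c := 1)
      (C := 10 ^ 9) (y := p.θ * p.N) (e := 0) hk hd.pos.kX hx0 hp hX0 (k' := sc'.kX)
      (by linarith) zero_le_one (by norm_num) hy (by norm_num) le_rfl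
      (hX.trans (le_of_eq (by ring))) (by linarith)
    nlinarith

open Classical in
/-- the conflict term -/
theorem StepOK.termC (ho : StepOK p sc sc') (h : Ctx S w K s p) {vtx : ι → V} {G : SimpleGraph V}
    (hc : ∀ a b, w a b ≠ 0 → ¬ conf vtx G a b)
    (hd : ∀ c ∈ S, ((S.filter fun e => conf vtx G c e).card : ℝ) ≤ p.dg)
    (hp : sc.kC * CC vtx S G sc.cy ≤ 1) :
    Ew w (fun a b => sc'.kC *
      CC vtx ((S.erase a).erase b) (G ⊔ SimpleGraph.edge (vtx a) (vtx b)) sc'.cy) ≤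
      Ew w (fun _ _ => 1) * (sc.kC * CC vtx S G sc.cy) + 10 ^ 10 * (p.θ * p.N) := by
  have hy := h.y0
  have hN := h.gl.N0
  have hθ := h.gl.θ0
  have hcy := h.gl.cy0
  have hX := driftC h.wt h.bnd.card hc hcy hd
  rw [ho.cy] at hp ⊢
  rw [ho.cy', Ew_mul w sc'.kC (fun a b =>
    CC vtx ((S.erase a).erase b) (G ⊔ SimpleGraph.edge (vtx a) (vtx b)) p.cy)]
  have hX0 : 0 ≤ Ew w (fun a b =>
      CC vtx ((S.erase a).erase b) (G ⊔ SimpleGraph.edge (vtx a) (vtx b)) p.cy) :=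
    h.wt.Ew_nonneg fun a b _ => CC_nonneg _ _ _ hcy.le
  have hx0 : 0 ≤ CC vtx S G p.cy := CC_nonneg _ _ _ hcy.le
  obtain ⟨hZ, hc0, hc1⟩ := h.zok.chi' (j := 2) (by norm_num) (χ := p.N / (p.N - 2)) (ρ := 0) (μ := 1)
    (Or.inr ⟨rfl, rfl⟩) (by norm_num) zero_le_one
  have e2 : (2 : ℝ) * ((2 : ℕ) : ℝ) * 1 * p.N = 4 * p.N := by push_cast; ring
  rw [e2] at hZ
  have h1 : p.κ2 * √p.N ≤ p.θ * p.N := by
    refine abs_le_of_sq_le_sq' ?_ hy |>.2
    rw [mul_pow, Real.sq_sqrt hN.le]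
    have := mul_le_mul_of_nonneg_right h.gl.H2 hN.le
    nlinarith
  have h2 : 4 * p.dg * p.N / p.cy ≤ 4 * (p.θ * p.N) := by
    rw [div_le_iff₀ hcy]
    have := mul_le_mul_of_nonneg_right h.gl.H3 hN.le
    nlinarith
  have hk0 := ho.der.pos.kC
  have hk' := ho.kC'
  generalize (p.N / (p.N - 2)) ^ 2 = c at hZ hc0 hc1 hk'
  generalize Ew w (fun a b =>
      CC vtx ((S.erase a).erase b) (G ⊔ SimpleGraph.edge (vtx a) (vtx b)) p.cy) = X' at hX hX0 ⊢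
  generalize CC vtx S G p.cy = x at hX hx0 hp ⊢
  generalize Ew w (fun _ _ => 1) = Z at hX hZ ⊢
  have h3 : X' ≤ (Z - 4 * p.N + 8 * (p.θ * p.N)) * x :=
    hX.trans (mul_le_mul_of_nonneg_right (by linarith) hx0)
  have h4 : sc'.kC * X' ≤ c * sc.kC * X' := mul_le_mul_of_nonneg_right hk' hX0
  have h5 : c * sc.kC * X' ≤ c * sc.kC * ((Z - 4 * p.N + 8 * (p.θ * p.N)) * x) :=
    mul_le_mul_of_nonneg_left h3 (mul_nonneg hc0 hk0)
  have h6 : c * (Z - 4 * p.N + 8 * (p.θ * p.N)) ≤ Z + 20 * (p.θ * p.N) := by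
    have := mul_le_mul_of_nonneg_right hc1 hy
    nlinarith
  have h7 := mul_le_mul_of_nonneg_right h6 (mul_nonneg hk0 hx0)
  have h8 := mul_le_mul_of_nonneg_left hp hy
  nlinarith

/-- `DerOK.bnd`, `exists_weights` with `cf = conf vtx st.G` (`GInv.conf_deg`; `Bnd.Pl_le` in the tilted case),
`StepOK.side`, `driftX`, `driftC` (`κ₂ √N ≤ θ N` by `H2`, `dg / cy ≤ θ` by `H3`, `ZOK.chi` with `j = 2`),
`Wt.exists_le`, `Z ≥ N²/2`. -/
theorem StepOK.exists_step (ho : StepOK p sc sc') {vtx : ι → V} {d : ℕ} {z : ℝ} {st : St ι V}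
    (hi : Inv vtx d z st) (hN : (st.S.card : ℝ) = p.N) (hd : (d : ℝ) * (d + 1) ≤ p.dg)
    (hΦ : Phi vtx sc st ≤ 1) :
    ∃ a b, Cand vtx st a b ∧
      Phi vtx sc' (st.step vtx a b) ≤ Phi vtx sc st + 10 ^ 12 * (p.θ / p.N) := by
  classical
  have hder := ho.der
  have hP := parts_of hder.pos hi.sA.symm hi.sB.symm hΦ
  have bA : Bnd st.S st.A 1 p := hder.bnd hi.sA hN (Or.inl rfl) hP.A
  have bB : Bnd st.S st.B (-1) p := hder.bnd hi.sB hN (Or.inr rfl) hP.B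
  have hdeg : ∀ c ∈ st.S, ((@Finset.filter ι (fun e => conf vtx st.G c e)
      (fun _ => Classical.propDecidable _) st.S).card : ℝ) ≤ p.dg := by
    intro c _
    have := hi.gi.conf_deg c
    exact le_trans (by convert this) hd
  have ht : p.γ = 0 ∨ (CondTilt p ∧ p.Pl ≤ pk st.A 4 ∧ p.Pl ≤ pk st.B 4 ∧ XX st.A st.B ≤ p.Xb) := by
    rcases ho.tilt with h1 | ⟨c1, hk, hσ, hkT, hTl, hTp, hTm, hPl⟩
    · exact Or.inl h1
    · refine Or.inr ⟨c1, ?_, ?_, le_of_lin hder.pos.kX hk hP.X⟩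
      · have := abs_le.1 (abs_le_of_sq hσ hkT hP.A.T)
        exact bA.Pl_le ho.gl hTl (by linarith [this.1]) hPl
      · have := abs_le.1 (abs_le_of_sq hσ hkT hP.B.T)
        exact bB.Pl_le ho.gl hTl (by linarith [this.1]) hPl
  obtain ⟨w, hw, wA, wB, hs⟩ := exists_weights bA bB ho.gl ho.wt (conf vtx st.G)
    (fun a b h => conf_symm h) (fun a => conf_refl vtx st.G a) hdeg ht
  have cA : Ctx st.S w st.A 1 p := ⟨bA, hw, wA, ho.gl⟩
  have cB : Ctx st.S w st.B (-1) p := ⟨bB, hw, wB, ho.gl⟩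
  have h1 := ho.side (Tc' := sc'.Tp) cA hP.A (Or.inl ⟨rfl, rfl⟩)
  have h2 := ho.side (Tc' := sc'.Tm) cB hP.B (Or.inr ⟨rfl, rfl⟩)
  have h3 := ho.termX cA cB (fun a b hab => (hs a b hab).2) hP.X
  have h4 := ho.termC cA (fun a b hab => (hs a b hab).1) hdeg hP.C
  have hz := cA.zok
  have hN0 := ho.gl.N0
  have hθ := ho.gl.θ0
  have hZ : p.N ^ 2 / 2 ≤ Ew w (fun _ _ => 1) := by
    have h5 := (abs_le.1 hz.Z).1
    have h6 := mul_le_mul_of_nonneg_right hz.θ1 (sq_nonneg p.N)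
    nlinarith
  have hZ0 : 0 < Ew w (fun _ _ => 1) := lt_of_lt_of_le (by positivity) hZ
  have e1 : Ew w (fun a b => Phi vtx sc' (st.step vtx a b)) =
      Ew w (fun a b => phiS sc' ((st.S.erase a).erase b) (step st.A 1 a b) sc'.Tp +
        sc'.kW * WW (step st.A 1 a b)) +
      Ew w (fun a b => phiS sc' ((st.S.erase a).erase b) (step st.B (-1) a b) sc'.Tm +
        sc'.kW * WW (step st.B (-1) a b)) +
      Ew w (fun a b => sc'.kX * XX (step st.A 1 a b) (step st.B (-1) a b)) +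
      Ew w (fun a b => sc'.kC *
        CC vtx ((st.S.erase a).erase b) (st.G ⊔ SimpleGraph.edge (vtx a) (vtx b)) sc'.cy) := by
    rw [← Ew_add, ← Ew_add, ← Ew_add]
    refine Ew_congr w fun a b _ => ?_
    simp only [Phi, St.step]
    ring
  have hy : 10 ^ 12 / 2 * (p.θ * p.N) ≤ Ew w (fun _ _ => 1) * (10 ^ 12 * (p.θ / p.N)) := by
    have h5 : 0 ≤ 10 ^ 12 * (p.θ / p.N) := by positivity
    refine le_trans (le_of_eq ?_) (mul_le_mul_of_nonneg_right hZ h5)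
    field_simp
  have hy0 := cA.y0
  have hF : Ew w (fun a b => Phi vtx sc' (st.step vtx a b)) ≤
      Ew w (fun _ _ => 1) * (Phi vtx sc st + 10 ^ 12 * (p.θ / p.N)) := by
    rw [e1, mul_add]
    unfold Phi
    linarith
  obtain ⟨a, b, hab, hle⟩ := hw.exists_le hZ0 hF
  refine ⟨a, b, ⟨(hw.supp a b hab).1, (hw.supp a b hab).2, (hs a b hab).1, ?_, ?_⟩, hle⟩
  · have := (cA.scal hab).h0l
    linarith
  · have := (cB.scal hab).h0l
    linarith

end Crest.Agent.R62
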