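import Crest.Agent.R62.Sched
import Crest.Agent.R62.StepPot

/-!
# Row 62: running a phase
-/

set_option autoImplicit false

open Finset Matrix

noncomputable section

namespace Crest.Agent.R62

variable {ι V : Type} [Fintype ι] [DecidableEq ι] [Fintype V] [DecidableEq V]

/-- `st'` arises from `st` by joining a minimising candidate pair and rounding -/
def Greedy (vtx : ι → V) (g : ℝ) (sc' : Sc) (st st' : St ι V) : Prop :=
  (∃ a b, Cand vtx st a b) → ∃ a b, Cand vtx st a b ∧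
    (∀ a' b', Cand vtx st a' b' → Phi vtx sc' (st.step vtx a b) ≤ Phi vtx sc' (st.step vtx a' b')) ∧
    st' = (st.step vtx a b).rnd g

/-- `exists_step`, `Inv.step`, `Inv.rnd` with `e = 1/(y m) ≤ 1/(y N)` -/
theorem greedy_step {vtx : ι → V} {d : ℕ} {z g y N φ : ℝ} {sc : ℝ → Sc} {st st' : St ι V}
    (hi : Inv vtx d z st) (hN : (st.S.card : ℝ) = N) (hy : 0 < y) (hd : (d : ℝ) * (d + 1) ≤ y)
    (hs : StepAt y sc N) (hr : RndOK (sc (N - 2)) (Fintype.card ι) g (1 / (y * Fintype.card ι)))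
    (hΦ : Phi vtx (sc N) st ≤ φ) (hφ : φ + 2 * 10 ^ 12 / (y * N) ≤ 1)
    (hg : Greedy vtx g (sc (N - 2)) st st') :
    Inv vtx d z st' ∧ (st'.S.card : ℝ) = N - 2 ∧
      Phi vtx (sc (N - 2)) st' ≤ φ + 2 * 10 ^ 12 / (y * N) := by
  obtain ⟨p, hpN, hθ, hdg, ho⟩ := hs
  have hN0 : 0 < N := hpN ▸ ho.gl.N0
  have hq : 0 < 1 / (y * N) := by positivity
  have e1 : 2 * 10 ^ 12 / (y * N) = 2 * 10 ^ 12 * (1 / (y * N)) := by ring
  have e2 : p.θ / p.N = 1 / (y * N) := by rw [hθ, hpN, div_div]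
  rw [e1] at hφ ⊢
  obtain ⟨a₀, b₀, hc₀, h₀⟩ := ho.exists_step hi (hN.trans hpN.symm) (hd.trans hdg.ge) (by linarith)
  obtain ⟨a, b, hc, hmin, rfl⟩ := hg ⟨a₀, b₀, hc₀⟩
  have h1 := (hmin a₀ b₀ hc₀).trans h₀
  rw [e2] at h1
  obtain ⟨h2, h3⟩ := (hi.step hc).rnd hr (by linarith)
  have hm : N ≤ Fintype.card ι := by
    rw [← hN]
    exact_mod_cast card_le_univ st.S
  have h4 : 1 / (y * Fintype.card ι) ≤ 1 / (y * N) :=
    one_div_le_one_div_of_le (by positivity) (mul_le_mul_of_nonneg_left hm hy.le)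
  refine ⟨h2, ?_, by linarith⟩
  have h5 := card_erase_erase hc.1 hc.2.1 (ne_of_not_conf hc.2.2.1)
  have h6 : ((((st.S.erase a).erase b).card : ℕ) : ℝ) + 2 = st.S.card := by exact_mod_cast h5
  change ((((st.S.erase a).erase b).card : ℕ) : ℝ) = N - 2
  linarith

theorem run_log {N : ℝ} (hN : 2 < N) : 1 / N ≤ Real.log N - Real.log (N - 2) := by
  have h0 : 0 < N := by linarith
  have h1 := Real.log_le_sub_one_of_pos (div_pos (sub_pos.2 hN) h0)
  rw [Real.log_div (sub_pos.2 hN).ne' h0.ne'] at h1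
  have e : (N - 2) / N - 1 = -2 * (1 / N) := by
    field_simp
    ring
  have h2 : 0 < 1 / N := by positivity
  linarith

/-- induction on `j ≤ J`: `Phi ≤ φ + (2·10¹²/y) (log Nhi - log (Nhi - 2 j))`, using
`1/N ≤ log N - log (N - 2)` for `N > 2` -/
theorem run_phase {vtx : ι → V} {d : ℕ} {z g y Nhi φ : ℝ} {sc : ℝ → Sc} (st : ℕ → St ι V) (J : ℕ)
    (hi : Inv vtx d z (st 0)) (hN : ((st 0).S.card : ℝ) = Nhi) (hy : 0 < y)
    (hd : (d : ℝ) * (d + 1) ≤ y) (hJ : 1 ≤ Nhi - 2 * J)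
    (hs : ∀ j : ℕ, j < J → StepAt y sc (Nhi - 2 * j))
    (hr : ∀ j : ℕ, j < J →
      RndOK (sc (Nhi - 2 * j - 2)) (Fintype.card ι) g (1 / (y * Fintype.card ι)))
    (hΦ : Phi vtx (sc Nhi) (st 0) ≤ φ) (hφ : φ + 2 * 10 ^ 12 / y * Real.log Nhi ≤ 1)
    (hg : ∀ j : ℕ, j < J → Greedy vtx g (sc (((st j).S.card : ℝ) - 2)) (st j) (st (j + 1))) :
    Inv vtx d z (st J) ∧ ((st J).S.card : ℝ) = Nhi - 2 * J ∧
      Phi vtx (sc (Nhi - 2 * J)) (st J) ≤ 1 := by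
  have hc : 0 ≤ 2 * 10 ^ 12 / y := by positivity
  have hle : ∀ N : ℝ, 1 ≤ N → φ + 2 * 10 ^ 12 / y * (Real.log Nhi - Real.log N) ≤ 1 := by
    intro N hN1
    have := mul_nonneg hc (Real.log_nonneg hN1)
    linarith
  have key : ∀ j : ℕ, j ≤ J → Inv vtx d z (st j) ∧ ((st j).S.card : ℝ) = Nhi - 2 * j ∧
      Phi vtx (sc (Nhi - 2 * j)) (st j) ≤
        φ + 2 * 10 ^ 12 / y * (Real.log Nhi - Real.log (Nhi - 2 * j)) := by
    intro j
    induction j with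
    | zero =>
      intro _
      simp only [Nat.cast_zero, mul_zero, sub_zero, sub_self, add_zero]
      exact ⟨hi, hN, hΦ⟩
    | succ j ih =>
      intro hj
      obtain ⟨h1, h2, h3⟩ := ih (by omega)
      have hj' : (j : ℝ) + 1 ≤ J := by exact_mod_cast hj
      have e : Nhi - 2 * ((j + 1 : ℕ) : ℝ) = Nhi - 2 * j - 2 := by
        push_cast
        ring
      have h4 := mul_le_mul_of_nonneg_left (run_log (N := Nhi - 2 * j) (by linarith)) hc
      have e2 : 2 * 10 ^ 12 / (y * (Nhi - 2 * j)) = 2 * 10 ^ 12 / y * (1 / (Nhi - 2 * j)) := by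
        rw [← div_div, div_eq_mul_one_div]
      have h5 := hle (Nhi - 2 * j - 2) (by linarith)
      have h6 := hg j hj
      rw [h2] at h6
      obtain ⟨h7, h8, h9⟩ := greedy_step h1 h2 hy hd (hs j hj) (hr j hj) h3 (by linarith) h6
      rw [e]
      exact ⟨h7, h8, by linarith⟩
  obtain ⟨h1, h2, h3⟩ := key J le_rfl
  exact ⟨h1, h2, h3.trans (hle _ hJ)⟩

/-- join any two free half-edges -/
def AnyStep (vtx : ι → V) (x x' : Finset ι × SimpleGraph V) : Prop :=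
  2 ≤ x.1.card → ∃ a ∈ x.1, ∃ b ∈ x.1, a ≠ b ∧
    x' = ((x.1.erase a).erase b, x.2 ⊔ SimpleGraph.edge (vtx a) (vtx b))

/-- `GInv`, `NoConf`, `Good0` survive; at the end `S = ∅` -/
theorem run_last {vtx : ι → V} {d : ℕ} {z : ℝ} (x : ℕ → Finset ι × SimpleGraph V) (J : ℕ)
    (h1 : GInv vtx d (x 0).1 (x 0).2) (h2 : NoConf vtx (x 0).1 (x 0).2)
    (h3 : Good0 vtx (x 0).1 (x 0).2 z) (hJ : (x 0).1.card = 2 * J)
    (hs : ∀ j, j < J → AnyStep vtx (x j) (x (j + 1))) :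
    GInv vtx d ∅ (x J).2 ∧ Good0 vtx (∅ : Finset ι) (x J).2 z := by
  have key : ∀ j : ℕ, j ≤ J → GInv vtx d (x j).1 (x j).2 ∧ NoConf vtx (x j).1 (x j).2 ∧
      Good0 vtx (x j).1 (x j).2 z ∧ (x j).1.card + 2 * j = 2 * J := by
    intro j
    induction j with
    | zero => exact fun _ => ⟨h1, h2, h3, hJ⟩
    | succ j ih =>
      intro hj
      obtain ⟨g1, g2, g3, g4⟩ := ih (by omega)
      obtain ⟨a, ha, b, hb, hab, e⟩ := hs j hj (by omega)
      have hc := g2 a ha b hb hab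
      have h5 := card_erase_erase ha hb hab
      rw [e]
      exact ⟨g1.step ha hb hc, g2.step ha hb hab, g3.step ha hb hc, by dsimp only; omega⟩
  obtain ⟨g1, -, g3, g4⟩ := key J le_rfl
  have e : (x J).1 = ∅ := card_eq_zero.1 (by omega)
  rw [e] at g1 g3
  exact ⟨g1, g3⟩

/-- the end of phase C: `PartsS.p2_lt`, `good0_of`, `noConf_of_CC` -/
theorem Inv.finish {vtx : ι → V} {d : ℕ} {z : ℝ} {sc : Sc} {st : St ι V} (hi : Inv vtx d z st)
    (hp : sc.Pos) (hρ : sc.ρ = 0) (hx : 1 < sc.kx) (hC : 1 < sc.kC) (hcy : 1 ≤ sc.cy)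
    (hΦ : Phi vtx sc st ≤ 1) : NoConf vtx st.S st.G ∧ Good0 vtx st.S st.G z := by
  have hP := parts_of hp hi.sA.symm hi.sB.symm hΦ
  refine ⟨noConf_of_CC hcy ?_,
    good0_of hi.sA hi.sB hi.gA hi.gB (hP.A.p2_lt hρ hx) (hP.B.p2_lt hρ hx)⟩
  by_contra h
  have h1 := hP.C
  nlinarith [not_lt.1 h]

end Crest.Agent.R62
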