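import Crest.Agent.R62.Round

/-!
# Row 62: the schedule of the scales

`y` is a large parameter with `y^12000 ≤ n ≤ y^12001`; `N₀ = n k`.  Phase A runs from `N₀` to `y^9780`
(tilted in the window below `2 y^9780`), then the Möbius step with `M = y^8200`, phase B down to `y^8160`, phase C
down to `y^4098`.
-/

set_option autoImplicit false

noncomputable section

namespace Crest.Agent.R62

/-- slowly growing factor of phase A, between `1` and `5^4000` -/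
def xi (N₀ N : ℝ) : ℝ := ((N₀ + N₀ / 4) / (N + N₀ / 4)) ^ 4000

/-- scales of phase A -/
def scA (y N₀ T N : ℝ) : Sc where
  ρ := 1
  Fc := -(max 0 (2 * y ^ 9780 - N) / (2 * y ^ 5349))
  Tp := T
  Tm := T
  kF := 1 / y ^ 8680
  kx := 1 / y ^ 15840
  kT := 1 / y ^ 23994
  kU := N ^ 3 / y ^ 48030
  kV := 1 / (y ^ 7560 * xi N₀ N)
  kD := 1 / (y ^ 1000 * xi N₀ N)
  kW := (N + N₀ / 4) / N ^ 2
  kX := 1 / y ^ 14214
  kC := y ^ 11997 / N ^ 2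
  cy := y ^ 2

/-- scales of phase B -/
def scB (y N : ℝ) : Sc where
  ρ := N / (N + y ^ 8200)
  Fc := 0
  Tp := 0
  Tm := 0
  kF := 1 / y ^ 7960
  kx := 1 / y ^ 16236
  kT := 1 / y ^ 24008
  kU := N ^ 3 / y ^ 48042
  kV := 1 / y ^ 8108
  kD := 1 / y ^ 1003
  kW := (N + y ^ 11996) / N ^ 2
  kX := 0
  kC := y ^ 11996 / N ^ 2
  cy := y ^ 2

/-- scales of phase C -/
def scC (y N : ℝ) : Sc where
  ρ := 0
  Fc := 0
  Tp := 0
  Tm := 0
  kF := y ^ 8188 / N ^ 2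
  kx := y ^ 16396 / N ^ 4
  kT := 0
  kU := 0
  kV := y ^ 8210 / N ^ 2
  kD := y ^ 7155 / N
  kW := (N + y ^ 11995) / N ^ 2
  kX := 0
  kC := y ^ 11995 / N ^ 2
  cy := y ^ 2

/-- the global numbers -/
structure YOK (y k N₀ T : ℝ) : Prop where
  y5 : 5 ^ 4000 ≤ y
  y20 : 10 ^ 20 ≤ y
  k2 : 2 ≤ k
  ky : (k + 2) ^ 2 ≤ y
  lo : y ^ 12000 * k ≤ N₀
  hi : N₀ ≤ y ^ 12001 * k
  T : |T - N₀ * ((k ^ 2 - 1) / k * (1 / √k))| ≤ 1

/-- what a step from `N` to `N - 2` needs -/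
def StepAt (y : ℝ) (sc : ℝ → Sc) (N : ℝ) : Prop :=
  ∃ p : Par, p.N = N ∧ p.θ = 1 / y ∧ p.dg = y ∧ StepOK p (sc N) (sc (N - 2))

end Crest.Agent.R62
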