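import Crest.Agent.R62.Alg
import Crest.Agent.R62.Lin

/-!
# Row 62: the list operations compute the matrix operations

`Finset.sum_range`/`Fin.sum_univ_eq_sum_range` convert the sums; `Rat.cast_*` (`push_cast`) the scalars
(`Rat.floor_cast` for `fl`).
-/

set_option autoImplicit false

open Finset Matrix

noncomputable section

namespace Crest.Agent.R62

/-- the matrix -/
def toM (m : ℕ) (A : QM) : Mat (Fin m) := Matrix.of fun i j => (ent A i j : ℝ)
/-- the set of free half-edges -/
def toS (m : ℕ) (S : List Bool) : Finset (Fin m) := univ.filter fun c => mem S c = true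
/-- the scales -/
def toSc (sc : List ℚ) : Sc :=
  ⟨sci sc 0, sci sc 1, sci sc 2, sci sc 3, sci sc 4, sci sc 5, sci sc 6, sci sc 7, sci sc 8,
    sci sc 9, sci sc 10, sci sc 11, sci sc 12, sci sc 13⟩

variable {m : ℕ}

theorem getD_tab {α : Type} (f : ℕ → ℕ → α) (x : α) {i j : ℕ} (hi : i < m) (hj : j < m) :
    ((tab m f).getD i []).getD j x = f i j := by
  simp [tab, List.getD_eq_getElem?_getD, hi, hj]

theorem toM_apply (A : QM) (i j : Fin m) : toM m A i j = (ent A i j : ℝ) := rfl

theorem spec1_cast_sum (f : ℕ → ℚ) :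
    ((∑ c ∈ range m, f c : ℚ) : ℝ) = ∑ c : Fin m, (f c : ℝ) := by
  rw [Fin.sum_univ_eq_sum_range (fun c => (f c : ℝ)) m]
  push_cast
  rfl

theorem toM_tab (f : ℕ → ℕ → ℚ) (i j : Fin m) : toM m (tab m f) i j = (f i j : ℝ) := by
  rw [toM_apply, ent, getD_tab f 0 i.2 j.2]

theorem toM_mulL (A B : QM) : toM m (mulL m A B) = toM m A * toM m B := by
  ext i j
  rw [mulL, toM_tab, Matrix.mul_apply, spec1_cast_sum]
  simp [toM_apply]

theorem toM_sqL (A : QM) : toM m (sqL m A) = toM m A ^ 2 := by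
  rw [sqL, toM_mulL, pow_two]

theorem toM_cuL (A : QM) : toM m (cuL m A) = toM m A ^ 3 := by
  rw [cuL, toM_mulL, toM_sqL, ← pow_succ]

theorem cast_trL (A : QM) : (trL m A : ℝ) = (toM m A).trace := by
  rw [trL, spec1_cast_sum]
  rfl

theorem mem_toS (S : List Bool) (c : Fin m) : c ∈ toS m S ↔ mem S c = true := by
  simp [toS]

theorem cast_cardL (S : List Bool) : (cardL m S : ℝ) = (toS m S).card := by
  rw [cardL, spec1_cast_sum, toS, Finset.card_filter]
  push_cast
  refine Finset.sum_congr rfl fun c _ => ?_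
  split_ifs <;> simp

theorem cast_h0L (K : QM) (s : ℚ) (a b : Fin m) : (h0L K s a b : ℝ) = h0 (toM m K) s a b := by
  simp [h0L, h0, toM_apply]

theorem toM_stepL (K : QM) (s : ℚ) (a b : Fin m) :
    toM m (stepL m K s a b) = step (toM m K) s a b := by
  ext c d
  rw [stepL, toM_tab]
  simp only [step, Matrix.of_apply, Fin.val_inj]
  split_ifs with h
  · simp
  · simp only [hat, l1, l2, jj, gg, Matrix.of_apply, ← cast_h0L, toM_apply, l1L, l2L]
    push_cast
    ring

theorem cast_flL (g x : ℚ) : (flL g x : ℝ) = fl g x := by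
  have h : ⌊(x : ℝ) * (g : ℝ)⌋ = ⌊x * g⌋ := by
    rw [← Rat.cast_mul, Rat.floor_cast]
  rw [flL, fl, h]
  push_cast
  rfl

theorem toM_rndL (g : ℚ) (S : List Bool) (K : QM) (s : ℚ) :
    toM m (rndL m g S K s) = rnd g (toS m S) (toM m K) s := by
  ext c d
  rw [rndL, toM_tab]
  simp only [rnd, Matrix.of_apply, Fin.val_inj, mem_toS]
  split_ifs with h1 h2 h3
  · rw [Rat.cast_sub, spec1_cast_sum]
    congr 1
    have he : (toS m S).erase c = univ.filter fun e : Fin m => mem S e = true ∧ (e : ℕ) ≠ c := by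
      ext e
      simp [mem_toS, Fin.val_inj, and_comm]
    rw [he, Finset.sum_filter]
    refine Finset.sum_congr rfl fun e _ => ?_
    split_ifs
    · rw [cast_flL, toM_apply]
    · simp
  · simp
  · rw [cast_flL, toM_apply]
  · simp

theorem cast_mobτL (K : QM) (M : ℚ) : (mobτL m K M : ℝ) = mobτ (toM m K) M := by
  rw [mobτL, mobτ, pk, ← toM_cuL, ← cast_trL]
  push_cast
  rfl

theorem cast_moblL (S : List Bool) (K : QM) (s M : ℚ) :
    (moblL m S K s M : ℝ) = mobl (toS m S) (toM m K) s M := by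
  rw [moblL, mobl, pk, pk, pk, ← toM_cuL, ← toM_sqL, pow_one, ← cast_trL, ← cast_trL, ← cast_trL,
    ← cast_cardL, ← cast_mobτL]
  push_cast
  rfl

theorem toM_mobL (S : List Bool) (K : QM) (s M : ℚ) :
    toM m (mobL m S K s M) = mob (toS m S) (toM m K) s M := by
  ext c d
  rw [mobL, toM_tab]
  simp only [mob, Matrix.of_apply, Fin.val_inj, mem_toS]
  rw [← toM_cuL, ← toM_sqL, ← cast_cardL, ← cast_mobτL, ← cast_moblL]
  simp only [toM_apply]
  split_ifs <;> push_cast <;> rfl

theorem toS_delL (S : List Bool) (a b : Fin m) :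
    toS m (delL m S a b) = ((toS m S).erase a).erase b := by
  ext c
  simp only [mem_toS, Finset.mem_erase]
  have : mem (delL m S a b) c = (mem S c && decide ((c : ℕ) ≠ a) && decide ((c : ℕ) ≠ b)) := by
    simp [delL, mem, List.getD_eq_getElem?_getD, c.2]
  rw [this]
  simp only [Bool.and_eq_true, decide_eq_true_eq, ne_eq, Fin.val_inj]
  tauto

theorem cast_phiSL (sc : List ℚ) (S : List Bool) (K : QM) (Tc : ℚ) :
    (phiSL m sc S K Tc : ℝ) = phiS (toSc sc) (toS m S) (toM m K) Tc := by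
  have h6 : toM m K ^ 6 = toM m (sqL m (cuL m K)) := by
    rw [toM_sqL, toM_cuL, ← pow_mul]
  have hV : ((∑ c ∈ range m, if mem S c = true then (ent (sqL m K) c c - sci sc 0) ^ 2 else 0 : ℚ) : ℝ) =
      VV (toS m S) (toM m K) (sci sc 0) := by
    rw [spec1_cast_sum, VV, toS, Finset.sum_filter]
    refine Finset.sum_congr rfl fun c _ => ?_
    split_ifs
    · rw [bb, ← toM_sqL, toM_apply]
      push_cast
      rfl
    · simp
  have hD : ((∑ c ∈ range m, ent K c c ^ 2 : ℚ) : ℝ) = DD (toM m K) := by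
    rw [spec1_cast_sum, DD]
    simp [toM_apply]
  rw [phiSL, phiS, pk, pk, pk, pk, h6, ← toM_cuL, ← toM_sqL, pow_one, ← cast_trL, ← cast_trL,
    ← cast_trL, ← cast_trL, ← cast_cardL]
  simp only [toSc]
  rw [← hV, ← hD]
  simp only [Rat.cast_add, Rat.cast_mul, Rat.cast_pow, Rat.cast_sub, Rat.cast_one]

theorem cast_wwL (K : QM) : (wwL m K : ℝ) = WW (toM m K) := by
  rw [wwL, spec1_cast_sum, WW]
  refine Finset.sum_congr rfl fun c _ => ?_
  rw [spec1_cast_sum, ww]
  simp [toM_apply]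

end Crest.Agent.R62
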