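import Crest.Agent.R62.Spec1
import Crest.Agent.R62.Run

/-!
# Row 62: the list algorithm implements the abstract steps
-/

set_option autoImplicit false

open Finset Matrix

noncomputable section

namespace Crest.Agent.R62

/-- the vertex of a half-edge -/
def vtxF (n k : ℕ) (c : Fin (n * k)) : Fin n :=
  ⟨c / k, Nat.div_lt_of_lt_mul (lt_of_lt_of_eq c.2 (Nat.mul_comm n k))⟩
/-- the partner -/
def ptF (n : ℕ) (v : Fin n) : Fin n := if h : ptN v < n then ⟨ptN v, h⟩ else v
/-- the graph -/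
def toG (n : ℕ) (E : List (List Bool)) : SimpleGraph (Fin n) where
  Adj u v := adjB E u v = true
  symm := ⟨fun u v h => by
    simp only [adjB, Bool.and_eq_true, decide_eq_true_eq] at h ⊢
    exact ⟨⟨fun e => h.1.1 e.symm, h.2⟩, h.1.2⟩⟩
  loopless := ⟨fun u h => by simp [adjB] at h⟩
/-- the state -/
def toSt (n k : ℕ) (st : QS) : St (Fin (n * k)) (Fin n) :=
  ⟨toS (n * k) st.1, toG n st.2.1, toM (n * k) st.2.2.1, toM (n * k) st.2.2.2⟩

variable {n k : ℕ}

theorem spec2_adjB_comm (E : List (List Bool)) (u v : ℕ) : adjB E u v = adjB E v u := by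
  unfold adjB
  rw [Bool.and_right_comm]
  simp only [ne_eq, eq_comm]

theorem spec2_adjB_ne {E : List (List Bool)} {u v : ℕ} (h : adjB E u v = true) : u ≠ v := by
  simp only [adjB, Bool.and_eq_true, decide_eq_true_eq] at h
  exact h.1.1

theorem spec2_toG_adj (E : List (List Bool)) (u v : Fin n) :
    (toG n E).Adj u v ↔ adjB E u v = true := Iff.rfl

theorem spec2_sum2 {m : ℕ} (S : List Bool) (p : ℕ → ℕ → Prop) [∀ c d, Decidable (p c d)]
    (q : Fin m → Fin m → Prop) [∀ c d, Decidable (q c d)] (h : ∀ c d : Fin m, p c d ↔ q c d) :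
    ((∑ c ∈ range m, ∑ d ∈ range m,
      if mem S c = true ∧ mem S d = true ∧ p c d then (1 : ℚ) else 0 : ℚ) : ℝ) =
      ∑ c ∈ toS m S, ∑ d ∈ toS m S, if q c d then (1 : ℝ) else 0 := by
  unfold toS
  rw [Finset.sum_range, Finset.sum_filter]
  push_cast
  refine Finset.sum_congr rfl fun c _ => ?_
  rw [Finset.sum_range, Finset.sum_filter]
  by_cases hc : mem S c = true
  · rw [if_pos hc]
    refine Finset.sum_congr rfl fun d _ => ?_
    by_cases hd : mem S d = true
    · by_cases hq : q c d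
      · simp [hc, hd, hq, (h c d).2 hq]
      · simp [hq, mt (h c d).1 hq]
    · simp [hd]
  · simp [hc]

theorem spec2_mem_pairsL {m : ℕ} (ab : ℕ × ℕ) : ab ∈ pairsL m ↔ ab.1 < m ∧ ab.2 < m := by
  obtain ⟨a, b⟩ := ab
  unfold pairsL
  rw [List.pair_mem_product, List.mem_range, List.mem_range]

theorem toG_addL (E : List (List Bool)) (x y : Fin n) :
    toG n (addL n E x y) = toG n E ⊔ SimpleGraph.edge x y := by
  ext u v
  have h1 : ∀ u v : Fin n, adjL (addL n E x y) u v = true ↔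
      (adjB E u v = true ∨ (u = x ∧ v = y)) ∨ (u = y ∧ v = x) := fun u v => by
    unfold adjL addL
    rw [getD_tab _ _ u.2 v.2]
    simp only [Bool.or_eq_true, decide_eq_true_eq, Fin.val_inj]
  rw [SimpleGraph.sup_adj, SimpleGraph.edge_adj, spec2_toG_adj, spec2_toG_adj]
  rw [show adjB (addL n E x y) u v = (decide ((u : ℕ) ≠ v) && adjL (addL n E x y) u v &&
    adjL (addL n E x y) v u) from rfl]
  simp only [Bool.and_eq_true, decide_eq_true_eq, h1, spec2_adjB_comm E v u, ne_eq, Fin.val_inj]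
  have h2 : adjB E u v = true → ¬ u = v := fun h e => spec2_adjB_ne h (congrArg Fin.val e)
  tauto

theorem cast_ccL (S : List Bool) (E : List (List Bool)) (cy : ℚ) :
    (ccL (n * k) k S E cy : ℝ) = CC (vtxF n k) (toS (n * k) S) (toG n E) cy := by
  classical
  unfold ccL CC Csame Cadj
  rw [Rat.cast_add, Rat.cast_mul,
    spec2_sum2 S (fun c d => c ≠ d ∧ c / k = d / k)
      (fun c d : Fin (n * k) => c ≠ d ∧ vtxF n k c = vtxF n k d)
      (fun c d => by simp only [ne_eq, Fin.val_inj, vtxF, Fin.mk.injEq]),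
    spec2_sum2 S (fun c d => adjB E (c / k) (d / k) = true)
      (fun c d : Fin (n * k) => (toG n E).Adj (vtxF n k c) (vtxF n k d)) (fun c d => Iff.rfl)]

theorem cast_phiL (sc : List ℚ) (st : QS) :
    (phiL (n * k) k sc st : ℝ) = Phi (vtxF n k) (toSc sc) (toSt n k st) := by
  unfold phiL Phi
  rw [Rat.cast_add, Rat.cast_add, Rat.cast_add, Rat.cast_add, Rat.cast_mul, Rat.cast_mul,
    Rat.cast_mul, Rat.cast_add, cast_phiSL, cast_phiSL, cast_wwL, cast_wwL, cast_trL, toM_mulL,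
    toM_sqL, toM_sqL, cast_ccL]
  rfl

theorem toSt_stepS (st : QS) (a b : Fin (n * k)) :
    toSt n k (stepS n k st a b) = (toSt n k st).step (vtxF n k) a b := by
  unfold toSt stepS St.step
  have h := toG_addL (n := n) st.2.1 (vtxF n k a) (vtxF n k b)
  have h1 := toM_stepL (m := n * k) st.2.2.1 1 a b
  have h2 := toM_stepL (m := n * k) st.2.2.2 (-1) a b
  rw [Rat.cast_one] at h1
  rw [Rat.cast_neg, Rat.cast_one] at h2
  simp only [toS_delL, h1, h2]
  congr 1

theorem toSt_rndS (g : ℚ) (st : QS) : toSt n k (rndS (n * k) g st) = (toSt n k st).rnd g := by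
  unfold toSt rndS St.rnd
  simp only [toM_rndL, Rat.cast_neg, Rat.cast_one]

theorem toSt_mobS (M : ℚ) (st : QS) : toSt n k (mobS (n * k) M st) = (toSt n k st).mob M := by
  unfold toSt mobS St.mob
  simp only [toM_mobL, Rat.cast_neg, Rat.cast_one]

theorem mem_candL (st : QS) (ab : ℕ × ℕ) : ab ∈ candL (n * k) k st ↔
    ∃ a b : Fin (n * k), ab = (a.1, b.1) ∧ Cand (vtxF n k) (toSt n k st) a b := by
  have key : ∀ a b : Fin (n * k), Cand (vtxF n k) (toSt n k st) a b ↔
      (mem st.1 a = true ∧ mem st.1 b = true ∧ (a : ℕ) / k ≠ b / k ∧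
        adjB st.2.1 (a / k) (b / k) = false ∧ 1 / 2 ≤ h0L st.2.2.1 1 a b ∧
        1 / 2 ≤ h0L st.2.2.2 (-1) a b) := fun a b => by
    have h1 := cast_h0L (m := n * k) st.2.2.1 1 a b
    have h2 := cast_h0L (m := n * k) st.2.2.2 (-1) a b
    rw [Rat.cast_one] at h1
    rw [Rat.cast_neg, Rat.cast_one] at h2
    have h3 : ∀ x : ℚ, (1 / 2 : ℝ) ≤ (x : ℝ) ↔ 1 / 2 ≤ x := fun x => by
      rw [← Rat.cast_le (K := ℝ)]; norm_num
    unfold Cand conf toSt
    simp only [mem_toS, ← h1, ← h2, h3, spec2_toG_adj, vtxF, Fin.mk.injEq, not_or,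
      Bool.not_eq_true, ne_eq, and_assoc]
  unfold candL
  rw [List.mem_filter, spec2_mem_pairsL, decide_eq_true_eq]
  constructor
  · rintro ⟨⟨ha, hb⟩, h⟩
    exact ⟨⟨ab.1, ha⟩, ⟨ab.2, hb⟩, rfl, (key _ _).2 h⟩
  · rintro ⟨a, b, rfl, h⟩
    exact ⟨⟨a.2, b.2⟩, (key _ _).1 h⟩

/-- `List.argmin_eq_none`, `List.argmin_mem`, `List.not_lt_of_mem_argmin` (or `List.le_of_mem_argmin`) -/
theorem greedyL_spec (g : ℚ) (sc : List ℚ) (st : QS) :
    Greedy (vtxF n k) g (toSc sc) (toSt n k st) (toSt n k (greedyL n k g sc st)) := by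
  rintro ⟨a₀, b₀, h₀⟩
  unfold greedyL
  cases hm : (candL (n * k) k st).argmin fun ab => phiL (n * k) k sc (stepS n k st ab.1 ab.2) with
  | none =>
    rw [List.argmin_eq_none] at hm
    have := (mem_candL st (a₀.1, b₀.1)).2 ⟨a₀, b₀, rfl, h₀⟩
    rw [hm] at this
    exact absurd this List.not_mem_nil
  | some ab =>
    obtain ⟨a, b, rfl, h⟩ := (mem_candL st ab).1 (List.argmin_mem hm)
    refine ⟨a, b, h, fun a' b' h' => ?_, ?_⟩
    · have := List.le_of_mem_argmin ((mem_candL st (a'.1, b'.1)).2 ⟨a', b', rfl, h'⟩) hm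
      rw [← toSt_stepS, ← toSt_stepS, ← cast_phiL, ← cast_phiL]
      exact_mod_cast this
    · rw [Option.map_some, Option.getD_some, toSt_rndS, toSt_stepS]

theorem anyL_spec (x : List Bool × List (List Bool)) :
    AnyStep (vtxF n k) (toS (n * k) x.1, toG n x.2)
      (toS (n * k) (anyL n k x).1, toG n (anyL n k x).2) := by
  intro h2
  unfold anyL
  cases hm : (pairsL (n * k)).find? fun ab =>
      decide (mem x.1 ab.1 = true ∧ mem x.1 ab.2 = true ∧ ab.1 ≠ ab.2) with
  | none =>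
    obtain ⟨a, ha, b, hb, hab⟩ := Finset.one_lt_card.1 h2
    rw [List.find?_eq_none] at hm
    have := hm (a.1, b.1) ((spec2_mem_pairsL _).2 ⟨a.2, b.2⟩)
    rw [decide_eq_true_eq] at this
    exact absurd ⟨(mem_toS _ _).1 ha, (mem_toS _ _).1 hb, fun e => hab (Fin.ext e)⟩ this
  | some ab =>
    have h1 := List.find?_some hm
    rw [decide_eq_true_eq] at h1
    obtain ⟨ha, hb⟩ := (spec2_mem_pairsL _).1 (List.mem_of_find?_eq_some hm)
    refine ⟨⟨ab.1, ha⟩, (mem_toS _ _).2 h1.1, ⟨ab.2, hb⟩, (mem_toS _ _).2 h1.2.1,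
      fun e => h1.2.2 (congrArg Fin.val e), ?_⟩
    rw [Option.map_some, Option.getD_some]
    exact Prod.ext (toS_delL x.1 ⟨ab.1, ha⟩ ⟨ab.2, hb⟩)
      (toG_addL x.2 (vtxF n k ⟨ab.1, ha⟩) (vtxF n k ⟨ab.2, hb⟩))

theorem toSc_scAL (y N₀ T N : ℚ) : toSc (scAL y N₀ T N) = scA y N₀ T N := by
  simp only [toSc, sci, scAL, scA, xi, List.getD_cons_zero, List.getD_cons_succ]
  push_cast
  rfl

theorem toSc_scBL (y N : ℚ) : toSc (scBL y N) = scB y N := by
  simp only [toSc, sci, scBL, scB, List.getD_cons_zero, List.getD_cons_succ]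
  push_cast
  rfl

theorem toSc_scCL (y N : ℚ) : toSc (scCL y N) = scC y N := by
  simp only [toSc, sci, scCL, scC, List.getD_cons_zero, List.getD_cons_succ]
  push_cast
  rfl

theorem fA_spec (st : QS) : Greedy (vtxF n k) (gN n k)
    (scA (yN n) (n * k : ℕ) (tQ n k) (((toSt n k st).S.card : ℝ) - 2)) (toSt n k st)
    (toSt n k (fA n k st)) := by
  have h := greedyL_spec (n := n) (k := k) (gN n k)
    (scAL (yN n) (n * k : ℕ) (tQ n k) (cardL (n * k) st.1 - 2)) st
  rw [toSc_scAL, Rat.cast_sub, cast_cardL] at h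
  simp only [Rat.cast_natCast, Rat.cast_ofNat] at h
  exact h

theorem fB_spec (st : QS) : Greedy (vtxF n k) (gN n k)
    (scB (yN n) (((toSt n k st).S.card : ℝ) - 2)) (toSt n k st) (toSt n k (fB n k st)) := by
  have h := greedyL_spec (n := n) (k := k) (gN n k)
    (scBL (yN n) (cardL (n * k) st.1 - 2)) st
  rw [toSc_scBL, Rat.cast_sub, cast_cardL] at h
  simp only [Rat.cast_natCast, Rat.cast_ofNat] at h
  exact h

theorem fC_spec (st : QS) : Greedy (vtxF n k) (gN n k)
    (scC (yN n) (((toSt n k st).S.card : ℝ) - 2)) (toSt n k st) (toSt n k (fC n k st)) := by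
  have h := greedyL_spec (n := n) (k := k) (gN n k)
    (scCL (yN n) (cardL (n * k) st.1 - 2)) st
  rw [toSc_scCL, Rat.cast_sub, cast_cardL] at h
  simp only [Rat.cast_natCast, Rat.cast_ofNat] at h
  exact h

end Crest.Agent.R62
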