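import Crest.Agent.R62.Spec2
import Crest.Agent.R62.NumR
import Crest.Prelude.Def_GraphCode

/-!
# Row 62: the numbers `y`, `g`, the initial state and the output
-/

set_option autoImplicit false

open Finset Matrix

noncomputable section

namespace Crest.Agent.R62

variable {n k : ℕ}

/-- `n` is large in terms of `k` -/
def Big (n k : ℕ) : Prop := 2 ^ (12000 * (12000 + 2 * k + 4)) ≤ n

/-- with `q = log₂ n / 12000 ≥ 12000`: `2^(12000 q) ≤ n < 2^(12000 q + 12000) ≤ y^12001` -/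
theorem Big.y (h : Big n k) : yN n ^ 12000 ≤ n ∧ n ≤ yN n ^ 12001 ∧ 2 ^ (12000 + 2 * k + 4) ≤ yN n ∧
    2 ∣ yN n := by
  unfold Big at h
  have hn : n ≠ 0 := by
    rintro rfl
    exact absurd h (not_le.2 (Nat.pow_pos two_pos))
  have h1 : 12000 * (12000 + 2 * k + 4) ≤ Nat.log 2 n := Nat.le_log_of_pow_le one_lt_two h
  have h2 := Nat.pow_log_le_self 2 hn
  have h3 := Nat.lt_pow_succ_log_self one_lt_two n
  unfold yN
  generalize Nat.log 2 n = L at h1 h2 h3 ⊢
  refine ⟨?_, ?_, ?_, ?_⟩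
  · rw [← pow_mul]
    exact (Nat.pow_le_pow_right two_pos (by omega)).trans h2
  · rw [← pow_mul]
    exact h3.le.trans (Nat.pow_le_pow_right two_pos (by omega))
  · exact Nat.pow_le_pow_right two_pos (by omega)
  · exact dvd_pow_self 2 (by omega)

theorem mQ_spec (hk : 1 ≤ k) : (mQ n k : ℝ) ≤ 1 / √(k : ℝ) ∧
    1 / √(k : ℝ) ≤ (mQ n k : ℝ) + 1 / (gN n k : ℝ) := by
  have hg : 0 < gN n k := Nat.succ_pos _
  have hg' : (0 : ℝ) < gN n k := by exact_mod_cast hg
  have hk' : (0 : ℝ) < k := by exact_mod_cast hk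
  have hs : 0 < √(k : ℝ) := Real.sqrt_pos.2 hk'
  have hss : √(k : ℝ) ^ 2 = k := Real.sq_sqrt hk'.le
  have e : (mQ n k : ℝ) = (Nat.sqrt (gN n k ^ 2 / k) : ℝ) / gN n k := by
    unfold mQ
    push_cast
    rfl
  have h1 : Nat.sqrt (gN n k ^ 2 / k) ^ 2 * k ≤ gN n k ^ 2 :=
    (Nat.le_div_iff_mul_le hk).1 (Nat.sqrt_le' _)
  have h2 : gN n k ^ 2 < (Nat.sqrt (gN n k ^ 2 / k) + 1) ^ 2 * k :=
    (Nat.div_lt_iff_lt_mul hk).1 (Nat.lt_succ_sqrt' _)
  rw [e]
  generalize Nat.sqrt (gN n k ^ 2 / k) = m at h1 h2 ⊢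
  have h1' : (m : ℝ) ^ 2 * k ≤ (gN n k : ℝ) ^ 2 := by exact_mod_cast h1
  have h2' : (gN n k : ℝ) ^ 2 ≤ ((m : ℝ) + 1) ^ 2 * k := by exact_mod_cast h2.le
  have hm : (0 : ℝ) ≤ m := Nat.cast_nonneg m
  constructor
  · rw [div_le_div_iff₀ hg' hs, one_mul]
    refine (pow_le_pow_iff_left₀ (by positivity) hg'.le two_ne_zero).1 ?_
    rw [mul_pow, hss]
    exact h1'
  · rw [← add_div, div_le_div_iff₀ hs hg', one_mul]
    refine (pow_le_pow_iff_left₀ hg'.le (by positivity) two_ne_zero).1 ?_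
    rw [mul_pow, hss]
    exact h2'

/-- `5^4000 ≤ 8^4000 = 2^12000`, `k + 2 ≤ 2^(k+2)`; never evaluate the large powers -/
theorem Big.yok (h : Big n k) (hk : 2 ≤ k) : YOK (yN n) k (n * k : ℕ) (tQ n k) := by
  obtain ⟨h1, h2, h3, -⟩ := h.y
  have hy : ∀ e : ℕ, e ≤ 12000 + 2 * k + 4 → (2 : ℝ) ^ e ≤ yN n := fun e he => by
    have : 2 ^ e ≤ yN n := (Nat.pow_le_pow_right two_pos he).trans h3
    exact_mod_cast this
  have hk' : (2 : ℝ) ≤ k := by exact_mod_cast hk
  have hy1 : 1 ≤ yN n := Nat.one_le_two_pow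
  have hn1 : 1 ≤ n := (Nat.one_le_pow _ _ hy1).trans h1
  refine ⟨?_, ?_, hk', ?_, ?_, ?_, ?_⟩
  · refine le_trans ?_ (hy (3 * 4000) (by omega))
    rw [pow_mul]
    exact pow_le_pow_left₀ (by norm_num) (by norm_num) _
  · exact le_trans (by norm_num) (hy 70 (by omega))
  · refine le_trans ?_ (hy ((k + 2) * 2) (by omega))
    rw [pow_mul]
    refine pow_le_pow_left₀ (by linarith) ?_ _
    have : k + 2 ≤ 2 ^ (k + 2) := Nat.lt_two_pow_self.le
    exact_mod_cast this
  · have : yN n ^ 12000 * k ≤ n * k := Nat.mul_le_mul_right _ h1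
    exact_mod_cast this
  · have : n * k ≤ yN n ^ 12001 * k := Nat.mul_le_mul_right _ h2
    exact_mod_cast this
  · obtain ⟨m1, m2⟩ := mQ_spec (n := n) (k := k) (by omega)
    have e : (tQ n k : ℝ) = ((n * k : ℕ) : ℝ) * (((k : ℝ) ^ 2 - 1) / k * mQ n k) := by
      unfold tQ
      push_cast
      rfl
    have hg : (n * k) * k ≤ gN n k := by
      unfold gN
      have a1 : k ≤ n * k := Nat.le_mul_of_pos_left _ hn1
      have a2 : (n * k) ^ 2 ≤ (n * k) ^ 42 := Nat.pow_le_pow_right (by omega) (by norm_num)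
      have a3 : (n * k) * k ≤ (n * k) * (n * k) := Nat.mul_le_mul_left _ a1
      rw [sq] at a2
      omega
    have hg' : ((n * k : ℕ) : ℝ) * k ≤ gN n k := by exact_mod_cast hg
    have hg0 : (0 : ℝ) < gN n k := by exact_mod_cast Nat.succ_pos _
    have hN : (0 : ℝ) ≤ ((n * k : ℕ) : ℝ) := Nat.cast_nonneg _
    have c0 : 0 ≤ ((k : ℝ) ^ 2 - 1) / k := div_nonneg (by nlinarith) (by linarith)
    have c1 : ((k : ℝ) ^ 2 - 1) / k ≤ k := by
      rw [div_le_iff₀ (by linarith)]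
      nlinarith
    rw [e]
    generalize ((k : ℝ) ^ 2 - 1) / k = c at c0 c1 ⊢
    generalize ((n * k : ℕ) : ℝ) = N at hg' hN ⊢
    have d1 : N * c ≤ gN n k := (mul_le_mul_of_nonneg_left c1 hN).trans hg'
    have d0 : 0 ≤ N * c := mul_nonneg hN c0
    have d2 : N * c * (1 / √(k : ℝ) - mQ n k) ≤ gN n k * (1 / (gN n k : ℝ)) :=
      mul_le_mul d1 (by linarith) (by linarith) hg0.le
    rw [mul_one_div_cancel hg0.ne'] at d2
    have d3 : 0 ≤ N * c * (1 / √(k : ℝ) - mQ n k) := mul_nonneg d0 (by linarith)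
    rw [abs_le]
    constructor <;> nlinarith

theorem Spec3.ptN_ptN (v : ℕ) : ptN (ptN v) = v := by
  unfold ptN
  split_ifs <;> omega

theorem Spec3.ptN_ne (v : ℕ) : ptN v ≠ v := by
  unfold ptN
  split_ifs <;> omega

theorem Spec3.ptF_val (hn : Even n) (v : Fin n) : (ptF n v : ℕ) = ptN v := by
  have : ptN v < n := by
    obtain ⟨r, hr⟩ := hn
    have := v.2
    unfold ptN
    split_ifs <;> omega
  unfold ptF
  rw [dif_pos this]

theorem cfg_init (hn : Even n) (h0 : 0 < n) (hk : 2 ≤ k) :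
    Cfg (vtxF n k) (ptF n) k (toG n (initS n k).2.1) := by
  have hk0 : 0 < k := by omega
  refine ⟨hk, fun v => ?_, fun v => ?_, fun v e => ?_, fun u v => ?_, by simpa using h0⟩
  · have : (univ.filter fun c : Fin (n * k) => vtxF n k c = v).card = (univ : Finset (Fin k)).card := by
      refine Finset.card_bij' (fun c _ => (⟨c % k, Nat.mod_lt _ hk0⟩ : Fin k))
        (fun j _ => (⟨v * k + j, ?_⟩ : Fin (n * k))) (fun _ _ => mem_univ _) (fun j _ => ?_)
        (fun c hc => ?_) (fun j _ => ?_)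
      · have a1 : (v + 1) * k ≤ n * k := Nat.mul_le_mul_right _ v.2
        have a2 := j.2
        rw [add_mul, one_mul] at a1
        omega
      · rw [mem_filter]
        refine ⟨mem_univ _, Fin.ext ?_⟩
        show (v * k + j) / k = v
        rw [add_comm, Nat.add_mul_div_right _ _ hk0, Nat.div_eq_of_lt j.2, zero_add]
      · have a1 : (c : ℕ) / k = v := congrArg Fin.val (mem_filter.1 hc).2
        refine Fin.ext ?_
        show v * k + c % k = c
        rw [← a1, mul_comm]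
        exact Nat.div_add_mod _ _
      · refine Fin.ext ?_
        show (v * k + j) % k = j
        rw [add_comm, Nat.add_mul_mod_self_right, Nat.mod_eq_of_lt j.2]
    simpa using this
  · refine Fin.ext ?_
    rw [Spec3.ptF_val hn, Spec3.ptF_val hn, Spec3.ptN_ptN]
  · have := congrArg Fin.val e
    rw [Spec3.ptF_val hn] at this
    exact Spec3.ptN_ne _ this
  · show adjB (tab n fun u v => decide (ptN u = v)) u v = true ↔ _
    unfold adjB adjL
    rw [getD_tab _ _ u.2 v.2, getD_tab _ _ v.2 u.2, Fin.ext_iff, Spec3.ptF_val hn]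
    simp only [Bool.and_eq_true, decide_eq_true_eq]
    refine ⟨fun h => h.1.2, fun h => ⟨⟨fun e => Spec3.ptN_ne _ (h.trans e.symm), h⟩, ?_⟩⟩
    rw [← h, Spec3.ptN_ptN]

theorem toS_init : toS (n * k) (initS n k).1 = univ := by
  refine Finset.eq_univ_of_forall fun c => (mem_toS _ _).2 ?_
  show (List.replicate (n * k) true).getD c false = true
  simp [List.getD_eq_getElem?_getD, c.2]

theorem initL_spec (hn : Even n) (h0 : 0 < n) (hk : 2 ≤ k) (s : ℚ) :
    (∀ c d, toM (n * k) (initL n k s) c d = toM (n * k) (initL n k s) d c) ∧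
    ∀ c d, K0 (vtxF n k) (ptF n) k s c d - 2 / (gN n k : ℝ) ≤ toM (n * k) (initL n k s) c d ∧
      toM (n * k) (initL n k s) c d ≤ K0 (vtxF n k) (ptF n) k s c d := by
  have e : ∀ c d : Fin (n * k), toM (n * k) (initL n k s) c d =
      (if vtxF n k c = vtxF n k d ∧ c ≠ d then (mQ n k : ℝ) else 0) +
        (if vtxF n k d = ptF n (vtxF n k c) then (s : ℝ) / k else 0) -
        ((k : ℝ) - 1) * (mQ n k + 1 / gN n k) / ((n * k : ℕ) : ℝ) := by
    intro c d
    have a1 : ((c : ℕ) / k = d / k ∧ (c : ℕ) ≠ d) ↔ (vtxF n k c = vtxF n k d ∧ c ≠ d) := by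
      rw [Fin.ext_iff, ne_eq, ne_eq, Fin.ext_iff]
      rfl
    have a2 : ((d : ℕ) / k = ptN (c / k)) ↔ vtxF n k d = ptF n (vtxF n k c) := by
      rw [Fin.ext_iff, Spec3.ptF_val hn]
      rfl
    unfold initL
    rw [toM_tab]
    simp only [a1, a2]
    split_ifs <;> push_cast <;> rfl
  have hc := cfg_init hn h0 hk
  refine ⟨fun c d => ?_, fun c d => ?_⟩
  · have hpt : (vtxF n k d = ptF n (vtxF n k c)) ↔ (vtxF n k c = ptF n (vtxF n k d)) :=
      ⟨fun e => by rw [e, hc.inv], fun e => by rw [e, hc.inv]⟩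
    have h1 : (vtxF n k c = vtxF n k d ∧ c ≠ d) ↔ (vtxF n k d = vtxF n k c ∧ d ≠ c) :=
      ⟨fun e => ⟨e.1.symm, e.2.symm⟩, fun e => ⟨e.1.symm, e.2.symm⟩⟩
    rw [e, e]
    simp only [hpt, h1]
  · obtain ⟨m1, m2⟩ := mQ_spec (n := n) (k := k) (by omega)
    have hg0 : (0 : ℝ) < gN n k := by exact_mod_cast Nat.succ_pos _
    have hk' : (2 : ℝ) ≤ k := by exact_mod_cast hk
    have hkN : (k : ℝ) ≤ ((n * k : ℕ) : ℝ) := by
      have : k ≤ n * k := Nat.le_mul_of_pos_left _ h0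
      exact_mod_cast this
    rw [e]
    simp only [K0, Matrix.of_apply, Fintype.card_fin]
    generalize ((n * k : ℕ) : ℝ) = N at hkN ⊢
    have hN : 0 < N := by linarith
    have e1 : ((k : ℝ) - 1) / √(k : ℝ) / N = ((k : ℝ) - 1) / N * (1 / √(k : ℝ)) := by ring
    have e2 : ((k : ℝ) - 1) * (mQ n k + 1 / gN n k) / N =
        ((k : ℝ) - 1) / N * (mQ n k + 1 / gN n k) := by ring
    have e3 : 2 / (gN n k : ℝ) = 2 * (1 / (gN n k : ℝ)) := by ring
    have c0 : 0 ≤ ((k : ℝ) - 1) / N := div_nonneg (by linarith) hN.le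
    have c1 : ((k : ℝ) - 1) / N ≤ 1 := (div_le_one hN).2 (by linarith)
    have g0 : 0 < 1 / (gN n k : ℝ) := by positivity
    rw [e1, e2, e3]
    generalize ((k : ℝ) - 1) / N = c' at c0 c1 ⊢
    generalize 1 / (gN n k : ℝ) = γ at m2 g0 ⊢
    generalize 1 / √(k : ℝ) = r at m1 m2 ⊢
    have d0 : 0 ≤ c' * (mQ n k + γ - r) := mul_nonneg c0 (by linarith)
    have d1 : c' * (mQ n k + γ - r) ≤ 1 * γ := mul_le_mul c1 (by linarith) (by linarith) zero_le_one
    split_ifs <;> constructor <;> nlinarith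

/-- `Cfg.inv'`, `numInit`, `Inv.rnd'`, `numRndA` -/
theorem sA_spec (h : Big n k) (hn : Even n) (hk : 2 ≤ k) :
    Inv (vtxF n k) (k + 1) (2 * √(k : ℝ)) (toSt n k (sA n k)) ∧
    ((toSt n k (sA n k)).S.card : ℝ) = (n * k : ℕ) ∧
    Phi (vtxF n k) (scA (yN n) (n * k : ℕ) (tQ n k) (n * k : ℕ)) (toSt n k (sA n k)) ≤ 0.95 := by
  have hy := h.yok hk
  have h0 : 0 < n := lt_of_lt_of_le (Nat.pow_pos two_pos) h
  have hc := cfg_init hn h0 hk
  have hcard : (Fintype.card (Fin (n * k)) : ℝ) = (n * k : ℕ) := by rw [Fintype.card_fin]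
  have hΦ := numInit hc hy hcard
  have y1 : (1 : ℝ) ≤ yN n := le_trans (by norm_num) hy.y20
  have y0 : (0 : ℝ) ≤ (yN n : ℝ) ^ 12000 := by positivity
  have y2 : (yN n : ℝ) ^ 12000 ≤ ((n * k : ℕ) : ℝ) := by
    have a1 := hy.lo
    have a2 := mul_le_mul_of_nonneg_left hy.k2 y0
    linarith
  have y3 : (yN n : ℝ) ^ 9780 ≤ ((n * k : ℕ) : ℝ) := (pow_le_pow_right₀ y1 (by norm_num)).trans y2
  have y4 : (1 : ℝ) ≤ ((n * k : ℕ) : ℝ) := (one_le_pow₀ y1).trans y2
  have hg : ((n * k : ℕ) : ℝ) ^ 42 ≤ (gN n k : ℝ) := by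
    have : (n * k) ^ 42 ≤ gN n k := Nat.le_succ _
    exact_mod_cast this
  have hr := numRndA hy y3 le_rfl hg
  obtain ⟨sA', hA⟩ := initL_spec hn h0 hk 1
  obtain ⟨sB', hB⟩ := initL_spec hn h0 hk (-1)
  rw [Rat.cast_one] at hA
  rw [Rat.cast_neg, Rat.cast_one] at hB
  have key := hc.inv'.rnd' (g := gN n k) (by rw [hcard]; exact hr) (hΦ.trans (by norm_num)) sA' sB'
    (fun c d _ => hA c d) (fun c d _ => hB c d)
  have e : toSt n k (sA n k) = St.rnd (gN n k : ℝ) ⟨univ, toG n (initS n k).2.1,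
      toM (n * k) (initL n k 1), toM (n * k) (initL n k (-1))⟩ := by
    unfold sA
    rw [toSt_rndS, Rat.cast_natCast, toSt, toS_init]
    rfl
  rw [e]
  refine ⟨key.1, ?_, key.2.trans ?_⟩
  · show (((univ : Finset (Fin (n * k))).card : ℕ) : ℝ) = _
    rw [card_univ, hcard]
  · have a1 : 1 / ((yN n : ℝ) * ((n * k : ℕ) : ℝ)) ≤ 1 / 1000 := by
      refine one_div_le_one_div_of_le (by norm_num) ?_
      have a2 : (1000 : ℝ) ≤ yN n := le_trans (by norm_num) hy.y20
      nlinarith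
    linarith

theorem adjGraph_outL (n k : ℕ) :
    Crest.CombinatoricsR.GraphCode.adjGraph n (outL k (Crest.CombinatoricsR.GraphCode.unary n)) =
      toG n (finE n k) := by
  have e : ∀ u v : Fin n, (outL k (Crest.CombinatoricsR.GraphCode.unary n)).getD (u * n + v) false =
      adjL (finE n k) u v := by
    intro u v
    have h0 : 0 < n := Nat.zero_lt_of_lt v.2
    have h1 : u * n + v < n * n := by
      have a1 : (u + 1) * n ≤ n * n := Nat.mul_le_mul_right _ u.2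
      have a2 := v.2
      rw [add_mul, one_mul] at a1
      omega
    have h2 : (u * n + v) / n = u := by
      rw [add_comm, Nat.add_mul_div_right _ _ h0, Nat.div_eq_of_lt v.2, zero_add]
    have h3 : (u * n + v) % n = v := by
      rw [add_comm, Nat.add_mul_mod_self_right, Nat.mod_eq_of_lt v.2]
    unfold outL Crest.CombinatoricsR.GraphCode.unary
    simp only [List.length_replicate]
    rw [List.getD_eq_getElem?_getD, List.getElem?_map, List.getElem?_range h1]
    simp only [Option.map_some, Option.getD_some, h2, h3]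
  ext u v
  show (u ≠ v ∧ _ ∧ _) ↔ adjB (finE n k) u v = true
  rw [e, e]
  unfold adjB
  simp only [Bool.and_eq_true, decide_eq_true_eq, ne_eq, Fin.ext_iff, and_assoc]

end Crest.Agent.R62
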