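import Crest.Agent.R62.Mom

/-!
# Row 62: from drift estimates to the averaged potential, abstract lemmas

`Z = Ew w 1` satisfies `|Z - N²| ≤ θ N²`, `θ ≤ 1/100`, `N ≥ 100`, `1 ≤ θ N`.
-/

set_option autoImplicit false

open Finset Matrix

noncomputable section

namespace Crest.Agent.R62

variable {ι : Type} [Fintype ι] [DecidableEq ι]

/-- the numbers `N`, `θ`, `Z` -/
structure ZOK (N θ Z : ℝ) : Prop where
  N100 : 100 ≤ N
  θ0 : 0 < θ
  θ1 : 100 * θ ≤ 1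
  θN : 1 ≤ θ * N
  Z : |Z - N ^ 2| ≤ θ * N ^ 2

theorem Ctx.zok {S : Finset ι} {w : ι → ι → ℝ} {K : Mat ι} {s : ℝ} {p : Par} (h : Ctx S w K s p) :
    ZOK p.N p.θ (Ew w fun _ _ => 1) := by
  have h1 := h.gl.H7
  have h2 := h.gl.H11
  have h3 := h.gl.N0
  refine ⟨?_, h.gl.θ0, h2, h1, h.Z_sub⟩
  nlinarith

variable {N θ Z : ℝ}

theorem ZOK.Zlo (h : ZOK N θ Z) : N ^ 2 - θ * N ^ 2 ≤ Z := by
  have := (abs_le.1 h.Z).1
  linarith

theorem ZOK.Zhi (h : ZOK N θ Z) : Z ≤ N ^ 2 + θ * N ^ 2 := by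
  have := (abs_le.1 h.Z).2
  linarith

theorem ZOK.Z0 (h : ZOK N θ Z) : 0 ≤ Z := by
  have h1 := h.Zlo
  have h2 := h.θ1
  have h3 : 0 ≤ N ^ 2 := sq_nonneg _
  nlinarith

theorem ZOK.ratio (h : ZOK N θ Z) {j : ℕ} (hj : j ≤ 4) :
    0 ≤ (N / (N - 2)) ^ j ∧ (N / (N - 2)) ^ j ≤ 11 / 10 := by
  have hN := h.N100
  have h0 : 0 < N - 2 := by linarith
  have h1 : 1 ≤ N / (N - 2) := by rw [le_div_iff₀ h0]; linarith
  have h2 : N / (N - 2) ≤ 50 / 49 := by rw [div_le_iff₀ h0]; linarith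
  refine ⟨by positivity, (pow_le_pow_right₀ h1 hj).trans ?_⟩
  refine (pow_le_pow_left₀ (by positivity) h2 4).trans ?_
  norm_num



/-- Bernoulli: `1 - (1 - 2/N)^j ≤ 2 j / N` -/
theorem ZOK.chi (h : ZOK N θ Z) {j : ℕ} (hj : j ≤ 4) :
    (N / (N - 2)) ^ j * (Z - 2 * j * N) ≤ Z + 10 * (θ * N) := by
  have hN := h.N100
  have h0 : 0 < N - 2 := by linarith
  have hN0 : 0 < N := by linarith
  obtain ⟨hx0, hx1⟩ := h.ratio hj
  have hb : 1 + (j : ℝ) * (-(2 / N)) ≤ (1 + -(2 / N)) ^ j :=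
    one_add_mul_le_pow (by
      have : 2 / N ≤ 1 := by rw [div_le_one hN0]; linarith
      linarith) j
  have he : (N / (N - 2)) ^ j * (1 + -(2 / N)) ^ j = 1 := by
    rw [← mul_pow, show N / (N - 2) * (1 + -(2 / N)) = 1 by field_simp; ring, one_pow]
  obtain ⟨x, hx⟩ : ∃ x, x = (N / (N - 2)) ^ j := ⟨_, rfl⟩
  obtain ⟨u, hu⟩ : ∃ u, u = (1 + -(2 / N)) ^ j := ⟨_, rfl⟩
  rw [← hx] at hx0 hx1 he ⊢
  rw [← hu] at hb he
  have hj' : (j : ℝ) ≤ 4 := by exact_mod_cast hj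
  have hj0 : (0 : ℝ) ≤ j := Nat.cast_nonneg _
  have hθN : 0 ≤ θ * N := by have := h.θN; linarith
  have h1 : (1 - u) * Z ≤ 2 * j * N + 8 * (θ * N) := by
    have h2 : (1 - u) * Z ≤ j * (2 / N) * Z :=
      mul_le_mul_of_nonneg_right (by linarith) h.Z0
    have h3 : j * (2 / N) * Z ≤ j * (2 / N) * (N ^ 2 + θ * N ^ 2) :=
      mul_le_mul_of_nonneg_left h.Zhi (by positivity)
    have h4 : j * (2 / N) * (N ^ 2 + θ * N ^ 2) = 2 * j * N + 2 * j * (θ * N) := by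
      field_simp
    nlinarith
  have h5 : x * (Z - 2 * j * N) - Z = x * ((1 - u) * Z - 2 * j * N) := by
    linear_combination Z * he
  have h6 : x * ((1 - u) * Z - 2 * j * N) ≤ x * (8 * (θ * N)) :=
    mul_le_mul_of_nonneg_left (by linarith) hx0
  nlinarith

theorem ZOK.chi' (h : ZOK N θ Z) {j : ℕ} (hj : j ≤ 4) {χ ρ μ : ℝ}
    (hχ : χ = 1 ∨ (χ = N / (N - 2) ∧ ρ = 0)) (hμ : μ = 1 - ρ) (hμ0 : 0 ≤ μ) :
    χ ^ j * (Z - 2 * j * μ * N) ≤ Z + 10 * (θ * N) ∧ 0 ≤ χ ^ j ∧ χ ^ j ≤ 11 / 10 := by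
  have hN := h.N100
  have hθN : 0 ≤ θ * N := by have := h.θN; linarith
  rcases hχ with rfl | ⟨rfl, rfl⟩
  · have : 0 ≤ 2 * (j : ℝ) * μ * N := by
      have : 0 ≤ N := by linarith
      positivity
    simp only [one_pow, one_mul]
    exact ⟨by linarith, zero_le_one, by norm_num⟩
  · rw [hμ, sub_zero, mul_one]
    exact ⟨h.chi hj, h.ratio hj⟩

/-- a quadratic term `k f²`, `f' = f + D`: `Ew f'² = Z f² + 2 f Ew D + Ew D²` -/
theorem quad_term {S : Finset ι} {w : ι → ι → ℝ} {p : Par} (hw : Wt S w p) {D : ι → ι → ℝ}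
    {f k k' σ c r C y : ℝ} (hσ : 0 < σ) (hk : k * σ ^ 2 = 1) (hf : k * f ^ 2 ≤ 1) (hk0 : 0 ≤ k')
    (hk' : k' ≤ c * k) (hc : c ≤ 11 / 10) (hy : 0 ≤ y) (hC : 0 ≤ C)
    (hm : |Ew w D + r * f| ≤ C * (y * σ)) (hv : Ew w (fun a b => D a b ^ 2) ≤ C * (y * σ ^ 2))
    (hZ : c * (Ew w (fun _ _ => 1) - 2 * r) ≤ Ew w (fun _ _ => 1) + 10 * y) :
    Ew w (fun a b => k' * (f + D a b) ^ 2) ≤
      Ew w (fun _ _ => 1) * (k * f ^ 2) + (4 * C + 10) * y := by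
  have hk1 : 0 < k := by
    by_contra hh
    have := mul_nonpos_of_nonpos_of_nonneg (not_lt.1 hh) (sq_nonneg σ)
    linarith
  have hc0 : 0 ≤ c := by
    by_contra hh
    have := mul_neg_of_neg_of_pos (not_le.1 hh) hk1
    linarith
  have hT0 : 0 ≤ Ew w (fun a b => (f + D a b) ^ 2) := hw.Ew_nonneg fun _ _ _ => sq_nonneg _
  have hT : Ew w (fun a b => (f + D a b) ^ 2) =
      f ^ 2 * Ew w (fun _ _ => 1) + 2 * f * Ew w D + Ew w (fun a b => D a b ^ 2) := by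
    rw [← Ew_const, ← Ew_mul, ← Ew_add, ← Ew_add]
    exact Ew_congr w fun a b _ => by ring
  rw [Ew_mul]
  obtain ⟨Z, hZ'⟩ : ∃ Z, Z = Ew w (fun _ _ => (1 : ℝ)) := ⟨_, rfl⟩
  obtain ⟨m, hm'⟩ : ∃ m, m = Ew w D := ⟨_, rfl⟩
  obtain ⟨v, hv'⟩ : ∃ v, v = Ew w (fun a b => D a b ^ 2) := ⟨_, rfl⟩
  rw [hT] at hT0 ⊢
  rw [← hZ'] at hT0 hZ ⊢
  rw [← hm'] at hT0 hm ⊢
  rw [← hv'] at hT0 hv ⊢
  have hfσ : |f| ≤ σ := by
    refine abs_le_of_sq_le_sq' ?_ hσ.le |> abs_le.2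
    exact le_of_mul_le_mul_left (hf.trans_eq hk.symm) hk1
  have h1 : f * (m + r * f) ≤ σ * (C * (y * σ)) := by
    refine (le_abs_self _).trans ?_
    rw [abs_mul]
    exact mul_le_mul hfσ hm (abs_nonneg _) hσ.le
  have h2 : k * (2 * (f * (m + r * f)) + v) ≤ 3 * (C * y) := by
    have h3 : k * (2 * (f * (m + r * f)) + v) ≤ k * (2 * (σ * (C * (y * σ))) + C * (y * σ ^ 2)) :=
      mul_le_mul_of_nonneg_left (by linarith) hk1.le
    have h4 : k * (2 * (σ * (C * (y * σ))) + C * (y * σ ^ 2)) = 3 * (C * y) := by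
      linear_combination 3 * (C * y) * hk
    linarith
  have hCy : 0 ≤ C * y := mul_nonneg hC hy
  have hkf : 0 ≤ k * f ^ 2 := by positivity
  have h5 : c * (k * (2 * (f * (m + r * f)) + v)) ≤ 4 * (C * y) := by
    have := mul_le_mul_of_nonneg_left h2 hc0
    nlinarith
  have h6 : c * (Z - 2 * r) * (k * f ^ 2) ≤ (Z + 10 * y) * (k * f ^ 2) :=
    mul_le_mul_of_nonneg_right hZ hkf
  have h7 : y * (k * f ^ 2) ≤ y * 1 := mul_le_mul_of_nonneg_left hf hy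
  calc k' * (f ^ 2 * Z + 2 * f * m + v) ≤ c * k * (f ^ 2 * Z + 2 * f * m + v) :=
        mul_le_mul_of_nonneg_right hk' hT0
    _ = c * (Z - 2 * r) * (k * f ^ 2) + c * (k * (2 * (f * (m + r * f)) + v)) := by ring
    _ ≤ Z * (k * f ^ 2) + (4 * C + 10) * y := by linarith

/-- a linear term `k x` whose average satisfies `0 ≤ X' ≤ Z' x + C y v` -/
theorem lin_term {X' Z' x k k' v c C y e : ℝ} (hk : k * v = 1) (hk0 : 0 ≤ k) (hx0 : 0 ≤ x)
    (hx : k * x ≤ 1) (hX0 : 0 ≤ X') (hk' : k' ≤ c * k) (hc0 : 0 ≤ c) (hc : c ≤ 2)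
    (hy : 0 ≤ y) (hC : 0 ≤ C) (he : 0 ≤ e) (hX : X' ≤ Z' * x + C * (y * v))
    (hZ : c * Z' ≤ Z + e) : k' * X' ≤ Z * (k * x) + e + 2 * C * y := by
  have hkx : 0 ≤ k * x := mul_nonneg hk0 hx0
  have hCy : 0 ≤ C * y := mul_nonneg hC hy
  have h1 : c * Z' * (k * x) ≤ (Z + e) * (k * x) := mul_le_mul_of_nonneg_right hZ hkx
  have h2 : e * (k * x) ≤ e * 1 := mul_le_mul_of_nonneg_left hx he
  have h3 : c * (C * y) ≤ 2 * (C * y) := mul_le_mul_of_nonneg_right hc hCy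
  calc k' * X' ≤ c * k * X' := mul_le_mul_of_nonneg_right hk' hX0
    _ ≤ c * k * (Z' * x + C * (y * v)) := mul_le_mul_of_nonneg_left hX (mul_nonneg hc0 hk0)
    _ = c * Z' * (k * x) + c * (C * y) := by linear_combination c * (C * y) * hk
    _ ≤ Z * (k * x) + e + 2 * C * y := by linarith

/-- for `VV` and `DD`: `Z - r + 2000 W ≤ (Z - r)(1 + 4000 W / N²)` since `Z - r ≥ N²/2` -/
theorem ZOK.grow (h : ZOK N θ Z) {c r W : ℝ} (hc0 : 0 ≤ c) (hr : r ≤ 4 * N)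
    (hW : 0 ≤ W) (hZ : c * (Z - r) ≤ Z + 10 * (θ * N)) :
    c * (1 + θ / N) / (1 + 4000 * W / N ^ 2) * (Z - r + 2000 * W) ≤ Z + 12 * (θ * N) := by
  have hN := h.N100
  have hN0 : 0 < N := by linarith
  have hθ := h.θ0
  have hθ1 := h.θ1
  have h1 : N ^ 2 / 2 ≤ Z - r := by
    have := h.Zlo
    have h2 : θ * N ^ 2 ≤ 1 / 100 * N ^ 2 := mul_le_mul_of_nonneg_right (by linarith) (sq_nonneg _)
    nlinarith
  have h2 : Z - r + 2000 * W ≤ (1 + 4000 * W / N ^ 2) * (Z - r) := by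
    have h3 : 4000 * W / N ^ 2 * (N ^ 2 / 2) ≤ 4000 * W / N ^ 2 * (Z - r) :=
      mul_le_mul_of_nonneg_left h1 (by positivity)
    have h4 : 4000 * W / N ^ 2 * (N ^ 2 / 2) = 2000 * W := by field_simp; ring
    linarith
  have h5 : 0 < 1 + 4000 * W / N ^ 2 := by positivity
  have h6 : θ / N * (Z + 10 * (θ * N)) ≤ 2 * (θ * N) := by
    have h7 : Z + 10 * (θ * N) ≤ 2 * N ^ 2 := by
      have := h.Zhi
      have h2 : θ * N ^ 2 ≤ 1 / 100 * N ^ 2 := mul_le_mul_of_nonneg_right (by linarith) (sq_nonneg _)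
      have h3 : θ * N ≤ 1 / 100 * N := mul_le_mul_of_nonneg_right (by linarith) hN0.le
      nlinarith
    have h8 := mul_le_mul_of_nonneg_left h7 (show 0 ≤ θ / N by positivity)
    have h9 : θ / N * (2 * N ^ 2) = 2 * (θ * N) := by field_simp
    linarith
  calc c * (1 + θ / N) / (1 + 4000 * W / N ^ 2) * (Z - r + 2000 * W)
      ≤ c * (1 + θ / N) / (1 + 4000 * W / N ^ 2) * ((1 + 4000 * W / N ^ 2) * (Z - r)) :=
        mul_le_mul_of_nonneg_left h2 (by positivity)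
    _ = (1 + θ / N) * (c * (Z - r)) := by
        rw [← mul_assoc, div_mul_cancel₀ _ h5.ne']; ring
    _ ≤ (1 + θ / N) * (Z + 10 * (θ * N)) := mul_le_mul_of_nonneg_left hZ (by positivity)
    _ ≤ Z + 12 * (θ * N) := by linarith

/-- for `WW`: the ratio of the coefficients is `(1 - 2/(N+L)) (N/(N-2))²` -/
theorem ZOK.wterm (h : ZOK N θ Z) {L W k k' : ℝ} (hL : 0 ≤ L) (hW : W * (N + L) = N ^ 2)
    (hk : k * W = 1) (hk' : k' * (N - 2) ^ 2 = N - 2 + L) :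
    ∃ c, k' = c * k ∧ 0 ≤ c ∧ c ≤ 2 ∧ c * (Z - 4 * N + 2 * W) ≤ Z + 30 * (θ * N) := by
  have hN := h.N100
  have hN0 : 0 < N := by linarith
  have h0 : 0 < N - 2 := by linarith
  have hθN := h.θN
  have hW0 : 0 < W := by
    by_contra hh
    have := mul_nonpos_of_nonpos_of_nonneg (not_lt.1 hh) (show 0 ≤ N + L by linarith)
    nlinarith
  have hWN : W ≤ N := by
    have h1 : W * N ≤ N * N := by nlinarith [mul_nonneg hW0.le hL]
    exact le_of_mul_le_mul_right h1 hN0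
  obtain ⟨hx0, hx1⟩ := h.ratio (j := 2) (by norm_num)
  have hch := h.chi (j := 2) (by norm_num)
  have hc : k' * W = (N / (N - 2)) ^ 2 * (1 - 2 * W / N ^ 2) := by
    have h1 : k' = (N - 2 + L) / (N - 2) ^ 2 := by rw [eq_div_iff (by positivity), hk']
    rw [h1]
    field_simp
    linear_combination hW
  have hu0 : 0 ≤ 2 * W / N ^ 2 := by positivity
  have hu1 : 2 * W / N ^ 2 * N ≤ 2 := by
    rw [div_mul_eq_mul_div, div_le_iff₀ (by positivity)]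
    nlinarith
  have hu2 : 2 * W / N ^ 2 * N ^ 2 = 2 * W := by field_simp
  obtain ⟨u, hu⟩ : ∃ u, u = 2 * W / N ^ 2 := ⟨_, rfl⟩
  obtain ⟨x, hx⟩ : ∃ x, x = (N / (N - 2)) ^ 2 := ⟨_, rfl⟩
  rw [← hu] at hc hu0 hu1 hu2
  rw [← hx] at hc hx0 hx1 hch
  have hu3 : u ≤ 1 := by nlinarith
  refine ⟨k' * W, by linear_combination -k' * hk, ?_, ?_, ?_⟩
  · rw [hc]; exact mul_nonneg hx0 (by linarith)
  · rw [hc]; nlinarith [mul_nonneg hx0 hu0]
  · have h1 : (1 - u) * (Z - 4 * N + 2 * W) ≤ Z - 4 * N + 10 * (θ * N) := by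
      have h2 : u * (N ^ 2 - Z) ≤ u * (θ * N ^ 2) :=
        mul_le_mul_of_nonneg_left (by linarith [h.Zlo]) hu0
      have h3 : u * N * (θ * N) ≤ 2 * (θ * N) := mul_le_mul_of_nonneg_right hu1 (by linarith)
      have h4 : 0 ≤ u * W := mul_nonneg hu0 hW0.le
      nlinarith
    have h5 := mul_le_mul_of_nonneg_left h1 hx0
    have h6 : x * (θ * N) ≤ 11 / 10 * (θ * N) := mul_le_mul_of_nonneg_right hx1 (by linarith)
    rw [hc]
    push_cast at hch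
    nlinarith

/-- averaging -/
theorem Wt.exists_le {S : Finset ι} {w : ι → ι → ℝ} {p : Par} (hw : Wt S w p) {F : ι → ι → ℝ}
    {x : ℝ} (hZ : 0 < Ew w fun _ _ => 1) (h : Ew w F ≤ Ew w (fun _ _ => 1) * x) :
    ∃ a b, w a b ≠ 0 ∧ F a b ≤ x := by
  by_contra hc
  push Not at hc
  obtain ⟨a, -, ha⟩ := Finset.exists_ne_zero_of_sum_ne_zero (show ∑ a, ∑ b, w a b * 1 ≠ 0 from hZ.ne')
  obtain ⟨b, -, hb⟩ := Finset.exists_ne_zero_of_sum_ne_zero ha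
  rw [mul_one] at hb
  have hle : ∀ a b, w a b * x ≤ w a b * F a b := fun a b => by
    by_cases h0 : w a b = 0
    · simp [h0]
    · exact mul_le_mul_of_nonneg_left (hc a b h0).le (hw.nonneg a b)
  have h1 : Ew w (fun _ _ => x) < Ew w F :=
    Finset.sum_lt_sum (fun a _ => Finset.sum_le_sum fun b _ => hle a b) ⟨a, Finset.mem_univ _,
      Finset.sum_lt_sum (fun b _ => hle a b) ⟨b, Finset.mem_univ _,
        mul_lt_mul_of_pos_left (hc a b hb) (lt_of_le_of_ne (hw.nonneg a b) (Ne.symm hb))⟩⟩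
  rw [Ew_const] at h1
  linarith

end Crest.Agent.R62
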