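import Crest.Agent.R62.Excl

/-!
# Row 62: the tilt

`gd A B c = 1` iff `b⁺_c ≤ 2` and `b⁻_c ≤ 2`.  The tilt is `ψ a b = gd a gd b (x (A²) a b + y (B²) a b)`.
-/

set_option autoImplicit false

open Finset Matrix

noncomputable section

namespace Crest.Agent.R62

variable {ι : Type} [Fintype ι] [DecidableEq ι]

open Classical in
/-- indicator of the good rows -/
def gd (A B : Mat ι) (c : ι) : ℝ := if bb A c ≤ 2 ∧ bb B c ≤ 2 then 1 else 0
/-- the tilt -/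
def psi (A B : Mat ι) (x y : ℝ) (a b : ι) : ℝ :=
  gd A B a * gd A B b * (x * (A ^ 2) a b + y * (B ^ 2) a b)

variable {S : Finset ι} {A B K L : Mat ι} {s t x y : ℝ} {p : Par} {cf : ι → ι → Prop}
  {e : ι → ι → ℝ}

theorem tilt_ext {F : ι → ι → ℝ} (h1 : ∀ a b, a ∉ S → F a b = 0) (h2 : ∀ a b, b ∉ S → F a b = 0) :
    ∑ a ∈ S, ∑ b ∈ S, F a b = ∑ a, ∑ b, F a b := by
  rw [sum_subset (subset_univ S) fun a _ ha => sum_eq_zero fun b _ => h1 a b ha]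
  exact sum_congr rfl fun a _ => sum_subset (subset_univ S) fun b _ hb => h2 a b hb

theorem gd_cases (A B : Mat ι) (c : ι) :
    gd A B c = 0 ∨ (gd A B c = 1 ∧ bb A c ≤ 2 ∧ bb B c ≤ 2) := by
  unfold gd
  split_ifs with h
  · exact Or.inr ⟨rfl, h⟩
  · exact Or.inl rfl

theorem gd_val (A B : Mat ι) (c : ι) : gd A B c = 0 ∨ gd A B c = 1 :=
  (gd_cases A B c).imp id And.left

theorem tilt_r_sq (h : ∀ a b, K a b = K b a) (a b : ι) : (K ^ 2) a b ^ 2 ≤ bb K a * bb K b :=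
  pow_add_sq_le h 1 1 a b

theorem tilt_r_le (h : ∀ a b, K a b = K b a) {a b : ι} (ha : bb K a ≤ 2) (hb : bb K b ≤ 2) :
    (K ^ 2) a b ^ 2 ≤ 4 := by
  have h1 := tilt_r_sq h a b
  have h2 := mul_le_mul ha hb (bb_nonneg h b) zero_le_two
  linarith

theorem tilt_row (hK : Bnd S K s p) (a : ι) : ∑ b ∈ S, (K ^ 2) a b ^ 2 ≤ p.Λ ^ 2 * bb K a := by
  have h1 : ∑ b ∈ S, (K ^ 2) a b ^ 2 ≤ ∑ b, (K ^ 2) a b ^ 2 :=
    sum_le_sum_of_subset_of_nonneg (subset_univ S) fun _ _ _ => sq_nonneg _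
  rw [sum_pow_sq hK.symm 2 a] at h1
  exact h1.trans ((le_abs_self _).trans (hK.op.abs_diag_le hK.symm hK.nn.Λ 2 a))

/-- the large row norms -/
theorem tilt_big (hK : Bnd S K s p) : ∑ c, (if 2 < bb K c then bb K c ^ 2 else 0) ≤ 4 * p.V := by
  rw [← sum_subset (subset_univ S) fun c _ hc => by rw [hK.toSide.bb_supp c hc]; simp]
  refine le_trans (sum_le_sum (g := fun c => 4 * (bb K c - p.ρ) ^ 2) fun c _ => ?_) ?_
  · have h1 := hK.ρ1
    split_ifs with h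
    · nlinarith
    · positivity
  · rw [← mul_sum]
    exact mul_le_mul_of_nonneg_left hK.V (by norm_num)

theorem tilt_bilin (hK : Bnd S K s p) (g : ι → ℝ) (hg : ∀ c, g c = 0 ∨ g c = 1) (u v : ι → ℝ) :
    |∑ a ∈ S, ∑ b ∈ S, g a * g b * (K ^ 2) a b * (u a * v b)| ≤
      p.Λ ^ 2 * √(∑ a ∈ S, u a ^ 2) * √(∑ b ∈ S, v b ^ 2) := by
  have hn : ∀ u : ι → ℝ, (fun a => if a ∈ S then g a * u a else 0) ⬝ᵥ
      (fun a => if a ∈ S then g a * u a else 0) ≤ ∑ a ∈ S, u a ^ 2 := by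
    intro u
    rw [dotProduct, ← sum_subset (subset_univ S) fun c _ hc => by simp [hc]]
    refine sum_le_sum fun a ha => ?_
    rw [if_pos ha]
    rcases hg a with h | h <;> rw [h] <;> nlinarith [sq_nonneg (u a)]
  have h0 : ∀ u : ι → ℝ, 0 ≤ u ⬝ᵥ u := fun u => sum_nonneg fun a _ => mul_self_nonneg _
  have h1 := (hK.op.pow 2).bilin (fun a => if a ∈ S then g a * u a else 0)
    (fun a => if a ∈ S then g a * v a else 0)
  have e : (fun a => if a ∈ S then g a * u a else 0) ⬝ᵥ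
      ((K ^ 2) *ᵥ fun a => if a ∈ S then g a * v a else 0) =
      ∑ a ∈ S, ∑ b ∈ S, g a * g b * (K ^ 2) a b * (u a * v b) := by
    simp only [dotProduct, mulVec, mul_sum]
    rw [← tilt_ext (S := S) (fun a b ha => by simp [ha]) (fun a b hb => by simp [hb])]
    refine sum_congr rfl fun a ha => sum_congr rfl fun b hb => ?_
    rw [if_pos ha, if_pos hb]
    ring
  rw [e] at h1
  have hu : 0 ≤ ∑ a ∈ S, u a ^ 2 := sum_nonneg fun _ _ => sq_nonneg _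
  have hv : 0 ≤ ∑ a ∈ S, v a ^ 2 := sum_nonneg fun _ _ => sq_nonneg _
  refine abs_le_of_sq_le_sq' (h1.trans ?_) (by positivity) |> abs_le.2
  rw [mul_pow, mul_pow, Real.sq_sqrt hu, Real.sq_sqrt hv, mul_assoc]
  exact mul_le_mul_of_nonneg_left (mul_le_mul (hn u) (hn v) (h0 _) hu) (by positivity)

theorem tilt_sq {x y r r' : ℝ} (hx : |x| ≤ 1 / 8) (hy : |y| ≤ 1 / 8) :
    (x * r + y * r') ^ 2 ≤ (r ^ 2 + r' ^ 2) / 32 := by
  have h1 : x ^ 2 ≤ 1 / 64 := by rw [← sq_abs]; nlinarith [abs_nonneg x]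
  have h2 : y ^ 2 ≤ 1 / 64 := by rw [← sq_abs]; nlinarith [abs_nonneg y]
  have h3 := mul_le_mul_of_nonneg_right h1 (sq_nonneg r)
  have h4 := mul_le_mul_of_nonneg_right h2 (sq_nonneg r')
  nlinarith [sq_nonneg (x * r - y * r')]

theorem tilt_split (F : ι → ι → ℝ) :
    ∑ a ∈ S, ∑ b ∈ S, psi A B x y a b * F a b =
      x * ∑ a ∈ S, ∑ b ∈ S, gd A B a * gd A B b * (A ^ 2) a b * F a b +
        y * ∑ a ∈ S, ∑ b ∈ S, gd A B a * gd A B b * (B ^ 2) a b * F a b := by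
  simp only [mul_sum, ← sum_add_distrib]
  refine sum_congr rfl fun a _ => sum_congr rfl fun b _ => ?_
  unfold psi
  ring

theorem tilt_total (hK : Side S K s) (hL : Side S L t) :
    ∑ a ∈ S, ∑ b ∈ S, (K ^ 2) a b * (L ^ 2) a b = (K ^ 2 * L ^ 2).trace := by
  rw [tilt_ext (fun a b ha => by rw [hK.pow_supp 1 a b ha, zero_mul])
    (fun a b hb => by rw [hK.pow_supp' 1 a b hb, zero_mul])]
  simp only [Matrix.trace, Matrix.diag, Matrix.mul_apply]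
  exact sum_congr rfl fun a _ => sum_congr rfl fun b _ => by rw [pow_symm hL.symm 2 a b]

theorem gd_comm (A B : Mat ι) : gd A B = gd B A := by
  funext c
  simp only [gd, and_comm]

/-- for a bad row either `b > 2`, so `b ≤ 2 δ̃²`, or `b ≤ 2 ≤ 2 δ̃'²` -/
theorem sum_bad (hA : Bnd S A s p) (hB : Bnd S B t p) :
    ∑ c, (1 - gd A B c) * bb A c ≤ 4 * p.V := by
  rw [← sum_subset (subset_univ S) fun c _ hc => by rw [hA.toSide.bb_supp c hc, mul_zero]]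
  refine le_trans (sum_le_sum (g := fun c => 2 * (bb A c - p.ρ) ^ 2 + 2 * (bb B c - p.ρ) ^ 2)
    fun c _ => ?_) ?_
  · have h1 := hA.ρ1
    unfold gd
    split_ifs with h
    · rw [sub_self, zero_mul]
      positivity
    · rcases le_or_gt (bb A c) 2 with h2 | h2
      · have h3 : 2 < bb B c := not_le.1 fun h3 => h ⟨h2, h3⟩
        nlinarith [sq_nonneg (bb A c - p.ρ)]
      · nlinarith [sq_nonneg (bb B c - p.ρ)]
  · rw [sum_add_distrib, ← mul_sum, ← mul_sum]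
    have h1 := hA.V
    have h2 := hB.V
    unfold VV at h1 h2
    linarith

/-- loss in the Gram matrix: bad rows cost `2 Λ² · 4 V` (`α₄ ≤ Λ² b`), excluded good pairs `4 · 325 nE` -/
theorem gram_loss (hA : Bnd S A s p) (hB : Bnd S B t p) {k r n : ℝ} (he : Small S e k r n)
    (hv : ∀ a b, e a b = 0 ∨ e a b = 1) :
    ∑ a ∈ S, ∑ b ∈ S, (1 - (1 - e a b) * (gd A B a * gd A B b)) * (A ^ 2) a b ^ 2 ≤
      8 * p.Λ ^ 2 * p.V + 4 * n := by
  have hg1 : ∀ a, 0 ≤ 1 - gd A B a := fun a => by rcases gd_val A B a with h | h <;> rw [h] <;> norm_num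
  have h1 : ∑ a ∈ S, ∑ b ∈ S, (1 - gd A B a) * (A ^ 2) a b ^ 2 ≤ 4 * p.Λ ^ 2 * p.V := by
    calc ∑ a ∈ S, ∑ b ∈ S, (1 - gd A B a) * (A ^ 2) a b ^ 2
        ≤ ∑ a ∈ S, p.Λ ^ 2 * ((1 - gd A B a) * bb A a) := sum_le_sum fun a _ => by
          rw [← mul_sum, mul_left_comm]
          exact mul_le_mul_of_nonneg_left (tilt_row hA a) (hg1 a)
      _ ≤ ∑ a, p.Λ ^ 2 * ((1 - gd A B a) * bb A a) :=
          sum_le_sum_of_subset_of_nonneg (subset_univ S) fun a _ _ =>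
            mul_nonneg (sq_nonneg _) (mul_nonneg (hg1 a) (bb_nonneg hA.symm a))
      _ ≤ p.Λ ^ 2 * (4 * p.V) := by
          rw [← mul_sum]
          exact mul_le_mul_of_nonneg_left (sum_bad hA hB) (sq_nonneg _)
      _ = _ := by ring
  have h2 : ∑ a ∈ S, ∑ b ∈ S, (1 - gd A B b) * (A ^ 2) a b ^ 2 ≤ 4 * p.Λ ^ 2 * p.V := by
    rw [sum_comm]
    refine le_trans (le_of_eq ?_) h1
    exact sum_congr rfl fun a _ => sum_congr rfl fun b _ => by rw [pow_symm hA.symm 2 a b]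
  have h3 := he.cnt
  have h4 : ∑ a ∈ S, ∑ b ∈ S, (1 - (1 - e a b) * (gd A B a * gd A B b)) * (A ^ 2) a b ^ 2 ≤
      ∑ a ∈ S, ∑ b ∈ S, ((1 - gd A B a) * (A ^ 2) a b ^ 2 + (1 - gd A B b) * (A ^ 2) a b ^ 2 +
        4 * e a b) := by
    refine sum_le_sum fun a _ => sum_le_sum fun b _ => ?_
    have h5 := he.nonneg a b
    have h6 := sq_nonneg ((A ^ 2) a b)
    rcases gd_cases A B a with ha | ⟨ha, ha', -⟩ <;> rcases gd_cases A B b with hb | ⟨hb, hb', -⟩ <;>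
      rw [ha, hb]
    · linarith
    · linarith
    · linarith
    · nlinarith [tilt_r_le hA.symm ha' hb']
  simp only [sum_add_distrib, ← mul_sum] at h4
  simp only [← mul_sum] at h1
  linarith

/-- `P x + R y = -c`, `R x + Q y = c` with `P, Q ≥ 0.9 l`, `|R| ≤ 0.21 l`, `0 ≤ 32 c ≤ l` -/
theorem solve_two {P Q R c l : ℝ} (hl : 0 < l) (hP : 9 / 10 * l ≤ P) (hQ : 9 / 10 * l ≤ Q)
    (hR : |R| ≤ 21 / 100 * l) (hc0 : 0 ≤ c) (hc : 32 * c ≤ l) :
    ∃ x y, |x| ≤ 1 / 8 ∧ |y| ≤ 1 / 8 ∧ P * x + R * y = -c ∧ R * x + Q * y = c := by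
  obtain ⟨hR1, hR2⟩ := abs_le.1 hR
  have hR3 : R ^ 2 ≤ (21 / 100 * l) ^ 2 := sq_le_sq' hR1 hR2
  have hPQ : 9 / 10 * l * Q ≤ P * Q := mul_le_mul_of_nonneg_right hP (by linarith)
  have hQP : 9 / 10 * l * P ≤ Q * P := mul_le_mul_of_nonneg_right hQ (by linarith)
  have hD : 0 < P * Q - R ^ 2 := by nlinarith
  have h1 : 32 * c * (Q + R) ≤ l * (Q + R) := mul_le_mul_of_nonneg_right hc (by linarith)
  have h2 : 32 * c * (P + R) ≤ l * (P + R) := mul_le_mul_of_nonneg_right hc (by linarith)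
  refine ⟨-(c * (Q + R) / (P * Q - R ^ 2)), c * (P + R) / (P * Q - R ^ 2), ?_, ?_, ?_, ?_⟩
  · rw [abs_neg, abs_of_nonneg (div_nonneg (mul_nonneg hc0 (by linarith)) hD.le), div_le_iff₀ hD]
    nlinarith
  · rw [abs_of_nonneg (div_nonneg (mul_nonneg hc0 (by linarith)) hD.le), div_le_iff₀ hD]
    nlinarith
  · linear_combination -mul_div_cancel_right₀ c hD.ne'
  · linear_combination mul_div_cancel_right₀ c hD.ne'

/-- `P = p₄ - loss`, `R = XX - loss'` with `|loss'| ≤ √(loss⁺ loss⁻)`, `loss ≤ 325 er`; `G5`, `G6`, `G7` -/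
theorem exists_tilt (hA : Bnd S A 1 p) (hB : Bnd S B (-1) p) (hw : CondWt p) (hc : CondTilt p)
    (he : Exc S A B p cf e) (h4A : p.Pl ≤ pk A 4) (h4B : p.Pl ≤ pk B 4) (hX : XX A B ≤ p.Xb) :
    ∃ x y, |x| ≤ 1 / 8 ∧ |y| ≤ 1 / 8 ∧
      ∑ a ∈ S, ∑ b ∈ S, (1 - e a b) * psi A B x y a b * (A ^ 2) a b = -(p.γ * p.N ^ 2 / 2) ∧
      ∑ a ∈ S, ∑ b ∈ S, (1 - e a b) * psi A B x y a b * (B ^ 2) a b = p.γ * p.N ^ 2 / 2 := by
  have lA := gram_loss hA hB he.toSmall he.val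
  have lB := gram_loss hB hA he.toSmall he.val
  rw [gd_comm B A] at lB
  have hV : 0 ≤ p.Λ ^ 2 * p.V := mul_nonneg (sq_nonneg _) hA.nn.V
  have h7 := hc.G7
  unfold Par.er at h7
  set μ : ι → ι → ℝ := fun a b => (1 - e a b) * (gd A B a * gd A B b) with hμ
  have hμ1 : ∀ a b, 0 ≤ 1 - μ a b := fun a b => by
    simp only [hμ]
    rcases he.val a b with h | h <;> rcases gd_val A B a with h' | h' <;>
      rcases gd_val A B b with h'' | h'' <;> rw [h, h', h''] <;> norm_num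
  have tA := tilt_total hA.toSide hA.toSide
  have tB := tilt_total hB.toSide hB.toSide
  have tX := tilt_total hA.toSide hB.toSide
  rw [← pow_add] at tA tB
  change _ = pk A 4 at tA
  change _ = pk B 4 at tB
  change _ = XX A B at tX
  have hX0 := XX_nonneg hA.symm hB.symm
  have split : ∀ F : ι → ι → ℝ, ∑ a ∈ S, ∑ b ∈ S, μ a b * F a b =
      ∑ a ∈ S, ∑ b ∈ S, F a b - ∑ a ∈ S, ∑ b ∈ S, (1 - μ a b) * F a b := fun F => by
    simp only [← sum_sub_distrib]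
    exact sum_congr rfl fun a _ => sum_congr rfl fun b _ => by ring
  simp only [pow_two ((A ^ 2) _ _)] at lA
  simp only [pow_two ((B ^ 2) _ _)] at lB
  change ∑ a ∈ S, ∑ b ∈ S, (1 - μ a b) * _ ≤ _ at lA lB
  have lX : |∑ a ∈ S, ∑ b ∈ S, (1 - μ a b) * ((A ^ 2) a b * (B ^ 2) a b)| ≤
      (∑ a ∈ S, ∑ b ∈ S, (1 - μ a b) * ((A ^ 2) a b * (A ^ 2) a b) +
        ∑ a ∈ S, ∑ b ∈ S, (1 - μ a b) * ((B ^ 2) a b * (B ^ 2) a b)) / 2 := by
    simp only [← sum_add_distrib, sum_div]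
    refine (abs_sum_le_sum_abs _ _).trans (sum_le_sum fun a _ =>
      (abs_sum_le_sum_abs _ _).trans (sum_le_sum fun b _ => ?_))
    have h1 := mul_nonneg (hμ1 a b) (sq_nonneg ((A ^ 2) a b - (B ^ 2) a b))
    have h2 := mul_nonneg (hμ1 a b) (sq_nonneg ((A ^ 2) a b + (B ^ 2) a b))
    rw [abs_le]
    constructor <;> nlinarith
  have h0 := hc.Pl0
  have h6 := hc.G6
  obtain ⟨x, y, hx, hy, e1, e2⟩ := solve_two
    (P := ∑ a ∈ S, ∑ b ∈ S, μ a b * ((A ^ 2) a b * (A ^ 2) a b))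
    (Q := ∑ a ∈ S, ∑ b ∈ S, μ a b * ((B ^ 2) a b * (B ^ 2) a b))
    (R := ∑ a ∈ S, ∑ b ∈ S, μ a b * ((A ^ 2) a b * (B ^ 2) a b)) (c := p.γ * p.N ^ 2 / 2) h0
    (by rw [split, tA]; linarith) (by rw [split, tB]; linarith)
    (by
      rw [split, tX]
      obtain ⟨h1, h2⟩ := abs_le.1 lX
      rw [abs_le]
      constructor <;> linarith)
    (by have := hw.γ0; positivity) (by linarith [hc.G5])
  refine ⟨x, y, hx, hy, ?_, ?_⟩
  · rw [← e1]
    simp only [sum_mul, ← sum_add_distrib]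
    refine sum_congr rfl fun a _ => sum_congr rfl fun b _ => ?_
    simp only [hμ, psi]
    ring
  · rw [← e2]
    simp only [sum_mul, ← sum_add_distrib]
    refine sum_congr rfl fun a _ => sum_congr rfl fun b _ => ?_
    simp only [hμ, psi]
    ring

theorem psi_symm (hA : Side S A s) (hB : Side S B t) (a b : ι) :
    psi A B x y a b = psi A B x y b a := by
  unfold psi
  rw [pow_symm hA.symm 2 a b, pow_symm hB.symm 2 a b, mul_comm (gd A B a)]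

/-- `r₂² ≤ b_a b_b ≤ 4` on good rows -/
theorem abs_psi_le (hA : Side S A s) (hB : Side S B t) (hx : |x| ≤ 1 / 8) (hy : |y| ≤ 1 / 8)
    (a b : ι) : |psi A B x y a b| ≤ 1 / 2 := by
  unfold psi
  rcases gd_cases A B a with ha | ⟨ha, ha1, ha2⟩
  · simp [ha]
  rcases gd_cases A B b with hb | ⟨hb, hb1, hb2⟩
  · simp [hb]
  rw [ha, hb, one_mul, one_mul]
  refine abs_le.2 (abs_le_of_sq_le_sq' ((tilt_sq hx hy).trans ?_) (by norm_num))
  linarith [tilt_r_le hA.symm ha1 hb1, tilt_r_le hB.symm ha2 hb2]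

theorem psi_op (hA : Bnd S A s p) (hB : Bnd S B t p) (hx : |x| ≤ 1 / 8) (hy : |y| ≤ 1 / 8)
    (u v : ι → ℝ) : |∑ a ∈ S, ∑ b ∈ S, psi A B x y a b * (u a * v b)| ≤
      p.Λ ^ 2 / 4 * √(∑ a ∈ S, u a ^ 2) * √(∑ b ∈ S, v b ^ 2) := by
  have h1 := tilt_bilin hA (gd A B) (gd_val A B) u v
  have h2 := tilt_bilin hB (gd A B) (gd_val A B) u v
  rw [tilt_split]
  refine (abs_add_le _ _).trans ?_
  rw [abs_mul, abs_mul]
  have h3 := mul_le_mul hx h1 (abs_nonneg _) (by norm_num)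
  have h4 := mul_le_mul hy h2 (abs_nonneg _) (by norm_num)
  linarith

/-- `∑_b r₂² = α₄ ≤ Λ² b ≤ 2 Λ²` on good rows -/
theorem psi_row (hA : Bnd S A s p) (hB : Bnd S B t p) (hx : |x| ≤ 1 / 8) (hy : |y| ≤ 1 / 8)
    (a : ι) : ∑ b ∈ S, psi A B x y a b ^ 2 ≤ p.Λ ^ 2 / 8 := by
  rcases gd_cases A B a with ha | ⟨ha, ha1, ha2⟩
  · simp only [psi, ha, zero_mul]
    simp only [ne_eq, OfNat.ofNat_ne_zero, not_false_eq_true, zero_pow, sum_const_zero]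
    positivity
  have h1 : ∑ b ∈ S, psi A B x y a b ^ 2 ≤ ∑ b ∈ S, ((A ^ 2) a b ^ 2 + (B ^ 2) a b ^ 2) / 32 := by
    refine sum_le_sum fun b _ => ?_
    unfold psi
    rcases gd_val A B b with hb | hb <;> rw [ha, hb]
    · simp only [mul_zero, zero_mul, ne_eq, OfNat.ofNat_ne_zero, not_false_eq_true, zero_pow]
      positivity
    · rw [one_mul, one_mul]
      exact tilt_sq hx hy
  rw [← sum_div, sum_add_distrib] at h1
  have h2 := tilt_row hA a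
  have h3 := tilt_row hB a
  have h4 := mul_le_mul_of_nonneg_left ha1 (sq_nonneg p.Λ)
  have h5 := mul_le_mul_of_nonneg_left ha2 (sq_nonneg p.Λ)
  linarith

/-- With `u_c = g · K e_c` (`g` any `0/1` vector with `∑ (1 - g) b ≤ 4 V`): `|L u_c|² ≤ Λ² b_c` and
`|L u_c|² ≤ 2 |L K e_c|² + 2 Λ² ∑_d (1 - g d) K c d ²`.  Splitting `b_c ≤ 2` / `b_c > 2` (`b² ≤ 4 δ̃²`):
`∑ b_c |L K e_c|² ≤ 2 ‖L K‖² + 4 Λ² V ≤ a3` (`‖L K‖² = XX L K ≤ √(p₄ p₄) ≤ P4`), and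
`∑_c b_c ∑_d (1 - g d) K c d ² ≤ 8 V + 4 V`. -/
theorem sum_cut_sq (hK : Bnd S K s p) (hL : Bnd S L t p) (g : ι → ℝ) (hg : ∀ c, g c = 0 ∨ g c = 1)
    (hb : ∑ c, (1 - g c) * bb K c ≤ 4 * p.V) :
    ∑ c, (∑ a, ∑ b, g a * g b * (L ^ 2) a b * (K c a * K c b)) ^ 2 ≤ 8 * p.Λ ^ 2 * p.a3 := by
  have hg1 : ∀ a, 0 ≤ 1 - g a := fun a => by rcases hg a with h | h <;> rw [h] <;> norm_num
  have hΛ : 0 ≤ p.Λ ^ 2 := sq_nonneg _
  set q : ι → ℝ := fun c => ∑ a, (L * K) a c ^ 2 with hq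
  set z : ι → ℝ := fun c => ∑ d, (1 - g d) * K c d ^ 2 with hz
  set β : ι → ℝ := fun c => if 2 < bb K c then bb K c ^ 2 else 0 with hβ
  have hq0 : ∀ c, 0 ≤ q c := fun c => sum_nonneg fun _ _ => sq_nonneg _
  have hz0 : ∀ c, 0 ≤ z c := fun c => sum_nonneg fun d _ => mul_nonneg (hg1 d) (sq_nonneg _)
  have hLK : ∀ c a, (L *ᵥ K c) a = (L * K) a c := fun c a => by
    simp only [mulVec, dotProduct, Matrix.mul_apply]
    exact sum_congr rfl fun d _ => by rw [hK.symm c d]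
  have hkk : ∀ c, K c ⬝ᵥ K c = bb K c := fun c => by
    rw [bb_eq hK.symm]
    exact sum_congr rfl fun d _ => (pow_two _).symm
  have hqb : ∀ c, q c ≤ p.Λ ^ 2 * bb K c := fun c => by
    have h1 := hL.op (K c)
    rw [hkk] at h1
    refine le_trans (le_of_eq ?_) h1
    exact sum_congr rfl fun a _ => by rw [hLK, pow_two]
  have hzb : ∀ c, z c ≤ bb K c := fun c => by
    rw [bb_eq hK.symm]
    refine sum_le_sum fun d _ => ?_
    rcases hg d with h | h <;> rw [h] <;> nlinarith [sq_nonneg (K c d)]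
  have pt : ∀ c, (∑ a, ∑ b, g a * g b * (L ^ 2) a b * (K c a * K c b)) ^ 2 ≤
      p.Λ ^ 2 * (2 * (2 * q c + p.Λ ^ 2 * β c) + 2 * p.Λ ^ 2 * (2 * z c + β c)) := by
    intro c
    set u : ι → ℝ := fun a => g a * K c a with hu
    set w : ι → ℝ := fun a => (1 - g a) * K c a with hw
    have e1 : ∑ a, ∑ b, g a * g b * (L ^ 2) a b * (K c a * K c b) = (L *ᵥ u) ⬝ᵥ (L *ᵥ u) := by
      rw [dotProduct_mulVec, ← mulVec_transpose, mulVec_mulVec, transpose_of_symm hL.symm, ← pow_two,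
        dotProduct_comm]
      simp only [dotProduct, mulVec, mul_sum, hu]
      exact sum_congr rfl fun a _ => sum_congr rfl fun b _ => by ring
    have h0 : 0 ≤ (L *ᵥ u) ⬝ᵥ (L *ᵥ u) := sum_nonneg fun a _ => mul_self_nonneg _
    have h1 : (L *ᵥ u) ⬝ᵥ (L *ᵥ u) ≤ p.Λ ^ 2 * bb K c := by
      refine (hL.op u).trans (mul_le_mul_of_nonneg_left ?_ hΛ)
      rw [bb_eq hK.symm]
      refine sum_le_sum fun d _ => ?_
      simp only [hu]
      rcases hg d with h | h <;> rw [h] <;> nlinarith [sq_nonneg (K c d)]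
    have h2 : (L *ᵥ w) ⬝ᵥ (L *ᵥ w) ≤ p.Λ ^ 2 * z c := by
      refine (hL.op w).trans (mul_le_mul_of_nonneg_left (le_of_eq ?_) hΛ)
      refine sum_congr rfl fun d _ => ?_
      simp only [hw]
      rcases hg d with h | h <;> rw [h] <;> ring
    have h3 : (L *ᵥ u) ⬝ᵥ (L *ᵥ u) ≤ 2 * q c + 2 * (L *ᵥ w) ⬝ᵥ (L *ᵥ w) := by
      have e2 : u = K c - w := by
        funext a
        simp only [hu, hw, Pi.sub_apply]
        ring
      rw [e2, mulVec_sub]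
      simp only [hq, dotProduct, mul_sum, ← sum_add_distrib]
      refine sum_le_sum fun a _ => ?_
      rw [Pi.sub_apply, hLK]
      nlinarith [sq_nonneg ((L * K) a c + (L *ᵥ w) a)]
    have hb0 := bb_nonneg hK.symm c
    have h4 : bb K c * q c ≤ 2 * q c + p.Λ ^ 2 * β c := by
      simp only [hβ]
      split_ifs with h
      · nlinarith [mul_le_mul_of_nonneg_left (hqb c) hb0, hq0 c]
      · nlinarith [mul_le_mul_of_nonneg_right (not_lt.1 h) (hq0 c)]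
    have h5 : bb K c * z c ≤ 2 * z c + β c := by
      simp only [hβ]
      split_ifs with h
      · nlinarith [mul_le_mul_of_nonneg_left (hzb c) hb0, hz0 c]
      · nlinarith [mul_le_mul_of_nonneg_right (not_lt.1 h) (hz0 c)]
    rw [e1, pow_two]
    calc (L *ᵥ u) ⬝ᵥ (L *ᵥ u) * (L *ᵥ u) ⬝ᵥ (L *ᵥ u)
        ≤ p.Λ ^ 2 * bb K c * (2 * q c + 2 * (p.Λ ^ 2 * z c)) :=
          mul_le_mul h1 (by linarith) h0 (mul_nonneg hΛ hb0)
      _ = p.Λ ^ 2 * (2 * (bb K c * q c) + 2 * p.Λ ^ 2 * (bb K c * z c)) := by ring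
      _ ≤ _ := by gcongr
  have s1 : ∑ c, q c ≤ p.P4 := by
    have e : ∑ c, q c = XX L K := by
      rw [XX_eq_fro hL.symm hK.symm, fro, sum_comm]
    rw [e]
    refine (le_abs_self _).trans ((abs_trace_mul_le _ _).trans ?_)
    refine sqrt_mul_sqrt_le (fro_nonneg _) ?_ hK.nn.P4
    rw [pow_two p.P4]
    exact mul_le_mul hL.fro_two hK.fro_two (fro_nonneg _) hK.nn.P4
  have s2 : ∑ c, z c ≤ 4 * p.V := by
    refine le_trans (le_of_eq ?_) hb
    simp only [hz]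
    rw [sum_comm]
    exact sum_congr rfl fun d _ => by rw [← mul_sum, bb_eq' hK.symm]
  have s3 : ∑ c, β c ≤ 4 * p.V := tilt_big hK
  refine (sum_le_sum fun c _ => pt c).trans ?_
  simp only [← mul_sum, sum_add_distrib]
  have hP := hK.nn.P4
  calc p.Λ ^ 2 * (2 * (2 * ∑ c, q c + p.Λ ^ 2 * ∑ c, β c) + 2 * p.Λ ^ 2 * (2 * ∑ c, z c + ∑ c, β c))
      ≤ p.Λ ^ 2 * (2 * (2 * p.P4 + p.Λ ^ 2 * (4 * p.V)) + 2 * p.Λ ^ 2 * (2 * (4 * p.V) + 4 * p.V)) := by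
        gcongr
    _ ≤ p.Λ ^ 2 * (8 * p.a3) := by
        refine mul_le_mul_of_nonneg_left ?_ hΛ
        unfold Par.a3
        linarith
    _ = _ := by ring

theorem psi_xi (hA : Bnd S A s p) (hB : Bnd S B t p) (hx : |x| ≤ 1 / 8) (hy : |y| ≤ 1 / 8) :
    ∑ c, (∑ a ∈ S, ∑ b ∈ S, psi A B x y a b * (A c a * A c b)) ^ 2 ≤ p.Λ ^ 2 * p.a3 / 2 ∧
    ∑ c, (∑ a ∈ S, ∑ b ∈ S, psi A B x y a b * (B c a * B c b)) ^ 2 ≤ p.Λ ^ 2 * p.a3 / 2 := by
  have key : ∀ {K : Mat ι} {r : ℝ}, Bnd S K r p → ∑ c, (1 - gd A B c) * bb K c ≤ 4 * p.V →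
      ∑ c, (∑ a ∈ S, ∑ b ∈ S, psi A B x y a b * (K c a * K c b)) ^ 2 ≤ p.Λ ^ 2 * p.a3 / 2 := by
    intro K r hK hb
    have h1 := sum_cut_sq hK hA (gd A B) (gd_val A B) hb
    have h2 := sum_cut_sq hK hB (gd A B) (gd_val A B) hb
    have e : ∀ (L : Mat ι) (c : ι), ∑ a ∈ S, ∑ b ∈ S, gd A B a * gd A B b * (L ^ 2) a b * (K c a * K c b) =
        ∑ a, ∑ b, gd A B a * gd A B b * (L ^ 2) a b * (K c a * K c b) := fun L c =>
      tilt_ext (fun a b ha => by rw [hK.toSide.supp' c a ha, zero_mul, mul_zero])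
        (fun a b hb => by rw [hK.toSide.supp' c b hb, mul_zero, mul_zero])
    simp only [tilt_split, e]
    refine (sum_le_sum fun c _ => tilt_sq hx hy).trans ?_
    rw [← sum_div, sum_add_distrib]
    linarith
  exact ⟨key hA (sum_bad hA hB), key hB (by rw [gd_comm]; exact sum_bad hB hA)⟩

end Crest.Agent.R62
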