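import Crest.Agent.R62.Lin

/-!
# Row 62: weighted sums over pairs, and the scalars `j`, `g` of an allowed pair
-/

set_option autoImplicit false

open Finset Matrix

noncomputable section

namespace Crest.Agent.R62

variable {ι : Type} [Fintype ι] [DecidableEq ι]

section Ew
variable (w : ι → ι → ℝ)

theorem Ew_add (f g : ι → ι → ℝ) : Ew w (fun a b => f a b + g a b) = Ew w f + Ew w g := by
  simp only [Ew, mul_add, sum_add_distrib]

theorem Ew_sub (f g : ι → ι → ℝ) : Ew w (fun a b => f a b - g a b) = Ew w f - Ew w g := by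
  simp only [Ew, mul_sub, sum_sub_distrib]

theorem Ew_neg (f : ι → ι → ℝ) : Ew w (fun a b => -f a b) = -Ew w f := by
  simp only [Ew, mul_neg, sum_neg_distrib]

theorem Ew_mul (c : ℝ) (f : ι → ι → ℝ) : Ew w (fun a b => c * f a b) = c * Ew w f := by
  simp only [Ew, mul_sum]
  refine sum_congr rfl fun a _ => sum_congr rfl fun b _ => by ring

theorem Ew_const (c : ℝ) : Ew w (fun _ _ => c) = c * Ew w (fun _ _ => 1) := by
  rw [← Ew_mul]; simp only [mul_one]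

theorem Ew_sum {κ : Type} (T : Finset κ) (f : κ → ι → ι → ℝ) :
    Ew w (fun a b => ∑ c ∈ T, f c a b) = ∑ c ∈ T, Ew w (f c) := by
  simp only [Ew, mul_sum]
  rw [sum_comm (s := T)]
  refine sum_congr rfl fun a _ => ?_
  rw [sum_comm (s := T)]

theorem Ew_congr {f g : ι → ι → ℝ} (h : ∀ a b, w a b ≠ 0 → f a b = g a b) : Ew w f = Ew w g := by
  unfold Ew
  refine sum_congr rfl fun a _ => sum_congr rfl fun b _ => ?_
  by_cases h0 : w a b = 0
  · simp [h0]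
  · rw [h a b h0]

end Ew

section Wt
variable {S : Finset ι} {w : ι → ι → ℝ} {p : Par}

theorem Wt.swap (hw : Wt S w p) (f : ι → ι → ℝ) : Ew w (fun a b => f b a) = Ew w f := by
  unfold Ew
  rw [sum_comm]
  refine sum_congr rfl fun a _ => sum_congr rfl fun b _ => ?_
  rw [hw.symm b a]

theorem Wt.mono (hw : Wt S w p) {f g : ι → ι → ℝ} (h : ∀ a b, w a b ≠ 0 → f a b ≤ g a b) :
    Ew w f ≤ Ew w g := by
  unfold Ew
  refine sum_le_sum fun a _ => sum_le_sum fun b _ => ?_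
  by_cases h0 : w a b = 0
  · simp [h0]
  · exact mul_le_mul_of_nonneg_left (h a b h0) (hw.nonneg a b)

theorem Wt.Ew_nonneg (hw : Wt S w p) {f : ι → ι → ℝ} (h : ∀ a b, w a b ≠ 0 → 0 ≤ f a b) :
    0 ≤ Ew w f := by
  unfold Ew
  refine sum_nonneg fun a _ => sum_nonneg fun b _ => ?_
  by_cases h0 : w a b = 0
  · simp [h0]
  · exact mul_nonneg (hw.nonneg a b) (h a b h0)

theorem Wt.abs_le_abs (hw : Wt S w p) {f g : ι → ι → ℝ} (h : ∀ a b, w a b ≠ 0 → |f a b| ≤ g a b) :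
    |Ew w f| ≤ Ew w g := by
  rw [abs_le]
  constructor
  · rw [← Ew_neg]
    exact hw.mono fun a b h0 => (abs_le.1 (h a b h0)).1
  · exact hw.mono fun a b h0 => (abs_le.1 (h a b h0)).2

theorem Wt.eq_sum (hw : Wt S w p) (f : ι → ι → ℝ) :
    Ew w f = ∑ a ∈ S, ∑ b ∈ S, w a b * f a b := by
  unfold Ew
  symm
  rw [← sum_subset (subset_univ S) (f := fun a => ∑ b, w a b * f a b)]
  · refine sum_congr rfl fun a _ => ?_
    refine sum_subset (subset_univ S) fun b _ hb => ?_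
    by_cases h0 : w a b = 0
    · simp [h0]
    · exact absurd (hw.supp a b h0).2 hb
  · intro a _ ha
    refine sum_eq_zero fun b _ => ?_
    by_cases h0 : w a b = 0
    · simp [h0]
    · exact absurd (hw.supp a b h0).1 ha

theorem Wt.le_ω (hw : Wt S w p) {f : ι → ι → ℝ} (h : ∀ a b, 0 ≤ f a b) :
    Ew w f ≤ p.ω * ∑ a ∈ S, ∑ b ∈ S, f a b := by
  rw [hw.eq_sum]
  simp only [mul_sum]
  exact sum_le_sum fun a _ => sum_le_sum fun b _ => mul_le_mul_of_nonneg_right (hw.le a b) (h a b)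

theorem Wt.le_two (hw : Wt S w p) {f : ι → ι → ℝ} (h : ∀ a b, 0 ≤ f a b) :
    Ew w f ≤ 2 * ∑ a ∈ S, ∑ b ∈ S, f a b := by
  refine (hw.le_ω h).trans (mul_le_mul_of_nonneg_right hw.ω2 ?_)
  exact sum_nonneg fun a _ => sum_nonneg fun b _ => h a b

theorem sum_sum_le_univ (S : Finset ι) {f : ι → ι → ℝ} (h : ∀ a b, 0 ≤ f a b) :
    ∑ a ∈ S, ∑ b ∈ S, f a b ≤ ∑ a, ∑ b, f a b := by
  calc ∑ a ∈ S, ∑ b ∈ S, f a b ≤ ∑ a ∈ S, ∑ b, f a b :=
        sum_le_sum fun a _ => sum_le_sum_of_subset_of_nonneg (subset_univ S) fun b _ _ => h a b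
    _ ≤ ∑ a, ∑ b, f a b :=
        sum_le_sum_of_subset_of_nonneg (subset_univ S) fun a _ _ => sum_nonneg fun b _ => h a b

theorem Wt.le_two' (hw : Wt S w p) {f : ι → ι → ℝ} (h : ∀ a b, 0 ≤ f a b) :
    Ew w f ≤ 2 * ∑ a, ∑ b, f a b := by
  refine (hw.le_two h).trans (mul_le_mul_of_nonneg_left ?_ (by norm_num))
  exact sum_sum_le_univ S h

/-- a pointwise bound on the support by a product `f a * h b` of nonnegative functions -/
theorem Wt.abs_le_prod (hw : Wt S w p) {F : ι → ι → ℝ} {f h : ι → ℝ} (hf : ∀ a, 0 ≤ f a)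
    (hh : ∀ b, 0 ≤ h b) (hF : ∀ a b, w a b ≠ 0 → |F a b| ≤ f a * h b) :
    |Ew w F| ≤ 2 * ((∑ a ∈ S, f a) * ∑ b ∈ S, h b) := by
  refine (hw.abs_le_abs hF).trans ?_
  refine (hw.le_two fun a b => mul_nonneg (hf a) (hh b)).trans (le_of_eq ?_)
  rw [sum_mul_sum]

/-- Cauchy–Schwarz -/
theorem Wt.cs (hw : Wt S w p) (f g : ι → ι → ℝ) :
    Ew w (fun a b => |f a b * g a b|) ≤
      √(Ew w fun a b => f a b ^ 2) * √(Ew w fun a b => g a b ^ 2) := by
  have key := Real.sum_mul_le_sqrt_mul_sqrt (univ : Finset (ι × ι))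
    (fun x => √(w x.1 x.2) * |f x.1 x.2|) (fun x => √(w x.1 x.2) * |g x.1 x.2|)
  have e1 : ∀ F : ι → ι → ℝ, ∑ x : ι × ι, (√(w x.1 x.2) * |F x.1 x.2|) ^ 2 =
      Ew w fun a b => F a b ^ 2 := by
    intro F
    unfold Ew
    rw [Fintype.sum_prod_type]
    refine sum_congr rfl fun a _ => sum_congr rfl fun b _ => ?_
    rw [mul_pow, Real.sq_sqrt (hw.nonneg a b), sq_abs]
  rw [e1, e1] at key
  refine le_trans (le_of_eq ?_) key
  unfold Ew
  rw [Fintype.sum_prod_type]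
  refine sum_congr rfl fun a _ => sum_congr rfl fun b _ => ?_
  have := Real.mul_self_sqrt (hw.nonneg a b)
  dsimp only
  rw [abs_mul]
  calc w a b * (|f a b| * |g a b|) = (√(w a b) * √(w a b)) * (|f a b| * |g a b|) := by rw [this]
    _ = _ := by ring

/-- Cauchy–Schwarz in the form used for the error terms -/
theorem Wt.cs_le (hw : Wt S w p) (f g : ι → ι → ℝ) {A B y : ℝ}
    (hA : Ew w (fun a b => f a b ^ 2) ≤ A) (hB : Ew w (fun a b => g a b ^ 2) ≤ B)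
    (h : A * B ≤ y ^ 2) (hy : 0 ≤ y) : Ew w (fun a b => |f a b * g a b|) ≤ y := by
  have hA0 : 0 ≤ Ew w (fun a b => f a b ^ 2) := hw.Ew_nonneg fun a b _ => sq_nonneg _
  refine (hw.cs f g).trans (le_trans ?_ (sqrt_mul_sqrt_le (hA0.trans hA) h hy))
  exact mul_le_mul (Real.sqrt_le_sqrt hA) (Real.sqrt_le_sqrt hB) (Real.sqrt_nonneg _)
    (Real.sqrt_nonneg _)

theorem Wt.sq_mat (hw : Wt S w p) (X : Mat ι) : Ew w (fun a b => X a b ^ 2) ≤ 2 * fro X := by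
  exact hw.le_two' fun a b => sq_nonneg _

theorem Wt.sq_prod (hw : Wt S w p) (f h : ι → ℝ) :
    Ew w (fun a b => (f a * h b) ^ 2) ≤ 2 * ((∑ a ∈ S, f a ^ 2) * ∑ b ∈ S, h b ^ 2) := by
  refine (hw.le_two fun a b => sq_nonneg _).trans (le_of_eq ?_)
  rw [sum_mul_sum]
  simp only [mul_pow]

theorem Wt.sub_eq (hw : Wt S w p) (F : ι → ι → ℝ) :
    Ew w F - ∑ a ∈ S, ∑ b ∈ S, F a b = -∑ a ∈ S, ∑ b ∈ S, (1 - w a b) * F a b := by
  rw [hw.eq_sum, ← sum_sub_distrib, ← sum_neg_distrib]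
  refine sum_congr rfl fun a _ => ?_
  rw [← sum_sub_distrib, ← sum_neg_distrib]
  exact sum_congr rfl fun b _ => by ring

theorem abs_sum_mul_le_sqrt {κ : Type} (T : Finset κ) (f g : κ → ℝ) :
    |∑ i ∈ T, f i * g i| ≤ √(∑ i ∈ T, f i ^ 2) * √(∑ i ∈ T, g i ^ 2) := by
  rw [abs_le]
  constructor
  · have := Real.sum_mul_le_sqrt_mul_sqrt T (fun i => -f i) g
    simp only [neg_mul, sum_neg_distrib, even_two, Even.neg_pow] at this
    linarith
  · exact Real.sum_mul_le_sqrt_mul_sqrt T f g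

theorem Wt.row_cs (hw : Wt S w p) (a : ι) (ha : a ∈ S) (h : ι → ℝ) :
    |∑ b ∈ S, (1 - w a b) * h b| ≤ p.κ2 * √(∑ b ∈ S, h b ^ 2) := by
  refine (abs_sum_mul_le_sqrt S _ _).trans (mul_le_mul_of_nonneg_right ?_ (Real.sqrt_nonneg _))
  exact Real.sqrt_le_iff.2 ⟨hw.κ20, hw.row a ha⟩

/-- T1 -/
theorem Wt.sep (hw : Wt S w p) (f h : ι → ℝ) :
    |Ew w (fun a b => f a * h b) - (∑ a ∈ S, f a) * ∑ b ∈ S, h b| ≤
      p.κ * √(∑ a ∈ S, f a ^ 2) * √(∑ b ∈ S, h b ^ 2) := by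
  rw [sum_mul_sum, hw.sub_eq, abs_neg]
  exact hw.op f h

/-- T2 -/
theorem Wt.sep1 (hw : Wt S w p) (f h : ι → ℝ) :
    |Ew w (fun a b => f a * h b) - (∑ a ∈ S, f a) * ∑ b ∈ S, h b| ≤
      p.κ2 * (∑ a ∈ S, |f a|) * √(∑ b ∈ S, h b ^ 2) := by
  rw [sum_mul_sum, hw.sub_eq, abs_neg]
  refine (abs_sum_le_sum_abs _ _).trans ?_
  rw [mul_sum, sum_mul]
  refine sum_le_sum fun a ha => ?_
  have e : ∑ b ∈ S, (1 - w a b) * (f a * h b) = f a * ∑ b ∈ S, (1 - w a b) * h b := by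
    rw [mul_sum]; exact sum_congr rfl fun b _ => by ring
  rw [e, abs_mul]
  calc |f a| * |∑ b ∈ S, (1 - w a b) * h b| ≤ |f a| * (p.κ2 * √(∑ b ∈ S, h b ^ 2)) :=
        mul_le_mul_of_nonneg_left (hw.row_cs a ha h) (abs_nonneg _)
    _ = _ := by ring

/-- T3: T1 for each `c`, then Cauchy–Schwarz in `c` -/
theorem Wt.inner (hw : Wt S w p) (X Y : Mat ι) :
    |Ew w (fun a b => (Xᵀ * Y) a b) - ∑ a ∈ S, ∑ b ∈ S, (Xᵀ * Y) a b| ≤
      p.κ * √(fro X) * √(fro Y) := by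
  rw [hw.sub_eq, abs_neg]
  have e : ∑ a ∈ S, ∑ b ∈ S, (1 - w a b) * (Xᵀ * Y) a b =
      ∑ c, ∑ a ∈ S, ∑ b ∈ S, (1 - w a b) * (X c a * Y c b) := by
    rw [sum_comm (s := univ)]
    refine sum_congr rfl fun a _ => ?_
    rw [sum_comm (s := univ)]
    refine sum_congr rfl fun b _ => ?_
    rw [Matrix.mul_apply, mul_sum]
    simp only [transpose_apply]
  rw [e]
  refine (abs_sum_le_sum_abs _ _).trans ?_
  refine (sum_le_sum fun c _ => hw.op (X c) (Y c)).trans ?_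
  simp only [mul_assoc]
  rw [← mul_sum]
  refine mul_le_mul_of_nonneg_left ?_ hw.κ0
  refine (Real.sum_mul_le_sqrt_mul_sqrt _ _ _).trans ?_
  have e2 : ∀ Z : Mat ι, √(∑ c, √(∑ a ∈ S, Z c a ^ 2) ^ 2) ≤ √(fro Z) := by
    intro Z
    refine Real.sqrt_le_sqrt (sum_le_sum fun c _ => ?_)
    rw [Real.sq_sqrt (sum_nonneg fun a _ => sq_nonneg _)]
    exact sum_le_sum_of_subset_of_nonneg (subset_univ S) fun a _ _ => sq_nonneg _
  exact mul_le_mul (e2 X) (e2 Y) (Real.sqrt_nonneg _) (Real.sqrt_nonneg _)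

/-- T4 -/
theorem Wt.mat (hw : Wt S w p) (X : Mat ι) :
    |Ew w (fun a b => X a b) - ∑ a ∈ S, ∑ b ∈ S, X a b| ≤ p.κ2 * √(S.card : ℝ) * √(fro X) := by
  rw [hw.sub_eq, abs_neg]
  refine (abs_sum_le_sum_abs _ _).trans ?_
  refine (sum_le_sum fun a ha => hw.row_cs a ha (X a)).trans ?_
  rw [← mul_sum, mul_assoc]
  refine mul_le_mul_of_nonneg_left ?_ hw.κ20
  have key := Real.sum_mul_le_sqrt_mul_sqrt S (fun _ => (1 : ℝ)) (fun a => √(∑ b ∈ S, X a b ^ 2))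
  simp only [one_mul, one_pow, sum_const, nsmul_eq_mul, mul_one] at key
  refine key.trans (mul_le_mul_of_nonneg_left (Real.sqrt_le_sqrt ?_) (Real.sqrt_nonneg _))
  refine le_trans (le_of_eq ?_) (sum_sum_le_univ S (f := fun a b => X a b ^ 2) fun a b => sq_nonneg _)
  exact sum_congr rfl fun a _ => Real.sq_sqrt (sum_nonneg fun b _ => sq_nonneg _)

/-- T5: row sums of `w` -/
theorem Wt.row_sum (hw : Wt S w p) (a : ι) (ha : a ∈ S) :
    |∑ b ∈ S, w a b - S.card| ≤ p.κ2 * √(S.card : ℝ) := by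
  have key := hw.row_cs a ha (fun _ => (1 : ℝ))
  simp only [mul_one, one_pow, sum_const, nsmul_eq_mul, sum_sub_distrib] at key
  rwa [abs_sub_comm]

theorem Wt.Z (hw : Wt S w p) : |Ew w (fun _ _ => 1) - (S.card : ℝ) ^ 2| ≤ p.κ * S.card := by
  have key := hw.sep (fun _ => (1 : ℝ)) (fun _ => (1 : ℝ))
  simp only [mul_one, one_pow, sum_const, nsmul_eq_mul] at key
  rw [mul_assoc, Real.mul_self_sqrt (Nat.cast_nonneg _)] at key
  rwa [sq]

theorem Wt.Z_le (hw : Wt S w p) : Ew w (fun _ _ => 1) ≤ 2 * (S.card : ℝ) ^ 2 := by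
  have key := hw.le_two (f := fun _ _ => (1 : ℝ)) fun _ _ => zero_le_one
  simp only [mul_one, sum_const, nsmul_eq_mul] at key
  rwa [sq]

end Wt

/-! ## The scalars of an allowed pair -/

/-- bounds for `h₀`, `j`, `g` -/
structure Scal (K : Mat ι) (s ε : ℝ) (a b : ι) : Prop where
  h0l : 24 / 25 ≤ h0 K s a b
  h0u : h0 K s a b ≤ 26 / 25
  jl : 24 / 25 ≤ jj K s a b
  ju : jj K s a b ≤ 21 / 20
  jh : jj K s a b * h0 K s a b = 1
  th0 : 0 ≤ th K a b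
  thε : th K a b ≤ 2 * ε
  j1 : |jj K s a b - 1| ≤ 3 * th K a b
  j2 : |jj K s a b - 1 - 2 * s * K a b| ≤ 8 * (K a b ^ 2 + |K a a * K b b|)
  g1 : |gg K s a b - s| ≤ 5 * th K a b
  gu : |gg K s a b| ≤ 1 + 10 * ε
  gl : 1 - 10 * ε ≤ |gg K s a b|
  gu' : |gg K s a b| ≤ 11 / 10
  g2 : |gg K s a b ^ 2 - 1| ≤ 11 * th K a b

theorem scal_aux {s ε r m h j g : ℝ} (hs : s = 1 ∨ s = -1) (hr : |r| ≤ ε) (hm : |m| ≤ ε)
    (hε : 100 * ε ≤ 1) (hh : h = (1 - s * r) ^ 2 - m) (hj : j = h⁻¹) (hg : g = (s - r) * j) :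
    24 / 25 ≤ h ∧ h ≤ 26 / 25 ∧ 24 / 25 ≤ j ∧ j ≤ 21 / 20 ∧ j * h = 1 ∧
      |j - 1| ≤ 3 * (|r| + |m|) ∧ |j - 1 - 2 * s * r| ≤ 8 * (r ^ 2 + |m|) ∧
      |g - s| ≤ 5 * (|r| + |m|) ∧ |g ^ 2 - 1| ≤ 11 * (|r| + |m|) := by
  have hs2 : s ^ 2 = 1 := by rcases hs with rfl | rfl <;> norm_num
  have hs1 : |s| = 1 := by rcases hs with rfl | rfl <;> simp
  have hr0 := abs_nonneg r
  have hm0 := abs_nonneg m
  have hr1 : |r| ≤ 1 / 100 := by linarith
  have hm1 : |m| ≤ 1 / 100 := by linarith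
  have hsr : |s * r| = |r| := by rw [abs_mul, hs1, one_mul]
  have hrr : r ^ 2 = |r| * |r| := by rw [← sq, sq_abs]
  have hr2 : r ^ 2 ≤ |r| / 100 := by rw [hrr]; nlinarith
  have hr20 : 0 ≤ r ^ 2 := sq_nonneg r
  have he : h - 1 = -2 * (s * r) + r ^ 2 - m := by
    rw [hh]; linear_combination (r ^ 2) * hs2
  have hsr1 := le_abs_self (s * r)
  have hsr2 := neg_abs_le (s * r)
  rw [hsr] at hsr1 hsr2
  have hm2 := le_abs_self m
  have hm3 := neg_abs_le m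
  have hd : |h - 1| ≤ 201 / 100 * |r| + |m| := by
    rw [abs_le, he]; constructor <;> linarith
  have hd' := abs_le.1 hd
  have hl : 24 / 25 ≤ h := by linarith [hd'.1]
  have hu : h ≤ 26 / 25 := by linarith [hd'.2]
  have hpos : 0 < h := by linarith
  have hjh : j * h = 1 := by rw [hj]; exact inv_mul_cancel₀ hpos.ne'
  have hj0 : 0 < j := by rw [hj]; positivity
  have hjl : 24 / 25 ≤ j := by
    by_contra hc
    push Not at hc
    nlinarith
  have hju : j ≤ 21 / 20 := by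
    by_contra hc
    push Not at hc
    nlinarith
  have hj1 : |j - 1| ≤ 3 * (|r| + |m|) := by
    have e : j - 1 = -(j * (h - 1)) := by linear_combination hjh
    rw [e, abs_neg, abs_mul, abs_of_pos hj0]
    calc j * |h - 1| ≤ 21 / 20 * (201 / 100 * |r| + |m|) :=
          mul_le_mul hju hd (abs_nonneg _) (by norm_num)
      _ ≤ _ := by linarith
  have hj2 : |j - 1 - 2 * s * r| ≤ 8 * (r ^ 2 + |m|) := by
    have e : j - 1 - 2 * s * r = j * (3 * r ^ 2 + m - 2 * (s * r) * r ^ 2 + 2 * (s * r) * m) := by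
      have e1 : h * (1 + 2 * s * r) = 1 - (3 * r ^ 2 + m - 2 * (s * r) * r ^ 2 + 2 * (s * r) * m) := by
        have : h = 1 - 2 * (s * r) + r ^ 2 - m := by linarith
        rw [this]; linear_combination (-4 * r ^ 2) * hs2
      linear_combination (1 + 2 * s * r) * hjh - j * e1
    have b1 : |2 * (s * r) * r ^ 2| ≤ r ^ 2 := by
      rw [abs_mul, abs_mul, hsr, abs_of_nonneg hr20, abs_two]; nlinarith
    have b2 : |2 * (s * r) * m| ≤ |m| := by
      rw [abs_mul, abs_mul, hsr, abs_two]; nlinarith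
    have b1' := abs_le.1 b1
    have b2' := abs_le.1 b2
    have b3 : |3 * r ^ 2 + m - 2 * (s * r) * r ^ 2 + 2 * (s * r) * m| ≤ 4 * r ^ 2 + 2 * |m| := by
      rw [abs_le]; constructor <;> linarith [b1'.1, b1'.2, b2'.1, b2'.2]
    rw [e, abs_mul, abs_of_pos hj0]
    calc j * _ ≤ 21 / 20 * (4 * r ^ 2 + 2 * |m|) :=
          mul_le_mul hju b3 (abs_nonneg _) (by norm_num)
      _ ≤ _ := by linarith
  have hg1 : |g - s| ≤ 5 * (|r| + |m|) := by
    have e : g - s = s * (j - 1) - r * j := by rw [hg]; ring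
    have b1 : |s * (j - 1)| ≤ 3 * (|r| + |m|) := by rw [abs_mul, hs1, one_mul]; exact hj1
    have b2 : |r * j| ≤ 2 * |r| := by rw [abs_mul, abs_of_pos hj0]; nlinarith
    rw [e]
    refine (abs_sub _ _).trans ?_
    linarith
  have hg2 : |g ^ 2 - 1| ≤ 11 * (|r| + |m|) := by
    have e : g ^ 2 - 1 = (g - s) * ((g - s) + 2 * s) := by linear_combination hs2
    have b1 : |(g - s) + 2 * s| ≤ 21 / 10 := by
      refine (abs_add_le _ _).trans ?_
      rw [abs_mul, hs1, abs_two]; linarith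
    rw [e, abs_mul]
    calc |g - s| * _ ≤ 5 * (|r| + |m|) * (21 / 10) :=
          mul_le_mul hg1 b1 (abs_nonneg _) (by positivity)
      _ ≤ _ := by linarith
  exact ⟨hl, hu, hjl, hju, hjh, hj1, hj2, hg1, hg2⟩

/-- `|h₀ - 1| ≤ 2|r| + r² + |α β|`; `h₀ (1 + 2 s r) = 1 - 3 r² - α β + 2 s r³ - 2 s r α β`;
`g - s = s (j - 1) - r j` -/
theorem scal_of {K : Mat ι} {s ε : ℝ} {a b : ι} (hs : s = 1 ∨ s = -1) (hr : |K a b| ≤ ε)
    (hab : |K a a * K b b| ≤ ε) (hε : 100 * ε ≤ 1) : Scal K s ε a b := by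
  have key := scal_aux (r := K a b) (m := K a a * K b b) (h := h0 K s a b) (j := jj K s a b)
    (g := gg K s a b) hs hr hab hε rfl rfl rfl
  obtain ⟨k1, k2, k3, k4, k5, k6, k7, k8, k9⟩ := key
  have hth : th K a b = |K a b| + |K a a * K b b| := rfl
  have hthε : th K a b ≤ 2 * ε := by rw [hth]; linarith
  have hs1 : |s| = 1 := by rcases hs with rfl | rfl <;> simp
  have hg1 : |gg K s a b - s| ≤ 5 * th K a b := by rw [hth]; exact k8
  have hgu : |gg K s a b| ≤ 1 + 10 * ε := by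
    have := abs_sub_abs_le_abs_sub (gg K s a b) s
    linarith
  have hgl : 1 - 10 * ε ≤ |gg K s a b| := by
    have := abs_sub_abs_le_abs_sub s (gg K s a b)
    rw [abs_sub_comm] at this
    linarith
  exact ⟨k1, k2, k3, k4, k5, by rw [hth]; positivity, hthε, by rw [hth]; exact k6, k7, hg1, hgu, hgl,
    by linarith, by rw [hth]; exact k9⟩

theorem Alw2.left {A B : Mat ι} {p : Par} {a b : ι} (h : Alw2 A B p a b)
    (hA : ∀ c, 0 ≤ bb A c) (hB : ∀ c, 0 ≤ bb B c) : Alw A p a b := by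
  have t1 : ∀ c, 1 + bb A c ≤ tt A B c := fun c => by unfold tt; linarith [hB c]
  have t0 : ∀ c, 0 ≤ 1 + bb A c := fun c => by linarith [hA c]
  refine ⟨h.ne, h.rA, h.abA, le_trans ?_ h.tt2, le_trans ?_ h.alA, le_trans ?_ h.beA⟩
  · exact mul_le_mul (t1 a) (t1 b) (t0 b) ((t0 a).trans (t1 a))
  · exact mul_le_mul_of_nonneg_left (t1 b) (abs_nonneg _)
  · exact mul_le_mul_of_nonneg_left (t1 a) (abs_nonneg _)

theorem Alw2.right {A B : Mat ι} {p : Par} {a b : ι} (h : Alw2 A B p a b)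
    (hA : ∀ c, 0 ≤ bb A c) (hB : ∀ c, 0 ≤ bb B c) : Alw B p a b := by
  have t1 : ∀ c, 1 + bb B c ≤ tt A B c := fun c => by unfold tt; linarith [hA c]
  have t0 : ∀ c, 0 ≤ 1 + bb B c := fun c => by linarith [hB c]
  refine ⟨h.ne, h.rB, h.abB, le_trans ?_ h.tt2, le_trans ?_ h.alB, le_trans ?_ h.beB⟩
  · exact mul_le_mul (t1 a) (t1 b) (t0 b) ((t0 a).trans (t1 a))
  · exact mul_le_mul_of_nonneg_left (t1 b) (abs_nonneg _)
  · exact mul_le_mul_of_nonneg_left (t1 a) (abs_nonneg _)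

theorem WtK.scal {S : Finset ι} {w : ι → ι → ℝ} {K : Mat ι} {s : ℝ} {p : Par} (hk : WtK S w K s p)
    (h : Side S K s) (hg : Glob p) {a b : ι} (hab : w a b ≠ 0) : Scal K s p.ε a b := by
  exact scal_of h.sgn (hk.alw a b hab).r (hk.alw a b hab).ab hg.H10

/-- `ϑ² ≤ 2 r² + 2 α² β²` -/
theorem Ew_th_sq {S : Finset ι} {w : ι → ι → ℝ} {K : Mat ι} {s : ℝ} {p : Par} (h : Bnd S K s p)
    (hw : Wt S w p) : Ew w (fun a b => th K a b ^ 2) ≤ 4 * p.q2 := by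
  have h1 : Ew w (fun a b => th K a b ^ 2) ≤
      Ew w (fun a b => 2 * K a b ^ 2 + 2 * (K a a * K b b) ^ 2) := by
    refine hw.mono fun a b _ => ?_
    unfold th
    rw [← sq_abs (K a b), ← sq_abs (K a a * K b b)]
    nlinarith [sq_nonneg (|K a b| - |K a a * K b b|)]
  rw [Ew_add, Ew_mul, Ew_mul] at h1
  have h2 := hw.sq_mat K
  have h3 := hw.sq_prod (fun a => K a a) (fun a => K a a)
  have h4 := h.fro_one
  have h5 : ∑ a ∈ S, K a a ^ 2 ≤ p.δ :=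
    (sum_le_sum_of_subset_of_nonneg (subset_univ S) fun a _ _ => sq_nonneg _).trans h.sum_diag_sq
  have h6 : 0 ≤ ∑ a ∈ S, K a a ^ 2 := sum_nonneg fun a _ => sq_nonneg _
  have h7 : (∑ a ∈ S, K a a ^ 2) * ∑ a ∈ S, K a a ^ 2 ≤ p.δ ^ 2 := by
    rw [sq p.δ]; exact mul_le_mul h5 h5 h6 (h6.trans h5)
  unfold Par.q2
  linarith

end Crest.Agent.R62
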